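import Mathlib
import Crest.Agent.R136.XA1_248
import Crest.Agent.R136.Dia4_770
import Crest.Agent.R136.Ste1_163

/-!
# R136 (helper163): steering, mesh induction (part 1: tools)

* `GR` : the geometry with test sets in range of the top widths.
* `pow_ge`, `pow_le` : `2^(β (l - lo))` against `d^(-β v)`.
* `pop_cell` : a dense part in one cell.
* `base_mkS` : the marked sequence with the single level `1`.
-/

set_option autoImplicit false
set_option linter.unusedVariables false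
set_option linter.unusedSectionVars false

open Finset Filter Topology

namespace Crest.Agent.R136.Ste163

open Crest.Agent.R138.Ex926 Crest.Agent.R138.Dp76 Crest.Agent.R138.Ps627
open Crest.Agent.R138.Ps926 (dpow_small)
open Crest.Agent.R138.Mk163 (zc zl rho alive own)
open Crest.Agent.R138.MkRef627 (lc kc own_one alive_mono mem_alive card_class own_lower)
open MkA627 (Geo MkA ampA)
open XA248 Dia770

variable {σ κ : Type} [Fintype κ]

/-- the geometry with test sets in range of the top widths -/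
def GR (G : Geo σ κ) (R : Rel κ) (hi : ℕ → ℕ) (wt : ℕ → κ → ℝ) : Geo σ κ where
  mem := G.mem
  adm := fun n i J s => G.adm n i J s ∧ R i (wv G s) (hi n) (wt n)
  val := G.val
  wid := G.wid

theorem valx_zero (G : Geo σ κ) (n i : ℕ) (J : ℤ) (s : σ) : valx G 0 n i J s = G.val n i J s := by
  unfold valx rew
  simp

section conv

variable {B : Base} {lo hi : ℕ → ℕ}

theorem L_eq (hbase : ∀ n, B.d n = (1 / 2 : ℝ) ^ (hi n - lo n)) (hlh : ∀ n, lo n < hi n) (n : ℕ) :
    B.L n = ((hi n : ℝ) - lo n) * Real.log 2 := by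
  unfold Base.L
  rw [hbase n, Real.log_pow, one_div, Real.log_inv, Nat.cast_sub (hlh n).le]
  ring

theorem len_pos (hlh : ∀ n, lo n < hi n) (n : ℕ) : (0:ℝ) < (hi n : ℝ) - lo n := by
  have : ((lo n : ℕ) : ℝ) < (hi n : ℝ) := by exact_mod_cast hlh n
  linarith

theorem two_pow_eq (hbase : ∀ n, B.d n = (1 / 2 : ℝ) ^ (hi n - lo n)) (hlh : ∀ n, lo n < hi n)
    (n : ℕ) (t : ℝ) : (2:ℝ) ^ (t * ((hi n : ℝ) - lo n)) = B.d n ^ (-t) := by
  rw [Real.rpow_def_of_pos (by norm_num), Real.rpow_def_of_pos (B.pos n)]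
  congr 1
  have := L_eq hbase hlh n
  unfold Base.L at this
  have h2 : Real.log (B.d n) = -(((hi n : ℝ) - lo n) * Real.log 2) := by linarith
  rw [h2]
  ring

/-- powers of `2` against powers of `d` -/
theorem pow_bd (hbase : ∀ n, B.d n = (1 / 2 : ℝ) ^ (hi n - lo n)) (hlh : ∀ n, lo n < hi n)
    {l : ℕ → ℕ} {v : ℝ}
    (hl : Tendsto (fun n => ((l n : ℝ) - lo n) / ((hi n : ℝ) - lo n)) U (𝓝 v)) (β : ℝ)
    {ε : ℝ} (hε : 0 < ε) : ∀ᶠ n in (U : Filter ℕ),
      B.d n ^ (-(β * v) + ε) ≤ (2:ℝ) ^ (β * ((l n : ℝ) - lo n)) ∧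
      (2:ℝ) ^ (β * ((l n : ℝ) - lo n)) ≤ B.d n ^ (-(β * v) - ε) := by
  have h1 : Tendsto (fun n => β * (((l n : ℝ) - lo n) / ((hi n : ℝ) - lo n))) U (𝓝 (β * v)) :=
    hl.const_mul β
  have h2 := h1.eventually (Ioo_mem_nhds (show β * v - ε < β * v by linarith)
    (show β * v < β * v + ε by linarith))
  filter_upwards [h2] with n hn
  have hp := len_pos hlh n
  have e1 : (2:ℝ) ^ (β * ((l n : ℝ) - lo n)) =
      B.d n ^ (-(β * (((l n : ℝ) - lo n) / ((hi n : ℝ) - lo n)))) := by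
    rw [← two_pow_eq hbase hlh]
    congr 1
    field_simp
  rw [e1]
  constructor
  · exact dpow_le B n (by linarith [hn.2])
  · exact dpow_le B n (by linarith [hn.1])

theorem lim_hi (hbase : ∀ n, B.d n = (1 / 2 : ℝ) ^ (hi n - lo n)) (hlh : ∀ n, lo n < hi n)
    {l : ℕ → ℕ} {v : ℝ}
    (hl : Tendsto (fun n => ((l n : ℝ) - lo n) / ((hi n : ℝ) - lo n)) U (𝓝 v)) :
    Tendsto (fun n => ((hi n : ℝ) - l n) * Real.log 2 / B.L n) U (𝓝 (1 - v)) := by
  have h1 : (fun n => ((hi n : ℝ) - l n) * Real.log 2 / B.L n) =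
      fun n => 1 - ((l n : ℝ) - lo n) / ((hi n : ℝ) - lo n) := by
    funext n
    rw [L_eq hbase hlh n]
    have hp := len_pos hlh n
    have hlog : (0:ℝ) < Real.log 2 := Real.log_pos one_lt_two
    field_simp
    ring
  rw [h1]
  exact tendsto_const_nhds.sub hl

end conv

/-! ### popular cell -/

theorem own_cell {F : Finset (ℕ × ℝ)} {i j : ℕ} {c : ℤ} {x : ℕ × ℝ} (hx : zc i x.2 = c) :
    own (F.filter fun y => zc i y.2 = c) i j x = own F i j x := by
  classical
  unfold own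
  congr 1
  ext y
  simp only [mem_filter]
  constructor
  · rintro ⟨⟨h1, h2⟩, h3⟩
    exact ⟨h1, h3⟩
  · rintro ⟨h1, h2, h3⟩
    exact ⟨⟨h1, h3.trans hx⟩, h2, h3⟩

open Classical in
/-- the incidences of one cell of level `a` lie in at most `2^(b-a)` cells of level `b` -/
theorem card_cells {F : Finset (ℕ × ℝ)} {a b : ℕ} (hab : a ≤ b)
    (h : ∀ x ∈ F, ∀ y ∈ F, zc a x.2 = zc a y.2) :
    (F.image fun x => zc b x.2).card ≤ 2 ^ (b - a) := by
  rcases F.eq_empty_or_nonempty with h0 | ⟨x0, hx0⟩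
  · subst h0; simp
  · have hsub : (F.image fun x => zc b x.2) ⊆
        Ico ((2:ℤ) ^ (b - a) * zc a x0.2) (2 ^ (b - a) * (zc a x0.2 + 1)) := by
      intro k hk
      obtain ⟨y, hy, rfl⟩ := mem_image.1 hk
      have hz := h y hy x0 hx0
      rw [← hz]
      have hp : (0:ℝ) < 2 ^ (b - a) := by positivity
      have e : (2:ℝ) ^ b = 2 ^ (b - a) * 2 ^ a := by
        rw [← pow_add]; congr 1; omega
      have h1 := Int.floor_le ((2:ℝ) ^ a * y.2)
      have h2 := Int.lt_floor_add_one ((2:ℝ) ^ a * y.2)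
      rw [mem_Ico]
      unfold zc
      constructor
      · rw [Int.le_floor]
        push_cast
        rw [e, mul_assoc]
        exact mul_le_mul_of_nonneg_left h1 hp.le
      · rw [Int.floor_lt]
        push_cast
        rw [e, mul_assoc]
        exact mul_lt_mul_of_pos_left h2 hp
    refine (card_le_card hsub).trans (le_of_eq ?_)
    rw [Int.card_Ico]
    have h3 : (2:ℤ) ^ (b - a) * (zc a x0.2 + 1) - 2 ^ (b - a) * zc a x0.2 = 2 ^ (b - a) := by ring
    rw [h3]
    have : (2:ℤ) ^ (b - a) = ((2 ^ (b - a) : ℕ) : ℤ) := by push_cast; rfl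
    rw [this, Int.toNat_natCast]

/-- **a dense part in one cell of level `l n`**, if `l n - lo n` is sub-polynomial. -/
theorem pop_cell {B : Base} {lo hi l : ℕ → ℕ}
    (hbase : ∀ n, B.d n = (1 / 2 : ℝ) ^ (hi n - lo n)) (hlh : ∀ n, lo n < hi n)
    (hl : Tendsto (fun n => ((l n : ℝ) - lo n) / ((hi n : ℝ) - lo n)) U (𝓝 0))
    (hlo : ∀ᶠ n in (U : Filter ℕ), lo n ≤ l n) {J : ℕ → Finset (ℕ × ℝ)}
    (hne : ∀ᶠ n in (U : Filter ℕ), (J n).Nonempty)
    (hc : ∀ᶠ n in (U : Filter ℕ), ∀ x ∈ J n, ∀ y ∈ J n, zc (lo n) x.2 = zc (lo n) y.2) :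
    ∃ c : ℕ → ℤ, Dense B (fun n => (J n).filter fun x => zc (l n) x.2 = c n) J := by
  classical
  have key : ∀ n, ∃ c : ℤ, (J n).Nonempty → (J n).card ≤
      ((J n).image fun x => zc (l n) x.2).card * ((J n).filter fun x => zc (l n) x.2 = c).card := by
    intro n
    by_cases h : (J n).Nonempty
    · have hne' : ((J n).image fun x => zc (l n) x.2).Nonempty := h.image _
      obtain ⟨c, hc, hmax⟩ := exists_max_image ((J n).image fun x => zc (l n) x.2)
        (fun c => ((J n).filter fun x => zc (l n) x.2 = c).card) hne'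
      refine ⟨c, fun _ => ?_⟩
      have h1 := card_eq_sum_card_image (fun x : ℕ × ℝ => zc (l n) x.2) (J n)
      rw [h1]
      refine (sum_le_card_nsmul _ _ _ fun b hb => hmax b hb).trans ?_
      rw [smul_eq_mul]
    · exact ⟨0, fun h' => absurd h' h⟩
  choose c hc' using key
  refine ⟨c, Eventually.of_forall fun n => filter_subset _ _, fun η hη => ?_⟩
  have h2 := pow_bd hbase hlh hl 1 hη
  filter_upwards [h2, hlo, hne, hc] with n a1 a2 a3 a4
  have h3 := hc' n a3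
  have h4 := card_cells a2 a4
  have h5 : ((J n).card : ℝ) ≤ 2 ^ (l n - lo n) *
      (((J n).filter fun x => zc (l n) x.2 = c n).card : ℝ) := by
    have : (J n).card ≤ 2 ^ (l n - lo n) * ((J n).filter fun x => zc (l n) x.2 = c n).card :=
      h3.trans (Nat.mul_le_mul_right _ h4)
    exact_mod_cast this
  have h6 : (2:ℝ) ^ (l n - lo n) ≤ B.d n ^ (-η) := by
    have h7 := a1.2
    have e1 : (2:ℝ) ^ (1 * ((l n : ℝ) - lo n)) = (2:ℝ) ^ (l n - lo n) := by
      rw [one_mul, ← Nat.cast_sub a2, Real.rpow_natCast]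
    rw [e1] at h7
    simpa using h7
  have h8 : ((J n).card : ℝ) ≤ B.d n ^ (-η) *
      (((J n).filter fun x => zc (l n) x.2 = c n).card : ℝ) :=
    h5.trans (mul_le_mul_of_nonneg_right h6 (Nat.cast_nonneg _))
  calc B.d n ^ η * ((J n).card : ℝ)
      ≤ B.d n ^ η * (B.d n ^ (-η) * (((J n).filter fun x => zc (l n) x.2 = c n).card : ℝ)) :=
        mul_le_mul_of_nonneg_left h8 (dpow_pos B n _).le
    _ = _ := by rw [← mul_assoc, ← dpow_add]; simp

/-! ### monotonicity of the data in the family -/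

theorem alive_sub {J' J : Finset (ℕ × ℝ)} (h : J' ⊆ J) (i : ℕ) (c : ℤ) :
    alive J' i c ⊆ alive J i c := alive_mono h i c

theorem isCl_mono {G : Geo σ κ} {n j : ℕ} {F F' : Finset (ℕ × ℝ)} {c : ℕ → ℤ → ℕ} {b : ℕ → σ}
    {w : κ → ℝ} (h : IsCl G n j F c b w) (hs : F' ⊆ F) : IsCl G n j F' c b w :=
  fun J t ht => h J t (alive_sub hs _ _ ht)

open Classical in
theorem up_mono {G : Geo σ κ} {R : Rel κ} {x : κ → ℝ} {n i : ℕ} {F F' : Finset (ℕ × ℝ)} {j : ℕ}
    {w : κ → ℝ} {D : ℝ} (h : Up G R x n i F j w D) (hs : F' ⊆ F) : Up G R x n i F' j w D := by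
  intro J s hs' hR
  refine le_trans ?_ (h J s hs' hR)
  exact_mod_cast card_le_card (filter_subset_filter _ (alive_sub hs _ _))

theorem dmaxAll_mono {B : Base} {J J' : ℕ → Finset (ℕ × ℝ)} {G : Geo σ κ} {R : Rel κ}
    {lo hi : ℕ → ℕ} {D0 : ℕ → ℝ} {β : ℝ} {wt : ℕ → κ → ℝ}
    (h : DMaxAll B J G R lo hi D0 β wt) (hs : ∀ᶠ n in (U : Filter ℕ), J' n ⊆ J n) :
    DMaxAll B J' G R lo hi D0 β wt := by
  intro ε hε
  filter_upwards [h ε hε, hs] with n a b i h1 h2
  exact up_mono (a i h1 h2) b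

/-- dense parts of a family inside a third one -/
theorem rho_pos' (i : ℕ) : 0 < rho i := by unfold rho; positivity

/-! ### near-maximal classes and full shading at the same time -/

theorem own_filter_lc {F : Finset (ℕ × ℝ)} {i j : ℕ} {P : ℕ × ℤ → Prop} [DecidablePred P]
    {x : ℕ × ℝ} (hx : P (lc i x)) :
    own (F.filter fun y => P (lc i y)) i j x = own F i j x := by
  classical
  unfold own
  congr 1
  ext y
  simp only [mem_filter]
  constructor
  · rintro ⟨⟨h1, h2⟩, h3⟩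
    exact ⟨h1, h3⟩
  · rintro ⟨h1, h2, h3⟩
    refine ⟨⟨h1, ?_⟩, h2, h3⟩
    have : lc i y = lc i x := by unfold lc; rw [h2, h3]
    rw [this]; exact hx

open Classical in
/-- number of incidences from above: at most `2^(j-i)` per (line, cell of level `i`) -/
theorem card_le_ob {F : Finset (ℕ × ℝ)} {i j : ℕ} (hij : i ≤ j)
    (one : ∀ x ∈ F, ∀ y ∈ F, x.1 = y.1 → zc j x.2 = zc j y.2 → x = y) :
    (F.card : ℝ) ≤ 2 ^ (j - i) * ((F.image (lc i)).card : ℝ) := by
  have h1 : (F.image (lc j)).card = F.card := by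
    refine card_image_of_injOn fun x hx y hy h => ?_
    unfold lc at h
    exact one x hx y hy (Prod.mk.inj h).1 (Prod.mk.inj h).2
  have h2 := image_lc_le F hij
  rw [h1] at h2
  exact_mod_cast h2

open Classical in
theorem near_full {B : Base} {I J1 J2 : ℕ → Finset (ℕ × ℝ)} {lo hi l : ℕ → ℕ}
    {c : ℕ → ℕ → ℤ → ℕ} {K : ℕ → ℝ} (hlh : ∀ n, lo n < hi n)
    (hone : ∀ᶠ n in (U : Filter ℕ), ∀ x ∈ I n, ∀ y ∈ I n, x.1 = y.1 →
      zc (hi n) x.2 = zc (hi n) y.2 → x = y)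
    (hownI : ∀ ε : ℝ, 0 < ε → ∀ᶠ n in (U : Filter ℕ), ∀ x ∈ I n,
      B.d n ^ ε * 2 ^ (hi n - lo n) ≤ ((own (I n) (lo n) (hi n) x).card : ℝ))
    (h1 : ∀ n, J1 n ⊆ I n) (h2 : ∀ n, J2 n ⊆ J1 n) (hd : Dense B J2 I)
    (hlo : ∀ᶠ n in (U : Filter ℕ), lo n ≤ l n) (hhi : ∀ᶠ n in (U : Filter ℕ), l n ≤ hi n)
    (hown2 : ∀ ε : ℝ, 0 < ε → ∀ᶠ n in (U : Filter ℕ), ∀ x ∈ J2 n,
      B.d n ^ ε * 2 ^ (hi n - l n) ≤ ((own (J2 n) (l n) (hi n) x).card : ℝ))
    (hK : ∀ ε : ℝ, 0 < ε → ∀ᶠ n in (U : Filter ℕ), ∀ c' : ℤ, ∀ t ∈ alive (J1 n) (l n) c',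
      K n ≤ B.d n ^ (-ε) *
        (((alive (J1 n) (l n) c').filter fun s => c n s c' = c n t c').card : ℝ)) :
    ∃ J3 : ℕ → Finset (ℕ × ℝ), (∀ n, J3 n ⊆ J2 n) ∧ Dense B J3 J2 ∧
      (∀ n, ∀ x ∈ J3 n, own (J3 n) (l n) (hi n) x = own (J2 n) (l n) (hi n) x) ∧
      ∀ ε : ℝ, 0 < ε → ∀ᶠ n in (U : Filter ℕ), ∀ c' : ℤ, ∀ t ∈ alive (J3 n) (l n) c',
        K n ≤ B.d n ^ (-ε) *
          (((alive (J3 n) (l n) c').filter fun s => c n s c' = c n t c').card : ℝ) := by
  set ob1 : ℕ → Finset (ℕ × ℤ) := fun n => (J1 n).image (lc (l n)) with hob1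
  set ob2 : ℕ → Finset (ℕ × ℤ) := fun n => (J2 n).image (lc (l n)) with hob2
  have hone2 : ∀ᶠ n in (U : Filter ℕ), ∀ x ∈ J2 n, ∀ y ∈ J2 n, x.1 = y.1 →
      zc (hi n) x.2 = zc (hi n) y.2 → x = y := by
    filter_upwards [hone] with n hn x hx y hy
    exact hn x (h1 n (h2 n hx)) y (h1 n (h2 n hy))
  have hdob : Dense B ob2 ob1 := by
    refine ⟨Eventually.of_forall fun n => image_subset_image (h2 n), fun η hη => ?_⟩
    have h3 : 0 < η / 3 := by linarith
    filter_upwards [hownI (η / 3) h3, hd.2 (η / 3) h3, hone2, hlo, hhi] with n a1 a2 a3 a4 a5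
    have b1 := card_ge_own (l0 := lo n) (l1 := hi n) (by have := dpow_pos B n (η / 3); positivity) a1
    have b2 : ((ob1 n).card : ℝ) ≤ 2 ^ (l n - lo n) * (((I n).image (lc (lo n))).card : ℝ) := by
      have := (card_le_card (image_subset_image (f := lc (l n)) (h1 n))).trans
        (image_lc_le (I n) a4)
      exact_mod_cast this
    have b3 : ((J2 n).card : ℝ) ≤ 2 ^ (hi n - l n) * ((ob2 n).card : ℝ) := card_le_ob a5 a3
    have e1 : (2:ℝ) ^ (hi n - lo n) = 2 ^ (hi n - l n) * 2 ^ (l n - lo n) := by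
      rw [← pow_add]; congr 1; omega
    have hp : (0:ℝ) < 2 ^ (hi n - l n) := by positivity
    have q1 := dpow_pos B n (η / 3)
    have b4 : B.d n ^ (η / 3) * (B.d n ^ (η / 3) * (2 ^ (hi n - l n) * 2 ^ (l n - lo n)) *
        (((I n).image (lc (lo n))).card : ℝ)) ≤ 2 ^ (hi n - l n) * ((ob2 n).card : ℝ) := by
      rw [← e1]
      exact (mul_le_mul_of_nonneg_left b1 q1.le).trans (a2.trans b3)
    have b5 : 2 ^ (hi n - l n) * (B.d n ^ (η / 3) * (B.d n ^ (η / 3) * ((ob1 n).card : ℝ))) ≤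
        2 ^ (hi n - l n) * ((ob2 n).card : ℝ) := by
      refine le_trans ?_ b4
      have : B.d n ^ (η / 3) * (B.d n ^ (η / 3) * (2 ^ (hi n - l n) * 2 ^ (l n - lo n)) *
          (((I n).image (lc (lo n))).card : ℝ)) = 2 ^ (hi n - l n) * (B.d n ^ (η / 3) *
          (B.d n ^ (η / 3) * (2 ^ (l n - lo n) * (((I n).image (lc (lo n))).card : ℝ)))) := by ring
      rw [this]
      gcongr
    have b6 := le_of_mul_le_mul_left b5 hp
    refine le_trans ?_ b6
    rw [← mul_assoc, ← dpow_add]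
    exact mul_le_mul_of_nonneg_right (dpow_le B n (by linarith)) (Nat.cast_nonneg _)
  obtain ⟨ob3, hsub3, hhalf3, hfib3⟩ := prune_seq (η := fun _ _ => ℕ × ℤ) hdob
    (fun (_ : ℕ) n (o : ℕ × ℤ) => (c n o.1 o.2, o.2))
  set J3 : ℕ → Finset (ℕ × ℝ) := fun n => (J2 n).filter fun x => lc (l n) x ∈ ob3 n with hJ3
  have him : ∀ n, (J3 n).image (lc (l n)) = ob3 n := by
    intro n
    ext o
    constructor
    · intro ho
      obtain ⟨x, hx, rfl⟩ := mem_image.1 ho
      exact (mem_filter.1 hx).2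
    · intro ho
      obtain ⟨x, hx, rfl⟩ := mem_image.1 ((hsub3 n).1 ho)
      exact mem_image_of_mem _ (mem_filter.2 ⟨hx, ho⟩)
  have hown3 : ∀ n, ∀ x ∈ J3 n, own (J3 n) (l n) (hi n) x = own (J2 n) (l n) (hi n) x := by
    intro n x hx
    exact own_filter_lc (P := fun o => o ∈ ob3 n) (mem_filter.1 hx).2
  refine ⟨J3, fun n => filter_subset _ _, ⟨Eventually.of_forall fun n => filter_subset _ _,
    fun η hη => ?_⟩, hown3, fun ε hε => ?_⟩
  · have h3 : 0 < η / 2 := by linarith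
    filter_upwards [hown2 (η / 2) h3, hone2, hhi, hhalf3, dpow_small B h3 (ε := 1 / 2) (by norm_num)]
      with n a1 a2 a3 a4 a5
    have b1 := card_ge_own (I := J3 n) (l0 := l n) (l1 := hi n)
      (m := B.d n ^ (η / 2) * 2 ^ (hi n - l n)) (by have := dpow_pos B n (η / 2); positivity)
      (fun x hx => by rw [hown3 n x hx]; exact a1 x (filter_subset _ _ hx))
    rw [him n] at b1
    have b2 := card_le_ob a3 a2
    have hp : (0:ℝ) < 2 ^ (hi n - l n) := by positivity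
    have q1 := dpow_pos B n (η / 2)
    have b3 : ((J2 n).card : ℝ) ≤ 2 ^ (hi n - l n) * (2 * ((ob3 n).card : ℝ)) :=
      b2.trans (mul_le_mul_of_nonneg_left a4 hp.le)
    have e1 : B.d n ^ η = B.d n ^ (η / 2) * B.d n ^ (η / 2) := by
      rw [← dpow_add]; congr 1; ring
    calc B.d n ^ η * ((J2 n).card : ℝ)
        ≤ B.d n ^ η * (2 ^ (hi n - l n) * (2 * ((ob3 n).card : ℝ))) :=
          mul_le_mul_of_nonneg_left b3 (dpow_pos B n _).le
      _ = (2 * B.d n ^ (η / 2)) * (B.d n ^ (η / 2) * 2 ^ (hi n - l n) * ((ob3 n).card : ℝ)) := by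
          rw [e1]; ring
      _ ≤ 1 * (B.d n ^ (η / 2) * 2 ^ (hi n - l n) * ((ob3 n).card : ℝ)) := by
          refine mul_le_mul_of_nonneg_right (by linarith) (by positivity)
      _ ≤ _ := by rw [one_mul]; exact b1
  · have h3 : 0 < ε / 2 := by linarith
    filter_upwards [hK (ε / 2) h3, hfib3 0 (ε / 2) h3] with n a1 a2 c' t ht
    obtain ⟨x, hx, hx1, hx2⟩ := mem_alive.1 ht
    have hxo : lc (l n) x = (t, c') := by unfold lc; rw [hx1, hx2]
    have ho3 : (t, c') ∈ ob3 n := by rw [← hxo]; exact (mem_filter.1 hx).2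
    have ht1 : t ∈ alive (J1 n) (l n) c' :=
      mem_alive.2 ⟨x, h2 n (mem_filter.1 hx).1, hx1, hx2⟩
    have b1 := a1 c' t ht1
    have b2 := a2 (t, c') ho3
    have hset : ∀ F : Finset (ℕ × ℤ), (F.filter fun o => (c n o.1 o.2, o.2) = (c n t c', c')) =
        F.filter fun o => o.2 = c' ∧ (fun s => c n s c') o.1 = c n t c' := by
      intro F
      refine filter_congr fun o _ => ?_
      simp only [Prod.mk.injEq]
      constructor
      · rintro ⟨q1, q2⟩
        exact ⟨q2, by rw [← q1, q2]⟩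
      · rintro ⟨q1, q2⟩
        exact ⟨by rw [q1]; exact q2, q1⟩
    have b3 : B.d n ^ (ε / 2) * (((alive (J1 n) (l n) c').filter fun s =>
        c n s c' = c n t c').card : ℝ) ≤
        (((alive (J3 n) (l n) c').filter fun s => c n s c' = c n t c').card : ℝ) := by
      have c1 := card_class (J1 n) (l n) c' (fun s => c n s c') (c n t c')
      have c2 := card_class (J3 n) (l n) c' (fun s => c n s c') (c n t c')
      rw [him n] at c2
      have b2' : B.d n ^ (ε / 2) * ((((J1 n).image (lc (l n))).filter fun o =>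
          (c n o.1 o.2, o.2) = (c n t c', c')).card : ℝ) ≤
          (((ob3 n).filter fun o => (c n o.1 o.2, o.2) = (c n t c', c')).card : ℝ) := by
        convert b2
      rw [hset, hset] at b2'
      rw [c1, c2]
      exact b2'
    have e1 : B.d n ^ (-ε) = B.d n ^ (-(ε / 2)) * B.d n ^ (-(ε / 2)) := by
      rw [← dpow_add]; congr 1; ring
    have e2 : B.d n ^ (-(ε / 2)) * B.d n ^ (ε / 2) = 1 := by rw [← dpow_add]; simp
    refine b1.trans ?_
    rw [e1, mul_assoc]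
    refine mul_le_mul_of_nonneg_left ?_ (dpow_pos B n _).le
    set N1 : ℝ := (((alive (J1 n) (l n) c').filter fun s => c n s c' = c n t c').card : ℝ)
    calc N1 = B.d n ^ (-(ε / 2)) * (B.d n ^ (ε / 2) * N1) := by rw [← mul_assoc, e2, one_mul]
      _ ≤ _ := mul_le_mul_of_nonneg_left b3 (dpow_pos B n _).le

end Crest.Agent.R136.Ste163
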