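import Crest.Agent.R136.Ste1_650

/-!
# R136, U6 thin side, stage C (helper650): the assembly, elementary consequences of `StcA`

* `exists_diag` : a slowly growing parameter;
* `gd_mono`, `geo`, `lin_bd`, `lin_aS`; `nrm` : normal coordinates of good lines are bounded;
* `drift` : the drift of good lines is infinitely small; `slope` : slopes of two lines of a class;
* `rel_two`, `rel_bd` : frames of two incidences of a class.
-/

set_option autoImplicit false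
set_option linter.unusedVariables false

open Finset Filter Topology

namespace Crest.Agent.R136.Ste650

open Crest.Agent.R138.Ex926 (Base U)
open Crest.Agent.R138.Mk163 (zc zl rho)
open Crest.Agent.R138.MkRef627 (lc kc)
open Crest.Agent.R138.Dp76 (dpow_pos dpow_add dpow_le dpow_le_one)
open Crest.Agent.R138.ArgM163 (ev_const ev_const_mul)
open Crest.Agent.R136.ArgA163 (rho_pos tau_zero)
open Crest.Agent.R136.Sh605
open Crest.Agent.R136.MkA627
open Crest.Agent.R136.NetW191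
open Crest.Agent.R136.GeoN778
open Crest.Agent.R136.Wit321
open Crest.Agent.R136.Stc321
open Crest.Agent.R136.Top484
open Crest.Agent.R136.Tlt51 (mk4 zx rh)
open Crest.Agent.R136.FlW464 (frW drW)
open Crest.Agent.R136.Fw650 (z0N zhN rhN cellN)
open Crest.Agent.R136.GW650 (Lin lin_wid lin_rho)
open Crest.Agent.R136.Tn327 (lin_two zmN abs_zh_zm)
open Crest.Agent.R136.Thn768 (ThinW)

/-- **a slowly growing parameter** -/
theorem exists_diag {P : ℕ → ℕ → Prop} (h : ∀ m, ∀ᶠ n in (U : Filter ℕ), P m n) :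
    ∃ N : ℕ → ℕ, (∀ᶠ n in (U : Filter ℕ), P (N n) n) ∧
      ∀ m, ∀ᶠ n in (U : Filter ℕ), m ≤ N n := by
  classical
  refine ⟨fun n => Nat.findGreatest (fun m => P m n) n, ?_, fun m => ?_⟩
  · filter_upwards [h 0] with n hn
    exact Nat.findGreatest_spec (P := fun m => P m n) (Nat.zero_le n) hn
  · have hU : ∀ᶠ n in (U : Filter ℕ), m ≤ n :=
      (Nat.hyperfilter_le_atTop : (U : Filter ℕ) ≤ atTop) (eventually_ge_atTop m)
    filter_upwards [h m, hU] with n hn hm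
    exact Nat.le_findGreatest (P := fun m => P m n) hm hn

/-- two-sided power bounds, uniform in the level -/
theorem lin_bd {B : Base} {x : ℕ → ℚ → ℝ} {β C : ℝ} (h : Lin B x β)
    (h0 : ∀ᶠ n in (U : Filter ℕ), B.d n ^ C ≤ x n 0 ∧ x n 0 ≤ B.d n ^ (-C)) :
    ∀ v : ℚ, 0 ≤ v → v ≤ 1 → ∀ᶠ n in (U : Filter ℕ),
      B.d n ^ (|C| + |β| + 1) ≤ x n v ∧ x n v ≤ B.d n ^ (-(|C| + |β| + 1)) := by
  intro v v0 v1
  have v0' : (0 : ℝ) ≤ v := by exact_mod_cast v0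
  have v1' : (v : ℝ) ≤ 1 := by exact_mod_cast v1
  filter_upwards [lin_two h le_rfl zero_le_one v0 v1 one_pos, h0] with n h1 h2
  obtain ⟨-, -, a1, a2⟩ := h1
  have dp := dpow_pos B n
  have hβ : |β * ((v : ℝ) - (0 : ℚ))| ≤ |β| := by
    rw [abs_mul]
    refine mul_le_of_le_one_right (abs_nonneg _) ?_
    push_cast
    rw [sub_zero, abs_of_nonneg v0']
    exact v1'
  obtain ⟨b1, b2⟩ := abs_le.1 hβ
  obtain ⟨c1, c2⟩ := abs_le.1 (le_refl |C|)
  constructor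
  · calc B.d n ^ (|C| + |β| + 1) ≤ B.d n ^ (C + (β * ((v : ℝ) - (0 : ℚ)) + 1)) :=
          dpow_le B n (by linarith)
      _ = B.d n ^ C * B.d n ^ (β * ((v : ℝ) - (0 : ℚ)) + 1) := dpow_add B n _ _
      _ ≤ x n 0 * B.d n ^ (β * ((v : ℝ) - (0 : ℚ)) + 1) :=
          mul_le_mul_of_nonneg_right h2.1 (dp _).le
      _ ≤ _ := a1
  · calc x n v ≤ x n 0 * B.d n ^ (β * ((v : ℝ) - (0 : ℚ)) - 1) := a2
      _ ≤ B.d n ^ (-C) * B.d n ^ (β * ((v : ℝ) - (0 : ℚ)) - 1) :=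
          mul_le_mul_of_nonneg_right h2.2 (dp _).le
      _ = B.d n ^ (-C + (β * ((v : ℝ) - (0 : ℚ)) - 1)) := (dpow_add B n _ _).symm
      _ ≤ _ := dpow_le B n (by linarith)

/-- frames of two incidences -/
theorem rel_two (κ : ℝ) (L M : Ln4) (z z' : ℝ) : rel κ (frW L z) (frW M z') =
    ![z' - z, M.v 1 - L.v 1, M.pos z' 1 - L.pos z' 1,
      (M.pos z' 2 - L.pos z' 2 + 2 * κ * L.v 1 * (M.pos z' 1 - L.pos z' 1)) +
        drW κ L * (z' - z)] := by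
  funext k
  fin_cases k <;> simp [rel, frW, drW, Ln4.pos] <;> ring

section

variable {p : Par4} {D : Dat4} {K : ℕ → CtD} {x0 : ℕ → ℕ × ℝ}

theorem gd_mono {C C' : ℝ} (h : C ≤ C') {n : ℕ} {x : ℕ × ℝ} (hx : Gd D K C n x) :
    Gd D K C' n x := by
  have hd : D.B.d n ^ (-C) ≤ D.B.d n ^ (-C') := dpow_le D.B n (by linarith)
  exact ⟨fun k => ⟨(hx.1 k).1.trans hd, (hx.1 k).2.trans hd⟩, hx.2.1, fun k => (hx.2.2 k).trans hd⟩

theorem hz_pos (hs : StcA p D K x0) (n : ℕ) : 0 < hzS K n := one_div_pos.2 (hs.ok n).H0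

/-- heights: the cell of level `0` is `[-1/4, 1/4]` -/
theorem geo (hs : StcA p D K x0) : ∀ᶠ n in (U : Filter ℕ), rhN D.lev (hzS K) n 0 = 1 / 2 ∧
    ∀ x ∈ D.I n, z0N D.lev (hzS K) (zsS K) 0 n (zc (D.lev n 0) x.2) = -1 / 4 ∧
      |zhN (hzS K) (zsS K) n x| ≤ 1 / 4 := by
  filter_upwards [hs.H, hs.zcc] with n h1 h2
  have hH := (hs.ok n).H0
  have hr := rho_pos (D.lev n 0)
  have e1 : rhN D.lev (hzS K) n 0 = 1 / 2 := by
    unfold rhN hzS
    rw [h1]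
    field_simp
  refine ⟨e1, fun x hx => ?_⟩
  have e2 : z0N D.lev (hzS K) (zsS K) 0 n (zc (D.lev n 0) x.2) = -1 / 4 := by
    unfold z0N hzS zsS
    rw [h2 x hx, h1]
    unfold zx
    field_simp
    ring
  refine ⟨e2, ?_⟩
  obtain ⟨c1, c2⟩ := cellN (lev := D.lev) (hz := hzS K) (zs := zsS K) (hz_pos hs n) 0 x
  rw [e2] at c1 c2
  rw [e1] at c2
  rw [abs_le]
  constructor <;> linarith

/-- two incidences of a class lie in the same cell -/
theorem cell_kc {n : ℕ} {v : ℚ} {x y : ℕ × ℝ}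
    (h : kc (D.lev n v) (D.f n v) y = kc (D.lev n v) (D.f n v) x) :
    zc (D.lev n v) y.2 = zc (D.lev n v) x.2 := (Prod.mk.injEq _ _ _ _ ▸ h).2

/-- normal coordinates of good lines -/
theorem nrm (hs : StcA p D K x0) {C : ℝ} (hC : 0 ≤ C) : ∀ᶠ n in (U : Filter ℕ), ∀ x,
    Gd D K C n x → ∀ k, |(LS D K n x.1).p k| ≤ D.B.d n ^ (-(C + 1)) ∧
      |(LS D K n x.1).v k| ≤ D.B.d n ^ (-(C + 1)) := by
  filter_upwards [hs.sm (2 * C + 1), ev_const_mul D.B (show (0 : ℝ) < 40 by norm_num) one_pos,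
    ev_const D.B (show (0 : ℝ) < 2 by norm_num) one_pos] with n h1 h2 h3 x hx k
  set R := D.B.d n ^ (-C) with hR
  have R1 : 1 ≤ R := by
    have := dpow_le D.B n (show -C ≤ (0 : ℝ) by linarith)
    rwa [Real.rpow_zero] at this
  have e : 40 * (D.B.d n ^ (2 * C + 1) * R ^ 2) = 40 * D.B.d n ^ (1 : ℝ) := by
    have e2 : R ^ 2 = D.B.d n ^ (-(2 * C)) := by
      rw [hR, ← Real.rpow_natCast, ← Real.rpow_mul (D.B.pos n).le]; congr 1; push_cast; ring
    rw [e2, ← dpow_add]; congr 2; ring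
  obtain ⟨a, b⟩ := hat_bd (t := (K n).t (D.L n x.1)) h1 R1 (by rw [e]; exact h2)
    (fun k => (hx.1 k).1) (fun k => (hx.1 k).2)
  have hR2 : R + 1 ≤ D.B.d n ^ (-(C + 1)) := by
    have e3 : D.B.d n ^ (-(C + 1)) = R * D.B.d n ^ (-(1 : ℝ)) := by
      rw [hR, ← dpow_add]; congr 1; ring
    rw [e3]
    nlinarith
  have t1 : ∀ {u v : ℝ}, |u - v| ≤ 1 → |v| ≤ R → |u| ≤ R + 1 := by
    intro u v h h'
    rw [abs_le] at *
    constructor <;> linarith
  exact ⟨(t1 (a k) (hx.1 k).1).trans hR2, (t1 (b k) (hx.1 k).2).trans hR2⟩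

/-- unit of the thickness -/
theorem aS_zero (hs : StcA p D K x0) (h : ThinW p D) :
    ∀ᶠ n in (U : Filter ℕ), aS D n 0 = 1 := by
  filter_upwards [h.mka.wpos 0 0 le_rfl zero_le_one] with n h1
  unfold aS
  exact div_self h1.ne'

/-- **the drift of good lines is infinitely small** -/
theorem drift (h : ThinW p D) (hs : StcA p D K x0) (C M : ℝ) : ∀ᶠ n in (U : Filter ℕ),
    ∀ x ∈ D.I n, Gd D K C n x → |drW (K n).κ (LS D K n x.1)| ≤ D.B.d n ^ M := by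
  set C' := max C 0 with hC'
  have C0 : 0 ≤ C' := le_max_right _ _
  filter_upwards [nrm hs C0, hs.thick C' 0 le_rfl zero_le_one 1 one_pos, geo hs, aS_zero hs h,
    hs.σs (3 * C' + 3 + M + 1), ev_const_mul D.B (show (0 : ℝ) < 32 * 127 by norm_num) one_pos]
    with n h1 h2 h3 h4 h5 h6 x hx hg0
  have hg : Gd D K C' n x := gd_mono (le_max_left _ _) hg0
  have dp := dpow_pos D.B n
  set R := D.B.d n ^ (-(C' + 1)) with hR
  have R1 : 1 ≤ R := by
    have := dpow_le D.B n (show -(C' + 1) ≤ (0 : ℝ) by linarith)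
    rwa [Real.rpow_zero] at this
  have hM : ∀ k, |MkS D K 0 n (kc (D.lev n 0) (D.f n 0) x) k| ≤ R := fun k =>
    (hg.2.2 k).trans (dpow_le D.B n (by linarith))
  obtain ⟨g1, g2⟩ := h3
  obtain ⟨g3, g4⟩ := g2 x hx
  have hσ := (hs.σ0 n).le
  have hth := h2 x hx hg
  rw [g3, g1, h4, one_mul] at hth
  have hle := ht_le (κ := (K n).κ) (zl := -1 / 4) hσ (by rw [abs_le]; constructor <;> norm_num)
    R1 (fun k => (h1 x hg k).1) (fun k => (h1 x hg k).2) hM hth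
  have hd := (ht_coef (κ := (K n).κ) (zl := -1 / 4) (by rw [abs_le]; constructor <;> norm_num)
    hle).1
  refine hd.trans ?_
  have e1 : D.B.d n ^ (-(1 : ℝ)) ≤ R ^ 3 := by
    have e2 : R ^ 3 = D.B.d n ^ (-(3 * (C' + 1))) := by
      rw [hR, ← Real.rpow_natCast, ← Real.rpow_mul (D.B.pos n).le]; congr 1; push_cast; ring
    rw [e2]
    exact dpow_le D.B n (by linarith)
  have e3 : 126 * (R * R ^ 2) + D.B.d n ^ (-(1 : ℝ)) ≤ 127 * R ^ 3 := by
    have : R * R ^ 2 = R ^ 3 := by ring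
    rw [this]; linarith
  have e4 : R ^ 3 = D.B.d n ^ (-(3 * C' + 3)) := by
    rw [hR, ← Real.rpow_natCast, ← Real.rpow_mul (D.B.pos n).le]; congr 1; push_cast; ring
  calc 32 * ((K n).σ * (126 * (R * R ^ 2) + D.B.d n ^ (-(1 : ℝ))))
      ≤ 32 * (D.B.d n ^ (3 * C' + 3 + M + 1) * (127 * R ^ 3)) := by
        refine mul_le_mul_of_nonneg_left (mul_le_mul h5 e3 ?_ (dp _).le) (by norm_num)
        have := dp (-(1 : ℝ))
        positivity
    _ = 32 * 127 * (D.B.d n ^ (3 * C' + 3 + M + 1) * D.B.d n ^ (-(3 * C' + 3))) := by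
        rw [e4]; ring
    _ = 32 * 127 * D.B.d n ^ (1 : ℝ) * D.B.d n ^ M := by
        rw [← dpow_add, mul_assoc (32 * 127 : ℝ), ← dpow_add]; congr 2; ring
    _ ≤ 1 * D.B.d n ^ M := mul_le_mul_of_nonneg_right h6 (dp _).le
    _ = _ := one_mul _

/-- **slopes of two lines of a class** -/
theorem slope (hs : StcA p D K x0) (C : ℝ) {v : ℚ} (v0 : 0 ≤ v) (v1 : v ≤ 1) {ε : ℝ}
    (hε : 0 < ε) : ∀ᶠ n in (U : Filter ℕ), ∀ x ∈ D.I n, ∀ y ∈ D.I n,
      kc (D.lev n v) (D.f n v) y = kc (D.lev n v) (D.f n v) x → Gd D K C n x →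
        |(LS D K n y.1).v 1 - (LS D K n x.1).v 1| ≤
          2 * (wAS D K n v / rhN D.lev (hzS K) n v * D.B.d n ^ (-ε)) := by
  filter_upwards [hs.lat C v v0 v1 ε hε] with n h1 x hx y hy hxy hg
  have hr : 0 < rhN D.lev (hzS K) n v := mul_pos (hz_pos hs n) (rho_pos _)
  set z := z0N D.lev (hzS K) (zsS K) v n (zc (D.lev n v) x.2) with hz
  set r := rhN D.lev (hzS K) n v with hrr
  have a1 := (h1 x hx y hy hxy hg z le_rfl (by linarith)).1
  have a2 := (h1 x hx y hy hxy hg (z + r) (by linarith) le_rfl).1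
  have e : ((LS D K n y.1).v 1 - (LS D K n x.1).v 1) * r =
      ((LS D K n y.1).pos (z + r) 1 - (LS D K n x.1).pos (z + r) 1) -
        ((LS D K n y.1).pos z 1 - (LS D K n x.1).pos z 1) := by
    simp only [Ln4.pos]; ring
  have e2 : |((LS D K n y.1).v 1 - (LS D K n x.1).v 1)| * r ≤
      2 * (wAS D K n v * D.B.d n ^ (-ε)) := by
    have e5 : |((LS D K n y.1).v 1 - (LS D K n x.1).v 1)| * r =
        |((LS D K n y.1).v 1 - (LS D K n x.1).v 1) * r| := by rw [abs_mul, abs_of_pos hr]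
    rw [e5, e]
    refine (abs_sub _ _).trans ?_
    linarith
  have e3 : 2 * (wAS D K n v / r * D.B.d n ^ (-ε)) = 2 * (wAS D K n v * D.B.d n ^ (-ε)) / r := by
    ring
  rw [e3, le_div_iff₀ hr]
  exact e2

/-- exponents of the thickness -/
theorem lin_aS (h : ThinW p D) : Lin D.B (aS D) (1 - p.θ 0) := by
  refine ⟨fun v h0 h1 => ?_, fun v h0 h1 => (tau_zero h.mka 0 h0 h1).congr' ?_⟩
  · filter_upwards [h.mka.wpos 0 v h0 h1, h.mka.wpos 0 0 le_rfl zero_le_one] with n a b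
      using div_pos a b
  · filter_upwards [h.mka.wpos 0 v h0 h1, h.mka.wpos 0 0 le_rfl zero_le_one] with n a b
    unfold aS
    rw [Real.log_div a.ne' b.ne', Real.log_div b.ne' b.ne']
    ring

theorem lin_wAS (h : ThinW p D) (hs : StcA p D K x0) : Lin D.B (wAS D K) (1 - p.θ 1) :=
  lin_wid h.mka 1 (W := fun n => (K n).u.WA) fun n => (hs.ok n).A0

theorem lin_rhS (h : ThinW p D) (hs : StcA p D K x0) : Lin D.B (rhN D.lev (hzS K)) 1 :=
  lin_rho h.mka (hz_pos hs)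

/-- **uniform exponents** -/
theorem exps (h : ThinW p D) (hs : StcA p D K x0) : ∃ E : ℝ, 0 ≤ E ∧ ∀ v : ℚ, 0 ≤ v → v ≤ 1 →
    ∀ᶠ n in (U : Filter ℕ), (D.B.d n ^ E ≤ wAS D K n v ∧ wAS D K n v ≤ D.B.d n ^ (-E)) ∧
      (D.B.d n ^ E ≤ rhN D.lev (hzS K) n v ∧ rhN D.lev (hzS K) n v ≤ D.B.d n ^ (-E)) ∧
      (D.B.d n ^ E ≤ aS D n v ∧ aS D n v ≤ D.B.d n ^ (-E)) := by
  have w0 : ∀ᶠ n in (U : Filter ℕ), D.B.d n ^ (1 : ℝ) ≤ wAS D K n 0 ∧
      wAS D K n 0 ≤ D.B.d n ^ (-(1 : ℝ)) := by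
    filter_upwards [hs.wid 1 one_pos] with n hn
    have hA := (hs.ok n).A0
    unfold wAS
    rw [le_div_iff₀ hA, div_le_iff₀ hA]
    exact ⟨hn.1, hn.2.1⟩
  have one_le : ∀ n, 1 ≤ D.B.d n ^ (-(1 : ℝ)) := fun n => by
    have := dpow_le D.B n (show -(1 : ℝ) ≤ (0 : ℝ) by norm_num)
    rwa [Real.rpow_zero] at this
  have r0 : ∀ᶠ n in (U : Filter ℕ), D.B.d n ^ (1 : ℝ) ≤ rhN D.lev (hzS K) n 0 ∧
      rhN D.lev (hzS K) n 0 ≤ D.B.d n ^ (-(1 : ℝ)) := by
    filter_upwards [geo hs, ev_const_mul D.B (show (0 : ℝ) < 2 by norm_num) one_pos] with n h1 h2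
    rw [h1.1]
    have := one_le n
    constructor <;> linarith
  have a0 : ∀ᶠ n in (U : Filter ℕ), D.B.d n ^ (1 : ℝ) ≤ aS D n 0 ∧
      aS D n 0 ≤ D.B.d n ^ (-(1 : ℝ)) := by
    filter_upwards [aS_zero hs h] with n h1
    rw [h1]
    exact ⟨dpow_le_one D.B n zero_le_one, one_le n⟩
  have b1 := lin_bd (lin_wAS h hs) w0
  have b2 := lin_bd (lin_rhS h hs) r0
  have b3 := lin_bd (lin_aS h) a0
  have n1 := abs_nonneg (1 - p.θ 1)
  have n0 := abs_nonneg (1 - p.θ 0)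
  refine ⟨|1 - p.θ 1| + |1 - p.θ 0| + 3, by positivity, fun v v0 v1 => ?_⟩
  filter_upwards [b1 v v0 v1, b2 v v0 v1, b3 v v0 v1] with n c1 c2 c3
  rw [abs_one] at c1 c2 c3
  have q1 : ∀ {s t x : ℝ}, s ≤ t → (D.B.d n ^ s ≤ x ∧ x ≤ D.B.d n ^ (-s)) →
      (D.B.d n ^ t ≤ x ∧ x ≤ D.B.d n ^ (-t)) := fun hst hx =>
    ⟨(dpow_le D.B n hst).trans hx.1, hx.2.trans (dpow_le D.B n (by linarith))⟩
  exact ⟨q1 (by linarith) c1, q1 (by linarith) c2, q1 (by linarith) c3⟩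

end

end Crest.Agent.R136.Ste650
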