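import Mathlib
import Crest.Agent.R136.Ste2_163

/-!
# R136 (helper163): steering, mesh induction (part 2: one step)

* `StepOut` : output of (STEP) for all directions.
* `base_mkS` : the marked sequence with the single level `1`.
* `Pst` : state of the mesh induction, `Pst.step` : one step towards level `0`.
-/

set_option autoImplicit false
set_option linter.unusedVariables false
set_option linter.unusedSectionVars false

open Finset Filter Topology

namespace Crest.Agent.R136.Ste163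

open Crest.Agent.R138.Ex926 Crest.Agent.R138.Dp76 Crest.Agent.R138.Ps627
open Crest.Agent.R138.Ps926 (dpow_small)
open Crest.Agent.R138.Mk163 (zc zl rho alive own)
open Crest.Agent.R138.MkRef627 (lc kc own_one alive_mono mem_alive card_class own_lower hh hh_even
  hh_odd exists_num)
open MkA627 (Geo MkA ampA)
open XA248 Dia770

variable {σ κ : Type} [Fintype κ]

/-- output of (STEP) for all directions -/
def StepOut (B : Base) (I : ℕ → Finset (ℕ × ℝ)) (G : Geo σ κ) (R : Rel κ) (lo hi : ℕ → ℕ)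
    (D0 : ℕ → ℝ) (β C : ℝ) (wt : ℕ → κ → ℝ) (g : κ → ℝ) : Prop :=
  ∀ (lam : κ → ℝ) (J : ℕ → Finset (ℕ × ℝ)), Dense B J I → DMaxAll B J G R lo hi D0 β wt →
    ∀ (v' : ℝ) (l' : ℕ → ℕ) (c' : ℕ → ℕ → ℤ → ℕ) (b' : ℕ → ℕ → σ) (w' : ℕ → κ → ℝ),
      St B J G R lo hi D0 β wt v' l' c' b' w' →
    ∀ v : ℝ, 0 ≤ v → v < v' →
    ∃ (J' : ℕ → Finset (ℕ × ℝ)) (l : ℕ → ℕ) (c : ℕ → ℕ → ℤ → ℕ) (b : ℕ → ℕ → σ)
      (w : ℕ → κ → ℝ), (∀ n, J' n ⊆ J n) ∧ Dense B J' J ∧ (∀ᶠ n in (U : Filter ℕ), l n ≤ l' n) ∧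
      St B J' G R lo hi D0 β wt v l c b w ∧
      (∀ᶠ n in (U : Filter ℕ), Rg C (l n) (w n) (l' n) (w' n)) ∧
      ∀ ε : ℝ, 0 < ε → ∀ᶠ n in (U : Filter ℕ),
        (∑ k, lam k * shp (l n) (w n) (l' n) (w' n) k) / ((hi n : ℝ) - lo n) ≤
          (v' - v) * (∑ k, g k * lam k) + ε

theorem own_ge_one {F : Finset (ℕ × ℝ)} {i j : ℕ} {x : ℕ × ℝ} (hx : x ∈ F) :
    1 ≤ (own F i j x).card := by
  classical
  rw [Nat.one_le_iff_ne_zero, ← Nat.pos_iff_ne_zero, card_pos]
  refine ⟨zc j x.2, ?_⟩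
  unfold own
  exact mem_image.2 ⟨x, mem_filter.2 ⟨hx, rfl, rfl⟩, rfl⟩

section base

variable {B : Base} {I : ℕ → Finset (ℕ × ℝ)} {G : Geo σ κ} {R : Rel κ}
    {Sh : ℕ → Finset (κ → ℝ)} {lo hi : ℕ → ℕ} {D0 : ℕ → ℝ} {β Cu : ℝ} {ct : ℕ → ℕ → ℤ → ℕ}
    {bt : ℕ → ℕ → σ} {wt : ℕ → κ → ℝ}

/-- the common size of marks with common widths -/
theorem exists_vm (hIn : InSeq B I G R Sh lo hi D0 β Cu ct bt wt) {J : ℕ → Finset (ℕ × ℝ)}
    {l : ℕ → ℕ} {c : ℕ → ℕ → ℤ → ℕ} {b : ℕ → ℕ → σ} {w : ℕ → κ → ℝ}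
    (hne : ∀ᶠ n in (U : Filter ℕ), (J n).Nonempty)
    (hcl : ∀ᶠ n in (U : Filter ℕ), IsCl G n (l n) (J n) (c n) (b n) (w n)) :
    ∃ vm : ℕ → ℝ, (∀ᶠ n in (U : Filter ℕ), 0 < vm n) ∧
      (∀ᶠ n in (U : Filter ℕ), ∀ k, 0 < w n k) ∧
      ∀ᶠ n in (U : Filter ℕ), ∀ J' : ℤ, ∀ t ∈ alive (J n) (l n) J',
        G.val n (l n) J' (b n (c n t J')) = vm n := by
  classical
  refine ⟨fun n => if h : (J n).Nonempty then G.val n (l n) (zc (l n) h.choose.2)
    (b n (c n h.choose.1 (zc (l n) h.choose.2))) else 1, ?_, ?_, ?_⟩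
  · filter_upwards [hne, hcl] with n hn h1
    rw [dif_pos hn]
    have hm : hn.choose.1 ∈ alive (J n) (l n) (zc (l n) hn.choose.2) :=
      mem_alive.2 ⟨hn.choose, hn.choose_spec, rfl, rfl⟩
    exact hIn.vpos _ _ _ _ (h1 _ _ hm).2.1
  · filter_upwards [hne, hcl] with n hn h1 k
    have hm : hn.choose.1 ∈ alive (J n) (l n) (zc (l n) hn.choose.2) :=
      mem_alive.2 ⟨hn.choose, hn.choose_spec, rfl, rfl⟩
    obtain ⟨-, h2, h3⟩ := h1 _ _ hm
    have h4 := hIn.shpos n _ (hIn.sh _ _ _ _ h2) k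
    rwa [h3] at h4
  · filter_upwards [hne, hcl] with n hn h1 J' t ht
    rw [dif_pos hn]
    have hm : hn.choose.1 ∈ alive (J n) (l n) (zc (l n) hn.choose.2) :=
      mem_alive.2 ⟨hn.choose, hn.choose_spec, rfl, rfl⟩
    obtain ⟨-, h2, h3⟩ := h1 _ _ hm
    obtain ⟨-, h4, h5⟩ := h1 _ _ ht
    exact hIn.valw _ _ _ _ _ _ h4 h2 (h5.trans h3.symm)

/-- `L n = (hi n - lo n) log 2` in the limit form -/
theorem InSeq.lim1 (hIn : InSeq B I G R Sh lo hi D0 β Cu ct bt wt) :
    Tendsto (fun n => ((hi n : ℝ) - lo n) * Real.log 2 / B.L n) U (𝓝 1) := by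
  have : (fun n => ((hi n : ℝ) - lo n) * Real.log 2 / B.L n) = fun _ => (1:ℝ) := by
    funext n
    rw [← L_eq hIn.base hIn.lohi n]
    exact div_self (B.L_pos n).ne'
  rw [this]
  exact tendsto_const_nhds

/-- **base of the induction** -/
theorem base_mkS (hIn : InSeq B I G R Sh lo hi D0 β Cu ct bt wt)
    (hR : ∀ᶠ n in (U : Filter ℕ), R (hi n) (wt n) (hi n) (wt n))
    {J0 : ℕ → Finset (ℕ × ℝ)} (hJ0 : Dense B J0 I)
    (hdm : DMaxAll B J0 G R lo hi D0 β wt) (g : κ → ℝ) {e : ℝ} (he : 0 ≤ e) :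
    ∃ (J : ℕ → Finset (ℕ × ℝ)) (vm : ℕ → ℝ), (∀ n, J n ⊆ J0 n) ∧ (∀ n, J n ⊆ I n) ∧
      Dense B J I ∧
      MkS B J (GR G R hi wt) (fun n v => if v = 1 then hi n else lo n) D0 β (fun k => - g k)
        (fun n _ => ct n) (fun n _ => bt n) (fun n _ => vm n) (fun k n _ => wt n k) {1} e := by
  classical
  obtain ⟨J, hsub, hhalf, hfib⟩ := prune_seq (η := fun _ _ => ℕ × ℤ) hJ0
    (hh (fun n (_ : ℚ) => hi n) (fun n (_ : ℚ) => ct n))
  have hJJ0 : Dense B J J0 := dense_of_half (by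
    filter_upwards [hhalf] with n hn using ⟨(hsub n).1, hn⟩)
  have hJI : Dense B J I := hJJ0.trans hJ0
  have hne : ∀ᶠ n in (U : Filter ℕ), (J n).Nonempty := hJI.nonempty hIn.ne
  have hcl : ∀ᶠ n in (U : Filter ℕ), IsCl G n (hi n) (J n) (ct n) (bt n) (wt n) := by
    filter_upwards [hIn.cl] with n hn using isCl_mono hn (hsub n).2
  obtain ⟨vm, hv1, hv2, hv3⟩ := exists_vm hIn hne hcl
  have hl1 : ∀ n, (fun (n : ℕ) (v : ℚ) => if v = 1 then hi n else lo n) n 1 = hi n := fun n => by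
    simp
  refine ⟨J, vm, fun n => (hsub n).1, fun n => (hsub n).2, hJI, ?_⟩
  refine
    { ne := hne
      card := ?_
      Apos := hIn.D0pos
      lev_mono := ?_
      lev_lim := ?_
      cell0 := ?_
      one := ?_
      own := ?_
      dmax := ?_
      mark := ?_
      near := ?_
      vpos := ?_
      wpos := ?_
      tau := ?_ }
  · intro ε hε
    filter_upwards [hIn.card ε hε, hne] with n hn h1
    refine le_trans (Real.log_le_log (by exact_mod_cast card_pos.2 h1) ?_) hn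
    exact_mod_cast card_le_card (hsub n).2
  · intro u hu v hv _
    rw [mem_singleton] at hu hv
    subst hu; subst hv
    exact Eventually.of_forall fun n => le_rfl
  · intro u hu v hv _
    rw [mem_singleton] at hu hv
    subst hu; subst hv
    simp
  · filter_upwards [hIn.cell0] with n hn x hx y hy
    have h0 : ((0:ℚ) = 1) = False := by simp
    simp only [h0, if_false]
    exact hn x ((hsub n).2 hx) y ((hsub n).2 hy)
  · filter_upwards [hIn.one] with n hn x hx y hy h1 h2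
    simp only [if_true] at h2
    exact hn x ((hsub n).2 hx) y ((hsub n).2 hy) h1 h2
  · intro u hu v hv _ ε hε
    rw [mem_singleton] at hu hv
    subst hu; subst hv
    refine Eventually.of_forall fun n x hx => ?_
    have h1 : (1:ℝ) ≤ ((own (J n) (hi n) (hi n) x).card : ℝ) := by
      exact_mod_cast own_ge_one hx
    simp only [if_true]
    refine le_trans (dpow_le_one B n ?_) h1
    push_cast
    linarith
  · intro v hv ε hε
    rw [mem_singleton] at hv
    subst hv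
    filter_upwards [hdm ε hε] with n hn c s hs
    simp only [if_true] at hs ⊢
    have h1 := hn (hi n) (hIn.lohi n).le le_rfl c s hs.1 hs.2
    rw [valx_zero] at h1
    have h2 : (((alive (J n) (hi n) c).filter fun t => G.mem n (hi n) c s t).card : ℝ) ≤
        (((alive (J0 n) (hi n) c).filter fun t => G.mem n (hi n) c s t).card : ℝ) := by
      exact_mod_cast card_le_card (filter_subset_filter _ (alive_mono (hsub n).1 _ _))
    refine h2.trans (h1.trans (le_of_eq ?_))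
    rw [two_pow_eq hIn.base hIn.lohi]
    show _ = B.d n ^ (-ε) * (D0 n * B.d n ^ (-(β * ((1:ℚ) : ℝ)))) * G.val n (hi n) c s
    push_cast
    rw [mul_one]
    ring
  · intro v hv
    rw [mem_singleton] at hv
    subst hv
    filter_upwards [hcl, hv3, hR] with n h1 h2 h3 c t ht
    simp only [if_true] at ht ⊢
    obtain ⟨a1, a2, a3⟩ := h1 c t ht
    refine ⟨a1, ⟨a2, ?_⟩, h2 c t ht, fun k => ?_⟩
    · rw [a3]; exact h3
    · have := congrFun a3 k
      exact this
  · intro v hv ε hε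
    rw [mem_singleton] at hv
    subst hv
    have hε2 : 0 < ε / 2 := by linarith
    have hfib' : ∀ᶠ n in (U : Filter ℕ), ∀ x ∈ J n,
        B.d n ^ (ε / 2) * (((I n).filter fun y => kc (hi n) (ct n) y = kc (hi n) (ct n) x).card : ℝ) ≤
        (((J n).filter fun y => kc (hi n) (ct n) y = kc (hi n) (ct n) x).card : ℝ) := by
      filter_upwards [hfib (2 * 0 + 1) (ε / 2) hε2] with n hn x hx
      have := hn x hx
      simp only [hh_odd] at this
      exact this
    filter_upwards [hfib', hIn.low (ε / 2) hε2, hv3, hIn.one] with n h1 h2 h3 h4 c t ht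
    simp only [if_true] at ht ⊢
    have hti : t ∈ alive (I n) (hi n) c := alive_mono (hsub n).2 _ _ ht
    have h5 := h2 c t hti
    rw [valx_zero, h3 c t ht] at h5
    have hfibre : ∀ y ∈ I n, ((I n).filter fun z => lc (hi n) z = lc (hi n) y).card = 1 := by
      intro y hy
      rw [card_eq_one]
      refine ⟨y, ?_⟩
      ext z
      rw [mem_filter, mem_singleton]
      constructor
      · rintro ⟨hz, hzy⟩
        unfold lc at hzy
        exact h4 z hz y hy (Prod.mk.inj hzy).1 (Prod.mk.inj hzy).2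
      · rintro rfl
        exact ⟨hy, rfl⟩
    have h6 := near_step (φ := ct n) (hsub n).2 (m₁ := 1) (m₂ := 1) (c := B.d n ^ (ε / 2))
      (dpow_pos B n _).le (fun y hy => by rw [hfibre y hy]; simp)
      (fun y hy => by rw [hfibre y hy]; simp) h1 c t ht
    rw [one_mul, one_mul] at h6
    have e1 : ((1:ℚ) : ℝ) = 1 := by norm_num
    rw [e1, mul_one]
    have h7 : B.d n ^ (ε / 2) * (D0 n * B.d n ^ (-β + ε / 2) * vm n) ≤
        (((alive (J n) (hi n) c).filter fun s => ct n s c = ct n t c).card : ℝ) :=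
      (mul_le_mul_of_nonneg_left h5 (dpow_pos B n _).le).trans h6
    have h8 : D0 n * B.d n ^ (-β) * vm n =
        B.d n ^ (-ε) * (B.d n ^ (ε / 2) * (D0 n * B.d n ^ (-β + ε / 2) * vm n)) := by
      have : B.d n ^ (-ε) * (B.d n ^ (ε / 2) * B.d n ^ (-β + ε / 2)) = B.d n ^ (-β) := by
        rw [← dpow_add, ← dpow_add]; congr 1; ring
      calc D0 n * B.d n ^ (-β) * vm n =
          D0 n * (B.d n ^ (-ε) * (B.d n ^ (ε / 2) * B.d n ^ (-β + ε / 2))) * vm n := by rw [this]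
        _ = _ := by ring
    rw [h8]
    exact mul_le_mul_of_nonneg_left h7 (dpow_pos B n _).le
  · intro v _
    exact hv1
  · intro k v _
    filter_upwards [hv2] with n hn using hn k
  · intro k v hv
    rw [mem_singleton] at hv
    subst hv
    filter_upwards [hv2] with n hn
    simp only [if_true]
    have h1 : 0 < rho (hi n) / wt n k := div_pos (rho_pos' _) (hn k)
    rw [div_self h1.ne', Real.log_one, zero_div]
    push_cast
    simpa using he

end base

section step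

variable {B : Base} {I : ℕ → Finset (ℕ × ℝ)} {G : Geo σ κ} {R : Rel κ}
    {Sh : ℕ → Finset (κ → ℝ)} {lo hi : ℕ → ℕ} {D0 : ℕ → ℝ} {β Cu C : ℝ} {ct : ℕ → ℕ → ℤ → ℕ}
    {bt : ℕ → ℕ → σ} {wt : ℕ → κ → ℝ} {g : κ → ℝ} {S : Finset ℚ} {e : ℝ} {v : ℚ}
    {J : ℕ → Finset (ℕ × ℝ)} {lev : ℕ → ℚ → ℕ} {f : ℕ → ℚ → ℕ → ℤ → ℕ} {b : ℕ → ℚ → ℕ → σ}
    {vm : ℕ → ℚ → ℝ} {w : κ → ℕ → ℚ → ℝ} {T : κ → ℝ}

/-- **state of the mesh induction** at the level `v` (the lowest marked level); `T` = limit of the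
exponents of the widths of level `v` relative to level `1`. -/
structure Pst (B : Base) (I : ℕ → Finset (ℕ × ℝ)) (G : Geo σ κ) (R : Rel κ) (lo hi : ℕ → ℕ)
    (D0 : ℕ → ℝ) (β : ℝ) (wt : ℕ → κ → ℝ) (g : κ → ℝ) (S : Finset ℚ) (e : ℝ) (v : ℚ)
    (J : ℕ → Finset (ℕ × ℝ)) (lev : ℕ → ℚ → ℕ) (f : ℕ → ℚ → ℕ → ℤ → ℕ) (b : ℕ → ℚ → ℕ → σ)
    (vm : ℕ → ℚ → ℝ) (w : κ → ℕ → ℚ → ℝ) (T : κ → ℝ) : Prop where
  sub : ∀ n, J n ⊆ I n
  dense : Dense B J I
  dm : DMaxAll B J G R lo hi D0 β wt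
  mks : MkS B J (GR G R hi wt) lev D0 β (fun k => - g k) f b vm w S e
  vS : v ∈ S
  vmin : ∀ u ∈ S, v ≤ u
  oneS : (1:ℚ) ∈ S
  S1 : ∀ u ∈ S, u ≤ 1
  st : St B J G R lo hi D0 β wt v (fun n => lev n v) (fun n => f n v) (fun n => b n v)
    (fun n k => w k n v)
  lev1 : ∀ n, lev n 1 = hi n
  w1 : ∀ k n, w k n 1 = wt n k
  tau : ∀ k, Tendsto (fun n => Real.log ((rho (lev n v) / w k n v) / (rho (lev n 1) / w k n 1)) /
    B.L n) U (𝓝 (T k))

theorem log_ratio_split {r1 r2 r3 w1 w2 w3 : ℝ} (h1 : 0 < r1) (h2 : 0 < r2) (h3 : 0 < r3)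
    (k1 : 0 < w1) (k2 : 0 < w2) (k3 : 0 < w3) :
    Real.log ((r1 / w1) / (r3 / w3)) =
      -(Real.log 2 * Real.logb 2 ((w1 / r1) / (w2 / r2))) + Real.log ((r2 / w2) / (r3 / w3)) := by
  have hlog : Real.log 2 ≠ 0 := (Real.log_pos one_lt_two).ne'
  have key : ∀ {a b c d : ℝ}, 0 < a → 0 < b → 0 < c → 0 < d →
      Real.log ((a / b) / (c / d)) = Real.log a - Real.log b - (Real.log c - Real.log d) := by
    intro a b c d ha hb hc hd
    rw [Real.log_div (by positivity) (by positivity), Real.log_div ha.ne' hb.ne',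
      Real.log_div hc.ne' hd.ne']
  rw [Real.logb, mul_div_cancel₀ _ hlog, key h1 k1 h3 k3, key k1 h1 k2 h2, key h2 k2 h3 k3]
  ring

theorem Pst.wpos (h : Pst B I G R lo hi D0 β wt g S e v J lev f b vm w T) :
    ∀ᶠ n in (U : Filter ℕ), ∀ k, 0 < w k n v := by
  rw [Filter.eventually_all]
  intro k
  exact h.mks.wpos k v h.vS

/-- **one step of the mesh induction.** -/
theorem Pst.step (hIn : InSeq B I G R Sh lo hi D0 β Cu ct bt wt)
    (hst : StepOut B I G R lo hi D0 β C wt g)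
    (h : Pst B I G R lo hi D0 β wt g S e v J lev f b vm w T) {u : ℚ} (hu0 : 0 ≤ u) (huv : u < v)
    (hE : ∀ T' : κ → ℝ, (∀ k, |T' k - T k| ≤ C * ((v:ℝ) - u)) →
      ∑ k, (T k + g k * (1 - v)) * ((T' k - T k) + g k * ((v:ℝ) - u)) ≤ 0 →
      ∀ k, |T' k + g k * (1 - u)| < e) :
    ∃ (J' : ℕ → Finset (ℕ × ℝ)) (lev' : ℕ → ℚ → ℕ) (f' : ℕ → ℚ → ℕ → ℤ → ℕ)
      (b' : ℕ → ℚ → ℕ → σ) (vm' : ℕ → ℚ → ℝ) (w' : κ → ℕ → ℚ → ℝ) (T' : κ → ℝ),
      Pst B I G R lo hi D0 β wt g (insert u S) e u J' lev' f' b' vm' w' T' ∧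
      (∀ k, |T' k - T k| ≤ C * ((v:ℝ) - u)) ∧
      ∑ k, (T k + g k * (1 - v)) * ((T' k - T k) + g k * ((v:ℝ) - u)) ≤ 0 := by
  classical
  have hv1 : v ≤ 1 := h.S1 v h.vS
  have hu1 : u < 1 := huv.trans_le hv1
  set lam : κ → ℝ := fun k => -(T k + g k * (1 - v)) with hlam
  obtain ⟨J1, l, c, bb, ww, hJ1J, hJ1d, hll', hSt, hRg, hdir⟩ := hst lam J h.dense h.dm v
    (fun n => lev n v) (fun n => f n v) (fun n => b n v) (fun n k => w k n v) h.st u
    (by exact_mod_cast hu0) (by exact_mod_cast huv)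
  have hJ1I : Dense B J1 I := hJ1d.trans h.dense
  have hne1 : ∀ᶠ n in (U : Filter ℕ), (J1 n).Nonempty := hJ1I.nonempty hIn.ne
  obtain ⟨vmu, hvm0, hww0, hvmu⟩ := exists_vm hIn hne1 hSt.cl
  have hwv := h.wpos
  have hwt : ∀ᶠ n in (U : Filter ℕ), ∀ k, 0 < w k n 1 := by
    rw [Filter.eventually_all]
    intro k
    exact h.mks.wpos k 1 h.oneS
  -- the increments
  set x : κ → ℕ → ℝ := fun k n => -(shp (l n) (ww n) (lev n v) (fun k => w k n v) k /
    ((hi n : ℝ) - lo n)) with hx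
  have hlenlim : Tendsto (fun n => (((lev n v : ℕ) : ℝ) - l n) / ((hi n : ℝ) - lo n)) U
      (𝓝 ((v:ℝ) - u)) := by
    have h1 := h.st.lim.sub hSt.lim
    refine h1.congr fun n => ?_
    have hp := len_pos hIn.lohi n
    rw [← sub_div]
    congr 1
    ring
  have hxb : ∀ k, ∀ᶠ n in (U : Filter ℕ), |x k n| ≤
      C * ((((lev n v : ℕ) : ℝ) - l n) / ((hi n : ℝ) - lo n)) := by
    intro k
    filter_upwards [hRg] with n hn
    have h1 := hn k
    have hp := len_pos hIn.lohi n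
    simp only [hx]
    rw [abs_neg, abs_div, abs_of_pos hp, mul_div_assoc']
    exact div_le_div_of_nonneg_right h1 hp.le
  have hxlim : ∀ k, ∃ X : ℝ, Tendsto (x k) U (𝓝 X) := by
    intro k
    have h1 : ∀ᶠ n in (U : Filter ℕ), C * ((((lev n v : ℕ) : ℝ) - l n) / ((hi n : ℝ) - lo n)) <
        C * ((v:ℝ) - u) + 1 :=
      (hlenlim.const_mul C).eventually (Iio_mem_nhds (by linarith))
    obtain ⟨X, hX, -⟩ := exists_tendsto (f := x k) (C := C * ((v:ℝ) - u) + 1) (by
      filter_upwards [hxb k, h1] with n a1 a2 using a1.trans a2.le)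
    exact ⟨X, hX⟩
  choose X hX using hxlim
  have hXb : ∀ k, |X k| ≤ C * ((v:ℝ) - u) := fun k =>
    le_of_tendsto_of_tendsto (hX k).abs (hlenlim.const_mul C) (hxb k)
  set T' : κ → ℝ := fun k => T k + X k with hT'
  have hT'b : ∀ k, |T' k - T k| ≤ C * ((v:ℝ) - u) := fun k => by
    have : T' k - T k = X k := by simp only [hT']; ring
    rw [this]; exact hXb k
  have hdir' : ∑ k, (T k + g k * (1 - v)) * ((T' k - T k) + g k * ((v:ℝ) - u)) ≤ 0 := by
    have h1 : Tendsto (fun n => ∑ k, lam k * x k n) U (𝓝 (∑ k, lam k * X k)) :=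
      tendsto_finsetSum _ fun k _ => (hX k).const_mul _
    have h2 : ∀ ε : ℝ, 0 < ε → -(((v:ℝ) - u) * (∑ k, g k * lam k)) - ε ≤ ∑ k, lam k * X k := by
      intro ε hε
      refine ge_of_tendsto h1 ?_
      filter_upwards [hdir ε hε] with n hn
      have e1 : ∑ k, lam k * x k n =
          -((∑ k, lam k * shp (l n) (ww n) (lev n v) (fun k => w k n v) k) / ((hi n : ℝ) - lo n)) := by
        simp only [hx]
        rw [Finset.sum_div, ← Finset.sum_neg_distrib]
        exact Finset.sum_congr rfl fun k _ => by ring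
      rw [e1]
      linarith
    have h3 : -(((v:ℝ) - u) * (∑ k, g k * lam k)) ≤ ∑ k, lam k * X k := by
      by_contra hcon
      rw [not_le] at hcon
      have := h2 ((-(((v:ℝ) - u) * (∑ k, g k * lam k)) - ∑ k, lam k * X k) / 2) (by linarith)
      linarith
    have e2 : ∑ k, (T k + g k * (1 - v)) * ((T' k - T k) + g k * ((v:ℝ) - u)) =
        -(∑ k, lam k * X k) - ((v:ℝ) - u) * ∑ k, g k * lam k := by
      rw [Finset.mul_sum, ← Finset.sum_neg_distrib, ← Finset.sum_sub_distrib]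
      refine Finset.sum_congr rfl fun k _ => ?_
      simp only [hlam, hT']
      ring
    rw [e2]
    linarith
  have hEk := hE T' hT'b hdir'
  -- exponents of the new widths
  have htau' : ∀ k, Tendsto (fun n => Real.log ((rho (l n) / ww n k) /
      (rho (lev n 1) / w k n 1)) / B.L n) U (𝓝 (T' k)) := by
    intro k
    have h1 := (hX k).add (h.tau k)
    have e0 : X k + T k = T' k := by simp only [hT']; ring
    rw [e0] at h1
    refine h1.congr' ?_
    filter_upwards [hww0, hwv, hwt] with n a1 a2 a3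
    have hL := B.L_pos n
    have hp := len_pos hIn.lohi n
    have hlog : (0:ℝ) < Real.log 2 := Real.log_pos one_lt_two
    rw [log_ratio_split (r2 := rho (lev n v)) (w2 := w k n v) (rho_pos' _) (rho_pos' _)
      (rho_pos' _) (a1 k) (a2 k) (a3 k), add_div]
    congr 1
    simp only [hx]
    unfold shp
    rw [L_eq hIn.base hIn.lohi n]
    field_simp
  -- full shading
  have hownI : ∀ ε : ℝ, 0 < ε → ∀ᶠ n in (U : Filter ℕ), ∀ x ∈ I n,
      B.d n ^ ε * 2 ^ (hi n - lo n) ≤ ((own (I n) (lo n) (hi n) x).card : ℝ) := by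
    intro ε hε
    filter_upwards [hIn.own ε hε] with n hn x hx
    refine le_trans (le_of_eq ?_) (hn x hx)
    have e1 : (2:ℝ) ^ (hi n - lo n) = B.d n ^ (-1 : ℝ) := by
      rw [← two_pow_eq hIn.base hIn.lohi, one_mul, ← Nat.cast_sub (hIn.lohi n).le,
        Real.rpow_natCast]
    rw [e1, ← dpow_add]
    congr 1; ring
  obtain ⟨J2, hJ2J, hJ2d, hJ2own⟩ := full_own B (I := I) (J := J1) (l0 := lo) (l1 := hi) (t := 1)
    (Eventually.of_forall fun n => (hIn.lohi n).le) (InSeq.lim1 hIn) hIn.one hownI hJ1I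
  have hJ2I : Dense B J2 I := hJ2d.trans hJ1I
  have hJI : ∀ n, J1 n ⊆ I n := fun n => (hJ1J n).trans (h.sub n)
  -- near-maximality
  have hnear1 : ∀ ε : ℝ, 0 < ε → ∀ᶠ n in (U : Filter ℕ), ∀ c' : ℤ, ∀ t ∈ alive (J1 n) (l n) c',
      (D0 n * B.d n ^ (-(β * (u:ℝ)))) * vmu n ≤ B.d n ^ (-ε) *
        (((alive (J1 n) (l n) c').filter fun s => c n s c' = c n t c').card : ℝ) := by
    intro ε hε
    have hε2 : 0 < ε / 2 := by linarith
    filter_upwards [hSt.near (ε / 2) hε2, pow_bd hIn.base hIn.lohi hSt.lim β hε2, hvmu, hvm0]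
      with n a1 a2 a3 a4 c' t ht
    have a5 := a1 c' t ht
    rw [valx_zero, a3 c' t ht] at a5
    have a6 : D0 n * B.d n ^ (-(β * (u:ℝ))) * vmu n ≤
        B.d n ^ (-ε) * (D0 n * (2:ℝ) ^ (β * ((l n : ℝ) - lo n)) * B.d n ^ (ε / 2) * vmu n) := by
      have e1 : D0 n * B.d n ^ (-(β * (u:ℝ))) * vmu n =
          B.d n ^ (-ε) * (D0 n * B.d n ^ (-(β * (u:ℝ)) + ε / 2) * B.d n ^ (ε / 2) * vmu n) := by
        have : B.d n ^ (-ε) * (B.d n ^ (-(β * (u:ℝ)) + ε / 2) * B.d n ^ (ε / 2)) =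
            B.d n ^ (-(β * (u:ℝ))) := by
          rw [← dpow_add, ← dpow_add]; congr 1; ring
        rw [← this]; ring
      rw [e1]
      refine mul_le_mul_of_nonneg_left ?_ (dpow_pos B n _).le
      refine mul_le_mul_of_nonneg_right ?_ a4.le
      refine mul_le_mul_of_nonneg_right ?_ (dpow_pos B n _).le
      exact mul_le_mul_of_nonneg_left a2.1 (hIn.D0pos n).le
    exact a6.trans (mul_le_mul_of_nonneg_left a5 (dpow_pos B n _).le)
  obtain ⟨J3, hJ3J, hJ3d, hJ3o, hJ3n⟩ := near_full hIn.lohi hIn.one hownI hJI hJ2J hJ2I hSt.lo_le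
    hSt.le_hi (fun ε hε => by
      filter_upwards [hJ2own ε hε, hSt.lo_le, hSt.le_hi] with n b1 b2 b3 x hx
      exact b1 (l n) b2 b3 x hx) hnear1
  have hne3 : ∀ᶠ n in (U : Filter ℕ), (J3 n).Nonempty := (hJ3d.trans hJ2I).nonempty hIn.ne
  -- one cell of level `l` if `u = 0`
  have hcell : ∃ J4 : ℕ → Finset (ℕ × ℝ), (∀ n, J4 n ⊆ J3 n) ∧ Dense B J4 J3 ∧
      (u = 0 → ∀ᶠ n in (U : Filter ℕ), ∀ x ∈ J4 n, ∀ y ∈ J4 n, zc (l n) x.2 = zc (l n) y.2) ∧
      (∀ n, ∀ x ∈ J4 n, own (J4 n) (l n) (hi n) x = own (J3 n) (l n) (hi n) x) ∧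
      ∀ n, ∀ c' : ℤ, ∀ t ∈ alive (J4 n) (l n) c', alive (J4 n) (l n) c' = alive (J3 n) (l n) c' := by
    by_cases h0 : u = 0
    · have hl0 : Tendsto (fun n => ((l n : ℝ) - lo n) / ((hi n : ℝ) - lo n)) U (𝓝 0) := by
        have := hSt.lim
        rw [h0] at this
        simpa using this
      obtain ⟨cc, hcc⟩ := pop_cell hIn.base hIn.lohi hl0 hSt.lo_le hne3 (by
        filter_upwards [hIn.cell0] with n hn x hx y hy
        exact hn x (hJI n (hJ2J n (hJ3J n hx))) y (hJI n (hJ2J n (hJ3J n hy))))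
      refine ⟨fun n => (J3 n).filter fun x => zc (l n) x.2 = cc n, fun n => filter_subset _ _, hcc,
        fun _ => Eventually.of_forall fun n x hx y hy => ?_, fun n x hx => ?_,
        fun n c' t ht => ?_⟩
      · rw [(mem_filter.1 hx).2, (mem_filter.1 hy).2]
      · convert own_cell (F := J3 n) (j := hi n) (mem_filter.1 hx).2
      · obtain ⟨x, hx, hx1, hx2⟩ := mem_alive.1 ht
        have hc' : c' = cc n := hx2 ▸ (mem_filter.1 hx).2
        ext s
        rw [mem_alive, mem_alive]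
        constructor
        · rintro ⟨y, hy, hy1, hy2⟩
          exact ⟨y, (mem_filter.1 hy).1, hy1, hy2⟩
        · rintro ⟨y, hy, hy1, hy2⟩
          exact ⟨y, mem_filter.2 ⟨hy, by rw [hy2, hc']⟩, hy1, hy2⟩
    · exact ⟨J3, fun n => Finset.Subset.refl _, Dense.refl B J3, fun h' => absurd h' h0,
        fun n x hx => rfl, fun n c' t ht => rfl⟩
  obtain ⟨J4, hJ4J, hJ4d, hJ4c, hJ4o, hJ4a⟩ := hcell
  have hJ4J2 : ∀ n, J4 n ⊆ J2 n := fun n => (hJ4J n).trans (hJ3J n)
  have hJ4J1 : ∀ n, J4 n ⊆ J1 n := fun n => (hJ4J2 n).trans (hJ2J n)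
  have hJ4JJ : Dense B J4 J := ((hJ4d.trans hJ3d).trans hJ2d).trans hJ1d
  have hlimv : ∀ v1 ∈ S, Tendsto (fun n => ((lev n v1 : ℝ) - l n) * Real.log 2 / B.L n) U
      (𝓝 ((v1 : ℝ) - u)) := by
    intro v1 hv1S
    have a1 := lim_hi hIn.base hIn.lohi hSt.lim
    have a2 := h.mks.lev_lim v1 hv1S 1 h.oneS (h.S1 v1 hv1S)
    have a3 := a1.sub a2
    have e1 : (1 - (u:ℝ)) - (((1:ℚ) : ℝ) - v1) = (v1 : ℝ) - u := by push_cast; ring
    rw [e1] at a3
    refine a3.congr fun n => ?_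
    rw [h.lev1 n]
    ring
  obtain ⟨J5, hJ5J, hJ5d, hM⟩ := h.mks.insertLev h.oneS h.S1 (fun v1 hv1S => huv.trans_le
    (h.vmin v1 hv1S)) hJ4JJ l c bb vmu (fun k n => ww n k)
    (fun v1 hv1S => by
      filter_upwards [hll', h.mks.lev_mono v h.vS v1 hv1S (h.vmin v1 hv1S)] with n a1 a2
      exact a1.trans a2)
    hlimv hJ4c
    (by
      intro ε hε
      have hε2 : 0 < ε / 2 := by linarith
      have a1 := lim_hi hIn.base hIn.lohi hSt.lim
      have a2 := a1.eventually (Ioi_mem_nhds (show 1 - (u:ℝ) - ε / 2 < 1 - (u:ℝ) by linarith))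
      filter_upwards [hJ2own (ε / 2) hε2, hSt.lo_le, hSt.le_hi, a2] with n b1 b2 b3 b4 x hx
      rw [h.lev1 n, hJ4o n x hx, hJ3o n x (hJ4J n hx)]
      refine le_trans ?_ (b1 (l n) b2 b3 x (hJ4J2 n hx))
      have e1 : (2:ℝ) ^ (hi n - l n) = B.d n ^ (-(((hi n : ℝ) - l n) * Real.log 2 / B.L n)) := by
        have hL := B.L_pos n
        rw [← Real.rpow_natCast, Nat.cast_sub b3, Real.rpow_def_of_pos (by norm_num),
          Real.rpow_def_of_pos (B.pos n)]
        congr 1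
        have : Real.log (B.d n) = - B.L n := by unfold Base.L; ring
        rw [this]
        field_simp
      rw [e1, ← dpow_add]
      refine dpow_le B n ?_
      have b5 : 1 - (u:ℝ) - ε / 2 < ((hi n : ℝ) - l n) * Real.log 2 / B.L n := b4
      linarith)
    (by
      intro ε hε
      have hε2 : 0 < ε / 2 := by linarith
      filter_upwards [h.dm (ε / 2) hε2, pow_bd hIn.base hIn.lohi hSt.lim β hε2, hSt.lo_le,
        hSt.le_hi] with n a1 a2 a3 a4 c' s hs
      have a5 := a1 (l n) a3 a4 c' s hs.1 hs.2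
      rw [valx_zero] at a5
      have a6 : (((alive (J4 n) (l n) c').filter fun t => G.mem n (l n) c' s t).card : ℝ) ≤
          (((alive (J n) (l n) c').filter fun t => G.mem n (l n) c' s t).card : ℝ) := by
        exact_mod_cast card_le_card (filter_subset_filter _
          (alive_mono ((hJ4J1 n).trans (hJ1J n)) _ _))
      refine a6.trans (a5.trans ?_)
      show _ ≤ B.d n ^ (-ε) * (D0 n * B.d n ^ (-(β * (u:ℝ)))) * G.val n (l n) c' s
      refine mul_le_mul_of_nonneg_right ?_ (hIn.vpos _ _ _ _ hs.1).le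
      have a7 : (2:ℝ) ^ (β * ((l n : ℝ) - lo n)) * B.d n ^ (-(ε / 2)) ≤
          B.d n ^ (-(β * (u:ℝ)) - ε / 2) * B.d n ^ (-(ε / 2)) :=
        mul_le_mul_of_nonneg_right a2.2 (dpow_pos B n _).le
      calc D0 n * (2:ℝ) ^ (β * ((l n : ℝ) - lo n)) * B.d n ^ (-(ε / 2))
          = D0 n * ((2:ℝ) ^ (β * ((l n : ℝ) - lo n)) * B.d n ^ (-(ε / 2))) := by ring
        _ ≤ D0 n * (B.d n ^ (-(β * (u:ℝ)) - ε / 2) * B.d n ^ (-(ε / 2))) :=
            mul_le_mul_of_nonneg_left a7 (hIn.D0pos n).le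
        _ = B.d n ^ (-ε) * (D0 n * B.d n ^ (-(β * (u:ℝ)))) := by
            rw [← dpow_add]
            have : -(β * (u:ℝ)) - ε / 2 + -(ε / 2) = -ε + -(β * (u:ℝ)) := by ring
            rw [this, dpow_add]
            ring)
    (by
      filter_upwards [hSt.cl, hvmu, hSt.rng] with n a1 a2 a3 c' t ht
      have ht' : t ∈ alive (J1 n) (l n) c' := alive_mono (hJ4J1 n) _ _ ht
      obtain ⟨b1, b2, b3⟩ := a1 c' t ht'
      refine ⟨b1, ⟨b2, ?_⟩, a2 c' t ht', fun k => ?_⟩
      · rw [b3]; exact a3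
      · have := congrFun b3 k
        exact this)
    (by
      intro ε hε
      filter_upwards [hJ3n ε hε] with n b1 c' t ht
      have ht3 : t ∈ alive (J3 n) (l n) c' := alive_mono (hJ4J n) _ _ ht
      rw [hJ4a n c' t ht]
      exact b1 c' t ht3)
    hvm0 (fun k => by filter_upwards [hww0] with n hn using hn k)
    (fun k => by
      have a1 := (htau' k).sub_const (-(g k) * (1 - (u:ℝ)))
      have a2 := a1.abs
      have e1 : |T' k - -(g k) * (1 - (u:ℝ))| < e := by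
        have := hEk k
        have e2 : T' k - -(g k) * (1 - (u:ℝ)) = T' k + g k * (1 - u) := by ring
        rw [e2]; exact this
      filter_upwards [a2.eventually (Iio_mem_nhds e1)] with n hn
      exact le_of_lt hn)
  have hJ5J1 : ∀ n, J5 n ⊆ J1 n := fun n => (hJ5J n).trans (hJ4J1 n)
  have huS : u ∈ insert u S := mem_insert_self _ _
  have hu1' : (1:ℚ) ≠ u := hu1.ne'
  refine ⟨J5, fun n => Function.update (lev n) u (l n), fun n => Function.update (f n) u (c n),
    fun n => Function.update (b n) u (bb n), fun n => Function.update (vm n) u (vmu n),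
    fun k n => Function.update (w k n) u (ww n k), T', ?_, hT'b, hdir'⟩
  refine
    { sub := fun n => (hJ5J1 n).trans (hJI n)
      dense := (hJ5d.trans hJ4JJ).trans h.dense
      dm := dmaxAll_mono h.dm (Eventually.of_forall fun n => (hJ5J1 n).trans (hJ1J n))
      mks := hM
      vS := huS
      vmin := ?_
      oneS := mem_insert_of_mem h.oneS
      S1 := ?_
      st := ?_
      lev1 := ?_
      w1 := ?_
      tau := ?_ }
  · intro x hx
    rcases mem_insert.1 hx with rfl | hx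
    · exact le_rfl
    · exact huv.le.trans (h.vmin x hx)
  · intro x hx
    rcases mem_insert.1 hx with rfl | hx
    · exact hu1.le
    · exact h.S1 x hx
  · refine
      { lo_le := ?_
        le_hi := ?_
        lim := ?_
        rng := ?_
        cl := ?_
        near := ?_ }
    · filter_upwards [hSt.lo_le] with n hn
      simp only [Function.update_self]; exact hn
    · filter_upwards [hSt.le_hi] with n hn
      simp only [Function.update_self]; exact hn
    · simp only [Function.update_self]; exact hSt.lim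
    · filter_upwards [hSt.rng] with n hn
      simp only [Function.update_self]; exact hn
    · filter_upwards [hSt.cl] with n hn
      simp only [Function.update_self]
      exact isCl_mono hn (hJ5J1 n)
    · intro ε hε
      have hε2 : 0 < ε / 2 := by linarith
      filter_upwards [hM.near u huS (ε / 2) hε2, pow_bd hIn.base hIn.lohi hSt.lim β hε2, hvmu, hvm0]
        with n a1 a2 a3 a4 c' t ht
      simp only [Function.update_self] at a1 ht ⊢
      have a5 := a1 c' t ht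
      have ht1 : t ∈ alive (J1 n) (l n) c' := alive_mono (hJ5J1 n) _ _ ht
      rw [valx_zero, a3 c' t ht1]
      set NN : ℝ := (((alive (J5 n) (l n) c').filter fun s => c n s c' = c n t c').card : ℝ)
      have a6 : D0 n * (2:ℝ) ^ (β * ((l n : ℝ) - lo n)) * B.d n ^ ε * vmu n ≤
          B.d n ^ (ε / 2) * (D0 n * B.d n ^ (-(β * (u:ℝ))) * vmu n) := by
        have e1 : B.d n ^ (ε / 2) * (D0 n * B.d n ^ (-(β * (u:ℝ))) * vmu n) =
            D0 n * B.d n ^ (-(β * (u:ℝ)) - ε / 2) * B.d n ^ ε * vmu n := by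
          have : B.d n ^ (-(β * (u:ℝ)) - ε / 2) * B.d n ^ ε =
              B.d n ^ (ε / 2) * B.d n ^ (-(β * (u:ℝ))) := by
            rw [← dpow_add, ← dpow_add]; congr 1; ring
          calc _ = D0 n * (B.d n ^ (ε / 2) * B.d n ^ (-(β * (u:ℝ)))) * vmu n := by ring
            _ = _ := by rw [← this]; ring
        rw [e1]
        refine mul_le_mul_of_nonneg_right ?_ a4.le
        refine mul_le_mul_of_nonneg_right ?_ (dpow_pos B n _).le
        exact mul_le_mul_of_nonneg_left a2.2 (hIn.D0pos n).le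
      refine a6.trans ?_
      refine (mul_le_mul_of_nonneg_left a5 (dpow_pos B n _).le).trans (le_of_eq ?_)
      rw [← mul_assoc, ← dpow_add]
      simp
  · intro n
    simp only [Function.update_of_ne hu1']
    exact h.lev1 n
  · intro k n
    simp only [Function.update_of_ne hu1']
    exact h.w1 k n
  · intro k
    simp only [Function.update_self, Function.update_of_ne hu1']
    exact htau' k

end step

end Crest.Agent.R136.Ste163
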