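import Crest.Agent.R136.Ste2_650

/-!
# R136, U6 thin side, stage C (helper650): the assembly, the ball

* `exists_cut` : the cutoff; `FlS` : flags of the incidences, far away if not good;
* `ball_gd` : the incidences of a graded ball are good;
* `step_l`, `step_v` : lines and classes have natural size `≤ d^-C`, `C` independent of the ball;
* **`exists_ball`** : marks on good incidences.
-/

set_option autoImplicit false
set_option linter.unusedVariables false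

open Finset Filter Topology

namespace Crest.Agent.R136.Ste650

open Crest.Agent.R138.Ex926 (Base U)
open Crest.Agent.R138.Mk163 (zc zl rho)
open Crest.Agent.R138.MkRef627 (lc kc)
open Crest.Agent.R138.Dp76 (dpow_pos dpow_add dpow_le dpow_le_one)
open Crest.Agent.R138.ArgM163 (ev_const ev_const_mul)
open Crest.Agent.R136.ArgA163 (rho_pos tau_zero)
open Crest.Agent.R136.Sh605
open Crest.Agent.R136.MkA627
open Crest.Agent.R136.Net191
open Crest.Agent.R136.NetW191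
open Crest.Agent.R136.GeoN778
open Crest.Agent.R136.Wit321
open Crest.Agent.R136.Stc321
open Crest.Agent.R136.Top484
open Crest.Agent.R136.Tlt51 (mk4 zx rh)
open Crest.Agent.R136.FlW464 (frW drW rel_fr)
open Crest.Agent.R136.Fw650 (z0N zhN rhN cellN)
open Crest.Agent.R136.GW650 (Lin lin_wid lin_rho)
open Crest.Agent.R136.Tn327 (lin_two zmN abs_zh_zm CloseW)
open Crest.Agent.R136.Thn768 (ThinW)
open Crest.Agent.R136.Bal768 (InB MkA.ball')
open Crest.Agent.R136.PqG464 (wtW)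

theorem dpow_nat (B : Base) (n : ℕ) (a : ℝ) (m : ℕ) : (B.d n ^ a) ^ m = B.d n ^ ((m : ℝ) * a) := by
  rw [← Real.rpow_natCast, ← Real.rpow_mul (B.pos n).le]
  congr 1
  ring

theorem one_le_dpow (B : Base) (n : ℕ) {a : ℝ} (h : 0 ≤ a) : 1 ≤ B.d n ^ (-a) := by
  have := dpow_le B n (show -a ≤ (0 : ℝ) by linarith)
  rwa [Real.rpow_zero] at this

section

variable {p : Par4} {D : Dat4} {K : ℕ → CtD} {x0 : ℕ → ℕ × ℝ}

/-- properties of the cutoff `m` -/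
def Cut (D : Dat4) (K : ℕ → CtD) (m n : ℕ) : Prop :=
  (∀ x ∈ D.I n, Gd D K m n x → ∀ z, z0N D.lev (hzS K) (zsS K) 0 n (zc (D.lev n 0) x.2) ≤ z →
      z ≤ z0N D.lev (hzS K) (zsS K) 0 n (zc (D.lev n 0) x.2) + rhN D.lev (hzS K) n 0 →
      |ht (K n).κ z ((LS D K n x.1).pos z 1) ((LS D K n x.1).pos z 2) ((LS D K n x.1).pos z 0) -
        (K n).σ * evY (MkS D K 0 n (kc (D.lev n 0) (D.f n 0) x)) z ((LS D K n x.1).pos z 1)
          ((LS D K n x.1).pos z 2) ((LS D K n x.1).pos z 0)| ≤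
        (K n).σ * (aS D n 0 * D.B.d n ^ (-(1 : ℝ)))) ∧
  (K n).σ ≤ D.B.d n ^ (4 * (m : ℝ) + 4) ∧ (K n).P.Sm (D.B.d n ^ (4 * (m : ℝ) + 4))

theorem exists_cut (hs : StcA p D K x0) : ∃ N : ℕ → ℕ,
    (∀ᶠ n in (U : Filter ℕ), Cut D K (N n) n) ∧ ∀ m, ∀ᶠ n in (U : Filter ℕ), m ≤ N n :=
  exists_diag (P := Cut D K) fun m => by
    filter_upwards [hs.thick m 0 le_rfl zero_le_one 1 one_pos, hs.σs (4 * (m : ℝ) + 4),
      hs.sm (4 * (m : ℝ) + 4)] with n h1 h2 h3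
    exact ⟨h1, h2, h3⟩

/-- the true flag of level `0` -/
noncomputable def rF (D : Dat4) (K : ℕ → CtD) (n : ℕ) (x : ℕ × ℝ) : FW :=
  ⟨frW (LS D K n x.1) (zhN (hzS K) (zsS K) n x), MkS D K 0 n (kc (D.lev n 0) (D.f n 0) x)⟩

open Classical in
/-- flags of the incidences -/
noncomputable def FlS (D : Dat4) (K : ℕ → CtD) (N : ℕ → ℕ) (R : ℕ → ℝ) (n : ℕ) (x : ℕ × ℝ) : FW :=
  if Gd D K (N n) n x then rF D K n x else ⟨![R n + 2, 0, 0, 0], 0⟩

theorem FlS_pos {N : ℕ → ℕ} {R : ℕ → ℝ} {n : ℕ} {x : ℕ × ℝ} (h : Gd D K (N n) n x) :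
    FlS D K N R n x = rF D K n x := if_pos h

/-- **the incidences of a graded ball are good** -/
theorem ball_gd (h : ThinW p D) (hs : StcA p D K x0) {N : ℕ → ℕ}
    (hN : ∀ᶠ n in (U : Filter ℕ), Cut D K (N n) n) (hN' : ∀ m, ∀ᶠ n in (U : Filter ℕ), m ≤ N n)
    {C1 : ℝ} (hC1 : 0 < C1) : ∃ C3 : ℝ, ∀ᶠ n in (U : Filter ℕ), ∀ x ∈ D.I n,
      InB (K n).κ (FlS D K N (fun n => 2 * D.B.d n ^ (-C1)) n (x0 n))
        (FlS D K N (fun n => 2 * D.B.d n ^ (-C1)) n x) (2 * D.B.d n ^ (-C1)) → Gd D K C3 n x := by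
  obtain ⟨CG, hCG⟩ := hs.cenG
  set c0 := max CG 0 with hc0
  have c00 : 0 ≤ c0 := le_max_right _ _
  set c2 : ℝ := 63 * (c0 + 2 + C1) + 1 with hc2
  have c20 : 0 ≤ c2 := by positivity
  have cc2 : c0 ≤ c2 := by rw [hc2]; linarith
  refine ⟨2 * c2 + 1, ?_⟩
  filter_upwards [hN, hN' ⌈c2⌉₊, hCG, hs.cen, geo hs, nrm hs c00, aS_zero hs h,
    ev_const D.B (show (0 : ℝ) < 10 ^ 24 * 2 ^ 63 by norm_num) one_pos,
    ev_const_mul D.B (show (0 : ℝ) < 2000 by norm_num) one_pos] with n hcut hNn hG0 hx0 hgeo hnrm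
    ha hb hd x hx hin
  have dp := dpow_pos D.B n
  have Nc : c2 ≤ (N n : ℝ) := (Nat.le_ceil c2).trans (by exact_mod_cast hNn)
  have Nn0 : (0 : ℝ) ≤ (N n : ℝ) := Nat.cast_nonneg _
  have hG0' : Gd D K c0 n (x0 n) := gd_mono (le_max_left _ _) hG0
  have hG1 : Gd D K (N n) n (x0 n) := gd_mono (cc2.trans Nc) hG0'
  obtain ⟨g1, g2⟩ := hgeo
  obtain ⟨-, z00⟩ := g2 _ hx0
  obtain ⟨zc0, zx0⟩ := g2 x hx
  rw [FlS_pos hG1] at hin
  set r := 2 * D.B.d n ^ (-C1) with hr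
  have r1 : 1 ≤ r := by
    have := one_le_dpow D.B n hC1.le
    rw [hr]; linarith
  -- `x` is good for the cutoff
  have hGx : Gd D K (N n) n x := by
    by_contra hcon
    have e : FlS D K N (fun n => 2 * D.B.d n ^ (-C1)) n x = ⟨![r + 2, 0, 0, 0], 0⟩ := if_neg hcon
    rw [e] at hin
    have h0 := hin (Fin.castAdd 14 0)
    rw [coW_left] at h0
    have e2 : rel (K n).κ (rF D K n (x0 n)).g
        (⟨![r + 2, 0, 0, 0], 0⟩ : FW).g 0 = r + 2 - zhN (hzS K) (zsS K) n (x0 n) := rfl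
    have e3 : wtW (Fin.castAdd 14 (0 : Fin 4)) = 1 := rfl
    rw [e2, e3, pow_one] at h0
    have := (abs_le.1 h0).2
    have := (abs_le.1 z00).2
    linarith
  rw [FlS_pos hGx] at hin
  -- bounds of the flag of the centre
  set Γ := D.B.d n ^ (-(c0 + 2)) with hΓ
  have Γ1 : 1 ≤ Γ := one_le_dpow D.B n (by linarith)
  have hd2 : 2 ≤ D.B.d n ^ (-(1 : ℝ)) := by
    refine le_trans ?_ hb
    norm_num
  have hΓ' : 2 * D.B.d n ^ (-(c0 + 1)) ≤ Γ := by
    have e : Γ = D.B.d n ^ (-(1 : ℝ)) * D.B.d n ^ (-(c0 + 1)) := by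
      rw [hΓ, ← dpow_add]; congr 1; ring
    rw [e]
    exact mul_le_mul_of_nonneg_right hd2 (dp _).le
  have q1 : D.B.d n ^ (-(c0 + 1)) ≤ Γ := dpow_le D.B n (by linarith)
  have f0g : ∀ i, |(rF D K n (x0 n)).g i| ≤ Γ := by
    have hp : ∀ k, |(LS D K n (x0 n).1).pos (zhN (hzS K) (zsS K) n (x0 n)) k| ≤ Γ := by
      intro k
      show |(LS D K n (x0 n).1).p k + _ * (LS D K n (x0 n).1).v k| ≤ Γ
      refine (abs_add_le _ _).trans ?_
      rw [abs_mul]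
      have a1 := hnrm (x0 n) hG0' k
      have a2 := mul_le_mul (z00.trans (by norm_num : (1 : ℝ) / 4 ≤ 1)) a1.2 (abs_nonneg _)
        zero_le_one
      linarith [a1.1]
    intro i
    fin_cases i
    · exact z00.trans (by linarith)
    · exact (hnrm (x0 n) hG0' 1).2.trans q1
    · exact hp 1
    · exact hp 2
  have f0G : ∀ k, |(rF D K n (x0 n)).G k| ≤ Γ := fun k =>
    (hG0'.2.2 k).trans (dpow_le D.B n (by linarith))
  obtain ⟨bg, bG⟩ := inB_bd (hs.kp1 n) Γ1 r1 f0g f0G hin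
  -- one bound for everything
  set Γ2 := D.B.d n ^ (-c2) with hΓ2
  have eX : Γ * r = 2 * D.B.d n ^ (-(c0 + 2 + C1)) := by
    rw [hΓ, hr, show -(c0 + 2 + C1) = -(c0 + 2) + -C1 by ring, dpow_add]; ring
  have X1 : 1 ≤ Γ * r := one_le_mul_of_one_le_of_one_le Γ1 r1
  have big : 10 ^ 24 * (Γ * r) ^ 63 ≤ Γ2 := by
    rw [eX, mul_pow, dpow_nat]
    have e : Γ2 = D.B.d n ^ (-(1 : ℝ)) * D.B.d n ^ (((63 : ℕ) : ℝ) * -(c0 + 2 + C1)) := by
      rw [hΓ2, ← dpow_add]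
      congr 1
      rw [hc2]; push_cast; ring
    rw [e, ← mul_assoc]
    exact mul_le_mul_of_nonneg_right hb (dp _).le
  have sml : 5 * (Γ * r) ^ 3 ≤ Γ2 := by
    refine le_trans ?_ big
    have h1 : (Γ * r) ^ 3 ≤ (Γ * r) ^ 63 := pow_le_pow_right₀ X1 (by norm_num)
    have h2 : 0 ≤ (Γ * r) ^ 63 := by positivity
    nlinarith
  have g' : ∀ i, |(rF D K n x).g i| ≤ Γ2 := fun i => (bg i).trans sml
  have G' : ∀ k, |(rF D K n x).G k| ≤ Γ2 := fun k => (bG k).trans big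
  have Γ21 : 1 ≤ Γ2 := one_le_dpow D.B n c20
  -- a priori bound of the line
  obtain ⟨t1, t2, t3⟩ := hcut
  set R := D.B.d n ^ (-(N n : ℝ)) with hR
  have R1 : 1 ≤ R := one_le_dpow D.B n Nn0
  set τ := D.B.d n ^ (1 : ℝ) with hτ
  have τ0 : 0 < τ := dp _
  have η2 : 40 * (D.B.d n ^ (4 * (N n : ℝ) + 4) * R ^ 2) ≤ 1 := by
    have e : D.B.d n ^ (4 * (N n : ℝ) + 4) * R ^ 2 = D.B.d n ^ (2 * (N n : ℝ) + 4) := by
      rw [hR, dpow_nat, ← dpow_add]; congr 1; push_cast; ring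
    have : D.B.d n ^ (2 * (N n : ℝ) + 4) ≤ τ := dpow_le D.B n (by linarith)
    rw [e]
    linarith
  obtain ⟨hp, hv⟩ := hat_bd t3 R1 η2 (fun k => (hGx.1 k).1) (fun k => (hGx.1 k).2)
  have tri : ∀ {u v s : ℝ}, |u - v| ≤ 1 → |v| ≤ s → |u| ≤ s + 1 := by
    intro u v s h h'
    rw [abs_le] at *
    constructor <;> linarith
  have Lp : ∀ k, |(LS D K n x.1).p k| ≤ 2 * R := fun k =>
    (tri (hp k) (hGx.1 k).1).trans (by linarith)
  have Lv : ∀ k, |(LS D K n x.1).v k| ≤ 2 * R := fun k =>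
    (tri (hv k) (hGx.1 k).2).trans (by linarith)
  have hth := t1 x hx hGx
  rw [zc0, g1, ha, one_mul] at hth
  have zl1 : |(-1 / 4 : ℝ)| ≤ 1 := by rw [abs_le]; constructor <;> norm_num
  have hle := ht_le (κ := (K n).κ) (hs.σ0 n).le zl1 (show 1 ≤ 2 * R by linarith) Lp Lv G' hth
  have hsm : (K n).σ * (126 * (Γ2 * (2 * R) ^ 2) + D.B.d n ^ (-(1 : ℝ))) ≤ 1 := by
    have e1 : D.B.d n ^ (4 * (N n : ℝ) + 4) * (126 * (Γ2 * (2 * R) ^ 2)) =
        504 * D.B.d n ^ (2 * (N n : ℝ) + 4 - c2) := by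
      have : D.B.d n ^ (4 * (N n : ℝ) + 4) * Γ2 * R ^ 2 = D.B.d n ^ (2 * (N n : ℝ) + 4 - c2) := by
        rw [hR, hΓ2, dpow_nat, ← dpow_add, ← dpow_add]; congr 1; push_cast; ring
      rw [← this]; ring
    have e2 : D.B.d n ^ (2 * (N n : ℝ) + 4 - c2) ≤ τ := dpow_le D.B n (by linarith)
    have e3 : D.B.d n ^ (4 * (N n : ℝ) + 4) * D.B.d n ^ (-(1 : ℝ)) ≤ τ := by
      rw [← dpow_add]; exact dpow_le D.B n (by linarith)
    have e4 : 0 ≤ 126 * (Γ2 * (2 * R) ^ 2) + D.B.d n ^ (-(1 : ℝ)) := by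
      have := dp (-(1 : ℝ))
      positivity
    refine (mul_le_mul_of_nonneg_right t2 e4).trans ?_
    rw [mul_add, e1]
    linarith
  obtain ⟨np, nv⟩ := nrm_bd (κ := (K n).κ) (zl := -1 / 4) (z1 := zhN (hzS K) (zsS K) n x)
    (hs.kp1 n) Γ21 zl1 (zx0.trans (by norm_num)) (fun z h1 h2 => (hle z h1 h2).trans hsm)
    (g' 1) (g' 2) (g' 3)
  -- back to container coordinates
  have tri2 : ∀ {u v s : ℝ}, |u - v| ≤ 1 → |u| ≤ s → |v| ≤ s + 1 := by
    intro u v s h h'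
    rw [abs_le] at *
    constructor <;> linarith
  have fin : 400 * Γ2 ^ 2 + 1 ≤ D.B.d n ^ (-(2 * c2 + 1)) := by
    have e : D.B.d n ^ (-(2 * c2 + 1)) = D.B.d n ^ (-(1 : ℝ)) * Γ2 ^ 2 := by
      rw [hΓ2, dpow_nat, ← dpow_add]; congr 1; push_cast; ring
    have h2 : 401 ≤ D.B.d n ^ (-(1 : ℝ)) := le_trans (by norm_num) hb
    have h3 : 1 ≤ Γ2 ^ 2 := one_le_pow₀ Γ21
    rw [e]
    nlinarith
  refine ⟨fun k => ⟨(tri2 (hp k) (np k)).trans fin, (tri2 (hv k) (nv k)).trans fin⟩, hGx.2.1,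
    fun k => (G' k).trans ?_⟩
  exact dpow_le D.B n (by linarith)

/-- **a line does not leave the ball** -/
theorem step_l (h : ThinW p D) (hs : StcA p D K x0) (C : ℝ) : ∀ᶠ n in (U : Filter ℕ),
    ∀ x ∈ D.I n, Gd D K C n x → ∀ y ∈ D.I n, y.1 = x.1 →
      Gd D K C n y ∧ ∀ k, |coW (K n).κ (rF D K n x) (rF D K n y) k| ≤ 1 := by
  filter_upwards [drift h hs C 0, h.mka.cell0, geo hs] with n h1 h2 h3 x hx hg y hy hxy
  have hz := h2 y hy x hx
  have em : mk4 D n 0 y = mk4 D n 0 x := by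
    unfold mk4
    rw [hxy, hz]
  have ek : kc (D.lev n 0) (D.f n 0) y = kc (D.lev n 0) (D.f n 0) x := by
    unfold kc
    rw [hxy, hz]
  refine ⟨⟨by rw [hxy]; exact hg.1, by rw [em]; exact hg.2.1, by rw [em]; exact hg.2.2⟩, ?_⟩
  have hzx := (h3.2 x hx).2
  have hzy := (h3.2 y hy).2
  have hdz : |zhN (hzS K) (zsS K) n y - zhN (hzS K) (zsS K) n x| ≤ 1 := by
    rw [abs_le] at *
    constructor <;> linarith
  have hdr := h1 x hx hg
  rw [Real.rpow_zero] at hdr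
  intro k
  refine Fin.addCases (m := 4) (n := 14) (fun i => ?_) (fun q => ?_) k
  · rw [coW_left]
    show |rel (K n).κ (frW (LS D K n x.1) _) (frW (LS D K n y.1) _) i| ≤ 1
    rw [hxy, rel_fr]
    fin_cases i
    · exact hdz
    · show |(0 : ℝ)| ≤ 1
      rw [abs_zero]; exact zero_le_one
    · show |(0 : ℝ)| ≤ 1
      rw [abs_zero]; exact zero_le_one
    · show |drW _ _ * (_ - _)| ≤ 1
      rw [abs_mul]
      exact mul_le_one₀ hdr (abs_nonneg _) hdz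
  · rw [coW_right]
    have e : (rF D K n y).G - (rF D K n x).G = 0 := by
      show MkS D K 0 n _ - MkS D K 0 n _ = 0
      rw [ek, sub_self]
    rw [e, tr_zero, Pi.zero_apply, abs_zero]
    exact zero_le_one

/-- **a class does not leave the ball**, the constant does not depend on the level and on the
goodness -/
theorem step_v (h : ThinW p D) (hs : StcA p D K x0) : ∃ Ck : ℝ, 0 < Ck ∧ ∀ v : ℚ, 0 ≤ v → v ≤ 1 →
    ∀ C : ℝ, ∃ C' : ℝ, ∀ᶠ n in (U : Filter ℕ), ∀ x ∈ D.I n, Gd D K C n x → ∀ y ∈ D.I n,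
      kc (D.lev n v) (D.f n v) y = kc (D.lev n v) (D.f n v) x →
        Gd D K C' n y ∧ ∀ k, |coW (K n).κ (rF D K n x) (rF D K n y) k| ≤ D.B.d n ^ (-Ck) := by
  obtain ⟨E, E0, hE⟩ := exps h hs
  obtain ⟨C0, C00, hcl⟩ := hs.clw
  set c1 : ℝ := 4 * E + C0 + 4 with hc1
  have c10 : 0 ≤ c1 := by positivity
  refine ⟨112 * c1 + 1, by positivity, fun v v0 v1 C => ?_⟩
  have v0' : (0 : ℝ) ≤ v := by exact_mod_cast v0
  have v1' : (v : ℝ) ≤ 1 := by exact_mod_cast v1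
  have hv01 : C0 * ((v : ℝ) - ((0 : ℚ) : ℝ)) ≤ C0 :=
    mul_le_of_le_one_right C00 (by push_cast; linarith)
  obtain ⟨Cm, hCm⟩ := hs.mate C v v0 v1
  refine ⟨Cm, ?_⟩
  set C2 := max C Cm with hC2
  have hclv : ∀ᶠ n in (U : Filter ℕ), 0 < v → ∀ x ∈ D.I n, Gd D K C2 n x →
      CloseW (K n).κ (frW (LS D K n x.1) (zmN D.lev (hzS K) (zsS K) v n x))
        (rhN D.lev (hzS K) n v * D.B.d n ^ (1 : ℝ)) (wAS D K n v * D.B.d n ^ (1 : ℝ))
        (wAS D K n v ^ 2 / rhN D.lev (hzS K) n v * D.B.d n ^ (1 : ℝ))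
        (max (aS D n 0) (aS D n v) * D.B.d n ^ (-(C0 * ((v : ℝ) - (0 : ℚ))) - 1))
        (MkS D K v n (kc (D.lev n v) (D.f n v) x)) (MkS D K 0 n (kc (D.lev n 0) (D.f n 0) x)) := by
    rcases v0.eq_or_lt with hv | hv
    · exact Eventually.of_forall fun n h0 => absurd h0 (by rw [← hv]; exact lt_irrefl _)
    · filter_upwards [hcl C2 0 v le_rfl hv v1 1 one_pos] with n hn _
      exact hn
  filter_upwards [hCm, hs.lat C v v0 v1 1 one_pos, slope hs C v0 v1 one_pos, drift h hs C2 E,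
    hE v v0 v1, hE 0 le_rfl zero_le_one, geo hs, hclv,
    ev_const D.B (show (0 : ℝ) < 10 ^ 22 by norm_num) one_pos] with n hm hlat hsl hdr hEv hE0 hgeo
    hclo hb x hx hg y hy hxy
  obtain ⟨⟨wa1, wa2⟩, ⟨rh1, rh2⟩, as1, as2⟩ := hEv
  have hgy : Gd D K Cm n y := hm x hx y hy hxy hg
  refine ⟨hgy, ?_⟩
  have dp := dpow_pos D.B n
  have hr0 : 0 < rhN D.lev (hzS K) n v := (dp _).trans_le rh1
  have hA0 : 0 < wAS D K n v := (dp _).trans_le wa1
  set ρ := rhN D.lev (hzS K) n v with hρ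
  set wA := wAS D K n v with hwA
  set zx := zhN (hzS K) (zsS K) n x with hzx
  set zy := zhN (hzS K) (zsS K) n y with hzy
  have hzx4 : |zx| ≤ 1 / 4 := (hgeo.2 x hx).2
  have hzy4 : |zy| ≤ 1 / 4 := (hgeo.2 y hy).2
  have hdz : |zy - zx| ≤ 1 := by
    rw [abs_le] at *
    constructor <;> linarith
  set X := D.B.d n ^ (-c1) with hX
  have d2 : 2 ≤ D.B.d n ^ (-(1 : ℝ)) := le_trans (by norm_num) hb
  have d6 : 6 ≤ D.B.d n ^ (-(1 : ℝ)) := le_trans (by norm_num) hb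
  have dinv : D.B.d n ^ (-(1 : ℝ)) * D.B.d n ^ (1 : ℝ) = 1 := by
    rw [← dpow_add, neg_add_cancel, Real.rpow_zero]
  have X6 : 6 ≤ X := d6.trans (dpow_le D.B n (by linarith))
  have X1 : 1 ≤ X := by linarith
  -- quotients of sizes
  have q1 : wA / ρ ≤ D.B.d n ^ (-(2 * E)) := by
    rw [div_le_iff₀ hr0]
    calc wA ≤ D.B.d n ^ (-E) := wa2
      _ = D.B.d n ^ (-(2 * E)) * D.B.d n ^ E := by rw [← dpow_add]; congr 1; ring
      _ ≤ _ := mul_le_mul_of_nonneg_left rh1 (dp _).le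
  have q2 : ρ / wA ≤ D.B.d n ^ (-(2 * E)) := by
    rw [div_le_iff₀ hA0]
    calc ρ ≤ D.B.d n ^ (-E) := rh2
      _ = D.B.d n ^ (-(2 * E)) * D.B.d n ^ E := by rw [← dpow_add]; congr 1; ring
      _ ≤ _ := mul_le_mul_of_nonneg_left wa1 (dp _).le
  have q3 : wA ^ 2 / ρ ≤ D.B.d n ^ (-(3 * E)) := by
    have e : wA ^ 2 / ρ = wA * (wA / ρ) := by ring
    rw [e]
    calc wA * (wA / ρ) ≤ D.B.d n ^ (-E) * D.B.d n ^ (-(2 * E)) :=
          mul_le_mul wa2 q1 (by positivity) (dp _).le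
      _ = _ := by rw [← dpow_add]; congr 1; ring
  have q4 : D.B.d n ^ (3 * E) ≤ wA ^ 2 / ρ := by
    rw [le_div_iff₀ hr0]
    have e2 : (D.B.d n ^ E) ^ 2 ≤ wA ^ 2 := pow_le_pow_left₀ (dp _).le wa1 2
    calc D.B.d n ^ (3 * E) * ρ ≤ D.B.d n ^ (3 * E) * D.B.d n ^ (-E) :=
          mul_le_mul_of_nonneg_left rh2 (dp _).le
      _ = (D.B.d n ^ E) ^ 2 := by rw [dpow_nat, ← dpow_add]; congr 1; push_cast; ring
      _ ≤ _ := e2
  have p0 : 0 < wA ^ 2 / ρ := by positivity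
  have hgx2 : Gd D K C2 n x := gd_mono (le_max_left _ _) hg
  have hgy2 : Gd D K C2 n y := gd_mono (le_max_right _ _) hgy
  -- frames
  have hcell := cell_kc hxy
  obtain ⟨cy1, cy2⟩ := cellN (lev := D.lev) (hz := hzS K) (zs := zsS K) (hz_pos hs n) v y
  rw [hcell] at cy1 cy2
  obtain ⟨l1, l2⟩ := hlat x hx y hy hxy hg zy cy1 cy2
  have l3 := hsl x hx y hy hxy hg
  have hdx := hdr x hx hgx2
  have hdy := hdr y hy hgy2
  have dE1 : D.B.d n ^ E ≤ 1 := dpow_le_one D.B n E0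
  have hrel : ∀ i, |rel (K n).κ (frW (LS D K n x.1) zx) (frW (LS D K n y.1) zy) i| ≤ X := by
    rw [rel_two]
    intro i
    fin_cases i
    · exact hdz.trans X1
    · refine le_trans l3 ?_
      calc 2 * (wA / ρ * D.B.d n ^ (-(1 : ℝ)))
          ≤ D.B.d n ^ (-(1 : ℝ)) * (D.B.d n ^ (-(2 * E)) * D.B.d n ^ (-(1 : ℝ))) :=
            mul_le_mul d2 (mul_le_mul_of_nonneg_right q1 (dp _).le)
              (mul_nonneg (by positivity) (dp _).le) (dp _).le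
        _ = D.B.d n ^ (-(2 * E + 2)) := by rw [← dpow_add, ← dpow_add]; congr 1; ring
        _ ≤ _ := dpow_le D.B n (by linarith)
    · refine le_trans l1 ?_
      calc wA * D.B.d n ^ (-(1 : ℝ)) ≤ D.B.d n ^ (-E) * D.B.d n ^ (-(1 : ℝ)) :=
            mul_le_mul_of_nonneg_right wa2 (dp _).le
        _ = D.B.d n ^ (-(E + 1)) := by rw [← dpow_add]; congr 1; ring
        _ ≤ _ := dpow_le D.B n (by linarith)
    · refine (abs_add_le _ _).trans ?_
      rw [abs_mul (drW _ _)]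
      have a1 : |drW (K n).κ (LS D K n x.1)| * |zy - zx| ≤ 1 :=
        mul_le_one₀ (hdx.trans dE1) (abs_nonneg _) hdz
      have a2 : wBS D K n v * D.B.d n ^ (-(1 : ℝ)) ≤ D.B.d n ^ (-(3 * E + 1)) := by
        calc wBS D K n v * D.B.d n ^ (-(1 : ℝ)) ≤ D.B.d n ^ (-(3 * E)) * D.B.d n ^ (-(1 : ℝ)) :=
              mul_le_mul_of_nonneg_right q3 (dp _).le
          _ = _ := by rw [← dpow_add]; congr 1; ring
      have a3 : 1 ≤ D.B.d n ^ (-(3 * E + 1)) := one_le_dpow D.B n (by linarith)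
      calc _ ≤ D.B.d n ^ (-(3 * E + 1)) + 1 := add_le_add (l2.trans a2) a1
        _ ≤ 2 * D.B.d n ^ (-(3 * E + 1)) := by linarith
        _ ≤ D.B.d n ^ (-(1 : ℝ)) * D.B.d n ^ (-(3 * E + 1)) :=
            mul_le_mul_of_nonneg_right d2 (dp _).le
        _ = D.B.d n ^ (-(3 * E + 2)) := by rw [← dpow_add]; congr 1; ring
        _ ≤ _ := dpow_le D.B n (by linarith)
  have XK : X ≤ D.B.d n ^ (-(112 * c1 + 1)) := dpow_le D.B n (by linarith)
  intro k
  refine Fin.addCases (m := 4) (n := 14) (fun i => ?_) (fun q => ?_) k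
  · rw [coW_left]
    exact (hrel i).trans XK
  · rw [coW_right]
    show |tr (K n).κ (frW (LS D K n y.1) zy) (MkS D K 0 n (kc (D.lev n 0) (D.f n 0) y) -
      MkS D K 0 n (kc (D.lev n 0) (D.f n 0) x)) q| ≤ _
    rcases v0.eq_or_lt with hv | hv
    · rw [← hv] at hxy
      rw [hxy, sub_self, tr_zero, Pi.zero_apply, abs_zero]
      exact (dp _).le
    · have cx := hclo hv x hx hgx2
      have cy := hclo hv y hy hgy2
      rw [hxy] at cy
      have hd1 : 0 < D.B.d n ^ (1 : ℝ) := dp _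
      have er : wA ^ 2 / ρ * D.B.d n ^ (1 : ℝ) = (wA * D.B.d n ^ (1 : ℝ)) ^ 2 /
          (ρ * D.B.d n ^ (1 : ℝ)) := by
        field_simp
      rw [er] at cx cy
      have Xr : ρ ≤ X * (ρ * D.B.d n ^ (1 : ℝ)) := by
        have h1 : 1 ≤ X * D.B.d n ^ (1 : ℝ) := by
          rw [hX, ← dpow_add]
          have := one_le_dpow D.B n (show 0 ≤ c1 - 1 by linarith)
          rwa [show -c1 + 1 = -(c1 - 1) by ring]
        calc ρ = 1 * ρ := (one_mul _).symm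
          _ ≤ X * D.B.d n ^ (1 : ℝ) * ρ := mul_le_mul_of_nonneg_right h1 hr0.le
          _ = _ := by ring
      have Xb : 1 ≤ X * ((wA * D.B.d n ^ (1 : ℝ)) ^ 2 / (ρ * D.B.d n ^ (1 : ℝ))) := by
        rw [← er]
        calc (1 : ℝ) ≤ D.B.d n ^ (-(c1 - 3 * E - 1)) := one_le_dpow D.B n (by linarith)
          _ = X * (D.B.d n ^ (3 * E) * D.B.d n ^ (1 : ℝ)) := by
              rw [hX, ← dpow_add, ← dpow_add]; congr 1; ring
          _ ≤ _ := mul_le_mul_of_nonneg_left (mul_le_mul_of_nonneg_right q4 hd1.le) (by linarith)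
      have drb : ∀ {δ z z' : ℝ}, |δ| ≤ D.B.d n ^ E → |z - z'| ≤ ρ → |δ * (z - z')| ≤
          X * ((wA * D.B.d n ^ (1 : ℝ)) ^ 2 / (ρ * D.B.d n ^ (1 : ℝ))) := by
        intro δ z z' h1 h2
        rw [abs_mul]
        refine le_trans ?_ Xb
        calc |δ| * |z - z'| ≤ D.B.d n ^ E * D.B.d n ^ (-E) :=
              mul_le_mul h1 (h2.trans rh2) (abs_nonneg _) (dp _).le
          _ = 1 := by rw [← dpow_add, add_neg_cancel, Real.rpow_zero]
      have zmx := abs_zh_zm (lev := D.lev) (hz := hzS K) (zs := zsS K) (hz_pos hs n) v x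
      have zmy := abs_zh_zm (lev := D.lev) (hz := hzS K) (zs := zsS K) (hz_pos hs n) v y
      have h1r : 1 / (ρ * D.B.d n ^ (1 : ℝ)) ≤ X := by
        rw [div_le_iff₀ (mul_pos hr0 hd1)]
        calc (1 : ℝ) ≤ D.B.d n ^ (-(c1 - E - 1)) := one_le_dpow D.B n (by linarith)
          _ = X * (D.B.d n ^ E * D.B.d n ^ (1 : ℝ)) := by
              rw [hX, ← dpow_add, ← dpow_add]; congr 1; ring
          _ ≤ _ := mul_le_mul_of_nonneg_left (mul_le_mul_of_nonneg_right rh1 hd1.le) (by linarith)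
      have h1c : 1 / (wA * D.B.d n ^ (1 : ℝ) / (ρ * D.B.d n ^ (1 : ℝ))) ≤ X := by
        have e : 1 / (wA * D.B.d n ^ (1 : ℝ) / (ρ * D.B.d n ^ (1 : ℝ))) = ρ / wA := by
          field_simp
        rw [e]
        exact q2.trans (dpow_le D.B n (by linarith))
      have hD : max (aS D n 0) (aS D n v) * D.B.d n ^ (-(C0 * ((v : ℝ) - (0 : ℚ))) - 1) ≤ X := by
        have m1 : max (aS D n 0) (aS D n v) ≤ D.B.d n ^ (-E) := max_le hE0.2.2.2 as2
        have m2 : D.B.d n ^ (-(C0 * ((v : ℝ) - (0 : ℚ))) - 1) ≤ D.B.d n ^ (-(C0 + 1)) := by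
          refine dpow_le D.B n ?_
          linarith
        calc _ ≤ D.B.d n ^ (-E) * D.B.d n ^ (-(C0 + 1)) :=
              mul_le_mul m1 m2 (dp _).le (dp _).le
          _ = D.B.d n ^ (-(E + C0 + 1)) := by rw [← dpow_add]; congr 1; ring
          _ ≤ _ := dpow_le D.B n (by linarith)
      have main := step_k (hs.kp1 n) (zx := zx) (zy := zy) (zm := zmN D.lev (hzS K) (zsS K) v n x)
        (zn := zmN D.lev (hzS K) (zsS K) v n y) X6 (mul_pos hr0 hd1) (mul_pos hA0 hd1) h1r h1c hD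
        hrel cx cy (zmx.trans Xr) (zmy.trans Xr) (drb hdx zmx) (drb hdy zmy) q
      refine main.trans ?_
      have e : X ^ 112 = D.B.d n ^ (-(112 * c1)) := by
        rw [hX, dpow_nat]; congr 1; push_cast; ring
      rw [e]
      calc 10 ^ 22 * D.B.d n ^ (-(112 * c1)) ≤ D.B.d n ^ (-(1 : ℝ)) * D.B.d n ^ (-(112 * c1)) :=
            mul_le_mul_of_nonneg_right hb (dp _).le
        _ = _ := by rw [← dpow_add]; congr 1; ring

/-- **marks on good incidences** -/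
theorem exists_ball (h : ThinW p D) (hs : StcA p D K x0) :
    ∃ (I' : ℕ → Finset (ℕ × ℝ)) (C : ℝ), (∀ n, I' n ⊆ D.I n) ∧
      MkA D.B I' (D.G p) D.lev D.A (fun v => p.g * v) (fun v => 0 * v)
        (fun j v => p.θ j * (1 - v)) D.f D.b D.vm D.w ∧
      ∀ᶠ n in (U : Filter ℕ), ∀ x ∈ I' n, Gd D K C n x := by
  obtain ⟨N, hN, hN'⟩ := exists_cut hs
  obtain ⟨Ck, Ck0, hCk⟩ := step_v h hs
  have hC1 : 0 < 40 * Ck := by linarith
  obtain ⟨C3, hC3⟩ := ball_gd h hs hN hN' hC1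
  have hge : ∀ C : ℝ, ∀ᶠ n in (U : Filter ℕ), C ≤ (N n : ℝ) := fun C => by
    filter_upwards [hN' ⌈C⌉₊] with n hn
    exact (Nat.le_ceil C).trans (by exact_mod_cast hn)
  have e40 : -(40 * Ck / 40) = -Ck := by ring
  obtain ⟨I', hI, hM, hB⟩ := MkA.ball' h.mka hs.kp1 (FlS D K N (fun n => 2 * D.B.d n ^ (-(40 * Ck))))
    x0 hs.cen hC1
    (by
      filter_upwards [hC3, step_l h hs C3, hge C3] with n h1 h2 h3 x hx hin y hy hxy k
      have hg := h1 x hx hin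
      obtain ⟨hgy, hk⟩ := h2 x hx hg y hy hxy
      rw [FlS_pos (gd_mono h3 hg), FlS_pos (gd_mono h3 hgy), e40]
      exact (hk k).trans (one_le_dpow D.B n Ck0.le))
    (by
      intro v v0 v1
      obtain ⟨C', hC'⟩ := hCk v v0 v1 C3
      filter_upwards [hC3, hC', hge C3, hge C'] with n h1 h2 h3 h4 x hx hin y hy hxy k
      have hg := h1 x hx hin
      obtain ⟨hgy, hk⟩ := h2 x hx hg y hy hxy
      rw [FlS_pos (gd_mono h3 hg), FlS_pos (gd_mono h4 hgy), e40]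
      exact hk k)
  refine ⟨I', C3, hI, hM, ?_⟩
  filter_upwards [hC3] with n h1 x hx
  exact h1 x (hI n hx) (hB n x hx)

end

end Crest.Agent.R136.Ste650
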