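import Mathlib
import Crest.Agent.R136.Ste3_163

/-!
# R136 (helper163): steering, mesh induction (part 3)

* `mesh_mkS` : for every `N` a dense part carries a marked sequence for the mesh `{j / N}` with the
  exponents of all widths linear up to `C' / √N`.
* `exists_mkA` : the final diagonal, all exponents exactly linear.
-/

set_option autoImplicit false
set_option linter.unusedVariables false
set_option linter.unusedSectionVars false

open Finset Filter Topology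

namespace Crest.Agent.R136.Ste163

open Crest.Agent.R138.Ex926 Crest.Agent.R138.Dp76 Crest.Agent.R138.Ps627
open Crest.Agent.R138.Ps926 (dpow_small)
open Crest.Agent.R138.Mk163 (zc zl rho alive own)
open Crest.Agent.R138.MkRef627 (lc kc own_one alive_mono mem_alive card_class own_lower)
open MkA627 (Geo MkA ampA)
open XA248 Dia770

variable {σ κ : Type} [Fintype κ]

section

variable {B : Base} {I : ℕ → Finset (ℕ × ℝ)} {G : Geo σ κ} {R : Rel κ}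
    {Sh : ℕ → Finset (κ → ℝ)} {lo hi : ℕ → ℕ} {D0 : ℕ → ℝ} {β Cu C : ℝ} {ct : ℕ → ℕ → ℤ → ℕ}
    {bt : ℕ → ℕ → σ} {wt : ℕ → κ → ℝ} {g : κ → ℝ}

/-- the base of the mesh induction -/
theorem base_pst (hIn : InSeq B I G R Sh lo hi D0 β Cu ct bt wt)
    (hR : ∀ᶠ n in (U : Filter ℕ), R (hi n) (wt n) (hi n) (wt n))
    {J0 : ℕ → Finset (ℕ × ℝ)} (hJ0 : Dense B J0 I)
    (hdm : DMaxAll B J0 G R lo hi D0 β wt) (g : κ → ℝ) {e : ℝ} (he : 0 ≤ e) :
    ∃ (J : ℕ → Finset (ℕ × ℝ)) (lev : ℕ → ℚ → ℕ) (f : ℕ → ℚ → ℕ → ℤ → ℕ)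
      (b : ℕ → ℚ → ℕ → σ) (vm : ℕ → ℚ → ℝ) (w : κ → ℕ → ℚ → ℝ),
      Pst B I G R lo hi D0 β wt g {1} e 1 J lev f b vm w (fun _ => 0) := by
  classical
  obtain ⟨J, vm, h1, h2, h3, hM⟩ := base_mkS hIn hR hJ0 hdm g he
  refine ⟨J, _, _, _, _, _,
    { sub := h2
      dense := h3
      dm := dmaxAll_mono hdm (Eventually.of_forall h1)
      mks := hM
      vS := mem_singleton_self _
      vmin := fun u hu => (mem_singleton.1 hu).ge
      oneS := mem_singleton_self _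
      S1 := fun u hu => (mem_singleton.1 hu).le
      st := ?_
      lev1 := fun n => by simp
      w1 := fun k n => rfl
      tau := ?_ }⟩
  · refine
      { lo_le := Eventually.of_forall fun n => by simpa using (hIn.lohi n).le
        le_hi := Eventually.of_forall fun n => by simp
        lim := ?_
        rng := ?_
        cl := ?_
        near := ?_ }
    · have : (fun n => ((((fun (n : ℕ) (v : ℚ) => if v = 1 then hi n else lo n) n 1 : ℕ) : ℝ) -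
          lo n) / ((hi n : ℝ) - lo n)) = fun _ => (1:ℝ) := by
        funext n
        have := len_pos hIn.lohi n
        simp only [if_true]
        exact div_self this.ne'
      rw [this]
      simpa using tendsto_const_nhds
    · filter_upwards [hR] with n hn
      simpa using hn
    · filter_upwards [hIn.cl] with n hn
      simp only [if_true]
      exact isCl_mono hn (h2 n)
    · intro ε hε
      filter_upwards [hM.near 1 (mem_singleton_self _) ε hε, hM.mark 1 (mem_singleton_self _)]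
        with n a1 a2 c t ht
      simp only [if_true] at a1 a2 ht ⊢
      have a3 := a1 c t ht
      have a4 := (a2 c t ht).2.2.1
      rw [valx_zero]
      have a5 : G.val n (hi n) c (bt n (ct n t c)) = vm n := a4
      rw [a5, two_pow_eq hIn.base hIn.lohi]
      have e1 : ((1:ℚ) : ℝ) = 1 := by norm_num
      rw [e1, mul_one] at a3
      set NN : ℝ := (((alive (J n) (hi n) c).filter fun s => ct n s c = ct n t c).card : ℝ)
      have a6 : B.d n ^ ε * (D0 n * B.d n ^ (-β) * vm n) ≤ B.d n ^ ε * (B.d n ^ (-ε) * NN) :=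
        mul_le_mul_of_nonneg_left a3 (dpow_pos B n _).le
      rw [← mul_assoc (B.d n ^ ε) (B.d n ^ (-ε)), ← dpow_add] at a6
      simp only [add_neg_cancel, Real.rpow_zero, one_mul] at a6
      refine le_trans (le_of_eq ?_) a6
      ring
  · intro k
    refine tendsto_const_nhds.congr' ?_
    filter_upwards [hM.wpos k 1 (mem_singleton_self _)] with n hn
    have h1 : 0 < rho ((if (1:ℚ) = 1 then hi n else lo n : ℕ)) / wt n k :=
      div_pos (rho_pos' _) hn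
    show (0:ℝ) = Real.log ((rho ((if (1:ℚ) = 1 then hi n else lo n : ℕ)) / wt n k) /
      (rho ((if (1:ℚ) = 1 then hi n else lo n : ℕ)) / wt n k)) / B.L n
    rw [div_self h1.ne', Real.log_one, zero_div]

/-- the constant of the error -/
noncomputable def C2 (C : ℝ) (g : κ → ℝ) : ℝ := ∑ k, (C + |g k|) ^ 2

theorem C2_nonneg (C : ℝ) (g : κ → ℝ) : 0 ≤ C2 C g := Finset.sum_nonneg fun k _ => sq_nonneg _

noncomputable def Cs (C : ℝ) (g : κ → ℝ) : ℝ := Real.sqrt (C2 C g) + 1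

theorem err_step {C : ℝ} (hC : 0 ≤ C) {g T T' : κ → ℝ} {v u N : ℝ} {j : ℕ} (hN : 0 < N)
    (hvu : v - u = 1 / N)
    (hT : ∑ k, (T k + g k * (1 - v)) ^ 2 ≤ j * C2 C g / N ^ 2)
    (h1 : ∀ k, |T' k - T k| ≤ C * (v - u))
    (h2 : ∑ k, (T k + g k * (1 - v)) * ((T' k - T k) + g k * (v - u)) ≤ 0) :
    ∑ k, (T' k + g k * (1 - u)) ^ 2 ≤ (j + 1 : ℕ) * C2 C g / N ^ 2 := by
  have e1 : ∑ k, (T' k + g k * (1 - u)) ^ 2 = ∑ k, (T k + g k * (1 - v)) ^ 2 +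
      2 * ∑ k, (T k + g k * (1 - v)) * ((T' k - T k) + g k * (v - u)) +
      ∑ k, ((T' k - T k) + g k * (v - u)) ^ 2 := by
    rw [Finset.mul_sum, ← Finset.sum_add_distrib, ← Finset.sum_add_distrib]
    exact Finset.sum_congr rfl fun k _ => by ring
  have e2 : ∑ k, ((T' k - T k) + g k * (v - u)) ^ 2 ≤ C2 C g / N ^ 2 := by
    unfold C2
    rw [Finset.sum_div]
    refine Finset.sum_le_sum fun k _ => ?_
    have a1 : |(T' k - T k) + g k * (v - u)| ≤ (C + |g k|) / N := by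
      refine (abs_add_le _ _).trans ?_
      rw [abs_mul, hvu, abs_of_pos (show 0 < 1 / N by positivity)]
      have := h1 k
      rw [hvu] at this
      have e3 : (C + |g k|) / N = C * (1 / N) + |g k| * (1 / N) := by ring
      rw [e3]
      linarith
    rw [← div_pow, ← sq_abs ((T' k - T k) + g k * (v - u))]
    exact pow_le_pow_left₀ (abs_nonneg _) a1 2
  rw [e1]
  push_cast
  have e4 : ((j : ℝ) + 1) * C2 C g / N ^ 2 = j * C2 C g / N ^ 2 + C2 C g / N ^ 2 := by ring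
  rw [e4]
  linarith

theorem err_small {C : ℝ} {g E : κ → ℝ} {N : ℕ} {j : ℕ} (hN : 0 < N) (hj : j ≤ N)
    (hE : ∑ k, E k ^ 2 ≤ j * C2 C g / (N : ℝ) ^ 2) (k : κ) : |E k| < Cs C g / Real.sqrt N := by
  have hN' : (0:ℝ) < N := by exact_mod_cast hN
  have hs : 0 < Real.sqrt N := Real.sqrt_pos.2 hN'
  have hj' : (j : ℝ) ≤ N := by exact_mod_cast hj
  have h0 := C2_nonneg C g
  have h1 : E k ^ 2 ≤ C2 C g / N := by
    refine (Finset.single_le_sum (f := fun k => E k ^ 2) (fun i _ => sq_nonneg _)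
      (Finset.mem_univ k)).trans (hE.trans ?_)
    rw [div_le_div_iff₀ (by positivity) hN']
    have := mul_le_mul_of_nonneg_right hj' (mul_nonneg h0 hN'.le)
    nlinarith
  have h2 : |E k| ≤ Real.sqrt (C2 C g) / Real.sqrt N := by
    rw [← Real.sqrt_div h0]
    exact Real.abs_le_sqrt h1
  refine h2.trans_lt ?_
  unfold Cs
  exact div_lt_div_of_pos_right (by linarith) hs

/-- **mesh induction** -/
theorem mesh_ind (hIn : InSeq B I G R Sh lo hi D0 β Cu ct bt wt)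
    (hR : ∀ᶠ n in (U : Filter ℕ), R (hi n) (wt n) (hi n) (wt n))
    {J0 : ℕ → Finset (ℕ × ℝ)} (hJ0 : Dense B J0 I)
    (hdm : DMaxAll B J0 G R lo hi D0 β wt) (hC : 0 ≤ C)
    (hst : StepOut B I G R lo hi D0 β C wt g) {N : ℕ} (hN : 0 < N) (j : ℕ) (hj : j ≤ N) :
    ∃ (J : ℕ → Finset (ℕ × ℝ)) (lev : ℕ → ℚ → ℕ) (f : ℕ → ℚ → ℕ → ℤ → ℕ)
      (b : ℕ → ℚ → ℕ → σ) (vm : ℕ → ℚ → ℝ) (w : κ → ℕ → ℚ → ℝ) (T : κ → ℝ),
      Pst B I G R lo hi D0 β wt g ((Finset.range (j + 1)).image fun i : ℕ => (((N - i : ℕ) : ℚ) / N))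
        (Cs C g / Real.sqrt N) (((N - j : ℕ) : ℚ) / N) J lev f b vm w T ∧
      ∑ k, (T k + g k * (1 - ((((N - j : ℕ) : ℚ) / N : ℚ) : ℝ))) ^ 2 ≤
        j * C2 C g / (N : ℝ) ^ 2 := by
  have hNq : (0:ℚ) < N := by exact_mod_cast hN
  have hNr : (0:ℝ) < N := by exact_mod_cast hN
  have hcs : 0 ≤ Cs C g / Real.sqrt N := by
    unfold Cs; positivity
  induction j with
  | zero =>
    obtain ⟨J, lev, f, b, vm, w, h⟩ := base_pst hIn hR hJ0 hdm g hcs
    refine ⟨J, lev, f, b, vm, w, fun _ => 0, ?_, ?_⟩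
    · have e1 : ((Finset.range (0 + 1)).image fun i : ℕ => (((N - i : ℕ) : ℚ) / N)) = {1} := by
        simp [div_self hNq.ne']
      have e2 : (((N - 0 : ℕ) : ℚ) / N) = 1 := by simp [div_self hNq.ne']
      rw [e1, e2]
      exact h
    · simp [div_self hNr.ne']
  | succ j ih =>
    obtain ⟨J, lev, f, b, vm, w, T, h, hT⟩ := ih (by omega)
    have hcast : (((N - (j + 1) : ℕ)) : ℚ) = ((N - j : ℕ) : ℚ) - 1 := by
      have : N - j = (N - (j + 1)) + 1 := by omega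
      rw [this]; push_cast; ring
    have huv : (((N - (j + 1) : ℕ) : ℚ) / N) < (((N - j : ℕ) : ℚ) / N) := by
      rw [hcast]
      exact div_lt_div_of_pos_right (by linarith) hNq
    have hdiff : (((((N - j : ℕ) : ℚ) / N : ℚ)) : ℝ) - ((((N - (j + 1) : ℕ) : ℚ) / N : ℚ) : ℝ) =
        1 / N := by
      have : (((N - j : ℕ) : ℚ) / N) - (((N - (j + 1) : ℕ) : ℚ) / N) = 1 / N := by
        rw [hcast]; field_simp; ring
      have h2 := congrArg (fun x : ℚ => (x : ℝ)) this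
      push_cast at h2 ⊢
      exact h2
    have hu0 : (0:ℚ) ≤ (((N - (j + 1) : ℕ) : ℚ) / N) := by positivity
    obtain ⟨J', lev', f', b', vm', w', T', h', hb, hd⟩ := h.step hIn hst hu0 huv
      (fun T' h1 h2 k => err_small hN hj (err_step hC hNr hdiff hT h1 h2) k)
    refine ⟨J', lev', f', b', vm', w', T', ?_, err_step hC hNr hdiff hT hb hd⟩
    rw [Finset.range_add_one, Finset.image_insert]
    exact h'

theorem mesh_eq {N : ℕ} :
    ((Finset.range (N + 1)).image fun i : ℕ => (((N - i : ℕ) : ℚ) / N)) = mesh N := by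
  unfold mesh
  ext x
  simp only [mem_image, mem_range]
  constructor
  · rintro ⟨i, hi, rfl⟩
    exact ⟨N - i, by omega, rfl⟩
  · rintro ⟨i, hi, rfl⟩
    refine ⟨N - i, by omega, ?_⟩
    have : N - (N - i) = i := by omega
    rw [this]

/-- **marked sequences for the meshes.** -/
theorem mesh_mkS (hIn : InSeq B I G R Sh lo hi D0 β Cu ct bt wt)
    (hR : ∀ᶠ n in (U : Filter ℕ), R (hi n) (wt n) (hi n) (wt n))
    {J0 : ℕ → Finset (ℕ × ℝ)} (hJ0 : Dense B J0 I)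
    (hdm : DMaxAll B J0 G R lo hi D0 β wt) (hC : 0 ≤ C)
    (hst : StepOut B I G R lo hi D0 β C wt g) {N : ℕ} (hN : 0 < N) :
    ∃ (J : ℕ → Finset (ℕ × ℝ)) (lev : ℕ → ℚ → ℕ) (f : ℕ → ℚ → ℕ → ℤ → ℕ)
      (b : ℕ → ℚ → ℕ → σ) (vm : ℕ → ℚ → ℝ) (w : κ → ℕ → ℚ → ℝ),
      (∀ n, J n ⊆ I n) ∧ Dense B J I ∧ DMaxAll B J G R lo hi D0 β wt ∧
      MkS B J (GR G R hi wt) lev D0 β (fun k => - g k) f b vm w (mesh N)
        (Cs C g / Real.sqrt N) ∧
      (∀ n, lev n 1 = hi n) ∧ (∀ k n, w k n 1 = wt n k) ∧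
      (∀ᶠ n in (U : Filter ℕ), lo n ≤ lev n 0) ∧
      Tendsto (fun n => ((lev n 0 : ℝ) - lo n) / ((hi n : ℝ) - lo n)) U (𝓝 0) := by
  obtain ⟨J, lev, f, b, vm, w, T, h, -⟩ := mesh_ind hIn hR hJ0 hdm hC hst hN N le_rfl
  have e0 : (((N - N : ℕ) : ℚ) / N) = 0 := by simp
  rw [e0, mesh_eq] at h
  refine ⟨J, lev, f, b, vm, w, h.sub, h.dense, h.dm, h.mks, h.lev1, h.w1, h.st.lo_le, ?_⟩
  have := h.st.lim
  simpa using this

end

/-- `StepOut` from (STEP) -/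
theorem stepOut_of_leaf (hL : LeafStep) {B : Base} {I : ℕ → Finset (ℕ × ℝ)} {G : Geo σ κ}
    {R Rc : Rel κ} {Sh : ℕ → Finset (κ → ℝ)} {lo hi : ℕ → ℕ} {D0 : ℕ → ℝ} {β Cu C : ℝ}
    {ct : ℕ → ℕ → ℤ → ℕ} {bt : ℕ → ℕ → σ} {wt : ℕ → κ → ℝ} {g : κ → ℝ}
    (hIn : InSeq B I G R Sh lo hi D0 β Cu ct bt wt) (hRt : RTrans R)
    (hRc : ∀ i w j w', i ≤ j → Rc i w j w' → R i w j w' ∧ Rg C i w j w')
    (hub : ∀ lam : κ → ℝ, ∀ ω : ℝ, 0 < ω → ∃ r : ℝ, 0 < r ∧ ∀ r', 0 < r' → r' ≤ r → ∃ β' : ℝ,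
      UBw G Rc I lo hi (fun k => r' * lam k) β' ∧ |β' - β - r' * ∑ k, g k * lam k| ≤ ω * r') :
    StepOut B I G R lo hi D0 β C wt g := by
  intro lam J hJ hdm v' l' c' b' w' hSt v hv0 hv
  obtain ⟨J', l, c, b, w, h1, h2, h3, h4, h5, h6⟩ := hL B I G R Rc Sh lo hi D0 β Cu C ct bt wt g
    lam hIn hRt hRc (hub lam) J hJ hdm v' l' c' b' w' hSt v hv0 hv
  refine ⟨J', l, c, b, w, h1, h2, h3, h4, ?_, h6⟩
  filter_upwards [h3, h5] with n a1 a2
  exact (hRc _ _ _ _ a1 a2).2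

/-- **FINAL: marked extremal sequence with exactly linear exponents of all widths.** -/
theorem exists_mkA {B : Base} {I : ℕ → Finset (ℕ × ℝ)} {G : Geo σ κ} {R : Rel κ}
    {Sh : ℕ → Finset (κ → ℝ)} {lo hi : ℕ → ℕ} {D0 : ℕ → ℝ} {β Cu C : ℝ} {ct : ℕ → ℕ → ℤ → ℕ}
    {bt : ℕ → ℕ → σ} {wt : ℕ → κ → ℝ} {g : κ → ℝ}
    (hIn : InSeq B I G R Sh lo hi D0 β Cu ct bt wt)
    (hR : ∀ᶠ n in (U : Filter ℕ), R (hi n) (wt n) (hi n) (wt n))
    {J0 : ℕ → Finset (ℕ × ℝ)} (hJ0 : Dense B J0 I)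
    (hdm : DMaxAll B J0 G R lo hi D0 β wt) (hC : 0 ≤ C)
    (hst : StepOut B I G R lo hi D0 β C wt g)
    (extra : ℕ → ℕ → Prop) (hx : ∀ K, ∀ᶠ n in (U : Filter ℕ), extra K n) :
    ∃ (sel : ℕ → ℕ) (hsel : ∀ K : ℕ, B.d (sel K) ≤ 1 / ((K : ℝ) + 1))
      (J : ℕ → Finset (ℕ × ℝ)) (lev : ℕ → ℚ → ℕ) (f : ℕ → ℚ → ℕ → ℤ → ℕ)
      (b : ℕ → ℚ → ℕ → σ) (vm : ℕ → ℚ → ℝ) (w : κ → ℕ → ℚ → ℝ),
      (∀ K, extra K (sel K)) ∧
      MkA (diaB (fun _ => B) sel hsel) J (diaG (fun _ => GR G R hi wt) G.wid sel) lev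
        (fun K => D0 (sel K)) (fun v => β * v) (fun _ => 0) (fun k v => (- g k) * (1 - v))
        f b vm w ∧
      (∀ K, J K ⊆ I (sel K)) ∧ (∀ K, lev K 1 = hi (sel K)) ∧ (∀ k K, w k K 1 = wt (sel K) k) ∧
      (∀ K, lo (sel K) ≤ lev K 0) ∧
      (∀ K : ℕ, ((lev K 0 : ℝ) - lo (sel K)) / ((hi (sel K) : ℝ) - lo (sel K)) ≤
        1 / ((K : ℝ) + 1)) ∧
      (∀ K i : ℕ, lo (sel K) ≤ i → i ≤ hi (sel K) →
        Up G R 0 (sel K) i (J K) (hi (sel K)) (wt (sel K))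
          (D0 (sel K) * (2:ℝ) ^ (β * ((i : ℝ) - lo (sel K))) *
            B.d (sel K) ^ (-(1 / ((K : ℝ) + 1))))) ∧
      (∀ K : ℕ, B.d (sel K) ^ (1 / ((K : ℝ) + 1)) * ((I (sel K)).card : ℝ) ≤ ((J K).card : ℝ)) := by
  classical
  have key : ∀ K : ℕ, ∃ (J : ℕ → Finset (ℕ × ℝ)) (lev : ℕ → ℚ → ℕ) (f : ℕ → ℚ → ℕ → ℤ → ℕ)
      (b : ℕ → ℚ → ℕ → σ) (vm : ℕ → ℚ → ℝ) (w : κ → ℕ → ℚ → ℝ),
      (∀ n, J n ⊆ I n) ∧ Dense B J I ∧ DMaxAll B J G R lo hi D0 β wt ∧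
      MkS B J (GR G R hi wt) lev D0 β (fun k => - g k) f b vm w (mesh (K.factorial ^ 2))
        (Cs C g / Real.sqrt ((K.factorial ^ 2 : ℕ) : ℝ)) ∧
      (∀ n, lev n 1 = hi n) ∧ (∀ k n, w k n 1 = wt n k) ∧
      (∀ᶠ n in (U : Filter ℕ), lo n ≤ lev n 0) ∧
      Tendsto (fun n => ((lev n 0 : ℝ) - lo n) / ((hi n : ℝ) - lo n)) U (𝓝 0) :=
    fun K => mesh_mkS hIn hR hJ0 hdm hC hst (by positivity)
  choose J lev f b vm w h1 h2 h3 h4 h5 h6 h7 h8 using key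
  have hpos : ∀ K : ℕ, (0:ℝ) < 1 / ((K : ℝ) + 1) := fun K => by positivity
  obtain ⟨sel, hsel, hex, hM⟩ := mk_diag (fun _ => B) J (fun _ => GR G R hi wt) lev
    (fun _ => D0) β (fun k => - g k) f b vm w G.wid (fun _ => rfl)
    (fun K => mesh (K.factorial ^ 2)) (fun K => Cs C g / Real.sqrt ((K.factorial ^ 2 : ℕ) : ℝ))
    (sqrt_fac_tendsto _) mesh_ev h4
    (fun K n => extra K n ∧ lo n ≤ lev K n 0 ∧
      ((lev K n 0 : ℝ) - lo n) / ((hi n : ℝ) - lo n) ≤ 1 / ((K : ℝ) + 1) ∧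
      (∀ i : ℕ, lo n ≤ i → i ≤ hi n → Up G R 0 n i (J K n) (hi n) (wt n)
        (D0 n * (2:ℝ) ^ (β * ((i : ℝ) - lo n)) * B.d n ^ (-(1 / ((K : ℝ) + 1))))) ∧
      B.d n ^ (1 / ((K : ℝ) + 1)) * ((I n).card : ℝ) ≤ ((J K n).card : ℝ))
    (fun K => by
      filter_upwards [hx K, h7 K, (h8 K).eventually (Iio_mem_nhds (hpos K)),
        h3 K _ (hpos K), (h2 K).2 _ (hpos K)] with n a1 a2 a3 a4 a5
      exact ⟨a1, a2, le_of_lt a3, a4, a5⟩)
  exact ⟨sel, hsel, fun K => J K (sel K), fun K => lev K (sel K), fun K => f K (sel K),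
    fun K => b K (sel K), fun K => vm K (sel K), fun k K => w K k (sel K),
    fun K => (hex K).1, hM, fun K => h1 K _, fun K => h5 K _, fun k K => h6 K k _,
    fun K => (hex K).2.1, fun K => (hex K).2.2.1, fun K => (hex K).2.2.2.1,
    fun K => (hex K).2.2.2.2⟩

end Crest.Agent.R136.Ste163
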