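import Crest.Agent.R136.Ste3_650

/-!
# R136, U6 thin side, stage C (helper650): the assembly

**`exists_thinG`** : `ThinW` + `StcA` ⊢ marks on good incidences, `ThinG`, `ClW`, linear exponents.
-/

set_option autoImplicit false
set_option linter.unusedVariables false

open Finset Filter Topology

namespace Crest.Agent.R136.Ste650

open Crest.Agent.R138.Ex926 (Base U)
open Crest.Agent.R138.Mk163 (zc zl rho Negl)
open Crest.Agent.R138.MkRef627 (lc kc)
open Crest.Agent.R138.Dp76 (dpow_pos dpow_add dpow_le dpow_le_one)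
open Crest.Agent.R138.ArgM163 (ev_const ev_const_mul)
open Crest.Agent.R136.ArgA163 (rho_pos tau_zero)
open Crest.Agent.R136.Sh605
open Crest.Agent.R136.MkA627
open Crest.Agent.R136.Net191
open Crest.Agent.R136.NetW191
open Crest.Agent.R136.GeoN778
open Crest.Agent.R136.Wit321
open Crest.Agent.R136.Stc321
open Crest.Agent.R136.Top484
open Crest.Agent.R136.Tlt51 (mk4 zx rh)
open Crest.Agent.R136.FlW464 (frW drW rel_fr)
open Crest.Agent.R136.Fw650 (z0N zhN rhN cellN ThinG)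
open Crest.Agent.R136.GW650 (Lin)
open Crest.Agent.R136.Tn327 (zmN ClW CloseW)
open Crest.Agent.R136.Thn768 (ThinW)

section

variable {p : Par4} {D : Dat4} {K : ℕ → CtD} {x0 : ℕ → ℕ × ℝ}

open Classical in
/-- a representative of a class -/
noncomputable def rep (D : Dat4) (I : ℕ → Finset (ℕ × ℝ)) (v : ℚ) (n : ℕ) (c : ℕ × ℤ) : ℕ × ℝ :=
  if h : ∃ x ∈ I n, kc (D.lev n v) (D.f n v) x = c then h.choose else (0, 0)

theorem rep_spec {D : Dat4} {I : ℕ → Finset (ℕ × ℝ)} (v : ℚ) (n : ℕ) {x : ℕ × ℝ} (hx : x ∈ I n) :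
    rep D I v n (kc (D.lev n v) (D.f n v) x) ∈ I n ∧
      kc (D.lev n v) (D.f n v) (rep D I v n (kc (D.lev n v) (D.f n v) x)) =
        kc (D.lev n v) (D.f n v) x := by
  have h : ∃ y ∈ I n, kc (D.lev n v) (D.f n v) y = kc (D.lev n v) (D.f n v) x := ⟨x, hx, rfl⟩
  unfold rep
  rw [dif_pos h]
  exact h.choose_spec

/-- tangent of the null cone at a representative -/
noncomputable def ES (D : Dat4) (K : ℕ → CtD) (I : ℕ → Finset (ℕ × ℝ)) (v : ℚ) (n : ℕ)
    (c : ℕ × ℤ) : ℝ := -(2 * (K n).κ * (LS D K n (rep D I v n c).1).v 1)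

/-- **`ThinG` and `ClW` on good incidences** -/
theorem thinG_of (h : ThinW p D) (hs : StcA p D K x0) {I : ℕ → Finset (ℕ × ℝ)} {C : ℝ}
    (hI : ∀ n, I n ⊆ D.I n) (hg : ∀ᶠ n in (U : Filter ℕ), ∀ x ∈ I n, Gd D K C n x) :
    ThinG D.B I D.lev D.f (fun n => (K n).κ) (fun n => (K n).σ) (hzS K) (zsS K) (LS D K)
      (wAS D K) (wBS D K) (aS D) (MkS D K) (ES D K I) ∧
    ClW D.B I D.lev D.f (fun n => (K n).κ) (LS D K) (zmN D.lev (hzS K) (zsS K))
      (rhN D.lev (hzS K)) (wAS D K) (aS D) (MkS D K) := by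
  obtain ⟨E, E0, hE⟩ := exps h hs
  have hrp : ∀ n v, 0 < rhN D.lev (hzS K) n v := fun n v => mul_pos (hz_pos hs n) (rho_pos _)
  -- slopes of the representatives
  have hsl : ∀ v : ℚ, 0 ≤ v → v ≤ 1 → ∀ ε : ℝ, 0 < ε → ∀ᶠ n in (U : Filter ℕ), ∀ x ∈ I n,
      |(LS D K n (rep D I v n (kc (D.lev n v) (D.f n v) x)).1).v 1 - (LS D K n x.1).v 1| ≤
        2 * (wAS D K n v / rhN D.lev (hzS K) n v * D.B.d n ^ (-ε)) := by
    intro v v0 v1 ε hε
    filter_upwards [slope hs C v0 v1 hε, hg] with n h1 h2 x hx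
    obtain ⟨r1, r2⟩ := rep_spec (D := D) v n hx
    exact h1 x (hI n hx) _ (hI n r1) r2 (h2 x hx)
  refine ⟨?_, ?_⟩
  · refine
    { kp1 := hs.kp1
      σ0 := hs.σ0
      hz0 := hz_pos hs
      σs := hs.σs
      zb := ?_
      Lb := ?_
      rb := ⟨E, (hE 0 le_rfl zero_le_one).mono fun n hn => hn.2.1⟩
      top := ⟨E, (hE 0 le_rfl zero_le_one).mono fun n hn => ⟨hn.2.2.2, hn.1.2⟩⟩
      Mb := ?_
      A0 := fun v v0 v1 => (hE v v0 v1).mono fun n hn => (dpow_pos D.B n E).trans_le hn.1.1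
      low := fun v v0 v1 => ⟨3 * E, (hE v v0 v1).mono fun n hn => ?_⟩
      q := ?_
      lat := ?_
      ax := ?_
      bal := ?_ }
    · filter_upwards [geo hs] with n hn x hx
      exact (hn.2 x (hI n hx)).2.trans (by norm_num)
    · refine ⟨max C 0 + 1, ?_⟩
      filter_upwards [nrm hs (le_max_right C 0), hg] with n h1 h2 x hx k
      have := h1 x (gd_mono (le_max_left _ _) (h2 x hx)) k
      exact ⟨this.2, this.1⟩
    · intro v v0 v1
      obtain ⟨C', hC'⟩ := hs.Mb C v v0 v1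
      refine ⟨C', ?_⟩
      filter_upwards [hC', hg] with n h1 h2 x hx
      exact (h1 x (hI n hx) (h2 x hx)).2
    · refine ⟨(dpow_le D.B n (by linarith)).trans hn.2.2.1, ?_⟩
      have dp := dpow_pos D.B n
      unfold wBS
      rw [le_div_iff₀ (hrp n v)]
      calc D.B.d n ^ (3 * E) * rhN D.lev (hzS K) n v ≤ D.B.d n ^ (3 * E) * D.B.d n ^ (-E) :=
            mul_le_mul_of_nonneg_left hn.2.1.2 (dp _).le
        _ = (D.B.d n ^ E) ^ 2 := by rw [dpow_nat, ← dpow_add]; congr 1; push_cast; ring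
        _ ≤ _ := pow_le_pow_left₀ (dp _).le hn.1.1 2
    · intro v v0 v1 ε hε
      filter_upwards [hs.thick C v v0 v1 ε hε, hg] with n h1 h2 x hx
      exact h1 x (hI n hx) (h2 x hx)
    · intro v v0 v1 ε hε
      have hε4 : 0 < ε / 4 := by positivity
      have hε2 : 0 < ε / 2 := by positivity
      filter_upwards [hs.lat C v v0 v1 _ hε4, hsl v v0 v1 _ hε4, hg, hE v v0 v1,
        ev_const D.B (show (0 : ℝ) < 5 by norm_num) hε2] with n h1 h2 h3 hEv h5 x hx y hy hxy z z1 z2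
      obtain ⟨l1, l2⟩ := h1 x (hI n hx) y (hI n hy) hxy (h3 x hx) z z1 z2
      have l3 := h2 x hx
      have dp := dpow_pos D.B n
      have hA0 : 0 < wAS D K n v := (dp _).trans_le hEv.1.1
      have hB0 : 0 < wBS D K n v := div_pos (pow_pos hA0 2) (hrp n v)
      have hd4 : 1 ≤ D.B.d n ^ (-(ε / 4)) := one_le_dpow D.B n hε4.le
      set δ := D.B.d n ^ (-(ε / 4)) with hδ
      have hδ2 : δ ^ 2 = D.B.d n ^ (-(ε / 2)) := by
        rw [hδ, dpow_nat]; congr 1; push_cast; ring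
      have hδε : 5 * δ ^ 2 ≤ D.B.d n ^ (-ε) := by
        rw [hδ2]
        calc 5 * D.B.d n ^ (-(ε / 2)) ≤ D.B.d n ^ (-(ε / 2)) * D.B.d n ^ (-(ε / 2)) :=
              mul_le_mul_of_nonneg_right h5 (dp _).le
          _ = _ := by rw [← dpow_add]; congr 1; ring
      refine ⟨l1.trans (mul_le_mul_of_nonneg_left (dpow_le D.B n (by linarith)) hA0.le), ?_⟩
      set ΔA := (LS D K n y.1).pos z 1 - (LS D K n x.1).pos z 1 with hΔA
      set ΔB := (LS D K n y.1).pos z 2 - (LS D K n x.1).pos z 2 with hΔB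
      set vr := (LS D K n (rep D I v n (kc (D.lev n v) (D.f n v) x)).1).v 1 with hvr
      set vx := (LS D K n x.1).v 1 with hvx
      have e : ΔB - ES D K I v n (kc (D.lev n v) (D.f n v) x) * ΔA =
          (ΔB + 2 * (K n).κ * vx * ΔA) + 2 * ((K n).κ * ((vr - vx) * ΔA)) := by
        unfold ES
        rw [← hvr]
        ring
      rw [e]
      have m1 : |(vr - vx) * ΔA| ≤ 2 * (wBS D K n v * δ ^ 2) := by
        rw [abs_mul]
        calc |vr - vx| * |ΔA| ≤ 2 * (wAS D K n v / rhN D.lev (hzS K) n v * δ) *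
              (wAS D K n v * δ) :=
              mul_le_mul l3 l1 (abs_nonneg _) (by
                have := hrp n v
                positivity)
          _ = 2 * (wBS D K n v * δ ^ 2) := by unfold wBS; ring
      have m2 : |2 * ((K n).κ * ((vr - vx) * ΔA))| ≤ 4 * (wBS D K n v * δ ^ 2) := by
        rw [abs_mul, abs_two, abs_mul (K n).κ]
        have := mul_le_mul (hs.kp1 n) m1 (abs_nonneg _) zero_le_one
        linarith
      have m3 : wBS D K n v * δ ≤ wBS D K n v * δ ^ 2 :=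
        mul_le_mul_of_nonneg_left (by nlinarith) hB0.le
      calc _ ≤ wBS D K n v * δ + 4 * (wBS D K n v * δ ^ 2) :=
            (abs_add_le _ _).trans (add_le_add l2 m2)
        _ ≤ wBS D K n v * (5 * δ ^ 2) := by linarith
        _ ≤ _ := mul_le_mul_of_nonneg_left hδε hB0.le
    · intro v v0 v1 ε hε
      have hε2 : 0 < ε / 2 := by positivity
      filter_upwards [hsl v v0 v1 _ hε2, hE v v0 v1,
        ev_const D.B (show (0 : ℝ) < 4 by norm_num) hε2] with n h2 hEv h5 x hx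
      have l3 := h2 x hx
      have dp := dpow_pos D.B n
      have hA0 : 0 < wAS D K n v := (dp _).trans_le hEv.1.1
      have hr := hrp n v
      set vr := (LS D K n (rep D I v n (kc (D.lev n v) (D.f n v) x)).1).v 1 with hvr
      set vx := (LS D K n x.1).v 1 with hvx
      have e : ES D K I v n (kc (D.lev n v) (D.f n v) x) + 2 * (K n).κ * vx =
          -(2 * ((K n).κ * (vr - vx))) := by
        unfold ES
        rw [← hvr]
        ring
      rw [e, abs_neg, abs_mul, abs_two, abs_mul]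
      have e2 : wBS D K n v / wAS D K n v = wAS D K n v / rhN D.lev (hzS K) n v := by
        unfold wBS
        field_simp
      rw [e2]
      have m1 := mul_le_mul (hs.kp1 n) l3 (abs_nonneg _) zero_le_one
      have p1 : 0 < wAS D K n v / rhN D.lev (hzS K) n v := div_pos hA0 hr
      calc 2 * (|(K n).κ| * |vr - vx|)
          ≤ 4 * D.B.d n ^ (-(ε / 2)) * (wAS D K n v / rhN D.lev (hzS K) n v) := by linarith
        _ ≤ (D.B.d n ^ (-(ε / 2)) * D.B.d n ^ (-(ε / 2))) *
            (wAS D K n v / rhN D.lev (hzS K) n v) :=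
            mul_le_mul_of_nonneg_right (mul_le_mul_of_nonneg_right h5 (dp _).le) p1.le
        _ = _ := by rw [← dpow_add, mul_comm]; congr 2; ring
    · intro v v0 v1 ε hε
      filter_upwards [hE v v0 v1] with n hEv
      have hA0 : 0 < wAS D K n v := (dpow_pos D.B n E).trans_le hEv.1.1
      have hB0 : 0 < wBS D K n v := div_pos (pow_pos hA0 2) (hrp n v)
      have h1 := one_le_dpow D.B n hε.le
      have e : wAS D K n v ^ 2 / rhN D.lev (hzS K) n v = wBS D K n v := rfl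
      rw [e]
      exact ⟨le_mul_of_one_le_right hB0.le h1, le_mul_of_one_le_right hB0.le h1⟩
  · obtain ⟨C0, C00, hcl⟩ := hs.clw
    refine ⟨C0, fun u v u0 uv v1 ε hε => Negl.false.mono ?_⟩
    filter_upwards [hcl C u v u0 uv v1 ε hε, hg] with n h1 h2 x hx hbad
    exact hbad (h1 x (hI n hx) (h2 x hx))

/-- **the assembly of stage C** -/
theorem exists_thinG (h : ThinW p D) (hs : StcA p D K x0) :
    ∃ (I' : ℕ → Finset (ℕ × ℝ)) (E : ℚ → ℕ → ℕ × ℤ → ℝ) (C : ℝ), (∀ n, I' n ⊆ D.I n) ∧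
      MkA D.B I' (D.G p) D.lev D.A (fun v => p.g * v) (fun v => 0 * v)
        (fun j v => p.θ j * (1 - v)) D.f D.b D.vm D.w ∧
      (∀ᶠ n in (U : Filter ℕ), ∀ x ∈ I' n, Gd D K C n x) ∧
      ThinG D.B I' D.lev D.f (fun n => (K n).κ) (fun n => (K n).σ) (hzS K) (zsS K) (LS D K)
        (wAS D K) (wBS D K) (aS D) (MkS D K) E ∧
      ClW D.B I' D.lev D.f (fun n => (K n).κ) (LS D K) (zmN D.lev (hzS K) (zsS K))
        (rhN D.lev (hzS K)) (wAS D K) (aS D) (MkS D K) ∧
      Lin D.B (wAS D K) (1 - p.θ 1) ∧ Lin D.B (aS D) (1 - p.θ 0) := by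
  obtain ⟨I', C, hI, hM, hg⟩ := exists_ball h hs
  obtain ⟨h1, h2⟩ := thinG_of h hs hI hg
  exact ⟨I', ES D K I', C, hI, hM, hg, h1, h2, lin_wAS h hs, lin_aS h⟩

end

end Crest.Agent.R136.Ste650
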