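import Crest.Agent.R136.StcD_321

/-!
# R136, U6 thin side, stage C (helper464): data of the container, part 1 (algebra)

* `Qeq` : equality of symmetric coefficients; `qdOf_spec`; `hatQ_congr`, `wqOf_congr`.
* `pull_witt` : the Witt map of `wqOf Q` kills everything but `c0, c1, c2`; `flags_le` : the flags
  of the container.
* `crs_cont`, `hes_cont` : invariants of the container along its axis.
-/

set_option autoImplicit false
set_option linter.unusedVariables false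

namespace Crest.Agent.R136.Stk464

open Crest.Agent.R136.Sh605
open Crest.Agent.R136.NetW191
open Crest.Agent.R136.GeoN778
open Crest.Agent.R136.Wit321
open Crest.Agent.R136.Stc321
open Crest.Agent.R136.Thn768 (Cont)

/-- equality of the symmetric coefficients -/
structure Qeq (Q Q' : Qd) : Prop where
  c0 : Q.c0 = Q'.c0
  c1 : Q.c1 = Q'.c1
  c2 : Q.c2 = Q'.c2
  b : ∀ i, Q.b i = Q'.b i
  d : ∀ i, Q.d i = Q'.d i
  g : ∀ i j, Q.g i j + Q.g j i = Q'.g i j + Q'.g j i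

theorem Qeq.of_ev {Q Q' : Qd} (h : Q.ev = Q'.ev) : Qeq Q Q' := by
  have e : ∀ (z a b c : ℝ), Q.c0 + Q.c1 * z + Q.c2 * z ^ 2 +
      ((Q.b 0 + Q.d 0 * z) * a + (Q.b 1 + Q.d 1 * z) * b + (Q.b 2 + Q.d 2 * z) * c) +
      (Q.g 0 0 * a ^ 2 + Q.g 1 1 * b ^ 2 + Q.g 2 2 * c ^ 2 + (Q.g 0 1 + Q.g 1 0) * (a * b) +
        (Q.g 0 2 + Q.g 2 0) * (a * c) + (Q.g 1 2 + Q.g 2 1) * (b * c)) =
      Q'.c0 + Q'.c1 * z + Q'.c2 * z ^ 2 +
      ((Q'.b 0 + Q'.d 0 * z) * a + (Q'.b 1 + Q'.d 1 * z) * b + (Q'.b 2 + Q'.d 2 * z) * c) +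
      (Q'.g 0 0 * a ^ 2 + Q'.g 1 1 * b ^ 2 + Q'.g 2 2 * c ^ 2 + (Q'.g 0 1 + Q'.g 1 0) * (a * b) +
        (Q'.g 0 2 + Q'.g 2 0) * (a * c) + (Q'.g 1 2 + Q'.g 2 1) * (b * c)) := by
    intro z a b c
    have := congrFun (congrFun h z) ![a, b, c]
    simp only [Qd.ev, Fin.sum_univ_three, Matrix.cons_val] at this
    linarith
  have v0 := e 0 0 0 0
  have v1 := e 1 0 0 0
  have v2 := e (-1) 0 0 0
  have a1 := e 0 1 0 0
  have a2 := e 0 (-1) 0 0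
  have a3 := e 1 1 0 0
  have b1 := e 0 0 1 0
  have b2 := e 0 0 (-1) 0
  have b3 := e 1 0 1 0
  have c1 := e 0 0 0 1
  have c2 := e 0 0 0 (-1)
  have c3 := e 1 0 0 1
  have g1 := e 0 1 1 0
  have g2 := e 0 1 0 1
  have g3 := e 0 0 1 1
  norm_num at v0 v1 v2 a1 a2 a3 b1 b2 b3 c1 c2 c3 g1 g2 g3
  refine ⟨?_, ?_, ?_, ?_, ?_, ?_⟩
  · linarith
  · linarith
  · linarith
  · intro i; fin_cases i
    · change Q.b 0 = Q'.b 0; linarith
    · change Q.b 1 = Q'.b 1; linarith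
    · change Q.b 2 = Q'.b 2; linarith
  · intro i; fin_cases i
    · change Q.d 0 = Q'.d 0; linarith
    · change Q.d 1 = Q'.d 1; linarith
    · change Q.d 2 = Q'.d 2; linarith
  · intro i j; fin_cases i <;> fin_cases j
    · change Q.g 0 0 + Q.g 0 0 = Q'.g 0 0 + Q'.g 0 0; linarith
    · change Q.g 0 1 + Q.g 1 0 = Q'.g 0 1 + Q'.g 1 0; linarith
    · change Q.g 0 2 + Q.g 2 0 = Q'.g 0 2 + Q'.g 2 0; linarith
    · change Q.g 1 0 + Q.g 0 1 = Q'.g 1 0 + Q'.g 0 1; linarith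
    · change Q.g 1 1 + Q.g 1 1 = Q'.g 1 1 + Q'.g 1 1; linarith
    · change Q.g 1 2 + Q.g 2 1 = Q'.g 1 2 + Q'.g 2 1; linarith
    · change Q.g 2 0 + Q.g 0 2 = Q'.g 2 0 + Q'.g 0 2; linarith
    · change Q.g 2 1 + Q.g 1 2 = Q'.g 2 1 + Q'.g 1 2; linarith
    · change Q.g 2 2 + Q.g 2 2 = Q'.g 2 2 + Q'.g 2 2; linarith

theorem hatQ_congr {f : Fin 3 → V3} {c : Ln4} {u : Un} (hu : u.Ok) {Q Q' : Qd}
    (h : Q.ev = Q'.ev) : Qeq (hatQ f c u Q) (hatQ f c u Q') := by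
  refine Qeq.of_ev ?_
  funext z x
  have hH := hu.H0.ne'
  have hW := fun k => (hu.W0 k).ne'
  unfold hatQ unQ
  rw [Qd.scl_ev _ (one_div_ne_zero hH) (fun i => one_div_ne_zero (hW i)),
    Qd.scl_ev _ (one_div_ne_zero hH) (fun i => one_div_ne_zero (hW i)), movQ_ev, movQ_ev, h]

theorem wqOf_congr {Q Q' : Qd} (h : Qeq Q Q') : wqOf Q = wqOf Q' := by
  have g0 : Q.g 0 0 = Q'.g 0 0 := by linarith [h.g 0 0]
  have g1 : Q.g 1 1 = Q'.g 1 1 := by linarith [h.g 1 1]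
  have g2 : Q.g 2 2 = Q'.g 2 2 := by linarith [h.g 2 2]
  simp only [wqOf, h.b 0, h.d 0, h.d 1, g0, g1, g2, h.g 1 2, h.g 0 1, h.g 0 2]

/-- the chosen representative -/
theorem qdOf_spec {q : ℝ → V3 → ℝ} (hq : IsQ q) :
    q = (qdOf q).ev ∧ ∀ i j, (qdOf q).g i j = (qdOf q).g j i := by
  obtain ⟨Q, hQ⟩ := exists_Qd hq
  have hex : ∃ Q : Qd, q = Q.ev ∧ ∀ i j, Q.g i j = Q.g j i := by
    refine ⟨⟨Q.c0, Q.c1, Q.c2, Q.b, Q.d, fun i j => (Q.g i j + Q.g j i) / 2⟩, ?_,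
      fun i j => by simp only; ring⟩
    rw [hQ]
    funext z x
    simp only [Qd.ev, Fin.sum_univ_three]
    ring
  unfold qdOf
  rw [dif_pos hex]
  exact hex.choose_spec

/-- the container with the chosen representative -/
theorem cont_qdOf {S : K4.Plk4} {T : Ln4} {z0 ρ η : ℝ} {f : Fin 3 → V3} {u : Un} {Q : Qd}
    (h : Cont S T z0 ρ f u Q η) : Cont S T z0 ρ f u (qdOf S.q) η := by
  have hs := (qdOf_spec (q := S.q) (by rw [h.q]; exact Q.isQ)).1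
  have he : Q.ev = (qdOf S.q).ev := by rw [← hs, h.q]
  have e := hatQ_congr (f := f) (c := T) h.ok he
  have w := wqOf_congr e
  exact
    { ortho := h.ortho
      ok := h.ok
      q := hs
      H := h.H
      zc := h.zc
      b1 := by rw [← e.b]; exact h.b1
      b2 := by rw [← e.b]; exact h.b2
      d2 := by rw [← e.b, ← e.d]; exact h.d2
      b0 := by rw [← e.b]; exact h.b0
      sm := by rw [← w]; exact h.sm
      kap := by rw [← w]; exact h.kap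
      YB := h.YB
      BA := h.BA }

/-! ### Witt -/

/-- part of a polynomial -/
def cp (Q : Qd) : Qd := ⟨Q.c0, Q.c1, Q.c2, 0, 0, 0⟩

theorem pull_b0 (P : Pj) {Q : Qd} (b1 : Q.b 1 = 0) (b2 : Q.b 2 = 0) :
    (pullQ P Q).b 0 = (pullQ P (cp Q)).b 0 + Q.b 0 := by
  simp only [pullQ, cp, Pj.ξ, Fin.sum_univ_three, Matrix.cons_val, b1, b2, Pi.zero_apply]
  ring

set_option maxHeartbeats 2000000 in
theorem pull_witt {Q : Qd} {w : Wq} {ν : ℝ} (b0 : Q.b 0 = ν) (b1 : Q.b 1 = 0) (b2 : Q.b 2 = 0)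
    (d0 : Q.d 0 = w.γ * ν) (d1 : Q.d 1 = -(w.ζ * ν)) (d2 : Q.d 2 = -ν)
    (g11 : Q.g 1 1 = -(w.κ * ν)) (g12 : Q.g 1 2 = w.c1 * ν - Q.g 2 1)
    (g22 : Q.g 2 2 = w.c2 * ν) (g01 : Q.g 0 1 = w.c3 * ν - Q.g 1 0)
    (g02 : Q.g 0 2 = w.c4 * ν - Q.g 2 0) (g00 : Q.g 0 0 = w.c5 * ν) (k : Fin 14) :
    rem w.κ' (pullQ w.pj.inv Q) k = rem w.κ' (pullQ w.pj.inv (cp Q)) k := by
  fin_cases k <;>
  · simp only [rem, pullQ, cp, Pj.ξ, Pj.τ, Pj.ζ, Pj.inv, Wq.pj, Wq.κ', Fin.sum_univ_three,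
      Matrix.cons_val, Pi.zero_apply, b0, b1, b2, d0, d1, d2, g11, g12, g22, g01, g02, g00,
      Fin.zero_eta, Fin.mk_one, Fin.reduceFinMk]
    try ring

theorem witt_of {Q : Qd} (hν : Q.b 0 ≠ 0) (b1 : Q.b 1 = 0) (b2 : Q.b 2 = 0)
    (d2 : Q.d 2 = -Q.b 0) (k : Fin 14) :
    rem (wqOf Q).κ' (pullQ (wqOf Q).pj.inv Q) k =
      rem (wqOf Q).κ' (pullQ (wqOf Q).pj.inv (cp Q)) k := by
  refine pull_witt (ν := Q.b 0) rfl b1 b2 ?_ ?_ d2 ?_ ?_ ?_ ?_ ?_ ?_ k <;>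
    first
    | (simp only [wqOf]; done)
    | (simp only [wqOf]; field_simp; done)
    | (simp only [wqOf]; field_simp; ring)

theorem cp_sz {Q : Qd} {m : ℝ} (c0 : |Q.c0| ≤ m) (c1 : |Q.c1| ≤ m) (c2 : |Q.c2| ≤ m) :
    Sz (cp Q) m := by
  have h : (0 : ℝ) ≤ m := (abs_nonneg _).trans c0
  exact ⟨c0, c1, c2, fun i => by simpa [cp] using h, fun i => by simpa [cp] using h,
    fun i j => by simpa [cp] using h⟩

theorem rem_cp_le {P : Pj} {Q : Qd} {κ η m : ℝ} (hP : P.Sm η) (hη : η ≤ 1) (hκ : |κ| ≤ 1)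
    (c0 : |Q.c0| ≤ m) (c1 : |Q.c1| ≤ m) (c2 : |Q.c2| ≤ m) :
    |(pullQ P (cp Q)).b 0| ≤ 12 * m ∧ ∀ k, |rem κ (pullQ P (cp Q)) k| ≤ 24 * m := by
  have h := pullQ_cl hP hη (cp_sz c0 c1 c2)
  have hm : (0 : ℝ) ≤ m := (abs_nonneg _).trans c0
  have h0 := hP.nn
  have hle : 12 * (η * m) ≤ 12 * m := by nlinarith
  have kb : ∀ i, |(pullQ P (cp Q)).b i| ≤ 12 * m := fun i => by
    have := h.b i
    simp only [cp, Pi.zero_apply, sub_zero] at this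
    exact this.trans hle
  have kd : ∀ i, |(pullQ P (cp Q)).d i| ≤ 12 * m := fun i => by
    have := h.d i
    simp only [cp, Pi.zero_apply, sub_zero] at this
    exact this.trans hle
  have kg : ∀ i j, |(pullQ P (cp Q)).g i j| ≤ 12 * m := fun i j => by
    have := h.g i j
    simp only [cp, Pi.zero_apply, sub_zero] at this
    exact this.trans hle
  have e0 : (pullQ P (cp Q)).c0 = Q.c0 := rfl
  have e1 : (pullQ P (cp Q)).c1 = Q.c1 := rfl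
  have e2 : (pullQ P (cp Q)).c2 = Q.c2 := rfl
  refine ⟨kb 0, fun k => ?_⟩
  have one : ∀ {x : ℝ}, |x| ≤ 12 * m → |x| ≤ 24 * m := fun h => h.trans (by linarith)
  have two : ∀ {x y : ℝ}, |x| ≤ 12 * m → |y| ≤ 12 * m → |x + y| ≤ 24 * m :=
    fun h h' => (abs_add_le _ _).trans (by linarith)
  have kc : ∀ {x : ℝ}, |x| ≤ m → |x| ≤ 24 * m := fun h => h.trans (by linarith)
  fin_cases k
  · exact one (kg 0 0)
  · exact two (kg 0 2) (kg 2 0)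
  · exact two (kg 0 1) (kg 1 0)
  · exact one (kg 2 2)
  · exact one (kd 0)
  · exact two (kg 1 2) (kg 2 1)
  · refine two (kg 1 1) ?_
    rw [abs_mul]
    calc |κ| * |(pullQ P (cp Q)).b 0| ≤ 1 * (12 * m) :=
          mul_le_mul hκ (kb 0) (abs_nonneg _) zero_le_one
      _ = _ := one_mul _
  · exact two (kd 2) (kb 0)
  · exact one (kd 1)
  · exact kc c2
  · exact one (kb 2)
  · exact one (kb 1)
  · exact kc c1
  · exact kc c0

theorem rl_self (f : Fin 3 → V3) (c : Ln4) : rl f c c = ⟨fun _ => 0, fun _ => 0⟩ := by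
  simp [rl, dt]

theorem ul_self (f : Fin 3 → V3) (c : Ln4) (u : Un) :
    ul u (rl f c c) = ⟨fun _ => 0, fun _ => 0⟩ := by
  rw [rl_self]
  simp [ul]

/-- thickness of the container: the coefficients of the axis -/
theorem axis_le {S : K4.Plk4} {T : Ln4} {z0 ρ η : ℝ} {f : Fin 3 → V3} {u : Un} {Q : Qd}
    (h : Cont S T z0 ρ f u Q η) (hρ : 0 < ρ)
    (hT : ∀ z, z0 ≤ z → z ≤ z0 + ρ → |S.q z (T.pos z)| ≤ S.a) :
    |(hatQ f T u Q).c0| ≤ 32 * S.a ∧ |(hatQ f T u Q).c1| ≤ 32 * S.a ∧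
      |(hatQ f T u Q).c2| ≤ 32 * S.a := by
  have hH := h.H
  have key : ∀ ζ : ℝ, -(1 / 4) ≤ ζ → ζ ≤ 1 / 4 → |(hatQ f T u Q).c0 + (hatQ f T u Q).c1 * ζ +
      (hatQ f T u Q).c2 * ζ ^ 2| ≤ S.a := by
    intro ζ h1 h2
    have e := hatQ_line h.ortho T h.ok Q (u.zc + u.H * ζ) T
    have ez : u.zh (u.zc + u.H * ζ) = ζ := by
      have := h.ok.H0.ne'
      simp only [Un.zh]; field_simp; ring
    rw [ez, ul_self] at e
    have e2 : (hatQ f T u Q).ev ζ ((⟨fun _ => 0, fun _ => 0⟩ : Ln4).pos ζ) =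
        (hatQ f T u Q).c0 + (hatQ f T u Q).c1 * ζ + (hatQ f T u Q).c2 * ζ ^ 2 := by
      simp only [Qd.ev, Ln4.pos, Fin.sum_univ_three]; ring
    rw [e2] at e
    rw [e, ← h.q]
    refine hT _ ?_ ?_
    · rw [h.zc, hH]; nlinarith
    · rw [h.zc, hH]; nlinarith
  have k0 := key 0 (by norm_num) (by norm_num)
  have k1 := key (1 / 4) (by norm_num) (by norm_num)
  have k2 := key (-(1 / 4)) (by norm_num) (by norm_num)
  rw [abs_le] at k0 k1 k2 ⊢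
  rw [abs_le, abs_le]
  refine ⟨⟨by linarith [k0.1, k0.2], by linarith [k0.1, k0.2]⟩,
    ⟨by linarith [k1.1, k1.2, k2.1, k2.2], by linarith [k1.1, k1.2, k2.1, k2.2]⟩,
    ⟨by linarith [k0.1, k0.2, k1.1, k1.2, k2.1, k2.2],
      by linarith [k0.1, k0.2, k1.1, k1.2, k2.1, k2.2]⟩⟩

/-- **flags of the container** -/
theorem flags_cont {S : K4.Plk4} {T : Ln4} {z0 ρ η σ : ℝ} {f : Fin 3 → V3} {u : Un} {Q : Qd}
    (h : Cont S T z0 ρ f u Q η) (hη : η ≤ 1 / 40) (hρ : 0 < ρ)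
    (hT : ∀ z, z0 ≤ z → z ≤ z0 + ρ → |S.q z (T.pos z)| ≤ S.a) (ha : 0 < S.a)
    (hY : 4000 * S.a ≤ u.WY) (hσ : u.WY * σ = S.a) :
    (pullQ (wqOf (hatQ f T u Q)).pj.inv (hatQ f T u Q)).b 0 ≠ 0 ∧
      ∀ k, |flg (wqOf (hatQ f T u Q)).κ' σ
        (pullQ (wqOf (hatQ f T u Q)).pj.inv (hatQ f T u Q)) k| ≤ 10 ^ 4 := by
  obtain ⟨c0, c1, c2⟩ := axis_le h hρ hT
  set q := hatQ f T u Q with hq
  have hWY := h.ok.Y0
  have hs : 0 < σ := by
    have : 0 < u.WY * σ := by rw [hσ]; exact ha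
    exact (mul_pos_iff_of_pos_left hWY).1 this
  have h0 : 0 ≤ η := (abs_nonneg _).trans h.sm.γ
  have hν : q.b 0 ≠ 0 := by
    intro e
    have := h.b0.1
    rw [← hq, e, abs_zero] at this
    linarith
  have hsm := (h.sm.pj (by linarith)).inv (by linarith)
  rw [← hq] at hsm
  have hκ : |(wqOf q).κ'| ≤ 1 := by
    have k1 := h.sm.kap (by linarith)
    have k2 := h.kap.2
    rw [← hq] at k1 k2
    have e : (wqOf q).κ' = ((wqOf q).κ' - (wqOf q).κ) + (wqOf q).κ := by ring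
    rw [e]
    refine (abs_add_le _ _).trans ?_
    linarith
  obtain ⟨r0, r1⟩ := rem_cp_le (κ := (wqOf q).κ') hsm (by linarith) hκ c0 c1 c2
  have e0 := pull_b0 (wqOf q).pj.inv h.b1 h.b2
  rw [← hq] at e0
  have hb : u.WY / 8 ≤ |(pullQ (wqOf q).pj.inv q).b 0| := by
    rw [e0]
    have k1 := abs_sub_abs_le_abs_sub (q.b 0) (-(pullQ (wqOf q).pj.inv (cp q)).b 0)
    rw [sub_neg_eq_add, abs_neg, add_comm] at k1
    have k2 := h.b0.1
    rw [← hq] at k2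
    linarith
  have hb0 : (pullQ (wqOf q).pj.inv q).b 0 ≠ 0 := by
    intro e
    rw [e, abs_zero] at hb
    linarith
  refine ⟨hb0, fun k => ?_⟩
  have hw := witt_of hν h.b1 h.b2 h.d2 k
  simp only [flg]
  rw [hw, abs_div, abs_neg, abs_mul, abs_of_pos hs, div_le_iff₀ (mul_pos (abs_pos.2 hb0) hs)]
  have k3 : S.a / 8 ≤ |(pullQ (wqOf q).pj.inv q).b 0| * σ := by
    rw [← hσ]
    have := mul_le_mul_of_nonneg_right hb hs.le
    linarith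
  have := r1 k
  linarith

/-! ### invariants of the container -/

theorem crs_cont {Q : Qd} (b1 : Q.b 1 = 0) (b2 : Q.b 2 = 0) (d2 : Q.d 2 = -Q.b 0) :
    crs (gd Q ⟨fun _ => 0, fun _ => 0⟩) (Q.gr 0 ((⟨fun _ => 0, fun _ => 0⟩ : Ln4).pos 0)) =
      ![0, -(Q.b 0 ^ 2), -(Q.d 1 * Q.b 0)] := by
  funext k
  fin_cases k <;>
  · simp only [crs, gd, Qd.gr, Ln4.pos, Fin.sum_univ_three, Matrix.cons_val, b1, b2, d2,
      Fin.zero_eta, Fin.mk_one, Fin.reduceFinMk]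
    ring

theorem hes_cont {Q : Qd} (hν : Q.b 0 ≠ 0) (b1 : Q.b 1 = 0) (b2 : Q.b 2 = 0)
    (d2 : Q.d 2 = -Q.b 0) :
    hes Q (crs (gd Q ⟨fun _ => 0, fun _ => 0⟩)
      (Q.gr 0 ((⟨fun _ => 0, fun _ => 0⟩ : Ln4).pos 0))) = -(Q.b 0 ^ 5 * (wqOf Q).κ') := by
  rw [crs_cont b1 b2 d2]
  simp only [hes, wqOf, Wq.κ', Fin.sum_univ_three, Matrix.cons_val]
  field_simp
  ring

end Crest.Agent.R136.Stk464
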