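import Crest.Agent.R136.Wcn1_464

/-!
# R136 (S0187), thin branch (helper464): 778's `Qw` from the exponents of the widths, part 2

`qw_of` : `wA = w 1 / WA`, `σ a = w 0 / WY`, level `0` widths `≈ WA, WB`, `θ 2 = 2 θ 1`, slopes ⊢
`Qw` at every level.
-/

set_option autoImplicit false
set_option linter.unusedVariables false

open Finset Filter Topology

namespace Crest.Agent.R136.Wcn464

open Crest.Agent.R138
open Crest.Agent.R138.Ex926 (Base U)
open Crest.Agent.R138.Dp76 (dpow_pos dpow_add dpow_le dpow_le_one)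
open Crest.Agent.R138.ArgM163 (ev_const log_dpow)
open Crest.Agent.R138.Mk163 (zc zl rho alive)
open Crest.Agent.R136.MkA627
open Crest.Agent.R136.NetW191
open Crest.Agent.R136.Sh605
open Crest.Agent.R136.ArgA163 (tau_zero rho_pos log_rho le_of_log)
open Crest.Agent.R136.PrW464 (WData)
open Crest.Agent.R136.GeoN778
open Crest.Agent.R136.Wit321

theorem Cmp.self {e x : ℝ} (he : e ≤ 1) (hx : 0 ≤ x) : Cmp e x x :=
  ⟨mul_le_of_le_one_left hx he, mul_le_of_le_one_left hx he⟩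

/-- comparison of logarithms -/
theorem cmp_of_log {B : Base} {n : ℕ} {x y δ : ℝ} (hx : 0 < x) (hy : 0 < y)
    (h : |Real.log (y / x) / B.L n| ≤ δ) : Cmp (B.d n ^ δ) x y := by
  have h1 := abs_le.1 h
  have key : ∀ {x y : ℝ}, 0 < x → 0 < y → -δ ≤ Real.log (y / x) / B.L n → B.d n ^ δ * x ≤ y := by
    intro x y hx hy h
    have h2 := le_of_log hx hy h
    have h3 := mul_le_mul_of_nonneg_left h2 (dpow_pos B n δ).le
    refine h3.trans (le_of_eq ?_)
    rw [mul_comm y, ← mul_assoc, ← dpow_add, add_neg_cancel, Real.rpow_zero, one_mul]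
  refine ⟨key hy hx ?_, key hx hy h1.1⟩
  have e : Real.log (x / y) = -Real.log (y / x) := by
    rw [← Real.log_inv, inv_div]
  rw [e, neg_div]
  linarith [h1.2]

section qw

variable {σ' : Type*} {G : Geo σ' (Fin 3)} {B : Base} {I : ℕ → Finset (ℕ × ℝ)} {lev : ℕ → ℚ → ℕ}
    {A : ℕ → ℝ} {c Λ : ℝ → ℝ} {θ : Fin 3 → ℝ} {f : ℕ → ℚ → ℕ → ℤ → ℕ} {b : ℕ → ℚ → ℕ → σ'}
    {vm : ℕ → ℚ → ℝ} {w : Fin 3 → ℕ → ℚ → ℝ} {kp sg hz : ℕ → ℝ} {F : ℕ → ℕ × ℝ → FW}
    {u : ℕ → Un} {wA a : ℕ → ℚ → ℝ}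

/-- growth of a width -/
theorem wid_le (h : MkA B I G lev A c Λ (fun j v => θ j * (1 - v)) f b vm w) (k : Fin 3) {v : ℚ}
    (h0 : 0 ≤ v) (h1 : v ≤ 1) : ∀ᶠ n in (U : Filter ℕ),
      w k n v ≤ w k n 0 * B.d n ^ (-(|1 - θ k| + 1)) := by
  have ht := (tau_zero h k h0 h1).eventually_const_lt
    (show (1 - θ k) * (v : ℝ) - 1 < (1 - θ k) * v by linarith)
  filter_upwards [ht, h.wpos k v h0 h1, h.wpos k 0 le_rfl zero_le_one] with n a1 a2 a3
  refine le_of_log a2 a3 ?_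
  rw [Real.log_div a3.ne' a2.ne']
  refine le_trans ?_ a1.le
  have v0 : (0 : ℝ) ≤ v := by exact_mod_cast h0
  have v1 : (v : ℝ) ≤ 1 := by exact_mod_cast h1
  have : -|1 - θ k| ≤ (1 - θ k) * v := by
    have e := neg_abs_le ((1 - θ k) * (v : ℝ))
    rw [abs_mul, abs_of_nonneg v0] at e
    have : |1 - θ k| * (v : ℝ) ≤ |1 - θ k| * 1 := mul_le_mul_of_nonneg_left v1 (abs_nonneg _)
    linarith
  linarith

/-- **778's `Qw`** -/
theorem qw_of (h : MkA B I G lev A c Λ (fun j v => θ j * (1 - v)) f b vm w)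
    (hθ : θ 2 = 2 * θ 1) (hu : ∀ᶠ n in (U : Filter ℕ), (u n).Ok) (hz0 : ∀ n, 0 < hz n)
    (hA : ∀ v : ℚ, 0 ≤ v → v ≤ 1 → ∀ᶠ n in (U : Filter ℕ), (u n).WA * wA n v = w 1 n v)
    (ha : ∀ v : ℚ, 0 ≤ v → v ≤ 1 → ∀ᶠ n in (U : Filter ℕ),
      (u n).WY * (sg n * a n v) = w 0 n v)
    (hs0 : ∀ᶠ n in (U : Filter ℕ), (u n).WY * sg n = w 0 n 0)
    (hr : ∀ᶠ n in (U : Filter ℕ), hz n * rho (lev n 0) = 1 / 2)
    (hw : ∀ ε : ℝ, 0 < ε → ∀ᶠ n in (U : Filter ℕ),
      B.d n ^ ε * (u n).WA ≤ w 1 n 0 ∧ w 1 n 0 ≤ B.d n ^ (-ε) * (u n).WA ∧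
      B.d n ^ ε * (u n).WB ≤ w 2 n 0 ∧ w 2 n 0 ≤ B.d n ^ (-ε) * (u n).WB)
    (hsl : ∀ δ : ℝ, 0 < δ → ∀ᶠ n in (U : Filter ℕ), ∀ x ∈ I n,
      |2 * kp n * (F n x).g 1| * (u n).WB ≤ B.d n ^ (-δ) * (u n).WA ∧
      |2 * kp n * (F n x).g 2| * (u n).WY ≤ B.d n ^ (-δ) * (u n).WA) :
    ∃ C : ℝ, ∀ i, ∀ v : ℚ, 0 ≤ v → v ≤ 1 → ∀ δ : ℝ, 0 < δ → ∀ᶠ n in (U : Filter ℕ),
      Qw B I w kp sg F u (fun n v => hz n * rho (lev n v)) wA a C i n v δ := by
  refine ⟨|1 - θ 1| + |1 - θ 0| + 2, ?_⟩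
  intro i v h0 h1 δ hδ
  match i with
  | 0 =>
    filter_upwards [hA v h0 h1, h.wpos 1 v h0 h1] with n a1 a2
    show 0 < (u n).WA * wA n v ∧ Cmp (B.d n ^ δ) (w 1 n v) ((u n).WA * wA n v)
    rw [a1]
    exact ⟨a2, Cmp.self (dpow_le_one B n hδ.le) a2.le⟩
  | 1 =>
    have t2 := tau_zero h 2 h0 h1
    have t1 := tau_zero h 1 h0 h1
    have t0 := h.lev_lim 0 v le_rfl h0 h1
    have t := (t2.sub (t1.const_mul 2)).add t0
    have e0 : (1 - θ 2) * (v : ℝ) - 2 * ((1 - θ 1) * v) + ((v : ℝ) - (0 : ℚ)) = 0 := by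
      rw [hθ]; push_cast; ring
    rw [e0] at t
    have d4 : 0 < δ / 5 := by positivity
    have tl := (t.eventually_const_lt (show -(δ / 5) < 0 by linarith)).and
      (t.eventually_lt_const d4)
    have hc := ev_const B (C := 2) (by norm_num) d4
    filter_upwards [tl, hA v h0 h1, h.wpos 1 v h0 h1, h.wpos 2 v h0 h1, h.wpos 1 0 le_rfl zero_le_one,
      h.wpos 2 0 le_rfl zero_le_one, hu, hr, hw _ d4, hc] with n tl a1 p1 p2 q1 q2 hok hr hw hc
    have hWA := hok.A0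
    have hWB := hok.B0
    have hL := B.L_pos n
    have hzp := hz0 n
    have rv := rho_pos (lev n v)
    have r0 := rho_pos (lev n 0)
    have eA : wA n v = w 1 n v / (u n).WA := by
      rw [← a1]; field_simp
    have hpos : 0 < (u n).WB * (wA n v ^ 2 / (hz n * rho (lev n v))) := by
      rw [eA]; positivity
    refine ⟨hpos, cmp_of_log p2 hpos ?_⟩
    -- logarithms
    have lg : ∀ {x y e : ℝ}, 0 < x → 0 < y → B.d n ^ e * y ≤ x → x ≤ B.d n ^ (-e) * y →
        |Real.log x - Real.log y| ≤ e * B.L n := by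
      intro x y e hx hy g1 g2
      have k1 := Real.log_le_log (mul_pos (dpow_pos B n e) hy) g1
      have k2 := Real.log_le_log hx g2
      rw [Real.log_mul (dpow_pos B n e).ne' hy.ne', log_dpow] at k1
      rw [Real.log_mul (dpow_pos B n (-e)).ne' hy.ne', log_dpow] at k2
      rw [abs_le]
      constructor <;> linarith
    have l1 := lg q1 hWA hw.1 hw.2.1
    have l2 := lg q2 hWB hw.2.2.1 hw.2.2.2
    have l3 : |Real.log (hz n * rho (lev n 0))| ≤ δ / 5 * B.L n := by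
      rw [hr, show (1 : ℝ) / 2 = 2⁻¹ by norm_num, Real.log_inv, abs_neg,
        abs_of_pos (Real.log_pos (by norm_num))]
      have := Real.log_le_log (by norm_num) hc
      rw [log_dpow] at this
      linarith
    rw [Real.log_mul hzp.ne' r0.ne'] at l3
    have e1 : Real.log ((u n).WB * (wA n v ^ 2 / (hz n * rho (lev n v))) / w 2 n v) =
        ((Real.log (w 2 n 0) - Real.log (w 2 n v)) - 2 * (Real.log (w 1 n 0) - Real.log (w 1 n v)) +
          ((lev n v : ℝ) - lev n 0) * Real.log 2) -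
        (Real.log (w 2 n 0) - Real.log (u n).WB) +
        2 * (Real.log (w 1 n 0) - Real.log (u n).WA) -
        (Real.log (hz n) + Real.log (rho (lev n 0))) := by
      rw [eA, Real.log_div (by positivity) p2.ne', Real.log_mul hWB.ne' (by positivity),
        Real.log_div (by positivity) (by positivity), Real.log_pow, Real.log_div p1.ne' hWA.ne',
        Real.log_mul hzp.ne' rv.ne', log_rho, log_rho]
      push_cast
      ring
    have e2 : |((Real.log (w 2 n 0) - Real.log (w 2 n v)) -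
        2 * (Real.log (w 1 n 0) - Real.log (w 1 n v)) +
          ((lev n v : ℝ) - lev n 0) * Real.log 2)| ≤ δ / 5 * B.L n := by
      obtain ⟨b1, b2⟩ := tl
      have e3 : (Real.log (w 2 n 0) - Real.log (w 2 n v)) / B.L n -
          2 * ((Real.log (w 1 n 0) - Real.log (w 1 n v)) / B.L n) +
          ((lev n v : ℝ) - lev n 0) * Real.log 2 / B.L n =
          ((Real.log (w 2 n 0) - Real.log (w 2 n v)) -
            2 * (Real.log (w 1 n 0) - Real.log (w 1 n v)) +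
            ((lev n v : ℝ) - lev n 0) * Real.log 2) / B.L n := by ring
      rw [e3] at b1 b2
      rw [lt_div_iff₀ hL] at b1
      rw [div_lt_iff₀ hL] at b2
      rw [abs_le]
      constructor <;> linarith
    rw [abs_div, abs_of_pos hL, div_le_iff₀ hL, e1]
    rw [abs_le] at l1 l2 l3 e2 ⊢
    constructor <;> linarith [l1.1, l1.2, l2.1, l2.2, l3.1, l3.2, e2.1, e2.2]
  | 2 =>
    filter_upwards [ha v h0 h1, h.wpos 0 v h0 h1] with n a1 a2
    show 0 < (u n).WY * (sg n * a n v) ∧ Cmp (B.d n ^ δ) (w 0 n v) ((u n).WY * (sg n * a n v))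
    rw [a1]
    exact ⟨a2, Cmp.self (dpow_le_one B n hδ.le) a2.le⟩
  | 3 =>
    filter_upwards [hsl δ hδ, hu] with n a1 hok
    exact ⟨hok.A0, fun x hx => (a1 x hx).1, fun x hx => (a1 x hx).2⟩
  | 4 =>
    filter_upwards [hA v h0 h1, ha v h0 h1, hs0, hr, hu, hw 1 one_pos, wid_le h 1 h0 h1,
      wid_le h 0 h0 h1, h.lev_mono 0 v le_rfl h0 h1, h.wpos 0 0 le_rfl zero_le_one]
      with n a1 a2 a3 a4 hok a5 a6 a7 a8 a9
    have hWA := hok.A0
    have hWY := hok.Y0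
    have dp := dpow_pos B n
    refine ⟨?_, ?_, ?_⟩
    · have : rho (lev n v) ≤ rho (lev n 0) := by
        unfold rho
        exact one_div_le_one_div_of_le (by positivity) (pow_le_pow_right₀ (by norm_num) a8)
      have := mul_le_mul_of_nonneg_left this (hz0 n).le
      show hz n * rho (lev n v) ≤ 1
      linarith
    · have e : wA n v = w 1 n v / (u n).WA := by rw [← a1]; field_simp
      rw [e, div_le_iff₀ hWA]
      calc w 1 n v ≤ w 1 n 0 * B.d n ^ (-(|1 - θ 1| + 1)) := a6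
        _ ≤ (B.d n ^ (-(1 : ℝ)) * (u n).WA) * B.d n ^ (-(|1 - θ 1| + 1)) :=
            mul_le_mul_of_nonneg_right a5.2.1 (dp _).le
        _ = B.d n ^ (-(|1 - θ 1| + 2)) * (u n).WA := by
            rw [mul_right_comm, ← dpow_add]; congr 2; ring
        _ ≤ _ := mul_le_mul_of_nonneg_right (dpow_le B n (by
            have := abs_nonneg (1 - θ 0); linarith)) hWA.le
    · have e : a n v * w 0 n 0 = w 0 n v := by rw [← a2, ← a3]; ring
      have e' : a n v = w 0 n v / w 0 n 0 := by rw [← e]; field_simp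
      rw [e', div_le_iff₀ a9]
      refine a7.trans ?_
      rw [mul_comm]
      exact mul_le_mul_of_nonneg_right (dpow_le B n (by
        have := abs_nonneg (1 - θ 1); linarith)) a9.le
  | i + 5 => exact Eventually.of_forall fun n => trivial

end qw

end Crest.Agent.R136.Wcn464
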