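import Crest.Agent.R136.Stk1_464
import Crest.Agent.R136.Own_650
import Crest.Agent.R136.Wcn2_464

/-!
# R136, U6 thin side, stage C (helper464): data of the container, part 2

`StcK p D K x0` : the fields of 321's `StcA` which belong to the container (all but `mate`, `Mb`,
`thick`, `lat`, `clw`) and the container itself (`cont`); `exists_stk` : `ThinW ⊢ ∃ K x0, StcK`.
-/

set_option autoImplicit false
set_option linter.unusedVariables false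

open Finset Filter Topology

namespace Crest.Agent.R136.Stk464

open Crest.Agent.R138
open Crest.Agent.R138.Ex926 (Base U)
open Crest.Agent.R138.Dp76 (dpow_pos dpow_add dpow_le dpow_le_one)
open Crest.Agent.R138.ArgM163 (ev_const)
open Crest.Agent.R138.Mk163 (zc zl rho alive)
open Crest.Agent.R138.MkRef627 (lc kc mem_alive)
open Crest.Agent.R136.MkA627
open Crest.Agent.R136.Sh605
open Crest.Agent.R136.NetW191
open Crest.Agent.R136.GeoN778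
open Crest.Agent.R136.Wit321
open Crest.Agent.R136.Top484
open Crest.Agent.R136.Stc321
open Crest.Agent.R136.Tl102 (QF kap)
open Crest.Agent.R136.Tlt51 (Close mk4 zx rh Shp InP)
open Crest.Agent.R136.KapP335 (kapP DetP kapP_eq)
open Crest.Agent.R136.Fw650 (z0N zhN rhN)
open Crest.Agent.R136.Thn768 (ThinW Frm Cont Own Snd Tay D3 nm cr exists_tay abs_dt_unit)
open Crest.Agent.R136.TL650 (own_of)

/-- **data of the container** : fields of `StcA` -/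
structure StcK (p : Par4) (D : Dat4) (K : ℕ → CtD) (x0 : ℕ → ℕ × ℝ) : Prop where
  kp1 : ∀ n, |(K n).κ| ≤ 1
  σ0 : ∀ n, 0 < (K n).σ
  ok : ∀ n, (K n).u.Ok
  ortho : ∀ n, Ortho (K n).f
  kp0 : ∀ᶠ n in (U : Filter ℕ), 1 / 5 ≤ |(K n).κ|
  sm : ∀ M : ℝ, ∀ᶠ n in (U : Filter ℕ), (K n).P.Sm (D.B.d n ^ M)
  σs : ∀ M : ℝ, ∀ᶠ n in (U : Filter ℕ), (K n).σ ≤ D.B.d n ^ M
  YB : ∀ M : ℝ, ∀ᶠ n in (U : Filter ℕ), (K n).u.WY ≤ D.B.d n ^ M * (K n).u.WB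
  BA : ∀ M : ℝ, ∀ᶠ n in (U : Filter ℕ), (K n).u.WB ≤ D.B.d n ^ M * (K n).u.WA
  σw : ∀ᶠ n in (U : Filter ℕ), (K n).u.WY * (K n).σ = D.w 0 n 0
  H : ∀ᶠ n in (U : Filter ℕ), (K n).u.H = 2 * rho (D.lev n 0)
  zcc : ∀ᶠ n in (U : Filter ℕ), ∀ x ∈ D.I n, (K n).u.zc = zx D n 0 x + rho (D.lev n 0) / 2
  wid : ∀ ε : ℝ, 0 < ε → ∀ᶠ n in (U : Filter ℕ),
    D.B.d n ^ ε * (K n).u.WA ≤ D.w 1 n 0 ∧ D.w 1 n 0 ≤ D.B.d n ^ (-ε) * (K n).u.WA ∧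
    D.B.d n ^ ε * (K n).u.WB ≤ D.w 2 n 0 ∧ D.w 2 n 0 ≤ D.B.d n ^ (-ε) * (K n).u.WB
  frm : ∀ᶠ n in (U : Filter ℕ), ∀ x ∈ D.I n, Frm (mk4 D n 0 x) (D.L n x.1) x.2 (K n).f
  cen : ∀ᶠ n in (U : Filter ℕ), x0 n ∈ D.I n
  cenG : ∃ C : ℝ, ∀ᶠ n in (U : Filter ℕ), Gd D K C n (x0 n)
  bal : ∀ v : ℚ, 0 ≤ v → v ≤ 1 → ∀ ε : ℝ, 0 < ε → ∀ᶠ n in (U : Filter ℕ),
    D.w 2 n v ≤ (K n).u.WB * (wBS D K n v * D.B.d n ^ (-ε)) ∧
      (K n).u.WB * wBS D K n v ≤ D.w 2 n v * D.B.d n ^ (-ε)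
  /-- the container is the level-`0` mark of `x0` -/
  cont : ∃ η : ℕ → ℝ, (∀ M : ℝ, ∀ᶠ n in (U : Filter ℕ), η n ≤ D.B.d n ^ M) ∧
    ∀ᶠ n in (U : Filter ℕ),
      Cont (mk4 D n 0 (x0 n)) (D.L n (x0 n).1) (zx D n 0 (x0 n)) (rh D n 0) (K n).f (K n).u
        (qdOf (mk4 D n 0 (x0 n)).q) (η n) ∧
      (K n).c = D.L n (x0 n).1 ∧
      (K n).P = (wqOf (hatQ (K n).f (K n).c (K n).u (qdOf (mk4 D n 0 (x0 n)).q))).pj ∧
      (K n).κ = (wqOf (hatQ (K n).f (K n).c (K n).u (qdOf (mk4 D n 0 (x0 n)).q))).κ'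


/-! ### the thickness in units of the container -/

theorem shp_self {S : K4.Plk4} {z0 ρ r : ℝ} (h : Shp S z0 ρ r) : Shp S z0 ρ S.a :=
  { ortho := h.ortho
    isQ := h.isQ
    a_le0 := h.a_le0
    w0_le := h.w0_le
    w_le := h.w_le
    r0_le := le_rfl
    st0 := h.st0
    sl1 := h.sl1
    sl2 := h.sl2 }

/-- curvature extent of the container -/
theorem ext_num {S : K4.Plk4} {T : Ln4} {z0 ρ η δ : ℝ} {b0 b1 : V3} {G : QF} {f : Fin 3 → V3}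
    {u : Un} {Q : Qd} (O : Own S T z0 ρ δ b0 b1 G) (hδ1 : δ ≤ 1) (hC : Cont S T z0 ρ f u Q η)
    (hη : η ≤ 1 / 4) :
    δ * (S.w 0 * kap b0 b1 G) ≤ 10 ^ 18 * (u.WY * (S.w 1 / u.WA) ^ 2) := by
  obtain ⟨N, R, H, hT⟩ := exists_tay (q := S.q) (by rw [hC.q]; exact Q.isQ) T
  have hT' : Tay Q.ev T N R H := by rw [← hC.q]; exact hT
  have hY := hC.ok.Y0
  have hA := hC.ok.A0
  have hB := hC.ok.B0
  have hν : (hatQ f T u Q).b 0 ≠ 0 := by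
    intro e
    have := hC.b0.1
    rw [e, abs_zero] at this
    linarith
  have hS := O.snd hT
  have d1 := (hS.D O (div_nonneg O.δ0.le (by norm_num)) hδ1).1
  have d2 := hS.om_le O zero_le_one
  have e1 := D3_hat (c := T) hC.ortho hC.ok hT' 0
  have e2 := Om_hat (c := T) hC.ortho hC.ok hT' 0
  rw [ul_self] at e1 e2
  have e3 := hes_cont hν hC.b1 hC.b2 hC.d2
  have e4 := crs_cont hC.b1 hC.b2 hC.d2
  have w1 := O.pos 1
  have w2 := O.pos 2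
  have hρ := O.hρ
  have hκ : |(wqOf (hatQ f T u Q)).κ'| ≤ 1 := by
    have k1 := hC.sm.kap (by linarith)
    have k2 := hC.kap.2
    have e : (wqOf (hatQ f T u Q)).κ' = ((wqOf (hatQ f T u Q)).κ' - (wqOf (hatQ f T u Q)).κ) +
      (wqOf (hatQ f T u Q)).κ := by ring
    rw [e]
    refine (abs_add_le _ _).trans ?_
    linarith
  have key := Y_up (ν := (hatQ f T u Q).b 0) (H := u.H) (WY := u.WY) (WA := u.WA) (WB := u.WB)
    (P := ρ * (S.w 1 * S.w 2)) (C := 10 ^ 5) (δ := δ) (Ye := S.w 0 * kap b0 b1 G) (w1 := S.w 1)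
    (D := D3 N R H) (Om := dt (f 1) (cr N R))
    (h := hes (hatQ f T u Q) (crs (gd (hatQ f T u Q) ⟨fun _ => 0, fun _ => 0⟩)
      ((hatQ f T u Q).gr 0 ((⟨fun _ => 0, fun _ => 0⟩ : Ln4).pos 0))))
    (cr1 := crs (gd (hatQ f T u Q) ⟨fun _ => 0, fun _ => 0⟩)
      ((hatQ f T u Q).gr 0 ((⟨fun _ => 0, fun _ => 0⟩ : Ln4).pos 0)) 1)
    (abs_pos.2 hν) hC.ok.H0 hY hA hB (by positivity) O.Ye0 w1.le (by positivity) ?_ e2 ?_ ?_ ?_ ?_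
  · refine key.trans ?_
    have h4 := hC.b0.2
    have h5 : 0 ≤ (S.w 1 / u.WA) ^ 2 := by positivity
    calc 104 * ((10 : ℝ) ^ 5) ^ 3 * (|(hatQ f T u Q).b 0| * (S.w 1 / u.WA) ^ 2)
        ≤ 104 * ((10 : ℝ) ^ 5) ^ 3 * ((4 * u.WY) * (S.w 1 / u.WA) ^ 2) := by
          refine mul_le_mul_of_nonneg_left (mul_le_mul_of_nonneg_right h4 h5) (by positivity)
      _ ≤ 10 ^ 18 * (u.WY * (S.w 1 / u.WA) ^ 2) := by
          have : 0 ≤ u.WY * (S.w 1 / u.WA) ^ 2 := by positivity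
          nlinarith
  · rw [e1, abs_mul, abs_of_nonneg (by positivity)]
  · rw [e3, abs_neg, abs_mul, abs_pow]
    have : 0 ≤ |(hatQ f T u Q).b 0| ^ 5 := by positivity
    nlinarith
  · rw [e4]
    simp only [Matrix.cons_val]
    rw [abs_neg, abs_pow]
    have : 0 ≤ |(hatQ f T u Q).b 0| ^ 2 := by positivity
    linarith
  · refine d1.trans ?_
    have : 0 ≤ |D3 N R H| * (ρ * (S.w 1 * S.w 2)) ^ 2 := by positivity
    linarith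
  · refine le_trans ?_ d2
    exact mul_le_mul_of_nonneg_right (abs_dt_unit hC.ortho 1 _) (by positivity)

section

variable {p : Par4} {D : Dat4}

/-- marks of the incidences -/
theorem mk_facts {p : Par4} {D : Dat4} (mka : MkA D.B D.I (D.G p) D.lev D.A (fun v => p.g * v)
    (fun v => 0 * v) (fun j v => p.θ j * (1 - v)) D.f D.b D.vm D.w) {v : ℚ} (h0 : 0 ≤ v)
    (h1 : v ≤ 1) : ∀ᶠ n in (U : Filter ℕ), 0 < D.w 0 n v ∧ ∀ x ∈ D.I n,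
      InP (D.L n x.1) (mk4 D n v x) (zx D n v x) (rh D n v) ∧
      Shp (mk4 D n v x) (zx D n v x) (rh D n v) (mk4 D n v x).a ∧
      (mk4 D n v x).a = D.w 0 n v ∧ (mk4 D n v x).w 1 = D.w 1 n v ∧
        (mk4 D n v x).w 2 = D.w 2 n v := by
  filter_upwards [mka.mark v h0 h1, mka.wpos 0 v h0 h1] with n a1 a2
  refine ⟨a2, fun x hx => ?_⟩
  obtain ⟨m1, m2, m3, m4⟩ := a1 (zc (D.lev n v) x.2) x.1 (mem_alive.2 ⟨x, hx, rfl, rfl⟩)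
  exact ⟨m1, shp_self m2.1, m4 0, m4 1, m4 2⟩

theorem rho_pos' (m : ℕ) : 0 < rho m := by unfold rho; positivity

/-- **the thickness is infinitely small in units of the container** -/
theorem sig_le (h : ThinW p D) {x0 : ℕ → ℕ × ℝ} {f : ℕ → Fin 3 → V3} {u : ℕ → Un} {Q : ℕ → Qd}
    {η : ℕ → ℝ} (hc : ∀ᶠ n in (U : Filter ℕ), x0 n ∈ D.I n ∧
      Cont (mk4 D n 0 (x0 n)) (D.L n (x0 n).1) (zx D n 0 (x0 n)) (rh D n 0) (f n) (u n) (Q n)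
        (η n)) (hη : ∀ M : ℝ, ∀ᶠ n in (U : Filter ℕ), η n ≤ D.B.d n ^ M)
    (hw : ∀ ε : ℝ, 0 < ε → ∀ᶠ n in (U : Filter ℕ),
      D.B.d n ^ ε * (u n).WA ≤ D.w 1 n 0 ∧ D.w 1 n 0 ≤ D.B.d n ^ (-ε) * (u n).WA ∧
      D.B.d n ^ ε * (u n).WB ≤ D.w 2 n 0 ∧ D.w 2 n 0 ≤ D.B.d n ^ (-ε) * (u n).WB) (M : ℝ) :
    ∀ᶠ n in (U : Filter ℕ), D.w 0 n 0 ≤ D.B.d n ^ M * (u n).WY := by
  filter_upwards [hc, hη 1, hw 1 one_pos, h.thin 0 le_rfl zero_le_one (M + 4),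
    h.nd 0 le_rfl zero_le_one 1 one_pos, mk_facts h.mka le_rfl zero_le_one,
    ev_const D.B (C := 10 ^ 18) (by norm_num) one_pos, ev_const D.B (C := 4) (by norm_num) one_pos]
    with n a1 a2 a3 a4 a5 a6 a7 a8
  obtain ⟨hx, hC⟩ := a1
  obtain ⟨m0, m⟩ := a6
  obtain ⟨m1, m2, m3, m4, m5⟩ := m _ hx
  have dp := dpow_pos D.B n
  have ha : 0 < (mk4 D n 0 (x0 n)).a := by rw [m3]; exact m0
  obtain ⟨b0, b1, G, O⟩ := own_of m2 ha m1 (rho_pos' _) (dp 1) (a5 _ hx)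
  have hd1 : D.B.d n ^ (1 : ℝ) ≤ 1 := dpow_le_one D.B n zero_le_one
  have hη4 : η n ≤ 1 / 4 := by
    refine a2.trans ?_
    have e : D.B.d n ^ (1 : ℝ) * D.B.d n ^ (-(1 : ℝ)) = 1 := by
      rw [← dpow_add]; simp
    have := mul_le_mul_of_nonneg_left a8 (dp 1).le
    linarith
  have k1 := ext_num O hd1 hC hη4
  have k2 := a4 _ hx
  rw [kapP_eq (O.pos 0).ne' O.exp] at k2
  rw [m3] at k2
  rw [m4] at k1
  have hWA := hC.ok.A0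
  have hWY := hC.ok.Y0
  have w1 : 0 < D.w 1 n 0 := by rw [← m4]; exact O.pos 1
  have k3 : D.w 1 n 0 / (u n).WA ≤ D.B.d n ^ (-(1 : ℝ)) := by
    rw [div_le_iff₀ hWA]; exact a3.2.1
  have k4 : (D.w 1 n 0 / (u n).WA) ^ 2 ≤ D.B.d n ^ (-(2 : ℝ)) := by
    have := pow_le_pow_left₀ (div_pos w1 hWA).le k3 2
    refine this.trans (le_of_eq ?_)
    rw [sq, ← dpow_add]; norm_num
  have k5 : D.B.d n ^ (1 : ℝ) * ((mk4 D n 0 (x0 n)).w 0 * kap b0 b1 G) ≤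
      D.B.d n ^ (-(1 : ℝ)) * ((u n).WY * D.B.d n ^ (-(2 : ℝ))) := by
    refine k1.trans ?_
    exact mul_le_mul a7 (mul_le_mul_of_nonneg_left k4 hWY.le) (by positivity) (dp _).le
  have k6 := mul_le_mul_of_nonneg_left k5 (dp (M + 3)).le
  have e1 : D.B.d n ^ (M + 3) * (D.B.d n ^ (1 : ℝ) * ((mk4 D n 0 (x0 n)).w 0 * kap b0 b1 G)) =
      D.B.d n ^ (M + 4) * ((mk4 D n 0 (x0 n)).w 0 * kap b0 b1 G) := by
    rw [← mul_assoc, ← dpow_add]; congr 2; ring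
  have e2 : D.B.d n ^ (M + 3) * (D.B.d n ^ (-(1 : ℝ)) * ((u n).WY * D.B.d n ^ (-(2 : ℝ)))) =
      D.B.d n ^ M * (u n).WY := by
    have : D.B.d n ^ M = D.B.d n ^ (M + 3) * D.B.d n ^ (-(1 : ℝ)) * D.B.d n ^ (-(2 : ℝ)) := by
      rw [← dpow_add, ← dpow_add]; congr 1; ring
    rw [this]; ring
  rw [e1, e2] at k6
  exact k2.trans k6

end

end Crest.Agent.R136.Stk464
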