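import Crest.Agent.R136.Stk2_464

/-!
# R136, U6 thin side, stage C (helper464): data of the container, part 3

`exists_stk` : `ThinW ⊢ ∃ K x0, StcK`.
-/

set_option autoImplicit false
set_option linter.unusedVariables false

open Finset Filter Topology

namespace Crest.Agent.R136.Stk464

open Crest.Agent.R138
open Crest.Agent.R138.Ex926 (Base U)
open Crest.Agent.R138.Dp76 (dpow_pos dpow_add dpow_le dpow_le_one)
open Crest.Agent.R138.ArgM163 (ev_const)
open Crest.Agent.R138.Mk163 (zc zl rho alive)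
open Crest.Agent.R138.MkRef627 (lc kc mem_alive)
open Crest.Agent.R136.MkA627
open Crest.Agent.R136.Sh605
open Crest.Agent.R136.NetW191
open Crest.Agent.R136.GeoN778
open Crest.Agent.R136.Wit321
open Crest.Agent.R136.Top484
open Crest.Agent.R136.Stc321
open Crest.Agent.R136.Tl102 (QF kap)
open Crest.Agent.R136.Tlt51 (Close mk4 zx rh Shp InP)
open Crest.Agent.R136.KapP335 (kapP DetP kapP_eq)
open Crest.Agent.R136.Fw650 (z0N zhN rhN)
open Crest.Agent.R136.Thn768 (ThinW Frm Cont Own Snd Tay D3 nm cr exists_tay abs_dt_unit)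
open Crest.Agent.R136.Wcn464 (qw_of)

/-- standard frame -/
theorem ortho_unit : Ortho (fun i : Fin 3 => (Pi.single i 1 : V3)) := by
  intro i j
  fin_cases i <;> fin_cases j <;> simp [dt]

/-- default data -/
noncomputable def dflt : CtD where
  f := fun i : Fin 3 => (Pi.single i 1 : V3)
  c := ⟨fun _ => 0, fun _ => 0⟩
  u := ⟨1, 1, 1, 0, 1⟩
  P := ⟨0, 0, 0, 0, 0, 0, 0⟩
  κ := 0
  σ := 1

theorem Sm.mono {P : Pj} {η η' : ℝ} (h : P.Sm η) (hη : η ≤ η') : P.Sm η' :=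
  ⟨h.g.trans hη, h.h.trans hη, h.a.trans hη, h.b.trans hη, h.y.trans hη, h.s.trans hη,
    h.r.trans hη⟩

/-- **data of the container** -/
theorem exists_stk {p : Par4} {D : Dat4} (h : ThinW p D) :
    ∃ (K : ℕ → CtD) (x0 : ℕ → ℕ × ℝ), StcK p D K x0 := by
  classical
  obtain ⟨x0, f, u, Q, η, hc, hη, hw, hfr⟩ := h.cont
  set q : ℕ → Qd := fun n => hatQ (f n) (D.L n (x0 n).1) (u n) (qdOf (mk4 D n 0 (x0 n)).q) with hq
  set good : ℕ → Prop := fun n => Ortho (f n) ∧ (u n).Ok ∧ 0 < D.w 0 n 0 ∧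
    |(wqOf (q n)).κ'| ≤ 1 with hgood
  set K : ℕ → CtD := fun n => if good n then
    ⟨f n, D.L n (x0 n).1, u n, (wqOf (q n)).pj, (wqOf (q n)).κ', D.w 0 n 0 / (u n).WY⟩
    else dflt with hKd
  have dp := dpow_pos D.B
  have hc' : ∀ᶠ n in (U : Filter ℕ), x0 n ∈ D.I n ∧
      Cont (mk4 D n 0 (x0 n)) (D.L n (x0 n).1) (zx D n 0 (x0 n)) (rh D n 0) (f n) (u n)
        (qdOf (mk4 D n 0 (x0 n)).q) (η n) := hc.mono fun n h => ⟨h.1, cont_qdOf h.2⟩
  have hsm : ∀ ε : ℝ, 0 < ε → ∀ᶠ n in (U : Filter ℕ), η n ≤ ε := fun ε hε => by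
    filter_upwards [hη 1, ev_const D.B (C := 1 / ε) (by positivity) one_pos] with n a1 a2
    refine a1.trans ?_
    have e : D.B.d n ^ (1 : ℝ) * D.B.d n ^ (-(1 : ℝ)) = 1 := by
      rw [← dpow_add]; simp
    have k := mul_le_mul_of_nonneg_left a2 (dp n 1).le
    rw [e, mul_one_div, div_le_iff₀ hε, one_mul] at k
    exact k
  have hkap : ∀ᶠ n in (U : Filter ℕ), 1 / 5 ≤ |(wqOf (q n)).κ'| ∧ |(wqOf (q n)).κ'| ≤ 1 := by
    filter_upwards [hc', hsm (1 / 40) (by norm_num)] with n a1 a2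
    have k1 := a1.2.sm.kap (by linarith)
    have k2 := a1.2.kap
    change 1 / 4 ≤ |(wqOf (q n)).κ| ∧ |(wqOf (q n)).κ| ≤ 1 / 2 at k2
    change |(wqOf (q n)).κ' - (wqOf (q n)).κ| ≤ 2 * η n at k1
    constructor
    · have e := abs_sub_abs_le_abs_sub (wqOf (q n)).κ (wqOf (q n)).κ'
      rw [abs_sub_comm] at e
      linarith [k2.1]
    · have e := abs_sub_abs_le_abs_sub (wqOf (q n)).κ' (wqOf (q n)).κ
      linarith [k2.2]
  have hg : ∀ᶠ n in (U : Filter ℕ), good n := by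
    filter_upwards [hc', hkap, h.mka.wpos 0 0 le_rfl zero_le_one] with n a1 a2 a3
    exact ⟨a1.2.ortho, a1.2.ok, a3, a2.2⟩
  have hK : ∀ᶠ n in (U : Filter ℕ), K n =
      ⟨f n, D.L n (x0 n).1, u n, (wqOf (q n)).pj, (wqOf (q n)).κ', D.w 0 n 0 / (u n).WY⟩ :=
    hg.mono fun n h => if_pos h
  have hall : ∀ n, |(K n).κ| ≤ 1 ∧ 0 < (K n).σ ∧ (K n).u.Ok ∧ Ortho (K n).f := by
    intro n
    by_cases hn : good n
    · have e : K n = _ := if_pos hn
      rw [e]
      exact ⟨hn.2.2.2, div_pos hn.2.2.1 hn.2.1.Y0, hn.2.1, hn.1⟩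
    · have e : K n = dflt := if_neg hn
      rw [e]
      refine ⟨?_, ?_, ⟨?_, ?_, ?_, ?_⟩, ortho_unit⟩ <;> simp [dflt]
  have hσw : ∀ᶠ n in (U : Filter ℕ), (K n).u.WY * (K n).σ = D.w 0 n 0 := by
    filter_upwards [hK, hc'] with n a1 a2
    rw [a1]
    have := a2.2.ok.Y0.ne'
    simp only
    field_simp
  have hσs : ∀ M : ℝ, ∀ᶠ n in (U : Filter ℕ), (K n).σ ≤ D.B.d n ^ M := fun M => by
    filter_upwards [hK, hc', sig_le h hc hη hw M] with n a1 a2 a3
    rw [a1]
    simp only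
    rw [div_le_iff₀ a2.2.ok.Y0]
    exact a3
  have hwid : ∀ ε : ℝ, 0 < ε → ∀ᶠ n in (U : Filter ℕ),
      D.B.d n ^ ε * (K n).u.WA ≤ D.w 1 n 0 ∧ D.w 1 n 0 ≤ D.B.d n ^ (-ε) * (K n).u.WA ∧
      D.B.d n ^ ε * (K n).u.WB ≤ D.w 2 n 0 ∧ D.w 2 n 0 ≤ D.B.d n ^ (-ε) * (K n).u.WB :=
    fun ε hε => by
      filter_upwards [hK, hw ε hε] with n a1 a2
      rw [a1]
      exact a2
  have hH : ∀ᶠ n in (U : Filter ℕ), (K n).u.H = 2 * rho (D.lev n 0) := by
    filter_upwards [hK, hc'] with n a1 a2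
    rw [a1]
    exact a2.2.H
  refine ⟨K, x0, ⟨fun n => (hall n).1, fun n => (hall n).2.1, fun n => (hall n).2.2.1,
    fun n => (hall n).2.2.2, ?_, ?_, hσs, ?_, ?_, hσw, hH, ?_, hwid, ?_, ?_, ?_, ?_, ?_⟩⟩
  · filter_upwards [hK, hkap] with n a1 a2
    rw [a1]
    exact a2.1
  · intro M
    filter_upwards [hK, hc', hη (M + 1), hsm 1 one_pos,
      ev_const D.B (C := 5) (by norm_num) one_pos] with n a1 a2 a3 a4 a5
    rw [a1]
    refine Sm.mono (a2.2.sm.pj a4) ?_
    have e : D.B.d n ^ (M + 1) * D.B.d n ^ (-(1 : ℝ)) = D.B.d n ^ M := by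
      rw [← dpow_add]; congr 1; ring
    rw [← e]
    have k := mul_le_mul_of_nonneg_left a5 (dp n (M + 1)).le
    linarith
  · intro M
    filter_upwards [hK, hc', hη M] with n a1 a2 a3
    rw [a1]
    exact a2.2.YB.trans (mul_le_mul_of_nonneg_right a3 a2.2.ok.B0.le)
  · intro M
    filter_upwards [hK, hc', hη M] with n a1 a2 a3
    rw [a1]
    exact a2.2.BA.trans (mul_le_mul_of_nonneg_right a3 a2.2.ok.A0.le)
  · filter_upwards [hK, hc', h.mka.cell0] with n a1 a2 a3 x hx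
    rw [a1]
    have e : zx D n 0 x = zx D n 0 (x0 n) := by
      unfold Tlt51.zx
      rw [a3 x hx _ a2.1]
    rw [e]
    exact a2.2.zc
  · filter_upwards [hK, hfr] with n a1 a2 x hx
    rw [a1]
    exact a2 x hx
  · exact hc'.mono fun n h => h.1
  · -- the container is good
    refine ⟨1, ?_⟩
    filter_upwards [hK, hc', hsm (1 / 40) (by norm_num), mk_facts h.mka le_rfl zero_le_one, hσw,
      sig_le h hc hη hw 1, ev_const D.B (C := 10 ^ 4) (by norm_num) one_pos]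
      with n a1 a2 a3 a4 a5 a6 a7
    obtain ⟨hx, hC⟩ := a2
    obtain ⟨m0, m⟩ := a4
    obtain ⟨m1, m2, m3, m4, m5⟩ := m _ hx
    have ha : 0 < (mk4 D n 0 (x0 n)).a := by rw [m3]; exact m0
    rw [a1] at a5
    simp only at a5
    have hY := hC.ok.Y0
    have hd : 10 ^ 4 * D.B.d n ^ (1 : ℝ) ≤ 1 := by
      have e : D.B.d n ^ (1 : ℝ) * D.B.d n ^ (-(1 : ℝ)) = 1 := by
        rw [← dpow_add]; simp
      have := mul_le_mul_of_nonneg_left a7 (dp n 1).le
      linarith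
    have h4 : 4000 * (mk4 D n 0 (x0 n)).a ≤ (u n).WY := by
      rw [m3]
      have := mul_le_mul_of_nonneg_right hd hY.le
      have k0 := m0.le
      nlinarith
    obtain ⟨f1, f2⟩ := flags_cont (σ := D.w 0 n 0 / (u n).WY) hC a3 (rho_pos' _)
      (fun z z1 z2 => (m1 z z1 z2).2) ha h4 (by rw [a5, m3])
    refine ⟨fun k => ?_, ?_, fun k => ?_⟩
    · have e : (K n).t (D.L n (x0 n).1) = ⟨fun _ => 0, fun _ => 0⟩ := by
        rw [a1]
        exact ul_self _ _ _
      rw [e]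
      simp only [abs_zero]
      exact ⟨(dp n _).le, (dp n _).le⟩
    · rw [a1]
      exact f1
    · rw [a1]
      exact (f2 k).trans a7
  · -- balance
    intro v h0 h1 ε hε
    obtain ⟨C, hQw⟩ := qw_of (kp := fun _ => 0) (sg := fun n => (K n).σ)
      (F := fun _ _ => ⟨fun _ => 0, fun _ => 0⟩)
      (u := fun n => (K n).u) (hz := hzS K) (wA := wAS D K)
      (a := aS D) h.mka h.θ2 (Eventually.of_forall fun n => (hall n).2.2.1)
      (fun n => one_div_pos.2 (hall n).2.2.1.H0)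
      (fun v _ _ => Eventually.of_forall fun n => by
        have := (hall n).2.2.1.A0.ne'
        show (K n).u.WA * (D.w 1 n v / (K n).u.WA) = _
        field_simp)
      (fun v _ _ => by
        filter_upwards [hσw, h.mka.wpos 0 0 le_rfl zero_le_one] with n a1 a2
        show (K n).u.WY * ((K n).σ * (D.w 0 n v / D.w 0 n 0)) = _
        rw [← mul_assoc, a1]
        have := a2.ne'
        field_simp)
      hσw
      (by
        filter_upwards [hH] with n a1
        show 1 / (K n).u.H * rho (D.lev n 0) = 1 / 2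
        rw [a1]
        have := (rho_pos' (D.lev n 0)).ne'
        field_simp)
      hwid
      (fun δ hδ => Eventually.of_forall fun n x hx => by
        have k1 := (hall n).2.2.1.A0
        have k2 := dp n (-δ)
        simp only [mul_zero, zero_mul, abs_zero]
        exact ⟨by positivity, by positivity⟩)
    filter_upwards [hQw 1 v h0 h1 ε hε] with n a1
    obtain ⟨k0, k1, k2⟩ := a1
    have e : D.B.d n ^ ε * D.B.d n ^ (-ε) = 1 := by rw [← dpow_add]; simp
    have d1 := dp n (-ε)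
    have k3 : D.B.d n ^ ε * D.w 2 n v ≤ (K n).u.WB * wBS D K n v := k2
    have k4 : D.B.d n ^ ε * ((K n).u.WB * wBS D K n v) ≤ D.w 2 n v := k1
    have key : ∀ {x y : ℝ}, D.B.d n ^ ε * x ≤ y → x ≤ y * D.B.d n ^ (-ε) := by
      intro x y hxy
      have := mul_le_mul_of_nonneg_right hxy d1.le
      have e2 : D.B.d n ^ ε * x * D.B.d n ^ (-ε) = x * (D.B.d n ^ ε * D.B.d n ^ (-ε)) := by ring
      rw [e2, e, mul_one] at this
      exact this
    constructor
    · have := key k3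
      linarith
    · exact key k4
  · refine ⟨η, hη, ?_⟩
    filter_upwards [hK, hc'] with n a1 a2
    rw [a1]
    exact ⟨a2.2, rfl, rfl, rfl⟩

end Crest.Agent.R136.Stk464
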