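import Crest.Agent.R136.StcL_321
import Crest.Agent.R136.Szo_327

/-!
# R136, U6 thin side, stage C (helper650): class mates, finite part

* `ye_up16` ; `sz_mate` : size of `q' - m q` in container coordinates;
* `flg_sum` : flags of `q'` from those of `q`.
-/

set_option autoImplicit false
set_option linter.unusedVariables false

namespace Crest.Agent.R136.Stm650

open Crest.Agent.R136.Sh605
open Crest.Agent.R136.K4
open Crest.Agent.R136.NetW191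
open Crest.Agent.R136.GeoN778
open Crest.Agent.R136.Wit321
open Crest.Agent.R136.Stc321
open Crest.Agent.R136.Tl102 (QF Fq bz fan shB0 scB1 scG shG shB1 kap NrmC IsExp fr cmb StP OmB om0
  om1 omM tv pv gl gM sD yc cmb_pv)
open Crest.Agent.R136.Thn768 (Own Snd Tay cr dtm D3 exists_tay abs_dt_unit)

section

variable {S : Plk4} {T : Ln4} {z0 ρ δ : ℝ} {b0 b1 : V3} {G : QF} {f : Fin 3 → V3} {c : Ln4} {u : Un}
  {Q : Qd} {κ ν R η z1 : ℝ} {N R' : V3} {H : QF}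

/-- upper bound of the curvature extent, `|ν| ≤ 16 WY` -/
theorem ye_up16 (O : Own S T z0 ρ δ b0 b1 G) {X : ℝ} (hS : Snd S T z0 ρ b0 b1 G X Q.ev N R' H)
    (hδ1 : δ ≤ 1) (hX : X ≤ δ / 10 ^ 9) (hf : Ortho f) (hu : u.Ok)
    (hN : Nr (hatQ f c u Q) (ul u (rl f c T)) z1 κ ν R η) (hκ1 : |κ| ≤ 1) (hκ2 : 1 / 5 ≤ |κ|)
    (hR : 1 ≤ R) (hv : |(ul u (rl f c T)).v 1| ≤ R) (hη0 : 0 ≤ η) (hs : 6000 * (η * R ^ 4) ≤ 1)
    (hν1 : u.WY / 8 ≤ |ν|) (hν2 : |ν| ≤ 16 * u.WY) :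
    δ * (S.w 0 * kap b0 b1 G) ≤ 10 ^ 19 * (u.WY * (S.w 1 / u.WA) ^ 2) := by
  have hY := hu.Y0
  have hA := hu.A0
  have hB := hu.B0
  have hH := hu.H0
  have hρ := O.hρ
  have w1 := O.pos 1
  have w2 := O.pos 2
  have hν : 0 < |ν| := by linarith
  have c1 := hN.crs_le hκ1 hR hv hη0 (by linarith)
  have c2 := hN.crs_ge hκ1 hR hv hη0 (by linarith)
  have e1 := D3_hat (c := c) hf hu hS.tay z1
  have e2 := Om_hat (c := c) hf hu hS.tay z1
  have k1 := (hS.D O hX hδ1).1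
  have k2 := hS.om_le O (by linarith)
  have hYe := O.Ye0
  have om := abs_dt_unit hf 1 (cr N R')
  have := Y_up (P := ρ * (S.w 1 * S.w 2)) (C := 10 ^ 5) (δ := δ)
    (Ye := S.w 0 * kap b0 b1 G) (w1 := S.w 1) (D := D3 N R' H) (Om := dt (f 1) (cr N R')) hν hH hY
    hA hB (by norm_num) hYe w1.le (by positivity)
    (by rw [e1, abs_mul, abs_of_nonneg (sq_nonneg _)]) e2 c1 c2.1
    (by
      refine k1.trans ?_
      have : 0 ≤ |D3 N R' H| * (ρ * (S.w 1 * S.w 2)) ^ 2 := by positivity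
      linarith)
    (by
      refine le_trans ?_ k2
      exact mul_le_mul_of_nonneg_right om (by positivity))
  refine this.trans ?_
  have h3 : 0 ≤ (S.w 1 / u.WA) ^ 2 := sq_nonneg _
  have h4 := mul_le_mul_of_nonneg_right hν2 h3
  have h5 : 0 ≤ u.WY * (S.w 1 / u.WA) ^ 2 := by positivity
  calc 104 * (10 ^ 5 : ℝ) ^ 3 * (|ν| * (S.w 1 / u.WA) ^ 2) ≤
        104 * (10 ^ 5 : ℝ) ^ 3 * (16 * u.WY * (S.w 1 / u.WA) ^ 2) :=
        mul_le_mul_of_nonneg_left h4 (by norm_num)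
    _ ≤ _ := by
        have e : 104 * (10 ^ 5 : ℝ) ^ 3 * (16 * u.WY * (S.w 1 / u.WA) ^ 2) =
          1664 * 10 ^ 15 * (u.WY * (S.w 1 / u.WA) ^ 2) := by ring
        rw [e]
        exact mul_le_mul_of_nonneg_right (by norm_num) h5

end

/-- symmetric coefficients in container coordinates -/
theorem hatQ_symm {f : Fin 3 → V3} {c : Ln4} {u : Un} {Q : Qd} (h : ∀ i j, Q.g i j = Q.g j i)
    (i j : Fin 3) : (hatQ f c u Q).g i j = (hatQ f c u Q).g j i := by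
  have h01 := h 0 1
  have h02 := h 0 2
  have h12 := h 1 2
  simp only [hatQ, unQ, movQ, Qd.scl, Fin.sum_univ_three, h01, h02, h12]
  ring

theorem omq_symm {m : ℝ} {Q Q2 : Qd} (h : ∀ i j, Q.g i j = Q.g j i)
    (h2 : ∀ i j, Q2.g i j = Q2.g j i) (i j : Fin 3) : (omq m Q2 Q).g i j = (omq m Q2 Q).g j i := by
  simp only [omq, dif, Wit321.mul, h i j, h2 i j]

section

variable {S : Plk4} {T : Ln4} {z0 ρ δ : ℝ} {b0 b1 b0' b1' : V3} {G G' : QF} {f : Fin 3 → V3}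
  {c : Ln4} {u : Un} {Qv Q2 : Qd} {κ ν R η X K E : ℝ}

set_option maxHeartbeats 1000000 in
/-- **size of `q' - m q` in container coordinates**, the near polynomial is `q` itself -/
theorem sz_mate (O : Own S T z0 ρ δ b0 b1 G) (hf : Ortho f) (hu : u.Ok) (hq : S.q = Qv.ev)
    (hs1 : ∀ i j, Qv.g i j = Qv.g j i) (hs2 : ∀ i j, Q2.g i j = Q2.g j i)
    (hE2 : IsExp Q2.ev S.e S.w T z0 ρ b0' b1' G')
    (hO : OmB (kap b0 b1 G) X X X b0 b1 G b0' b1' G') (hX0 : 0 ≤ X)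
    (hXK : S.w 0 * kap b0 b1 G * X ≤ K)
    (hN : Nr (hatQ f c u Qv) (ul u (rl f c T)) (u.zh z0) κ ν R η) (hκ : |κ| ≤ 1) (hR : 1 ≤ R)
    (hp : ∀ k, |(ul u (rl f c T)).p k| ≤ R) (hv : ∀ k, |(ul u (rl f c T)).v k| ≤ R)
    (hz : |u.zh z0| ≤ 1) (hη0 : 0 ≤ η) (hηR : 40 * (R * η) ≤ 1) (hρH : ρ ≤ u.H)
    (hν1 : u.WY / 4 ≤ |ν|) (hν2 : |ν| ≤ 16 * u.WY) (hYB : u.WY ≤ η * u.WB) (hRE : R ≤ E)
    (hY1 : S.w 0 * kap b0 b1 G / |ν| ≤ E) (hY2 : 1 ≤ E * (S.w 0 * kap b0 b1 G / |ν|))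
    (hα : 1 ≤ E * (S.w 1 / u.WA * (S.w 2 / u.WB))) (hrh : 1 ≤ E * (ρ / u.H))
    (hA : S.w 1 / u.WA ≤ E)
    (hval : ∀ z, z0 ≤ z → z ≤ z0 + ρ → |(omq (b0' 0 / b0 0) Q2 Qv).ev z (T.pos z)| ≤ K) :
    Sz (hatQ f c u (omq (b0' 0 / b0 0) Q2 Qv)) (10 ^ 23 * E ^ 22 * K) := by
  have hE1 : 1 ≤ E := hR.trans hRE
  have hE0 : 0 < E := by linarith
  have hY := hu.Y0
  have hA0 := hu.A0
  have hB0 := hu.B0
  have hH := hu.H0
  have hρ := O.hρ
  have hk := O.k0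
  have hw := O.pos
  have w0 := hw 0
  have w1 := hw 1
  have w2 := hw 2
  obtain ⟨n1, n2, -, -, -, -, -⟩ := Stc321.NrmC.base O.nrm
  have hb0 : b0 0 ≠ 0 := by linarith
  have hνp : 0 < |ν| := by linarith
  have hYe : 0 < S.w 0 * kap b0 b1 G := mul_pos w0 hk
  have hK : 0 ≤ K := (mul_nonneg hYe.le hX0).trans hXK
  have hx : IsExp Qv.ev S.e S.w T z0 ρ b0 b1 G := by rw [← hq]; exact O.exp
  set W := omq (b0' 0 / b0 0) Q2 Qv with hW
  set t := ul u (rl f c T) with ht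
  set z1 := u.zh z0 with hz1
  set rh := ρ / u.H with hrhd
  have rh0 : 0 < rh := div_pos hρ hH
  have rh1 : rh ≤ 1 := (div_le_one hH).2 hρH
  -- the basis
  obtain ⟨N, R', H, hT⟩ := exists_tay (q := S.q) (by rw [hq]; exact Qv.isQ) T
  obtain ⟨-, β0, β1, Γ, x1, m1, m2', hO0⟩ := O.snd hT
  have hB := bas_of (c := c) O hf hu (by rw [← hq]; exact x1) m1 m2' hO0 le_rfl (by norm_num) hN hκ
    hR (hv 1) hη0 hηR hρH (by linarith) (by linarith) hYB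
  set Y := S.w 0 * kap b0 b1 G / |ν| with hYd
  set A := S.w 1 / u.WA with hAd
  set α := A * (S.w 2 / u.WB) with hαd
  have Y0 : 0 < Y := div_pos hYe hνp
  have A0 : 0 < A := div_pos w1 hA0
  have α0 : 0 < α := mul_pos A0 (div_pos w2 hB0)
  -- the inverse
  have hsz : 200 * Y + Bas.sz R rh Y A ≤ 414 * E ^ 3 := by
    have y1 : Y / rh ≤ E ^ 2 := by
      rw [div_le_iff₀ rh0]
      have : E ^ 2 * rh = E * (E * rh) := by ring
      rw [this]
      nlinarith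
    have y2 : R * Y / rh ≤ E * E ^ 2 := by
      have : R * Y / rh = R * (Y / rh) := by ring
      rw [this]
      exact mul_le_mul hRE y1 (by positivity) hE0.le
    have y3 : R ^ 2 * A ≤ E ^ 2 * E :=
      mul_le_mul (pow_le_pow_left₀ (by linarith) hRE 2) hA A0.le (by positivity)
    have y4 : Y ≤ E ^ 3 := hY1.trans (le_self_pow₀ hE1 (by norm_num))
    unfold Bas.sz
    nlinarith
  have hsz0 : 0 ≤ 200 * Y + Bas.sz R rh Y A := by
    have := hB.sz0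
    linarith
  set τm : ℝ := 3 * 10 ^ 8 * E ^ 8 with hτm
  have hinv : ∀ V : V3, (∀ k, |V k| ≤ 1) → ∃ τ : V3, (∀ k, |τ k| ≤ τm) ∧ ∀ k, V k =
      τ 0 * φb f u S.e S.w (kap b0 b1 G) b0 0 k + τ 1 * φb f u S.e S.w (kap b0 b1 G) b0 1 k +
        τ 2 * φb f u S.e S.w (kap b0 b1 G) b0 2 k := by
    intro V hV
    obtain ⟨τ, hτ⟩ := exists_τ (b0 := b0) hf O.ortho hu (fun k => (hw k).ne') hk.ne' V
    refine ⟨τ, fun k => ?_, hτ⟩
    refine (hB.inv hτ hV k).trans ?_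
    rw [div_le_iff₀ (mul_pos Y0 α0), one_mul]
    have e1 : (200 * Y + Bas.sz R rh Y A) ^ 2 ≤ (414 * E ^ 3) ^ 2 := pow_le_pow_left₀ hsz0 hsz 2
    have e2 : 1 ≤ (E * Y) * (E * α) := one_le_mul_of_one_le_of_one_le hY2 hα
    have e3 : 1200 * (414 * E ^ 3) ^ 2 ≤ 3 * 10 ^ 8 * E ^ 6 * ((E * Y) * (E * α)) := by
      have : 1200 * (414 * E ^ 3) ^ 2 = 205675200 * E ^ 6 := by ring
      rw [this]
      have h6 : 0 < E ^ 6 := by positivity
      nlinarith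
    have e4 : τm * (Y * α) = 3 * 10 ^ 8 * E ^ 6 * ((E * Y) * (E * α)) := by rw [hτm]; ring
    rw [e4]
    linarith
  have bs := fun i => om_basis (c := c) hf hu w0 hk hb0 hx hE2 hX0 hO i
  obtain ⟨c1, c2, c3⟩ := coef_of_basis (W := hatQ f c u W) (hatQ_symm (omq_symm hs1 hs2))
    (t := t) (z1 := z1) rh0 (φ := φb f u S.e S.w (kap b0 b1 G) b0) hK
    (fun i => (bs i).1.trans hXK) (fun i => (bs i).2.trans hXK)
    (fun τ V B hV hτ => (om_hes (c := c) hf hu w0 hk hb0 hx hE2 hX0 hO hV hτ).trans (by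
      have := mul_le_mul_of_nonneg_right hXK (sq_nonneg B)
      linarith)) hinv
  -- all sizes
  set Kb : ℝ := 2 * 10 ^ 18 * E ^ 16 * K with hKb
  have E8 : E ^ 8 ≤ E ^ 16 := pow_le_pow_right₀ hE1 (by norm_num)
  have E9 : E ^ 9 ≤ E ^ 16 := pow_le_pow_right₀ hE1 (by norm_num)
  have E16 : 1 ≤ E ^ 16 := one_le_pow₀ hE1
  have K8 := mul_le_mul_of_nonneg_right E8 hK
  have K9 := mul_le_mul_of_nonneg_right E9 hK
  have K16 : K ≤ E ^ 16 * K := le_mul_of_one_le_left hK E16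
  have KK : 0 ≤ E ^ 16 * K := by positivity
  have g1 : ∀ k, |(hatQ f c u W).gr z1 (t.pos z1) k| ≤ Kb := fun k => by
    refine (c1 k).trans ?_
    have : 3 * (τm * K) = 9 * 10 ^ 8 * (E ^ 8 * K) := by rw [hτm]; ring
    rw [this, hKb]
    linarith
  have g2 : ∀ k, |gd (hatQ f c u W) t k| ≤ Kb := fun k => by
    refine (c2 k).trans ?_
    rw [div_le_iff₀ rh0]
    have e1 : 3 * (τm * K) = 9 * 10 ^ 8 * (E ^ 8 * K) := by rw [hτm]; ring
    have e2 : 9 * 10 ^ 8 * (E ^ 8 * K) ≤ 9 * 10 ^ 8 * (E ^ 8 * K) * (E * rh) :=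
      le_mul_of_one_le_right (by positivity) hrh
    have e3 : 9 * 10 ^ 8 * (E ^ 8 * K) * (E * rh) = 9 * 10 ^ 8 * (E ^ 9 * K) * rh := by ring
    rw [e1]
    refine (e2.trans (le_of_eq e3)).trans ?_
    refine mul_le_mul_of_nonneg_right ?_ rh0.le
    rw [hKb]
    linarith
  have g3 : ∀ i j, |(hatQ f c u W).g i j| ≤ Kb := fun i j => by
    refine (c3 i j).trans ?_
    have : 18 * (K * τm ^ 2) = 162 * 10 ^ 16 * (E ^ 16 * K) := by rw [hτm]; ring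
    rw [this, hKb]
    linarith
  have key := Szo327.sz_of (Q := hatQ f c u W) (hatQ_symm (omq_symm hs1 hs2)) (t := t) (R := E)
    (Kb := Kb) (L := rh) (α := z1) (z1 := z1) hE1 (fun k => (hp k).trans hRE)
    (fun k => (hv k).trans hRE) (hz.trans hE1) g1 g2 g3 rh0 rh1 (hz.trans hE1) (by
      intro z h1 h2
      have ez : u.zh (u.zc + u.H * z) = z := by simp only [Un.zh]; field_simp; ring
      have e := hatQ_line hf c hu W (u.zc + u.H * z) T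
      rw [ez] at e
      rw [e]
      have e1 : z1 = (z0 - u.zc) / u.H := rfl
      rw [e1, div_le_iff₀ hH] at h1
      have e2 : z1 + rh = (z0 - u.zc + ρ) / u.H := by rw [e1, hrhd]; ring
      rw [e2, le_div_iff₀ hH] at h2
      refine (hval _ (by linarith) (by linarith)).trans ?_
      rw [hKb]
      linarith)
  have e1 : 10 ^ 4 * E ^ 4 * Kb / rh ^ 2 ≤ 10 ^ 23 * E ^ 22 * K := by
    rw [div_le_iff₀ (by positivity), hKb]
    have e2 : 1 ≤ (E * rh) ^ 2 := one_le_pow₀ hrh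
    have e3 : 10 ^ 23 * E ^ 22 * K * rh ^ 2 = 10 ^ 23 * (E ^ 20 * K) * (E * rh) ^ 2 := by ring
    have e4 : 10 ^ 4 * E ^ 4 * (2 * 10 ^ 18 * E ^ 16 * K) = 2 * 10 ^ 22 * (E ^ 20 * K) := by ring
    rw [e3, e4]
    have e5 : 0 ≤ E ^ 20 * K := by positivity
    nlinarith
  exact ⟨key.c0.trans e1, key.c1.trans e1, key.c2.trans e1, fun i => (key.b i).trans e1,
    fun i => (key.d i).trans e1, fun i j => (key.g i j).trans e1⟩

end

theorem rem_of_sz {κ B : ℝ} (hκ : |κ| ≤ 1) {Q : Qd} (h : Sz Q B) (k : Fin 14) :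
    |rem κ Q k| ≤ 2 * B := by
  have hB : 0 ≤ B := (abs_nonneg _).trans h.c0
  have one : ∀ {x : ℝ}, |x| ≤ B → |x| ≤ 2 * B := fun h => h.trans (by linarith)
  have two : ∀ {x y : ℝ}, |x| ≤ B → |y| ≤ B → |x + y| ≤ 2 * B :=
    fun h h' => (abs_add_le _ _).trans (by linarith)
  fin_cases k
  · exact one (h.g 0 0)
  · exact two (h.g 0 2) (h.g 2 0)
  · exact two (h.g 0 1) (h.g 1 0)
  · exact one (h.g 2 2)
  · exact one (h.d 0)
  · exact two (h.g 1 2) (h.g 2 1)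
  · refine two (h.g 1 1) ?_
    exact (m2 hκ (h.b 0)).trans (by linarith)
  · exact two (h.d 2) (h.b 0)
  · exact one (h.d 1)
  · exact one h.c2
  · exact one (h.b 2)
  · exact one (h.b 1)
  · exact one h.c1
  · exact one h.c0

/-- **flags of a sum** -/
theorem flg_sum {P : Pj} {η κ σ Γ Γ' B WY m : ℝ} (hP : P.Sm η) (hη : 24 * η ≤ 1) (hκ : |κ| ≤ 1)
    (hσ : 0 < σ) (hWY : 0 < WY) {q2 qv w : Qd} (hw : w = dif q2 (Wit321.mul m qv)) (hB : Sz w B)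
    (m1 : 1 / 16 ≤ |m|) (m16 : |m| ≤ 16) (hν1 : WY / 4 ≤ |(pullQ P.inv qv).b 0|)
    (hν2 : |(pullQ P.inv qv).b 0| ≤ 16 * WY)
    (hG : ∀ k, |flg κ σ (pullQ P.inv qv) k| ≤ Γ) (hB1 : 1000 * B ≤ WY)
    (hB2 : B ≤ WY * σ * Γ') :
    (pullQ P.inv q2).b 0 ≠ 0 ∧
      ∀ k, |flg κ σ (pullQ P.inv q2) k| ≤ 400 * Γ' + 25600 * Γ := by
  have hη0 : 0 ≤ η := hP.nn
  have hB0 : 0 ≤ B := (abs_nonneg _).trans hB.c0
  have hΓ : 0 ≤ Γ := (abs_nonneg _).trans (hG 0)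
  have hPi := hP.inv (by linarith)
  have cl := pullQ_cl hPi (by linarith) hB
  have sz := cl.sz hB
  have hle : 12 * (2 * η * B) + B ≤ 2 * B := by nlinarith
  have sz2 : Sz (pullQ P.inv w) (2 * B) := ⟨sz.c0.trans hle, sz.c1.trans hle, sz.c2.trans hle,
    fun i => (sz.b i).trans hle, fun i => (sz.d i).trans hle, fun i j => (sz.g i j).trans hle⟩
  have r1 := rem_of_sz hκ sz2
  have hνne : (pullQ P.inv qv).b 0 ≠ 0 := by
    intro e
    rw [e, abs_zero] at hν1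
    linarith
  have r2 := rem_le_of_flg hσ hνne hG
  set ν := (pullQ P.inv qv).b 0 with hν
  have e0 := Szo327.b_pull_lin P.inv m q2 qv 0
  rw [← hw] at e0
  have e0' : (pullQ P.inv q2).b 0 = (pullQ P.inv w).b 0 + m * ν := by rw [e0]; ring
  have b1 : WY / 100 ≤ |(pullQ P.inv q2).b 0| := by
    have k1 : |m * ν| ≤ |(pullQ P.inv q2).b 0| + 2 * B := by
      have : m * ν = (pullQ P.inv q2).b 0 - (pullQ P.inv w).b 0 := by rw [e0']; ring
      rw [this]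
      exact s2 le_rfl (sz2.b 0)
    have k2 : WY / 64 ≤ |m * ν| := by
      rw [abs_mul]
      calc WY / 64 = 1 / 16 * (WY / 4) := by ring
        _ ≤ |m| * |ν| := mul_le_mul m1 hν1 (by positivity) (abs_nonneg _)
    linarith
  have hne : (pullQ P.inv q2).b 0 ≠ 0 := by
    intro e
    rw [e, abs_zero] at b1
    linarith
  refine ⟨hne, flg_le_of_rem hσ hne fun k => ?_⟩
  have e1 := Szo327.rem_pull_lin κ P.inv m q2 qv k
  rw [← hw] at e1
  have e1' : rem κ (pullQ P.inv q2) k = rem κ (pullQ P.inv w) k + m * rem κ (pullQ P.inv qv) k := by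
    rw [e1]; ring
  rw [e1']
  have k1 := a2 (r1 k) (m2 m16 (r2 k))
  refine k1.trans ?_
  have k2 : |ν| * (σ * Γ) ≤ 16 * WY * (σ * Γ) := mul_le_mul_of_nonneg_right hν2 (by positivity)
  have hB3 : 0 ≤ WY * σ * Γ' := hB0.trans hB2
  have hΓ' : 0 ≤ σ * (400 * Γ' + 25600 * Γ) := by
    have h1 : 0 ≤ WY * (σ * Γ') := by rw [← mul_assoc]; exact hB3
    have h2 : 0 ≤ σ * Γ' := nonneg_of_mul_nonneg_right h1 hWY
    have h3 : 0 ≤ σ * Γ := by positivity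
    nlinarith
  have k3 := mul_le_mul_of_nonneg_right b1 hΓ'
  have e3 : WY / 100 * (σ * (400 * Γ' + 25600 * Γ)) = 4 * (WY * σ * Γ') + 256 * (WY * (σ * Γ)) := by
    ring
  rw [e3] at k3
  nlinarith

end Crest.Agent.R136.Stm650
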