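import Crest.Agent.R136.Stm1_650
import Crest.Agent.R136.Lat2_327
import Crest.Agent.R136.Stc9_321

/-!
# R136, U6 thin side, stage C (helper650): the field `mate` of `StcA`

`mate_of` : class mates of good incidences are good.
-/

set_option autoImplicit false
set_option linter.unusedVariables false

open Finset Filter Topology

namespace Crest.Agent.R136.Stm650

open Crest.Agent.R138
open Crest.Agent.R138.Ex926 (Base U)
open Crest.Agent.R138.Dp76 (dpow_pos dpow_add dpow_le dpow_le_one)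
open Crest.Agent.R138.Mk163 (zc zl rho)
open Crest.Agent.R138.MkRef627 (lc kc)
open Crest.Agent.R136.MkA627
open Crest.Agent.R136.Sh605
open Crest.Agent.R136.K4
open Crest.Agent.R136.NetW191
open Crest.Agent.R136.GeoN778
open Crest.Agent.R136.Wit321
open Crest.Agent.R136.Top484
open Crest.Agent.R136.Stc321
open Crest.Agent.R136.Tlt51 (Close mk4 zx rh)
open Crest.Agent.R136.KapP335 (kapP DetP)
open Crest.Agent.R136.Tl102 (QF kap IsExp OmB)
open Crest.Agent.R136.Fw650 (z0N zhN rhN)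
open Crest.Agent.R136.Thn768 (ThinW Own Snd Tay exists_tay)
open Crest.Agent.R136.TL650 (own_of)
open Crest.Agent.R136.Stk464 (StcK mk_facts rho_pos' zh_le uzh_eq cell_v b0_ge)
open Crest.Agent.R136.Lat327 (wA_bd mate_bd)

variable {p : Par4} {D : Dat4} {K : ℕ → CtD} {x0 : ℕ → ℕ × ℝ}

set_option maxHeartbeats 2000000 in
/-- **class mates of good incidences are good** : the field `mate` of `StcA` -/
theorem mate_of (h : ThinW p D) (hK : StcK p D K x0)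
    (Mb : ∀ C : ℝ, ∀ v : ℚ, 0 ≤ v → v ≤ 1 → ∃ C' : ℝ, ∀ᶠ n in (U : Filter ℕ), ∀ x ∈ D.I n,
      Gd D K C n x → ((K n).Q (mk4 D n v x).q).b 0 ≠ 0 ∧
        ∀ k, |MkS D K v n (kc (D.lev n v) (D.f n v) x) k| ≤ D.B.d n ^ (-C')) :
    ∀ C : ℝ, ∀ v : ℚ, 0 ≤ v → v ≤ 1 → ∃ C' : ℝ, ∀ᶠ n in (U : Filter ℕ), ∀ x ∈ D.I n,
      ∀ y ∈ D.I n, kc (D.lev n v) (D.f n v) y = kc (D.lev n v) (D.f n v) x → Gd D K C n x →
        Gd D K C' n y := by
  intro C v v0 v1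
  obtain ⟨Cb, hb⟩ := mate_bd h hK C v v0 v1
  obtain ⟨Cm, hM⟩ := Mb C v v0 v1
  obtain ⟨Cs, hs⟩ := sndLev_of h
  have v0' : (0 : ℝ) ≤ v := by exact_mod_cast v0
  have v1' : (v : ℝ) ≤ 1 := by exact_mod_cast v1
  set W : ℝ := |1 - p.θ 1| + 2 with hW
  set W0 : ℝ := |1 - p.θ 0| + 1 with hW0
  have W2 : 2 ≤ W := by have := abs_nonneg (1 - p.θ 1); linarith
  have W01 : 1 ≤ W0 := by have := abs_nonneg (1 - p.θ 0); linarith
  set e : ℝ := |Cb| + |Cm| + |Cs| + W + W0 + 3 with he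
  have q1 := abs_nonneg Cb
  have q2 := abs_nonneg Cm
  have q3 := abs_nonneg Cs
  have q4 := le_abs_self Cb
  have q5 := le_abs_self Cm
  have q6 := le_abs_self Cs
  set M2 : ℝ := 4 * e + 2 with hM2
  set M1 : ℝ := M2 + e + 1 with hM1
  refine ⟨67 * e + 2, ?_⟩
  filter_upwards [hb, hM, b0_ge h hK v0 v1 hM, hs v v0 v1 0, mk_facts h.mka v0 v1,
    mk_facts h.mka le_rfl zero_le_one, h.nd v v0 v1 (1 / 100) (by norm_num),
    cell_v h.mka hK v0 v1, hK.sm M1, hK.σs (M1 + 67 * e), hK.YB M2, hK.kp0, hK.σw,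
    hK.bal v v0 v1 1 one_pos, wA_bd h.mka hK v0 v1, wid_two h.mka 0 v0 v1,
    h.mka.lev_mono 0 v le_rfl v0 v1,
    cpow_le D.B (10 ^ 30) (show (0 : ℝ) < 1 by norm_num)]
    with n b1 b2 b3 b4 mf mf0 nd cv sm σs YB kp0 σw bal wA w0w lm kd x hx y hy hxy hg
  have dp := dpow_pos D.B n
  have d1 : ∀ {s : ℝ}, 0 ≤ s → D.B.d n ^ s ≤ 1 := fun hs => dpow_le_one D.B n hs
  rw [Real.rpow_zero] at kd
  have em : mk4 D n v x = mk4 D n v y := congrArg (fun c : ℕ × ℤ => D.b n v c.1) hxy.symm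
  have tb := b1 x hx y hy hxy hg
  obtain ⟨hν0, hΓ⟩ := b2 x hx hg
  obtain ⟨hν1, hν2⟩ := b3 x hx hg
  have hΓ' : ∀ k, |(K n).M (mk4 D n v x).q k| ≤ D.B.d n ^ (-Cm) := hΓ
  rw [em] at hν0 hν1 hν2 hΓ'
  obtain ⟨f1, f2, f3, f4, f5⟩ := mf.2 y hy
  obtain ⟨g1, g2, g3, g4, g5⟩ := mf0.2 y hy
  have ha : 0 < (mk4 D n v y).a := by rw [f3]; exact mf.1
  have hρ : 0 < rh D n v := rho_pos' _
  obtain ⟨b0, b1', G, O⟩ := own_of f2 ha f1 hρ (dp (1 / 100)) (nd y hy)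
  obtain ⟨X, N, R', H, hS, -, hX0, hX2⟩ := b4 y hy b0 b1' G O
  obtain ⟨hq, hsv⟩ := Szo327.qdOf_spec f2.isQ
  obtain ⟨hq0, hs2⟩ := Szo327.qdOf_spec g2.isQ
  obtain ⟨b0p, b1p, Gp, hE, m1, m2', hO⟩ := hS.ex
  have hE2 : IsExp (qdOf (mk4 D n 0 y).q).ev (mk4 D n v y).e (mk4 D n v y).w (D.L n y.1)
      (zx D n v y) (rh D n v) b0p b1p Gp := by rw [← hq0]; exact hE
  obtain ⟨N', R'', H', hT⟩ := exists_tay f2.isQ (D.L n y.1)
  have hS0 : Snd (mk4 D n v y) (D.L n y.1) (zx D n v y) (rh D n v) b0 b1' G 0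
      (qdOf (mk4 D n v y).q).ev N' R'' H' := by rw [← hq]; exact O.snd hT
  -- numbers
  have hWY := (hK.ok n).Y0
  have hWA := (hK.ok n).A0
  have hWB := (hK.ok n).B0
  have hH := (hK.ok n).H0
  have σ0 := hK.σ0 n
  have hκ1 := hK.kp1 n
  set R : ℝ := D.B.d n ^ (-e) with hR
  have R1 : 1 ≤ R := Real.one_le_rpow_of_pos_of_le_one_of_nonpos (D.B.pos n) (D.B.lt n).le
    (by linarith)
  have hd1 : D.B.d n ^ (1 : ℝ) ≤ 1 / 10 ^ 30 := by
    rw [le_div_iff₀ (by norm_num)]; linarith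
  have big : (10 : ℝ) ^ 30 ≤ D.B.d n ^ (-(1 : ℝ)) := by
    have e1 : D.B.d n ^ (1 : ℝ) * D.B.d n ^ (-(1 : ℝ)) = 1 := by rw [← dpow_add]; simp
    have h3 := mul_le_mul_of_nonneg_right kd (dp (-(1 : ℝ))).le
    rw [mul_assoc, e1] at h3
    linarith
  set η : ℝ := D.B.d n ^ M2 with hη
  have η0 : 0 < η := dp _
  set P1 : ℝ := D.B.d n ^ M1 with hP1
  have hP10 : 0 < P1 := dp _
  set Γ : ℝ := D.B.d n ^ (-Cm) with hΓd
  have hΓR : Γ ≤ R := dpow_le D.B n (by linarith)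
  have hRP : R * P1 = η * D.B.d n ^ (1 : ℝ) := by
    rw [hR, hP1, hη, ← dpow_add, ← dpow_add]; congr 1; rw [hM1]; ring
  have hσP : (K n).σ * Γ ≤ P1 := by
    calc (K n).σ * Γ ≤ D.B.d n ^ (M1 + 67 * e) * D.B.d n ^ (-e) :=
          mul_le_mul σs hΓR (dp _).le (dp _).le
      _ = D.B.d n ^ (M1 + 66 * e) := by rw [← dpow_add]; congr 1; ring
      _ ≤ P1 := dpow_le D.B n (by linarith)
  have hσΓ0 : 0 ≤ (K n).σ * Γ := mul_nonneg σ0.le (dp _).le
  have hP1s : P1 ≤ 1 / 10 ^ 30 :=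
    le_trans (dpow_le D.B n (show (1 : ℝ) ≤ M1 by rw [hM1, hM2]; linarith)) hd1
  have hηs : η ≤ 1 := d1 (by rw [hM2]; linarith)
  have hRη4 : R ^ 4 * η ≤ 1 / 10 ^ 30 := by
    have e1 : R ^ 4 = D.B.d n ^ (-(4 * e)) := by
      rw [hR, ← Real.rpow_natCast, ← Real.rpow_mul (D.B.pos n).le]; congr 1; push_cast; ring
    rw [e1, hη, ← dpow_add]
    exact le_trans (dpow_le D.B n (by rw [hM2]; linarith)) hd1
  have hs6 : 6000 * (η * R ^ 4) ≤ 1 := by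
    rw [mul_comm η]; linarith
  have hR4 : R ≤ R ^ 4 := le_self_pow₀ R1 (by norm_num)
  have hRη : R * η ≤ 1 / 10 ^ 30 := (mul_le_mul_of_nonneg_right hR4 η0.le).trans hRη4
  have hRP1 : R * P1 ≤ 1 / 10 ^ 30 := by
    rw [hRP]
    calc η * D.B.d n ^ (1 : ℝ) ≤ 1 * (1 / 10 ^ 30) :=
          mul_le_mul hηs hd1 (dp _).le zero_le_one
      _ = _ := one_mul _
  -- positions
  have hCb : D.B.d n ^ (-Cb) ≤ R := dpow_le D.B n (by linarith)
  have tp : ∀ k, |((K n).t (D.L n y.1)).p k| ≤ R := fun k => (tb k).1.trans hCb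
  have tv : ∀ k, |((K n).t (D.L n y.1)).v k| ≤ R := fun k => (tb k).2.trans hCb
  have zz0 : |(K n).u.zh (zx D n v y)| ≤ 1 := by
    refine cv.2.2 y hy _ (le_of_eq ?_) ?_
    · rw [uzh_eq]; rfl
    · rw [uzh_eq]
      show z0N D.lev (hzS K) (zsS K) v n (zc (D.lev n v) y.2) ≤ _
      have : 0 < rhN D.lev (hzS K) n v := lt_of_lt_of_le (dp _) cv.1
      linarith
  have tpos : ∀ k, |((K n).t (D.L n y.1)).pos ((K n).u.zh (zx D n v y)) k| ≤ R := by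
    intro k
    have h1 := a2 (tb k).1 (m2 zz0 (tb k).2)
    have h2 : D.B.d n ^ (-Cb) + 1 * D.B.d n ^ (-Cb) ≤ R := by
      have h3 : D.B.d n ^ (-(1 : ℝ)) * D.B.d n ^ (-Cb) ≤ R := by
        rw [← dpow_add]; exact dpow_le D.B n (by linarith)
      have h4 := mul_le_mul_of_nonneg_right big (dp (-Cb)).le
      have := dp (-Cb)
      linarith
    exact h1.trans h2
  -- the near polynomial
  set ν : ℝ := ((K n).Q (mk4 D n v y).q).b 0 with hν
  have hsmall : 24 * P1 + (K n).σ * Γ ≤ 25 * P1 := by linarith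
  have hN0 := nr_good (P := (K n).P) (η := P1) (Γ := Γ) (σ := (K n).σ) (κ := (K n).κ) (R := R)
    (z1 := (K n).u.zh (zx D n v y)) sm (by linarith) (Q := (K n).Qh (mk4 D n v y).q) σ0 hκ1 hν0
    hΓ' (by linarith) (t := (K n).t (D.L n y.1)) R1 (zz0.trans R1) tpos tv (by
      have h1 : R * (24 * P1 + (K n).σ * Γ) ≤ R * (25 * P1) :=
        mul_le_mul_of_nonneg_left hsmall (by linarith)
      have h2 : R * (25 * P1) = 25 * (R * P1) := by ring
      linarith)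
  have hN : Nr (hatQ (K n).f (K n).c (K n).u (qdOf (mk4 D n v y).q))
      (ul (K n).u (rl (K n).f (K n).c (D.L n y.1))) ((K n).u.zh (zx D n v y)) (K n).κ ν R η := by
    refine Nr.mono hN0 ?_
    have h1 : R * (24 * P1 + (K n).σ * Γ) ≤ R * (25 * P1) :=
      mul_le_mul_of_nonneg_left hsmall (by linarith)
    have h2 : 9 * (R * (25 * P1)) = 225 * D.B.d n ^ (1 : ℝ) * η := by
      have : 9 * (R * (25 * P1)) = 225 * (R * P1) := by ring
      rw [this, hRP]; ring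
    have h3 : 225 * D.B.d n ^ (1 : ℝ) * η ≤ 1 * η :=
      mul_le_mul_of_nonneg_right (by linarith) η0.le
    linarith
  -- curvature extent
  have hYe := O.Ye0
  set Ye := (mk4 D n v y).w 0 * kap b0 b1' G with hYed
  have hρH : rh D n v / (K n).u.H = rhN D.lev (hzS K) n v := by
    show rho (D.lev n v) / (K n).u.H = 1 / (K n).u.H * rho (D.lev n v)
    ring
  have hAe : (mk4 D n v y).w 1 / (K n).u.WA = wAS D K n v := by rw [f4]; rfl
  set A := (mk4 D n v y).w 1 / (K n).u.WA with hA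
  have A0 : 0 < A := div_pos (O.pos 1) hWA
  have hA1 : D.B.d n ^ W ≤ A := by rw [hAe]; exact wA.1
  have hA2 : A ≤ D.B.d n ^ (-W) := by rw [hAe]; exact wA.2
  have hr0 : 0 < rhN D.lev (hzS K) n v := lt_of_lt_of_le (dp _) cv.1
  have hδ9 : (0 : ℝ) ≤ D.B.d n ^ (1 / 100 : ℝ) / 10 ^ 9 := div_nonneg (dp _).le (by norm_num)
  have up := ye_up16 O hS0 (d1 (by norm_num)) hδ9 (hK.ortho n) (hK.ok n) hN hκ1 kp0 R1 (tv 1)
    η0.le hs6 (by linarith) hν2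
  rw [← hYed, ← hA] at up
  -- `w 2 / WB`
  set Bw := (mk4 D n v y).w 2 / (K n).u.WB with hBw
  have hb2 : D.B.d n ^ (1 : ℝ) * A ^ 2 ≤ rh D n v / (K n).u.H * Bw := by
    have k1 : (K n).u.WB * wBS D K n v ≤ D.w 2 n v * D.B.d n ^ (-(1 : ℝ)) := bal.2
    have e1 : D.B.d n ^ (1 : ℝ) * D.B.d n ^ (-(1 : ℝ)) = 1 := by rw [← dpow_add]; simp
    have k2 : D.B.d n ^ (1 : ℝ) * ((K n).u.WB * wBS D K n v) ≤ D.w 2 n v := by
      have := mul_le_mul_of_nonneg_left k1 (dp 1).le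
      have e2 : D.B.d n ^ (1 : ℝ) * (D.w 2 n v * D.B.d n ^ (-(1 : ℝ))) =
        D.w 2 n v * (D.B.d n ^ (1 : ℝ) * D.B.d n ^ (-(1 : ℝ))) := by ring
      rw [e2, e1, mul_one] at this
      exact this
    have k3 : D.B.d n ^ (1 : ℝ) * wBS D K n v ≤ Bw := by
      rw [hBw, f5, le_div_iff₀ hWB]
      linarith
    have k4 : wBS D K n v = A ^ 2 / rhN D.lev (hzS K) n v := by rw [hAe]; rfl
    rw [k4] at k3
    rw [hρH]
    have k5 := mul_le_mul_of_nonneg_left k3 hr0.le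
    have k6 : rhN D.lev (hzS K) n v * (D.B.d n ^ (1 : ℝ) * (A ^ 2 / rhN D.lev (hzS K) n v)) =
        D.B.d n ^ (1 : ℝ) * A ^ 2 := by
      field_simp
    rw [k6] at k5
    exact k5
  have low := ye_low O hS0 (d1 (by norm_num)) hδ9 (hK.ortho n) (hK.ok n) hN hκ1 kp0 R1 (tv 1)
    η0.le hs6 (by linarith) (dp 1) hb2
  rw [← hYed, ← hA] at low
  have hlow : D.B.d n ^ (1 : ℝ) * ((K n).u.WY * A ^ 2) ≤ Ye := by
    refine cube_le (mul_nonneg (dp 1).le (mul_nonneg hWY.le (sq_nonneg A))) hYe.le ?_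
    have e1 : (D.B.d n ^ (1 : ℝ) * ((K n).u.WY * A ^ 2)) ^ 3 =
        D.B.d n ^ (1 : ℝ) * ((D.B.d n ^ (1 : ℝ)) ^ 2 * ((K n).u.WY * A ^ 2) ^ 3) := by ring
    rw [e1]
    calc D.B.d n ^ (1 : ℝ) * ((D.B.d n ^ (1 : ℝ)) ^ 2 * ((K n).u.WY * A ^ 2) ^ 3)
        ≤ D.B.d n ^ (1 : ℝ) * (10 ^ 17 * Ye ^ 3) := mul_le_mul_of_nonneg_left low (dp _).le
      _ = (10 ^ 17 * D.B.d n ^ (1 : ℝ)) * Ye ^ 3 := by ring
      _ ≤ 1 * Ye ^ 3 := mul_le_mul_of_nonneg_right (by linarith) (pow_pos hYe 3).le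
      _ = _ := one_mul _
  -- the parameter `E`
  set E : ℝ := D.B.d n ^ (-(3 * e)) with hEd
  have hνp : 0 < |ν| := by linarith
  have Rle : R ≤ E := dpow_le D.B n (by linarith)
  have A2le : A ^ 2 ≤ D.B.d n ^ (-(2 * W)) := by
    have := pow_le_pow_left₀ A0.le hA2 2
    refine this.trans (le_of_eq ?_)
    rw [← Real.rpow_natCast, ← Real.rpow_mul (D.B.pos n).le]; congr 1; push_cast; ring
  have A2ge : D.B.d n ^ (2 * W) ≤ A ^ 2 := by
    have := pow_le_pow_left₀ (dp _).le hA1 2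
    refine (le_of_eq ?_).trans this
    rw [← Real.rpow_natCast, ← Real.rpow_mul (D.B.pos n).le]; congr 1; push_cast; ring
  have hY1 : Ye / |ν| ≤ E := by
    rw [div_le_iff₀ hνp]
    have k1 : D.B.d n ^ (1 : ℝ) * Ye ≤ 10 ^ 19 * ((K n).u.WY * A ^ 2) := by
      refine le_trans (mul_le_mul_of_nonneg_right (dpow_le D.B n (by norm_num)) hYe.le) up
    have k2 : 10 ^ 19 * ((K n).u.WY * A ^ 2) ≤ 10 ^ 20 * |ν| * D.B.d n ^ (-(2 * W)) := by
      have : (K n).u.WY * A ^ 2 ≤ (4 * |ν|) * D.B.d n ^ (-(2 * W)) :=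
        mul_le_mul (by linarith) A2le (by positivity) (by positivity)
      have h5 : 0 ≤ |ν| * D.B.d n ^ (-(2 * W)) := mul_nonneg hνp.le (dp _).le
      linarith
    have k3 := mul_le_mul_of_nonneg_left (k1.trans k2) (dp (-(1 : ℝ))).le
    have e1 : D.B.d n ^ (-(1 : ℝ)) * (D.B.d n ^ (1 : ℝ) * Ye) = Ye := by
      rw [← mul_assoc, ← dpow_add, neg_add_cancel, Real.rpow_zero, one_mul]
    rw [e1] at k3
    refine k3.trans ?_
    have k4 : 10 ^ 20 * (D.B.d n ^ (-(1 : ℝ)) * D.B.d n ^ (-(2 * W))) ≤ E := by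
      have k5 : D.B.d n ^ (-(1 : ℝ)) * (D.B.d n ^ (-(1 : ℝ)) * D.B.d n ^ (-(2 * W))) ≤ E := by
        rw [← dpow_add, ← dpow_add]; exact dpow_le D.B n (by linarith)
      have k6 : 0 < D.B.d n ^ (-(1 : ℝ)) * D.B.d n ^ (-(2 * W)) := mul_pos (dp _) (dp _)
      have k7 := mul_le_mul_of_nonneg_right big k6.le
      linarith
    have k8 := mul_le_mul_of_nonneg_right k4 hνp.le
    refine le_trans (le_of_eq (by ring)) k8
  have hY2 : 1 ≤ E * (Ye / |ν|) := by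
    rw [← mul_div_assoc, le_div_iff₀ hνp, one_mul]
    have hE0 : 0 ≤ E := (dp _).le
    have k1 : |ν| * (D.B.d n ^ (2 * W) * D.B.d n ^ (1 : ℝ)) ≤ 16 * Ye := by
      calc |ν| * (D.B.d n ^ (2 * W) * D.B.d n ^ (1 : ℝ)) ≤
          (16 * (K n).u.WY) * (A ^ 2 * D.B.d n ^ (1 : ℝ)) := by
            refine mul_le_mul hν2 (mul_le_mul_of_nonneg_right A2ge (dp _).le) ?_ (by positivity)
            exact mul_nonneg (dp _).le (dp _).le
        _ = 16 * (D.B.d n ^ (1 : ℝ) * ((K n).u.WY * A ^ 2)) := by ring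
        _ ≤ 16 * Ye := by linarith
    have k2 : 16 ≤ E * (D.B.d n ^ (2 * W) * D.B.d n ^ (1 : ℝ)) := by
      rw [hEd, ← dpow_add, ← dpow_add]
      have : D.B.d n ^ (-(1 : ℝ)) ≤ D.B.d n ^ (-(3 * e) + (2 * W + 1)) :=
        dpow_le D.B n (by linarith)
      linarith
    generalize D.B.d n ^ (2 * W) * D.B.d n ^ (1 : ℝ) = P at k1 k2
    have k3 : E * (|ν| * P) ≤ E * (16 * Ye) := mul_le_mul_of_nonneg_left k1 hE0
    have k4 : 16 * |ν| ≤ E * P * |ν| := mul_le_mul_of_nonneg_right k2 hνp.le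
    have k5 : E * P * |ν| = E * (|ν| * P) := by ring
    linarith
  have hrh : 1 ≤ E * (rh D n v / (K n).u.H) := by
    rw [hρH]
    have k1 : (1 : ℝ) ≤ E * D.B.d n ^ ((v : ℝ) + 1) := by
      rw [hEd, ← dpow_add]
      exact Real.one_le_rpow_of_pos_of_le_one_of_nonpos (D.B.pos n) (D.B.lt n).le (by linarith)
    exact k1.trans (mul_le_mul_of_nonneg_left cv.1 (dp _).le)
  have hα : 1 ≤ E * (A * Bw) := by
    have k0 : rh D n v / (K n).u.H ≤ 1 := by rw [hρH]; linarith [cv.2.1]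
    have hBw0 : 0 < Bw := div_pos (O.pos 2) hWB
    have k1 : D.B.d n ^ (1 : ℝ) * A ^ 2 ≤ Bw :=
      hb2.trans (mul_le_of_le_one_left hBw0.le k0)
    have k2 : D.B.d n ^ (1 : ℝ) * D.B.d n ^ (2 * W) ≤ Bw :=
      (mul_le_mul_of_nonneg_left A2ge (dp _).le).trans k1
    have k3 : D.B.d n ^ W * (D.B.d n ^ (1 : ℝ) * D.B.d n ^ (2 * W)) ≤ A * Bw :=
      mul_le_mul hA1 k2 (mul_pos (dp _) (dp _)).le A0.le
    have k4 : (1 : ℝ) ≤ E * (D.B.d n ^ W * (D.B.d n ^ (1 : ℝ) * D.B.d n ^ (2 * W))) := by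
      rw [hEd, ← dpow_add, ← dpow_add, ← dpow_add]
      exact Real.one_le_rpow_of_pos_of_le_one_of_nonpos (D.B.pos n) (D.B.lt n).le (by linarith)
    exact k4.trans (mul_le_mul_of_nonneg_left k3 (dp _).le)
  have hAE : A ≤ E := hA2.trans (dpow_le D.B n (by linarith))
  -- the size
  obtain ⟨w00, w0v, w0l, -⟩ := w0w
  set Kk : ℝ := R * D.w 0 n 0 with hKk
  have hK1 : Ye * X ≤ Kk := hX2.trans (mul_le_mul_of_nonneg_right (dpow_le D.B n (by linarith))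
    w00.le)
  obtain ⟨c1, c2⟩ := cell_in lm y.2
  have hval : ∀ z, zx D n v y ≤ z → z ≤ zx D n v y + rh D n v →
      |(omq (b0p 0 / b0 0) (qdOf (mk4 D n 0 y).q) (qdOf (mk4 D n v y).q)).ev z
        ((D.L n y.1).pos z)| ≤ Kk := by
    intro z z1 z2
    rw [omq_ev, ← hq0, ← hq]
    have k1 := (f1 z z1 z2).2
    have k2 := (g1 z (c1.trans z1) (z2.trans c2)).2
    rw [f3] at k1
    rw [g3] at k2
    refine (s2 k2 (m2 m2' k1)).trans ?_
    have k3 : D.w 0 n 0 + 16 * (D.w 0 n 0 * D.B.d n ^ (-W0)) ≤ D.w 0 n 0 * R := by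
      have k4 : 1 ≤ D.B.d n ^ (-W0) := Real.one_le_rpow_of_pos_of_le_one_of_nonpos (D.B.pos n)
        (D.B.lt n).le (by linarith)
      have k5 : D.B.d n ^ (-(1 : ℝ)) * D.B.d n ^ (-W0) ≤ R := by
        rw [← dpow_add]; exact dpow_le D.B n (by linarith)
      have k6 := mul_le_mul_of_nonneg_right big (show 0 ≤ D.B.d n ^ (-W0) by linarith)
      have k7 : 1 + 16 * D.B.d n ^ (-W0) ≤ R := by linarith
      have k8 := mul_le_mul_of_nonneg_left k7 w00.le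
      linarith
    rw [hKk]
    linarith
  have hsz := sz_mate (E := E) O (hK.ortho n) (c := (K n).c) (hK.ok n) hq hsv hs2 hE2 hO hX0 hK1 hN
    hκ1 R1 tp tv zz0 η0.le (by linarith) (by
      have : rh D n v / (K n).u.H ≤ 1 := by rw [hρH]; linarith [cv.2.1]
      exact (div_le_one hH).1 this) hν1 hν2 YB Rle hY1 hY2 hα hrh hAE hval
  have eE : E ^ 22 = D.B.d n ^ (-(66 * e)) := by
    rw [hEd, ← Real.rpow_natCast, ← Real.rpow_mul (D.B.pos n).le]; congr 1; push_cast; ring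
  set B : ℝ := 10 ^ 23 * E ^ 22 * Kk with hB
  have eB : B = 10 ^ 23 * (D.B.d n ^ (-(67 * e)) * ((K n).u.WY * (K n).σ)) := by
    rw [hB, eE, hKk, σw]
    have : D.B.d n ^ (-(67 * e)) = D.B.d n ^ (-(66 * e)) * R := by
      rw [hR, ← dpow_add]; congr 1; ring
    rw [this]; ring
  have fin := flg_sum (P := (K n).P) (σ := (K n).σ) (κ := (K n).κ) (Γ := Γ)
    (Γ' := D.B.d n ^ (-(67 * e + 1))) sm (by linarith) hκ1 σ0 hWY
    (q2 := (K n).Qh (mk4 D n 0 y).q) (qv := (K n).Qh (mk4 D n v y).q)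
    (Szo327.dif_mul_hat (K n).f (K n).c (K n).u (b0p 0 / b0 0) (qdOf (mk4 D n 0 y).q)
      (qdOf (mk4 D n v y).q)) hsz m1 m2' hν1 hν2 hΓ' (by
      rw [eB]
      have k1 : D.B.d n ^ (-(67 * e)) * (K n).σ ≤ P1 := by
        calc D.B.d n ^ (-(67 * e)) * (K n).σ ≤ D.B.d n ^ (-(67 * e)) * D.B.d n ^ (M1 + 67 * e) :=
              mul_le_mul_of_nonneg_left σs (dp _).le
          _ = P1 := by rw [hP1, ← dpow_add]; congr 1; ring
      have k2 : D.B.d n ^ (-(67 * e)) * (K n).σ ≤ 1 / 10 ^ 30 := k1.trans hP1s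
      have k3 := mul_le_mul_of_nonneg_right k2 hWY.le
      have e3 : D.B.d n ^ (-(67 * e)) * ((K n).u.WY * (K n).σ) =
        D.B.d n ^ (-(67 * e)) * (K n).σ * (K n).u.WY := by ring
      rw [e3]
      linarith) (by
      rw [eB]
      have e1 : D.B.d n ^ (-(67 * e + 1)) = D.B.d n ^ (-(1 : ℝ)) * D.B.d n ^ (-(67 * e)) := by
        rw [← dpow_add]; congr 1; ring
      rw [e1]
      have k1 : 0 < D.B.d n ^ (-(67 * e)) * ((K n).u.WY * (K n).σ) :=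
        mul_pos (dp _) (mul_pos hWY σ0)
      have k2 := mul_le_mul_of_nonneg_right big k1.le
      linarith)
  refine ⟨fun k => ⟨(tb k).1.trans (dpow_le D.B n (by linarith)),
    (tb k).2.trans (dpow_le D.B n (by linarith))⟩, fin.1, fun k => (fin.2 k).trans ?_⟩
  have e1 : D.B.d n ^ (-(67 * e + 2)) = D.B.d n ^ (-(1 : ℝ)) * D.B.d n ^ (-(67 * e + 1)) := by
    rw [← dpow_add]; congr 1; ring
  have k1 : Γ ≤ D.B.d n ^ (-(67 * e + 1)) := dpow_le D.B n (by linarith)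
  have k2 := mul_le_mul_of_nonneg_right big (dp (-(67 * e + 1))).le
  rw [e1]
  have := dp (-(67 * e + 1))
  linarith

end Crest.Agent.R136.Stm650
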