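import Crest.Agent.R136.GD11_186

/-!
# R136, strips of `(C_a, C_b)` are rare (helper186), part 1: the geometry of one strip

* `strip2` : a strip in a rectangle `Sa × Sb` lies in a parallelogram of sizes `r Sa`, `(Y/r) Sb`,
  `Y ≤ r ≤ M`.
-/

set_option autoImplicit false
set_option linter.unusedVariables false

open Finset Filter Topology

namespace Crest.Agent.R136.Str186

open Crest.Agent.R138.Ex926 (Base U)
open Crest.Agent.R138.Mk163 (zc zl rho alive)
open Crest.Agent.R138
open Crest.Agent.R136.MkA627
open Crest.Agent.R136.Net191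
open Crest.Agent.R136.NetQ186
open Crest.Agent.R136.GeoQ186
open Crest.Agent.R136.Sh605

/-- **a strip in a rectangle** -/
theorem strip2 {Sa Sb Y α β C M : ℝ} (hSa : 0 < Sa) (hSb : 0 < Sb) (hab : Sb ≤ M * Sa)
    (hY : 0 < Y) (hY1 : Y ≤ 1) (hC : 1 ≤ C) (hM : 1 ≤ M)
    (hor : 1 ≤ C * |α| ∨ 1 ≤ C * |β|) :
    ∃ r : ℝ, 0 < r ∧ r ≤ M ∧ Y ≤ r ∧ (Y / r) * Sb ≤ M * (r * Sa) ∧ ∃ f1a f1b f2a f2b : ℝ,
      |f1a| ≤ 1 ∧ |f1b| ≤ 1 ∧ |f2a| ≤ 1 ∧ |f2b| ≤ 1 ∧ |f1a * f2b - f1b * f2a| = 1 ∧
      ∀ x y : ℝ, |x| ≤ C → |y| ≤ C → |α * x + β * y| ≤ C * Y →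
        |f1a * (Sa * x) + f1b * (Sb * y)| ≤ 4 * C ^ 3 * M * (r * Sa) ∧
        |f2a * (Sa * x) + f2b * (Sb * y)| ≤ 4 * C ^ 3 * M * ((Y / r) * Sb) := by
  have hC0 : 0 < C := by linarith
  have hM0 : 0 < M := by linarith
  have hC2 : C ≤ C ^ 2 := by nlinarith
  have hC3 : C ^ 2 ≤ C ^ 3 := by nlinarith [sq_nonneg C]
  have hC1 : 1 ≤ C ^ 3 := by nlinarith
  -- constants
  have c1 : C ≤ 4 * C ^ 3 * M := by nlinarith [mul_le_mul hC3 hM zero_le_one (by positivity)]
  have c2 : C ^ 2 ≤ 4 * C ^ 3 * M := by nlinarith [mul_le_mul hC3 hM zero_le_one (by positivity)]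
  by_cases hcase : Y * |α| ≤ |β| ∧ |α| * Sb ≤ |β| * Sa
  · -- graph over `a`
    obtain ⟨h1, h2⟩ := hcase
    rcases le_total |α| |β| with hr | hr
    · -- `|β|` is the maximum
      have hβ : 1 ≤ C * |β| := by
        rcases hor with h | h
        · exact h.trans (mul_le_mul_of_nonneg_left hr hC0.le)
        · exact h
      have hβ0 : 0 < |β| := by
        rcases (abs_nonneg β).lt_or_eq with h | h
        · exact h
        · rw [← h] at hβ; norm_num at hβ
      have hβne : β ≠ 0 := abs_pos.1 hβ0
      refine ⟨1, one_pos, hM, hY1, ?_, 1, 0, (α / β) * (Sb / Sa), 1, by simp, by simp, ?_, by simp,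
        by simp, fun x y hx hy hxy => ⟨?_, ?_⟩⟩
      · rw [div_one, one_mul]
        calc Y * Sb ≤ 1 * Sb := mul_le_mul_of_nonneg_right hY1 hSb.le
          _ ≤ _ := by rw [one_mul]; exact hab
      · rw [abs_mul, abs_div, abs_div, abs_of_pos hSa, abs_of_pos hSb, div_mul_div_comm,
          div_le_one (mul_pos hβ0 hSa)]
        exact h2
      · rw [one_mul, zero_mul, add_zero, one_mul, abs_mul, abs_of_pos hSa, mul_comm Sa]
        exact mul_le_mul_of_nonneg_right (hx.trans c1) hSa.le
      · have e1 : (α / β) * (Sb / Sa) * (Sa * x) + 1 * (Sb * y) = Sb / β * (α * x + β * y) := by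
          field_simp
        rw [e1, div_one, abs_mul, abs_div, abs_of_pos hSb]
        calc Sb / |β| * |α * x + β * y| ≤ Sb / |β| * (C * Y) :=
              mul_le_mul_of_nonneg_left hxy (div_pos hSb hβ0).le
          _ = (1 / |β|) * (C * (Y * Sb)) := by field_simp
          _ ≤ C * (C * (Y * Sb)) := by
              refine mul_le_mul_of_nonneg_right ?_ (by positivity)
              rw [div_le_iff₀ hβ0]; exact hβ
          _ = C ^ 2 * (Y * Sb) := by ring
          _ ≤ _ := mul_le_mul_of_nonneg_right c2 (by positivity)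
    · -- `|α|` is the maximum
      have hα : 1 ≤ C * |α| := by
        rcases hor with h | h
        · exact h
        · exact h.trans (mul_le_mul_of_nonneg_left hr hC0.le)
      have hα0 : 0 < |α| := by
        rcases (abs_nonneg α).lt_or_eq with h | h
        · exact h
        · rw [← h] at hα; norm_num at hα
      have hβ0 : 0 < |β| := lt_of_lt_of_le (mul_pos hY hα0) h1
      have hβne : β ≠ 0 := abs_pos.1 hβ0
      have hαne : α ≠ 0 := abs_pos.1 hα0
      have hYβ : Y ≤ C * |β| := by
        calc Y = Y * 1 := (mul_one Y).symm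
          _ ≤ Y * (C * |α|) := mul_le_mul_of_nonneg_left hα hY.le
          _ = C * (Y * |α|) := by ring
          _ ≤ _ := mul_le_mul_of_nonneg_left h1 hC0.le
      have iα : 1 / |α| ≤ C := by rw [div_le_iff₀ hα0]; exact hα
      refine ⟨|β| / |α|, div_pos hβ0 hα0, ?_, by rw [le_div_iff₀ hα0]; exact h1, ?_, 1, 0,
        (α / β) * (Sb / Sa), 1, by simp, by simp,
        ?_, by simp, by simp, fun x y hx hy hxy => ⟨?_, ?_⟩⟩
      · exact ((div_le_one hα0).2 hr).trans hM
      · rw [div_div_eq_mul_div]
        have e1 : Y * |α| / |β| * Sb = (Y * |α|) * (Sb / |β|) := by ring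
        have e2 : M * (|β| / |α| * Sa) = M * (|β| * (Sa / |α|)) := by ring
        rw [e1, e2]
        have e3 : Sb / |β| ≤ Sa / |α| := by
          rw [div_le_div_iff₀ hβ0 hα0]; linarith
        calc (Y * |α|) * (Sb / |β|) ≤ |β| * (Sa / |α|) :=
              mul_le_mul h1 e3 (div_pos hSb hβ0).le hβ0.le
          _ ≤ _ := le_mul_of_one_le_left (by positivity) hM
      · rw [abs_mul, abs_div, abs_div, abs_of_pos hSa, abs_of_pos hSb, div_mul_div_comm,
          div_le_one (mul_pos hβ0 hSa)]
        exact h2
      · rw [one_mul, zero_mul, add_zero, abs_mul, abs_of_pos hSa]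
        have h5 : |α| * |x| ≤ C * Y + C * |β| := by
          have h6 : |α * x| ≤ |α * x + β * y| + |β * y| := by
            have := abs_sub (α * x + β * y) (β * y)
            rwa [add_sub_cancel_right] at this
          rw [abs_mul, abs_mul β] at h6
          have h7 : |β| * |y| ≤ |β| * C := mul_le_mul_of_nonneg_left hy hβ0.le
          linarith
        have h8 : |x| ≤ (1 / |α|) * (C * Y + C * |β|) := by
          rw [one_div, ← div_eq_inv_mul, le_div_iff₀ hα0]; linarith
        have h9 : C * Y + C * |β| ≤ 2 * C ^ 2 * |β| := by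
          have := mul_le_mul_of_nonneg_left hYβ hC0.le
          have := mul_le_mul_of_nonneg_right hC2 hβ0.le
          nlinarith
        have h10 : |x| ≤ 2 * C ^ 2 * (|β| / |α|) := by
          refine h8.trans ((mul_le_mul_of_nonneg_left h9 (by positivity)).trans (le_of_eq ?_))
          ring
        have h11 : 2 * C ^ 2 ≤ 4 * C ^ 3 * M := by
          nlinarith [mul_le_mul hC3 hM zero_le_one (by positivity)]
        calc Sa * |x| ≤ Sa * (2 * C ^ 2 * (|β| / |α|)) := mul_le_mul_of_nonneg_left h10 hSa.le
          _ = 2 * C ^ 2 * (|β| / |α| * Sa) := by ring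
          _ ≤ _ := mul_le_mul_of_nonneg_right h11 (by positivity)
      · have e1 : (α / β) * (Sb / Sa) * (Sa * x) + 1 * (Sb * y) = Sb / β * (α * x + β * y) := by
          field_simp
        rw [e1, abs_mul, abs_div, abs_of_pos hSb]
        calc Sb / |β| * |α * x + β * y| ≤ Sb / |β| * (C * Y) :=
              mul_le_mul_of_nonneg_left hxy (div_pos hSb hβ0).le
          _ = (1 / |α|) * (C * (Y / (|β| / |α|) * Sb)) := by field_simp
          _ ≤ C * (C * (Y / (|β| / |α|) * Sb)) := by
              refine mul_le_mul_of_nonneg_right iα (by positivity)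
          _ = C ^ 2 * (Y / (|β| / |α|) * Sb) := by ring
          _ ≤ _ := mul_le_mul_of_nonneg_right c2 (by positivity)
  · -- `|α|` is not small
    have hβα : |β| ≤ M * |α| := by
      rcases not_and_or.1 hcase with h | h
      · push Not at h
        have h3 : Y * |α| ≤ 1 * |α| := mul_le_mul_of_nonneg_right hY1 (abs_nonneg _)
        have h4 : 1 * |α| ≤ M * |α| := mul_le_mul_of_nonneg_right hM (abs_nonneg _)
        linarith
      · push Not at h
        have h3 : |β| * Sa ≤ (M * |α|) * Sa := by
          have := mul_le_mul_of_nonneg_left hab (abs_nonneg α)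
          linarith
        exact le_of_mul_le_mul_right h3 hSa
    have hα : 1 ≤ (C * M) * |α| := by
      rcases hor with h | h
      · refine h.trans (mul_le_mul_of_nonneg_right ?_ (abs_nonneg _))
        exact le_mul_of_one_le_right hC0.le hM
      · refine h.trans ?_
        rw [mul_assoc]
        exact mul_le_mul_of_nonneg_left hβα hC0.le
    have hα0 : 0 < |α| := by
      rcases (abs_nonneg α).lt_or_eq with h | h
      · exact h
      · rw [← h] at hα; norm_num at hα
    have hαne : α ≠ 0 := abs_pos.1 hα0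
    have iα : 1 / |α| ≤ C * M := by rw [div_le_iff₀ hα0]; exact hα
    rcases le_or_gt Sb (Y * Sa) with hs | hs
    · -- `Y Sa ≥ Sb`
      have hβY : |β| ≤ Y * |α| := by
        rcases not_and_or.1 hcase with h | h
        · push Not at h; exact h.le
        · push Not at h
          have h3 : |β| * Sa ≤ (Y * |α|) * Sa := by
            have := mul_le_mul_of_nonneg_left hs (abs_nonneg α)
            linarith
          exact le_of_mul_le_mul_right h3 hSa
      refine ⟨Y, hY, hY1.trans hM, le_rfl, ?_, 1, 0, 0, 1, by simp, by simp, by simp, by simp, by simp,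
        fun x y hx hy hxy => ⟨?_, ?_⟩⟩
      · rw [div_self hY.ne', one_mul]
        exact hs.trans (le_mul_of_one_le_left (by positivity) hM)
      · rw [one_mul, zero_mul, add_zero, abs_mul, abs_of_pos hSa]
        have h5 : |α| * |x| ≤ C * Y + C * |β| := by
          have h6 : |α * x| ≤ |α * x + β * y| + |β * y| := by
            have := abs_sub (α * x + β * y) (β * y)
            rwa [add_sub_cancel_right] at this
          rw [abs_mul, abs_mul β] at h6
          have h7 : |β| * |y| ≤ |β| * C := mul_le_mul_of_nonneg_left hy (abs_nonneg _)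
          linarith
        have h8 : |x| ≤ (1 / |α|) * (C * Y + C * |β|) := by
          rw [one_div, ← div_eq_inv_mul, le_div_iff₀ hα0]; linarith
        have h9 : (1 / |α|) * (C * Y + C * |β|) ≤ (1 / |α|) * (C * Y) + C * Y := by
          rw [mul_add]
          refine add_le_add le_rfl ?_
          have := mul_le_mul_of_nonneg_left hβY hC0.le
          calc 1 / |α| * (C * |β|) ≤ 1 / |α| * (C * (Y * |α|)) :=
                mul_le_mul_of_nonneg_left this (by positivity)
            _ = C * Y := by field_simp
        have h10 : (1 / |α|) * (C * Y) ≤ (C * M) * (C * Y) :=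
          mul_le_mul_of_nonneg_right iα (by positivity)
        have h11 : |x| ≤ 4 * C ^ 3 * M * Y := by
          have h12 : C * M * (C * Y) + C * Y = (C ^ 2 * M + C) * Y := by ring
          have h13 : C ^ 2 * M + C ≤ 4 * C ^ 3 * M := by
            have := mul_le_mul_of_nonneg_right hC3 hM0.le
            nlinarith
          have := mul_le_mul_of_nonneg_right h13 hY.le
          linarith
        calc Sa * |x| ≤ Sa * (4 * C ^ 3 * M * Y) := mul_le_mul_of_nonneg_left h11 hSa.le
          _ = _ := by ring
      · rw [zero_mul, zero_add, one_mul, div_self hY.ne', one_mul, abs_mul, abs_of_pos hSb,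
          mul_comm Sb]
        exact mul_le_mul_of_nonneg_right (hy.trans c1) hSb.le
    · -- `Y Sa < Sb`
      have hκ : |β / α * (Sa / Sb)| ≤ 1 := by
        rw [abs_mul, abs_div, abs_div, abs_of_pos hSa, abs_of_pos hSb, div_mul_div_comm,
          div_le_one (mul_pos hα0 hSb)]
        rcases not_and_or.1 hcase with h | h
        · push Not at h
          calc |β| * Sa ≤ (Y * |α|) * Sa := mul_le_mul_of_nonneg_right h.le hSa.le
            _ = |α| * (Y * Sa) := by ring
            _ ≤ _ := mul_le_mul_of_nonneg_left hs.le hα0.le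
        · push Not at h; exact h.le
      refine ⟨Sb / Sa, div_pos hSb hSa, ?_, by rw [le_div_iff₀ hSa]; exact hs.le, ?_, 0, 1, 1, β / α * (Sa / Sb), by simp, by simp,
        by simp, hκ, by simp, fun x y hx hy hxy => ⟨?_, ?_⟩⟩
      · rw [div_le_iff₀ hSa]; exact hab
      · have e1 : Y / (Sb / Sa) * Sb = Y * Sa := by field_simp
        have e2 : M * (Sb / Sa * Sa) = M * Sb := by field_simp
        rw [e1, e2]
        exact hs.le.trans (le_mul_of_one_le_left hSb.le hM)
      · rw [zero_mul, zero_add, one_mul, abs_mul, abs_of_pos hSb]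
        have e2 : Sb / Sa * Sa = Sb := by field_simp
        rw [e2, mul_comm Sb]
        exact mul_le_mul_of_nonneg_right (hy.trans c1) hSb.le
      · have e0 : 1 * (Sa * x) + β / α * (Sa / Sb) * (Sb * y) = Sa / α * (α * x + β * y) := by
          field_simp
        have e1 : Y / (Sb / Sa) * Sb = Y * Sa := by field_simp
        rw [e0, e1, abs_mul, abs_div, abs_of_pos hSa]
        calc Sa / |α| * |α * x + β * y| ≤ Sa / |α| * (C * Y) :=
              mul_le_mul_of_nonneg_left hxy (div_pos hSa hα0).le
          _ = (1 / |α|) * (C * (Y * Sa)) := by field_simp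
          _ ≤ (C * M) * (C * (Y * Sa)) := mul_le_mul_of_nonneg_right iα (by positivity)
          _ = (C ^ 2 * M) * (Y * Sa) := by ring
          _ ≤ _ := by
              refine mul_le_mul_of_nonneg_right ?_ (by positivity)
              have := mul_le_mul_of_nonneg_right hC3 hM0.le
              nlinarith

end Crest.Agent.R136.Str186
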