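import Crest.Agent.R136.GD11_186
import Crest.Agent.R136.Str1_186

/-!
# R136: strips of the velocities, counts on the marked family (helper186)

`card_grp` : grouping; `strip_tube` : one group of a strip is a tube; `tval_strip` : its
penalised size.
-/

set_option autoImplicit false
set_option linter.unusedVariables false

open Finset Filter Topology

namespace Crest.Agent.R136.Str186

open Crest.Agent.R138.Ex926 (Base U)
open Crest.Agent.R138.Mk163 (zc zl rho alive)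
open Crest.Agent.R138.MkRef627 (lc kc)
open Crest.Agent.R138
open Crest.Agent.R136.MkA627
open Crest.Agent.R136.Net191
open Crest.Agent.R136.NetQ186
open Crest.Agent.R136.GeoQ186
open Crest.Agent.R136.Sh605
open Crest.Agent.R136.Top484 (geo4)
open Crest.Agent.R136.PqG464 (pow_lev zc_near ev_const)
open Crest.Agent.R136.Wq638

/-! ### finite part -/

open Classical in
/-- grouping by the value of a function -/
theorem card_grp {ι : Type*} (Q : Finset ι) (f : ι → ℝ) {Y K T : ℝ} (hY : 0 < Y) (hY1 : Y ≤ 1)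
    (hK : 1 ≤ K) (hf : ∀ j ∈ Q, |f j| ≤ 2 * K ^ 2) (hT : 0 ≤ T)
    (h : ∀ Q' : Finset ι, Q' ⊆ Q → (∀ j ∈ Q', ∀ j1 ∈ Q', |f j - f j1| ≤ Y) →
      (Q'.card : ℝ) ≤ T) : (Q.card : ℝ) ≤ 6 * K ^ 2 / Y * T := by
  have hK2 : 1 ≤ K ^ 2 := one_le_pow₀ hK
  obtain ⟨m, hm⟩ : ∃ m : ι → ℤ, m = fun j => ⌊f j / Y⌋ := ⟨_, rfl⟩
  have hsub : Q.image m ⊆ Finset.Icc ⌊-(2 * K ^ 2 / Y)⌋ ⌊2 * K ^ 2 / Y⌋ := by
    intro a ha
    obtain ⟨j, hj, rfl⟩ := Finset.mem_image.1 ha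
    have h1 := abs_le.1 (hf j hj)
    rw [hm, Finset.mem_Icc]
    refine ⟨Int.floor_le_floor ?_, Int.floor_le_floor (div_le_div_of_nonneg_right h1.2 hY.le)⟩
    rw [← neg_div]
    exact div_le_div_of_nonneg_right h1.1 hY.le
  have hcard : ((Q.image m).card : ℝ) ≤ 6 * K ^ 2 / Y := by
    have h1 := Finset.card_le_card hsub
    have h2 : (((Q.image m).card : ℕ) : ℝ) ≤
        ((Finset.Icc ⌊-(2 * K ^ 2 / Y)⌋ ⌊2 * K ^ 2 / Y⌋).card : ℝ) := by exact_mod_cast h1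
    refine h2.trans ?_
    rw [Int.card_Icc]
    have h3 : (⌊-(2 * K ^ 2 / Y)⌋ : ℤ) ≤ ⌊2 * K ^ 2 / Y⌋ + 1 := by
      have : (⌊-(2 * K ^ 2 / Y)⌋ : ℤ) ≤ ⌊2 * K ^ 2 / Y⌋ := by
        refine Int.floor_le_floor ?_
        have : 0 ≤ 2 * K ^ 2 / Y := by positivity
        linarith
      linarith
    have h4 : (((⌊2 * K ^ 2 / Y⌋ + 1 - ⌊-(2 * K ^ 2 / Y)⌋).toNat : ℕ) : ℝ) =
        (⌊2 * K ^ 2 / Y⌋ : ℝ) + 1 - (⌊-(2 * K ^ 2 / Y)⌋ : ℝ) := by
      have : (((⌊2 * K ^ 2 / Y⌋ + 1 - ⌊-(2 * K ^ 2 / Y)⌋).toNat : ℕ) : ℤ) =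
          ⌊2 * K ^ 2 / Y⌋ + 1 - ⌊-(2 * K ^ 2 / Y)⌋ := Int.toNat_of_nonneg (by linarith)
      have h5 : ((((⌊2 * K ^ 2 / Y⌋ + 1 - ⌊-(2 * K ^ 2 / Y)⌋).toNat : ℕ) : ℤ) : ℝ) =
          ((⌊2 * K ^ 2 / Y⌋ + 1 - ⌊-(2 * K ^ 2 / Y)⌋ : ℤ) : ℝ) := by rw [this]
      push_cast at h5
      exact h5
    rw [h4]
    have h5 := Int.floor_le (2 * K ^ 2 / Y)
    have h6 := Int.lt_floor_add_one (-(2 * K ^ 2 / Y))
    have h7 : 2 ≤ 2 * K ^ 2 / Y := by
      rw [le_div_iff₀ hY]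
      nlinarith
    have h8 : 6 * K ^ 2 / Y = 3 * (2 * K ^ 2 / Y) := by ring
    rw [h8]
    linarith
  have h1 : (Q.card : ℝ) = ∑ a ∈ Q.image m, ((Q.filter fun j => m j = a).card : ℝ) := by
    rw [Finset.card_eq_sum_card_image m Q]
    push_cast
    rfl
  rw [h1]
  calc ∑ a ∈ Q.image m, ((Q.filter fun j => m j = a).card : ℝ) ≤ ∑ a ∈ Q.image m, T := by
        refine Finset.sum_le_sum fun a ha => h _ (Finset.filter_subset _ _) ?_
        intro j hj j1 hj1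
        have e1 := (Finset.mem_filter.1 hj).2
        have e2 := (Finset.mem_filter.1 hj1).2
        rw [hm] at e1 e2
        have a1 := Int.floor_le (f j / Y)
        have a2 := Int.lt_floor_add_one (f j / Y)
        have b1 := Int.floor_le (f j1 / Y)
        have b2 := Int.lt_floor_add_one (f j1 / Y)
        simp only at e1 e2
        rw [e1] at a1 a2
        rw [e2] at b1 b2
        rw [le_div_iff₀ hY] at a1 b1
        rw [div_lt_iff₀ hY] at a2 b2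
        rw [abs_le]
        constructor <;> nlinarith
    _ = ((Q.image m).card : ℝ) * T := by rw [Finset.sum_const, nsmul_eq_mul]
    _ ≤ _ := mul_le_mul_of_nonneg_right hcard hT

/-- entries `5, 6` of the chart -/
theorem coQ_56 {π : Equiv.Perm (Fin 3)} {c t : Ln4} {zx zy e fa fb ey fay fby HH WA WB WY : ℝ}
    (hH : 0 < HH) (hA : 0 < WA) (hB : 0 < WB) (hY : 0 < WY) :
    coQ (scl HH WA WB WY (mkT (cLn π c) zx e fa fb))
      (scl HH WA WB WY (mkT (cLn π t) zy ey fay fby)) 5 =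
        dt (frmQ π e fa fb 1) (t.v - c.v) / WA ∧
    coQ (scl HH WA WB WY (mkT (cLn π c) zx e fa fb))
      (scl HH WA WB WY (mkT (cLn π t) zy ey fay fby)) 6 =
        dt (frmQ π e fa fb 2) (t.v - c.v) / WB := by
  rw [coQ_scl hH.ne' hA.ne' hB.ne' hY.ne', coQ_scl hH.ne' hA.ne' hB.ne' hY.ne']
  rw [dt_frmQ1, dt_frmQ2]
  constructor
  · simp only [coQ, mkT, cLn, sfac, Matrix.cons_val, Pi.sub_apply]
    ring
  · simp only [coQ, mkT, cLn, sfac, Matrix.cons_val, Pi.sub_apply]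
    ring

theorem dt_add_left (f g x : V3) : dt (fun i => f i + g i) x = dt f x + dt g x := by
  simp only [dt]; ring

/-- the combined form -/
def cmb (a b : ℝ) (f g : V3) : V3 := fun i => a * f i + b * g i

theorem dt_cmb (a b : ℝ) (f g x : V3) : dt (cmb a b f g) x = a * dt f x + b * dt g x := by
  simp only [dt, cmb]; ring

theorem det3_cmb (F : Fin 3 → V3) (a b c d : ℝ) :
    det3 (![F 0, cmb a b (F 1) (F 2), cmb c d (F 1) (F 2)] : Fin 3 → V3) =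
      (a * d - b * c) * det3 F := by
  simp only [det3, dt, cr, cmb, Matrix.cons_val]
  ring

theorem dt_sub_right (f x y : V3) : dt f (x - y) = dt f x - dt f y := by
  simp only [dt, Pi.sub_apply]; ring

/-- the penalised size of the strip -/
theorem tval_strip {q : Fin 3 → ℝ} {ρ Sy Sa Sb Y r M qm : ℝ} (hρ : 0 < ρ) (h0 : 0 < Sy)
    (h1 : 0 < Sa) (h2 : 0 < Sb) (hY : 0 < Y) (hY1 : Y ≤ 1) (hr : 0 < r) (hrM : r ≤ M)
    (hYr : Y ≤ r) (hM : 1 ≤ M) (hm1 : qm ≤ q 1) (hm2 : qm ≤ q 2) :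
    tval q ρ ![Sy, r * Sa, Y / r * Sb] ≤
      tval q ρ ![Sy, Sa, Sb] * (Y * Y ^ qm) * M ^ |q 1 - q 2| := by
  have e1 : tval q ρ ![Sy, r * Sa, Y / r * Sb] =
      tval q ρ ![Sy, Sa, Sb] * Y * (Y ^ q 2 * r ^ (q 1 - q 2)) := by
    unfold tval
    simp only [Matrix.cons_val]
    have a1 : (r * Sa / ρ) ^ q 1 = r ^ q 1 * (Sa / ρ) ^ q 1 := by
      rw [mul_div_assoc, Real.mul_rpow hr.le (div_pos h1 hρ).le]
    have a2 : (Y / r * Sb / ρ) ^ q 2 = Y ^ q 2 / r ^ q 2 * (Sb / ρ) ^ q 2 := by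
      rw [mul_div_assoc, Real.mul_rpow (div_pos hY hr).le (div_pos h2 hρ).le,
        Real.div_rpow hY.le hr.le]
    rw [a1, a2, Real.rpow_sub hr]
    have := (Real.rpow_pos_of_pos hr (q 2)).ne'
    field_simp
  have hM0 : 0 < M := by linarith
  have e2 : Y ^ q 2 * r ^ (q 1 - q 2) ≤ Y ^ qm * M ^ |q 1 - q 2| := by
    rcases le_total (q 2) (q 1) with h | h
    · rw [abs_of_nonneg (by linarith)]
      exact mul_le_mul (Real.rpow_le_rpow_of_exponent_ge hY hY1 hm2)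
        (Real.rpow_le_rpow hr.le hrM (by linarith)) (Real.rpow_nonneg hr.le _)
        (Real.rpow_nonneg hY.le _)
    · have a1 : r ^ (q 1 - q 2) ≤ Y ^ (q 1 - q 2) :=
        Real.rpow_le_rpow_of_nonpos hY hYr (by linarith)
      calc Y ^ q 2 * r ^ (q 1 - q 2) ≤ Y ^ q 2 * Y ^ (q 1 - q 2) :=
            mul_le_mul_of_nonneg_left a1 (Real.rpow_nonneg hY.le _)
        _ = Y ^ q 1 := by rw [← Real.rpow_add hY]; congr 1; ring
        _ ≤ Y ^ qm := Real.rpow_le_rpow_of_exponent_ge hY hY1 hm1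
        _ ≤ Y ^ qm * M ^ |q 1 - q 2| := le_mul_of_one_le_right (Real.rpow_nonneg hY.le _)
            (Real.one_le_rpow hM (abs_nonneg _))
  have hv : 0 ≤ tval q ρ ![Sy, Sa, Sb] := by
    unfold tval
    simp only [Matrix.cons_val]
    positivity
  rw [e1]
  calc _ ≤ tval q ρ ![Sy, Sa, Sb] * Y * (Y ^ qm * M ^ |q 1 - q 2|) :=
        mul_le_mul_of_nonneg_left e2 (mul_nonneg hv hY.le)
    _ = _ := by ring

theorem mul_dv {x S : ℝ} (hS : 0 < S) : S * (x / S) = x := by field_simp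

set_option maxHeartbeats 1000000 in
/-- **finite part**: one group of a strip is a tube. `F 0, F 1, F 2` = the forms of the base flag. -/
theorem strip_tube {F : Fin 3 → V3} {Sy Sa Sb R K Y α β : ℝ} (hy : 0 < Sy) (ha : 0 < Sa)
    (hb : 0 < Sb) (hR : 0 < R) (hK : 32 ≤ K) (hab : Sb ≤ K * Sa) (hY : 0 < Y) (hY1 : Y ≤ 1)
    (hor : 1 ≤ K * |α| ∨ 1 ≤ K * |β|) (hF : ∀ k i, |F k i| ≤ 1) (hdet : |det3 F| = 1) :
    ∃ (r : ℝ) (G : Fin 3 → V3), 0 < r ∧ r ≤ K ∧ Y ≤ r ∧ Y / r * Sb ≤ K * (r * Sa) ∧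
      (∀ k i, |G k i| ≤ K) ∧ |det3 G| = 1 ∧ ∀ (c t1 t : Ln4) (z : ℝ),
        (∀ s ∈ ({t1, t} : Set Ln4), |dt (F 0) (s.pos z - c.pos z)| ≤ K * Sy ∧
          |dt (F 1) (s.pos z - c.pos z)| ≤ K * Sa ∧ |dt (F 2) (s.pos z - c.pos z)| ≤ K * Sb ∧
          |dt (F 0) (s.v - c.v)| * R ≤ K * Sy ∧ |dt (F 1) (s.v - c.v)| * R ≤ K * Sa ∧
          |dt (F 2) (s.v - c.v)| * R ≤ K * Sb ∧
          |α * (dt (F 1) (s.v - c.v) * R / Sa) + β * (dt (F 2) (s.v - c.v) * R / Sb)| ≤ K * Y) →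
        |(α * (dt (F 1) (t.pos z - c.pos z) / Sa) + β * (dt (F 2) (t.pos z - c.pos z) / Sb)) -
          (α * (dt (F 1) (t1.pos z - c.pos z) / Sa) +
            β * (dt (F 2) (t1.pos z - c.pos z) / Sb))| ≤ Y →
        ∀ k, |dt (G k) (t.pos z - t1.pos z)| ≤ K ^ 8 * (![Sy, r * Sa, Y / r * Sb] : Fin 3 → ℝ) k ∧
          |dt (G k) (t.v - t1.v)| * R ≤ K ^ 8 * (![Sy, r * Sa, Y / r * Sb] : Fin 3 → ℝ) k := by
  have hK1 : 1 ≤ K := by linarith
  have hK0 : 0 < K := by linarith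
  have hC : 1 ≤ 2 * K ^ 2 := by nlinarith
  have hKC : 2 * K ≤ 2 * K ^ 2 := by nlinarith
  have hor' : 1 ≤ 2 * K ^ 2 * |α| ∨ 1 ≤ 2 * K ^ 2 * |β| := by
    rcases hor with h | h
    · left; exact h.trans (mul_le_mul_of_nonneg_right (by nlinarith) (abs_nonneg _))
    · right; exact h.trans (mul_le_mul_of_nonneg_right (by nlinarith) (abs_nonneg _))
  obtain ⟨r, hr, hrK, hYr, hrab, f1a, f1b, f2a, f2b, g1, g2, g3, g4, g5, g6⟩ :=
    strip2 ha hb hab hY hY1 hC hK1 hor'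
  obtain ⟨G, hG⟩ : ∃ G : Fin 3 → V3, G = ![F 0, cmb f1a f1b (F 1) (F 2), cmb f2a f2b (F 1) (F 2)] :=
    ⟨_, rfl⟩
  have hGle : ∀ k i, |G k i| ≤ K := by
    intro k i
    have key : ∀ a b : ℝ, |a| ≤ 1 → |b| ≤ 1 → |cmb a b (F 1) (F 2) i| ≤ K := by
      intro a b h1 h2
      unfold cmb
      calc |a * F 1 i + b * F 2 i| ≤ |a * F 1 i| + |b * F 2 i| := abs_add_le _ _
        _ = |a| * |F 1 i| + |b| * |F 2 i| := by rw [abs_mul, abs_mul]
        _ ≤ 1 * 1 + 1 * 1 := add_le_add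
            (mul_le_mul h1 (hF 1 i) (abs_nonneg _) zero_le_one)
            (mul_le_mul h2 (hF 2 i) (abs_nonneg _) zero_le_one)
        _ ≤ K := by linarith
    rw [hG]
    fin_cases k
    · exact (hF 0 i).trans hK1
    · exact key _ _ g1 g2
    · exact key _ _ g3 g4
  have hGdet : |det3 G| = 1 := by
    rw [hG, det3_cmb, abs_mul, g5, hdet, one_mul]
  refine ⟨r, G, hr, hrK, hYr, hrab, hGle, hGdet, ?_⟩
  intro c t1 t z hs hg
  obtain ⟨a1, a2, a3, a4, a5, a6, a7⟩ := hs t1 (by simp)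
  obtain ⟨b1, b2, b3, b4, b5, b6, b7⟩ := hs t (by simp)
  -- differences
  have ep : ∀ f : V3, dt f (t.pos z - t1.pos z) =
      dt f (t.pos z - c.pos z) - dt f (t1.pos z - c.pos z) := by
    intro f
    rw [← dt_sub_right]
    congr 1
    abel
  have ev : ∀ f : V3, dt f (t.v - t1.v) = dt f (t.v - c.v) - dt f (t1.v - c.v) := by
    intro f
    rw [← dt_sub_right]
    congr 1
    abel
  have two : ∀ {x y S : ℝ}, |x| ≤ K * S → |y| ≤ K * S → |y - x| ≤ 2 * K * S := by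
    intro x y S h1 h2
    calc |y - x| ≤ |y| + |x| := abs_sub _ _
      _ ≤ _ := by linarith
  have hK8 : 2 * K ≤ K ^ 8 := by
    have h1 : K ≤ K ^ 7 := by
      calc K = K ^ 1 := (pow_one K).symm
        _ ≤ K ^ 7 := pow_le_pow_right₀ hK1 (by norm_num)
    calc 2 * K ≤ K * K := by nlinarith
      _ ≤ K * K ^ 7 := mul_le_mul_of_nonneg_left h1 hK0.le
      _ = K ^ 8 := by ring
  have hK8' : 4 * (2 * K ^ 2) ^ 3 * K ≤ K ^ 8 := by
    have e : 4 * (2 * K ^ 2) ^ 3 * K = 32 * K ^ 7 := by ring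
    have e2 : K ^ 8 = K * K ^ 7 := by ring
    rw [e, e2]
    exact mul_le_mul_of_nonneg_right hK (by positivity)
  -- relative coordinates of the differences
  obtain ⟨xp, hxp⟩ : ∃ xp, xp = dt (F 1) (t.pos z - t1.pos z) / Sa := ⟨_, rfl⟩
  obtain ⟨yp, hyp⟩ : ∃ yp, yp = dt (F 2) (t.pos z - t1.pos z) / Sb := ⟨_, rfl⟩
  obtain ⟨xv, hxv⟩ : ∃ xv, xv = dt (F 1) (t.v - t1.v) * R / Sa := ⟨_, rfl⟩
  obtain ⟨yv, hyv⟩ : ∃ yv, yv = dt (F 2) (t.v - t1.v) * R / Sb := ⟨_, rfl⟩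
  have rel : ∀ {x S : ℝ}, 0 < S → |x| ≤ 2 * K * S → |x / S| ≤ 2 * K ^ 2 := by
    intro x S hS h
    rw [abs_div, abs_of_pos hS, div_le_iff₀ hS]
    exact h.trans (mul_le_mul_of_nonneg_right hKC hS.le)
  have hxp' : |xp| ≤ 2 * K ^ 2 := by rw [hxp, ep]; exact rel ha (two a2 b2)
  have hyp' : |yp| ≤ 2 * K ^ 2 := by rw [hyp, ep]; exact rel hb (two a3 b3)
  have absR : ∀ x : ℝ, |x * R| = |x| * R := fun x => by rw [abs_mul, abs_of_pos hR]
  have hxv' : |xv| ≤ 2 * K ^ 2 := by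
    rw [hxv, ev, sub_mul]
    exact rel ha (two (by rw [absR]; exact a5) (by rw [absR]; exact b5))
  have hyv' : |yv| ≤ 2 * K ^ 2 := by
    rw [hyv, ev, sub_mul]
    exact rel hb (two (by rw [absR]; exact a6) (by rw [absR]; exact b6))
  have hlp : |α * xp + β * yp| ≤ 2 * K ^ 2 * Y := by
    have e : α * xp + β * yp = (α * (dt (F 1) (t.pos z - c.pos z) / Sa) +
        β * (dt (F 2) (t.pos z - c.pos z) / Sb)) - (α * (dt (F 1) (t1.pos z - c.pos z) / Sa) +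
          β * (dt (F 2) (t1.pos z - c.pos z) / Sb)) := by
      rw [hxp, hyp, ep, ep]; ring
    rw [e]
    refine hg.trans ?_
    nlinarith
  have hlv : |α * xv + β * yv| ≤ 2 * K ^ 2 * Y := by
    have e : α * xv + β * yv = (α * (dt (F 1) (t.v - c.v) * R / Sa) +
        β * (dt (F 2) (t.v - c.v) * R / Sb)) - (α * (dt (F 1) (t1.v - c.v) * R / Sa) +
          β * (dt (F 2) (t1.v - c.v) * R / Sb)) := by
      rw [hxv, hyv, ev, ev]; ring
    rw [e]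
    refine (two a7 b7).trans ?_
    exact mul_le_mul_of_nonneg_right hKC hY.le
  have e1 : Sa * xp = dt (F 1) (t.pos z - t1.pos z) := by rw [hxp, mul_dv ha]
  have e2 : Sb * yp = dt (F 2) (t.pos z - t1.pos z) := by rw [hyp, mul_dv hb]
  have e3 : Sa * xv = dt (F 1) (t.v - t1.v) * R := by rw [hxv, mul_dv ha]
  have e4 : Sb * yv = dt (F 2) (t.v - t1.v) * R := by rw [hyv, mul_dv hb]
  obtain ⟨P1, P2⟩ := g6 xp yp hxp' hyp' hlp
  obtain ⟨Q1, Q2⟩ := g6 xv yv hxv' hyv' hlv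
  rw [e1, e2] at P1 P2
  rw [e3, e4] at Q1 Q2
  have hrS : 0 < r * Sa := mul_pos hr ha
  have hYS : 0 < Y / r * Sb := mul_pos (div_pos hY hr) hb
  intro k
  rw [hG]
  fin_cases k
  · refine ⟨?_, ?_⟩
    · show |dt (F 0) (t.pos z - t1.pos z)| ≤ K ^ 8 * Sy
      rw [ep]
      exact (two a1 b1).trans (mul_le_mul_of_nonneg_right hK8 hy.le)
    · show |dt (F 0) (t.v - t1.v)| * R ≤ K ^ 8 * Sy
      rw [← absR, ev, sub_mul]
      exact (two (by rw [absR]; exact a4) (by rw [absR]; exact b4)).trans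
        (mul_le_mul_of_nonneg_right hK8 hy.le)
  · refine ⟨?_, ?_⟩
    · show |dt (cmb f1a f1b (F 1) (F 2)) (t.pos z - t1.pos z)| ≤ K ^ 8 * (r * Sa)
      rw [dt_cmb]
      exact P1.trans (mul_le_mul_of_nonneg_right hK8' hrS.le)
    · show |dt (cmb f1a f1b (F 1) (F 2)) (t.v - t1.v)| * R ≤ K ^ 8 * (r * Sa)
      rw [dt_cmb, ← absR, add_mul, mul_assoc, mul_assoc]
      exact Q1.trans (mul_le_mul_of_nonneg_right hK8' hrS.le)
  · refine ⟨?_, ?_⟩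
    · show |dt (cmb f2a f2b (F 1) (F 2)) (t.pos z - t1.pos z)| ≤ K ^ 8 * (Y / r * Sb)
      rw [dt_cmb]
      exact P2.trans (mul_le_mul_of_nonneg_right hK8' hYS.le)
    · show |dt (cmb f2a f2b (F 1) (F 2)) (t.v - t1.v)| * R ≤ K ^ 8 * (Y / r * Sb)
      rw [dt_cmb, ← absR, add_mul, mul_assoc, mul_assoc]
      exact Q2.trans (mul_le_mul_of_nonneg_right hK8' hYS.le)

end Crest.Agent.R136.Str186
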