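import Crest.Agent.R136.Str2_186

/-!
# R136: strips of the velocities, counts on the marked family (helper186)

`strip_count` : incidences of a chart box whose velocities lie in ONE strip
`|α C_a + β C_b| ≤ Y` (relative units of the box) : `≤ N0Q d^-(DQ p + ε) Y^qm`, `qm ≤ q 1, q 2`, uniformly in `Y`
and in the strip.
-/

set_option autoImplicit false
set_option linter.unusedVariables false

open Finset Filter Topology

namespace Crest.Agent.R136.Str186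

open Crest.Agent.R138.Ex926 (Base U)
open Crest.Agent.R138.Mk163 (zc zl rho alive)
open Crest.Agent.R138.MkRef627 (lc kc)
open Crest.Agent.R138
open Crest.Agent.R136.MkA627
open Crest.Agent.R136.Net191
open Crest.Agent.R136.NetQ186
open Crest.Agent.R136.GeoQ186
open Crest.Agent.R136.Sh605
open Crest.Agent.R136.Top484 (geo4)
open Crest.Agent.R136.PqG464 (pow_lev zc_near ev_const)
open Crest.Agent.R136.Wq638

/-- relative units -/
theorem rel_unit {d HH W V p0 p5 p8 : ℝ} (hd : 0 < d) (hH : 0 < HH) (hW : 0 < W)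
    (w : p8 = p0 + p5) : V * (d ^ p0 / HH) / (W * d ^ p8 / HH) = V / W / d ^ p5 := by
  have h0 := (dpos hd p0).ne'
  have h5 := (dpos hd p5).ne'
  rw [w, Real.rpow_add hd]
  field_simp

/-- a chart box in the frame of its base flag -/
theorem near_frame {π : Equiv.Perm (Fin 3)} {c t : Ln4} {zx zy e fa fb ey fay fby HH WA WB WY d K :
    ℝ} {p : Fin 11 → ℝ} (hd : 0 < d) (hd1 : d < 1) (hH : 0 < HH) (hA : 0 < WA)
    (hB : 0 < WB) (hY : 0 < WY) (hK : 0 ≤ K) (w8 : p 8 = p 0 + p 5) (w9 : p 9 = p 0 + p 6)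
    (w10 : p 10 ≤ p 0 + p 7) {co : Fin 11 → ℝ}
    (hco : co = coQ (scl HH WA WB WY (mkT (cLn π c) zx e fa fb))
      (scl HH WA WB WY (mkT (cLn π t) zy ey fay fby)))
    (h : ∀ k, |co k| ≤ K * d ^ p k) {α β Y : ℝ}
    (hs : |α * (co 5 / d ^ p 5) + β * (co 6 / d ^ p 6)| ≤ K * Y) :
    |zy - zx| ≤ K * (d ^ p 0 / HH) ∧
      (|dt (frmQ π e fa fb 0) (t.pos zx - c.pos zx)| ≤ K * Sz d HH WA WB WY p 0 ∧
       |dt (frmQ π e fa fb 1) (t.pos zx - c.pos zx)| ≤ K * Sz d HH WA WB WY p 1 ∧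
       |dt (frmQ π e fa fb 2) (t.pos zx - c.pos zx)| ≤ K * Sz d HH WA WB WY p 2 ∧
       |dt (frmQ π e fa fb 0) (t.v - c.v)| * (d ^ p 0 / HH) ≤ K * Sz d HH WA WB WY p 0 ∧
       |dt (frmQ π e fa fb 1) (t.v - c.v)| * (d ^ p 0 / HH) ≤ K * Sz d HH WA WB WY p 1 ∧
       |dt (frmQ π e fa fb 2) (t.v - c.v)| * (d ^ p 0 / HH) ≤ K * Sz d HH WA WB WY p 2 ∧
       |α * (dt (frmQ π e fa fb 1) (t.v - c.v) * (d ^ p 0 / HH) / Sz d HH WA WB WY p 1) +
        β * (dt (frmQ π e fa fb 2) (t.v - c.v) * (d ^ p 0 / HH) / Sz d HH WA WB WY p 2)| ≤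
          K * Y) := by
  have hS : NearS (coQ (scl HH WA WB WY (mkT (cLn π c) zx e fa fb))
      (scl HH WA WB WY (mkT (cLn π t) zy ey fay fby))) d p K (0 * (WA / WB)) (0 * (WA / WY))
      (0 * (WB / WY)) := by
    rw [← hco]
    simp only [zero_mul]
    exact ⟨h 0, h 5, by simpa using h 6, by simpa using h 7, h 8, by simpa using h 9,
      by simpa using h 10⟩
  obtain ⟨g1, g2⟩ := nearS_tube hd hd1 hH hA hB hY hK w8.le w9.le w10 hS
  simp only [add_zero, zero_mul, sub_zero] at g2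
  refine ⟨g1, (g2 0).1, (g2 1).1, (g2 2).1, (g2 0).2, (g2 1).2, (g2 2).2, ?_⟩
  obtain ⟨c5, c6⟩ := coQ_56 (π := π) (c := c) (t := t) (zx := zx) (zy := zy) (e := e) (fa := fa)
    (fb := fb) (ey := ey) (fay := fay) (fby := fby) hH hA hB hY
  rw [← hco] at c5 c6
  have e1 : dt (frmQ π e fa fb 1) (t.v - c.v) * (d ^ p 0 / HH) / Sz d HH WA WB WY p 1 =
      co 5 / d ^ p 5 := by
    rw [c5]
    exact rel_unit hd hH hA w8
  have e2 : dt (frmQ π e fa fb 2) (t.v - c.v) * (d ^ p 0 / HH) / Sz d HH WA WB WY p 2 =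
      co 6 / d ^ p 6 := by
    rw [c6]
    exact rel_unit hd hH hB w9
  rw [e1, e2]
  exact hs

section

variable {B : Base} {I : ℕ → Finset (ℕ × ℝ)} {lev : ℕ → ℚ → ℕ}
    {A : ℕ → ℝ} {g s : ℝ} {τ : Fin 3 → ℝ → ℝ} {f : ℕ → ℚ → ℕ → ℤ → ℕ} {b : ℕ → ℚ → ℕ → K4.Plk4}
    {vm : ℕ → ℚ → ℝ} {w : Fin 3 → ℕ → ℚ → ℝ} {L : ℕ → ℕ → Ln4} {r0 : ℕ → ℝ}
    {wr cr : Fin 3 → ℕ → ℝ} {q : Fin 3 → ℝ} {π : Equiv.Perm (Fin 3)} {E Fa Fb : ℕ → ℕ × ℝ → ℝ} {w0 R : ℝ} {p : Fin 11 → ℝ}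

open Classical in
set_option maxHeartbeats 1000000 in
/-- **incidences of a chart box with velocities in one strip** -/
theorem strip_count (hM : MkA B I (geo4 L r0 wr cr q) lev A (fun v => g * v) (fun v => s * v) τ f b vm w)
    (C0 : ℝ) (hq : ∀ j, 0 ≤ q j) {qm : ℝ} (hm1 : qm ≤ q 1) (hm2 : qm ≤ q 2)
    (hE : ∀ n, ∀ x ∈ I n, |E n x| ≤ 1) (hFa : ∀ n, ∀ x ∈ I n, |Fa n x| ≤ 1)
    (hFb : ∀ n, ∀ x ∈ I n, |Fb n x| ≤ 1)
    (w8 : p 8 = p 0 + p 5) (w9 : p 9 = p 0 + p 6) (w10 : p 10 ≤ p 0 + p 7)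
    (hp0 : w0 ≤ p 0) (hp1 : p 0 ≤ w0 + 1)
    (hX : TubeOk B r0 wr cr lev (p 0 - w0) (fun k => SQ B lev w w0 p k)) {ε : ℝ} (hε : 0 < ε) :
    ∃ δ : ℝ, 0 < δ ∧ ∀ᶠ n in (U : Filter ℕ), ∀ x ∈ I n, ∀ Y : ℝ, 0 < Y → Y ≤ 1 →
      B.d n ^ C0 ≤ Y →
      SQ B lev w w0 p 0 n ≤ B.d n ^ (-δ) * (Y * SQ B lev w w0 p 2 n) → ∀ α β : ℝ,
      |α| ≤ B.d n ^ (-δ) → |β| ≤ B.d n ^ (-δ) →
      (1 ≤ B.d n ^ (-δ) * |α| ∨ 1 ≤ B.d n ^ (-δ) * |β|) →
      ∀ Q : Finset (ℕ × ℝ), Q ⊆ I n → (∀ j ∈ Q,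
        Near (couQ B lev w w0 (incQ π L E Fa Fb) n) (B.d n) p (B.d n ^ (-δ)) x j ∧
        |α * (couQ B lev w w0 (incQ π L E Fa Fb) n x j 5 / B.d n ^ p 5) +
          β * (couQ B lev w w0 (incQ π L E Fa Fb) n x j 6 / B.d n ^ p 6)| ≤
          B.d n ^ (-δ) * Y) →
      (Q.card : ℝ) ≤ N0Q A vm n * B.d n ^ (-(DQ g s q w0 p + ε)) * Y ^ qm := by
  obtain ⟨δc, hδc, hcap⟩ := hX.cap
  obtain ⟨δ1, hδ1, hdm⟩ := dmax_unif hM (flatGeo_geo4 L r0 wr cr q) hq (v := p 0 - w0) (by linarith)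
    (by linarith) (half_pos hδc) (half_pos hε)
  obtain ⟨κ, hκ⟩ : ∃ κ : ℝ, κ = |q 1 - q 2| := ⟨_, rfl⟩
  have hκ0 : 0 ≤ κ := by rw [hκ]; exact abs_nonneg _
  obtain ⟨δ, hδ⟩ : ∃ δ : ℝ, δ = min (min (δ1 / 8) (δc / 2)) (ε / (2 * (3 + κ))) := ⟨_, rfl⟩
  have hδ0 : 0 < δ := by
    rw [hδ]
    refine lt_min (lt_min (by linarith) (by linarith)) (div_pos hε (by linarith))
  have d1 : 8 * δ ≤ δ1 := by
    have : δ ≤ δ1 / 8 := by rw [hδ]; exact (min_le_left _ _).trans (min_le_left _ _)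
    linarith
  have d2 : δ ≤ δc / 2 := by rw [hδ]; exact (min_le_left _ _).trans (min_le_right _ _)
  have d3 : δ * (3 + κ) ≤ ε / 2 := by
    have h1 : δ ≤ ε / (2 * (3 + κ)) := by rw [hδ]; exact min_le_right _ _
    rw [le_div_iff₀ (by linarith)] at h1
    linarith
  clear hδ
  refine ⟨δ, hδ0, ?_⟩
  filter_upwards [hX.rn 1 C0, hX.rn 2 (C0 + δ), hX.rn 1 (δ + δc / 2), hX.rn 2 (δc / 2),
    hX.rn 0 0, hX.rn 0 (δc / 2), hdm, hcap, hX.o21 δ hδ0, hX.res δ hδ0, hM.wpos 0 0 le_rfl zero_le_one,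
    hM.wpos 1 0 le_rfl zero_le_one, hM.wpos 2 0 le_rfl zero_le_one, vm_eq hM le_rfl zero_le_one,
    ev_const B (c := 32) (by norm_num) hδ0] with n hwr1 hwr2 hcr1 hcr2 hwr0 hcr0
    hn hcapn h21 hres h0 h1 h2 hvm h32
    x hx Y hY hY1 hYC hYS α β hα hβ hor Q hQI hQ
  have hAp := hM.Apos n
  have hd := B.pos n
  have hd1 := B.lt n
  have dpp := fun a => Dp76.dpow_pos B n a
  have a := uA_pos (B := B) (lev := lev) (w0 := w0) h1
  have b := uB_pos (B := B) (lev := lev) (w0 := w0) h2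
  have y := uY_pos (B := B) (lev := lev) (w0 := w0) h0
  have H := uH_pos (B := B) (lev := lev) (w0 := w0) n
  have hρ : 0 < rho (lev n 0) := rho_pos _
  have K32 := const_le h32
  obtain ⟨K, hK⟩ : ∃ K, K = B.d n ^ (-δ) := ⟨_, rfl⟩
  rw [← hK] at K32 hα hβ hor hYS h21 hres hQ
  have hK0 : 0 < K := by linarith
  have hK1 : 1 ≤ K := by linarith
  have hK8 : K ^ 8 ≤ B.d n ^ (-δ1) := by
    rw [hK, ← Real.rpow_natCast, ← Real.rpow_mul hd.le]
    refine Dp76.dpow_le B n ?_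
    push_cast
    linarith
  have hKδ : K ≤ B.d n ^ (-δ1) := by
    refine le_trans ?_ hK8
    calc K = K ^ 1 := (pow_one K).symm
      _ ≤ K ^ 8 := pow_le_pow_right₀ hK1 (by norm_num)
  have hK2δ : K * K ≤ B.d n ^ (-δ1) := by
    refine le_trans ?_ hK8
    calc K * K = K ^ 2 := by ring
      _ ≤ K ^ 8 := pow_le_pow_right₀ hK1 (by norm_num)
  -- sizes
  obtain ⟨Sy, hSy⟩ : ∃ S, S = SQ B lev w w0 p 0 n := ⟨_, rfl⟩
  obtain ⟨Sa, hSa⟩ : ∃ S, S = SQ B lev w w0 p 1 n := ⟨_, rfl⟩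
  obtain ⟨Sb, hSb⟩ : ∃ S, S = SQ B lev w w0 p 2 n := ⟨_, rfl⟩
  have hSy0 : 0 < Sy := by rw [hSy]; exact SQ_pos h0 h1 h2 0
  have hSa0 : 0 < Sa := by rw [hSa]; exact SQ_pos h0 h1 h2 1
  have hSb0 : 0 < Sb := by rw [hSb]; exact SQ_pos h0 h1 h2 2
  rw [← hSy, ← hSb] at hYS
  rw [← hSa, ← hSb] at h21
  rw [← hSy] at hres
  rw [← hSa] at hcapn
  obtain ⟨Rr, hRr⟩ : ∃ Rr, Rr = B.d n ^ p 0 / uH B lev w0 n := ⟨_, rfl⟩
  have hRr0 : 0 < Rr := by rw [hRr]; exact div_pos (dpp _) H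
  have hRe : B.d n ^ (p 0 - w0) * rho (lev n 0) = Rr := by rw [hRr, len_eq]
  obtain ⟨F, hF⟩ : ∃ F, F = frmQ π (E n x) (Fa n x) (Fb n x) := ⟨_, rfl⟩
  have hFle : ∀ k i, |F k i| ≤ 1 := by
    rw [hF]
    exact frmQ_le le_rfl (hE n x hx) (hFa n x hx) (hFb n x hx)
  have hFdet : |det3 F| = 1 := by rw [hF]; exact frmQ_det _ _ _ _
  obtain ⟨r, G, hr, hrK, hYr, hrab, hGle, hGdet, hG⟩ := strip_tube (F := F) hSy0 hSa0 hSb0 hRr0 K32 h21
    hY hY1 hor hFle hFdet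
  -- facts on the elements
  have fac : ∀ j ∈ Q, |j.2 - x.2| ≤ K * Rr ∧
      (|dt (F 0) ((L n j.1).pos x.2 - (L n x.1).pos x.2)| ≤ K * Sy ∧
       |dt (F 1) ((L n j.1).pos x.2 - (L n x.1).pos x.2)| ≤ K * Sa ∧
       |dt (F 2) ((L n j.1).pos x.2 - (L n x.1).pos x.2)| ≤ K * Sb ∧
       |dt (F 0) ((L n j.1).v - (L n x.1).v)| * Rr ≤ K * Sy ∧
       |dt (F 1) ((L n j.1).v - (L n x.1).v)| * Rr ≤ K * Sa ∧
       |dt (F 2) ((L n j.1).v - (L n x.1).v)| * Rr ≤ K * Sb ∧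
       |α * (dt (F 1) ((L n j.1).v - (L n x.1).v) * Rr / Sa) +
        β * (dt (F 2) ((L n j.1).v - (L n x.1).v) * Rr / Sb)| ≤ K * Y) := by
    intro j hj
    obtain ⟨q1, q2⟩ := hQ j hj
    rw [hF, hRr, hSy, hSa, hSb]
    exact near_frame hd hd1 H a b y hK0.le w8 w9 w10 rfl q1 q2
  have hq1 : wr 1 n ≤ r * Sa := by
    rw [hSa]
    refine hwr1.1.trans (mul_le_mul_of_nonneg_right (hYC.trans hYr) ?_)
    rw [← hSa]; exact hSa0.le
  have hq2 : wr 2 n ≤ Y / r * Sb := by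
    rw [hSb]
    refine hwr2.1.trans (mul_le_mul_of_nonneg_right ?_ ?_)
    · rw [le_div_iff₀ hr]
      calc B.d n ^ (C0 + δ) * r ≤ B.d n ^ (C0 + δ) * K :=
            mul_le_mul_of_nonneg_left hrK (dpp _).le
        _ = B.d n ^ C0 := by
            rw [hK, ← Dp76.dpow_add]; congr 1; ring
        _ ≤ Y := hYC
    · rw [← hSb]; exact hSb0.le
  have hq3 : r * Sa ≤ B.d n ^ (δc / 2) * cr 1 n := by
    have h5 : Sa ≤ B.d n ^ (δ + δc / 2) * cr 1 n := by rw [hSa]; exact hcr1.2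
    calc r * Sa ≤ K * (B.d n ^ (δ + δc / 2) * cr 1 n) := mul_le_mul hrK h5 hSa0.le hK0.le
      _ = B.d n ^ (δc / 2) * cr 1 n := by
          rw [hK, ← mul_assoc, ← Dp76.dpow_add]
          congr 2; ring
  have hq4 : Y / r * Sb ≤ B.d n ^ (δc / 2) * cr 2 n := by
    have h5 : Sb ≤ B.d n ^ (δc / 2) * cr 2 n := by rw [hSb]; exact hcr2.2
    refine le_trans ?_ h5
    calc Y / r * Sb ≤ 1 * Sb := mul_le_mul_of_nonneg_right ((div_le_one hr).2 hYr) hSb0.le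
      _ = Sb := one_mul _
  have hq5 : ∀ k, wr k n ≤ ![Sy, r * Sa, Y / r * Sb] k ∧
      ![Sy, r * Sa, Y / r * Sb] k ≤ B.d n ^ (δc / 2) * cr k n := by
    intro k
    fin_cases k
    · refine ⟨?_, ?_⟩
      · show wr 0 n ≤ Sy
        rw [hSy]
        have := hwr0.1
        rwa [Real.rpow_zero, one_mul] at this
      · show Sy ≤ B.d n ^ (δc / 2) * cr 0 n
        rw [hSy]
        exact hcr0.2
    · exact ⟨hq1, hq3⟩
    · exact ⟨hq2, hq4⟩
  obtain ⟨T, hT⟩ : ∃ T, T = A n * tval q Rr ![Sy, r * Sa, Y / r * Sb] *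
      B.d n ^ (-(g * (p 0 - w0) + (1 - s) * (1 - (p 0 - w0)) + ε / 2)) := ⟨_, rfl⟩
  have hrSa : 0 < r * Sa := mul_pos hr hSa0
  have hYrSb : 0 < Y / r * Sb := mul_pos (div_pos hY hr) hSb0
  have hT0 : 0 ≤ T := by
    rw [hT]
    have : 0 ≤ tval q Rr ![Sy, r * Sa, Y / r * Sb] := by
      unfold tval
      simp only [Matrix.cons_val]
      positivity
    have := dpp (-(g * (p 0 - w0) + (1 - s) * (1 - (p 0 - w0)) + ε / 2))
    positivity
  have hgrp := card_grp Q (fun j => α * (dt (F 1) ((L n j.1).pos x.2 - (L n x.1).pos x.2) / Sa) +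
      β * (dt (F 2) ((L n j.1).pos x.2 - (L n x.1).pos x.2) / Sb)) hY hY1 hK1 (fun j hj => by
        obtain ⟨-, -, q2, q3, -⟩ := fac j hj
        have m : ∀ {t u S : ℝ}, 0 < S → |t| ≤ K → |u| ≤ K * S → |t * (u / S)| ≤ K ^ 2 := by
          intro t u S hS h1 h2
          rw [abs_mul, abs_div, abs_of_pos hS, pow_two]
          refine mul_le_mul h1 ?_ (by positivity) hK0.le
          rw [div_le_iff₀ hS]
          exact h2
        calc |_ + _| ≤ _ := abs_add_le _ _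
          _ ≤ K ^ 2 + K ^ 2 := add_le_add (m hSa0 hα q2) (m hSb0 hβ q3)
          _ = 2 * K ^ 2 := by ring) hT0 (fun Q' hQ' hcl => by
        rcases Q'.eq_empty_or_nonempty with hemp | ⟨j1, hj1⟩
        · rw [hemp]; simpa using hT0
        · have hsz : (∀ y ∈ Q', InTube L n (L n j1.1) x.2 G
              (B.d n ^ (p 0 - w0) * rho (lev n 0)) ![Sy, r * Sa, Y / r * Sb]
              (B.d n ^ (-δ1)) y) := by
            intro j hj
            have hk := hG (L n x.1) (L n j1.1) (L n j.1) x.2 (by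
              intro s hs
              rcases hs with rfl | hs
              · exact (fac j1 (hQ' hj1)).2
              · rw [Set.mem_singleton_iff.1 hs]
                exact (fac j (hQ' hj)).2) (hcl j hj j1 hj1)
            rw [hRe]
            refine ⟨(fac j (hQ' hj)).1.trans (mul_le_mul_of_nonneg_right hKδ hRr0.le),
              fun k => ?_⟩
            have hpos : 0 ≤ (![Sy, r * Sa, Y / r * Sb] : Fin 3 → ℝ) k := by
              fin_cases k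
              · exact hSy0.le
              · exact hrSa.le
              · exact hYrSb.le
            exact ⟨(hk k).1.trans (mul_le_mul_of_nonneg_right hK8 hpos),
              (hk k).2.trans (mul_le_mul_of_nonneg_right hK8 hpos)⟩
          have hcount := hn ![Sy, r * Sa, Y / r * Sb] hSy0 hrSa hYrSb ?_ ?_ ?_ ?_ hq5
            (L n j1.1) x.2 G Q' (hQ'.trans hQI) (fun k i => (hGle k i).trans hKδ) ?_ hsz
          · rw [hRe] at hcount
            rw [hT]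
            exact hcount
          · -- thickness below the narrow width
            show Sy ≤ B.d n ^ (-δ1) * (Y / r * Sb)
            have e1 : Y * Sb ≤ K * (Y / r * Sb) := by
              have : Y * Sb = r * (Y / r * Sb) := by field_simp
              rw [this]
              exact mul_le_mul_of_nonneg_right hrK hYrSb.le
            calc Sy ≤ K * (Y * Sb) := hYS
              _ ≤ K * (K * (Y / r * Sb)) := mul_le_mul_of_nonneg_left e1 hK0.le
              _ = K * K * (Y / r * Sb) := by ring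
              _ ≤ _ := mul_le_mul_of_nonneg_right hK2δ hYrSb.le
          · show Y / r * Sb ≤ B.d n ^ (-δ1) * (r * Sa)
            exact hrab.trans (mul_le_mul_of_nonneg_right hKδ hrSa.le)
          · show r0 n ≤ B.d n ^ (-δ1) * Sy
            exact hres.trans (mul_le_mul_of_nonneg_right hKδ hSy0.le)
          · show r * Sa ≤ B.d n ^ (p 0 - w0 + δc / 2) * rho (lev n 0)
            calc r * Sa ≤ K * (B.d n ^ (p 0 - w0 + δc) * rho (lev n 0)) :=
                  mul_le_mul hrK hcapn hSa0.le hK0.le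
              _ = B.d n ^ (p 0 - w0 + δc - δ) * rho (lev n 0) := by
                  rw [hK, ← mul_assoc, ← Dp76.dpow_add]
                  congr 2; ring
              _ ≤ _ := mul_le_mul_of_nonneg_right (Dp76.dpow_le B n (by linarith)) hρ.le
          · rw [hGdet, mul_one]
            exact hK1.trans hKδ)
  refine hgrp.trans ?_
  -- the value
  have hval := tval_strip (q := q) hRr0 hSy0 hSa0 hSb0 hY hY1 hr hrK hYr hK1 hm1 hm2
  have hvS : tval q Rr ![Sy, Sa, Sb] = vm n 0 *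
      B.d n ^ (-(9 * w0) - (3 * w0 * q 0 + w0 * q 1 + 2 * w0 * q 2) + Dp q p) := by
    rw [← tval_SQ h0 h1 h2 hvm, hRe, hSy, hSa, hSb]
    unfold tval
    simp only [Matrix.cons_val]
  have hcst : 6 * K ^ 2 * K ^ |q 1 - q 2| ≤ B.d n ^ (-(ε / 2)) := by
    have e1 : K ^ 3 * K ^ |q 1 - q 2| = B.d n ^ (-(δ * (3 + κ))) := by
      rw [hK, ← Real.rpow_natCast, ← Real.rpow_mul hd.le, ← Real.rpow_mul hd.le, ← Dp76.dpow_add,
        ← hκ]
      congr 1; push_cast; ring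
    calc 6 * K ^ 2 * K ^ |q 1 - q 2| ≤ K ^ 3 * K ^ |q 1 - q 2| := by
          refine mul_le_mul_of_nonneg_right ?_ (Real.rpow_nonneg hK0.le _)
          have : K ^ 3 = K * K ^ 2 := by ring
          rw [this]
          exact mul_le_mul_of_nonneg_right (by linarith) (by positivity)
      _ = B.d n ^ (-(δ * (3 + κ))) := e1
      _ ≤ _ := Dp76.dpow_le B n (by linarith)
  have hYq : 0 ≤ Y ^ qm := Real.rpow_nonneg hY.le _
  have hv0 : 0 ≤ tval q Rr ![Sy, Sa, Sb] := by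
    unfold tval
    simp only [Matrix.cons_val]
    positivity
  rw [hT]
  calc 6 * K ^ 2 / Y * (A n * tval q Rr ![Sy, r * Sa, Y / r * Sb] *
        B.d n ^ (-(g * (p 0 - w0) + (1 - s) * (1 - (p 0 - w0)) + ε / 2)))
      ≤ 6 * K ^ 2 / Y * (A n * (tval q Rr ![Sy, Sa, Sb] * (Y * Y ^ qm) * K ^ |q 1 - q 2|) *
        B.d n ^ (-(g * (p 0 - w0) + (1 - s) * (1 - (p 0 - w0)) + ε / 2))) := by
        refine mul_le_mul_of_nonneg_left ?_ (by positivity)
        exact mul_le_mul_of_nonneg_right (mul_le_mul_of_nonneg_left hval hAp.le) (dpp _).le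
    _ = (6 * K ^ 2 * K ^ |q 1 - q 2|) * (A n * tval q Rr ![Sy, Sa, Sb] * Y ^ qm *
        B.d n ^ (-(g * (p 0 - w0) + (1 - s) * (1 - (p 0 - w0)) + ε / 2))) := by
        field_simp
    _ ≤ B.d n ^ (-(ε / 2)) * (A n * tval q Rr ![Sy, Sa, Sb] * Y ^ qm *
        B.d n ^ (-(g * (p 0 - w0) + (1 - s) * (1 - (p 0 - w0)) + ε / 2))) := by
        refine mul_le_mul_of_nonneg_right hcst ?_
        have := dpp (-(g * (p 0 - w0) + (1 - s) * (1 - (p 0 - w0)) + ε / 2))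
        positivity
    _ = N0Q A vm n * B.d n ^ (-(DQ g s q w0 p + ε)) * Y ^ qm := by
        rw [hvS]
        have e5 : B.d n ^ (-(ε / 2)) * (A n * (vm n 0 *
            B.d n ^ (-(9 * w0) - (3 * w0 * q 0 + w0 * q 1 + 2 * w0 * q 2) + Dp q p)) * Y ^ qm *
            B.d n ^ (-(g * (p 0 - w0) + (1 - s) * (1 - (p 0 - w0)) + ε / 2))) =
            A n * vm n 0 * (B.d n ^ (-(ε / 2)) *
              B.d n ^ (-(9 * w0) - (3 * w0 * q 0 + w0 * q 1 + 2 * w0 * q 2) + Dp q p) *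
              B.d n ^ (-(g * (p 0 - w0) + (1 - s) * (1 - (p 0 - w0)) + ε / 2))) * Y ^ qm := by
          ring
        rw [e5, ← Dp76.dpow_add, ← Dp76.dpow_add]
        unfold N0Q
        congr 3
        unfold DQ Dp
        ring

end

end Crest.Agent.R136.Str186
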