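import Crest.Agent.R136.Str3_186
import Crest.Agent.R136.NatD_550

/-!
# R136: heavy strips of the velocities are rare (helper186), (S1) of T.C3

* `HeavyS` : the class of `i` has a strip of relative width `d^y` which carries a share `d^δ`;
* `strip_rare` : over `NatT_550.Thick`, for every sub-family `J` of the sample.
-/

set_option autoImplicit false
set_option linter.unusedVariables false

open Finset Filter Topology

namespace Crest.Agent.R136.Str186

open Crest.Agent.R138.Ex926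
open Crest.Agent.R138.Mk163 (zc zl rho alive)
open Crest.Agent.R138
open Crest.Agent.R136.MkA627
open Crest.Agent.R136.Net191
open Crest.Agent.R136.NetQ186
open Crest.Agent.R136.GeoQ186
open Crest.Agent.R136.Wq638
open Crest.Agent.R136.Lq196
open Crest.Agent.R136.Top484
open Crest.Agent.R136.NatT550
open Crest.Agent.R136.NatR550
open Crest.Agent.R136.NatD550
open Crest.Agent.R136.PqG464 (pow_lev zc_near ev_const)

/-! ### finite part -/

open Classical in
/-- choice of one heavy subset per label -/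
theorem heavy_sum {ι κ : Type*} [DecidableEq ι] [DecidableEq κ] (I : Finset ι) (lab : ι → κ)
    (H : Finset ι) (hH : H ⊆ I) (S : κ → Finset ι) {θ : ℝ}
    (hθ : 0 ≤ θ) (hS : ∀ i ∈ H,
      θ * ((I.filter fun j => lab j = lab i).card : ℝ) ≤
        ((I.filter fun j => lab j = lab i ∧ j ∈ S (lab i)).card : ℝ)) :
    θ * (H.card : ℝ) ≤
      ((I.filter fun j => lab j ∈ H.image lab ∧ j ∈ S (lab j)).card : ℝ) := by
  obtain ⟨J, hJ⟩ : ∃ J, J = I.filter fun j => lab j ∈ H.image lab ∧ j ∈ S (lab j) := ⟨_, rfl⟩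
  rw [← hJ]
  have e1 : (H.card : ℝ) = ∑ c ∈ H.image lab, ((H.filter fun j => lab j = c).card : ℝ) := by
    rw [Finset.card_eq_sum_card_image lab H]
    push_cast; rfl
  have hmap : ∀ j ∈ J, lab j ∈ H.image lab := by
    intro j hj
    rw [hJ] at hj
    exact (mem_filter.1 hj).2.1
  have e2 : (J.card : ℝ) = ∑ c ∈ H.image lab, ((J.filter fun j => lab j = c).card : ℝ) := by
    rw [Finset.card_eq_sum_card_fiberwise hmap]
    push_cast; rfl
  rw [e1, e2, Finset.mul_sum]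
  refine Finset.sum_le_sum fun c hc => ?_
  obtain ⟨i, hi, rfl⟩ := mem_image.1 hc
  have h1 : ((H.filter fun j => lab j = lab i).card : ℝ) ≤
      ((I.filter fun j => lab j = lab i).card : ℝ) := by
    exact_mod_cast card_le_card (filter_subset_filter _ hH)
  refine (mul_le_mul_of_nonneg_left h1 hθ).trans ((hS i hi).trans ?_)
  exact_mod_cast card_le_card (by
    intro j hj
    obtain ⟨a1, a2, a3⟩ := mem_filter.1 hj
    rw [mem_filter, hJ, mem_filter, a2]
    exact ⟨⟨a1, mem_image_of_mem _ hi, a3⟩, rfl⟩)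

/-- one of the two coefficients is large -/
theorem coef_or {b0 b1 η K : ℝ} (hK : 1 ≤ K) (hb : b0 ^ 2 + b1 ^ 2 = 1) (hη : |η| ≤ K) :
    1 ≤ 8 * K * |b0 + b1 * η| ∨ 1 ≤ 8 * K * |b1| := by
  by_cases h : 1 ≤ 8 * K * |b1|
  · exact Or.inr h
  · left
    push Not at h
    have hb1 : |b1| < 1 / 8 := by
      have h1 : 8 * |b1| ≤ 8 * K * |b1| := by nlinarith [abs_nonneg b1]
      linarith
    have hb1η : |b1 * η| ≤ 1 / 8 := by
      rw [abs_mul]
      have h2 : |b1| * |η| ≤ |b1| * K := mul_le_mul_of_nonneg_left hη (abs_nonneg _)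
      nlinarith
    have hb0 : 1 / 2 ≤ |b0| := by
      have h3 : b1 ^ 2 ≤ (1 / 8) ^ 2 := by
        rw [← sq_abs b1]
        exact pow_le_pow_left₀ (abs_nonneg _) hb1.le 2
      have h4 : b0 ^ 2 = |b0| ^ 2 := (sq_abs b0).symm
      by_contra h5
      push Not at h5
      have h6 : |b0| ^ 2 ≤ (1 / 2) ^ 2 := pow_le_pow_left₀ (abs_nonneg _) h5.le 2
      nlinarith
    have h7 : |b0| ≤ |b0 + b1 * η| + |b1 * η| := by
      calc |b0| = |(b0 + b1 * η) - b1 * η| := by ring_nf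
        _ ≤ _ := abs_sub _ _
    have h8 : 3 / 8 ≤ |b0 + b1 * η| := by linarith
    nlinarith

/-- the linear form seen from another base point -/
theorem strip_base {c5 c6 d5 d6 e5 e6 u b0 b1 D5 D6 : ℝ} (h5 : D5 ≠ 0) (h6 : D6 ≠ 0)
    (a5 : e5 = c5 + d5) (a6 : e6 = c6 + d6 + u * d5) :
    (b0 * e5 / D5 + b1 * e6 / D6) - (b0 * c5 / D5 + b1 * c6 / D6) =
      (b0 + b1 * (u * D5 / D6)) * (d5 / D5) + b1 * (d6 / D6) := by
  rw [a5, a6]
  field_simp
  ring

/-- exponents of a slot against a power -/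
theorem div_dp {d K v x e : ℝ} (hd : 0 < d) (hd1 : d < 1) (hK : 0 ≤ K) (h : |v| ≤ K * d ^ x)
    (he : e ≤ x - 0) {y : ℝ} (hy : y + e ≤ x) : |v / d ^ e| ≤ K * d ^ y := by
  have hp := dpos hd e
  rw [abs_div, abs_of_pos hp, div_le_iff₀ hp]
  calc |v| ≤ K * d ^ x := h
    _ ≤ K * d ^ (y + e) := mul_le_mul_of_nonneg_left (dle hd hd1 hy) hK
    _ = K * d ^ y * d ^ e := by rw [Real.rpow_add hd]; ring

/-! ### the theorem -/

open Classical in
/-- **the class of `i` has a heavy strip**: a strip of relative width `d ^ y` in the velocities seen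
from some element `i1` of the class, with a share `≥ d ^ δ` of the class -/
def HeavyS {ι κ : Type*} (I : Finset ι) (co : ι → ι → Fin 11 → ℝ) (lab : ι → κ) (d : ℝ)
    (x : Fin 11 → ℝ) (y δ : ℝ) (i : ι) : Prop :=
  ∃ i1 ∈ I, lab i1 = lab i ∧ ∃ b : Fin 2 → ℝ, b 0 ^ 2 + b 1 ^ 2 = 1 ∧
    d ^ δ * ((I.filter fun j => lab j = lab i).card : ℝ) ≤
      ((I.filter fun j => lab j = lab i ∧
        |b 0 * co i1 j 5 / d ^ x 5 + b 1 * co i1 j 6 / d ^ x 6| ≤ d ^ y).card : ℝ)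

section

variable {η : ℝ} {p : Par4} {D : Dat4} {I1 : ℕ → Finset (ℕ × ℝ)} {π : Equiv.Perm (Fin 3)}
  {eE fA fB : ℕ → ℕ × ℝ → ℝ} {V T : Fin 11 → Prop} {w0 R T0 : ℝ} {PD : Set (Fin 11 → ℝ)}
  {ν own : (Fin 11 → ℝ) → ℝ} {c₀ : ℝ}

/-- the thickness is below the width of the strip -/
theorem sq_strip {B : Base} {r0 : ℕ → ℝ} {lev : ℕ → ℚ → ℕ} {w : Fin 3 → ℕ → ℚ → ℝ}
    {cab cby cr cc : ℝ} (hW : W0 B r0 lev w cab cby cr cc) {rc : Fin 11 → ℝ} {y : ℝ}
    (o2 : rc 9 + y + w0 ≤ rc 10 + cby) {ε : ℝ} (hε : 0 < ε) : ∀ᶠ n in (U : Filter ℕ),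
      SQ B lev w w0 rc 0 n ≤ B.d n ^ (-ε) * (B.d n ^ y * SQ B lev w w0 rc 2 n) := by
  filter_upwards [hW.by' ε hε, hW.pos 2] with n h1 h2
  have H := uH_pos (B := B) (lev := lev) (w0 := w0) n
  have hρ : 0 < rho (lev n 0) := rho_pos _
  have dpp := fun a => Dp76.dpow_pos B n a
  show uY B lev w w0 n * B.d n ^ rc 10 / uH B lev w0 n ≤
    B.d n ^ (-ε) * (B.d n ^ y * (uB B lev w w0 n * B.d n ^ rc 9 / uH B lev w0 n))
  rw [← mul_div_assoc, ← mul_div_assoc]
  refine div_le_div_of_nonneg_right ?_ H.le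
  unfold uY uB
  have c0 : 0 ≤ B.d n ^ (-(3 * w0)) * B.d n ^ rc 10 / rho (lev n 0) :=
    (div_pos (mul_pos (dpp _) (dpp _)) hρ).le
  calc w 0 n 0 / rho (lev n 0) * B.d n ^ (-(3 * w0)) * B.d n ^ rc 10 =
        w 0 n 0 * (B.d n ^ (-(3 * w0)) * B.d n ^ rc 10 / rho (lev n 0)) := by ring
    _ ≤ B.d n ^ (cby - ε) * w 2 n 0 * (B.d n ^ (-(3 * w0)) * B.d n ^ rc 10 / rho (lev n 0)) :=
        mul_le_mul_of_nonneg_right h1 c0
    _ = B.d n ^ (cby - ε + -(3 * w0) + rc 10) * (w 2 n 0 / rho (lev n 0)) := by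
        rw [Dp76.dpow_add, Dp76.dpow_add]; ring
    _ ≤ B.d n ^ (-ε + y + -(2 * w0) + rc 9) * (w 2 n 0 / rho (lev n 0)) :=
        mul_le_mul_of_nonneg_right (Dp76.dpow_le B n (by linarith)) (div_pos h2 hρ).le
    _ = _ := by rw [Dp76.dpow_add, Dp76.dpow_add, Dp76.dpow_add]; ring

end

end Crest.Agent.R136.Str186
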