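import Crest.Agent.R136.Str4_186

/-!
# R136: heavy strips of the velocities are rare (helper186), (S1) of T.C3

* `strip_fib` : count of one strip of a fine class of the sample;
* `strip_rare` : over `NatT_550.Thick`, for every sub-family `J` of the sample.
-/

set_option autoImplicit false
set_option linter.unusedVariables false

open Finset Filter Topology

namespace Crest.Agent.R136.Str186

open Crest.Agent.R138.Ex926
open Crest.Agent.R138.Mk163 (zc zl rho alive)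
open Crest.Agent.R138
open Crest.Agent.R136.MkA627
open Crest.Agent.R136.Net191
open Crest.Agent.R136.NetQ186
open Crest.Agent.R136.GeoQ186
open Crest.Agent.R136.Wq638
open Crest.Agent.R136.Lq196
open Crest.Agent.R136.Top484
open Crest.Agent.R136.NatT550
open Crest.Agent.R136.NatR550
open Crest.Agent.R136.NatD550
open Crest.Agent.R136.PqG464 (pow_lev zc_near ev_const)

section

variable {η : ℝ} {p : Par4} {D : Dat4} {I1 : ℕ → Finset (ℕ × ℝ)} {π : Equiv.Perm (Fin 3)}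
  {eE fA fB : ℕ → ℕ × ℝ → ℝ} {V T : Fin 11 → Prop} {w0 R T0 : ℝ} {PD : Set (Fin 11 → ℝ)}
  {ν own : (Fin 11 → ℝ) → ℝ} {c₀ : ℝ}

/-- additivity of the entries `2`, `5`, `6` -/
theorem cou_add (B : Base) (lev : ℕ → ℚ → ℕ) (w : Fin 3 → ℕ → ℚ → ℝ) (w0 : ℝ)
    (F : ℕ → ℕ × ℝ → Fq4) (n : ℕ) (i j l : ℕ × ℝ) :
    couQ B lev w w0 F n i l 5 = couQ B lev w w0 F n i j 5 + couQ B lev w w0 F n j l 5 ∧
    couQ B lev w w0 F n i l 6 = couQ B lev w w0 F n i j 6 + couQ B lev w w0 F n j l 6 +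
      couQ B lev w w0 F n i j 2 * couQ B lev w w0 F n j l 5 := by
  unfold couQ
  obtain ⟨-, -, -, -, -, a5, a6, -⟩ := coQ_add
    (scl (uH B lev w0 n) (uA B lev w w0 n) (uB B lev w w0 n) (uY B lev w w0 n) (F n i))
    (scl (uH B lev w0 n) (uA B lev w w0 n) (uB B lev w w0 n) (uY B lev w w0 n) (F n j))
    (scl (uH B lev w0 n) (uA B lev w w0 n) (uB B lev w w0 n) (uY B lev w w0 n) (F n l))
  exact ⟨a5, a6⟩

open Classical in
set_option maxHeartbeats 1000000 in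
/-- **one strip of a fine class** : `Q ⊆` sample inside one class at `rc` and one class at `x`,
all in one strip seen from an element `i1` of the class at `x` -/
theorem strip_fib (h : Thick η p D I1 π eE fA fB V T w0 R T0 PD ν own c₀) (hq : ∀ j, 0 ≤ p.q j)
    {qm : ℝ} (hm1 : qm ≤ p.q 1) (hm2 : qm ≤ p.q 2) {cab cby cr cc : ℝ} (hW : W0 D.B D.r0 D.lev D.w cab cby cr cc)
    {x rc : Fin 11 → ℝ} (hx : x ∈ Leg monQ R) (hrc : rc ∈ Leg monQ R) (hle : x ≤ rc)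
    (h5 : x 5 = rc 5) (h6 : x 6 = rc 6) (w8 : rc 8 = rc 0 + rc 5) (w9 : rc 9 = rc 0 + rc 6)
    (hp0 : w0 ≤ rc 0) (hp1 : rc 0 ≤ w0 + 1) {y : ℝ} (hy : 0 ≤ y)
    (o1 : rc 8 + w0 ≤ rc 9 + cab) (o2 : rc 9 + y + w0 ≤ rc 10 + cby) (o3 : rc 10 ≤ cr + 4 * w0)
    (o4 : rc 0 + w0 < rc 8 + cc) (y5 : y + rc 5 ≤ R) (y6 : y + rc 6 ≤ R) {ε : ℝ} (hε : 0 < ε) :
    ∀ᶠ n in (U : Filter ℕ), ∀ Q : Finset (ℕ × ℝ), Q ⊆ I1 n → ∀ j0 ∈ Q, ∀ i1 ∈ I1 n,
      ∀ b : Fin 2 → ℝ, b 0 ^ 2 + b 1 ^ 2 = 1 →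
      nlab D.B D.I (couQ D.B D.lev D.w w0 (incQ π D.L eE fA fB)) monQ 2 n x i1 =
        nlab D.B D.I (couQ D.B D.lev D.w w0 (incQ π D.L eE fA fB)) monQ 2 n x j0 →
      (∀ j ∈ Q, nlab D.B D.I (couQ D.B D.lev D.w w0 (incQ π D.L eE fA fB)) monQ 2 n rc j0 =
          nlab D.B D.I (couQ D.B D.lev D.w w0 (incQ π D.L eE fA fB)) monQ 2 n rc j ∧
        |b 0 * couQ D.B D.lev D.w w0 (incQ π D.L eE fA fB) n i1 j 5 / D.B.d n ^ x 5 +
          b 1 * couQ D.B D.lev D.w w0 (incQ π D.L eE fA fB) n i1 j 6 / D.B.d n ^ x 6| ≤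
            D.B.d n ^ y) →
      (Q.card : ℝ) ≤ D.B.d n ^ (-(c₀ + DQ p.g 0 p.q w0 rc - qm * y + 2 * ε)) := by
  obtain ⟨-, -, g6, -, -, -, -, -, -, w10, -, -⟩ := legalQ_iff.1 hrc.1
  obtain ⟨n0, -, x6, -⟩ := legalQ_iff.1 hx.1
  obtain ⟨δ1, hδ1, hsc⟩ := strip_count h.tp.pre.mka y hq hm1 hm2 (fun n y hy => (h.tp.flag n y hy).1)
    (fun n y hy => (h.tp.flag n y hy).2.1) (fun n y hy => (h.tp.flag n y hy).2.2) w8 w9 w10 hp0 hp1
    (tubeOk_ord h.tp.wrs hW.pos (ord_W0 hW o1 (by linarith) o3 o4)) hε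
  have hC : (0 : ℝ) ≤ 2 := by norm_num
  obtain ⟨K0, hK0e⟩ : ∃ K0, K0 = cK0 monQ 2 := ⟨_, rfl⟩
  have hK0 : 1 ≤ K0 := by rw [hK0e]; exact cK0_one hC
  obtain ⟨KR, hKRe⟩ : ∃ KR, KR = triC monQ 2 K0 := ⟨_, rfl⟩
  have hKR : K0 ≤ KR := by rw [hKRe]; exact triC_ge hC hK0
  have hKR1 : 1 ≤ KR := hK0.trans hKR
  obtain ⟨KT, hKTe⟩ : ∃ KT, KT = triC monQ 2 KR := ⟨_, rfl⟩
  have hKT : KR ≤ KT := by rw [hKTe]; exact triC_ge hC hKR1
  obtain ⟨K3, hK3⟩ : ∃ K3, K3 = 8 * KT + 2 + 2 * ((1 + K0) * KR) := ⟨_, rfl⟩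
  have hKT0 : 0 < KT := by linarith
  have hpp : 0 < (1 + K0) * KR := mul_pos (by linarith) (by linarith)
  have hK3KT : KT ≤ K3 := by
    rw [hK3]; linarith
  have hK3K0 : 8 * K0 ≤ K3 := by
    rw [hK3]; linarith
  have hK3pos : 0 < K3 := by linarith
  have hch := h.ext.chart
  filter_upwards [hsc, comb_count h hε, ev_const D.B (c := K3) hK3pos hδ1, sq_strip hW o2 hδ1]
    with n hscn hcc hK3n hsq Q hQ j0 hj0 i1 hi1 b hb hlab hQs
  have hd := D.B.pos n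
  have hd1 := D.B.lt n
  have dpp := fun a => Dp76.dpow_pos D.B n a
  have K3le := const_le hK3n
  obtain ⟨co, hco⟩ : ∃ co, co = couQ D.B D.lev D.w w0 (incQ π D.L eE fA fB) := ⟨_, rfl⟩
  rw [← hco] at hscn hcc hlab hQs hch
  have hadd : ∀ i j l, co n i l 5 = co n i j 5 + co n j l 5 ∧
      co n i l 6 = co n i j 6 + co n j l 6 + co n i j 2 * co n j l 5 := by
    intro i j l; rw [hco]; exact cou_add _ _ _ _ _ _ _ _ _
  have hIsub := h.ext.sub n
  have mj0 : j0 ∈ D.I n := hIsub (hQ hj0)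
  have mi1 : i1 ∈ D.I n := hIsub hi1
  -- base change
  have nx : Near (co n) (D.B.d n) x K0 i1 j0 := by
    rw [hK0e]; exact near_of_nlab hch hx.1 mi1 mj0 hlab
  obtain ⟨u, hu⟩ : ∃ u, u = co n i1 j0 2 := ⟨_, rfl⟩
  obtain ⟨α, hα⟩ : ∃ α, α = b 0 + b 1 * (u * D.B.d n ^ x 5 / D.B.d n ^ x 6) := ⟨_, rfl⟩
  have b0 : |b 0| ≤ 1 := by
    rw [← sq_le_one_iff_abs_le_one]; nlinarith [sq_nonneg (b 1)]
  have b1 : |b 1| ≤ 1 := by
    rw [← sq_le_one_iff_abs_le_one]; nlinarith [sq_nonneg (b 0)]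
  have hηb : |u * D.B.d n ^ x 5 / D.B.d n ^ x 6| ≤ K0 := by
    rw [abs_div, abs_mul, abs_of_pos (dpp (x 5)), abs_of_pos (dpp (x 6)), div_le_iff₀ (dpp _)]
    calc |u| * D.B.d n ^ x 5 ≤ K0 * D.B.d n ^ x 2 * D.B.d n ^ x 5 := by
          refine mul_le_mul_of_nonneg_right ?_ (dpp _).le
          rw [hu]; exact nx 2
      _ = K0 * D.B.d n ^ (x 2 + x 5) := by rw [Dp76.dpow_add]; ring
      _ ≤ K0 * D.B.d n ^ x 6 :=
          mul_le_mul_of_nonneg_left (Dp76.dpow_le D.B n x6) (by linarith)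
  have hαb : |α| ≤ 1 + K0 := by
    rw [hα]
    calc |_ + _| ≤ |b 0| + |b 1 * (u * D.B.d n ^ x 5 / D.B.d n ^ x 6)| := abs_add_le _ _
      _ ≤ 1 + 1 * K0 := by
          rw [abs_mul]
          exact add_le_add b0 (mul_le_mul b1 hηb (abs_nonneg _) zero_le_one)
      _ = 1 + K0 := by ring
  -- the strip seen from `j0`
  obtain ⟨ℓ, hℓ⟩ : ∃ ℓ : ℕ × ℝ → ℝ, ℓ = fun j => α * (co n j0 j 5 / D.B.d n ^ rc 5) +
      b 1 * (co n j0 j 6 / D.B.d n ^ rc 6) := ⟨_, rfl⟩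
  have hstrip : ∀ j ∈ Q, |ℓ j| ≤ 2 * D.B.d n ^ y := by
    intro j hj
    have e6 : co n i1 j 6 = co n i1 j0 6 + co n j0 j 6 + u * co n j0 j 5 := by
      rw [hu]; exact (hadd i1 j0 j).2
    have e := strip_base (b0 := b 0) (b1 := b 1) (u := u) (dpp (x 5)).ne' (dpp (x 6)).ne'
      (hadd i1 j0 j).1 e6
    have e2 : ℓ j = (b 0 * co n i1 j 5 / D.B.d n ^ x 5 + b 1 * co n i1 j 6 / D.B.d n ^ x 6) -
        (b 0 * co n i1 j0 5 / D.B.d n ^ x 5 + b 1 * co n i1 j0 6 / D.B.d n ^ x 6) := by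
      rw [e, hℓ, hα, ← h5, ← h6]
    rw [e2]
    calc |_ - _| ≤ _ := abs_sub _ _
      _ ≤ D.B.d n ^ y + D.B.d n ^ y := add_le_add (hQs j hj).2 (hQs j0 hj0).2
      _ = 2 * D.B.d n ^ y := by ring
  have hnrc : ∀ j ∈ Q, Near (co n) (D.B.d n) rc K0 j0 j := by
    intro j hj
    rw [hK0e]
    exact near_of_nlab hch hrc.1 mj0 (hIsub (hQ hj)) (hQs j hj).1
  obtain ⟨F, hF⟩ : ∃ F, F = (D.I n).filter fun j' => Near (co n) (D.B.d n) rc KT j0 j' ∧
      |ℓ j'| ≤ K3 * D.B.d n ^ y := ⟨_, rfl⟩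
  have hFc : (F.card : ℝ) ≤ N0Q D.A D.vm n *
      D.B.d n ^ (-(DQ p.g 0 p.q w0 rc + ε - qm * y)) := by
    have h8 : 8 * K0 ≤ D.B.d n ^ (-δ1) := hK3K0.trans K3le
    have hα' : |α| ≤ D.B.d n ^ (-δ1) := by
      refine hαb.trans (le_trans ?_ h8)
      linarith
    have hβ' : |b 1| ≤ D.B.d n ^ (-δ1) := b1.trans (le_trans (by linarith) h8)
    have hor : 1 ≤ D.B.d n ^ (-δ1) * |α| ∨ 1 ≤ D.B.d n ^ (-δ1) * |b 1| := by
      rcases coef_or hK0 hb hηb with hh | hh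
      · left
        rw [hα]
        exact hh.trans (mul_le_mul_of_nonneg_right h8 (abs_nonneg _))
      · right
        exact hh.trans (mul_le_mul_of_nonneg_right h8 (abs_nonneg _))
    have hY1 : D.B.d n ^ y ≤ 1 := Real.rpow_le_one hd.le hd1.le hy
    have := hscn j0 mj0 (D.B.d n ^ y) (dpp _) hY1 le_rfl hsq α (b 1) hα' hβ' hor F
      (by rw [hF]; exact filter_subset _ _) (fun j' hj' => by
        rw [hF] at hj'
        obtain ⟨-, a1, a2⟩ := mem_filter.1 hj'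
        refine ⟨a1.mono hd (hK3KT.trans K3le), ?_⟩
        rw [hℓ] at a2
        exact a2.trans (mul_le_mul_of_nonneg_right K3le (dpp _).le))
    refine this.trans (le_of_eq ?_)
    rw [← Real.rpow_mul hd.le, mul_assoc, ← Dp76.dpow_add]
    congr 2; ring
  have hfin := hcc Q hQ F (by rw [hF]; exact filter_subset _ _) (fun i hi j' hj' hnear hz => by
    rw [hF, mem_filter]
    have mi : i ∈ D.I n := hIsub (hQ hi)
    rw [← hK0e, ← hKRe] at hnear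
    have hnear' : Near (co n) (D.B.d n) rc KR i j' :=
      hnear.anti hd hd1.le (by linarith) (p := rc) (fun k => hrc.2 k)
    refine ⟨hj', ?_, ?_⟩
    · rw [hKTe]
      exact (hch n).tri hrc.1 hd hd1.le hKR1 mj0 mi hj' ((hnrc i hi).mono hd hKR) hnear'
    · -- the strip
      have a5 := (hadd j0 i j').1
      have a6 := (hadd j0 i j').2
      have e : ℓ j' = ℓ i + (α * (co n i j' 5 / D.B.d n ^ rc 5) +
          b 1 * (co n i j' 6 / D.B.d n ^ rc 6) +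
          b 1 * (co n j0 i 2 * (co n i j' 5 / D.B.d n ^ rc 6))) := by
        rw [hℓ]
        simp only
        rw [a5, a6]
        ring
      have t5 : |co n i j' 5 / D.B.d n ^ rc 5| ≤ KR * D.B.d n ^ y :=
        div_dp hd hd1 (by linarith) (hnear 5) (by linarith) y5
      have t6 : |co n i j' 6 / D.B.d n ^ rc 6| ≤ KR * D.B.d n ^ y :=
        div_dp hd hd1 (by linarith) (hnear 6) (by linarith) y6
      have t56 : |co n i j' 5 / D.B.d n ^ rc 6| ≤ KR * D.B.d n ^ y :=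
        div_dp hd hd1 (by linarith) (hnear 5) (by linarith) y6
      have t2 : |co n j0 i 2| ≤ K0 := by
        refine (hnrc i hi 2).trans ?_
        have : D.B.d n ^ rc 2 ≤ 1 := Real.rpow_le_one hd.le hd1.le (hrc.1.nonneg 2)
        nlinarith
      have hy0 := dpp y
      have s1 : |α * (co n i j' 5 / D.B.d n ^ rc 5)| ≤ (1 + K0) * (KR * D.B.d n ^ y) := by
        rw [abs_mul]
        exact mul_le_mul hαb t5 (abs_nonneg _) (by linarith)
      have s2 : |b 1 * (co n i j' 6 / D.B.d n ^ rc 6)| ≤ 1 * (KR * D.B.d n ^ y) := by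
        rw [abs_mul]
        exact mul_le_mul b1 t6 (abs_nonneg _) zero_le_one
      have s3 : |b 1 * (co n j0 i 2 * (co n i j' 5 / D.B.d n ^ rc 6))| ≤
          1 * (K0 * (KR * D.B.d n ^ y)) := by
        rw [abs_mul, abs_mul]
        exact mul_le_mul b1 (mul_le_mul t2 t56 (abs_nonneg _) (by linarith)) (by positivity)
          zero_le_one
      rw [e]
      calc |_ + _| ≤ |ℓ i| + |α * (co n i j' 5 / D.B.d n ^ rc 5) +
            b 1 * (co n i j' 6 / D.B.d n ^ rc 6) +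
            b 1 * (co n j0 i 2 * (co n i j' 5 / D.B.d n ^ rc 6))| := abs_add_le _ _
        _ ≤ 2 * D.B.d n ^ y + ((1 + K0) * (KR * D.B.d n ^ y) + 1 * (KR * D.B.d n ^ y) +
            1 * (K0 * (KR * D.B.d n ^ y))) := by
            refine add_le_add (hstrip i hi) ?_
            exact (abs_add_three _ _ _).trans (add_le_add (add_le_add s1 s2) s3)
        _ = (2 + 2 * ((1 + K0) * KR)) * D.B.d n ^ y := by ring
        _ ≤ K3 * D.B.d n ^ y := by
            refine mul_le_mul_of_nonneg_right ?_ hy0.le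
            rw [hK3]; linarith) _ hFc
  refine hfin.trans (le_of_eq ?_)
  congr 1; ring

end

end Crest.Agent.R136.Str186
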