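import Crest.Agent.R136.Str5_186

/-!
# R136: heavy strips of the velocities are rare (helper186), (S1) of T.C3

* `strip_rare` : one width; `strip_rare_all` : all widths `0 ≤ y ≤ Ymax` at once;
* `strip_rare_rec` : the record box.
-/

set_option autoImplicit false
set_option linter.unusedVariables false

open Finset Filter Topology

namespace Crest.Agent.R136.Str186

open Crest.Agent.R138.Ex926
open Crest.Agent.R138.Mk163 (zc zl rho alive)
open Crest.Agent.R138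
open Crest.Agent.R136.MkA627
open Crest.Agent.R136.Net191
open Crest.Agent.R136.NetQ186
open Crest.Agent.R136.GeoQ186
open Crest.Agent.R136.Wq638
open Crest.Agent.R136.Lq196
open Crest.Agent.R136.Top484
open Crest.Agent.R136.NatT550
open Crest.Agent.R136.NatR550
open Crest.Agent.R136.NatD550
open Crest.Agent.R136.PqG464 (pow_lev zc_near ev_const)

section

variable {η : ℝ} {p : Par4} {D : Dat4} {I1 : ℕ → Finset (ℕ × ℝ)} {π : Equiv.Perm (Fin 3)}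
  {eE fA fB : ℕ → ℕ × ℝ → ℝ} {V T : Fin 11 → Prop} {w0 R T0 : ℝ} {PD : Set (Fin 11 → ℝ)}
  {ν own : (Fin 11 → ℝ) → ℝ} {c₀ : ℝ}

open Classical in
/-- pairs of labels at two comparable boxes -/
theorem pair_labels {B : Base} {I0 : ℕ → Finset (ℕ × ℝ)}
    {co : ∀ n : ℕ, ℕ × ℝ → ℕ × ℝ → Fin 11 → ℝ} {C : ℝ} (h : ∀ n, Chart (I0 n) (co n) monQ C)
    (h0 : 0 ≤ C) {x rc : Fin 11 → ℝ} (hx : Legal monQ x) (hrc : Legal monQ rc) (hle : x ≤ rc)
    (n : ℕ) {J1 : Finset (ℕ × ℝ)} (hJ1 : J1 ⊆ I0 n) :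
    (((J1.image fun j => (nlab B I0 co monQ C n rc j, nlab B I0 co monQ C n x j)).card : ℕ) : ℝ) ≤
      cN monQ C (cK0 monQ C) * ((J1.image (nlab B I0 co monQ C n rc)).card : ℝ) := by
  have hd := B.pos n
  have hd1 := B.lt n
  refine card_image_le_mul J1 _ _ fun j0 hj0 => ?_
  have hsub : (cls J1 (nlab B I0 co monQ C n rc) j0).image
      (fun j => (nlab B I0 co monQ C n rc j, nlab B I0 co monQ C n x j)) ⊆
      (((I0 n).filter fun j => Near (co n) (B.d n) x (cK0 monQ C) j0 j).image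
        (nlab B I0 co monQ C n x)).image (fun c => (nlab B I0 co monQ C n rc j0, c)) := by
    intro a ha
    obtain ⟨j, hj, rfl⟩ := mem_image.1 ha
    obtain ⟨hj1, hj2⟩ := mem_cls.1 hj
    refine mem_image.2 ⟨nlab B I0 co monQ C n x j, mem_image_of_mem _ (mem_filter.2
      ⟨hJ1 hj1, ?_⟩), by rw [hj2]⟩
    exact (near_of_nlab h hrc (hJ1 hj0) (hJ1 hj1) hj2.symm).anti hd hd1.le
      (by have := cK0_one (M := monQ) h0; linarith) hle
  have h1 : (((cls J1 (nlab B I0 co monQ C n rc) j0).image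
      (fun j => (nlab B I0 co monQ C n rc j, nlab B I0 co monQ C n x j))).card : ℝ) ≤
      ((((I0 n).filter fun j => Near (co n) (B.d n) x (cK0 monQ C) j0 j).image
        (nlab B I0 co monQ C n x)).card : ℝ) := by
    exact_mod_cast (card_le_card hsub).trans card_image_le
  refine h1.trans ?_
  have h2 := card_nlab_le (B := B) h hx hx le_rfl (cK0_one (M := monQ) h0) (hJ1 hj0)
  refine h2.trans (le_of_eq ?_)
  simp

open Classical in
/-- **heavy strips of the velocities are rare.** -/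
theorem strip_rare (h : Thick η p D I1 π eE fA fB V T w0 R T0 PD ν own c₀) (hq : ∀ j, 0 ≤ p.q j)
    {qm : ℝ} (hm1 : qm ≤ p.q 1) (hm2 : qm ≤ p.q 2) {cab cby cr cc : ℝ} (hW : W0 D.B D.r0 D.lev D.w cab cby cr cc)
    {x rc : Fin 11 → ℝ} (hx : x ∈ Leg monQ R) (hrc : rc ∈ Leg monQ R) (hle : x ≤ rc)
    (h5 : x 5 = rc 5) (h6 : x 6 = rc 6) (w8 : rc 8 = rc 0 + rc 5) (w9 : rc 9 = rc 0 + rc 6)
    (hp0 : w0 ≤ rc 0) (hp1 : rc 0 ≤ w0 + 1) {y : ℝ} (hy : 0 ≤ y)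
    (o1 : rc 8 + w0 ≤ rc 9 + cab) (o2 : rc 9 + y + w0 ≤ rc 10 + cby) (o3 : rc 10 ≤ cr + 4 * w0)
    (o4 : rc 0 + w0 < rc 8 + cc) (y5 : y + rc 5 ≤ R) (y6 : y + rc 6 ≤ R) {δ : ℝ}
    (hδ : δ + (c₀ + DQ p.g 0 p.q w0 rc - ν rc) < qm * y) :
    ∃ δ' : ℝ, 0 < δ' ∧ ∀ᶠ n in (U : Filter ℕ), ∀ J : Finset (ℕ × ℝ), J ⊆ I1 n →
      ((J.filter fun i => HeavyS J (couQ D.B D.lev D.w w0 (incQ π D.L eE fA fB) n)
        (nlab D.B D.I (couQ D.B D.lev D.w w0 (incQ π D.L eE fA fB)) monQ 2 n x) (D.B.d n) x y δ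
          i).card : ℝ) ≤ D.B.d n ^ δ' * ((I1 n).card : ℝ) := by
  obtain ⟨loss, hloss⟩ : ∃ loss : ℝ, loss = qm * y -
      (δ + (c₀ + DQ p.g 0 p.q w0 rc - ν rc)) := ⟨_, rfl⟩
  have hl0 : 0 < loss := by rw [hloss]; linarith
  have hε : 0 < loss / 8 := by linarith
  refine ⟨loss / 2, by linarith, ?_⟩
  have hC : (0 : ℝ) ≤ 2 := by norm_num
  have hcN : 0 < cN monQ 2 (cK0 monQ 2) := cN_pos monQ hC (cK0_one hC)
  have hch := h.ext.chart
  filter_upwards [strip_fib h hq hm1 hm2 hW hx hrc hle h5 h6 w8 w9 hp0 hp1 hy o1 o2 o3 o4 y5 y6 hε,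
    h.ext.prof.root _ hε, ev_const D.B (c := cN monQ 2 (cK0 monQ 2)) hcN hε]
    with n hfib hroot hKN J hJ
  have hroot' := hroot rc hrc
  have hKN' := const_le hKN
  have hd := D.B.pos n
  have hd1 := D.B.lt n
  have dpp := fun a => Dp76.dpow_pos D.B n a
  have hIsub := h.ext.sub n
  obtain ⟨co, hco⟩ : ∃ co, co = couQ D.B D.lev D.w w0 (incQ π D.L eE fA fB) := ⟨_, rfl⟩
  rw [← hco] at hfib hch hroot'
  rw [← hco]
  obtain ⟨H, hH⟩ : ∃ H, H = J.filter fun i => HeavyS J (co n) (nlab D.B D.I co monQ 2 n x)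
      (D.B.d n) x y δ i := ⟨_, rfl⟩
  rw [← hH]
  have hc : ∀ c : ℕ × ℝ, ∃ ib : (ℕ × ℝ) × (Fin 2 → ℝ),
      c ∈ H.image (nlab D.B D.I co monQ 2 n x) → ib.1 ∈ J ∧ nlab D.B D.I co monQ 2 n x ib.1 = c ∧
      ib.2 0 ^ 2 + ib.2 1 ^ 2 = 1 ∧
      D.B.d n ^ δ * ((J.filter fun j => nlab D.B D.I co monQ 2 n x j = c).card : ℝ) ≤
        ((J.filter fun j => nlab D.B D.I co monQ 2 n x j = c ∧
          |ib.2 0 * co n ib.1 j 5 / D.B.d n ^ x 5 + ib.2 1 * co n ib.1 j 6 / D.B.d n ^ x 6| ≤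
            D.B.d n ^ y).card : ℝ) := by
    intro c
    by_cases hc : c ∈ H.image (nlab D.B D.I co monQ 2 n x)
    · obtain ⟨i, hi, rfl⟩ := mem_image.1 hc
      rw [hH] at hi
      obtain ⟨-, i1, hi1, e, b, hb, hcount⟩ := mem_filter.1 hi
      exact ⟨(i1, b), fun _ => ⟨hi1, e, hb, by convert hcount⟩⟩
    · exact ⟨((0, 0), 0), fun h => absurd h hc⟩
  choose ib hib using hc
  obtain ⟨S, hS⟩ : ∃ S : ℕ × ℝ → Finset (ℕ × ℝ), S = fun c => J.filter fun j =>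
      |(ib c).2 0 * co n (ib c).1 j 5 / D.B.d n ^ x 5 +
        (ib c).2 1 * co n (ib c).1 j 6 / D.B.d n ^ x 6| ≤ D.B.d n ^ y := ⟨_, rfl⟩
  obtain ⟨J1, hJ1⟩ : ∃ J1, J1 = J.filter fun j => nlab D.B D.I co monQ 2 n x j ∈
      H.image (nlab D.B D.I co monQ 2 n x) ∧ j ∈ S (nlab D.B D.I co monQ 2 n x j) := ⟨_, rfl⟩
  have s1 : D.B.d n ^ δ * (H.card : ℝ) ≤ (J1.card : ℝ) := by
    rw [hJ1]
    refine heavy_sum J (nlab D.B D.I co monQ 2 n x) H (by rw [hH]; exact filter_subset _ _) S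
      (dpp δ).le fun i hi => ?_
    obtain ⟨-, -, -, h4⟩ := hib (nlab D.B D.I co monQ 2 n x i) (mem_image_of_mem _ hi)
    refine h4.trans ?_
    exact_mod_cast card_le_card (by
      intro j hj
      obtain ⟨a1, a2, a3⟩ := mem_filter.1 hj
      rw [mem_filter, hS]
      exact ⟨a1, a2, mem_filter.2 ⟨a1, a3⟩⟩)
  have hJ1J : J1 ⊆ J := by rw [hJ1]; exact filter_subset _ _
  obtain ⟨pr, hpr⟩ : ∃ pr : ℕ × ℝ → (ℕ × ℝ) × (ℕ × ℝ), pr = fun j =>
      (nlab D.B D.I co monQ 2 n rc j, nlab D.B D.I co monQ 2 n x j) := ⟨_, rfl⟩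
  obtain ⟨T1, hT1⟩ : ∃ T1, T1 = D.B.d n ^
      (-(c₀ + DQ p.g 0 p.q w0 rc - qm * y + 2 * (loss / 8))) := ⟨_, rfl⟩
  have hT10 : 0 < T1 := by rw [hT1]; exact dpp _
  have s2 : (J1.card : ℝ) ≤ ((J1.image pr).card : ℝ) * T1 := by
    rw [Finset.card_eq_sum_card_image pr J1]
    push_cast
    rw [← nsmul_eq_mul, ← Finset.sum_const]
    refine Finset.sum_le_sum fun a ha => ?_
    obtain ⟨j0, hj0, rfl⟩ := mem_image.1 ha
    have hj0' := hj0
    rw [hJ1] at hj0'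
    obtain ⟨-, m1, m2⟩ := mem_filter.1 hj0'
    obtain ⟨g1, g2, g3, -⟩ := hib _ m1
    rw [hT1]
    refine hfib (J1.filter fun j => pr j = pr j0) ((filter_subset _ _).trans (hJ1J.trans hJ)) j0
      (mem_filter.2 ⟨hj0, rfl⟩) (ib (nlab D.B D.I co monQ 2 n x j0)).1 (hJ g1)
      (ib (nlab D.B D.I co monQ 2 n x j0)).2 g3 g2 fun j hj => ?_
    obtain ⟨k1, k2⟩ := mem_filter.1 hj
    rw [hpr] at k2
    simp only [Prod.mk.injEq] at k2
    refine ⟨k2.1.symm, ?_⟩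
    rw [hJ1] at k1
    obtain ⟨-, -, k3⟩ := mem_filter.1 k1
    rw [k2.2, hS] at k3
    exact (mem_filter.1 k3).2
  have s3 : ((J1.image pr).card : ℝ) ≤ cN monQ 2 (cK0 monQ 2) *
      ((J1.image (nlab D.B D.I co monQ 2 n rc)).card : ℝ) := by
    rw [hpr]
    exact pair_labels hch hC hx.1 hrc.1 hle n (hJ1J.trans (hJ.trans hIsub))
  have s4 : ((J1.image (nlab D.B D.I co monQ 2 n rc)).card : ℝ) ≤
      (I1 n).card * D.B.d n ^ (ν rc - loss / 8) := by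
    refine le_trans ?_ hroot'
    refine le_trans ?_ (le_of_eq (by congr!))
    exact_mod_cast card_le_card (image_subset_image (hJ1J.trans hJ))
  have hI0 : (0 : ℝ) ≤ (I1 n).card := Nat.cast_nonneg _
  have s5 : D.B.d n ^ δ * (H.card : ℝ) ≤ D.B.d n ^ δ * (D.B.d n ^ (loss / 2) * (I1 n).card) := by
    calc D.B.d n ^ δ * (H.card : ℝ) ≤ ((J1.image pr).card : ℝ) * T1 := s1.trans s2
      _ ≤ (cN monQ 2 (cK0 monQ 2) * ((I1 n).card * D.B.d n ^ (ν rc - loss / 8))) * T1 :=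
          mul_le_mul_of_nonneg_right (s3.trans (mul_le_mul_of_nonneg_left s4 hcN.le)) hT10.le
      _ ≤ (D.B.d n ^ (-(loss / 8)) * ((I1 n).card * D.B.d n ^ (ν rc - loss / 8))) * T1 := by
          refine mul_le_mul_of_nonneg_right (mul_le_mul_of_nonneg_right hKN' ?_) hT10.le
          exact mul_nonneg hI0 (dpp _).le
      _ = D.B.d n ^ δ * (D.B.d n ^ (loss / 2) * (I1 n).card) := by
          rw [hT1]
          have e1 : D.B.d n ^ (-(loss / 8)) * ((I1 n).card * D.B.d n ^ (ν rc - loss / 8)) *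
              D.B.d n ^ (-(c₀ + DQ p.g 0 p.q w0 rc - qm * y + 2 * (loss / 8))) =
              (D.B.d n ^ (-(loss / 8)) * D.B.d n ^ (ν rc - loss / 8) *
              D.B.d n ^ (-(c₀ + DQ p.g 0 p.q w0 rc - qm * y + 2 * (loss / 8)))) *
                (I1 n).card := by ring
          rw [e1, ← Dp76.dpow_add, ← Dp76.dpow_add, ← mul_assoc, ← Dp76.dpow_add]
          congr 2
          rw [hloss]; ring
  exact le_of_mul_le_mul_left s5 (dpp δ)

end

end Crest.Agent.R136.Str186
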