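import Crest.Agent.R136.Str6_186

/-!
# R136: heavy strips of the velocities are rare (helper186), all widths at once

* `HeavyA` : some strip of some width `0 ≤ y ≤ Ym` carries more than `d^(q y - e)` of the class;
* `strip_rare_all`; `strip_good` : the classes without heavy strips, in the form `c n * #(J \ Gs) ≤ #J`
  for every sub-power `c`;
* `strip_rec`, `strip_rec_good` : the record box, sizes of the level-`0` mark from `Thick`.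
-/

set_option autoImplicit false
set_option linter.unusedVariables false

open Finset Filter Topology

namespace Crest.Agent.R136.Str186

open Crest.Agent.R138.Ex926
open Crest.Agent.R138.Mk163 (zc zl rho alive)
open Crest.Agent.R138
open Crest.Agent.R136.MkA627
open Crest.Agent.R136.Net191
open Crest.Agent.R136.NetQ186
open Crest.Agent.R136.GeoQ186
open Crest.Agent.R136.Wq638
open Crest.Agent.R136.Lq196
open Crest.Agent.R136.Top484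
open Crest.Agent.R136.NatT550
open Crest.Agent.R136.NatR550
open Crest.Agent.R136.NatD550
open Crest.Agent.R136.PqG464 (pow_lev zc_near ev_const)

open Classical in
/-- **the class of `i` has a heavy strip of some width** `d ^ y`, `0 ≤ y ≤ Ym` -/
def HeavyA {ι κ : Type*} (I : Finset ι) (co : ι → ι → Fin 11 → ℝ) (lab : ι → κ) (d : ℝ)
    (x : Fin 11 → ℝ) (Ym q e : ℝ) (i : ι) : Prop :=
  ∃ i1 ∈ I, lab i1 = lab i ∧ ∃ b : Fin 2 → ℝ, b 0 ^ 2 + b 1 ^ 2 = 1 ∧ ∃ y : ℝ, 0 ≤ y ∧ y ≤ Ym ∧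
    d ^ (q * y - e) * ((I.filter fun j => lab j = lab i).card : ℝ) <
      ((I.filter fun j => lab j = lab i ∧
        |b 0 * co i1 j 5 / d ^ x 5 + b 1 * co i1 j 6 / d ^ x 6| ≤ d ^ y).card : ℝ)

/-- a grid of widths -/
theorem heavyA_grid {ι κ : Type*} {I : Finset ι} {co : ι → ι → Fin 11 → ℝ} {lab : ι → κ} {d : ℝ}
    (hd : 0 < d) (hd1 : d < 1) {x : Fin 11 → ℝ} {Ym q e η0 : ℝ} (hη : 0 < η0) (hq : 0 ≤ q) {i : ι}
    (h : HeavyA I co lab d x Ym q e i) : ∃ k ∈ Finset.range (⌊Ym / η0⌋₊ + 1),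
      HeavyS I co lab d x (k * η0) (q * (k * η0 + η0) - e) i := by
  classical
  obtain ⟨i1, hi1, e1, b, hb, y, hy0, hyY, hc⟩ := h
  obtain ⟨k, hk⟩ : ∃ k : ℕ, k = ⌊y / η0⌋₊ := ⟨_, rfl⟩
  have hyd : 0 ≤ y / η0 := div_nonneg hy0 hη.le
  have k1 : (k : ℝ) * η0 ≤ y := by
    rw [hk, ← le_div_iff₀ hη]; exact Nat.floor_le hyd
  have k2 : y < k * η0 + η0 := by
    have h1 := Nat.lt_floor_add_one (y / η0)
    rw [div_lt_iff₀ hη, ← hk] at h1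
    linarith
  refine ⟨k, ?_, i1, hi1, e1, b, hb, ?_⟩
  · rw [Finset.mem_range, Nat.lt_succ_iff, hk]
    exact Nat.floor_le_floor (div_le_div_of_nonneg_right hyY hη.le)
  · have h1 : d ^ (q * (k * η0 + η0) - e) ≤ d ^ (q * y - e) :=
      dle hd hd1 (by nlinarith)
    have h2 : d ^ y ≤ d ^ ((k : ℝ) * η0) := dle hd hd1 k1
    refine (mul_le_mul_of_nonneg_right h1 (Nat.cast_nonneg _)).trans (hc.le.trans ?_)
    exact_mod_cast card_le_card (by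
      intro j hj
      obtain ⟨a1, a2, a3⟩ := mem_filter.1 hj
      exact mem_filter.2 ⟨a1, a2, a3.trans h2⟩)

section

variable {η : ℝ} {p : Par4} {D : Dat4} {I1 : ℕ → Finset (ℕ × ℝ)} {π : Equiv.Perm (Fin 3)}
  {eE fA fB : ℕ → ℕ × ℝ → ℝ} {V T : Fin 11 → Prop} {w0 R T0 : ℝ} {PD : Set (Fin 11 → ℝ)}
  {ν own : (Fin 11 → ℝ) → ℝ} {c₀ : ℝ}

open Classical in
/-- **heavy strips of all widths are rare.** -/
theorem strip_rare_all (h : Thick η p D I1 π eE fA fB V T w0 R T0 PD ν own c₀)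
    (hq : ∀ j, 0 ≤ p.q j) {qm : ℝ} (hqm : 0 ≤ qm) (hm1 : qm ≤ p.q 1) (hm2 : qm ≤ p.q 2) {cab cby cr cc : ℝ}
    (hW : W0 D.B D.r0 D.lev D.w cab cby cr cc)
    {x rc : Fin 11 → ℝ} (hx : x ∈ Leg monQ R) (hrc : rc ∈ Leg monQ R) (hle : x ≤ rc)
    (h5 : x 5 = rc 5) (h6 : x 6 = rc 6) (w8 : rc 8 = rc 0 + rc 5) (w9 : rc 9 = rc 0 + rc 6)
    (hp0 : w0 ≤ rc 0) (hp1 : rc 0 ≤ w0 + 1) {Ym : ℝ} (hY : 0 ≤ Ym)
    (o1 : rc 8 + w0 ≤ rc 9 + cab) (o2 : rc 9 + Ym + w0 ≤ rc 10 + cby) (o3 : rc 10 ≤ cr + 4 * w0)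
    (o4 : rc 0 + w0 < rc 8 + cc) (y5 : Ym + rc 5 ≤ R) (y6 : Ym + rc 6 ≤ R) {e : ℝ}
    (he : c₀ + DQ p.g 0 p.q w0 rc - ν rc < e) :
    ∃ δ' : ℝ, 0 < δ' ∧ ∀ᶠ n in (U : Filter ℕ), ∀ J : Finset (ℕ × ℝ), J ⊆ I1 n →
      ((J.filter fun i => HeavyA J (couQ D.B D.lev D.w w0 (incQ π D.L eE fA fB) n)
        (nlab D.B D.I (couQ D.B D.lev D.w w0 (incQ π D.L eE fA fB)) monQ 2 n x) (D.B.d n) x Ym
          qm e i).card : ℝ) ≤ D.B.d n ^ δ' * ((I1 n).card : ℝ) := by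
  have hq2 := hqm
  obtain ⟨η0, hη0⟩ : ∃ η0 : ℝ, η0 = (e - (c₀ + DQ p.g 0 p.q w0 rc - ν rc)) / (2 * (qm + 1)) :=
    ⟨_, rfl⟩
  have hη : 0 < η0 := by rw [hη0]; exact div_pos (by linarith) (by linarith)
  have hη1 : η0 * (2 * (qm + 1)) = e - (c₀ + DQ p.g 0 p.q w0 rc - ν rc) := by
    rw [hη0]; field_simp
  have hη2 : 0 ≤ η0 * qm := mul_nonneg hη.le hq2
  obtain ⟨N, hN⟩ : ∃ N : ℕ, N = ⌊Ym / η0⌋₊ + 1 := ⟨_, rfl⟩
  have hk : ∀ k ∈ Finset.range N, ∃ δ' : ℝ, 0 < δ' ∧ ∀ᶠ n in (U : Filter ℕ),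
      ∀ J : Finset (ℕ × ℝ), J ⊆ I1 n →
      ((J.filter fun i => HeavyS J (couQ D.B D.lev D.w w0 (incQ π D.L eE fA fB) n)
        (nlab D.B D.I (couQ D.B D.lev D.w w0 (incQ π D.L eE fA fB)) monQ 2 n x) (D.B.d n) x
          (k * η0) (qm * (k * η0 + η0) - e) i).card : ℝ) ≤
            D.B.d n ^ δ' * ((I1 n).card : ℝ) := by
    intro k hk
    have h1 : (k : ℝ) * η0 ≤ Ym := by
      rw [Finset.mem_range, hN, Nat.lt_succ_iff] at hk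
      have h2 : (k : ℝ) ≤ Ym / η0 :=
        (Nat.cast_le.2 hk).trans (Nat.floor_le (div_nonneg hY hη.le))
      rwa [le_div_iff₀ hη] at h2
    have h0 : 0 ≤ (k : ℝ) * η0 := by positivity
    refine strip_rare h hq hm1 hm2 hW hx hrc hle h5 h6 w8 w9 hp0 hp1 h0 o1 (by linarith) o3 o4
      (by linarith) (by linarith) ?_
    nlinarith
  choose! δk hδk hδk' using hk
  have hne : (Finset.range N).Nonempty := ⟨0, by rw [Finset.mem_range, hN]; omega⟩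
  obtain ⟨δ1, hδ1⟩ : ∃ δ1 : ℝ, δ1 = (Finset.range N).inf' hne δk := ⟨_, rfl⟩
  have hδ0 : 0 < δ1 := by
    rw [hδ1, Finset.lt_inf'_iff]
    exact hδk
  have hN0 : (0 : ℝ) < N := by
    rw [hN]; positivity
  refine ⟨δ1 / 2, by linarith, ?_⟩
  filter_upwards [(Filter.eventually_all_finset (Finset.range N)).2 hδk',
    ev_const D.B (c := (N : ℝ)) hN0 (half_pos hδ0)] with n hn hNn J hJ
  have hNn' := const_le hNn
  have hd := D.B.pos n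
  have hd1 := D.B.lt n
  have dpp := fun a => Dp76.dpow_pos D.B n a
  have hI0 : (0 : ℝ) ≤ (I1 n).card := Nat.cast_nonneg _
  have hsub : (J.filter fun i => HeavyA J (couQ D.B D.lev D.w w0 (incQ π D.L eE fA fB) n)
        (nlab D.B D.I (couQ D.B D.lev D.w w0 (incQ π D.L eE fA fB)) monQ 2 n x) (D.B.d n) x Ym
          qm e i) ⊆ (Finset.range N).biUnion fun k => J.filter fun i =>
      HeavyS J (couQ D.B D.lev D.w w0 (incQ π D.L eE fA fB) n)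
        (nlab D.B D.I (couQ D.B D.lev D.w w0 (incQ π D.L eE fA fB)) monQ 2 n x) (D.B.d n) x
          (k * η0) (qm * (k * η0 + η0) - e) i := by
    intro i hi
    obtain ⟨a1, a2⟩ := mem_filter.1 hi
    obtain ⟨k, hk1, hk2⟩ := heavyA_grid hd hd1 hη hq2 a2
    exact mem_biUnion.2 ⟨k, by rw [hN]; exact hk1, mem_filter.2 ⟨a1, hk2⟩⟩
  have h1 : ((J.filter fun i => HeavyA J (couQ D.B D.lev D.w w0 (incQ π D.L eE fA fB) n)
        (nlab D.B D.I (couQ D.B D.lev D.w w0 (incQ π D.L eE fA fB)) monQ 2 n x) (D.B.d n) x Ym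
          qm e i).card : ℝ) ≤ ∑ k ∈ Finset.range N, ((J.filter fun i =>
      HeavyS J (couQ D.B D.lev D.w w0 (incQ π D.L eE fA fB) n)
        (nlab D.B D.I (couQ D.B D.lev D.w w0 (incQ π D.L eE fA fB)) monQ 2 n x) (D.B.d n) x
          (k * η0) (qm * (k * η0 + η0) - e) i).card : ℝ) := by
    exact_mod_cast (card_le_card hsub).trans card_biUnion_le
  refine h1.trans ?_
  calc _ ≤ ∑ k ∈ Finset.range N, D.B.d n ^ δ1 * ((I1 n).card : ℝ) := by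
        refine Finset.sum_le_sum fun k hk => (hn k hk J hJ).trans ?_
        refine mul_le_mul_of_nonneg_right (Dp76.dpow_le D.B n ?_) hI0
        rw [hδ1]
        exact Finset.inf'_le _ hk
    _ = N * (D.B.d n ^ δ1 * ((I1 n).card : ℝ)) := by
        rw [Finset.sum_const, Finset.card_range, nsmul_eq_mul]
    _ ≤ D.B.d n ^ (-(δ1 / 2)) * (D.B.d n ^ δ1 * ((I1 n).card : ℝ)) :=
        mul_le_mul_of_nonneg_right hNn' (mul_nonneg (dpp _).le hI0)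
    _ = D.B.d n ^ (δ1 / 2) * ((I1 n).card : ℝ) := by
        rw [← mul_assoc, ← Dp76.dpow_add]
        congr 2; ring

/-- from a power bound to the form of the good sets -/
theorem good_of_pow {B : Base} {I1 J E : ℕ → Finset (ℕ × ℝ)} {δ' : ℝ} (hδ : 0 < δ')
    (hJ : ∀ ε : ℝ, 0 < ε → ∀ᶠ n in (U : Filter ℕ), B.d n ^ ε * ((I1 n).card : ℝ) ≤ (J n).card)
    (hE : ∀ᶠ n in (U : Filter ℕ), ((E n).card : ℝ) ≤ B.d n ^ δ' * ((I1 n).card : ℝ))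
    {c : ℕ → ℝ} (hc : B.Sub c) : ∀ᶠ n in (U : Filter ℕ), c n * ((E n).card : ℝ) ≤ (J n).card := by
  filter_upwards [hJ (δ' / 2) (half_pos hδ), hE, hc.ev_le (half_pos hδ)] with n h1 h2 h3
  have hcn : c n ≤ B.d n ^ (-(δ' / 2)) := by
    rw [← B.exp_eq, ← Real.log_le_iff_le_exp h3.1]
    exact h3.2
  have dpp := fun a => Dp76.dpow_pos B n a
  calc c n * ((E n).card : ℝ) ≤ B.d n ^ (-(δ' / 2)) * (B.d n ^ δ' * ((I1 n).card : ℝ)) :=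
        mul_le_mul hcn h2 (Nat.cast_nonneg _) (dpp _).le
    _ = B.d n ^ (δ' / 2) * ((I1 n).card : ℝ) := by
        rw [← mul_assoc, ← Dp76.dpow_add]
        congr 2; ring
    _ ≤ _ := h1

open Classical in
/-- **the classes without heavy strips**, as a good set of a dense family -/
theorem strip_good (h : Thick η p D I1 π eE fA fB V T w0 R T0 PD ν own c₀)
    (hq : ∀ j, 0 ≤ p.q j) {qm : ℝ} (hqm : 0 ≤ qm) (hm1 : qm ≤ p.q 1) (hm2 : qm ≤ p.q 2) {cab cby cr cc : ℝ}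
    (hW : W0 D.B D.r0 D.lev D.w cab cby cr cc)
    {x rc : Fin 11 → ℝ} (hx : x ∈ Leg monQ R) (hrc : rc ∈ Leg monQ R) (hle : x ≤ rc)
    (h5 : x 5 = rc 5) (h6 : x 6 = rc 6) (w8 : rc 8 = rc 0 + rc 5) (w9 : rc 9 = rc 0 + rc 6)
    (hp0 : w0 ≤ rc 0) (hp1 : rc 0 ≤ w0 + 1) {Ym : ℝ} (hY : 0 ≤ Ym)
    (o1 : rc 8 + w0 ≤ rc 9 + cab) (o2 : rc 9 + Ym + w0 ≤ rc 10 + cby) (o3 : rc 10 ≤ cr + 4 * w0)
    (o4 : rc 0 + w0 < rc 8 + cc) (y5 : Ym + rc 5 ≤ R) (y6 : Ym + rc 6 ≤ R) {e : ℝ}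
    (he : c₀ + DQ p.g 0 p.q w0 rc - ν rc < e) {J : ℕ → Finset (ℕ × ℝ)}
    (hJ : ∀ n, J n ⊆ I1 n)
    (hJd : ∀ ε : ℝ, 0 < ε → ∀ᶠ n in (U : Filter ℕ),
      D.B.d n ^ ε * ((I1 n).card : ℝ) ≤ (J n).card) {c : ℕ → ℝ} (hc : D.B.Sub c) :
    ∀ᶠ n in (U : Filter ℕ), c n * ((J n \ (J n).filter fun i =>
      ¬ HeavyA (J n) (couQ D.B D.lev D.w w0 (incQ π D.L eE fA fB) n)
        (nlab D.B D.I (couQ D.B D.lev D.w w0 (incQ π D.L eE fA fB)) monQ 2 n x) (D.B.d n) x Ym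
          qm e i).card : ℝ) ≤ (J n).card := by
  obtain ⟨δ', hδ', h1⟩ := strip_rare_all h hq hqm hm1 hm2 hW hx hrc hle h5 h6 w8 w9 hp0 hp1 hY o1 o2 o3 o4
    y5 y6 he
  refine good_of_pow hδ' hJd ?_ hc
  filter_upwards [h1] with n hn
  refine le_trans ?_ (hn (J n) (hJ n))
  exact_mod_cast card_le_card (by
    intro i hi
    obtain ⟨a1, a2⟩ := mem_sdiff.1 hi
    refine mem_filter.2 ⟨a1, ?_⟩
    by_contra h3
    exact a2 (mem_filter.2 ⟨a1, h3⟩))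

/-! ### the record box -/

/-- **side conditions at the record box**; `W0` from the level-`0` mark -/
theorem rec_conds (h : Thick η p D I1 π eE fA fB V T w0 R T0 PD ν own c₀) {R1 v Ym : ℝ}
    (hR : R1 ≤ R) (hR1 : 2 * w0 + T0 ≤ R1) (h0 : 0 ≤ v) (h1 : v < 1)
    (hYm : Ym ≤ (p.θ 2 - p.θ 0) * v + max (p.θ 0 - p.θ 2) 0) {rc : Fin 11 → ℝ}
    (hrc : rc = nat4 w0 R1 v (-(p.θ 1 * v)) (-(p.θ 2 * v)) (-(p.θ 0 * v))) :
    rc ∈ Leg monQ R ∧ rc 8 = rc 0 + rc 5 ∧ rc 9 = rc 0 + rc 6 ∧ w0 ≤ rc 0 ∧ rc 0 ≤ w0 + 1 ∧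
    rc 8 + w0 ≤ rc 9 + max (p.θ 2 - p.θ 1) 0 ∧ rc 9 + Ym + w0 ≤ rc 10 + max (p.θ 0 - p.θ 2) 0 ∧
    rc 10 ≤ max (1 - p.θ 0) 0 + 4 * w0 ∧ rc 0 + w0 < rc 8 + p.θ 1 ∧ Ym + rc 5 ≤ R ∧
    Ym + rc 6 ≤ R ∧ c₀ + DQ p.g 0 p.q w0 rc - ν rc = 0 := by
  have hb := h.tp.big
  have hw := hb.w0pos
  have hwT := hb.w0T
  have hR0 := hb.R0
  have hT := hb.T0
  have hθ := h.tp.ok.θ1
  have key : ∀ x : ℝ, x * v ≤ max x 0 := by
    intro x
    rcases le_total 0 x with hx | hx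
    · rw [max_eq_left hx]; nlinarith
    · rw [max_eq_right hx]; nlinarith
  have t0 := abs_le.1 (hb.th 0)
  have t1 := abs_le.1 (hb.th 1)
  have t2 := abs_le.1 (hb.th 2)
  have b0 := hb.bd h0 h1.le 0
  have b1 := hb.bd h0 h1.le 1
  have b2 := hb.bd h0 h1.le 2
  have hYT : Ym ≤ 2 * T0 := by
    refine hYm.trans ?_
    rcases le_total (p.θ 0 - p.θ 2) 0 with hx | hx
    · rw [max_eq_right hx]; nlinarith
    · rw [max_eq_left hx]; nlinarith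
  have a1 := key (p.θ 2 - p.θ 1)
  have a2 := key (1 - p.θ 0)
  subst hrc
  refine ⟨rec_leg h hR hR1 h0 h1.le, ?_, ?_, ?_, ?_, ?_, ?_, ?_, ?_, ?_, ?_, ?_⟩
  · simp only [nat4, Matrix.cons_val]; ring
  · simp only [nat4, Matrix.cons_val]; ring
  · simp only [nat4, Matrix.cons_val]; linarith
  · simp only [nat4, Matrix.cons_val]; linarith
  · simp only [nat4, Matrix.cons_val]; linarith
  · simp only [nat4, Matrix.cons_val]; linarith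
  · simp only [nat4, Matrix.cons_val]; linarith
  · simp only [nat4, Matrix.cons_val]; nlinarith
  · simp only [nat4, Matrix.cons_val]; linarith
  · simp only [nat4, Matrix.cons_val]; linarith
  · rw [rec_eq h hR hR1 h0 h1, DQ_DN]; ring

open Classical in
/-- **heavy strips below the record box are rare** -/
theorem strip_rec (h : Thick η p D I1 π eE fA fB V T w0 R T0 PD ν own c₀)
    (hq : ∀ j, 0 ≤ p.q j) {qm : ℝ} (hqm : 0 ≤ qm) (hm1 : qm ≤ p.q 1) (hm2 : qm ≤ p.q 2) {R1 v Ym : ℝ} (hR : R1 ≤ R)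
    (hR1 : 2 * w0 + T0 ≤ R1) (h0 : 0 ≤ v) (h1 : v < 1) (hY : 0 ≤ Ym)
    (hYm : Ym ≤ (p.θ 2 - p.θ 0) * v + max (p.θ 0 - p.θ 2) 0) {x : Fin 11 → ℝ}
    (hx : x ∈ Leg monQ R)
    (hle : x ≤ nat4 w0 R1 v (-(p.θ 1 * v)) (-(p.θ 2 * v)) (-(p.θ 0 * v)))
    (h5 : x 5 = w0 + -(p.θ 1 * v)) (h6 : x 6 = 2 * w0 + -(p.θ 2 * v)) {e : ℝ} (he : 0 < e) :
    ∃ δ' : ℝ, 0 < δ' ∧ ∀ᶠ n in (U : Filter ℕ), ∀ J : Finset (ℕ × ℝ), J ⊆ I1 n →
      ((J.filter fun i => HeavyA J (couQ D.B D.lev D.w w0 (incQ π D.L eE fA fB) n)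
        (nlab D.B D.I (couQ D.B D.lev D.w w0 (incQ π D.L eE fA fB)) monQ 2 n x) (D.B.d n) x Ym
          qm e i).card : ℝ) ≤ D.B.d n ^ δ' * ((I1 n).card : ℝ) := by
  obtain ⟨a1, a2, a3, a4, a5, a6, a7, a8, a9, a10, a11, a12⟩ := rec_conds h hR hR1 h0 h1 hYm rfl
  exact strip_rare_all h hq hqm hm1 hm2 (w0_base h) hx a1 hle h5 h6 a2 a3 a4 a5 hY a6 a7 a8 a9 a10 a11
    (by rw [a12]; exact he)

open Classical in
/-- **good sets below the record box** -/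
theorem strip_rec_good (h : Thick η p D I1 π eE fA fB V T w0 R T0 PD ν own c₀)
    (hq : ∀ j, 0 ≤ p.q j) {qm : ℝ} (hqm : 0 ≤ qm) (hm1 : qm ≤ p.q 1) (hm2 : qm ≤ p.q 2) {R1 v Ym : ℝ} (hR : R1 ≤ R)
    (hR1 : 2 * w0 + T0 ≤ R1) (h0 : 0 ≤ v) (h1 : v < 1) (hY : 0 ≤ Ym)
    (hYm : Ym ≤ (p.θ 2 - p.θ 0) * v + max (p.θ 0 - p.θ 2) 0) {x : Fin 11 → ℝ}
    (hx : x ∈ Leg monQ R)
    (hle : x ≤ nat4 w0 R1 v (-(p.θ 1 * v)) (-(p.θ 2 * v)) (-(p.θ 0 * v)))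
    (h5 : x 5 = w0 + -(p.θ 1 * v)) (h6 : x 6 = 2 * w0 + -(p.θ 2 * v)) {e : ℝ} (he : 0 < e)
    {J : ℕ → Finset (ℕ × ℝ)} (hJ : ∀ n, J n ⊆ I1 n)
    (hJd : ∀ ε : ℝ, 0 < ε → ∀ᶠ n in (U : Filter ℕ),
      D.B.d n ^ ε * ((I1 n).card : ℝ) ≤ (J n).card) {c : ℕ → ℝ} (hc : D.B.Sub c) :
    ∀ᶠ n in (U : Filter ℕ), c n * ((J n \ (J n).filter fun i =>
      ¬ HeavyA (J n) (couQ D.B D.lev D.w w0 (incQ π D.L eE fA fB) n)
        (nlab D.B D.I (couQ D.B D.lev D.w w0 (incQ π D.L eE fA fB)) monQ 2 n x) (D.B.d n) x Ym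
          qm e i).card : ℝ) ≤ (J n).card := by
  obtain ⟨a1, a2, a3, a4, a5, a6, a7, a8, a9, a10, a11, a12⟩ := rec_conds h hR hR1 h0 h1 hYm rfl
  exact strip_good h hq hqm hm1 hm2 (w0_base h) hx a1 hle h5 h6 a2 a3 a4 a5 hY a6 a7 a8 a9 a10 a11
    (by rw [a12]; exact he) hJ hJd hc

end

end Crest.Agent.R136.Str186
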