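import Crest.Agent.R136.LdF3_511

/-!
# R136: tangents at moving points (helper196)

* `tan_comp` : tangent of a tangent at MOVING points, for every sufficiently fast subsequence
  (so that several points can share one subsequence); `exists_tan_mov` : existence at moving points;
* `tan_lim`, `tan_le`, `tan_ge`, `tan_mem`, `tan_subseq`, `tan_scale`.
-/

set_option autoImplicit false
set_option linter.unusedVariables false

open Finset Filter Topology

namespace Crest.Agent.R136.TL196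

open Crest.Agent.R138.Ex926

/-! ### tangents at moving points -/

section tan

variable {V : Type*} [NormedAddCommGroup V] [NormedSpace ℝ V]

theorem tan_mem {P D : Set V} {ν lam : V → ℝ} {x : ℕ → V} {h : ℕ → ℝ}
    (H : IsTan P D ν x h lam) {c : V} (hc : c ∈ D) :
    ∀ᶠ l in (atTop : Filter ℕ), x l + h l • c ∈ P :=
  (H ‖c‖ 1 one_pos).mono fun l hl => (hl c hc le_rfl).1

theorem tan_lim {P D : Set V} {ν lam : V → ℝ} {x : ℕ → V} {h : ℕ → ℝ}
    (H : IsTan P D ν x h lam) (hpos : ∀ l, 0 < h l) {c : V} (hc : c ∈ D) :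
    Tendsto (fun l => (ν (x l + h l • c) - ν (x l)) / h l) atTop (𝓝 (lam c)) := by
  rw [Metric.tendsto_atTop']
  intro ε hε
  obtain ⟨N, hN⟩ := (eventually_atTop.1 (H ‖c‖ (ε / 2) (by positivity)))
  refine ⟨N, fun l hl => ?_⟩
  have h1 := (hN l hl.le c hc le_rfl).2
  have hl0 := hpos l
  rw [Real.dist_eq]
  have e1 : (ν (x l + h l • c) - ν (x l)) / h l - lam c =
      (ν (x l + h l • c) - ν (x l) - h l * lam c) / h l := by
    field_simp
  rw [e1, abs_div, abs_of_pos hl0, div_lt_iff₀ hl0]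
  nlinarith

theorem tan_le {P D : Set V} {ν lam : V → ℝ} {x : ℕ → V} {h : ℕ → ℝ}
    (H : IsTan P D ν x h lam) (hpos : ∀ l, 0 < h l) {c : V} (hc : c ∈ D) {r : ℝ}
    (hr : ∀ᶠ l in (atTop : Filter ℕ), ν (x l + h l • c) ≤ ν (x l) + h l * r) : lam c ≤ r := by
  refine le_of_tendsto (tan_lim H hpos hc) ?_
  filter_upwards [hr] with l hl
  rw [div_le_iff₀ (hpos l)]
  linarith

theorem tan_ge {P D : Set V} {ν lam : V → ℝ} {x : ℕ → V} {h : ℕ → ℝ}
    (H : IsTan P D ν x h lam) (hpos : ∀ l, 0 < h l) {c : V} (hc : c ∈ D) {r : ℝ}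
    (hr : ∀ᶠ l in (atTop : Filter ℕ), ν (x l) + h l * r ≤ ν (x l + h l • c)) : r ≤ lam c := by
  refine ge_of_tendsto (tan_lim H hpos hc) ?_
  filter_upwards [hr] with l hl
  rw [le_div_iff₀ (hpos l)]
  linarith

/-- **tangent of a tangent at moving points**, for every fast subsequence -/
theorem tan_comp {P L L' : Set V} {ν g lam : V → ℝ} {x y : ℕ → V} {h k : ℕ → ℝ}
    (hpos : ∀ l, 0 < h l) (kpos : ∀ l, 0 < k l) (H1 : IsTan P L ν x h g) (hy : ∀ l, y l ∈ L)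
    (H2 : IsTan L L' g y k lam) :
    ∃ ψ₀ : ℕ → ℕ, ∀ ψ : ℕ → ℕ, (∀ m, ψ₀ m ≤ ψ m) →
      IsTan P L' ν (fun m => x (ψ m) + h (ψ m) • y m) (fun m => h (ψ m) * k m) lam := by
  have key : ∀ n : ℕ, ∃ N : ℕ, ∀ l, N ≤ l → ∀ c ∈ L, ‖c‖ ≤ ‖y n‖ + k n * n →
      x l + h l • c ∈ P ∧ |ν (x l + h l • c) - ν (x l) - h l * g c| ≤ k n / (n + 1) * h l := by
    intro n
    exact eventually_atTop.1 (H1 (‖y n‖ + k n * n) (k n / (n + 1))
      (div_pos (kpos n) (by positivity)))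
  choose ψ₀ hψ₀ using key
  refine ⟨ψ₀, fun ψ hψ => ?_⟩
  intro C ε hε
  obtain ⟨N1, hN1⟩ := exists_nat_gt C
  obtain ⟨N2, hN2⟩ := exists_nat_gt (4 / ε)
  filter_upwards [H2 C (ε / 2) (by positivity), eventually_ge_atTop (max N1 N2)]
    with m hm hmN c hc hcC
  have m1 : (N1 : ℝ) ≤ m := by exact_mod_cast (le_max_left _ _).trans hmN
  have m2 : (N2 : ℝ) ≤ m := by exact_mod_cast (le_max_right _ _).trans hmN
  have hk := kpos m
  have hh := hpos (ψ m)
  have hp : y m + k m • c ∈ L := (hm c hc hcC).1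
  have hpn : ‖y m + k m • c‖ ≤ ‖y m‖ + k m * m := by
    refine (norm_add_le _ _).trans ?_
    rw [norm_smul, Real.norm_of_nonneg hk.le]
    have : k m * ‖c‖ ≤ k m * m := mul_le_mul_of_nonneg_left (by linarith) hk.le
    linarith
  have hyn : ‖y m‖ ≤ ‖y m‖ + k m * m := by
    have : 0 ≤ k m * (m : ℝ) := by positivity
    linarith
  have a1 := hψ₀ m (ψ m) (hψ m) _ hp hpn
  have a2 := hψ₀ m (ψ m) (hψ m) (y m) (hy m) hyn
  have a3 := (hm c hc hcC).2
  have e1 : x (ψ m) + h (ψ m) • y m + (h (ψ m) * k m) • c =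
      x (ψ m) + h (ψ m) • (y m + k m • c) := by
    rw [smul_add, smul_smul, add_assoc]
  refine ⟨by rw [e1]; exact a1.1, ?_⟩
  rw [e1]
  have b1 := a1.2
  have b2 := a2.2
  have b3 : |h (ψ m) * (g (y m + k m • c) - g (y m) - k m * lam c)| ≤
      h (ψ m) * (ε / 2 * k m) := by
    rw [abs_mul, abs_of_pos hh]
    exact mul_le_mul_of_nonneg_left a3 hh.le
  have b4 : k m / (m + 1) ≤ ε / 4 * k m := by
    rw [div_le_iff₀ (by positivity)]
    have : 4 / ε < (m : ℝ) + 1 := by linarith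
    rw [div_lt_iff₀ hε] at this
    nlinarith
  have b5 : k m / (m + 1) * h (ψ m) ≤ ε / 4 * k m * h (ψ m) :=
    mul_le_mul_of_nonneg_right b4 hh.le
  rw [abs_le] at b1 b2 b3 ⊢
  constructor <;> nlinarith [b1.1, b1.2, b2.1, b2.2, b3.1, b3.2]

theorem tan_subseq {P D : Set V} {ν lam : V → ℝ} {x : ℕ → V} {h : ℕ → ℝ}
    (H : IsTan P D ν x h lam) {φ : ℕ → ℕ} (hφ : Tendsto φ atTop atTop) :
    IsTan P D ν (fun l => x (φ l)) (fun l => h (φ l)) lam := by
  intro C ε hε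
  exact hφ.eventually (H C ε hε)

/-- a tangent in a tangent cone is a tangent with the unit multiplied: homogeneous rescaling of the
scales is allowed if the scales are comparable -/
theorem tan_scale {P D : Set V} {ν lam : V → ℝ} {x : ℕ → V} {h : ℕ → ℝ} {a : ℝ} (ha : 0 < a)
    (H : IsTan P D ν x h lam) (hD : ∀ c ∈ D, a • c ∈ D) :
    IsTan P D ν x (fun l => h l * a) (fun c => lam (a • c) / a) := by
  intro C ε hε
  filter_upwards [H (a * |C|) (ε * a) (by positivity)] with l hl c hc hcC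
  have h1 := hl (a • c) (hD c hc) (by
    rw [norm_smul, Real.norm_of_nonneg ha.le]
    exact mul_le_mul_of_nonneg_left (hcC.trans (le_abs_self _)) ha.le)
  have e1 : (h l * a) • c = h l • a • c := by rw [smul_smul]
  rw [e1]
  refine ⟨h1.1, ?_⟩
  have e2 : h l * a * (lam (a • c) / a) = h l * lam (a • c) := by
    field_simp
  rw [e2]
  refine h1.2.trans (le_of_eq ?_)
  ring

end tan

/-- **existence of tangents at moving points** -/
theorem exists_tan_mov {m : ℕ} {P D : Set (Fin m → ℝ)} (hDc : IsClosed D)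
    {ν : (Fin m → ℝ) → ℝ} {K : ℝ} (hK : 0 ≤ K) (hν : ∀ p ∈ P, ∀ q ∈ P, |ν p - ν q| ≤ K * ‖p - q‖)
    {X : ℕ → Fin m → ℝ} {g : ℕ → ℝ} (hg : ∀ l, 0 < g l)
    (hX : ∀ C : ℝ, ∀ᶠ l in (atTop : Filter ℕ), ∀ c ∈ D, ‖c‖ ≤ C → X l + g l • c ∈ P)
    (h0D : (0 : Fin m → ℝ) ∈ D) :
    ∃ φ : ℕ → ℕ, StrictMono φ ∧ ∃ lam : (Fin m → ℝ) → ℝ,
      IsTan P D ν (fun l => X (φ l)) (fun l => g (φ l)) lam := by
  classical
  set ψ0 : ℕ → (Fin m → ℝ) → ℝ := fun l c => (ν (X l + g l • c) - ν (X l)) / g l with hψ0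
  have hlip : ∀ C : ℝ, ∀ᶠ l in (U : Filter ℕ), ∀ c ∈ D, ‖c‖ ≤ C → ∀ c' ∈ D, ‖c'‖ ≤ C →
      |ψ0 l c - ψ0 l c'| ≤ K * ‖c - c'‖ := by
    intro C
    filter_upwards [U_le_atTop (hX C)] with l H c hc hcC c' hc' hcC'
    have h1 := hν _ (H c hc hcC) _ (H c' hc' hcC')
    have e1 : X l + g l • c - (X l + g l • c') = g l • (c - c') := by rw [smul_sub]; abel
    rw [e1, norm_smul, Real.norm_of_nonneg (hg l).le] at h1
    have e2 : ψ0 l c - ψ0 l c' = (ν (X l + g l • c) - ν (X l + g l • c')) / g l := by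
      simp only [hψ0]; rw [← sub_div]; congr 1; ring
    rw [e2, abs_div, abs_of_pos (hg l), div_le_iff₀ (hg l)]
    linarith
  have hψ00 : ∀ l, ψ0 l 0 = 0 := fun l => by simp [hψ0]
  have hlim : ∀ c : Fin m → ℝ, ∃ y : ℝ, c ∈ D → Tendsto (fun l => ψ0 l c) U (𝓝 y) := by
    intro c
    by_cases hc : c ∈ D
    · obtain ⟨y, hy, -⟩ := exists_tendsto (f := fun l => ψ0 l c) (C := K * ‖c‖) (by
        filter_upwards [hlip ‖c‖] with l hl
        have := hl c hc le_rfl 0 h0D (by simp)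
        rwa [hψ00, sub_zero, sub_zero] at this)
      exact ⟨y, fun _ => hy⟩
    · exact ⟨0, fun h => absurd h hc⟩
  choose lam hlam using hlim
  have hunif : ∀ C ε : ℝ, 0 < ε → ∀ᶠ l in (U : Filter ℕ), ∀ c ∈ D ∩ Metric.closedBall 0 C,
      |ψ0 l c - lam c| ≤ ε := by
    intro C ε hε
    have hcomp : IsCompact (D ∩ Metric.closedBall (0 : Fin m → ℝ) C) :=
      (isCompact_closedBall _ _).inter_left hDc
    refine unif_of_lip hcomp hK (φ := fun l c => ψ0 l c) (ψ := lam) ?_ ?_ hε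
    · intro δ hδ
      filter_upwards [hlip C] with l hl c hc c' hc'
      have h1 := hl c hc.1 (by simpa using hc.2) c' hc'.1 (by simpa using hc'.2)
      rw [dist_eq_norm]
      linarith
    · intro c hc
      exact hlam c hc.1
  obtain ⟨φ, hφ, hφ2⟩ := Filter.extraction_forall_of_frequently
    (P := fun j l => ∀ c ∈ D ∩ Metric.closedBall (0 : Fin m → ℝ) ((j : ℝ) + 1),
      |ψ0 l c - lam c| ≤ 1 / ((j : ℝ) + 1)) (fun j => by
      have h1 := hunif ((j : ℝ) + 1) (1 / ((j : ℝ) + 1)) (by positivity)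
      exact h1.frequently.filter_mono U_le_atTop)
  refine ⟨φ, hφ, lam, fun C ε hε => ?_⟩
  have H := hφ.tendsto_atTop.eventually (hX C)
  obtain ⟨N1, hN1⟩ := exists_nat_gt C
  obtain ⟨N2, hN2⟩ := exists_nat_gt (1 / ε)
  filter_upwards [H, eventually_ge_atTop (max N1 N2)] with j h1 h2 c hc hcC
  refine ⟨h1 c hc hcC, ?_⟩
  have hj1 : (N1 : ℝ) ≤ j := by exact_mod_cast (le_max_left _ _).trans h2
  have hj2 : (N2 : ℝ) ≤ j := by exact_mod_cast (le_max_right _ _).trans h2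
  have h3 := hφ2 j c ⟨hc, by
    rw [mem_closedBall_zero_iff]; linarith⟩
  have h4 : 1 / ((j : ℝ) + 1) ≤ ε := by
    rw [div_le_iff₀ (by positivity)]
    rw [div_lt_iff₀ hε] at hN2
    nlinarith
  have hgp := hg (φ j)
  have e1 : ν (X (φ j) + g (φ j) • c) - ν (X (φ j)) - g (φ j) * lam c =
      g (φ j) * (ψ0 (φ j) c - lam c) := by
    simp only [hψ0]; field_simp
  show |ν (X (φ j) + g (φ j) • c) - ν (X (φ j)) - g (φ j) * lam c| ≤ ε * g (φ j)
  rw [e1, abs_mul, abs_of_pos hgp, mul_comm]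
  exact mul_le_mul_of_nonneg_right (h3.trans h4) hgp.le

end Crest.Agent.R136.TL196
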