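import Crest.Agent.R136.Wit5_321
import Crest.Agent.R136.KapP_335

/-!
# R136, two-level closeness in coefficient form (helper650), part 1: normal form and core

`lagr`, `cr_cr`, `dual` : identities of the normal form `Y - z B + A² / D + ..` of a
nondegenerate family; **`core`** : a second family which is small on the zero set of a
nondegenerate one is a multiple of it, coefficient by coefficient.
-/

set_option autoImplicit false
set_option linter.unusedVariables false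

namespace Crest.Agent.R136.TL650

open Crest.Agent.R136.Sh605
open Crest.Agent.R136.GeoN778 (Qd)
open Crest.Agent.R136.Wit321 (Wq wqd wqd_ev dif dif_gr dif_ev mul mul_gr mul_ev gr_zero gr_close)
open Crest.Agent.R136.Tl102 (QF Fq bz)

/-- cross product -/
def cr (a b : V3) : V3 :=
  ![a 1 * b 2 - a 2 * b 1, a 2 * b 0 - a 0 * b 2, a 0 * b 1 - a 1 * b 0]

/-- symmetric matrix of a form times a vector -/
noncomputable def gv (G : QF) (x : V3) : V3 :=
  ![G.yy * x 0 + G.yu / 2 * x 1 + G.yv / 2 * x 2, G.yu / 2 * x 0 + G.uu * x 1 + G.uv / 2 * x 2,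
    G.yv / 2 * x 0 + G.uv / 2 * x 1 + G.vv * x 2]

/-- adjugate form -/
noncomputable def aj (G : QF) (x y : V3) : ℝ :=
  (G.uu * G.vv - G.uv ^ 2 / 4) * (x 0 * y 0) + (G.yy * G.vv - G.yv ^ 2 / 4) * (x 1 * y 1) +
    (G.yy * G.uu - G.yu ^ 2 / 4) * (x 2 * y 2) +
    (G.yv * G.uv / 4 - G.yu * G.vv / 2) * (x 0 * y 1 + x 1 * y 0) +
    (G.yu * G.uv / 4 - G.yv * G.uu / 2) * (x 0 * y 2 + x 2 * y 0) +
    (G.yu * G.yv / 4 - G.yy * G.uv / 2) * (x 1 * y 2 + x 2 * y 1)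

theorem lagr (G : QF) (O X : V3) :
    dt (gv G O) O * G.ev X = dt (gv G O) X ^ 2 + aj G (cr O X) (cr O X) := by
  simp only [dt, gv, aj, cr, QF.ev, Matrix.cons_val]
  ring

theorem cr_cr (N R X : V3) (j : Fin 3) : cr (cr N R) X j = dt N X * R j - dt R X * N j := by
  fin_cases j <;> simp [cr, dt] <;> ring

theorem dual (N R K X : V3) (j : Fin 3) : dt K (cr N R) * X j =
    dt N X * cr R K j + dt R X * cr K N j + dt K X * cr N R j := by
  fin_cases j <;> simp [cr, dt] <;> ring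

/-- normal form of a form -/
theorem norm_form (G : QF) (N R X : V3) :
    dt (gv G (cr N R)) (cr N R) * G.ev X = dt (gv G (cr N R)) X ^ 2 +
      (dt N X ^ 2 * aj G R R - 2 * (dt N X * dt R X) * aj G R N + dt R X ^ 2 * aj G N N) := by
  rw [lagr]
  have h0 := cr_cr N R X 0
  have h1 := cr_cr N R X 1
  have h2 := cr_cr N R X 2
  simp only [aj, h0, h1, h2]
  ring

theorem dt_abs {x y : V3} {a b : ℝ} (hx : ∀ k, |x k| ≤ a) (hy : ∀ k, |y k| ≤ b) :
    |dt x y| ≤ 3 * (a * b) := by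
  have ha : 0 ≤ a := (abs_nonneg _).trans (hx 0)
  have h : ∀ k, |x k * y k| ≤ a * b := fun k => by
    rw [abs_mul]; exact mul_le_mul (hx k) (hy k) (abs_nonneg _) ha
  have := h 0
  have := h 1
  have := h 2
  calc |dt x y| ≤ |x 0 * y 0| + |x 1 * y 1| + |x 2 * y 2| := by
        unfold dt
        exact (abs_add_le _ _).trans (add_le_add_left (abs_add_le _ _) _)
    _ ≤ _ := by linarith

theorem cr_abs {x y : V3} {a b : ℝ} (hx : ∀ k, |x k| ≤ a) (hy : ∀ k, |y k| ≤ b) (j : Fin 3) :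
    |cr x y j| ≤ 2 * (a * b) := by
  have ha : 0 ≤ a := (abs_nonneg _).trans (hx 0)
  have h : ∀ k l, |x k * y l| ≤ a * b := fun k l => by
    rw [abs_mul]; exact mul_le_mul (hx k) (hy l) (abs_nonneg _) ha
  have s : ∀ p q : ℝ, |p| ≤ a * b → |q| ≤ a * b → |p - q| ≤ 2 * (a * b) := fun p q h1 h2 =>
    (abs_sub _ _).trans (by linarith)
  fin_cases j
  · exact s _ _ (h 1 2) (h 2 1)
  · exact s _ _ (h 2 0) (h 0 2)
  · exact s _ _ (h 0 1) (h 1 0)

theorem gv_abs {G : QF} {x : V3} {g a : ℝ} (hG : G.Le g) (hx : ∀ k, |x k| ≤ a) (j : Fin 3) :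
    |gv G x j| ≤ 3 * (g * a) := by
  obtain ⟨h1, h2, h3, h4, h5, h6⟩ := hG
  have hg : 0 ≤ g := (abs_nonneg _).trans h1
  have ha : 0 ≤ a := (abs_nonneg _).trans (hx 0)
  have f : ∀ (c : ℝ), |c| ≤ g → ∀ k, |c * x k| ≤ g * a := fun c hc k => by
    rw [abs_mul]; exact mul_le_mul hc (hx k) (abs_nonneg _) hg
  have hh : ∀ c : ℝ, |c| ≤ g → |c / 2| ≤ g := fun c hc => by
    rw [abs_div, abs_two]; linarith [abs_nonneg c]
  have s : ∀ p q r : ℝ, |p| ≤ g * a → |q| ≤ g * a → |r| ≤ g * a → |p + q + r| ≤ 3 * (g * a) :=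
    fun p q r a1 a2 a3 => ((abs_add_le _ _).trans (add_le_add_left (abs_add_le _ _) _)).trans
      (by linarith)
  fin_cases j
  · exact s _ _ _ (f _ h1 0) (f _ (hh _ h2) 1) (f _ (hh _ h3) 2)
  · exact s _ _ _ (f _ (hh _ h2) 0) (f _ h4 1) (f _ (hh _ h5) 2)
  · exact s _ _ _ (f _ (hh _ h3) 0) (f _ (hh _ h5) 1) (f _ h6 2)

theorem aj_abs {G : QF} {x y : V3} {g a b : ℝ} (hG : G.Le g) (hx : ∀ k, |x k| ≤ a)
    (hy : ∀ k, |y k| ≤ b) : |aj G x y| ≤ 12 * (g ^ 2 * (a * b)) := by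
  obtain ⟨h1, h2, h3, h4, h5, h6⟩ := hG
  have hg : 0 ≤ g := (abs_nonneg _).trans h1
  have ha : 0 ≤ a := (abs_nonneg _).trans (hx 0)
  have hb : 0 ≤ b := (abs_nonneg _).trans (hy 0)
  have hab : 0 ≤ a * b := mul_nonneg ha hb
  have p : ∀ k l, |x k * y l| ≤ a * b := fun k l => by
    rw [abs_mul]; exact mul_le_mul (hx k) (hy l) (abs_nonneg _) ha
  have q : ∀ c d : ℝ, |c| ≤ g → |d| ≤ g → |c * d| ≤ g ^ 2 := fun c d hc hd => by
    rw [abs_mul, sq]; exact mul_le_mul hc hd (abs_nonneg _) hg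
  have e1 : ∀ c d e : ℝ, |c| ≤ g → |d| ≤ g → |e| ≤ g → |c * d - e ^ 2 / 4| ≤ 2 * g ^ 2 := by
    intro c d e hc hd he
    refine (abs_sub _ _).trans ?_
    have := q c d hc hd
    have h3 := q e e he he
    rw [abs_div, sq]
    have h4 : |e * e| / |(4 : ℝ)| ≤ g ^ 2 := by
      rw [abs_of_pos (by norm_num : (0 : ℝ) < 4)]; linarith [abs_nonneg (e * e)]
    linarith
  have e2 : ∀ c d e f : ℝ, |c| ≤ g → |d| ≤ g → |e| ≤ g → |f| ≤ g →
      |c * d / 4 - e * f / 2| ≤ g ^ 2 := by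
    intro c d e f hc hd he hf
    refine (abs_sub _ _).trans ?_
    have h1 := q c d hc hd
    have h2 := q e f he hf
    rw [abs_div, abs_div, abs_two, abs_of_pos (by norm_num : (0 : ℝ) < 4)]
    have := abs_nonneg (c * d)
    have := abs_nonneg (e * f)
    linarith
  have t1 : ∀ c d : ℝ, |c| ≤ 2 * g ^ 2 → |d| ≤ a * b → |c * d| ≤ 2 * (g ^ 2 * (a * b)) := by
    intro c d hc hd
    rw [abs_mul]
    calc |c| * |d| ≤ 2 * g ^ 2 * (a * b) := mul_le_mul hc hd (abs_nonneg _) (by positivity)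
      _ = _ := by ring
  have t2 : ∀ c d e : ℝ, |c| ≤ g ^ 2 → |d| ≤ a * b → |e| ≤ a * b →
      |c * (d + e)| ≤ 2 * (g ^ 2 * (a * b)) := by
    intro c d e hc hd he
    rw [abs_mul]
    calc |c| * |d + e| ≤ g ^ 2 * (2 * (a * b)) :=
          mul_le_mul hc ((abs_add_le _ _).trans (by linarith)) (abs_nonneg _) (by positivity)
      _ = _ := by ring
  have s : ∀ p1 p2 p3 p4 p5 p6 M : ℝ, |p1| ≤ M → |p2| ≤ M → |p3| ≤ M → |p4| ≤ M → |p5| ≤ M →
      |p6| ≤ M → |p1 + p2 + p3 + p4 + p5 + p6| ≤ 6 * M := by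
    intro p1 p2 p3 p4 p5 p6 M a1 a2 a3 a4 a5 a6
    rw [abs_le] at *
    constructor <;> linarith [a1.1, a1.2, a2.1, a2.2, a3.1, a3.2, a4.1, a4.2, a5.1, a5.2, a6.1,
      a6.2]
  refine (s _ _ _ _ _ _ _ (t1 _ _ (e1 _ _ _ h4 h6 h5) (p 0 0)) (t1 _ _ (e1 _ _ _ h1 h6 h3) (p 1 1))
    (t1 _ _ (e1 _ _ _ h1 h4 h2) (p 2 2)) (t2 _ _ _ (e2 _ _ _ _ h3 h5 h2 h6) (p 0 1) (p 1 0))
    (t2 _ _ _ (e2 _ _ _ _ h2 h5 h3 h4) (p 0 2) (p 2 0))
    (t2 _ _ _ (e2 _ _ _ _ h2 h3 h1 h5) (p 1 2) (p 2 1))).trans (le_of_eq (by ring))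

/-- gradient of `Fq` in `x` -/
noncomputable def dF (b0 b1 : V3) (G : QF) (ζ : ℝ) (X : V3) : V3 :=
  fun k => bz b0 b1 ζ k + 2 * gv G X k

/-- the second family in the graded coordinates `X = Σ x k • M k`, `ζ = c + s z` -/
noncomputable def lift (b0 b1 : V3) (G : QF) (c s : ℝ) (M : Fin 3 → V3) : Qd where
  c0 := 0
  c1 := 0
  c2 := 0
  b := fun k => dt (bz b0 b1 c) (M k)
  d := fun k => s * dt b1 (M k)
  g := fun i j => dt (gv G (M i)) (M j)

theorem lift_ev (b0 b1 : V3) (G : QF) (c s : ℝ) (M : Fin 3 → V3) (z : ℝ) (x : V3) :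
    (lift b0 b1 G c s M).ev z x = Fq b0 b1 G (c + s * z) (Tl102.cmb M x) := by
  simp only [Qd.ev, lift, Fin.sum_univ_three, Fq, dt, bz, gv, QF.ev, Tl102.cmb, Matrix.cons_val]
  ring

theorem lift_gr (b0 b1 : V3) (G : QF) (c s : ℝ) (M : Fin 3 → V3) (z : ℝ) (x : V3) (k : Fin 3) :
    (lift b0 b1 G c s M).gr z x k = dt (dF b0 b1 G (c + s * z) (Tl102.cmb M x)) (M k) := by
  simp only [Qd.gr, lift, Fin.sum_univ_three, dF, dt, bz, gv, Tl102.cmb, Matrix.cons_val]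
  ring

theorem dual' (N R K V : V3) (j : Fin 3) : dt K (cr N R) * V j =
    N j * dt V (cr R K) + R j * dt V (cr K N) + K j * dt V (cr N R) := by
  fin_cases j <;> simp [cr, dt] <;> ring

/-- the graded frame of a nondegenerate family -/
noncomputable def fm (N R K : V3) (D s : ℝ) : Fin 3 → V3 :=
  ![fun j => s ^ 4 * cr R K j / D, fun j => s ^ 3 * cr N R j / D, fun j => -(s ^ 3 * cr K N j / D)]

/-- graded coordinates -/
noncomputable def co (N R K : V3) (s : ℝ) (X : V3) : V3 :=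
  ![dt N X / s ^ 4, dt K X / s ^ 3, -(dt R X / s ^ 3)]

section

variable {N R K : V3} {D s : ℝ}

theorem cmb_co (hD : D = dt K (cr N R)) (hD0 : D ≠ 0) (hs : s ≠ 0) (X : V3) :
    Tl102.cmb (fm N R K D s) (co N R K s X) = X := by
  funext j
  have h := dual N R K X j
  rw [← hD] at h
  simp only [Tl102.cmb, fm, co, Matrix.cons_val]
  field_simp
  linarith

theorem cov_co (hD : D = dt K (cr N R)) (hD0 : D ≠ 0) (hs : s ≠ 0) (V : V3) (j : Fin 3) :
    V j = N j / s ^ 4 * dt V (fm N R K D s 0) + K j / s ^ 3 * dt V (fm N R K D s 1) -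
      R j / s ^ 3 * dt V (fm N R K D s 2) := by
  have h := dual' N R K V j
  rw [← hD] at h
  have e0 : dt V (fm N R K D s 0) = s ^ 4 * dt V (cr R K) / D := by
    simp only [fm, dt, Matrix.cons_val]; ring
  have e1 : dt V (fm N R K D s 1) = s ^ 3 * dt V (cr N R) / D := by
    simp only [fm, dt, Matrix.cons_val]; ring
  have e2 : dt V (fm N R K D s 2) = -(s ^ 3 * dt V (cr K N) / D) := by
    simp only [fm, dt, Matrix.cons_val]; ring
  rw [e0, e1, e2]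
  field_simp
  linarith

theorem dt_cmb (V : V3) (M : Fin 3 → V3) (x : V3) :
    dt V (Tl102.cmb M x) = x 0 * dt V (M 0) + x 1 * dt V (M 1) + x 2 * dt V (M 2) := by
  simp only [dt, Tl102.cmb]; ring

theorem N_cmb (hD : D = dt K (cr N R)) (hD0 : D ≠ 0) (x : V3) :
    dt N (Tl102.cmb (fm N R K D s) x) = s ^ 4 * x 0 := by
  have h0 : dt N (cr R K) = D := by rw [hD]; simp only [dt, cr, Matrix.cons_val]; ring
  have h1 : dt N (cr N R) = 0 := by simp only [dt, cr, Matrix.cons_val]; ring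
  have h2 : dt N (cr K N) = 0 := by simp only [dt, cr, Matrix.cons_val]; ring
  have e0 : dt N (fm N R K D s 0) = s ^ 4 * dt N (cr R K) / D := by
    simp only [fm, dt, Matrix.cons_val]; ring
  have e1 : dt N (fm N R K D s 1) = s ^ 3 * dt N (cr N R) / D := by
    simp only [fm, dt, Matrix.cons_val]; ring
  have e2 : dt N (fm N R K D s 2) = -(s ^ 3 * dt N (cr K N) / D) := by
    simp only [fm, dt, Matrix.cons_val]; ring
  rw [dt_cmb, e0, e1, e2, h0, h1, h2]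
  field_simp
  ring

theorem R_cmb (hD : D = dt K (cr N R)) (hD0 : D ≠ 0) (x : V3) :
    dt R (Tl102.cmb (fm N R K D s) x) = -(s ^ 3 * x 2) := by
  have h0 : dt R (cr R K) = 0 := by simp only [dt, cr, Matrix.cons_val]; ring
  have h1 : dt R (cr N R) = 0 := by simp only [dt, cr, Matrix.cons_val]; ring
  have h2 : dt R (cr K N) = D := by rw [hD]; simp only [dt, cr, Matrix.cons_val]; ring
  have e0 : dt R (fm N R K D s 0) = s ^ 4 * dt R (cr R K) / D := by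
    simp only [fm, dt, Matrix.cons_val]; ring
  have e1 : dt R (fm N R K D s 1) = s ^ 3 * dt R (cr N R) / D := by
    simp only [fm, dt, Matrix.cons_val]; ring
  have e2 : dt R (fm N R K D s 2) = -(s ^ 3 * dt R (cr K N) / D) := by
    simp only [fm, dt, Matrix.cons_val]; ring
  rw [dt_cmb, e0, e1, e2, h0, h1, h2]
  field_simp
  ring

theorem K_cmb (hD : D = dt K (cr N R)) (hD0 : D ≠ 0) (x : V3) :
    dt K (Tl102.cmb (fm N R K D s) x) = s ^ 3 * x 1 := by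
  have h0 : dt K (cr R K) = 0 := by simp only [dt, cr, Matrix.cons_val]; ring
  have h2 : dt K (cr K N) = 0 := by simp only [dt, cr, Matrix.cons_val]; ring
  have e0 : dt K (fm N R K D s 0) = s ^ 4 * dt K (cr R K) / D := by
    simp only [fm, dt, Matrix.cons_val]; ring
  have e1 : dt K (fm N R K D s 1) = s ^ 3 * dt K (cr N R) / D := by
    simp only [fm, dt, Matrix.cons_val]; ring
  have e2 : dt K (fm N R K D s 2) = -(s ^ 3 * dt K (cr K N) / D) := by
    simp only [fm, dt, Matrix.cons_val]; ring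
  rw [dt_cmb, e0, e1, e2, h0, ← hD, h2]
  field_simp
  ring

end

/-- the container polynomial in graded coordinates -/
noncomputable def wg (G : QF) (N R : V3) (D s : ℝ) : Wq where
  γ := 0
  ζ := 0
  κ := -(s ^ 2 / D)
  c1 := 0
  c2 := s ^ 2 * aj G N N / D
  c3 := 0
  c4 := 2 * s ^ 3 * aj G R N / D
  c5 := s ^ 4 * aj G R R / D

/-- **the normal form** -/
theorem wg_q {b0 b1 : V3} {G : QF} {c s D : ℝ} (hD : D = dt (gv G (cr (bz b0 b1 c) b1))
    (cr (bz b0 b1 c) b1)) (hD0 : D ≠ 0) (z : ℝ) (x : V3) :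
    Fq b0 b1 G (c + s * z) (Tl102.cmb (fm (bz b0 b1 c) b1 (gv G (cr (bz b0 b1 c) b1)) D s) x) =
      s ^ 4 * (wg G (bz b0 b1 c) b1 D s).q z x := by
  set N := bz b0 b1 c with hN
  set K := gv G (cr N b1) with hK
  set X := Tl102.cmb (fm N b1 K D s) x with hX
  have h1 := N_cmb (s := s) hD hD0 x
  have h2 := R_cmb (s := s) hD hD0 x
  have h3 := K_cmb (s := s) hD hD0 x
  have h4 := norm_form G N b1 X
  rw [← hK, ← hD, ← hX] at *
  have e1 : Fq b0 b1 G (c + s * z) X = dt N X + s * z * dt b1 X + G.ev X := by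
    simp only [Fq, hN, bz, dt]; ring
  have e2 : G.ev X = (dt K X ^ 2 + (dt N X ^ 2 * aj G b1 b1 -
      2 * (dt N X * dt b1 X) * aj G b1 N + dt b1 X ^ 2 * aj G N N)) / D := by
    rw [eq_div_iff hD0, mul_comm]; exact h4
  rw [e1, e2, h1, h2, h3]
  simp only [Wq.q, wg]
  field_simp
  ring

theorem cr_bz (b0 b1 : V3) (c : ℝ) : cr (bz b0 b1 c) b1 = cr b0 b1 := by
  funext j
  fin_cases j <;> simp [cr, bz] <;> ring

theorem wqd_lift {b0 b1 : V3} {G : QF} {c s D : ℝ} (hD : D = dt (gv G (cr (bz b0 b1 c) b1))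
    (cr (bz b0 b1 c) b1)) (hD0 : D ≠ 0) (hs : s ≠ 0) (z : ℝ) (x : V3) (k : Fin 3) :
    (wqd (wg G (bz b0 b1 c) b1 D s)).gr z x k = 1 / s ^ 4 *
      (lift b0 b1 G c s (fm (bz b0 b1 c) b1 (gv G (cr (bz b0 b1 c) b1)) D s)).gr z x k := by
  have h := gr_zero (Q := dif (wqd (wg G (bz b0 b1 c) b1 D s)) (mul (1 / s ^ 4)
    (lift b0 b1 G c s (fm (bz b0 b1 c) b1 (gv G (cr (bz b0 b1 c) b1)) D s)))) (fun z x _ _ => by
      rw [dif_ev, mul_ev, wqd_ev, lift_ev, wg_q hD hD0]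
      field_simp
      ring) z x k
  rw [dif_gr, mul_gr] at h
  linarith

/-- **core**: a family small on the zero set of a nondegenerate family is a multiple of it -/
theorem core {b0 b1 β0 β1 : V3} {G Γ : QF} (hb0 : ∀ k, |b0 k| ≤ 2) (hb1 : ∀ k, |b1 k| ≤ 3 / 2)
    (hG : G.Le 13) {E s : ℝ} (hs : 0 < s)
    (hDs : 10 ^ 8 * s ≤ |dt (gv G (cr b0 b1)) (cr b0 b1)|)
    (hc : ∀ ζ, 0 ≤ ζ → ζ ≤ 1 → ∀ x : V3, (∀ k, |x k| ≤ 1 / 256) → Fq b0 b1 G ζ x = 0 →
      |Fq β0 β1 Γ ζ x| ≤ E) :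
    ∃ m : ℝ, ∀ ζ, 0 ≤ ζ → ζ ≤ 1 → ∀ X : V3, (∀ k, |X k| ≤ 1) → ∀ j,
      |dF β0 β1 Γ ζ X j - m * dF b0 b1 G ζ X j| ≤ 27200 * E / s ^ 8 := by
  have hE : 0 ≤ E := by
    have h := hc 0 le_rfl zero_le_one 0 (fun k => by simp) (by simp [Fq, dt, QF.ev])
    exact (abs_nonneg _).trans h
  obtain ⟨N, hN⟩ : ∃ N, N = bz b0 b1 (2 * s) := ⟨_, rfl⟩
  obtain ⟨K, hK⟩ : ∃ K, K = gv G (cr N b1) := ⟨_, rfl⟩
  obtain ⟨D, hD⟩ : ∃ D, D = dt K (cr N b1) := ⟨_, rfl⟩
  have hO : cr N b1 = cr b0 b1 := by rw [hN, cr_bz]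
  rw [← hO, ← hK, ← hD] at hDs
  have hD0 : D ≠ 0 := by
    rintro h
    rw [h, abs_zero] at hDs
    linarith
  have hDp : 0 < |D| := abs_pos.2 hD0
  have bO : ∀ k, |cr N b1 k| ≤ 6 := fun k => by
    rw [hO]
    exact (cr_abs hb0 hb1 k).trans (by norm_num)
  have bK : ∀ k, |K k| ≤ 234 := fun k => by
    rw [hK]
    exact (gv_abs hG bO k).trans (by norm_num)
  have bD : |D| ≤ 4212 := by
    rw [hD]
    exact (dt_abs bK bO).trans (by norm_num)
  have hs1 : s ≤ 1 / 20000 := by linarith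
  have bN : ∀ k, |N k| ≤ 4 := fun k => by
    rw [hN]
    show |b0 k + 2 * s * b1 k| ≤ 4
    refine (abs_add_le _ _).trans ?_
    rw [abs_mul, abs_of_pos (by positivity : (0 : ℝ) < 2 * s)]
    have := mul_le_mul_of_nonneg_left (hb1 k) (by positivity : (0 : ℝ) ≤ 2 * s)
    linarith [hb0 k]
  have hsD : s / |D| ≤ 1 / 10 ^ 8 := by
    rw [div_le_div_iff₀ hDp (by norm_num)]; linarith
  have hq : ∀ (y B : ℝ) (k : ℕ), |y| ≤ B → |s ^ (k + 2) * y / D| ≤ B / 10 ^ 12 := by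
    intro y B k hy
    have hB : 0 ≤ B := (abs_nonneg _).trans hy
    rw [abs_div, abs_mul, abs_of_pos (pow_pos hs _)]
    have e : s ^ (k + 2) * |y| / |D| = s ^ (k + 1) * (s / |D|) * |y| := by
      rw [pow_succ]; ring
    rw [e]
    have h1 : s ^ (k + 1) ≤ 1 / 10 ^ 4 := by
      calc s ^ (k + 1) ≤ s ^ 1 := pow_le_pow_of_le_one hs.le (by linarith) (by omega)
        _ ≤ _ := by rw [pow_one]; linarith
    calc s ^ (k + 1) * (s / |D|) * |y| ≤ 1 / 10 ^ 4 * (1 / 10 ^ 8) * B :=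
          mul_le_mul (mul_le_mul h1 hsD (by positivity) (by norm_num)) hy (abs_nonneg _)
            (by norm_num)
      _ = _ := by ring
  have bRR := aj_abs (a := 4) (b := 4) hG (fun k => (hb1 k).trans (by norm_num))
    (fun k => (hb1 k).trans (by norm_num))
  have bRN := aj_abs (a := 4) (b := 4) (x := b1) hG (fun k => (hb1 k).trans (by norm_num)) bN
  have bNN := aj_abs hG bN bN
  have z0 : |(0 : ℝ)| ≤ 1 / 1000 := by norm_num
  have hw : (wg G N b1 D s).Sm (1 / 1000) := by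
    refine ⟨z0, z0, z0, ?_, z0, ?_, ?_⟩
    · exact (hq _ _ 0 bNN).trans (by norm_num)
    · have h1 := hq _ _ 1 bRN
      have e : (wg G N b1 D s).c4 = 2 * (s ^ (1 + 2) * aj G b1 N / D) := by
        simp only [wg]; ring
      rw [e, abs_mul, abs_two]
      linarith
    · exact (hq _ _ 2 bRR).trans (by norm_num)
  have hκ : |(wg G N b1 D s).κ| ≤ 1 / 2 := by
    have h1 := hq 1 1 0 (by norm_num)
    have e : (wg G N b1 D s).κ = -(s ^ (0 + 2) * 1 / D) := by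
      simp only [wg]; ring
    rw [e, abs_neg]
    exact h1.trans (by norm_num)
  have bRK : ∀ k, |cr b1 K k| ≤ 702 := fun k => (cr_abs hb1 bK k).trans (by norm_num)
  have bKN : ∀ k, |cr K N k| ≤ 1872 := fun k => (cr_abs bK bN k).trans (by norm_num)
  obtain ⟨M, hM⟩ : ∃ M, M = fm N b1 K D s := ⟨_, rfl⟩
  have M0 : ∀ j, |M 0 j| ≤ 1 / 10000 := fun j => by
    rw [hM]; exact (hq _ _ 2 (bRK j)).trans (by norm_num)
  have M1 : ∀ j, |M 1 j| ≤ 1 / 10000 := fun j => by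
    rw [hM]; exact (hq _ _ 1 (bO j)).trans (by norm_num)
  have M2 : ∀ j, |M 2 j| ≤ 1 / 10000 := fun j => by
    rw [hM]
    show |-(s ^ (1 + 2) * cr K N j / D)| ≤ _
    rw [abs_neg]; exact (hq _ _ 1 (bKN j)).trans (by norm_num)
  have hwq : ∀ z x, Fq b0 b1 G (2 * s + s * z) (Tl102.cmb M x) =
      s ^ 4 * (wg G N b1 D s).q z x := by
    intro z x
    subst hM hK hN
    exact wg_q hD hD0 z x
  obtain ⟨ν, hν⟩ := gr_close hw le_rfl hκ (Q := lift β0 β1 Γ (2 * s) s M) (δ := E) (by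
    intro z x hz hx hzero
    rw [lift_ev]
    have hz' := abs_le.1 hz
    refine hc _ (by nlinarith) (by nlinarith) _ (fun k => ?_) (by rw [hwq, hzero, mul_zero])
    have p : ∀ a b : ℝ, |a| ≤ 2 → |b| ≤ 1 / 10000 → |a * b| ≤ 1 / 5000 := by
      intro a b ha hb
      rw [abs_mul]
      calc |a| * |b| ≤ 2 * (1 / 10000) := mul_le_mul ha hb (abs_nonneg _) (by norm_num)
        _ = _ := by norm_num
    have p0 := p _ _ (hx 0) (M0 k)
    have p1 := p _ _ (hx 1) (M1 k)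
    have p2 := p _ _ (hx 2) (M2 k)
    show |x 0 * M 0 k + x 1 * M 1 k + x 2 * M 2 k| ≤ 1 / 256
    rw [abs_le] at *
    constructor <;> linarith [p0.1, p0.2, p1.1, p1.2, p2.1, p2.2])
  have hgr : ∀ z x k, (wqd (wg G N b1 D s)).gr z x k =
      1 / s ^ 4 * (lift b0 b1 G (2 * s) s M).gr z x k := by
    intro z x k
    subst hM hK hN
    exact wqd_lift hD hD0 hs.ne' z x k
  refine ⟨ν / s ^ 4, fun ζ h0 h1 X hX j => ?_⟩
  have s4 : 0 < s ^ 4 := by positivity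
  have s3 : 0 < s ^ 3 := by positivity
  obtain ⟨z, hz⟩ : ∃ z, z = (ζ - 2 * s) / s := ⟨_, rfl⟩
  obtain ⟨x, hx⟩ : ∃ x, x = co N b1 K s X := ⟨_, rfl⟩
  have ez : 2 * s + s * z = ζ := by rw [hz]; field_simp; ring
  have ex : Tl102.cmb M x = X := by rw [hM, hx]; exact cmb_co hD hD0 hs.ne' X
  have s34 : ∀ B : ℝ, 0 ≤ B → B ≤ 1000 → B / s ^ 3 ≤ 1 / s ^ 4 := by
    intro B hB hB'
    rw [div_le_div_iff₀ s3 s4]
    have : B * s ≤ 1 := by nlinarith
    calc B * s ^ 4 = B * s * s ^ 3 := by ring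
      _ ≤ 1 * s ^ 3 := mul_le_mul_of_nonneg_right this s3.le
  have bz' : |z| ≤ 12 / s ^ 4 := by
    rw [hz, abs_div, abs_of_pos hs]
    have h2 : |ζ - 2 * s| ≤ 1 := abs_le.2 ⟨by linarith, by linarith⟩
    have h3 : |ζ - 2 * s| / s ≤ 1 / s := div_le_div_of_nonneg_right h2 hs.le
    have h4 : 1 / s ≤ 1 / s ^ 4 := by
      apply one_div_le_one_div_of_le s4
      calc s ^ 4 ≤ s ^ 1 := pow_le_pow_of_le_one hs.le (by linarith) (by norm_num)
        _ = s := pow_one s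
    have h5 : 1 / s ^ 4 ≤ 12 / s ^ 4 := div_le_div_of_nonneg_right (by norm_num) s4.le
    linarith
  have bx : ∀ k, |x k| ≤ 12 / s ^ 4 := by
    have e14 : 1 / s ^ 4 ≤ 12 / s ^ 4 := div_le_div_of_nonneg_right (by norm_num) s4.le
    intro k
    rw [hx]
    fin_cases k
    · show |dt N X / s ^ 4| ≤ _
      rw [abs_div, abs_of_pos s4]
      exact div_le_div_of_nonneg_right ((dt_abs bN hX).trans (by norm_num)) s4.le
    · show |dt K X / s ^ 3| ≤ _
      rw [abs_div, abs_of_pos s3]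
      have h2 : |dt K X| / s ^ 3 ≤ 702 / s ^ 3 :=
        div_le_div_of_nonneg_right ((dt_abs bK hX).trans (by norm_num)) s3.le
      linarith [s34 702 (by norm_num) (by norm_num)]
    · show |-(dt b1 X / s ^ 3)| ≤ _
      rw [abs_neg, abs_div, abs_of_pos s3]
      have h2 : |dt b1 X| / s ^ 3 ≤ 9 / 2 / s ^ 3 :=
        div_le_div_of_nonneg_right ((dt_abs hb1 hX).trans (by norm_num)) s3.le
      linarith [s34 (9 / 2) (by norm_num) (by norm_num)]
  obtain ⟨V, hV⟩ : ∃ V : V3, V = fun j => dF β0 β1 Γ ζ X j - ν / s ^ 4 * dF b0 b1 G ζ X j :=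
    ⟨_, rfl⟩
  have hVk : ∀ k, |dt V (M k)| ≤ 3400 * E / s ^ 4 := by
    intro k
    have h2 := hν (12 / s ^ 4) z x bz' bx k
    rw [hgr, lift_gr, lift_gr, ez, ex] at h2
    have e : dt V (M k) = dt (dF β0 β1 Γ ζ X) (M k) -
        ν * (1 / s ^ 4 * dt (dF b0 b1 G ζ X) (M k)) := by
      rw [hV]; simp only [dt]; ring
    rw [e]
    refine h2.trans ?_
    have h3 : 1 + 7 * (12 / s ^ 4) ≤ 85 / s ^ 4 := by
      have : 1 ≤ 1 / s ^ 4 := by
        rw [le_div_iff₀ s4, one_mul]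
        exact pow_le_one₀ hs.le (by linarith)
      have e2 : 85 / s ^ 4 = 1 / s ^ 4 + 7 * (12 / s ^ 4) := by ring
      rw [e2]; linarith
    calc 40 * E * (1 + 7 * (12 / s ^ 4)) ≤ 40 * E * (85 / s ^ 4) :=
          mul_le_mul_of_nonneg_left h3 (by positivity)
      _ = _ := by ring
  have hVj := cov_co (V := V) hD hD0 hs.ne' j
  rw [← hM] at hVj
  have goal : |V j| ≤ 27200 * E / s ^ 8 := by
    rw [hVj]
    have a0 : |N j / s ^ 4| ≤ 4 / s ^ 4 := by
      rw [abs_div, abs_of_pos s4]; exact div_le_div_of_nonneg_right (bN j) s4.le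
    have a1 : |K j / s ^ 3| ≤ 1 / s ^ 4 := by
      rw [abs_div, abs_of_pos s3]
      exact (div_le_div_of_nonneg_right (bK j) s3.le).trans (s34 _ (by norm_num) (by norm_num))
    have a2 : |b1 j / s ^ 3| ≤ 1 / s ^ 4 := by
      rw [abs_div, abs_of_pos s3]
      exact (div_le_div_of_nonneg_right (hb1 j) s3.le).trans (s34 _ (by norm_num) (by norm_num))
    have m0 : |N j / s ^ 4 * dt V (M 0)| ≤ 4 / s ^ 4 * (3400 * E / s ^ 4) := by
      rw [abs_mul]; exact mul_le_mul a0 (hVk 0) (abs_nonneg _) (by positivity)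
    have m1 : |K j / s ^ 3 * dt V (M 1)| ≤ 1 / s ^ 4 * (3400 * E / s ^ 4) := by
      rw [abs_mul]; exact mul_le_mul a1 (hVk 1) (abs_nonneg _) (by positivity)
    have m2 : |b1 j / s ^ 3 * dt V (M 2)| ≤ 1 / s ^ 4 * (3400 * E / s ^ 4) := by
      rw [abs_mul]; exact mul_le_mul a2 (hVk 2) (abs_nonneg _) (by positivity)
    have e : 27200 * E / s ^ 8 = 8 * (1 / s ^ 4 * (3400 * E / s ^ 4)) := by
      field_simp; ring
    have e4 : 4 / s ^ 4 * (3400 * E / s ^ 4) = 4 * (1 / s ^ 4 * (3400 * E / s ^ 4)) := by ring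
    have p : 0 ≤ 1 / s ^ 4 * (3400 * E / s ^ 4) := by positivity
    rw [e]
    rw [e4] at m0
    rw [abs_le] at *
    constructor <;> linarith [m0.1, m0.2, m1.1, m1.2, m2.1, m2.2]
  rw [hV] at goal
  exact goal

end Crest.Agent.R136.TL650
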