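import Crest.Agent.R136.TL0_196
import Crest.Agent.R136.TL1_196
import Crest.Agent.R136.Aw1_413

/-!
# R136, lightlike case, profile facts at the record line (helper196)

`RecJ` : joint tangent of `(ν, own)` of `Thick` at (moving) points of the record line;
`RecJ.facts` (`RecFacts` = the profile fields of `RecW`), `RecJ.prf` (774's `Prf`),
`RecJ.dmax_nat`.
-/

set_option autoImplicit false
set_option linter.unusedVariables false

open Finset Filter Topology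

namespace Crest.Agent.R136.TL196

open Crest.Agent.R138.Ex926
open Crest.Agent.R136.Net191
open Crest.Agent.R136.NetQ186
open Crest.Agent.R136.GeoQ186
open Crest.Agent.R136.Wq638
open Crest.Agent.R136.Lq196
open Crest.Agent.R136.Top484
open Crest.Agent.R136.NatT550
open Crest.Agent.R136.NatR550
open Crest.Agent.R136.TopB550
open Crest.Agent.R136.Qg926
open Crest.Agent.R136.Zpr779
open Crest.Agent.R136.Gz779
open Crest.Agent.R136.Own831
open Crest.Agent.R136.LdF3511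

/-- unit vector of the slot `1` -/
def e1 : Fin 11 → ℝ := ![0, 1, 0, 0, 0, 0, 0, 0, 0, 0, 0]

theorem e1_eq : e1 = Pi.single 1 1 := by
  funext k
  fin_cases k <;> simp [e1]

/-- **the profile fields of `RecW`** -/
structure RecFacts (c : LCtx) (lam lo : (Fin 11 → ℝ) → ℝ) : Prop where
  prf : K2S774.Prf coneN lam lo (11 : ℕ)
  zero : lam 0 = 0
  ozero : lo 0 = 0
  recd : ∀ s : ℝ, lam (s • c.ρ) = s * DL c.p c.ρ
  dmax : ∀ a ∈ coneN, (c.p.θ 1 = 1 → a 10 ≤ 0) → lam a ≤ DL c.p a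
  /-- D-max with the angular slots (511's functional) -/
  dmaxF : ∀ a ∈ coneN, (c.p.θ 1 = 1 → a 0 + a 7 ≤ 0) → lam a ≤ DlF c.p a
  lo_up : ∀ a ∈ coneN, lo a ≤ -(a 0)
  lo_full : ∀ a ∈ coneN, a 3 ≤ a 0 → a 4 ≤ (1 - c.p.θ 1) * a 0 → lo a = -(a 0)

/-- **joint tangent of `(ν, own)` at points of the record line** -/
structure RecJ (c : LCtx) (ξ₀ : ℝ) (ξ h : ℕ → ℝ) (lam lo : (Fin 11 → ℝ) → ℝ) : Prop where
  ξ0 : 0 < ξ₀
  ξ1 : ξ₀ < 1
  pos : ∀ l, 0 < h l
  zero : Tendsto h atTop (𝓝 0)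
  lim : Tendsto ξ atTop (𝓝 ξ₀)
  tan : IsTan (Leg monQ c.R) coneN c.ν (fun l => c.X (ξ l)) h lam
  tano : IsTan (Leg monQ c.R) coneN c.own (fun l => c.X (ξ l)) h lo

theorem X_eq (c : LCtx) (ξ : ℝ) : c.X ξ = recF c.p.θ c.w0 (c.R - 1) ξ := rfl

theorem ρ_eq (c : LCtx) : c.ρ = rhoF c.p.θ := rfl

/-- the two linear D-max functionals agree on natural vectors -/
theorem DL_nL (p : Par4) (v t1 t2 t3 : ℝ) : DL p (nL v t1 t2 t3) = DlF p (nL v t1 t2 t3) := by
  rw [DlF_nL]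
  simp only [DL, nL, Matrix.cons_val]
  ring

theorem X_add (c : LCtx) (ξ x : ℝ) : c.X ξ + x • c.ρ = c.X (ξ + x) := recF_add _ _ _ _ _

/-- natural part plus a free slot `1` -/
theorem X_nat (c : LCtx) (ξ h v t1 t2 t3 y : ℝ) : c.X ξ + h • (nL v t1 t2 t3 + y • e1) =
    nat4 c.w0 (c.R - 1 + h * y) (ξ + h * v) (-(c.p.θ 1 * ξ) + h * t1) (-(c.p.θ 2 * ξ) + h * t2)
      (-(c.p.θ 0 * ξ) + h * t3) := by
  funext k
  fin_cases k <;>
    simp only [LCtx.X, nat4, nL, e1, Pi.add_apply, Pi.smul_apply, smul_eq_mul, Matrix.cons_val,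
      Fin.zero_eta, Fin.mk_one, Fin.reduceFinMk, Fin.isValue] <;> ring

theorem nL_mem (v t1 t2 t3 : ℝ) : nL v t1 t2 t3 ∈ coneN := by
  refine ⟨?_, ?_, ?_, ?_, ?_, ?_, ?_, ?_, ?_, ?_⟩ <;>
    simp only [nL, Matrix.cons_val] <;> linarith

theorem coneN_add {a b : Fin 11 → ℝ} (ha : a ∈ coneN) (hb : b ∈ coneN) : a + b ∈ coneN := by
  obtain ⟨a1, a2, a3, a4, a5, a6, a7, a8, a9, a10⟩ := ha
  obtain ⟨b1, b2, b3, b4, b5, b6, b7, b8, b9, b10⟩ := hb
  refine ⟨?_, ?_, ?_, ?_, ?_, ?_, ?_, ?_, ?_, ?_⟩ <;> simp only [Pi.add_apply] <;> linarith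

theorem coneN_smul {a : Fin 11 → ℝ} (ha : a ∈ coneN) {t : ℝ} (ht : 0 ≤ t) : t • a ∈ coneN := by
  obtain ⟨a1, a2, a3, a4, a5, a6, a7, a8, a9, a10⟩ := ha
  refine ⟨?_, ?_, ?_, ?_, ?_, ?_, ?_, ?_, ?_, ?_⟩ <;>
    simp only [Pi.smul_apply, smul_eq_mul, ← mul_add] <;>
    exact mul_le_mul_of_nonneg_left (by assumption) ht

theorem coneN_zero : (0 : Fin 11 → ℝ) ∈ coneN := by
  refine ⟨?_, ?_, ?_, ?_, ?_, ?_, ?_, ?_, ?_, ?_⟩ <;> simp

theorem e1_mem (y : ℝ) : y • e1 ∈ coneN := by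
  refine ⟨?_, ?_, ?_, ?_, ?_, ?_, ?_, ?_, ?_, ?_⟩ <;>
    simp only [e1, Pi.smul_apply, smul_eq_mul, Matrix.cons_val] <;> linarith

theorem coneN_closed : IsClosed coneN := by
  have h : coneN = K2S774.cn (Dg219.mw monQ) (AF ∅) := cn_W10.symm
  rw [h]
  exact K2S774.cn_closed

theorem ρ_mem (c : LCtx) (s : ℝ) : s • c.ρ ∈ coneN := by
  rw [ρ_eq]; unfold rhoF
  rw [nL_smul]
  exact nL_mem _ _ _ _

/-- affine functions of the moving record point -/
theorem RecJ.aff {c : LCtx} {ξ₀ : ℝ} {ξ h : ℕ → ℝ} {lam lo : (Fin 11 → ℝ) → ℝ}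
    (H : RecJ c ξ₀ ξ h lam lo) (a b d : ℝ) :
    Tendsto (fun l => a + b * ξ l + h l * d) atTop (𝓝 (a + b * ξ₀)) := by
  have h1 := ((H.lim.const_mul b).const_add a).add (H.zero.mul_const d)
  rwa [zero_mul, add_zero] at h1

theorem RecJ.lt {c : LCtx} {ξ₀ : ℝ} {ξ h : ℕ → ℝ} {lam lo : (Fin 11 → ℝ) → ℝ}
    (H : RecJ c ξ₀ ξ h lam lo) {r a b : ℝ} (d : ℝ) (hr : r < a + b * ξ₀) :
    ∀ᶠ l in (atTop : Filter ℕ), r < a + b * ξ l + h l * d :=
  (H.aff a b d).eventually_const_lt hr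

theorem RecJ.gt {c : LCtx} {ξ₀ : ℝ} {ξ h : ℕ → ℝ} {lam lo : (Fin 11 → ℝ) → ℝ}
    (H : RecJ c ξ₀ ξ h lam lo) {r a b : ℝ} (d : ℝ) (hr : a + b * ξ₀ < r) :
    ∀ᶠ l in (atTop : Filter ℕ), a + b * ξ l + h l * d < r :=
  (H.aff a b d).eventually_lt_const hr

section facts

variable {η : ℝ} {c : LCtx} {ξ₀ : ℝ} {ξ h : ℕ → ℝ} {lam lo : (Fin 11 → ℝ) → ℝ}

theorem R_room (ok : c.Ok η) : 2 * c.w0 + c.T0 < c.R - 1 ∧ c.R - 1 < c.R ∧ 0 < c.R - 1 :=
  R1_room ok.th.tp.big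

/-- value on the record line -/
theorem rec_val (ok : c.Ok η) {ξ : ℝ} (h0 : 0 ≤ ξ) (h1 : ξ < 1) :
    c.ν (c.X ξ) = c.c₀ + DN c.p ξ (-(c.p.θ 1 * ξ)) (-(c.p.θ 2 * ξ)) (-(c.p.θ 0 * ξ)) :=
  rec_eq ok.th (R_room ok).2.1.le (R_room ok).1.le h0 h1

/-- own value near the record line -/
theorem own_val (ok : c.Ok η) {p : Fin 11 → ℝ} (hp : p ∈ Leg monQ c.R) {v : ℝ} (h0 : 0 ≤ v)
    (h1 : v ≤ 1) (hz : p 0 = c.w0 + v) (h3 : p 3 ≤ c.w0 + (c.p.θ 2 - c.p.θ 0) * v)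
    (h4 : p 4 ≤ 2 * c.w0 + (c.p.θ 1 - c.p.θ 0) * v) : c.own p = 1 - v := by
  have h2 := ok.th.ext.own_rot p hp v h0 h1 hz fun k => ?_
  · rw [h2]; ring
  · unfold ownQ
    by_cases hk0 : k = 0
    · subst hk0
      rw [if_pos rfl, hz]
    · rw [if_neg hk0]
      split_ifs with hk
      · rcases (ok.th.tp.slots.vis k hk).1 with rfl | rfl | rfl
        · exact absurd hk ok.pat.1
        · refine h3.trans (le_of_eq ?_)
          simp only [pathQ, Matrix.cons_val]; try ring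
        · refine h4.trans (le_of_eq ?_)
          simp only [pathQ, Matrix.cons_val]; try ring
      · exact hp.2 k

theorem RecJ.prf (H : RecJ c ξ₀ ξ h lam lo) (ok : c.Ok η) : K2S774.Prf coneN lam lo (11 : ℕ) :=
  (prf_ext ok.th.ext).tan H.pos H.tan H.tano

/-- **D-max at natural directions** (slot `1` free) -/
theorem RecJ.dmax_nat (H : RecJ c ξ₀ ξ h lam lo) (ok : c.Ok η) {v t1 t2 t3 y : ℝ}
    (hy : c.p.θ 1 = 1 → v + t3 ≤ 0) :
    lam (nL v t1 t2 t3 + y • e1) ≤ DL c.p (nL v t1 t2 t3) := by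
  have hθ := ok.th.tp.ok.θ1
  have hL : c.p.θ 2 - c.p.θ 0 = 1 := ok.pat.2.2.1
  have hL2 : c.p.θ 2 = 2 * c.p.θ 1 := ok.pat.2.2.2
  have hξ0 := H.ξ0
  have hξ1 := H.ξ1
  have hc : nL v t1 t2 t3 + y • e1 ∈ coneN := coneN_add (nL_mem _ _ _ _) (e1_mem y)
  have k0 := H.lt (r := 0) (a := 0) (b := 1) v (by linarith)
  have k1 := H.gt (r := 1) (a := 0) (b := 1) v (by linarith)
  have k2 := H.lt (r := -c.p.θ 1) (a := 0) (b := -c.p.θ 1) t1 (by nlinarith)
  have k3 := H.lt (r := -c.p.θ 1) (a := 0) (b := -c.p.θ 1) (t2 - t1) (by nlinarith)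
  have k4 := H.lt (r := 0) (a := 0) (b := 1) (t3 - t2) (by linarith)
  have k5 : ∀ᶠ l in (atTop : Filter ℕ), (1 - c.p.θ 0) * ξ l + h l * (v + t3) ≤
      max 0 (1 - c.p.θ 0) := by
    by_cases hc1 : c.p.θ 1 = 1
    · have e0 : c.p.θ 0 = 1 := by linarith
      refine Eventually.of_forall fun l => ?_
      have := mul_nonneg (H.pos l).le (neg_nonneg.2 (hy hc1))
      rw [e0, sub_self, max_self]
      linarith
    · have hne : 1 - c.p.θ 0 ≠ 0 := fun h0 => hc1 (by linarith)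
      have hlt : 0 + (1 - c.p.θ 0) * ξ₀ < max 0 (1 - c.p.θ 0) := by
        rcases lt_or_gt_of_ne hne with hlt | hlt
        · rw [max_eq_left hlt.le]; nlinarith
        · rw [max_eq_right hlt.le]; nlinarith
      filter_upwards [H.gt (v + t3) hlt] with l hl
      linarith
  have k6 := H.lt (r := 0) (a := 0) (b := 1) 0 (by linarith)
  have k7 := H.gt (r := 1) (a := 0) (b := 1) 0 (by linarith)
  refine tan_le H.tan H.pos hc ?_
  filter_upwards [tan_mem H.tan hc, k0, k1, k2, k3, k4, k5, k6, k7] with l m k0 k1 k2 k3 k4 k5 k6 k7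
  rw [X_nat] at m ⊢
  have hab : min 0 (c.p.θ 1 - c.p.θ 2) ≤
      -(c.p.θ 2 * ξ l) + h l * t2 - (-(c.p.θ 1 * ξ l) + h l * t1) := by
    refine (min_le_right _ _).trans ?_
    rw [hL2]
    nlinarith
  have hby : min 0 (c.p.θ 2 - c.p.θ 0) ≤
      -(c.p.θ 0 * ξ l) + h l * t3 - (-(c.p.θ 2 * ξ l) + h l * t2) := by
    rw [hL, min_eq_left zero_le_one]
    have : c.p.θ 0 = c.p.θ 2 - 1 := by linarith
    rw [this]
    nlinarith
  have h8 := nat_dmax ok.th m (by linarith) (by linarith) (by linarith) hab hby (by linarith)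
  rw [rec_val ok (by linarith) (by linarith)]
  refine h8.trans (le_of_eq ?_)
  rw [DN_nat, ← nL_smul, DlF_smul, DL_nL]
  ring

/-- **all profile facts at the record line** -/
theorem RecJ.facts (H : RecJ c ξ₀ ξ h lam lo) (ok : c.Ok η) : RecFacts c lam lo := by
  have hθ := ok.th.tp.ok.θ1
  have hL : c.p.θ 2 - c.p.θ 0 = 1 := ok.pat.2.2.1
  have hL2 : c.p.θ 2 = 2 * c.p.θ 1 := ok.pat.2.2.2
  have hξ0 := H.ξ0
  have hξ1 := H.ξ1
  have prf := H.prf ok
  have k6 := H.lt (r := 0) (a := 0) (b := 1) 0 (by linarith)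
  have k7 := H.gt (r := 1) (a := 0) (b := 1) 0 (by linarith)
  -- the own value at the base
  have hX0 : ∀ x : ℝ, c.X x 0 = c.w0 + x := fun x => by
    simp only [LCtx.X, nat4, Matrix.cons_val]
  have hX3 : ∀ x : ℝ, c.X x 3 = c.w0 + (c.p.θ 2 - c.p.θ 0) * x := fun x => by
    simp only [LCtx.X, nat4, Matrix.cons_val]; ring
  have hX4 : ∀ x : ℝ, c.X x 4 = 2 * c.w0 + (c.p.θ 1 - c.p.θ 0) * x := fun x => by
    simp only [LCtx.X, nat4, Matrix.cons_val]; ring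
  have hbase : ∀ᶠ l in (atTop : Filter ℕ), c.own (c.X (ξ l)) = 1 - ξ l := by
    filter_upwards [tan_mem H.tano coneN_zero, k6, k7] with l m k6 k7
    rw [smul_zero, add_zero] at m
    exact own_val ok m (by linarith) (by linarith) (hX0 _) (hX3 _).le (hX4 _).le
  have hz : ∀ (a : Fin 11 → ℝ) (l : ℕ), (c.X (ξ l) + h l • a) 0 = c.w0 + (ξ l + h l * a 0) := by
    intro a l
    rw [Pi.add_apply, hX0, Pi.smul_apply, smul_eq_mul]; ring
  have up : ∀ a ∈ coneN, lo a ≤ -(a 0) := by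
    intro a ha
    refine tan_le H.tano H.pos ha ?_
    have k0 := H.lt (r := 0) (a := 0) (b := 1) (a 0) (by linarith)
    have k1 := H.gt (r := 1) (a := 0) (b := 1) (a 0) (by linarith)
    filter_upwards [tan_mem H.tano ha, k0, k1, hbase] with l m k0 k1 hb
    have := ok.th.ext.own_up _ m (ξ l + h l * a 0) (by linarith) (by linarith) (hz a l)
    rw [hb]
    linarith
  refine ⟨prf, H.tan.zero H.pos coneN_zero, H.tano.zero H.pos coneN_zero, fun s => ?_,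
    fun a ha ha1 => ?_, fun a ha ha1 => ?_, up, fun a ha h3 h4 => le_antisymm (up a ha) ?_⟩
  · -- record values
    have k0 := H.lt (r := 0) (a := 0) (b := 1) s (by linarith)
    have k1 := H.gt (r := 1) (a := 0) (b := 1) s (by linarith)
    have key : ∀ᶠ l in (atTop : Filter ℕ), c.ν (c.X (ξ l) + h l • s • c.ρ) =
        c.ν (c.X (ξ l)) + h l * (s * DL c.p c.ρ) := by
      filter_upwards [k0, k1, k6, k7] with l k0 k1 k6 k7
      rw [smul_smul, X_add, rec_val ok (by linarith) (by linarith),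
        rec_val ok (by linarith) (by linarith), ρ_eq]
      unfold rhoF
      rw [DL_nL, DlF_nL]
      unfold DN
      ring
    exact le_antisymm (tan_le H.tan H.pos (ρ_mem c s) (key.mono fun l hl => hl.le))
      (tan_ge H.tan H.pos (ρ_mem c s) (key.mono fun l hl => hl.ge))
  · -- D-max
    have hd := H.dmax_nat ok (v := a 0) (t1 := a 8 - a 0) (t2 := a 9 - a 0) (t3 := a 10 - a 0)
      (y := a 1) (fun h1 => by have := ha1 h1; linarith)
    have e0 : DL c.p (nL (a 0) (a 8 - a 0) (a 9 - a 0) (a 10 - a 0)) = DL c.p a := by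
      simp only [DL, nL, Matrix.cons_val]; ring
    rw [e0] at hd
    refine le_trans (prf.mono _ (coneN_add (nL_mem _ _ _ _) (e1_mem _)) _ ha fun k => ?_) hd
    obtain ⟨a1, a2, a3, a4, a5, a6, a7, a8, a9, a10⟩ := ha
    fin_cases k <;>
      simp only [nL, e1, Pi.add_apply, Pi.smul_apply, smul_eq_mul, Matrix.cons_val,
        Fin.zero_eta, Fin.mk_one, Fin.reduceFinMk, Fin.isValue] <;> linarith
  · -- D-max, angular form
    have hd := H.dmax_nat ok (v := a 0) (t1 := a 5) (t2 := a 6) (t3 := a 7) (y := a 1) ha1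
    have hup := upX_W10 ha
    have hle := le_upX ha
    have h1 := prf.sharp _ ha _ hup hle
    have hnl : nL (a 0) (a 5) (a 6) (a 7) + a 1 • e1 ≤ upX a := by
      intro k
      obtain ⟨b1, b2, b3, b4, b5, b6, b7, b8, b9, b10⟩ := ha
      fin_cases k <;>
        simp only [nL, e1, upX, Pi.add_apply, Pi.smul_apply, smul_eq_mul, Matrix.cons_val,
          Fin.zero_eta, Fin.mk_one, Fin.reduceFinMk, Fin.isValue] <;> linarith
    have h2 := prf.mono _ (coneN_add (nL_mem _ _ _ _) (e1_mem _)) _ hup hnl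
    have hsum : ∑ k, (upX a k - a k) =
        (a 0 + a 5 - a 8) + (a 0 + a 6 - a 9) + (a 0 + a 7 - a 10) := by
      simp [Fin.sum_univ_succ, upX]
      ring
    rw [hsum] at h1
    rw [DL_nL, DlF_nL] at hd
    simp only [DlF]
    linarith
  · -- own values
    refine tan_ge H.tano H.pos ha ?_
    have k0 := H.lt (r := 0) (a := 0) (b := 1) (a 0) (by linarith)
    have k1 := H.gt (r := 1) (a := 0) (b := 1) (a 0) (by linarith)
    filter_upwards [tan_mem H.tano ha, k0, k1, hbase] with l m k0 k1 hb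
    have hl := (H.pos l).le
    have m3 := mul_le_mul_of_nonneg_left h3 hl
    have m4 := mul_le_mul_of_nonneg_left h4 hl
    rw [hb, own_val ok m (v := ξ l + h l * a 0) (by linarith) (by linarith) (hz a l) ?_ ?_]
    · linarith
    · rw [Pi.add_apply, hX3, Pi.smul_apply, smul_eq_mul, hL]; linarith
    · rw [Pi.add_apply, hX4, Pi.smul_apply, smul_eq_mul]
      have : c.p.θ 1 - c.p.θ 0 = 1 - c.p.θ 1 := by linarith
      rw [this]; linarith

end facts

end Crest.Agent.R136.TL196
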