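import Crest.Agent.R136.TL1_650
import Crest.Agent.R136.Tlt0_51

/-!
# R136, two-level closeness in coefficient form (helper650), part 2

`tnV`, `tnQ` : coefficients in the tangent basis `κ f0, E1, E2` of a sheet; **`two_level`** :
closeness on the base box ⊢ the second polynomial is a multiple of the first one, coefficient by
coefficient; **`close_coef`** : the same for two marks (`Tlt51.Close`).
-/

set_option autoImplicit false
set_option linter.unusedVariables false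

namespace Crest.Agent.R136.TL650

open Crest.Agent.R136.Sh605
open Crest.Agent.R136.Tl102
open Crest.Agent.R136.Arc880 (det3)
open Crest.Agent.R136.KapP335 (kapP DetP expP expP_spec kapP_eq detP_iff)
open Crest.Agent.R136.Tlt51 (Close Shp InP)
open Crest.Agent.R136.K4 (Plk4)

/-- `Γ - m G` -/
def qdif (m : ℝ) (Γ G : QF) : QF where
  yy := Γ.yy - m * G.yy
  yu := Γ.yu - m * G.yu
  yv := Γ.yv - m * G.yv
  uu := Γ.uu - m * G.uu
  uv := Γ.uv - m * G.uv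
  vv := Γ.vv - m * G.vv

/-- coefficients from the gradients -/
theorem coef_of_dF {b0 b1 β0 β1 : V3} {G Γ : QF} {m X : ℝ}
    (h : ∀ ζ, 0 ≤ ζ → ζ ≤ 1 → ∀ x : V3, (∀ k, |x k| ≤ 1) → ∀ j,
      |dF β0 β1 Γ ζ x j - m * dF b0 b1 G ζ x j| ≤ X) :
    (∀ k, |β0 k - m * b0 k| ≤ X) ∧ (∀ k, |β1 k - m * b1 k| ≤ 2 * X) ∧
      (qdif m Γ G).Le (2 * X) := by
  have hX : 0 ≤ X := (abs_nonneg _).trans (h 0 le_rfl zero_le_one 0 (fun k => by simp) 0)
  have h0 : ∀ k, |β0 k - m * b0 k| ≤ X := by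
    intro k
    have := h 0 le_rfl zero_le_one 0 (fun k => by simp) k
    have e : dF β0 β1 Γ 0 0 k - m * dF b0 b1 G 0 0 k = β0 k - m * b0 k := by
      fin_cases k <;> simp [dF, bz, gv]
    rwa [e] at this
  have h1 : ∀ k, |β1 k - m * b1 k| ≤ 2 * X := by
    intro k
    have h2 := h 1 zero_le_one le_rfl 0 (fun k => by simp) k
    have e : dF β0 β1 Γ 1 0 k - m * dF b0 b1 G 1 0 k =
        (β0 k - m * b0 k) + (β1 k - m * b1 k) := by
      fin_cases k <;> simp [dF, bz, gv] <;> ring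
    rw [e] at h2
    have h3 := h0 k
    rw [abs_le] at *
    constructor <;> linarith [h2.1, h2.2, h3.1, h3.2]
  have g : ∀ (x : V3), (∀ k, |x k| ≤ 1) → ∀ j, |2 * (gv Γ x j - m * gv G x j)| ≤ 2 * X := by
    intro x hx j
    have h2 := h 0 le_rfl zero_le_one x hx j
    have e : dF β0 β1 Γ 0 x j - m * dF b0 b1 G 0 x j =
        (β0 j - m * b0 j) + 2 * (gv Γ x j - m * gv G x j) := by
      simp only [dF, bz]; ring
    rw [e] at h2
    have h3 := h0 j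
    rw [abs_le] at *
    constructor <;> linarith [h2.1, h2.2, h3.1, h3.2]
  have v : ∀ a b c : ℝ, |a| ≤ 1 → |b| ≤ 1 → |c| ≤ 1 → ∀ k, |(![a, b, c] : V3) k| ≤ 1 := by
    intro a b c ha hb hc k
    fin_cases k
    · exact ha
    · exact hb
    · exact hc
  have o : |(1 : ℝ)| ≤ 1 := by norm_num
  have n : |(0 : ℝ)| ≤ 1 := by norm_num
  have x0 := g ![1, 0, 0] (v _ _ _ o n n)
  have x1 := g ![0, 1, 0] (v _ _ _ n o n)
  have x2 := g ![0, 0, 1] (v _ _ _ n n o)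
  have a00 := x0 0
  have a01 := x0 1
  have a02 := x0 2
  have a11 := x1 1
  have a12 := x1 2
  have a22 := x2 2
  simp only [gv, Matrix.cons_val, mul_one, mul_zero, add_zero, zero_add] at a00 a01 a02 a11 a12 a22
  refine ⟨h0, h1, ?_, ?_, ?_, ?_, ?_, ?_⟩
  · show |Γ.yy - m * G.yy| ≤ _
    rw [abs_le] at *; constructor <;> linarith [a00.1, a00.2]
  · show |Γ.yu - m * G.yu| ≤ _
    rw [abs_le] at *; constructor <;> linarith [a01.1, a01.2]
  · show |Γ.yv - m * G.yv| ≤ _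
    rw [abs_le] at *; constructor <;> linarith [a02.1, a02.2]
  · show |Γ.uu - m * G.uu| ≤ _
    rw [abs_le] at *; constructor <;> linarith [a11.1, a11.2]
  · show |Γ.uv - m * G.uv| ≤ _
    rw [abs_le] at *; constructor <;> linarith [a12.1, a12.2]
  · show |Γ.vv - m * G.vv| ≤ _
    rw [abs_le] at *; constructor <;> linarith [a22.1, a22.2]

/-- a covector in the tangent basis `κ f0, E1, E2` of the sheet with `b0` (units of `w 0`) -/
noncomputable def tnV (κ : ℝ) (b0 β : V3) : V3 :=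
  ![κ * β 0, β 1 - b0 1 / b0 0 * β 0, β 2 - b0 2 / b0 0 * β 0]

/-- a quadratic form in the tangent basis `κ f0, E1, E2` -/
noncomputable def tnQ (κ : ℝ) (b0 : V3) (Γ : QF) : QF where
  yy := κ ^ 2 * Γ.yy
  yu := κ * (shG b0 Γ).yu
  yv := κ * (shG b0 Γ).yv
  uu := (shG b0 Γ).uu
  uv := (shG b0 Γ).uv
  vv := (shG b0 Γ).vv

theorem Fq_tn (κ : ℝ) (b0 β0 β1 : V3) (Γ : QF) (ζ : ℝ) (x : V3) :
    Fq (tnV κ b0 β0) (tnV κ b0 β1) (tnQ κ b0 Γ) ζ x =
      Fq β0 β1 Γ ζ (unsh b0 (κ * x 0) (x 1) (x 2)) := by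
  simp only [Fq, dt, bz, QF.ev, tnV, tnQ, unsh, shG, Matrix.cons_val]
  ring

theorem tnV_self0 {κ : ℝ} {b0 : V3} (h : b0 0 ≠ 0) (k : Fin 3) :
    tnV κ b0 b0 k = κ * shB0 b0 k := by
  fin_cases k <;> simp [tnV, shB0] <;> field_simp <;> ring

theorem tnV_self1 {κ : ℝ} {b0 : V3} (hκ : κ ≠ 0) (b1 : V3) (k : Fin 3) :
    tnV κ b0 b1 k = κ * scB1 κ b0 b1 k := by
  fin_cases k <;> simp [tnV, scB1, shB1] <;> field_simp

theorem tnQ_self {κ : ℝ} {b0 : V3} (hκ : κ ≠ 0) (G : QF) :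
    tnQ κ b0 G = (scG κ b0 G).smul κ := by
  simp only [tnQ, scG, QF.smul, QF.mk.injEq]
  refine ⟨by ring, trivial, trivial, ?_, ?_, ?_⟩ <;> field_simp

theorem Fq_sc {κ : ℝ} {b0 b1 : V3} {G : QF} (h : b0 0 ≠ 0) (hκ : κ ≠ 0) (ζ : ℝ) (x : V3) :
    κ * Fq (shB0 b0) (scB1 κ b0 b1) (scG κ b0 G) ζ x =
      Fq b0 b1 G ζ (unsh b0 (κ * x 0) (x 1) (x 2)) := by
  rw [Fq_scaled h hκ]
  congr 2
  funext k
  fin_cases k <;> rfl

/-- the determinant of the fan at the lower end -/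
theorem det_eq {b0 b1 : V3} {G : QF} {κ : ℝ} :
    dt (gv (scG κ b0 G) (cr (shB0 b0) (scB1 κ b0 b1))) (cr (shB0 b0) (scB1 κ b0 b1)) =
      -(16777216 * b0 0 ^ 2 * det3 (fan (shB0 b0) (scB1 κ b0 b1) (scG κ b0 G) 0)) := by
  simp only [det3, fan, slp, cr, gv, dt, shB0, Matrix.cons_val]
  simp only [mul_zero, zero_mul, add_zero, zero_add, neg_zero, zero_div, sub_zero]
  ring

/-- **two-level closeness in coefficient form** -/
theorem two_level {q q2 : ℝ → V3 → ℝ} {e : Fin 3 → V3} {w : V3} {T : Ln4} {z0 ρ a E δ : ℝ}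
    {b0 b1 β0 β1 : V3} {G Γ : QF} (he : Ortho e) (hw : ∀ i, 0 < w i) (hρ : 0 ≤ ρ)
    (hx : IsExp q e w T z0 ρ b0 b1 G) (N : NrmC b0 b1 G) (hκ : 0 < kap b0 b1 G) (hδ : 0 < δ)
    (hdet : δ ≤ |det3 (fan (shB0 b0) (scB1 (kap b0 b1 G) b0 b1) (scG (kap b0 b1 G) b0 G) 0)|)
    (hx2 : IsExp q2 e w T z0 ρ β0 β1 Γ) (hT : ∀ z, z0 ≤ z → z ≤ z0 + ρ → |q z (T.pos z)| ≤ a)
    (hc : ∀ z, z0 ≤ z → z ≤ z0 + ρ → ∀ x, InK e T (fun i => w i / 8) z x → |q z x| ≤ a →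
      |q2 z x| ≤ E) :
    ∃ m : ℝ, (∀ k, w 0 * |tnV (kap b0 b1 G) b0 β0 k - m * tnV (kap b0 b1 G) b0 b0 k| ≤
        10 ^ 17 * E / δ ^ 8) ∧
      (∀ k, w 0 * |tnV (kap b0 b1 G) b0 β1 k - m * tnV (kap b0 b1 G) b0 b1 k| ≤
        10 ^ 17 * E / δ ^ 8) ∧
      (qdif m (tnQ (kap b0 b1 G) b0 Γ) (tnQ (kap b0 b1 G) b0 G)).Le
        (10 ^ 17 * E / δ ^ 8 / w 0) := by
  obtain ⟨κ, hκd⟩ : ∃ κ, κ = kap b0 b1 G := ⟨_, rfl⟩
  have hsc := N.sc_le hκ
  have hk13 := kap_le N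
  rw [← hκd] at hκ hdet hsc hk13 ⊢
  obtain ⟨c1, c2, -, -, g1, g2, g3, g4, g5, g6⟩ := hsc
  obtain ⟨p1, p2, -, -, -, -, -, s1, s2⟩ := N.b1_le
  have hp0 : b0 0 ≠ 0 := by
    have : (0 : ℝ) < b0 0 := by linarith
    exact this.ne'
  have hw0 := hw 0
  have hG13 : (scG κ b0 G).Le 13 :=
    ⟨g1, by linarith, by linarith, by linarith, by linarith, by linarith⟩
  -- closeness on the zero set
  have hF : ∀ ζ, 0 ≤ ζ → ζ ≤ 1 → ∀ x : V3, (∀ k, |x k| ≤ 1 / 256) →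
      Fq (shB0 b0) (scB1 κ b0 b1) (scG κ b0 G) ζ x = 0 →
      |Fq (tnV κ b0 β0) (tnV κ b0 β1) (tnQ κ b0 Γ) ζ x| ≤ 2 * E / w 0 := by
    intro ζ h0 h1 x hx' hz
    have z1 : z0 ≤ z0 + ρ * ζ := by nlinarith
    have z2 : z0 + ρ * ζ ≤ z0 + ρ := by nlinarith
    have e1 := Fq_sc (b1 := b1) (G := G) hp0 hκ.ne' ζ x
    rw [hz, mul_zero] at e1
    rw [Fq_tn]
    set y := unsh b0 (κ * x 0) (x 1) (x 2) with hy
    have hy0 : ∀ k, |y k| ≤ 1 / 8 := by
      have q0 : |κ * x 0| ≤ 13 * (1 / 256) := by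
        rw [abs_mul, abs_of_pos hκ]
        exact mul_le_mul hk13 (hx' 0) (abs_nonneg _) (by norm_num)
      have q1 : |b0 1 / b0 0 * x 1| ≤ 2 * (1 / 256) := by
        rw [abs_mul]; exact mul_le_mul s1 (hx' 1) (abs_nonneg _) (by norm_num)
      have q2 : |b0 2 / b0 0 * x 2| ≤ 2 * (1 / 256) := by
        rw [abs_mul]; exact mul_le_mul s2 (hx' 2) (abs_nonneg _) (by norm_num)
      intro k
      fin_cases k
      · show |κ * x 0 - b0 1 / b0 0 * x 1 - b0 2 / b0 0 * x 2| ≤ _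
        rw [abs_le] at *
        constructor <;> linarith [q0.1, q0.2, q1.1, q1.2, q2.1, q2.2]
      · exact (hx' 1).trans (by norm_num)
      · exact (hx' 2).trans (by norm_num)
    have hin : ∀ y' : V3, (∀ k, |y' k| ≤ 1 / 8) →
        InK e T (fun i => w i / 8) (z0 + ρ * ζ) (T.pos (z0 + ρ * ζ) + cmb (fr e w) y') := by
      intro y' hy' i
      have e2 : dt (e i) (T.pos (z0 + ρ * ζ) + cmb (fr e w) y' - T.pos (z0 + ρ * ζ)) =
          dt (e i) (cmb (fr e w) y') := by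
        congr 1
        funext j
        simp
      rw [e2, dt_cmb_fr he, abs_mul, abs_of_pos (hw i)]
      have := mul_le_mul_of_nonneg_left (hy' i) (hw i).le
      linarith
    have h2 := hx ζ y
    rw [← e1, mul_zero, add_zero] at h2
    have h3 := hc _ z1 z2 _ (hin y hy0) (by rw [h2]; exact hT _ z1 z2)
    have h4 := hc _ z1 z2 (T.pos (z0 + ρ * ζ)) (by
      have := hin 0 (fun k => by simp)
      have e3 : cmb (fr e w) 0 = 0 := by
        funext j; simp [cmb]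
      rwa [e3, add_zero] at this) (hT _ z1 z2)
    rw [hx2 ζ y] at h3
    have h5 : |w 0 * Fq β0 β1 Γ ζ y| ≤ 2 * E := by
      rw [abs_le] at *
      constructor <;> linarith [h3.1, h3.2, h4.1, h4.2]
    rwa [abs_mul, abs_of_pos hw0, mul_comm, ← le_div_iff₀ hw0] at h5
  have hE : 0 ≤ E := by
    have := hc z0 le_rfl (by linarith) (T.pos z0) (by
      intro i
      rw [sub_self]
      have : dt (e i) 0 = 0 := by simp [dt]
      rw [this, abs_zero]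
      exact div_nonneg (hw i).le (by norm_num)) (hT _ le_rfl (by linarith))
    exact (abs_nonneg _).trans this
  have hD : 10 ^ 8 * (δ / 25) ≤ |dt (gv (scG κ b0 G) (cr (shB0 b0) (scB1 κ b0 b1)))
      (cr (shB0 b0) (scB1 κ b0 b1))| := by
    rw [det_eq, abs_neg, abs_mul, abs_of_pos (by positivity : (0 : ℝ) < 16777216 * b0 0 ^ 2)]
    have h4 : (1 : ℝ) / 4 ≤ b0 0 ^ 2 := by nlinarith
    calc 10 ^ 8 * (δ / 25) ≤ 16777216 * (1 / 4) * δ := by linarith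
      _ ≤ 16777216 * b0 0 ^ 2 * |det3 (fan (shB0 b0) (scB1 κ b0 b1) (scG κ b0 G) 0)| :=
          mul_le_mul (by linarith) hdet hδ.le (by positivity)
  obtain ⟨m, hm⟩ := core (β0 := tnV κ b0 β0) (β1 := tnV κ b0 β1) (Γ := tnQ κ b0 Γ) c1 c2 hG13
    (s := δ / 25) (by positivity) hD hF
  obtain ⟨r0, r1, r2⟩ := coef_of_dF hm
  have hX : 2 * (27200 * (2 * E / w 0) / (δ / 25) ^ 8) ≤ 10 ^ 17 * E / δ ^ 8 / w 0 := by
    have e1 : 2 * (27200 * (2 * E / w 0) / (δ / 25) ^ 8) =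
        (108800 * 25 ^ 8) * (E / δ ^ 8 / w 0) := by
      field_simp; ring
    have e2 : 10 ^ 17 * E / δ ^ 8 / w 0 = 10 ^ 17 * (E / δ ^ 8 / w 0) := by ring
    rw [e1, e2]
    have : 0 ≤ E / δ ^ 8 / w 0 := by positivity
    exact mul_le_mul_of_nonneg_right (by norm_num) this
  have hX0 : 0 ≤ 27200 * (2 * E / w 0) / (δ / 25) ^ 8 := by positivity
  have conv : ∀ x y : ℝ, |x - m * y| ≤ 2 * (27200 * (2 * E / w 0) / (δ / 25) ^ 8) →
      |x - m / κ * (κ * y)| ≤ 10 ^ 17 * E / δ ^ 8 / w 0 := by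
    intro x y h
    have e1 : m / κ * (κ * y) = m * y := by field_simp
    rw [e1]
    exact h.trans hX
  have conv' : ∀ x y : ℝ, |x - m * y| ≤ 2 * (27200 * (2 * E / w 0) / (δ / 25) ^ 8) →
      w 0 * |x - m / κ * (κ * y)| ≤ 10 ^ 17 * E / δ ^ 8 := by
    intro x y h
    have := conv x y h
    rwa [le_div_iff₀ hw0, mul_comm] at this
  refine ⟨m / κ, fun k => ?_, fun k => ?_, ?_⟩
  · rw [tnV_self0 hp0]
    exact conv' _ _ ((r0 k).trans (by linarith))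
  · rw [tnV_self1 hκ.ne' b1]
    exact conv' _ _ (r1 k)
  · rw [tnQ_self hκ.ne' G]
    obtain ⟨a1, a2, a3, a4, a5, a6⟩ := r2
    exact ⟨conv _ _ a1, conv _ _ a2, conv _ _ a3, conv _ _ a4, conv _ _ a5, conv _ _ a6⟩

/-! ### two marks -/

/-- symmetric difference at the lower end of the cell -/
theorem sym_diff {q : ℝ → V3 → ℝ} {e : Fin 3 → V3} {w : V3} {T : Ln4} {z0 ρ : ℝ} {b0 b1 : V3}
    {G : QF} (he : Ortho e) (hw : ∀ i, 0 < w i) (hx : IsExp q e w T z0 ρ b0 b1 G) (X : V3) :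
    q z0 (T.pos z0 + X) - q z0 (T.pos z0 - X) =
      2 * (w 0 * dt b0 (fun k => dt (e k) X / w k)) := by
  have hX : cmb (fr e w) (fun k => dt (e k) X / w k) = X := by
    funext j
    have h := he.expand X j
    simp only [cmb, fr, Pi.smul_apply, smul_eq_mul]
    have h0 := (hw 0).ne'
    have h1 := (hw 1).ne'
    have h2 := (hw 2).ne'
    field_simp
    linarith
  have hX' : cmb (fr e w) (fun k => -(dt (e k) X / w k)) = -X := by
    conv_rhs => rw [← hX]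
    funext j
    simp only [cmb, Pi.neg_apply]
    ring
  have h1 := hx 0 (fun k => dt (e k) X / w k)
  have h2 := hx 0 (fun k => -(dt (e k) X / w k))
  rw [hX, mul_zero, add_zero] at h1
  rw [hX', mul_zero, add_zero, ← sub_eq_add_neg] at h2
  rw [h1, h2]
  simp only [Fq, dt, bz, QF.ev]
  ring

/-- gradient of a sheet in a foreign frame -/
theorem grad_bd {q : ℝ → V3 → ℝ} {e e' : Fin 3 → V3} {w w' : V3} {T : Ln4} {z0 ρ : ℝ}
    {β0 β1 b0 b1 : V3} {Γ G : QF} (he : Ortho e) (hw : ∀ i, 0 < w i) (he' : Ortho e')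
    (hw' : ∀ i, 0 < w' i) (h1' : w' 0 ≤ w' 1) (h2' : w' 0 ≤ w' 2)
    (hx : IsExp q e w T z0 ρ β0 β1 Γ) (hx' : IsExp q e' w' T z0 ρ b0 b1 G) (N : NrmC b0 b1 G) :
    |β0 0| ≤ 4 ∧ 1 / 2 ≤ |β0 0| + w 0 / w 1 * |β0 1| + w 0 / w 2 * |β0 2| := by
  obtain ⟨p1, p2, -⟩ := N.b1_le
  have k1 := N.b01
  have k2 := N.b02
  have key : ∀ X : V3, w 0 * dt β0 (fun k => dt (e k) X / w k) =
      w' 0 * dt b0 (fun k => dt (e' k) X / w' k) := fun X => by
    have a1 := sym_diff he hw hx X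
    have a2 := sym_diff he' hw' hx' X
    linarith
  have r1 : w' 0 / w' 1 ≤ 1 := (div_le_one (hw' 1)).2 h1'
  have r2 : w' 0 / w' 2 ≤ 1 := (div_le_one (hw' 2)).2 h2'
  have le1 : ∀ {f g : Fin 3 → V3}, Ortho f → Ortho g → ∀ i j, |dt (f i) (g j)| ≤ 1 := by
    intro f g hf hg i j
    rw [← sq_le_one_iff_abs_le_one]
    have e1 : dt (g j) (g j) = dt (f 0) (g j) ^ 2 + dt (f 1) (g j) ^ 2 + dt (f 2) (g j) ^ 2 := by
      have h0 := hf.expand (g j) 0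
      have h1 := hf.expand (g j) 1
      have h2 := hf.expand (g j) 2
      have : dt (g j) (g j) = (dt (f 0) (g j) * f 0 0 + dt (f 1) (g j) * f 1 0 +
          dt (f 2) (g j) * f 2 0) * g j 0 + (dt (f 0) (g j) * f 0 1 + dt (f 1) (g j) * f 1 1 +
          dt (f 2) (g j) * f 2 1) * g j 1 + (dt (f 0) (g j) * f 0 2 + dt (f 1) (g j) * f 1 2 +
          dt (f 2) (g j) * f 2 2) * g j 2 := by
        rw [← h0, ← h1, ← h2]; rfl
      rw [this]
      simp only [dt]; ring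
    have e2 := hg j j
    rw [if_pos rfl] at e2
    rw [e2] at e1
    fin_cases i
    · show dt (f 0) (g j) ^ 2 ≤ 1
      nlinarith [sq_nonneg (dt (f 1) (g j)), sq_nonneg (dt (f 2) (g j))]
    · show dt (f 1) (g j) ^ 2 ≤ 1
      nlinarith [sq_nonneg (dt (f 0) (g j)), sq_nonneg (dt (f 2) (g j))]
    · show dt (f 2) (g j) ^ 2 ≤ 1
      nlinarith [sq_nonneg (dt (f 0) (g j)), sq_nonneg (dt (f 1) (g j))]
  constructor
  · have h := key (e 0)
    have e0 : w 0 * dt β0 (fun k => dt (e k) (e 0) / w k) = β0 0 := by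
      have a0 := he 0 0
      have a1 := he 1 0
      have a2 := he 2 0
      simp only [if_true] at a0
      rw [if_neg (by decide)] at a1 a2
      show w 0 * (β0 0 * (dt (e 0) (e 0) / w 0) + β0 1 * (dt (e 1) (e 0) / w 1) +
        β0 2 * (dt (e 2) (e 0) / w 2)) = _
      rw [a0, a1, a2]
      have := (hw 0).ne'
      field_simp
      ring
    rw [e0] at h
    have e1 : w' 0 * dt b0 (fun k => dt (e' k) (e 0) / w' k) = b0 0 * dt (e' 0) (e 0) +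
        w' 0 / w' 1 * (b0 1 * dt (e' 1) (e 0)) + w' 0 / w' 2 * (b0 2 * dt (e' 2) (e 0)) := by
      have h0 := (hw' 0).ne'
      simp only [dt]
      field_simp
    rw [h, e1]
    have m : ∀ a b A : ℝ, |a| ≤ A → |b| ≤ 1 → |a * b| ≤ A := by
      intro a b A ha hb
      rw [abs_mul]
      exact (mul_le_mul ha hb (abs_nonneg _) ((abs_nonneg _).trans ha)).trans (by linarith)
    have m' : ∀ t a : ℝ, 0 ≤ t → t ≤ 1 → |a| ≤ 1 → |t * a| ≤ 1 := by
      intro t a h0 h1 ha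
      rw [abs_mul, abs_of_nonneg h0]
      nlinarith [abs_nonneg a]
    have t0 := m _ _ 2 (abs_le.2 ⟨by linarith, p2⟩ : |b0 0| ≤ 2) (le1 he' he 0 0)
    have t1 := m' _ _ (div_pos (hw' 0) (hw' 1)).le r1 (m _ _ 1 k1 (le1 he' he 1 0))
    have t2 := m' _ _ (div_pos (hw' 0) (hw' 2)).le r2 (m _ _ 1 k2 (le1 he' he 2 0))
    rw [abs_le] at *
    constructor <;> linarith [t0.1, t0.2, t1.1, t1.2, t2.1, t2.2]
  · have h := key (e' 0)
    have e0 : w' 0 * dt b0 (fun k => dt (e' k) (e' 0) / w' k) = b0 0 := by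
      have a0 := he' 0 0
      have a1 := he' 1 0
      have a2 := he' 2 0
      simp only [if_true] at a0
      rw [if_neg (by decide)] at a1 a2
      show w' 0 * (b0 0 * (dt (e' 0) (e' 0) / w' 0) + b0 1 * (dt (e' 1) (e' 0) / w' 1) +
        b0 2 * (dt (e' 2) (e' 0) / w' 2)) = _
      rw [a0, a1, a2]
      have := (hw' 0).ne'
      field_simp
      ring
    rw [e0] at h
    have e1 : w 0 * dt β0 (fun k => dt (e k) (e' 0) / w k) = β0 0 * dt (e 0) (e' 0) +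
        w 0 / w 1 * (β0 1 * dt (e 1) (e' 0)) + w 0 / w 2 * (β0 2 * dt (e 2) (e' 0)) := by
      have h0 := (hw 0).ne'
      simp only [dt]
      field_simp
    rw [e1] at h
    have m : ∀ a b : ℝ, |b| ≤ 1 → a * b ≤ |a| := by
      intro a b hb
      refine (le_abs_self _).trans ?_
      rw [abs_mul]
      nlinarith [abs_nonneg a]
    have t0 := m (β0 0) _ (le1 he he' 0 0)
    have t1 := mul_le_mul_of_nonneg_left (m (β0 1) _ (le1 he he' 1 0))
      (div_pos (hw 0) (hw 1)).le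
    have t2 := mul_le_mul_of_nonneg_left (m (β0 2) _ (le1 he he' 2 0))
      (div_pos (hw 0) (hw 2)).le
    linarith

/-- size of the factor -/
theorem m_bd {κ w0 w1 w2 X m : ℝ} {b0 β0 : V3} (hw0 : 0 < w0) (h1 : w0 ≤ w1) (h2 : w0 ≤ w2)
    (hκ : 0 < κ) (hκ' : κ ≤ 13) (p1 : 1 / 2 ≤ b0 0) (p2 : b0 0 ≤ 2) (s1 : |b0 1 / b0 0| ≤ 2)
    (s2 : |b0 2 / b0 0| ≤ 2) (hX : 200 * X ≤ w0 * κ)
    (h : ∀ k, w0 * |tnV κ b0 β0 k - m * tnV κ b0 b0 k| ≤ X) (g1 : |β0 0| ≤ 4)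
    (g2 : 1 / 2 ≤ |β0 0| + w0 / w1 * |β0 1| + w0 / w2 * |β0 2|) :
    1 / 80 ≤ |m| ∧ |m| ≤ 9 := by
  have hb : b0 0 ≠ 0 := by
    have : (0 : ℝ) < b0 0 := by linarith
    exact this.ne'
  have k0 := h 0
  have k1 := h 1
  have k2 := h 2
  rw [tnV_self0 hb] at k0 k1 k2
  simp only [tnV, shB0, Matrix.cons_val, mul_zero, sub_zero] at k0 k1 k2
  have e0 : w0 * |κ * β0 0 - m * (κ * b0 0)| = w0 * κ * |β0 0 - m * b0 0| := by
    have : κ * β0 0 - m * (κ * b0 0) = κ * (β0 0 - m * b0 0) := by ring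
    rw [this, abs_mul, abs_of_pos hκ]; ring
  rw [e0] at k0
  have q0 : |β0 0 - m * b0 0| ≤ 1 / 200 := by
    have hp : 0 < w0 * κ := by positivity
    have : w0 * κ * |β0 0 - m * b0 0| ≤ w0 * κ * (1 / 200) := by linarith
    exact le_of_mul_le_mul_left this hp
  have hXw : X ≤ 13 / 200 * w0 := by nlinarith
  have lat : ∀ (y b : ℝ) (w : ℝ), w0 ≤ w → |b / b0 0| ≤ 2 →
      w0 * |y - b / b0 0 * β0 0| ≤ X → w0 / w * |y| ≤ 2 * |β0 0| + 13 / 200 := by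
    intro y b w hw hs hk
    have hwp : 0 < w := by linarith
    have r : w0 / w ≤ 1 := (div_le_one hwp).2 hw
    have r0 : 0 ≤ w0 / w := by positivity
    have e1 : |y - b / b0 0 * β0 0| ≤ 13 / 200 := by
      have : w0 * |y - b / b0 0 * β0 0| ≤ w0 * (13 / 200) := by linarith
      exact le_of_mul_le_mul_left this hw0
    have e2 : |y| ≤ 2 * |β0 0| + 13 / 200 := by
      have e3 : y = b / b0 0 * β0 0 + (y - b / b0 0 * β0 0) := by ring
      rw [e3]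
      refine (abs_add_le _ _).trans ?_
      rw [abs_mul]
      have := mul_le_mul_of_nonneg_right hs (abs_nonneg (β0 0))
      linarith
    nlinarith [abs_nonneg y]
  have l1 := lat _ _ w1 h1 s1 k1
  have l2 := lat _ _ w2 h2 s2 k2
  have low : 1 / 20 ≤ |β0 0| := by linarith
  have em : |m| * b0 0 = |m * b0 0| := by
    rw [abs_mul, abs_of_pos (by linarith : (0 : ℝ) < b0 0)]
  have q1 : |m * b0 0| ≤ 4 + 1 / 200 := by
    have e3 : m * b0 0 = β0 0 - (β0 0 - m * b0 0) := by ring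
    rw [e3]
    exact (abs_sub _ _).trans (by linarith)
  have q2 : 1 / 20 - 1 / 200 ≤ |m * b0 0| := by
    have e3 : β0 0 = m * b0 0 + (β0 0 - m * b0 0) := by ring
    have := abs_add_le (m * b0 0) (β0 0 - m * b0 0)
    rw [← e3] at this
    linarith
  rw [← em] at q1 q2
  constructor
  · nlinarith [abs_nonneg m]
  · nlinarith [abs_nonneg m]

/-- **two-level closeness of two marks in coefficient form**: `S` deep, over `[z0, z0 + ρ]`, `S'`
over a longer cell. -/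
theorem close_coef {S S' : Plk4} {T : Ln4} {z0 ρ z0' ρ' r r' δ E : ℝ} (hS : Shp S z0 ρ r)
    (hw0 : 0 < S.w 0) (hρ : 0 ≤ ρ) (hT : InP T S z0 ρ) (hS' : Shp S' z0' ρ' r')
    (hw0' : 0 < S'.w 0) (hz : z0' ≤ z0) (hz' : z0 + ρ ≤ z0' + ρ') (hT' : InP T S' z0' ρ')
    (hκ : 0 < kapP S z0 ρ T) (hδ : 0 < δ) (hdet : DetP δ S z0 ρ T) (hcl : Close E S S' T z0 ρ)
    {b0 b1 β0 β1 : V3} {G Γ : QF} (hx : IsExp S.q S.e S.w T z0 ρ b0 b1 G)
    (hx2 : IsExp S'.q S.e S.w T z0 ρ β0 β1 Γ) :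
    ∃ m : ℝ, (∀ k, S.w 0 * |tnV (kap b0 b1 G) b0 β0 k - m * tnV (kap b0 b1 G) b0 b0 k| ≤
        10 ^ 17 * E / δ ^ 8) ∧
      (∀ k, S.w 0 * |tnV (kap b0 b1 G) b0 β1 k - m * tnV (kap b0 b1 G) b0 b1 k| ≤
        10 ^ 17 * E / δ ^ 8) ∧
      (qdif m (tnQ (kap b0 b1 G) b0 Γ) (tnQ (kap b0 b1 G) b0 G)).Le
        (10 ^ 17 * E / δ ^ 8 / S.w 0) ∧
      (2 * 10 ^ 19 * E ≤ δ ^ 8 * kapP S z0 ρ T → 1 / 80 ≤ |m| ∧ |m| ≤ 9) := by
  have P : StP S.e S.c S.w S.q z0 ρ := StP.of_shN hS hw0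
  have P' : StP S'.e S'.c S'.w S'.q z0' ρ' := StP.of_shN hS' hw0'
  have Q : StP S'.e S'.c S'.w S'.q z0 ρ := by
    refine ⟨P'.ortho, P'.isQ, P'.pos, ?_, ?_, ?_⟩
    · exact fun z h1 h2 => P'.st0 z (hz.trans h1) (h2.trans hz')
    · exact fun z h1 h2 => P'.st1 z (hz.trans h1) (h2.trans hz')
    · exact fun z h1 h2 => P'.st2 z (hz.trans h1) (h2.trans hz')
  have N : NrmC b0 b1 G := hx.nrmC P hρ (fun z h1 h2 => (hT z h1 h2).1)
  have hkp : kapP S z0 ρ T = S.w 0 * kap b0 b1 G := kapP_eq hw0.ne' hx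
  have hk : 0 < kap b0 b1 G := by
    rw [hkp] at hκ
    exact (mul_pos_iff_of_pos_left hw0).1 hκ
  have hd := (detP_iff hw0.ne' hx δ).1 hdet 0 le_rfl zero_le_one
  obtain ⟨m, m1, m2, m3⟩ := two_level (a := S.a) (E := E) P.ortho P.pos hρ hx N hk hδ hd hx2
    (fun z h1 h2 => (hT z h1 h2).2) hcl
  refine ⟨m, m1, m2, m3, fun hsm => ?_⟩
  obtain ⟨b0', b1', G', hx'⟩ := exists_isExp P'.isQ S'.e hw0'.ne' T z0 ρ
  have N' : NrmC b0' b1' G' :=
    hx'.nrmC Q hρ (fun z h1 h2 => (hT' z (hz.trans h1) (h2.trans hz')).1)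
  obtain ⟨g1, g2⟩ := grad_bd P.ortho P.pos P'.ortho P'.pos (hS'.w0_le.trans hS'.w_le) hS'.w0_le
    hx2 hx' N'
  obtain ⟨p1, p2, -, -, -, -, -, s1, s2⟩ := N.b1_le
  refine m_bd hw0 (hS.w0_le.trans hS.w_le) hS.w0_le hk (kap_le N) p1 p2 s1 s2 ?_ m1 g1 g2
  rw [hkp] at hsm
  have h8 : 0 < δ ^ 8 := by positivity
  have e1 : 200 * (10 ^ 17 * E / δ ^ 8) = 2 * 10 ^ 19 * E / δ ^ 8 := by ring
  rw [e1, div_le_iff₀ h8]
  linarith

end Crest.Agent.R136.TL650
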