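import Crest.Agent.R136.TL2_196

/-!
# R136, lightlike case, record windows (helper196)

* `exists_recJ` : `RecJ` exists along every `ξ l → ξ₀ ∈ (0,1)`, `k l → 0+` (subsequence);
  `RecJ.comp` : tangent at moving points `s j • ρ`; `RecJ.next` : such tangents exist;
  `RecJ.jt` (774's `JT`), `RecJ.stage` (774's `Stage`, `Tie = {3, 4}`).
* `RecJ.win` : the windows `RecW` with a list of sub-polynomial losses; `RecW.refine`;
  `RecW.exists_cls` : honest class of the base `(0, -T1)` with own profiles (fields `cls`, `own` of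
  `GWin`).
-/

set_option autoImplicit false
set_option linter.unusedVariables false

open Finset Filter Topology

namespace Crest.Agent.R136.TL196

open Crest.Agent.R138.Ex926
open Crest.Agent.R136.Net191
open Crest.Agent.R136.NetQ186
open Crest.Agent.R136.GeoQ186
open Crest.Agent.R136.Wq638
open Crest.Agent.R136.Lq196
open Crest.Agent.R136.Top484
open Crest.Agent.R136.NatT550
open Crest.Agent.R136.NatR550
open Crest.Agent.R136.TopB550
open Crest.Agent.R136.Qg926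
open Crest.Agent.R136.Zpr779
open Crest.Agent.R136.Gz779
open Crest.Agent.R136.Own831
open Crest.Agent.R136.LdF3511

section recj

variable {η : ℝ} {c : LCtx} {ξ₀ : ℝ} {ξ h : ℕ → ℝ} {lam lo : (Fin 11 → ℝ) → ℝ}

/-- legality near the record point -/
theorem leg_mov (ok : c.Ok η) (h0 : 0 < ξ₀) (h1 : ξ₀ < 1) (hξ : Tendsto ξ atTop (𝓝 ξ₀))
    (hh : Tendsto h atTop (𝓝 0)) (hpos : ∀ l, 0 < h l) (C : ℝ) :
    ∀ᶠ l in (atTop : Filter ℕ), ∀ a ∈ coneN, ‖a‖ ≤ C → c.X (ξ l) + h l • a ∈ Leg monQ c.R := by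
  obtain ⟨δ, hδ, hl⟩ := recF_leg ok.th.tp.big (R_room ok).2.1 (R_room ok).1 h0 h1
  have k1 : Tendsto (fun l => |ξ l - ξ₀| * ‖c.ρ‖) atTop (𝓝 0) := by
    have h3 := (hξ.sub_const ξ₀).abs.mul_const ‖c.ρ‖
    rwa [sub_self, abs_zero, zero_mul] at h3
  have k2 : Tendsto (fun l => h l * |C|) atTop (𝓝 0) := by
    have h3 := hh.mul_const |C|
    rwa [zero_mul] at h3
  have hδ2 : 0 < δ / 2 := by positivity
  filter_upwards [k1.eventually_lt_const hδ2, k2.eventually_lt_const hδ2] with l m1 m2 a ha haC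
  have e1 : c.X (ξ l) + h l • a = c.X ξ₀ + ((ξ l - ξ₀) • c.ρ + h l • a) := by
    rw [← add_assoc, X_add]
    congr 2
    ring
  rw [e1]
  refine hl _ (coneN_add (ρ_mem c _) (coneN_smul ha (hpos l).le)) fun k => ?_
  have n1 : |(ξ l - ξ₀) * c.ρ k| ≤ |ξ l - ξ₀| * ‖c.ρ‖ := by
    rw [abs_mul]
    refine mul_le_mul_of_nonneg_left ?_ (abs_nonneg _)
    rw [← Real.norm_eq_abs]
    exact norm_le_pi_norm _ _
  have n2 : |h l * a k| ≤ h l * |C| := by
    rw [abs_mul, abs_of_pos (hpos l)]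
    refine mul_le_mul_of_nonneg_left ?_ (hpos l).le
    have := norm_le_pi_norm a k
    rw [Real.norm_eq_abs] at this
    exact (this.trans haC).trans (le_abs_self _)
  simp only [Pi.add_apply, Pi.smul_apply, smul_eq_mul]
  refine (abs_add_le _ _).trans ?_
  linarith

/-- **existence** -/
theorem exists_recJ (ok : c.Ok η) (h0 : 0 < ξ₀) (h1 : ξ₀ < 1) (hξ : Tendsto ξ atTop (𝓝 ξ₀))
    (hpos : ∀ l, 0 < h l) (hh : Tendsto h atTop (𝓝 0)) :
    ∃ φ : ℕ → ℕ, StrictMono φ ∧ ∃ lam lo : (Fin 11 → ℝ) → ℝ,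
      RecJ c ξ₀ (fun l => ξ (φ l)) (fun l => h (φ l)) lam lo := by
  have P := prf_ext ok.th.ext
  have hX := leg_mov ok h0 h1 hξ hh hpos
  obtain ⟨φ1, q1, lam, hlam⟩ := exists_tan_mov coneN_closed P.K0 P.lip (X := fun l => c.X (ξ l))
    hpos hX coneN_zero
  obtain ⟨φ2, q2, lo, hlo⟩ := exists_tan_mov coneN_closed P.K0 P.olip
    (X := fun l => c.X (ξ (φ1 l))) (g := fun l => h (φ1 l)) (fun l => hpos _)
    (fun C => q1.tendsto_atTop.eventually (hX C)) coneN_zero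
  have q3 : Tendsto (fun l => φ1 (φ2 l)) atTop atTop := q1.tendsto_atTop.comp q2.tendsto_atTop
  exact ⟨fun l => φ1 (φ2 l), q1.comp q2, lam, lo, h0, h1, fun l => hpos _, hh.comp q3,
    hξ.comp q3, tan_subseq hlam q2.tendsto_atTop, hlo⟩

theorem RecJ.subseq (H : RecJ c ξ₀ ξ h lam lo) {φ : ℕ → ℕ} (hφ : Tendsto φ atTop atTop) :
    RecJ c ξ₀ (fun l => ξ (φ l)) (fun l => h (φ l)) lam lo :=
  ⟨H.ξ0, H.ξ1, fun l => H.pos _, H.zero.comp hφ, H.lim.comp hφ, tan_subseq H.tan hφ,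
    tan_subseq H.tano hφ⟩

/-- **tangent at moving record points**, every fast subsequence -/
theorem RecJ.comp (H : RecJ c ξ₀ ξ h lam lo) {s k : ℕ → ℝ} {S : ℝ} (hs : ∀ j, |s j| ≤ S)
    (kpos : ∀ j, 0 < k j) (k0 : Tendsto k atTop (𝓝 0)) {lam' lo' : (Fin 11 → ℝ) → ℝ}
    (H1 : IsTan coneN coneN lam (fun j => s j • c.ρ) k lam')
    (H2 : IsTan coneN coneN lo (fun j => s j • c.ρ) k lo') :
    ∃ ψ₀ : ℕ → ℕ, ∀ ψ : ℕ → ℕ, (∀ m, ψ₀ m ≤ ψ m) →
      RecJ c ξ₀ (fun m => ξ (ψ m) + h (ψ m) * s m) (fun m => h (ψ m) * k m) lam' lo' := by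
  obtain ⟨ψ1, p1⟩ := tan_comp H.pos kpos H.tan (fun l => ρ_mem c _) H1
  obtain ⟨ψ2, p2⟩ := tan_comp H.pos kpos H.tano (fun l => ρ_mem c _) H2
  refine ⟨fun m => max (ψ1 m) (max (ψ2 m) m), fun ψ hψ => ?_⟩
  have t1 := p1 ψ fun m => (le_max_left _ _).trans (hψ m)
  have t2 := p2 ψ fun m => ((le_max_left _ _).trans (le_max_right _ _)).trans (hψ m)
  have hψt : Tendsto ψ atTop atTop := tendsto_atTop_mono
    (fun m => ((le_max_right _ _).trans (le_max_right _ _)).trans (hψ m)) tendsto_id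
  have hh0 := H.zero.comp hψt
  have e1 : (fun m => c.X (ξ (ψ m)) + h (ψ m) • s m • c.ρ) =
      fun m => c.X (ξ (ψ m) + h (ψ m) * s m) := by
    funext m
    rw [smul_smul, X_add]
  rw [e1] at t1 t2
  refine ⟨H.ξ0, H.ξ1, fun m => mul_pos (H.pos _) (kpos m), ?_, ?_, t1, t2⟩
  · have := hh0.mul k0
    rwa [zero_mul] at this
  · have h2 : Tendsto (fun m => h (ψ m) * s m) atTop (𝓝 0) := by
      have hb : Tendsto (fun m => h (ψ m) * |S|) atTop (𝓝 0) := by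
        have := hh0.mul_const |S|
        rwa [zero_mul] at this
      refine squeeze_zero_norm (fun m => ?_) hb
      rw [Real.norm_eq_abs, abs_mul, abs_of_pos (H.pos _)]
      exact mul_le_mul_of_nonneg_left ((hs m).trans (le_abs_self _)) (H.pos _).le
    have := (H.lim.comp hψt).add h2
    rwa [add_zero] at this

/-- tangents at moving record points exist -/
theorem RecJ.next (H : RecJ c ξ₀ ξ h lam lo) (ok : c.Ok η) (s : ℕ → ℝ) {k : ℕ → ℝ}
    (kpos : ∀ j, 0 < k j) :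
    ∃ φ : ℕ → ℕ, StrictMono φ ∧ ∃ lam' lo' : (Fin 11 → ℝ) → ℝ,
      IsTan coneN coneN lam (fun j => s (φ j) • c.ρ) (fun j => k (φ j)) lam' ∧
      IsTan coneN coneN lo (fun j => s (φ j) • c.ρ) (fun j => k (φ j)) lo' := by
  have P := H.prf ok
  have hX : ∀ C : ℝ, ∀ᶠ l in (atTop : Filter ℕ), ∀ a ∈ coneN, ‖a‖ ≤ C →
      s l • c.ρ + k l • a ∈ coneN := fun C => Eventually.of_forall fun l a ha _ =>
    coneN_add (ρ_mem c _) (coneN_smul ha (kpos l).le)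
  obtain ⟨φ1, q1, lam', hlam⟩ := exists_tan_mov coneN_closed P.K0 P.lip
    (X := fun l => s l • c.ρ) kpos hX coneN_zero
  obtain ⟨φ2, q2, lo', hlo⟩ := exists_tan_mov coneN_closed P.K0 P.olip
    (X := fun l => s (φ1 l) • c.ρ) (g := fun l => k (φ1 l)) (fun l => kpos _)
    (fun C => q1.tendsto_atTop.eventually (hX C)) coneN_zero
  exact ⟨fun l => φ1 (φ2 l), q1.comp q2, lam', lo', tan_subseq hlam q2.tendsto_atTop, hlo⟩

/-! ### 774's `JT` and `Stage` -/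

/-- own slopes of the tied slots -/
def oL (θ : Fin 3 → ℝ) : Fin 11 → ℝ := ![1, 0, 0, θ 2 - θ 0, θ 1 - θ 0, 0, 0, 0, 0, 0, 0]

theorem RecJ.jt (H : RecJ c ξ₀ ξ h lam lo) (ok : c.Ok η) :
    K2S774.JT (Dg219.mw monQ) (AF ∅) (Leg monQ c.R) c.ν c.own (c.X ξ₀) (fun l => c.X (ξ l)) h
      lam lo where
  pos := H.pos
  zero := H.zero
  nat := fun l w hw => by
    have := recF_nat c.p.θ c.w0 (c.R - 1) (ξ l) hw
    rw [X_eq, this]
    exact (add_zero _).symm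
  gap := fun w hw R => by
    have h1 := (recF_strict (θ := c.p.θ) ok.th.tp.big (R_room ok).1 H.ξ0 H.ξ1 w).resolve_left hw
    have hX : Tendsto (fun l => c.X (ξ l)) atTop (𝓝 (c.X ξ₀)) := by
      have h2 : Tendsto (fun l => c.X ξ₀ + (ξ l - ξ₀) • c.ρ) atTop (𝓝 (c.X ξ₀)) := by
        have h3 := ((H.lim.sub_const ξ₀).smul_const c.ρ).const_add (c.X ξ₀)
        rwa [sub_self, zero_smul, add_zero] at h3
      refine h2.congr fun l => ?_
      rw [X_add]; congr 1; ring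
    have h3 : Tendsto (fun l => (Dg219.mw monQ).rhs w (c.X (ξ l)) -
        c.X (ξ l) ((Dg219.mw monQ).hd w) - R * h l) atTop
        (𝓝 ((Dg219.mw monQ).rhs w (c.X ξ₀) - c.X ξ₀ ((Dg219.mw monQ).hd w) - R * 0)) :=
      ((((Dg219.mw monQ).rhs_cont w).tendsto _).comp hX |>.sub
        (((continuous_apply _).tendsto _).comp hX)).sub (H.zero.const_mul R)
    have h4 : (0 : ℝ) < (Dg219.mw monQ).rhs w (c.X ξ₀) - c.X ξ₀ ((Dg219.mw monQ).hd w) - R * 0 := by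
      rw [X_eq]; linarith
    filter_upwards [h3.eventually_const_lt h4] with l hl
    have e1 : (Dg219.mw monQ).cst w = 0 := rfl
    rw [e1]
    linarith
  base := by
    have h3 := ((H.lim.sub_const ξ₀).smul_const c.ρ).const_add (c.X ξ₀)
    rw [sub_self, zero_smul, add_zero] at h3
    refine h3.congr fun l => ?_
    rw [X_add]; congr 1; ring
  tan := by
    have : K2S774.cn (Dg219.mw monQ) (AF ∅) = coneN := cn_W10
    rw [this]; exact H.tan
  tano := by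
    have : K2S774.cn (Dg219.mw monQ) (AF ∅) = coneN := cn_W10
    rw [this]; exact H.tano

/-- record values at the base points -/
theorem RecJ.recX (H : RecJ c ξ₀ ξ h lam lo) (ok : c.Ok η) :
    K2S774.RecX c.ν (c.X ξ₀) (rhoF c.p.θ) (DlFL c.p) ∅ (fun l => c.X (ξ l)) h := by
  refine ⟨fun l => ξ l - ξ₀, fun l i _ => ?_, tendsto_const_nhds.congr' ?_⟩
  · have h1 := X_add c ξ₀ (ξ l - ξ₀)
    rw [add_sub_cancel] at h1
    show c.X (ξ l) i = c.X ξ₀ i + (ξ l - ξ₀) * rhoF c.p.θ i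
    rw [← h1, ρ_eq]
    simp only [Pi.add_apply, Pi.smul_apply, smul_eq_mul]
  · filter_upwards [H.lim.eventually_const_lt H.ξ0, H.lim.eventually_lt_const H.ξ1] with l g0 g1
    rw [rec_val ok g0.le g1, rec_val ok H.ξ0.le H.ξ1]
    have h2 := DN_nat c.p ξ₀ (-(c.p.θ 1 * ξ₀)) (-(c.p.θ 2 * ξ₀)) (-(c.p.θ 0 * ξ₀))
      ((ξ l - ξ₀) * 1) ((ξ l - ξ₀) * -c.p.θ 1) ((ξ l - ξ₀) * -c.p.θ 2) ((ξ l - ξ₀) * -c.p.θ 0)
    rw [← nL_smul, DlF_smul] at h2
    have e1 : ξ₀ + (ξ l - ξ₀) * 1 = ξ l := by ring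
    have e2 : -(c.p.θ 1 * ξ₀) + (ξ l - ξ₀) * -c.p.θ 1 = -(c.p.θ 1 * ξ l) := by ring
    have e3 : -(c.p.θ 2 * ξ₀) + (ξ l - ξ₀) * -c.p.θ 2 = -(c.p.θ 2 * ξ l) := by ring
    have e4 : -(c.p.θ 0 * ξ₀) + (ξ l - ξ₀) * -c.p.θ 0 = -(c.p.θ 0 * ξ l) := by ring
    rw [e1, e2, e3, e4] at h2
    rw [h2]
    have e5 : DlFL c.p (rhoF c.p.θ) = DlF c.p (nL 1 (-c.p.θ 1) (-c.p.θ 2) (-c.p.θ 0)) := rfl
    rw [e5]
    ring

/-- natural directions of the D-max cone -/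
def QdN (θ : Fin 3 → ℝ) : Set (Fin 11 → ℝ) :=
  {d | ∃ v t1 t2 t3 : ℝ, d = nL v t1 t2 t3 ∧ (θ 0 = 1 → v + t3 ≤ 0)}

theorem QdN_sub {θ : Fin 3 → ℝ} {d : Fin 11 → ℝ} (hd : d ∈ QdN θ) : d ∈ QdF θ := by
  obtain ⟨v, t1, t2, t3, rfl, h1⟩ := hd
  exact qd_nL h1

/-- **774's `Stage`** at the record line of the lightlike case, all D-max directions -/
theorem RecJ.stageF (H : RecJ c ξ₀ ξ h lam lo) (ok : c.Ok η) :
    K2S774.Stage (Dg219.mw monQ) (Leg monQ c.R) c.ν c.own (11 : ℕ) (c.X ξ₀) (rhoF c.p.θ)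
      (DlFL c.p) (QdF c.p.θ) {2, 5, 6} {3, 4} 0 (oL c.p.θ) 1 (AF ∅) ∅ lam lo := by
  have hL : c.p.θ 2 - c.p.θ 0 = 1 := ok.pat.2.2.1
  have hL2 : c.p.θ 2 = 2 * c.p.θ 1 := ok.pat.2.2.2
  have F := H.facts ok
  have hcn : K2S774.cn (Dg219.mw monQ) (AF ∅) = coneN := cn_W10
  refine
    { jt := ⟨_, _, H.jt ok, fun l i hi => ?_, H.recX ok⟩
      prf := by rw [hcn]; exact F.prf
      noD := fun w _ => ⟨Set.notMem_empty _, fun s hs => absurd hs (Set.notMem_empty s)⟩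
      ZD := fun i _ => Set.notMem_empty i
      TD := fun i _ => Set.notMem_empty i
      zD := Set.notMem_empty _
      ind := fun c₁ _ c₂ _ hcc _ => by
        rw [funext fun i => hcc i (Set.notMem_empty i)]
      rcd := fun σ => (F.recd σ).trans (by
        rw [ρ_eq]; unfold rhoF; rw [DL_nL]; rfl)
      dmx := fun c₁ hc₁ d hd hdc => ?_
      ownr := fun c₁ hc₁ ht => ?_
      ownu := fun c₁ hc₁ => ?_ }
  · simp only [Set.mem_insert_iff, Set.mem_singleton_iff] at hi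
    rcases hi with rfl | rfl <;>
      simp only [oL, LCtx.X, nat4, Matrix.cons_val] <;> ring
  · rw [hcn] at hc₁
    exact (F.prf.mono _ hd.1 _ hc₁ fun i => hdc i (Set.notMem_empty i)).trans
      (F.dmaxF d hd.1 fun h2 => hd.2 (by linarith))
  · rw [hcn] at hc₁
    have a3 := ht 3 (by simp)
    have a4 := ht 4 (by simp)
    simp only [oL, Matrix.cons_val] at a3 a4
    rw [F.lo_full c₁ hc₁ (by rw [hL] at a3; linarith) (by
      have : c.p.θ 1 - c.p.θ 0 = 1 - c.p.θ 1 := by linarith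
      rw [this] at a4; exact a4)]
    ring
  · rw [hcn] at hc₁
    have := F.lo_up c₁ hc₁
    linarith

/-- **774's `Stage`** at the record line of the lightlike case, natural D-max directions -/
theorem RecJ.stage (H : RecJ c ξ₀ ξ h lam lo) (ok : c.Ok η) :
    K2S774.Stage (Dg219.mw monQ) (Leg monQ c.R) c.ν c.own (11 : ℕ) (c.X ξ₀) (rhoF c.p.θ)
      (DlFL c.p) (QdN c.p.θ) {2, 5, 6} {3, 4} 0 (oL c.p.θ) 1 (AF ∅) ∅ lam lo :=
  { H.stageF ok with dmx := fun c₁ hc₁ d hd h1 => (H.stageF ok).dmx c₁ hc₁ d (QdN_sub hd) h1 }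

end recj

/-! ### windows -/

section win

variable {η : ℝ} {c : LCtx} {ξ₀ : ℝ} {ξ h : ℕ → ℝ} {lam lo : (Fin 11 → ℝ) → ℝ}

/-- **`RecW` from the profile facts and a window** -/
theorem RecFacts.recW (F : RecFacts c lam lo) {B' : Base} {J : ℕ → Finset (ℕ × ℝ)}
    {ξ w : ℕ → ℝ} (hJ : ∀ᶠ n in (U : Filter ℕ), J n ⊆ c.I1 n)
    (hξ : ∃ ξ₀ : ℝ, 0 < ξ₀ ∧ ξ₀ < 1 ∧ Tendsto ξ U (𝓝 ξ₀)) (hw : Tendsto w U (𝓝 0))
    (hZ : ZWin c.D.B B' c.D.I J (coF c.F) monQ 2 (fun n => c.X (ξ n)) w coneN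
      (fun n => c.D.B.d n ^ (-(c.ν (c.X (ξ n))))) lam)
    (hO : ZProf B' J (zolb c.D.B c.D.I (coF c.F) monQ 2 (fun n => c.X (ξ n)) w) coneN
      (fun n => c.D.B.d n ^ (-(c.own (c.X (ξ n))))) lo) : RecW c B' J ξ w lam lo where
  Jsub := hJ
  ξlim := hξ
  wlim := hw
  win := hZ
  oprof := hO
  olip := F.prf.olip
  oanti := by
    -- `own` is antitone: from `own_le` and `lo_up` it is not automatic, it comes from the profile
    intro a ha b hb hab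
    refine le_of_forall_pos_le_add fun ε hε => ?_
    obtain ⟨n, h1, h2⟩ := ((hO.num (max ‖a‖ ‖b‖) ε hε).and hZ.ne).exists
    obtain ⟨i, hi⟩ := h2
    have h3 := h1 a ha (le_max_left _ _) b hb (le_max_right _ _) hab i hi
    have h4 : (1 : ℝ) ≤ ((cls (J n) (zolb c.D.B c.D.I (coF c.F) monQ 2 (fun n => c.X (ξ n)) w n a)
        i).image (zolb c.D.B c.D.I (coF c.F) monQ 2 (fun n => c.X (ξ n)) w n b)).card := by
      exact_mod_cast card_pos.2 ⟨_, mem_image_of_mem _ (self_mem_cls hi)⟩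
    have hL := B'.L_pos n
    have h5 := Real.log_le_log one_pos (h4.trans h3)
    rw [Real.log_one, Real.log_rpow (B'.pos n), B'.log_d] at h5
    have h6 : 0 ≤ (lo a - lo b + ε) * B'.L n := by linarith
    have := nonneg_of_mul_nonneg_left h6 hL
    linarith
  own_le := F.prf.own_le
  recd := F.recd
  dmax := F.dmax
  lo_up := F.lo_up
  lo_full := F.lo_full

/-- **the record windows** -/
theorem RecJ.win (H : RecJ c ξ₀ ξ h lam lo) (ok : c.Ok η) (s : ℕ → ℕ → ℝ)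
    (hs : ∀ i, c.D.B.Sub (s i)) :
    ∃ k : ℕ → ℕ, Tendsto k U atTop ∧ ∀ k' : ℕ → ℕ, Tendsto k' U atTop →
      (∀ᶠ n in (U : Filter ℕ), k' n ≤ k n) → ∃ B' : Base,
        (∀ n, B'.d n = c.D.B.d n ^ h (k' n)) ∧ (∀ n, B'.L n = h (k' n) * c.D.B.L n) ∧
        (∀ i, B'.Sub (s i)) ∧
        RecW c B' c.I1 (fun n => ξ (k' n)) (fun n => h (k' n)) lam lo := by
  obtain ⟨k, hk, hk2⟩ := exists_zwin_ex (Aw413.nprof_of_ext ok.th.ext (by
    have := (R_room ok).2.2; linarith))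
    H.pos coneN_zero H.tan ok.th.ext.oprof coneN_zero H.tano s hs
  refine ⟨k, hk, fun k' hk' hle => ?_⟩
  obtain ⟨B', b1, b2, b3, b4, b5⟩ := hk2 k' hk' hle
  exact ⟨B', b1, b2, b3, (H.facts ok).recW (Eventually.of_forall fun n => subset_rfl)
    ⟨ξ₀, H.ξ0, H.ξ1, H.lim.comp hk'⟩ (H.zero.comp hk') b4 b5⟩

/-- a dense part has the same zoomed profile -/
theorem zprof_dense {B : Base} {ι κ : ℕ → Type*} [∀ n, DecidableEq (ι n)]
    [∀ n, DecidableEq (κ n)] {V : Type*} [LE V] [Norm V] {J J' : ∀ n, Finset (ι n)}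
    {f : ∀ n, V → ι n → κ n} {P : Set V} {T : ℕ → ℝ} {ν : V → ℝ} (h : ZProf B J f P T ν)
    (hT : ∀ n, 0 < T n) (hsub : ∀ᶠ n in (U : Filter ℕ), J' n ⊆ J n) {S : ℕ → ℝ} (hS : B.Sub S)
    (hd : ∀ᶠ n in (U : Filter ℕ), ((J n).card : ℝ) ≤ S n * (J' n).card) :
    ZProf B J' f P T ν where
  up := fun K ε hε => by
    filter_upwards [h.up K ε hε, hsub] with n h1 h2 p hp hpK i hi
    refine le_trans ?_ (h1 p hp hpK i (h2 hi))
    exact_mod_cast card_le_card (cls_mono h2 _ _)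
  num := fun K ε hε => by
    filter_upwards [h.num K ε hε, hsub] with n h1 h2 q hq hqK p hp hpK hqp i hi
    refine le_trans ?_ (h1 q hq hqK p hp hpK hqp i (h2 hi))
    exact_mod_cast card_le_card (image_subset_image (cls_mono h2 _ _))
  root := fun K ε hε => by
    filter_upwards [h.root K (ε / 2) (by positivity), hsub, hd,
      hS.ev_le (ε := ε / 2) (by positivity)] with n h1 h2 h3 h4 p hp hpK
    have e0 : 0 < B.d n ^ (ν p - ε / 2) := Real.rpow_pos_of_pos (B.pos n) _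
    have h5 : S n ≤ B.d n ^ (-(ε / 2)) := by
      rw [← B.exp_eq, ← Real.log_le_iff_le_exp h4.1]
      exact h4.2
    calc (((J' n).image (f n p)).card : ℝ) * T n
        ≤ (((J n).image (f n p)).card : ℝ) * T n := by
          refine mul_le_mul_of_nonneg_right ?_ (hT n).le
          exact_mod_cast card_le_card (image_subset_image h2)
      _ ≤ (J n).card * B.d n ^ (ν p - ε / 2) := h1 p hp hpK
      _ ≤ (S n * (J' n).card) * B.d n ^ (ν p - ε / 2) := mul_le_mul_of_nonneg_right h3 e0.le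
      _ ≤ (B.d n ^ (-(ε / 2)) * (J' n).card) * B.d n ^ (ν p - ε / 2) := by
          refine mul_le_mul_of_nonneg_right ?_ e0.le
          exact mul_le_mul_of_nonneg_right h5 (Nat.cast_nonneg _)
      _ = (J' n).card * (B.d n ^ (-(ε / 2)) * B.d n ^ (ν p - ε / 2)) := by ring
      _ = (J' n).card * B.d n ^ (ν p - ε) := by
          rw [← Real.rpow_add (B.pos n)]; congr 2; ring

/-- a dense part of a record window is a record window -/
theorem RecW.refine {B' : Base} {J J' : ℕ → Finset (ℕ × ℝ)} {ξ w : ℕ → ℝ}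
    (H : RecW c B' J ξ w lam lo) (hsub : ∀ᶠ n in (U : Filter ℕ), J' n ⊆ J n)
    (hne : ∀ᶠ n in (U : Filter ℕ), (J' n).Nonempty) {S : ℕ → ℝ} (hS : B'.Sub S)
    (hd : ∀ᶠ n in (U : Filter ℕ), ((J n).card : ℝ) ≤ S n * (J' n).card) :
    RecW c B' J' ξ w lam lo where
  Jsub := by filter_upwards [hsub, H.Jsub] with n a b using a.trans b
  ξlim := H.ξlim
  wlim := H.wlim
  win := H.win.refine hsub hne hS hd
  oprof := zprof_dense H.oprof (fun n => Real.rpow_pos_of_pos (c.D.B.pos n) _) hsub hS hd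
  olip := H.olip
  oanti := H.oanti
  own_le := H.own_le
  recd := H.recd
  dmax := H.dmax
  lo_up := H.lo_up
  lo_full := H.lo_full

theorem bT_mem (T1 : ℝ) : bT T1 ∈ coneN := nL_mem _ _ _ _

/-- the shifted own profile -/
theorem RecW.oprof_shift {B' : Base} {J : ℕ → Finset (ℕ × ℝ)} {ξ w : ℕ → ℝ}
    (H : RecW c B' J ξ w lam lo) (T1 : ℝ) :
    ZProf B' J (zolb c.D.B c.D.I (coF c.F) monQ 2 (c.XB T1 ξ w) w) {a | bT T1 + a ∈ coneN}
      (c.ToB T1 B' ξ lo) (fun a => lo (bT T1 + a) - lo (bT T1)) := by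
  have h1 := zprof_shift H.oprof (bT T1)
  have e1 : (fun n a => zolb c.D.B c.D.I (coF c.F) monQ 2 (fun n => c.X (ξ n)) w n (bT T1 + a)) =
      zolb c.D.B c.D.I (coF c.F) monQ 2 (c.XB T1 ξ w) w := by
    funext n a x
    unfold zolb zlab LCtx.XB
    rw [add_smul_shift]
  rw [e1] at h1
  exact h1

/-- the shifted window -/
theorem RecW.win_shift {B' : Base} {J : ℕ → Finset (ℕ × ℝ)} {ξ w : ℕ → ℝ}
    (H : RecW c B' J ξ w lam lo) (T1 : ℝ) :
    ZWin c.D.B B' c.D.I J (coF c.F) monQ 2 (c.XB T1 ξ w) w {a | bT T1 + a ∈ coneN}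
      (c.TB T1 B' ξ lam) (fun a => lam (bT T1 + a) - lam (bT T1)) :=
  H.win.shift (bT_mem T1)

/-- **honest class of the base `(0, -T1)` with own profiles** (fields `cls` and `own` of `GWin`) -/
theorem RecW.exists_cls {B' : Base} {J : ℕ → Finset (ℕ × ℝ)} {ξ w : ℕ → ℝ}
    (H : RecW c B' J ξ w lam lo) (T1 : ℝ) {Gd E : ℕ → Finset (ℕ × ℝ)}
    (hGd : ∀ᶠ n in (U : Filter ℕ), Gd n ⊆ J n) (hE : ∀ᶠ n in (U : Filter ℕ), E n ⊆ Gd n)
    {S : ℕ → ℝ} (hS : B'.Sub S)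
    (hd : ∀ᶠ n in (U : Filter ℕ), ((J n).card : ℝ) ≤ S n * (E n).card) :
    ∃ s₀ : ℕ → ℕ × ℝ, (∀ᶠ n in (U : Filter ℕ), s₀ n ∈ E n) ∧
      ZCls c.D.B B' c.D.I J (coF c.F) monQ 2 (c.XB T1 ξ w) w {a | bT T1 + a ∈ coneN}
        (c.TB T1 B' ξ lam) (fun a => lam (bT T1 + a) - lam (bT T1))
        (fun n => cls (Gd n) (zlab c.D.B c.D.I (coF c.F) monQ 2 (c.XB T1 ξ w) w n 0) (s₀ n)) s₀ ∧
      ∀ E' : ℕ → Finset (ℕ × ℝ),
        (∀ᶠ n in (U : Filter ℕ), E' n ⊆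
          cls (Gd n) (zlab c.D.B c.D.I (coF c.F) monQ 2 (c.XB T1 ξ w) w n 0) (s₀ n)) →
        (∀ ε : ℝ, 0 < ε → ∀ᶠ n in (U : Filter ℕ),
          ((cls (Gd n) (zlab c.D.B c.D.I (coF c.F) monQ 2 (c.XB T1 ξ w) w n 0) (s₀ n)).card : ℝ) ≤
            B'.d n ^ (-ε) * (E' n).card) →
        ∀ P ⊆ {a | bT T1 + a ∈ coneN}, ∀ R : ℝ, (∀ p ∈ P, ‖p‖ ≤ R) → (∀ p ∈ P, 0 ≤ p) →
          TProf B' E' (zolb c.D.B c.D.I (coF c.F) monQ 2 (c.XB T1 ξ w) w) P (c.ToB T1 B' ξ lo)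
            (fun a => lo (bT T1 + a) - lo (bT T1)) := by
  refine Zpr779.ZWin.exists_cls_own (H.win_shift T1) (fun _ => (0, 0)) hGd hE hS hd
    (line := fun _ x => x.1) (H.oprof_shift T1)
    (fun n => mul_pos (Real.rpow_pos_of_pos (c.D.B.pos n) _) (Real.rpow_pos_of_pos (B'.pos n) _))
    subset_rfl ?_ ?_ (a := fun _ => 1) (fun _ => le_rfl) ?_
  · show bT T1 + 0 ∈ coneN
    rw [add_zero]; exact bT_mem T1
  · intro p hp q hq
    have h1 := H.olip _ hp _ hq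
    have e1 : bT T1 + p - (bT T1 + q) = p - q := by abel
    rw [e1] at h1
    have e2 : lo (bT T1 + p) - lo (bT T1) - (lo (bT T1 + q) - lo (bT T1)) =
        lo (bT T1 + p) - lo (bT T1 + q) := by ring
    rw [e2]; exact h1
  · intro p hp t ht
    show bT T1 + (p + t • fun _ => (1 : ℝ)) ∈ coneN
    rw [← add_assoc]
    refine coneN_add hp (coneN_smul ?_ ht)
    refine ⟨?_, ?_, ?_, ?_, ?_, ?_, ?_, ?_, ?_, ?_⟩ <;> norm_num

end win

end Crest.Agent.R136.TL196
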