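import Crest.Agent.R136.NatR_550
import Crest.Agent.R136.K2S_774

/-!
# R136, scalar part of the thick table (helper628), part 1: surfaces and sweeps

Conventions of `NatT_550` v2 (level-`0` units; index `0` = thickness, `1` = wide, `2` = narrow).

`srf θ w0 R1 κ κ3 (v, t)` : natural boxes to the left of the record path.  `κ` = left slope of the
narrow width (`θ 1 - θ 2` if `21` is tied, `0` otherwise), `κ3` = left slope of the thickness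
(`1 + κ3` = left slope of `N`).

* `srf_eq` : `srf = Dg262.X (s0 ..) (sA ..) (sB ..)`; `sA` = slopes in `v`, all `≥ 0` if `0 ≤ κ ≤ κ3`
* `Cx` : the facts on `ν` which are used; `PDc` : boxes which are one sheet
* `srf_leg`, `srf_PD`, `srf_O` : legality, D-max region, open part
* `Prf.sweep`, `Cx.rec_Ca`, `Cx.rec_ECb` : sweeps
-/

set_option autoImplicit false
set_option linter.unusedVariables false

open Finset Filter Topology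

namespace Crest.Agent.R136.Tb628

open Crest.Agent.R136.Net191
open Crest.Agent.R136.NetQ186
open Crest.Agent.R136.NatT550
open Crest.Agent.R136.NatR550
open Crest.Agent.R136.Lq196
open Crest.Agent.R136.Wq638
open Crest.Agent.R136.Dg219 (Walls mw mw_P mem_mwO mem_mwL)
open Crest.Agent.R136.Dg262 (X)
open Crest.Agent.R138.Ex926 (Base U QProf)

/-! ### abstract part -/

section abs

variable {ι : Type*} [Fintype ι] {K : Set (ι → ℝ)} {φ : (ι → ℝ) → ℝ}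

/-- facts on a profile `φ` on a legal set `K` -/
structure Prf (K : Set (ι → ℝ)) (φ : (ι → ℝ) → ℝ) : Prop where
  lip : ∀ p ∈ K, ∀ q ∈ K, p ≤ q → 0 ≤ φ p - φ q ∧ φ p - φ q ≤ ∑ k, (q k - p k)
  submod : ∀ p ∈ K, ∀ q ∈ K, p ⊓ q ∈ K → φ p + φ q ≤ φ (p ⊔ q) + φ (p ⊓ q)

/-- **sweep, abstract form**: `e` = increment supported in slots in which `p ≤ q` agree -/
theorem Prf.sweep (H : Prf K φ) {p q e : ι → ℝ} (hp : p ∈ K) (hq : q ∈ K) (hpe : p + e ∈ K)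
    (hpq : p ≤ q) (he : ∀ k, 0 ≤ e k) (hs : ∀ k, e k ≠ 0 → p k = q k) :
    φ q - φ (q + e) ≤ φ p - φ (p + e) := by
  have e1 : q ⊓ (p + e) = p := by
    funext k
    simp only [Pi.inf_apply, Pi.add_apply]
    by_cases hk : e k = 0
    · rw [hk, add_zero]; exact min_eq_right (hpq k)
    · rw [← hs k hk]; exact min_eq_left (by linarith [he k])
  have e2 : q ⊔ (p + e) = q + e := by
    funext k
    simp only [Pi.sup_apply, Pi.add_apply]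
    by_cases hk : e k = 0
    · rw [hk, add_zero, add_zero]; exact max_eq_left (hpq k)
    · rw [← hs k hk]; exact max_eq_right (by linarith [he k])
  have := H.submod q hq (p + e) hpe (by rw [e1]; exact hp)
  rw [e1, e2] at this
  linarith

/-- loss at a box with full density: `e` = increment, `e'` = the same with the positions raised -/
theorem Prf.rec_loss (H : Prf K φ) {q e e' : ι → ℝ} {d d' : ℝ} (h1 : q + e ∈ K)
    (h2 : q + e' ∈ K) (he : e ≤ e') (hd : d ≤ φ q) (hd' : φ (q + e') ≤ d') :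
    d - d' - ∑ k, (e' k - e k) ≤ φ q - φ (q + e) := by
  have e3 := (H.lip _ h1 _ h2 (by
    intro k; simp only [Pi.add_apply]; linarith [he k])).2
  have e4 : ∑ k, ((q + e') k - (q + e) k) = ∑ k, (e' k - e k) :=
    Finset.sum_congr rfl fun k _ => by simp only [Pi.add_apply]; ring
  rw [e4] at e3
  linarith

/-- both steps -/
theorem Prf.sweep_rec (H : Prf K φ) {p q e e' : ι → ℝ} {d d' : ℝ} (hp : p ∈ K) (hq : q ∈ K)
    (hpe : p + e ∈ K) (h1 : q + e ∈ K) (h2 : q + e' ∈ K) (hpq : p ≤ q) (h0 : ∀ k, 0 ≤ e k)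
    (hs : ∀ k, e k ≠ 0 → p k = q k) (he : e ≤ e') (hd : d ≤ φ q) (hd' : φ (q + e') ≤ d') :
    d - d' - ∑ k, (e' k - e k) ≤ φ p - φ (p + e) :=
  (H.rec_loss h1 h2 he hd hd').trans (H.sweep hp hq hpe hpq h0 hs)

end abs

/-! ### surfaces -/

/-- angular exponent of the narrow width -/
noncomputable def u2 (θ : Fin 3 → ℝ) (κ : ℝ) (z : ℝ × ℝ) : ℝ := κ * z.1 + (θ 2 + κ) / θ 1 * z.2

/-- angular exponent of the thickness -/
noncomputable def u3 (θ : Fin 3 → ℝ) (κ3 : ℝ) (z : ℝ × ℝ) : ℝ := κ3 * z.1 + (θ 0 + κ3) / θ 1 * z.2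

/-- natural boxes of the surface with left slopes `κ`, `κ3` -/
noncomputable def srf (θ : Fin 3 → ℝ) (w0 R1 κ κ3 : ℝ) (z : ℝ × ℝ) : Fin 11 → ℝ :=
  nat4 w0 R1 z.1 z.2 (u2 θ κ z) (u3 θ κ3 z)

/-- base point -/
noncomputable def s0 (w0 R1 : ℝ) : Fin 11 → ℝ := nat4 w0 R1 0 0 0 0

/-- slopes in `v` -/
def sA (κ κ3 : ℝ) : Fin 11 → ℝ := nL 1 0 κ κ3

/-- slopes in `t` -/
noncomputable def sB (θ : Fin 3 → ℝ) (κ κ3 : ℝ) : Fin 11 → ℝ :=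
  nL 0 1 ((θ 2 + κ) / θ 1) ((θ 0 + κ3) / θ 1)

theorem srf_eq (θ : Fin 3 → ℝ) (w0 R1 κ κ3 : ℝ) (z : ℝ × ℝ) :
    srf θ w0 R1 κ κ3 z = X (s0 w0 R1) (sA κ κ3) (sB θ κ κ3) z := by
  have := nat_X w0 R1 ![0, 0, 0] ![κ3, 0, κ] ![(θ 0 + κ3) / θ 1, 1, (θ 2 + κ) / θ 1] z
  simp only [Matrix.cons_val, Fin.isValue] at this
  rw [srf, s0, sA, sB, this, u2, u3]
  simp

/-- the point of the surface at distance `x` to the left of the record point of level `v0` -/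
def pt (θ : Fin 3 → ℝ) (v0 x : ℝ) : ℝ × ℝ := (v0 - x, -(θ 1 * v0))

theorem u2_pt {θ : Fin 3 → ℝ} (h1 : θ 1 ≠ 0) (κ v0 x : ℝ) :
    u2 θ κ (pt θ v0 x) = -(θ 2 * v0) - κ * x := by
  simp only [u2, pt]
  field_simp
  ring

theorem u3_pt {θ : Fin 3 → ℝ} (h1 : θ 1 ≠ 0) (κ3 v0 x : ℝ) :
    u3 θ κ3 (pt θ v0 x) = -(θ 0 * v0) - κ3 * x := by
  simp only [u3, pt]
  field_simp
  ring

theorem srf_pt {θ : Fin 3 → ℝ} (h1 : θ 1 ≠ 0) (w0 R1 κ κ3 v0 x : ℝ) :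
    srf θ w0 R1 κ κ3 (pt θ v0 x) = nat4 w0 R1 (v0 - x) (-(θ 1 * v0))
      (-(θ 2 * v0) - κ * x) (-(θ 0 * v0) - κ3 * x) := by
  rw [srf, u2_pt h1, u3_pt h1]
  rfl

theorem srf_zero {θ : Fin 3 → ℝ} (h1 : θ 1 ≠ 0) (w0 R κ κ3 v0 : ℝ) :
    srf θ w0 R κ κ3 (pt θ v0 0) = pathQ θ w0 R v0 := by
  rw [srf_pt h1, pathQ_nat]
  simp

/-- every point of the plane is a `pt` -/
theorem eq_pt {θ : Fin 3 → ℝ} (h1 : θ 1 ≠ 0) (z : ℝ × ℝ) :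
    z = pt θ (-(z.2 / θ 1)) (-(z.2 / θ 1) - z.1) := by
  ext
  · simp [pt]
  · simp only [pt]
    field_simp

/-- numerical conditions near the record line -/
structure Near0 (κ κ3 v0 x : ℝ) : Prop where
  x0 : 0 ≤ x
  l0 : 0 ≤ v0 - x
  l1 : v0 < 1
  k : κ * x ≤ 1 / 4
  k3 : κ3 * x ≤ 1 / 4

section bounds

variable {θ q : Fin 3 → ℝ} {w0 R T0 κ κ3 v0 x : ℝ}

theorem slots (h : BigQ θ w0 R T0) (h1 : 0 < θ 1) (hk : 0 ≤ κ) (hk3 : κ ≤ κ3)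
    (hn : Near0 κ κ3 v0 x) :
    (∀ k, 0 < srf θ w0 (R - 1) κ κ3 (pt θ v0 x) k ∧ srf θ w0 (R - 1) κ κ3 (pt θ v0 x) k < R) ∧
      2 * w0 + (-(θ 0 * v0) - κ3 * x) < (v0 - x) + (R - 1) := by
  obtain ⟨hx0, hl0, hl1, hkx, hk3x⟩ := hn
  have hv0 : 0 ≤ v0 := by linarith
  have a0 := h.bd hv0 hl1.le 0
  have a1 := h.bd hv0 hl1.le 1
  have a2 := h.bd hv0 hl1.le 2
  have b0 := h.T0
  have b1 := h.w0T
  have b2 := h.R0
  have e1 : 0 ≤ κ * x := mul_nonneg hk hx0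
  have e2 : κ * x ≤ κ3 * x := mul_le_mul_of_nonneg_right hk3 hx0
  have c0 := (abs_le.1 (h.th 0)).1
  have e3 : (1 - θ 0) * v0 < 1 + T0 := by
    have : (1 - θ 0) * v0 ≤ (1 + T0) * v0 := mul_le_mul_of_nonneg_right (by linarith) hv0
    nlinarith
  rw [srf_pt h1.ne']
  refine ⟨fun k => ?_, by linarith⟩
  fin_cases k <;>
    simp only [nat4, Matrix.cons_val, Fin.zero_eta, Fin.mk_one, Fin.reduceFinMk, Fin.isValue] <;>
    constructor <;> linarith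

/-- points near the record line lie in the open part of the legal region -/
theorem srf_OQ (h : BigQ θ w0 R T0) (h1 : 0 < θ 1) (hk : 0 ≤ κ) (hk3 : κ ≤ κ3)
    (hn : Near0 κ κ3 v0 x) :
    OQ R (s0 w0 (R - 1)) (sA κ κ3) (sB θ κ κ3) (pt θ v0 x) := by
  obtain ⟨g1, g2⟩ := slots h h1 hk hk3 hn
  have g3 := nat_OQ (w0 := w0) (R1 := R - 1) (R := R) (al := ![0, 0, 0]) (be := ![κ3, 0, κ])
    (ga := ![(θ 0 + κ3) / θ 1, 1, (θ 2 + κ) / θ 1]) (z := pt θ v0 x)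
  simp only [Matrix.cons_val, Fin.isValue, zero_mul, one_mul, zero_add] at g3
  refine g3 (fun k => ?_) ?_
  · have := g1 k
    rw [srf, u2, u3] at this
    exact this
  · have e1 := u3_pt h1.ne' κ3 v0 x
    rw [u3] at e1
    rw [e1]
    simpa [pt] using g2

theorem srf_O (h : BigQ θ w0 R T0) (h1 : 0 < θ 1) (hk : 0 ≤ κ) (hk3 : κ ≤ κ3)
    (hn : Near0 κ κ3 v0 x) :
    pt θ v0 x ∈ (mw monQ).O (fun _ => 0) (fun _ => R) (s0 w0 (R - 1)) (sA κ κ3) (sB θ κ κ3) :=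
  memO_monQ (srf_OQ h h1 hk hk3 hn)

/-- the cone of the walls which are tight along every surface -/
theorem srf_L (h : BigQ θ w0 R T0) (h1 : 0 < θ 1) (hk : 0 ≤ κ) (hk3 : κ ≤ κ3)
    (hn : Near0 κ κ3 v0 x) {c : Fin 11 → ℝ} :
    c ∈ (mw monQ).L (s0 w0 (R - 1)) (sA κ κ3) (sB θ κ κ3) ↔ c ∈ coneN := by
  have g1 := srf_OQ h h1 hk hk3 hn
  have g2 := (slots h h1 hk hk3 hn).2
  have g3 := nat_memL (w0 := w0) (R1 := R - 1) (R := R) (al := ![0, 0, 0]) (be := ![κ3, 0, κ])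
    (ga := ![(θ 0 + κ3) / θ 1, 1, (θ 2 + κ) / θ 1]) (z := pt θ v0 x) (c := c)
  simp only [Matrix.cons_val, Fin.isValue, zero_add] at g3
  refine g3 g1 ?_
  have e1 := u3_pt h1.ne' κ3 v0 x
  rw [u3] at e1
  rw [e1]
  simpa [pt] using g2

/-- the surface is legal near the record line -/
theorem srf_leg (h : BigQ θ w0 R T0) (h1 : 0 < θ 1) (hk : 0 ≤ κ) (hk3 : κ ≤ κ3)
    (hn : Near0 κ κ3 v0 x) : srf θ w0 (R - 1) κ κ3 (pt θ v0 x) ∈ Leg monQ R := by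
  obtain ⟨g, g'⟩ := slots h h1 hk hk3 hn
  refine ⟨?_, fun k => (g k).2.le⟩
  rw [srf_pt h1.ne'] at g ⊢
  have g0 := (g 0).1
  have g1 := (g 1).1
  have g2 := (g 2).1
  have g3 := (g 3).1
  have g5 := (g 5).1
  simp only [nat4, Matrix.cons_val, Fin.isValue] at g0 g1 g2 g3 g5
  have := h.w0pos
  exact nat4_legal (by linarith) (by linarith) (by linarith) (by linarith) (by linarith)
    (by linarith) (by linarith)

/-- boxes which are one sheet (`GeoQ186.mem_PDQ`): `cab, cby, cr, cc` = exponents of the level-`0`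
mark, `w₂/w₁ ≤ d^cab`, `a/w₂ ≤ d^cby`, `r₀/a ≤ d^cr`, `w₁/ρ ≤ d^cc` -/
def PDc (w0 R cab cby cr cc : ℝ) : Set (Fin 11 → ℝ) :=
  {p | p ∈ Leg monQ R ∧ w0 ≤ p 0 ∧ p 0 ≤ w0 + 1 ∧ p 8 + w0 ≤ p 9 + cab ∧ p 9 + w0 ≤ p 10 + cby ∧
    p 10 ≤ cr + 4 * w0 ∧ p 0 + w0 < p 8 + cc}

/-- **facts on the profile used by the scalar part** -/
structure Cx (θ q : Fin 3 → ℝ) (g w0 R T0 cab cby cr : ℝ) (ν : (Fin 11 → ℝ) → ℝ) (c₀ : ℝ) :
    Prop where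
  big : BigQ θ w0 R T0
  th1 : 0 < θ 1
  ab : 0 ≤ cab ∧ θ 2 - θ 1 ≤ cab
  by' : 0 ≤ cby ∧ θ 0 - θ 2 ≤ cby
  res : 0 ≤ cr ∧ 1 - θ 0 ≤ cr
  prf : Prf (Leg monQ R) ν
  dmax : ∀ p ∈ PDc w0 R cab cby cr (θ 1), ν p ≤ c₀ + DQ g 0 q w0 p
  record : ∀ v : ℝ, 0 ≤ v → v ≤ 1 → c₀ + DQ g 0 q w0 (pathQ θ w0 R v) ≤ ν (pathQ θ w0 R v)

theorem Cx.of_ext {B : Base} {I0 I : ℕ → Finset (ℕ × ℝ)}
    {co : ∀ n : ℕ, ℕ × ℝ → ℕ × ℝ → Fin 11 → ℝ} {C : ℝ} {kz : Fin 11} {w0' : ℝ}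
    {o : ℝ → Fin 11 → ℝ} {T : Fin 11 → Prop} {ν own : (Fin 11 → ℝ) → ℝ} {g c₀ : ℝ}
    {PD : Set (Fin 11 → ℝ)} {cab cby cr : ℝ} {D : (Fin 11 → ℝ) → ℝ}
    (h : ExtQ B I0 I co monQ C R kz w0' 0 PD D (pathQ θ w0 R) o (EQ θ g 0 q w0 R) T ν own c₀)
    (big : BigQ θ w0 R T0) (th1 : 0 < θ 1) (ab : 0 ≤ cab ∧ θ 2 - θ 1 ≤ cab)
    (by' : 0 ≤ cby ∧ θ 0 - θ 2 ≤ cby) (res : 0 ≤ cr ∧ 1 - θ 0 ≤ cr)
    (hPD : PDc w0 R cab cby cr (θ 1) ⊆ PD)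
    (hD : ∀ p ∈ PDc w0 R cab cby cr (θ 1), D p = DQ g 0 q w0 p) :
    Cx θ q g w0 R T0 cab cby cr ν c₀ :=
  ⟨big, th1, ab, by', res, ⟨h.lip, h.submod⟩,
    fun p hp => by rw [← hD p hp]; exact h.dmax p (hPD hp), h.record⟩

/-- room for the wide position, `X_a` against `X_b` -/
def rm12 (θ : Fin 3 → ℝ) (cab v : ℝ) : ℝ := (θ 1 - θ 2) * v + cab
/-- room for the narrow position, `X_b` against `N` -/
def rm23 (θ : Fin 3 → ℝ) (cby v : ℝ) : ℝ := (θ 2 - θ 0) * v + cby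

section facts

variable {g cab cby cr c₀ : ℝ} {ν : (Fin 11 → ℝ) → ℝ}

theorem Cx.rm12_nonneg (C : Cx θ q g w0 R T0 cab cby cr ν c₀) {v : ℝ} (h0 : 0 ≤ v) (h1 : v ≤ 1) :
    0 ≤ rm12 θ cab v := by
  obtain ⟨a, b⟩ := C.ab
  unfold rm12
  nlinarith

theorem Cx.rm23_nonneg (C : Cx θ q g w0 R T0 cab cby cr ν c₀) {v : ℝ} (h0 : 0 ≤ v) (h1 : v ≤ 1) :
    0 ≤ rm23 θ cby v := by
  obtain ⟨a, b⟩ := C.by'
  unfold rm23
  nlinarith

theorem Cx.rm12_pos (C : Cx θ q g w0 R T0 cab cby cr ν c₀) (hne : θ 1 ≠ θ 2) {v : ℝ} (h0 : 0 < v)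
    (h1 : v < 1) : 0 < rm12 θ cab v := by
  obtain ⟨a, b⟩ := C.ab
  unfold rm12
  rcases lt_or_gt_of_ne hne with h | h <;> nlinarith

theorem Cx.rm23_pos (C : Cx θ q g w0 R T0 cab cby cr ν c₀) (hne : θ 2 ≠ θ 0) {v : ℝ} (h0 : 0 < v)
    (h1 : v < 1) : 0 < rm23 θ cby v := by
  obtain ⟨a, b⟩ := C.by'
  unfold rm23
  rcases lt_or_gt_of_ne hne with h | h <;> nlinarith

/-- the surface lies in the region of D-max -/
theorem Cx.srf_PD (C : Cx θ q g w0 R T0 cab cby cr ν c₀) (hk : 0 ≤ κ) (hk3 : κ ≤ κ3)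
    (hn : Near0 κ κ3 v0 x) (h12 : κ * x ≤ rm12 θ cab v0) (h23 : (κ3 - κ) * x ≤ rm23 θ cby v0) :
    srf θ w0 (R - 1) κ κ3 (pt θ v0 x) ∈ PDc w0 R cab cby cr (θ 1) := by
  have hL := srf_leg C.big C.th1 hk hk3 hn
  obtain ⟨r0, r1⟩ := C.res
  have hth := C.th1
  obtain ⟨hx0, hl0, hl1, hkx, hk3x⟩ := hn
  have hv0 : 0 ≤ v0 := by linarith
  have e1 : 0 ≤ κ * x := mul_nonneg hk hx0
  have e2 : κ * x ≤ κ3 * x := mul_le_mul_of_nonneg_right hk3 hx0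
  have e3 : (1 - θ 0) * v0 ≤ cr := by nlinarith
  have e4 : θ 1 * v0 < θ 1 := by nlinarith
  rw [rm12, sub_mul] at h12
  rw [rm23, sub_mul, sub_mul] at h23
  rw [sub_mul] at e3
  refine ⟨hL, ?_, ?_, ?_, ?_, ?_, ?_⟩ <;> rw [srf_pt C.th1.ne'] <;>
    simp only [nat4, Matrix.cons_val, Fin.isValue] <;> linarith

/-- **domination** along a surface -/
theorem srf_le (h1 : θ 1 ≠ 0) (hk : 0 ≤ κ) (hk3 : κ ≤ κ3) {R1 R2 x' : ℝ} (hR : R1 ≤ R2)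
    (hx : x' ≤ x) : srf θ w0 R1 κ κ3 (pt θ v0 x) ≤ srf θ w0 R2 κ κ3 (pt θ v0 x') := by
  have e1 := mul_le_mul_of_nonneg_left hx hk
  have e2 := mul_le_mul_of_nonneg_left hx (hk.trans hk3)
  have e3 := mul_le_mul_of_nonneg_left hx (sub_nonneg.2 hk3)
  rw [sub_mul, sub_mul] at e3
  rw [srf_pt h1, srf_pt h1]
  intro k
  fin_cases k <;>
    simp only [nat4, Matrix.cons_val, Fin.zero_eta, Fin.mk_one, Fin.reduceFinMk, Fin.isValue] <;>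
    linarith

/-- D-max exponent along the surface -/
theorem D_srf (h1 : θ 1 ≠ 0) {R1 : ℝ} :
    DQ g 0 q w0 (srf θ w0 R1 κ κ3 (pt θ v0 x)) = DQ g 0 q w0 (pathQ θ w0 R v0) +
      (4 + κ + κ3 + q 2 * κ + q 0 * κ3 - g) * x := by
  rw [srf_pt h1, pathQ_nat, DQ_nat4, DQ_nat4]
  ring

theorem path_PD (C : Cx θ q g w0 R T0 cab cby cr ν c₀) (h0 : 0 ≤ v0) (h1 : v0 < 1) :
    pathQ θ w0 R v0 ∈ PDc w0 R cab cby cr (θ 1) := by
  have hL := C.big.path_leg h0 h1.le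
  obtain ⟨r0, r1⟩ := C.res
  have hth := C.th1
  have a1 := C.rm12_nonneg h0 h1.le
  have a2 := C.rm23_nonneg h0 h1.le
  have e3 : (1 - θ 0) * v0 ≤ cr := by nlinarith
  have e4 : θ 1 * v0 < θ 1 := by nlinarith
  unfold rm12 at a1
  unfold rm23 at a2
  refine ⟨hL, ?_, ?_, ?_, ?_, ?_, ?_⟩ <;>
    simp only [pathQ, Matrix.cons_val, Fin.isValue] <;> linarith

/-- the record boxes have exactly the density `D` -/
theorem Cx.path_eq (C : Cx θ q g w0 R T0 cab cby cr ν c₀) (h0 : 0 ≤ v0) (h1 : v0 < 1) :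
    ν (pathQ θ w0 R v0) = c₀ + DQ g 0 q w0 (pathQ θ w0 R v0) :=
  le_antisymm (C.dmax _ (path_PD C h0 h1)) (C.record v0 h0 h1.le)

/-- unit increments of the sweeps -/
def eCa (h : ℝ) : Fin 11 → ℝ := ![0, 0, 0, 0, 0, h, 0, 0, 0, 0, 0]
/-- `C_a` and `X_a` -/
def eCXa (h : ℝ) : Fin 11 → ℝ := ![0, 0, 0, 0, 0, h, 0, 0, h, 0, 0]
/-- `E` and `C_b` -/
def eECb (h : ℝ) : Fin 11 → ℝ := ![0, 0, h, 0, 0, 0, h, 0, 0, 0, 0]
/-- `E`, `C_b` and `X_b` -/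
def eECXb (h : ℝ) : Fin 11 → ℝ := ![0, 0, h, 0, 0, 0, h, 0, 0, h, 0]
/-- `E` alone -/
def eE (h : ℝ) : Fin 11 → ℝ := ![0, 0, h, 0, 0, 0, 0, 0, 0, 0, 0]
/-- `C_b` alone -/
def eCb (h : ℝ) : Fin 11 → ℝ := ![0, 0, 0, 0, 0, 0, h, 0, 0, 0, 0]

theorem leg_aux (h : BigQ θ w0 R T0) (h0 : 0 ≤ v0) (h1 : v0 ≤ 1) {a2 a5 a6 a8 a9 : ℝ}
    (b2 : 0 ≤ a2) (b5 : 0 ≤ a5) (b6 : 0 ≤ a6) (b8 : 0 ≤ a8) (b9 : 0 ≤ a9) (c2 : a2 ≤ 1)
    (c5 : a5 ≤ 1) (c6 : a6 ≤ 1) (c8 : a8 ≤ 1) (c9 : a9 ≤ 1)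
    (d6 : a6 ≤ a2 + a5) (d8 : a8 ≤ a5) (d9 : a9 ≤ a6) (d9' : a9 ≤ a2 + a8) :
    pathQ θ w0 R v0 + ![0, 0, a2, 0, 0, a5, a6, 0, a8, a9, 0] ∈ Leg monQ R := by
  have a0 := h.bd h0 h1 0
  have a1 := h.bd h0 h1 1
  have a2' := h.bd h0 h1 2
  have e0 := h.T0
  have e1 := h.w0T
  have e2 := h.R0
  refine ⟨legalQ_iff.2 ?_, fun k => ?_⟩
  · refine ⟨fun k => ?_, ?_, ?_, ?_, ?_, ?_, ?_, ?_, ?_, ?_, ?_, ?_⟩
    · fin_cases k <;> simp [pathQ] <;> linarith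
    all_goals (simp [pathQ]; linarith)
  · fin_cases k <;> simp [pathQ] <;> linarith

/-- sweep of `C_a` at the record box -/
theorem Cx.rec_Ca (C : Cx θ q g w0 R T0 cab cby cr ν c₀) (h0 : 0 ≤ v0) (h1 : v0 < 1) {y : ℝ}
    (hy : 0 ≤ y) (hy1 : y ≤ 1) (ho : y ≤ rm12 θ cab v0) :
    q 1 * y ≤ ν (pathQ θ w0 R v0) - ν (pathQ θ w0 R v0 + eCa y) := by
  have hL1 : pathQ θ w0 R v0 + eCa y ∈ Leg monQ R :=
    leg_aux C.big h0 h1.le le_rfl hy le_rfl le_rfl le_rfl zero_le_one hy1 zero_le_one zero_le_one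
      zero_le_one (by linarith) hy le_rfl (by linarith)
  have hL2 : pathQ θ w0 R v0 + eCXa y ∈ Leg monQ R :=
    leg_aux C.big h0 h1.le le_rfl hy le_rfl hy le_rfl zero_le_one hy1 zero_le_one hy1
      zero_le_one (by linarith) le_rfl le_rfl (by linarith)
  have hPD : pathQ θ w0 R v0 + eCXa y ∈ PDc w0 R cab cby cr (θ 1) := by
    obtain ⟨-, p1, p2, p3, p4, p5, p6⟩ := path_PD (v0 := v0) C h0 h1
    unfold rm12 at ho
    refine ⟨hL2, ?_, ?_, ?_, ?_, ?_, ?_⟩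
    · simpa [eCXa] using p1
    · simpa [eCXa] using p2
    · simp [eCXa, pathQ]; linarith
    · simpa [eCXa] using p4
    · simpa [eCXa] using p5
    · simp [eCXa] at p6 ⊢; linarith
  have e1 := C.prf.rec_loss (d := c₀ + DQ g 0 q w0 (pathQ θ w0 R v0)) hL1 hL2 (by
    intro k; fin_cases k <;> simp [eCa, eCXa, hy]) (C.record v0 h0 h1.le) (C.dmax _ hPD)
  have e2 : DQ g 0 q w0 (pathQ θ w0 R v0 + eCXa y) = DQ g 0 q w0 (pathQ θ w0 R v0) -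
      (1 + q 1) * y := by
    simp [DQ, eCXa]; ring
  have e4 : ∑ k, (eCXa y k - eCa y k) = y := by
    simp [Fin.sum_univ_succ, eCa, eCXa]
  rw [e4, e2] at e1
  linarith

/-- sweep of the pair `(E, C_b)` at the record box -/
theorem Cx.rec_ECb (C : Cx θ q g w0 R T0 cab cby cr ν c₀) (h0 : 0 ≤ v0) (h1 : v0 < 1) {y : ℝ}
    (hy : 0 ≤ y) (hy1 : y ≤ 1) (ho : y ≤ rm23 θ cby v0) :
    q 2 * y ≤ ν (pathQ θ w0 R v0) - ν (pathQ θ w0 R v0 + eECb y) := by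
  have hL1 : pathQ θ w0 R v0 + eECb y ∈ Leg monQ R :=
    leg_aux C.big h0 h1.le hy le_rfl hy le_rfl le_rfl hy1 zero_le_one hy1 zero_le_one
      zero_le_one (by linarith) le_rfl hy (by linarith)
  have hL2 : pathQ θ w0 R v0 + eECXb y ∈ Leg monQ R :=
    leg_aux C.big h0 h1.le hy le_rfl hy le_rfl hy hy1 zero_le_one hy1 zero_le_one
      hy1 (by linarith) le_rfl le_rfl (by linarith)
  have hPD : pathQ θ w0 R v0 + eECXb y ∈ PDc w0 R cab cby cr (θ 1) := by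
    obtain ⟨-, p1, p2, p3, p4, p5, p6⟩ := path_PD (v0 := v0) C h0 h1
    unfold rm23 at ho
    refine ⟨hL2, ?_, ?_, ?_, ?_, ?_, ?_⟩
    · simpa [eECXb] using p1
    · simpa [eECXb] using p2
    · simp [eECXb] at p3 ⊢; linarith
    · simp [eECXb, pathQ]; linarith
    · simpa [eECXb] using p5
    · simpa [eECXb] using p6
  have e1 := C.prf.rec_loss (d := c₀ + DQ g 0 q w0 (pathQ θ w0 R v0)) hL1 hL2 (by
    intro k; fin_cases k <;> simp [eECb, eECXb, hy]) (C.record v0 h0 h1.le) (C.dmax _ hPD)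
  have e2 : DQ g 0 q w0 (pathQ θ w0 R v0 + eECXb y) = DQ g 0 q w0 (pathQ θ w0 R v0) -
      (1 + q 2) * y := by
    simp [DQ, eECXb]; ring
  have e4 : ∑ k, (eECXb y k - eECb y k) = y := by
    simp [Fin.sum_univ_succ, eECb, eECXb]
  rw [e4, e2] at e1
  linarith

/-- **sweep of `C_a`** at every legal box coarser than the record box with the same `C_a` -/
theorem Cx.sweepA (C : Cx θ q g w0 R T0 cab cby cr ν c₀) (h0 : 0 ≤ v0) (h1 : v0 < 1) {y : ℝ}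
    (hy : 0 ≤ y) (hy1 : y ≤ 1) (ho : y ≤ rm12 θ cab v0) {p : Fin 11 → ℝ} (hp : p ∈ Leg monQ R)
    (hp1 : p + eCa y ∈ Leg monQ R) (hpq : p ≤ pathQ θ w0 R v0) (h5 : p 5 = w0 - θ 1 * v0) :
    q 1 * y ≤ ν p - ν (p + eCa y) :=
  (C.rec_Ca h0 h1 hy hy1 ho).trans (C.prf.sweep hp (C.big.path_leg h0 h1.le) hp1 hpq
    (by intro k; fin_cases k <;> simp [eCa, hy])
    (by intro k hk; fin_cases k <;> simp [eCa] at hk ⊢; rw [h5]; simp [pathQ]))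

/-- **sweep of the pair `(E, C_b)`** -/
theorem Cx.sweepE (C : Cx θ q g w0 R T0 cab cby cr ν c₀) (h0 : 0 ≤ v0) (h1 : v0 < 1) {y : ℝ}
    (hy : 0 ≤ y) (hy1 : y ≤ 1) (ho : y ≤ rm23 θ cby v0) {p : Fin 11 → ℝ} (hp : p ∈ Leg monQ R)
    (hp1 : p + eECb y ∈ Leg monQ R) (hpq : p ≤ pathQ θ w0 R v0)
    (h2 : p 2 = w0 + (θ 1 - θ 2) * v0) (h6 : p 6 = 2 * w0 - θ 2 * v0) :
    q 2 * y ≤ ν p - ν (p + eECb y) :=
  (C.rec_ECb h0 h1 hy hy1 ho).trans (C.prf.sweep hp (C.big.path_leg h0 h1.le) hp1 hpq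
    (by intro k; fin_cases k <;> simp [eECb, hy])
    (by intro k hk; fin_cases k <;> simp [eECb] at hk ⊢ <;> [rw [h2]; rw [h6]] <;> simp [pathQ]))

end facts

end bounds

end Crest.Agent.R136.Tb628
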