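import Crest.Agent.R136.Sl2_741
import Crest.Agent.R136.Tb1_628
import Crest.Agent.R136.LdF3_511
import Crest.Agent.R136.TopB_550

/-!
# R136, thick branch: record blow-up from `Thick` (helper741)

Slot `1` (= `R`) is frozen (slope `(0,0)` on every natural plane, constant `R - 1`).

* `recOut_lift` : `RecOut` on the kept slots gives `RecOut` on ALL slots (label of a frozen slot not
  in `S`; window cone = vectors which vanish on the frozen slots)
* `PlN` : data of a natural plane `t_j = be j v + ga j t` through the record line, half plane `l`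
* **`rec_nat`** : record blow-up for a countable family of natural planes, from 550's `Thick`
* **`recL`** : the lightlike plane `t2 = 2 t, t3 = v + 2 t` (`LL`), both half planes
-/

set_option autoImplicit false
set_option linter.unusedSectionVars false
set_option linter.unusedVariables false

open Set Filter Topology

namespace Crest.Agent.R136.TLr741

open Crest.Agent.R138.Ex926 (IsTan)
open Crest.Agent.R136.Net191
open Crest.Agent.R136.NetQ186
open Crest.Agent.R136.Wq638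
open Crest.Agent.R136.Lq196
open Crest.Agent.R136.NatT550
open Crest.Agent.R136.NatR550 (nL coneN)
open Crest.Agent.R136.Top484
open Crest.Agent.R136.LdF511 (W10 monQ_all sm)
open Crest.Agent.R136.LdF3511 (WI AF recF rhoF recF_box recF_strict recF_nat nat_AF forall_WI
  prf_ext R1_room nL_add nL_smul nat4_add)
open Dg262 (X SupOn Grp)
open Dg219 (mw mw_P mem_mwO mem_mwL Walls Tn lf det2)
open Rc146 (OutH RecOut SDir SH LH Stat MvI MvII gapW)
open Rc683 (Srf)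
open Sl741

/-! ### lift of `RecOut` -/

section lift

variable {ι : Type*} [Fintype ι] [DecidableEq ι] {p : ι → Prop} [DecidablePred p]

theorem rs_Tn (a b : ι → ℝ) (z : ℝ × ℝ) : rs p (Tn a b z) = Tn (rs p a) (rs p b) z := rfl

theorem rs_add (c d : ι → ℝ) : rs p (c + d) = rs p c + rs p d := rfl

theorem rs_smul (t : ℝ) (c : ι → ℝ) : rs p (t • c) = t • rs p c := rfl

theorem sum_rs {g : ι → ℕ} {k : ℕ} (hk : ∀ i, ¬ p i → g i ≠ k) (f : ι → ℝ) :
    ∑ i ∈ Finset.univ.filter (fun i => g i = k), f i =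
      ∑ i ∈ Finset.univ.filter (fun i : {i // p i} => g i.1 = k), f i.1 := by
  rw [Finset.sum_filter, Finset.sum_filter, ← Fintype.sum_subtype_add_sum_subtype p]
  have h1 : ∑ i : {i // ¬ p i}, (if g i.1 = k then f i.1 else 0) = 0 :=
    Finset.sum_eq_zero fun i _ => if_neg (hk i.1 i.2)
  rw [h1, add_zero]

/-- **`RecOut` on all slots** -/
theorem recOut_lift {g : ι → ℕ} {S : Finset ℕ} {LW L : Set (ι → ℝ)} {LW' L' : Set ({i // p i} → ℝ)}
    {a b dh : ι → ℝ} {l : ℝ × ℝ} {n : ℕ → ℝ × ℝ} {lam : (ι → ℝ) → ℝ}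
    {φ : ℕ → ({i // p i} → ℝ) → ℝ} {r : ℕ → ℝ}
    (H : RecOut (fun i : {i // p i} => g i.1) S LW' L' (rs p a) (rs p b) l (rs p dh) n
      (fun c => lam (xt p 0 c)) φ r)
    (hL : ∀ c ∈ L, rs p c ∈ L') (hLW : ∀ c ∈ LW, rs p c ∈ LW' ∧ ∀ i, ¬ p i → c i = 0)
    (hg : ∀ i, ¬ p i → g i ∉ S) :
    RecOut g S LW L a b l dh n lam (fun k c => φ k (rs p c)) r := by
  have hne : ∀ k ∈ S, ∀ i, ¬ p i → g i ≠ k := fun k hk i hi he => hg i hi (he ▸ hk)
  have hx : ∀ c ∈ LW, xt p 0 (rs p c) = c := fun c hc => xt_rs fun i hi => (hLW c hc).2 i hi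
  have hall : ∀ {k : ℕ} (hk : k ∈ S) {P : ι → Prop}, (∀ i : {i // p i}, g i.1 = k → P i.1) →
      ∀ i, g i = k → P i := by
    intro k hk P h i hi
    by_cases hp : p i
    · exact h ⟨i, hp⟩ hi
    · exact absurd hi (hne k hk i hp)
  exact
  { split := fun c hc c' hc' h => by
      have := H.split (rs p c) (hLW c hc).1 (rs p c') (hLW c' hc').1 fun i hi => h i.1 hi
      simp only [hx c hc, hx c' hc'] at this
      exact this
    loc := fun k c c' h => H.loc k _ _ fun i hi => h i.1 hi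
    zero := fun k c h => H.zero k _ fun i hi => h i.1 hi
    mono := fun k hk c hc c' hc' h => by
      have := H.mono k hk (rs p c) (hL c hc) (rs p c') (hL c' hc') fun i hi => h i.1 hi
      rw [sum_rs (p := p) (hne k hk) fun i => c' i - c i]
      exact this
    smod := fun k hk p' hp' q' hq' s hs t ht h1 h2 =>
      H.smod k hk _ (hL _ hp') _ (hL _ hq') _ (hL _ hs) _ (hL _ ht) (fun i hi => h1 i.1 hi)
        fun i hi => h2 i.1 hi
    rate := fun k hk c hc u h => H.rate k hk _ (hL c hc) u fun i hi => h i.1 hi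
    r_nonneg := fun k hk h => H.r_nonneg k hk fun i hi => h i.1 hi
    r_le := fun k hk h => by
      rw [sum_rs (p := p) (hne k hk) dh]
      exact H.r_le k hk fun i hi => h i.1 hi
    stat := fun k hk c hc d hcd y hm z => by
      have := H.stat k hk (rs p c) (hL c hc) (rs p d) (by rw [← rs_add]; exact hL _ hcd) y
        (hm.imp (fun h i hi => h i.1 hi) fun h i hi => h i.1 hi) z
      exact this
    add := fun k hk h z c hc => H.add k hk (fun i hi => h i.1 hi) z _ (hL c hc)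
    hom := fun k hk h c hc t ht => H.hom k hk (fun i hi => h i.1 hi) _ (hL c hc) t ht }

end lift

/-! ### slot `1` -/

/-- the kept slots -/
abbrev nR (i : Fin 11) : Prop := i ≠ 1

/-- the kept slots -/
abbrev J10 : Type := {i : Fin 11 // nR i}

theorem nR_hd (w : WI) : nR ((mw monQ).hd w) := by
  refine (forall_WI (fun k e => k ≠ 1)).2 ((monQ_all (fun k e => k ≠ 1)).2 ?_) w
  decide

theorem not_nR {i : Fin 11} (h : ¬ nR i) : i = 1 := not_not.1 h

theorem nL_one (v t1 t2 t3 : ℝ) : nL v t1 t2 t3 1 = 0 := rfl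

/-- **the active walls of a natural plane** are the walls without the slot `1` -/
theorem act_nat {w0 R1 v1 s1 s2 s3 v2 t1 t2 t3 : ℝ} (hR : 2 * w0 < R1) (w : WI) :
    (mw monQ).Act (nat4 w0 R1 0 0 0 0) (nL v1 s1 s2 s3) (nL v2 t1 t2 t3) w ↔
      (mw monQ).co w 1 = 0 := by
  constructor
  · intro h
    refine (forall_WI (fun k e => nat4 w0 R1 0 0 0 0 k = ∑ s, (e s : ℝ) * nat4 w0 R1 0 0 0 0 s →
      e 1 = 0)).2 ((monQ_all (fun k e => nat4 w0 R1 0 0 0 0 k =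
        ∑ s, (e s : ℝ) * nat4 w0 R1 0 0 0 0 s → e 1 = 0)).2
      ⟨?_, ?_, ?_, ?_, ?_, ?_, ?_, ?_, ?_, ?_, ?_, ?_, ?_, ?_, ?_, ?_, ?_, ?_⟩) w ?_
    on_goal 19 =>
      have := h.1
      simp only [mw, Walls.rhs, add_zero] at this
      exact this
    all_goals
      intro he
      first
      | rfl
      | (exfalso
         rw [sm] at he
         simp only [nat4, Matrix.cons_val] at he
         push_cast at he
         linarith)
  · intro h
    have hw : AF ∅ w := ⟨h, by simp, by simp⟩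
    have e0 := recF_nat 0 w0 R1 0 hw
    have e1 : recF 0 w0 R1 0 = nat4 w0 R1 0 0 0 0 := by
      unfold recF; simp
    rw [e1] at e0
    exact ⟨by rw [e0]; simp [mw], nat_AF _ _ _ _ hw, nat_AF _ _ _ _ hw⟩

/-- base point of all natural planes -/
def b0 (w0 R1 : ℝ) : Fin 11 → ℝ := nat4 w0 R1 0 0 0 0

theorem b0_rec (θ : Fin 3 → ℝ) (w0 R1 x : ℝ) :
    b0 w0 R1 + x • rhoF θ = recF θ w0 R1 x := by
  unfold b0 rhoF recF
  rw [nL_smul, nat4_add]
  congr 1 <;> ring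

theorem X_line (θ : Fin 3 → ℝ) (w0 R1 x : ℝ) :
    X (b0 w0 R1) (rhoF θ) 0 (x, 0) = recF θ w0 R1 x := by
  rw [← b0_rec]
  funext i
  simp only [X, Pi.add_apply, Pi.smul_apply, smul_eq_mul, Pi.zero_apply]
  ring

/-- the line as a degenerate natural plane -/
theorem zero_nL : (0 : Fin 11 → ℝ) = nL 0 0 0 0 := by
  funext k
  fin_cases k <;> simp [nL]

theorem line_O {θ : Fin 3 → ℝ} {w0 R T0 : ℝ} (h : BigQ θ w0 R T0) {ξ : ℝ} (h0 : 0 < ξ)
    (h1 : ξ < 1) :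
    (ξ, (0:ℝ)) ∈ (mw monQ).O (fun _ => 0) (fun _ => R) (b0 w0 (R - 1)) (rhoF θ) 0 := by
  obtain ⟨r1, r2, r3⟩ := R1_room h
  have hw : 2 * w0 < R - 1 := by linarith [h.T0]
  refine ⟨fun k => ?_, fun w => ?_⟩
  · rw [X_line]; exact recF_box h r2 r1 h0 h1 k
  · rcases recF_strict h r1 h0 h1 w with h2 | h2
    · left
      rw [zero_nL]
      exact (act_nat hw w).2 h2.1
    · right
      rw [X_line]
      have : (mw monQ).cst w = 0 := rfl
      rw [this, add_zero]; exact h2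

theorem memL_line {θ : Fin 3 → ℝ} {w0 R1 : ℝ} (hR : 2 * w0 < R1) {v1 s1 s2 s3 v2 t1 t2 t3 : ℝ}
    {c : Fin 11 → ℝ} :
    c ∈ (mw monQ).L (nat4 w0 R1 0 0 0 0) (nL v1 s1 s2 s3) (nL v2 t1 t2 t3) ↔ c ∈ W10 := by
  have key : c ∈ (mw monQ).L (nat4 w0 R1 0 0 0 0) (nL v1 s1 s2 s3) (nL v2 t1 t2 t3) ↔
      c ∈ LdF3511.cnF (AF ∅) := by
    constructor
    · intro h w hw
      exact h w ((act_nat hR w).2 hw.1)
    · intro h w hw
      exact h w ⟨(act_nat hR w).1 hw, by simp, by simp⟩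
  rw [key, LdF3511.cn_W10]

/-! ### natural planes through the record line -/

/-- data of a natural plane `t_j = be j v + ga j t` with the half plane `lf l w ≤ 0`; conditions for
the slots `≠ 1` only, the slot `1` has a label of its own -/
structure PlN (θ : Fin 3 → ℝ) (be ga : Fin 3 → ℝ) (l : ℝ × ℝ) (g : Fin 11 → ℕ)
    (n wv : ℕ → ℝ × ℝ) (dh : Fin 11 → ℝ) : Prop where
  /-- the record line `t = - θ 1 v` -/
  rc : ∀ j, be j - θ 1 * ga j = -θ j
  l0 : l ≠ 0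
  lr : l.1 = θ 1 * l.2
  fst : ∀ i, i ≠ 1 → nL 1 (be 1) (be 2) (be 0) i = dh i * (n (g i)).1
  snd : ∀ i, i ≠ 1 → nL 0 (ga 1) (ga 2) (ga 0) i = dh i * (n (g i)).2
  pos : ∀ i, i ≠ 1 → 0 < dh i
  ne : ∀ i, i ≠ 1 → n (g i) ≠ 0
  det : ∀ i, i ≠ 1 → ∀ j, j ≠ 1 → g i ≠ g j → det2 (n (g i)) (n (g j)) ≠ 0
  fix : ∀ i, i ≠ 1 → lf (n (g i)) (wv (g i)) = 0
  up : ∀ i, i ≠ 1 → ∀ j, j ≠ 1 → g i < g j → 0 < lf (n (g j)) (wv (g i))
  fr : ∀ i, i ≠ 1 → g 1 ≠ g i

/-- the surface on the kept slots -/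
def sfN (θ : Fin 3 → ℝ) (w0 R1 : ℝ) (be ga : Fin 3 → ℝ) (l : ℝ × ℝ) (g : Fin 11 → ℕ)
    (n : ℕ → ℝ × ℝ) (dh : Fin 11 → ℝ) : Srf J10 where
  x0 := rs nR (b0 w0 R1)
  a := rs nR (nL 1 (be 1) (be 2) (be 0))
  b := rs nR (nL 0 (ga 1) (ga 2) (ga 0))
  z00 := (0, 0)
  r := (1, -θ 1)
  l := l
  g := fun i => g i.1
  n := n
  dh := rs nR dh

/-- groups of the plane not parallel to the record line -/
noncomputable abbrev SN (g : Fin 11 → ℕ) (n : ℕ → ℝ × ℝ) (l : ℝ × ℝ) : Finset ℕ :=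
  SH (fun i : J10 => g i.1) n l

/-- window cone of the half plane, slot `1` frozen -/
def LWN (be ga : Fin 3 → ℝ) (l : ℝ × ℝ) (c0 : ℝ) : Set (Fin 11 → ℝ) :=
  {c | c ∈ LH W10 (nL 1 (be 1) (be 2) (be 0)) (nL 0 (ga 1) (ga 2) (ga 0)) l c0 ∧ c 1 = 0}

section plane

variable {θ be ga : Fin 3 → ℝ} {l : ℝ × ℝ} {g : Fin 11 → ℕ} {n wv : ℕ → ℝ × ℝ}
  {dh : Fin 11 → ℝ} {w0 R1 : ℝ}

theorem PlN.dir (H : PlN θ be ga l g n wv dh) :
    Tn (nL 1 (be 1) (be 2) (be 0)) (nL 0 (ga 1) (ga 2) (ga 0)) (1, -θ 1) = rhoF θ := by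
  have h0 := H.rc 0
  have h1 := H.rc 1
  have h2 := H.rc 2
  funext i
  fin_cases i <;>
    simp only [Tn, nL, rhoF, Matrix.cons_val, Fin.zero_eta, Fin.mk_one, Fin.reduceFinMk,
      Fin.isValue] <;>
    linarith

theorem PlN.sdir (H : PlN θ be ga l g n wv dh) :
    SDir (fun i : J10 => g i.1) (rs nR (nL 1 (be 1) (be 2) (be 0)))
      (rs nR (nL 0 (ga 1) (ga 2) (ga 0))) n (rs nR dh) where
  fst := fun i => H.fst i.1 i.2
  snd := fun i => H.snd i.1 i.2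
  ne := fun i => H.ne i.1 i.2
  det := fun i j h => H.det i.1 i.2 j.1 j.2 h

theorem PlN.grp (H : PlN θ be ga l g n wv dh) :
    Grp (rs nR (nL 1 (be 1) (be 2) (be 0))) (rs nR (nL 0 (ga 1) (ga 2) (ga 0)))
      (fun i : J10 => g i.1) wv where
  fix := fun i => by
    have h1 := H.fix i.1 i.2
    have h2 := H.sdir.Tn_eq (wv (g i.1)) i
    rw [h1, zero_mul] at h2
    exact h2
  up := fun i j h => by
    have h1 := H.up i.1 i.2 j.1 j.2 h
    have h2 := H.sdir.Tn_eq (wv (g i.1)) j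
    have h3 := mul_pos h1 (H.pos j.1 j.2)
    simp only [Tn] at h2
    rw [h2]
    exact h3

theorem PlN.nz (H : PlN θ be ga l g n wv dh) (i : J10) :
    rs nR (nL 1 (be 1) (be 2) (be 0)) i ≠ 0 ∨ rs nR (nL 0 (ga 1) (ga 2) (ga 0)) i ≠ 0 := by
  by_contra hc
  push Not at hc
  obtain ⟨h1, h2⟩ := hc
  rw [H.sdir.fst i] at h1
  rw [H.sdir.snd i] at h2
  have hp := H.pos i.1 i.2
  exact H.ne i.1 i.2 (Prod.ext ((mul_eq_zero.1 h1).resolve_left hp.ne')
    ((mul_eq_zero.1 h2).resolve_left hp.ne'))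

variable (hR : 2 * w0 < R1)
include hR

theorem mem_sL {v s1 s2 s3 v' t1 t2 t3 : ℝ} {c : J10 → ℝ} :
    c ∈ (slice (mw monQ) nR (b0 w0 R1) nR_hd).L (rs nR (b0 w0 R1)) (rs nR (nL v s1 s2 s3))
      (rs nR (nL v' t1 t2 t3)) ↔ xt nR 0 c ∈ W10 := by
  rw [mem_slice_L (x0 := b0 w0 R1) (a := nL v s1 s2 s3) (b := nL v' t1 t2 t3)
    (fun _ _ => rfl) (fun i hi => by rw [not_nR hi]; rfl) (fun i hi => by rw [not_nR hi]; rfl)]
  exact memL_line (θ := 0) hR

theorem PlN.ok (H : PlN θ be ga l g n wv dh) :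
    (sfN θ w0 R1 be ga l g n dh).Ok (slice (mw monQ) nR (b0 w0 R1) nR_hd)
      (rs nR (b0 w0 R1)) (rs nR (rhoF θ)) where
  base := by
    funext i
    simp [X, sfN]
  dir := by
    rw [← H.dir]; rfl
  l0 := H.l0
  r0 := fun h => by
    have := congrArg Prod.fst h
    simp [sfN] at this
  lr := by
    have := H.lr
    simp only [sfN, lf]
    linarith
  sd := H.sdir
  geo := Walls.geoG H.grp (Walls.full_of_ne H.nz) fun _ _ => Iff.rfl
  strict := fun w h1 h2 => by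
    exfalso
    apply h2
    have e1 : (slice (mw monQ) nR (b0 w0 R1) nR_hd).Act (rs nR (b0 w0 R1)) (rs nR (rhoF θ))
        (rs nR (0 : Fin 11 → ℝ)) w := h1
    rw [slice_Act (x0 := b0 w0 R1) (b := 0) (fun _ _ => rfl)
      (fun i hi => by rw [not_nR hi]; rfl) (fun i hi => rfl)] at e1
    have e2 : (mw monQ).co w 1 = 0 := by
      rw [zero_nL] at e1
      exact (act_nat hR w).1 e1
    exact (slice_Act (x0 := b0 w0 R1) (a := nL 1 (be 1) (be 2) (be 0))
      (b := nL 0 (ga 1) (ga 2) (ga 0)) (fun _ _ => rfl) (fun i hi => by rw [not_nR hi]; rfl)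
      (fun i hi => by rw [not_nR hi]; rfl)).2 ((act_nat hR w).2 e2)

theorem PlN.rok (H : PlN θ be ga l g n wv dh) :
    (sfN θ w0 R1 be ga l g n dh).Rok (slice (mw monQ) nR (b0 w0 R1) nR_hd) wv where
  grp := H.grp
  full := Walls.full_of_ne H.nz
  ss := fun i j hij => by
    have hij' : g i.1 = g j.1 := hij
    have e1 := H.sdir.Tn_eq (1, -θ 1) i
    have e2 := H.sdir.Tn_eq (1, -θ 1) j
    change (Tn (rs nR (nL 1 (be 1) (be 2) (be 0))) (rs nR (nL 0 (ga 1) (ga 2) (ga 0))) (1, -θ 1) i = 0 ∧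
      Tn (rs nR (nL 1 (be 1) (be 2) (be 0))) (rs nR (nL 0 (ga 1) (ga 2) (ga 0))) (1, -θ 1) j = 0) ∨
      0 < Tn (rs nR (nL 1 (be 1) (be 2) (be 0))) (rs nR (nL 0 (ga 1) (ga 2) (ga 0))) (1, -θ 1) i *
        Tn (rs nR (nL 1 (be 1) (be 2) (be 0))) (rs nR (nL 0 (ga 1) (ga 2) (ga 0))) (1, -θ 1) j
    rw [e1, e2, ← hij']
    have p1 : 0 < rs nR dh i := H.pos i.1 i.2
    have p2 : 0 < rs nR dh j := H.pos j.1 j.2
    by_cases h0 : lf (n (g i.1)) (1, -θ 1) = 0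
    · left
      rw [h0]; simp
    · right
      have h1 := mul_self_pos.2 h0
      have h2 := mul_pos h1 (mul_pos p1 p2)
      nlinarith
  par := fun i h1 h2 => by
    exfalso
    rcases H.nz i with h | h
    · exact h h1
    · exact h h2

theorem PlN.sub (H : PlN θ be ga l g n wv dh) {c0 : ℝ} {c : Fin 11 → ℝ} (hc : c ∈ LWN be ga l c0) :
    rs nR c ∈ (sfN θ w0 R1 be ga l g n dh).LW (slice (mw monQ) nR (b0 w0 R1) nR_hd) c0 := by
  obtain ⟨⟨w, d, h1, h2, h3, rfl⟩, h4⟩ := hc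
  have hd : d 1 = 0 := by
    simp only [Pi.add_apply, Tn, nL_one] at h4
    linarith
  refine ⟨w, rs nR d, h1, ?_, ?_, rfl⟩
  · refine (mem_sL hR).2 ?_
    rw [xt_rs fun i hi => by rw [not_nR hi, hd]; rfl]
    exact h2
  · refine le_trans ?_ h3
    rw [pi_norm_le_iff_of_nonneg (norm_nonneg _)]
    intro i
    exact norm_le_pi_norm d i.1

theorem rs_L {c : Fin 11 → ℝ} (hc : c ∈ W10) :
    rs nR c ∈ (sfN θ w0 R1 be ga l g n dh).L (slice (mw monQ) nR (b0 w0 R1) nR_hd) := by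
  refine (mem_sL hR).2 ?_
  obtain ⟨a1, a2, a3, a4, a5, a6, a7, a8, a9, a10⟩ := hc
  refine ⟨?_, ?_, ?_, ?_, ?_, ?_, ?_, ?_, ?_, ?_⟩ <;> assumption

end plane

section main

variable {η : ℝ} {p : Par4} {D : Dat4} {I1 : ℕ → Finset (ℕ × ℝ)} {π : Equiv.Perm (Fin 3)}
  {eE fA fB : ℕ → ℕ × ℝ → ℝ} {V T : Fin 11 → Prop} {w0 R T0 : ℝ} {PD : Set (Fin 11 → ℝ)}
  {ν own : (Fin 11 → ℝ) → ℝ} {c₀ : ℝ}

/-- **RECORD BLOW-UP for natural planes**, from `Thick` -/
theorem rec_nat (h : Thick η p D I1 π eE fA fB V T w0 R T0 PD ν own c₀) {A : Type*} [Countable A]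
    {be ga : A → Fin 3 → ℝ} {l : A → ℝ × ℝ} {g : A → Fin 11 → ℕ} {n wv : A → ℕ → ℝ × ℝ}
    {dh : A → Fin 11 → ℝ} (H : ∀ s, PlN p.θ (be s) (ga s) (l s) (g s) (n s) (wv s) (dh s)) :
    ∀ᵐ ξ : ℝ, ξ ∈ Ioo (0:ℝ) 1 → ∃ c0 : A → ℝ, (∀ s, 0 < c0 s) ∧
      (∀ s, LWN (be s) (ga s) (l s) (c0 s) ⊆ W10) ∧
      ∀ hs : ℕ → ℝ, (∀ m, 0 < hs m) → Tendsto hs atTop (𝓝 0) →
      ∃ (x h' : ℕ → ℝ) (lam lo : (Fin 11 → ℝ) → ℝ), Tendsto x atTop (𝓝 ξ) ∧ (∀ m, 0 < h' m) ∧
        Tendsto h' atTop (𝓝 0) ∧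
        IsTan (Leg monQ R) W10 ν (fun m => recF p.θ w0 (R - 1) (x m)) h' lam ∧
        IsTan (Leg monQ R) W10 own (fun m => recF p.θ w0 (R - 1) (x m)) h' lo ∧
        ∀ s, ∃ (φ : ℕ → (Fin 11 → ℝ) → ℝ) (r : ℕ → ℝ), RecOut (g s) (SN (g s) (n s) (l s))
          (LWN (be s) (ga s) (l s) (c0 s)) W10 (nL 1 (be s 1) (be s 2) (be s 0))
          (nL 0 (ga s 1) (ga s 2) (ga s 0)) (l s) (dh s) (n s) lam φ r := by
  obtain ⟨r1, r2, r3⟩ := R1_room h.tp.big
  have hw : 2 * w0 < R - 1 := by linarith [h.tp.big.T0]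
  have hP := prf_ext h.ext
  have eP : (mw monQ).P (fun _ => 0) (fun _ => R) = Leg monQ R := mw_P monQ R
  have eL : (mw monQ).L (b0 w0 (R - 1)) (rhoF p.θ) 0 = W10 := by
    rw [zero_nL]
    ext c
    exact memL_line (θ := 0) hw
  have key := ae_rec_slice (Q := mw monQ) (p := nR) (hp := nR_hd) (lo := fun _ => 0)
    (hi := fun _ => R) (y0 := b0 w0 (R - 1)) (ρ0 := rhoF p.θ) (T := A)
    (sf := fun s => sfN p.θ w0 (R - 1) (be s) (ga s) (l s) (g s) (n s) (dh s))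
    (J := Bool) (f := fun j => cond j ν own) (j0 := true) (K := (11:ℕ)) (U := Ioo 0 1)
    (fun i hi => by
      rw [not_nR hi]
      exact ⟨by show (0:ℝ) ≤ R - 1; linarith, by show R - 1 ≤ R; linarith⟩)
    (fun i hi => by rw [not_nR hi]; rfl)
    (fun s => (H s).ok hw) (fun s => ⟨wv s, (H s).rok hw⟩) hP.K0
    (fun j => by
      rw [eP]
      intro x hx y hy
      rw [dist_eq_norm]
      cases j
      · exact hP.olip x hx y hy
      · exact hP.lip x hx y hy)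
    (by
      rw [eP]
      intro x hx y hy hxy
      exact ⟨sub_nonneg.2 (hP.mono x hx y hy hxy), hP.sharp x hx y hy hxy⟩)
    (by rw [eP]; exact hP.sup)
    (fun ξ hξ => line_O h.tp.big hξ.1 hξ.2)
  filter_upwards [key] with ξ hξ hU
  obtain ⟨c0, hc0, hsub, Hh⟩ := hξ hU
  refine ⟨c0, hc0, fun s c hc => ?_, fun hs hpos h0 => ?_⟩
  · have h1 := hsub s ((H s).sub hw hc)
    have h2 : rs nR c ∈ (slice (mw monQ) nR (b0 w0 (R - 1)) nR_hd).L (rs nR (b0 w0 (R - 1)))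
      (rs nR (rhoF p.θ)) (rs nR (0 : Fin 11 → ℝ)) := h1
    rw [mem_slice_L (x0 := b0 w0 (R - 1)) (b := 0) (fun _ _ => rfl)
      (fun i hi => by rw [not_nR hi]; rfl) (fun i hi => rfl), eL,
      xt_rs fun i hi => by rw [not_nR hi, hc.2]; rfl] at h2
    exact h2
  · obtain ⟨x, h', lam, hx, hh', hh0, hT, hO⟩ := Hh hs hpos h0
    refine ⟨x, h', lam true, lam false, hx, hh', hh0, ?_, ?_, fun s => ?_⟩
    · have := hT true
      rw [eP, eL] at this
      simp only [b0_rec] at this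
      exact this
    · have := hT false
      rw [eP, eL] at this
      simp only [b0_rec] at this
      exact this
    · obtain ⟨φ, r, hφ⟩ := hO s
      refine ⟨_, r, recOut_lift (p := nR) hφ (fun c hc => rs_L hw hc)
        (fun c hc => ⟨(H s).sub hw hc, fun i hi => by rw [not_nR hi]; exact hc.2⟩)
        fun i hi => ?_⟩
      rw [not_nR hi]
      intro h1
      have h2 := (Rc146.mem_SH.1 h1).1
      obtain ⟨j, -, hj⟩ := Finset.mem_image.1 h2
      exact (H s).fr j.1 j.2 hj.symm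

/-! ### the lightlike plane -/

/-- `t1 = t, t2 = 2 t, t3 = v + 2 t` -/
def beL : Fin 3 → ℝ := ![1, 0, 0]
/-- `t1 = t, t2 = 2 t, t3 = v + 2 t` -/
def gaL : Fin 3 → ℝ := ![2, 1, 2]
/-- labels: `0 = {z, F_b}`, `1 = {F_a, X_a, N}`, `2 = {P, X_b}`, `3 = {E, C_a, C_b}`, `4 = {R}` -/
def gL : Fin 11 → ℕ := ![0, 4, 3, 0, 1, 3, 3, 2, 1, 2, 1]
/-- multiples of the directions -/
def dhL : Fin 11 → ℝ := ![1, 0, 1, 1, 1, 1, 2, 1, 1, 1, 2]
/-- directions of the groups -/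
def nnL (k : ℕ) : ℝ × ℝ := if k = 0 then (1, 0) else if k = 1 then (1, 1) else
  if k = 2 then (1, 2) else (0, 1)
/-- directions which fix the groups -/
def wvL (k : ℕ) : ℝ × ℝ := if k = 0 then (0, 1) else if k = 1 then (-1, 1) else
  if k = 2 then (-2, 1) else (-1, 0)
/-- half planes: `true` : `θ 1 v + t ≤ 0` (left of / below the record line) -/
def llL (θ : Fin 3 → ℝ) (σ : Bool) : ℝ × ℝ := if σ then (θ 1, 1) else (-θ 1, -1)

/-- slopes in `v` -/
def aL : Fin 11 → ℝ := ![1, 0, 0, 1, 1, 0, 0, 1, 1, 1, 2]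
/-- slopes in `t` -/
def bL : Fin 11 → ℝ := ![0, 0, 1, 0, 1, 1, 2, 2, 1, 2, 2]

theorem aL_eq : nL 1 (beL 1) (beL 2) (beL 0) = aL := by
  funext i
  fin_cases i <;> simp [nL, beL, aL]
  norm_num

theorem bL_eq : nL 0 (gaL 1) (gaL 2) (gaL 0) = bL := by
  funext i
  fin_cases i <;> simp [nL, gaL, bL]
  all_goals norm_num

theorem plL (hL : TopB550.LL p) (hθ : 0 < p.θ 1) (σ : Bool) :
    PlN p.θ beL gaL (llL p.θ σ) gL nnL wvL dhL where
  rc := fun j => by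
    obtain ⟨h1, h2⟩ := hL
    fin_cases j
    · show (1:ℝ) - p.θ 1 * 2 = -p.θ 0
      linarith
    · show (0:ℝ) - p.θ 1 * 1 = -p.θ 1
      linarith
    · show (0:ℝ) - p.θ 1 * 2 = -p.θ 2
      linarith
  l0 := fun h => by
    have := congrArg Prod.snd h
    cases σ <;> simp [llL] at this
  lr := by cases σ <;> simp [llL]
  fst := fun i hi => by
    rw [aL_eq]
    fin_cases i <;> simp [aL, dhL, nnL, gL] at hi ⊢
  snd := fun i hi => by
    rw [bL_eq]
    fin_cases i <;> simp [bL, dhL, nnL, gL] at hi ⊢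
  pos := fun i hi => by fin_cases i <;> simp [dhL] at hi ⊢
  ne := fun i hi => by fin_cases i <;> simp [nnL, gL] at hi ⊢
  det := fun i hi j hj h => by
    have hk : ∀ k m : ℕ, k ≤ 3 → m ≤ 3 → k ≠ m → det2 (nnL k) (nnL m) ≠ 0 := by
      intro k m h1 h2 h3
      interval_cases k <;> interval_cases m <;> first
        | exact absurd rfl h3
        | (simp only [det2, nnL]; norm_num)
    refine hk _ _ ?_ ?_ h
    · fin_cases i <;> simp [gL] at hi ⊢
    · fin_cases j <;> simp [gL] at hj ⊢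
  fix := fun i hi => by
    have hk : ∀ k : ℕ, k ≤ 3 → lf (nnL k) (wvL k) = 0 := by
      intro k h1
      interval_cases k <;> (simp only [lf, nnL, wvL]; norm_num)
    refine hk _ ?_
    fin_cases i <;> simp [gL] at hi ⊢
  up := fun i hi j hj h => by
    have hk : ∀ k m : ℕ, k ≤ 3 → m ≤ 3 → k < m → 0 < lf (nnL m) (wvL k) := by
      intro k m h1 h2 h3
      interval_cases k <;> interval_cases m <;> first
        | exact absurd h3 (by decide)
        | (simp only [lf, nnL, wvL]; norm_num)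
    refine hk _ _ ?_ ?_ h
    · fin_cases i <;> simp [gL] at hi ⊢
    · fin_cases j <;> simp [gL] at hj ⊢
  fr := fun i hi => by fin_cases i <;> simp [gL] at hi ⊢

/-- groups of the lightlike plane which are not parallel to the record line -/
noncomputable abbrev SL (θ : Fin 3 → ℝ) (σ : Bool) : Finset ℕ := SN gL nnL (llL θ σ)

theorem mem_SL {θ : Fin 3 → ℝ} {σ : Bool} {k : ℕ} :
    k ∈ SL θ σ ↔ k ≤ 3 ∧ det2 (nnL k) (llL θ σ) ≠ 0 := by
  rw [Rc146.mem_SH]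
  have : k ∈ Dg219.gset (fun i : J10 => gL i.1) ↔ k ≤ 3 := by
    unfold Dg219.gset
    rw [Finset.mem_image]
    constructor
    · rintro ⟨⟨i, hi⟩, -, rfl⟩
      fin_cases i <;> simp [gL] at hi ⊢
    · intro h
      interval_cases k
      · exact ⟨⟨0, by decide⟩, Finset.mem_univ _, rfl⟩
      · exact ⟨⟨4, by decide⟩, Finset.mem_univ _, rfl⟩
      · exact ⟨⟨7, by decide⟩, Finset.mem_univ _, rfl⟩
      · exact ⟨⟨2, by decide⟩, Finset.mem_univ _, rfl⟩
  rw [this]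

theorem mem_SL0 (θ : Fin 3 → ℝ) (σ : Bool) : 0 ∈ SL θ σ := by
  rw [mem_SL]
  refine ⟨by decide, ?_⟩
  cases σ <;> simp [det2, nnL, llL]

theorem mem_SL1 {θ : Fin 3 → ℝ} (σ : Bool) : 1 ∈ SL θ σ ↔ θ 1 ≠ 1 := by
  rw [mem_SL]
  cases σ
  · simp only [det2, nnL, llL]
    norm_num
    constructor
    · intro h h2; apply h; rw [h2]; ring
    · intro h h2; apply h; linarith
  · simp only [det2, nnL, llL]
    norm_num
    constructor
    · intro h h2; apply h; rw [h2]; ring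
    · intro h h2; apply h; linarith

theorem mem_SL2 {θ : Fin 3 → ℝ} (σ : Bool) : 2 ∈ SL θ σ ↔ 2 * θ 1 ≠ 1 := by
  rw [mem_SL]
  cases σ
  · simp only [det2, nnL, llL]
    norm_num
    constructor
    · intro h h2; apply h; linarith
    · intro h h2; apply h; linarith
  · simp only [det2, nnL, llL]
    norm_num
    constructor
    · intro h h2; apply h; linarith
    · intro h h2; apply h; linarith

theorem mem_SL3 {θ : Fin 3 → ℝ} (hθ : 0 < θ 1) (σ : Bool) : 3 ∈ SL θ σ := by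
  rw [mem_SL]
  refine ⟨by decide, ?_⟩
  cases σ <;> simp [det2, nnL, llL, hθ.ne']

/-- window cone of the lightlike plane -/
def LWL (θ : Fin 3 → ℝ) (σ : Bool) (c0 : ℝ) : Set (Fin 11 → ℝ) :=
  {c | c ∈ LH W10 aL bL (llL θ σ) c0 ∧ c 1 = 0}

/-- **RECORD BLOW-UP of the lightlike plane** (`LL` : `θ 2 - θ 0 = 1`, `θ 2 = 2 θ 1`), both half
planes `σ` (`true` : `θ 1 w.1 + w.2 ≤ 0`, contains `(-1, 0)` and `(0, -1)`) -/
theorem recL (h : Thick η p D I1 π eE fA fB V T w0 R T0 PD ν own c₀) (hL : TopB550.LL p) :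
    ∀ᵐ ξ : ℝ, ξ ∈ Ioo (0:ℝ) 1 → ∃ c0 : Bool → ℝ, (∀ σ, 0 < c0 σ) ∧
      (∀ σ, LWL p.θ σ (c0 σ) ⊆ W10) ∧
      ∀ hs : ℕ → ℝ, (∀ m, 0 < hs m) → Tendsto hs atTop (𝓝 0) →
      ∃ (x h' : ℕ → ℝ) (lam lo : (Fin 11 → ℝ) → ℝ), Tendsto x atTop (𝓝 ξ) ∧ (∀ m, 0 < h' m) ∧
        Tendsto h' atTop (𝓝 0) ∧
        IsTan (Leg monQ R) W10 ν (fun m => recF p.θ w0 (R - 1) (x m)) h' lam ∧
        IsTan (Leg monQ R) W10 own (fun m => recF p.θ w0 (R - 1) (x m)) h' lo ∧
        ∀ σ, ∃ (φ : ℕ → (Fin 11 → ℝ) → ℝ) (r : ℕ → ℝ), RecOut gL (SL p.θ σ)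
          (LWL p.θ σ (c0 σ)) W10 aL bL (llL p.θ σ) dhL nnL lam φ r := by
  have key := rec_nat h (A := Bool) (fun σ => plL hL h.tp.ok.θ1 σ)
  unfold LWL
  simp only [LWN, aL_eq, bL_eq] at key
  exact key

end main

end Crest.Agent.R136.TLr741
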