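import Crest.Agent.R136.Tb1_628
import Crest.Agent.R136.GD5_186
import Crest.Agent.R138.Qf3_926

/-!
# R136, scalar part of the thick table (helper628), part 2: last rung and sweeps of the tangents

* `Om θ S` : region of the plane `(v, t)` at distance `< S` to the left of the record line;
* `exists_small` : a good `S`;
* `Cx.ray`, `Cx.dead` : **if the left slope of `ν` on the surface is `≥ 4 + κ + κ3` at almost every
  point of `Om`, then False** (as soon as `q 2 κ + q 0 κ3 < g`);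
* `RecA c`, `RecB c` : sweeps of `C_a`, `(E, C_b)` at the record boxes with constant `c`;
* `tan_S1`, `tan_S2` : the same for the tangents `lam` at the points of `Om` (moving base points).
-/

set_option autoImplicit false
set_option linter.unusedVariables false

open Finset Filter Topology

namespace Crest.Agent.R136.Tb628

open Crest.Agent.R136.Net191
open Crest.Agent.R136.NetQ186
open Crest.Agent.R136.NatT550
open Crest.Agent.R136.NatR550
open Crest.Agent.R136.Lq196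
open Crest.Agent.R136.Wq638
open Crest.Agent.R136.Dg219 (Walls mw mw_P mem_mwO mem_mwL Tn)
open Crest.Agent.R136.Dg262 (X)
open Crest.Agent.R136.K2S774 (Ray)
open Crest.Agent.R138.Ex926 (Base U QProf IsTan)

variable {θ q : Fin 3 → ℝ} {g w0 R T0 cab cby cr c₀ κ κ3 : ℝ} {ν : (Fin 11 → ℝ) → ℝ}

/-- region to the left of the record line -/
def Om (θ : Fin 3 → ℝ) (S : ℝ) : Set (ℝ × ℝ) :=
  {z | ∃ ξ x : ℝ, 1 / 3 < ξ ∧ ξ < 2 / 3 ∧ 0 < x ∧ x < S ∧ z = pt θ ξ x}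

/-- `S` is small enough -/
structure Small (θ : Fin 3 → ℝ) (cab cby κ κ3 S : ℝ) : Prop where
  pos : 0 < S
  le : S ≤ 1 / 4
  k : κ * S ≤ 1 / 4
  k3 : κ3 * S ≤ 1 / 4
  r12 : ∀ v : ℝ, 1 / 3 ≤ v → v ≤ 2 / 3 → κ * S ≤ rm12 θ cab v
  r23 : ∀ v : ℝ, 1 / 3 ≤ v → v ≤ 2 / 3 → (κ3 - κ) * S ≤ rm23 θ cby v

theorem Small.near {S x ξ : ℝ} (h : Small θ cab cby κ κ3 S) (hk : 0 ≤ κ) (hk3 : κ ≤ κ3)
    (h1 : 1 / 3 ≤ ξ) (h2 : ξ ≤ 2 / 3) (hx : 0 ≤ x) (hxS : x ≤ S) : Near0 κ κ3 ξ x where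
  x0 := hx
  l0 := by have := h.le; linarith
  l1 := by linarith
  k := (mul_le_mul_of_nonneg_left hxS hk).trans h.k
  k3 := (mul_le_mul_of_nonneg_left hxS (hk.trans hk3)).trans h.k3

/-- a good `S` exists: if the left slope is positive, the room must be positive -/
theorem exists_small (C : Cx θ q g w0 R T0 cab cby cr ν c₀) (hk : 0 ≤ κ) (hk3 : κ ≤ κ3)
    (h12 : κ = 0 ∨ (0 < rm12 θ cab (1 / 3) ∧ 0 < rm12 θ cab (2 / 3)))
    (h23 : κ3 = κ ∨ (0 < rm23 θ cby (1 / 3) ∧ 0 < rm23 θ cby (2 / 3))) :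
    ∃ S : ℝ, Small θ cab cby κ κ3 S := by
  have hk3' : 0 ≤ κ3 := hk.trans hk3
  -- bound of a linear function on an interval
  have lin : ∀ a b v : ℝ, 1 / 3 ≤ v → v ≤ 2 / 3 →
      min (a * (1 / 3) + b) (a * (2 / 3) + b) ≤ a * v + b := by
    intro a b v h1 h2
    rcases le_total 0 a with ha | ha
    · exact (min_le_left _ _).trans (by nlinarith)
    · exact (min_le_right _ _).trans (by nlinarith)
  obtain ⟨s1, hs1, H1⟩ : ∃ s : ℝ, 0 < s ∧ ∀ v : ℝ, 1 / 3 ≤ v → v ≤ 2 / 3 → ∀ S : ℝ, 0 ≤ S →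
      S ≤ s → κ * S ≤ rm12 θ cab v := by
    rcases h12 with h | ⟨h1, h2⟩
    · refine ⟨1, one_pos, fun v hv1 hv2 S _ _ => ?_⟩
      rw [h, zero_mul]
      exact C.rm12_nonneg (by linarith) (by linarith)
    · set m : ℝ := min (rm12 θ cab (1 / 3)) (rm12 θ cab (2 / 3)) with hm
      have hm0 : 0 < m := lt_min h1 h2
      refine ⟨m / (1 + κ), by positivity, fun v hv1 hv2 S hS0 hS => ?_⟩
      have e1 : m ≤ rm12 θ cab v := lin _ _ v hv1 hv2
      have e2 : (1 + κ) * S ≤ m := by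
        rw [le_div_iff₀ (by linarith)] at hS; linarith
      nlinarith
  obtain ⟨s2, hs2, H2⟩ : ∃ s : ℝ, 0 < s ∧ ∀ v : ℝ, 1 / 3 ≤ v → v ≤ 2 / 3 → ∀ S : ℝ, 0 ≤ S →
      S ≤ s → (κ3 - κ) * S ≤ rm23 θ cby v := by
    rcases h23 with h | ⟨h1, h2⟩
    · refine ⟨1, one_pos, fun v hv1 hv2 S _ _ => ?_⟩
      rw [h, sub_self, zero_mul]
      exact C.rm23_nonneg (by linarith) (by linarith)
    · set m : ℝ := min (rm23 θ cby (1 / 3)) (rm23 θ cby (2 / 3)) with hm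
      have hm0 : 0 < m := lt_min h1 h2
      have hkk : 0 ≤ κ3 - κ := by linarith
      refine ⟨m / (1 + (κ3 - κ)), by positivity, fun v hv1 hv2 S hS0 hS => ?_⟩
      have e1 : m ≤ rm23 θ cby v := lin _ _ v hv1 hv2
      have e2 : (1 + (κ3 - κ)) * S ≤ m := by
        rw [le_div_iff₀ (by linarith)] at hS; linarith
      nlinarith
  set S : ℝ := min (min s1 s2) (1 / (4 * (1 + κ3))) with hSd
  have hp : 0 < 1 / (4 * (1 + κ3)) := by positivity
  have hS0 : 0 < S := lt_min (lt_min hs1 hs2) hp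
  have hSa : S ≤ s1 := (min_le_left _ _).trans (min_le_left _ _)
  have hSb : S ≤ s2 := (min_le_left _ _).trans (min_le_right _ _)
  have hSc : S ≤ 1 / (4 * (1 + κ3)) := min_le_right _ _
  rw [le_div_iff₀ (by linarith)] at hSc
  have hkS : 0 ≤ κ * S := mul_nonneg hk hS0.le
  have hkS3 : κ * S ≤ κ3 * S := mul_le_mul_of_nonneg_right hk3 hS0.le
  exact ⟨S, hS0, by nlinarith, by nlinarith, by nlinarith,
    fun v h1 h2 => H1 v h1 h2 S hS0.le hSa, fun v h1 h2 => H2 v h1 h2 S hS0.le hSb⟩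

/-! ### last rung -/

theorem leg_sup {M : Mons 11} {p q : Fin 11 → ℝ} (hp : p ∈ Leg M R) (hq : q ∈ Leg M R) :
    p ⊔ q ∈ Leg M R := by
  refine ⟨⟨fun k => (hp.1.nonneg k).trans le_sup_left, fun k e he => ?_⟩,
    fun k => sup_le (hp.2 k) (hq.2 k)⟩
  refine sup_le ((hp.1.wall k e he).trans ?_) ((hq.1.wall k e he).trans ?_)
  · exact sum_le_sum fun s _ => mul_le_mul_of_nonneg_left le_sup_left (Nat.cast_nonneg _)
  · exact sum_le_sum fun s _ => mul_le_mul_of_nonneg_left le_sup_right (Nat.cast_nonneg _)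

theorem Prf.lip' {M : Mons 11} (H : Prf (Leg M R) ν) {p q : Fin 11 → ℝ} (hp : p ∈ Leg M R)
    (hq : q ∈ Leg M R) : |ν p - ν q| ≤ 11 * dist p q := by
  have key : ∀ p q : Fin 11 → ℝ, p ∈ Leg M R → q ∈ Leg M R → ν p - ν q ≤ 11 * dist p q := by
    intro p q hp hq
    have hs := leg_sup hp hq
    have h1 := (H.lip p hp _ hs le_sup_left).2
    have h2 := (H.lip q hq _ hs le_sup_right).1
    have h3 : ∑ k, ((p ⊔ q) k - p k) ≤ ∑ k : Fin 11, dist p q := by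
      refine sum_le_sum fun k _ => ?_
      have h4 : |p k - q k| ≤ dist p q := by
        rw [← Real.dist_eq]; exact dist_le_pi_dist p q k
      have h5 := (abs_le.1 h4).1
      show p k ⊔ q k - p k ≤ _
      rcases le_total (p k) (q k) with h | h
      · rw [sup_eq_right.2 h]; linarith
      · rw [sup_eq_left.2 h, sub_self]; exact dist_nonneg
    rw [sum_const, card_univ, Fintype.card_fin, nsmul_eq_mul] at h3
    push_cast at h3
    linarith
  rw [abs_sub_le_iff]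
  exact ⟨key p q hp hq, by rw [dist_comm]; exact key q p hq hp⟩

theorem pt_eq (θ : Fin 3 → ℝ) (ξ x : ℝ) :
    K2S774.pt (0, 0) (1, -θ 1) (1, 0) ξ x = pt θ ξ x := by
  simp only [K2S774.pt, pt, Prod.smul_mk, smul_eq_mul, mul_one, mul_zero, Prod.mk_add_mk,
    Prod.mk_sub_mk, zero_add, sub_zero]
  congr 1
  ring

/-- the surface with its rays, form of `K2S_774` -/
theorem Cx.ray (C : Cx θ q g w0 R T0 cab cby cr ν c₀) (hk : 0 ≤ κ) (hk3 : κ ≤ κ3) {S : ℝ}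
    (hS : Small θ cab cby κ κ3 S) :
    Ray (Leg monQ R) ν (s0 w0 (R - 1)) (sA κ κ3) (sB θ κ κ3) (0, 0) (1, -θ 1) (1, 0)
      (fun ξ => c₀ + DQ g 0 q w0 (pathQ θ w0 R ξ)) (4 + κ + κ3 + q 2 * κ + q 0 * κ3 - g)
      (Set.Ioo (1 / 3) (2 / 3)) S 11 where
  det := by
    have := C.th1
    simp only [mul_zero, zero_sub, mul_one]
    intro h; linarith
  K0 := by norm_num
  lip := fun p hp q hq => C.prf.lip' hp hq
  leg := fun ξ hξ x h0 h1 => by
    rw [pt_eq, ← srf_eq]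
    exact srf_leg C.big C.th1 hk hk3 (hS.near hk hk3 hξ.1.le hξ.2.le h0 h1)
  dmax := fun ξ hξ => by
    rw [pt_eq, ← srf_eq]
    have h1 := C.dmax _ (C.srf_PD hk hk3 (hS.near hk hk3 hξ.1.le hξ.2.le hS.pos.le le_rfl)
      (hS.r12 ξ hξ.1.le hξ.2.le) (hS.r23 ξ hξ.1.le hξ.2.le))
    rw [D_srf C.th1.ne'] at h1
    linarith
  rcd := fun ξ hξ => by
    rw [pt_eq, ← srf_eq]
    have h0 : (0 : ℝ) ≤ ξ := by linarith [hξ.1]
    have h1 : ξ ≤ 1 := by linarith [hξ.2]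
    have h2 := C.record ξ h0 h1
    have h3 := srf_le (θ := θ) (w0 := w0) (v0 := ξ) (x := 0) C.th1.ne' hk hk3
      (show R - 1 ≤ R by linarith) (le_refl (0 : ℝ))
    rw [srf_zero C.th1.ne' w0 R] at h3
    have h4 := (C.prf.lip _ (srf_leg C.big C.th1 hk hk3
      (hS.near hk hk3 hξ.1.le hξ.2.le le_rfl hS.pos.le)) _ (C.big.path_leg h0 h1) h3).1
    linarith

/-- **last rung**: left slope `≥ 4 + κ + κ3` a.e. to the left of the record line is impossible -/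
theorem Cx.dead (C : Cx θ q g w0 R T0 cab cby cr ν c₀) (hk : 0 ≤ κ) (hk3 : κ ≤ κ3) {S : ℝ}
    (hS : Small θ cab cby κ κ3 S) (hsl : q 2 * κ + q 0 * κ3 < g)
    (hF : ∀ᵐ z : ℝ × ℝ, z ∈ Om θ S → ∃ D : ℝ × ℝ →L[ℝ] ℝ,
      HasFDerivAt (fun z => ν (X (s0 w0 (R - 1)) (sA κ κ3) (sB θ κ κ3) z)) D z ∧
        D (1, 0) ≤ -(4 + κ + κ3)) : False := by
  have h1 := (C.ray hk hk3 hS).dead (g := g - q 2 * κ - q 0 * κ3) (by linarith) hS.pos
    (O := Om θ S) (fun ξ hξ s h0 h1 => ⟨ξ, s, hξ.1, hξ.2, h0, h1, pt_eq θ ξ s⟩) (by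
      filter_upwards [hF] with z hz hzO
      obtain ⟨D, hD, hD2⟩ := hz hzO
      exact ⟨D, hD, by linarith⟩)
  have h2 : MeasureTheory.volume (Set.Ioo (1 / 3 : ℝ) (2 / 3)) = 0 := by
    have h3 : Set.Ioo (1 / 3 : ℝ) (2 / 3) = {ξ : ℝ | ¬ ξ ∉ Set.Ioo (1 / 3 : ℝ) (2 / 3)} := by
      ext ξ; simp
    rw [h3]
    exact h1
  rw [Real.volume_Ioo, ENNReal.ofReal_eq_zero] at h2
  norm_num at h2

/-! ### sweeps -/

/-- sweep of the direction `e` at the record boxes with constant `c` -/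
def RecS (θ : Fin 3 → ℝ) (w0 R : ℝ) (ν : (Fin 11 → ℝ) → ℝ) (e : Fin 11 → ℝ) (c : ℝ) : Prop :=
  ∃ y0 : ℝ, 0 < y0 ∧ ∀ v : ℝ, 1 / 4 ≤ v → v ≤ 3 / 4 → ∀ y : ℝ, 0 ≤ y → y ≤ y0 →
    c * y ≤ ν (pathQ θ w0 R v) - ν (pathQ θ w0 R v + y • e)

theorem smul_eCa (y : ℝ) : y • eCa 1 = eCa y := by
  funext k; fin_cases k <;> simp [eCa]

theorem smul_eECb (y : ℝ) : y • eECb 1 = eECb y := by
  funext k; fin_cases k <;> simp [eECb]

theorem smul_eCXa (y : ℝ) : y • eCXa 1 = eCXa y := by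
  funext k; fin_cases k <;> simp [eCXa]

/-- **sweep of `C_a`** with constant `q 1` -/
theorem Cx.recA (C : Cx θ q g w0 R T0 cab cby cr ν c₀) (h1 : 0 < rm12 θ cab (1 / 4))
    (h2 : 0 < rm12 θ cab (3 / 4)) : RecS θ w0 R ν (eCa 1) (q 1) := by
  refine ⟨min 1 (min (rm12 θ cab (1 / 4)) (rm12 θ cab (3 / 4))), by positivity,
    fun v hv1 hv2 y hy hy1 => ?_⟩
  rw [smul_eCa]
  refine C.rec_Ca (by linarith) (by linarith) hy (hy1.trans (min_le_left _ _)) ?_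
  refine (hy1.trans (min_le_right _ _)).trans ?_
  unfold rm12
  rcases le_total 0 (θ 1 - θ 2) with ha | ha
  · exact (min_le_left _ _).trans (by nlinarith)
  · exact (min_le_right _ _).trans (by nlinarith)

/-- **sweep of the pair `(E, C_b)`** with constant `q 2` -/
theorem Cx.recB (C : Cx θ q g w0 R T0 cab cby cr ν c₀) (h1 : 0 < rm23 θ cby (1 / 4))
    (h2 : 0 < rm23 θ cby (3 / 4)) : RecS θ w0 R ν (eECb 1) (q 2) := by
  refine ⟨min 1 (min (rm23 θ cby (1 / 4)) (rm23 θ cby (3 / 4))), by positivity,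
    fun v hv1 hv2 y hy hy1 => ?_⟩
  rw [smul_eECb]
  refine C.rec_ECb (by linarith) (by linarith) hy (hy1.trans (min_le_left _ _)) ?_
  refine (hy1.trans (min_le_right _ _)).trans ?_
  unfold rm23
  rcases le_total 0 (θ 2 - θ 0) with ha | ha
  · exact (min_le_left _ _).trans (by nlinarith)
  · exact (min_le_right _ _).trans (by nlinarith)

/-- sweep of `C_a` from a bound of the box with the raised position, any constant `c` -/
theorem Cx.recA_of (C : Cx θ q g w0 R T0 cab cby cr ν c₀) {c : ℝ}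
    (hX : ∃ y0 : ℝ, 0 < y0 ∧ ∀ v : ℝ, 1 / 4 ≤ v → v ≤ 3 / 4 → ∀ y : ℝ, 0 ≤ y → y ≤ y0 →
      ν (pathQ θ w0 R v + eCXa y) ≤ c₀ + DQ g 0 q w0 (pathQ θ w0 R v) - (1 + c) * y) :
    RecS θ w0 R ν (eCa 1) c := by
  obtain ⟨y0, hy0, H⟩ := hX
  refine ⟨min 1 y0, by positivity, fun v hv1 hv2 y hy hy1 => ?_⟩
  have hy2 : y ≤ 1 := hy1.trans (min_le_left _ _)
  have h0 : 0 ≤ v := by linarith
  have h1 : v ≤ 1 := by linarith
  rw [smul_eCa]
  have hL1 : pathQ θ w0 R v + eCa y ∈ Leg monQ R :=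
    leg_aux C.big h0 h1 le_rfl hy le_rfl le_rfl le_rfl zero_le_one hy2 zero_le_one zero_le_one
      zero_le_one (by linarith) hy le_rfl (by linarith)
  have hL2 : pathQ θ w0 R v + eCXa y ∈ Leg monQ R :=
    leg_aux C.big h0 h1 le_rfl hy le_rfl hy le_rfl zero_le_one hy2 zero_le_one hy2
      zero_le_one (by linarith) le_rfl le_rfl (by linarith)
  have e1 := C.prf.rec_loss (d := c₀ + DQ g 0 q w0 (pathQ θ w0 R v)) hL1 hL2 (by
    intro k; fin_cases k <;> simp [eCa, eCXa, hy]) (C.record v h0 h1)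
    (H v hv1 hv2 y hy (hy1.trans (min_le_right _ _)))
  have e4 : ∑ k, (eCXa y k - eCa y k) = y := by
    simp [Fin.sum_univ_succ, eCa, eCXa]
  rw [e4] at e1
  linarith

theorem sA_nonneg (hk : 0 ≤ κ) (hk3 : κ ≤ κ3) (k : Fin 11) : 0 ≤ sA κ κ3 k := by
  fin_cases k <;> simp only [sA, nL, Matrix.cons_val, Fin.zero_eta, Fin.mk_one, Fin.reduceFinMk,
    Fin.isValue] <;> linarith

/-- record box of the level `-(t + τ)/θ 1` minus a box near the surface point `(v, t)` -/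
theorem path_sub (h1 : θ 1 ≠ 0) {k : Fin 11} (hk : k ≠ 1) (z : ℝ × ℝ) (τ y : ℝ) :
    pathQ θ w0 R (-(z.2 / θ 1) - τ / θ 1) k -
      (X (s0 w0 (R - 1)) (sA κ κ3) (sB θ κ κ3) z k + y) =
      sA κ κ3 k * (-(z.2 / θ 1) - τ / θ 1 - z.1) + (sB θ κ κ3 k * τ - y) := by
  fin_cases k <;> first
    | exact absurd rfl hk
    | (simp only [pathQ, X, s0, sA, sB, nL, nat4, Matrix.cons_val, Fin.zero_eta,
        Fin.reduceFinMk, Fin.isValue]
       field_simp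
       ring)

/-- boxes near a surface point lie below the record box -/
theorem below (hth : 0 < θ 1) (hk : 0 ≤ κ) (hk3 : κ ≤ κ3) {ξ x : ℝ} (hx : 0 < x)
    {zl : ℕ → ℝ × ℝ} (hzl : Tendsto zl atTop (𝓝 (pt θ ξ x))) {h : ℕ → ℝ} (hpos : ∀ l, 0 < h l)
    (h0 : Tendsto h atTop (𝓝 0)) {c : Fin 11 → ℝ} {τ : ℝ}
    (hb : ∀ k, k ≠ 1 → sA κ κ3 k = 0 → c k ≤ sB θ κ κ3 k * τ) :
    ∀ᶠ l in atTop, X (s0 w0 (R - 1)) (sA κ κ3) (sB θ κ κ3) (zl l) + h l • c ≤
      pathQ θ w0 R (-((zl l).2 / θ 1) - h l * τ / θ 1) := by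
  have h1 : Tendsto (fun l => (zl l).1) atTop (𝓝 (ξ - x)) := (continuous_fst.tendsto _).comp hzl
  have h2 : Tendsto (fun l => (zl l).2) atTop (𝓝 (-(θ 1 * ξ))) :=
    (continuous_snd.tendsto _).comp hzl
  have key : ∀ k : Fin 11, ∀ᶠ l in atTop,
      (X (s0 w0 (R - 1)) (sA κ κ3) (sB θ κ κ3) (zl l) + h l • c) k ≤
        pathQ θ w0 R (-((zl l).2 / θ 1) - h l * τ / θ 1) k := by
    intro k
    simp only [Pi.add_apply, Pi.smul_apply, smul_eq_mul]
    by_cases hk1 : k = 1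
    · subst hk1
      have h3 : Tendsto (fun l => h l * c 1) atTop (𝓝 0) := by
        simpa using h0.mul_const (c 1)
      filter_upwards [h3.eventually (gt_mem_nhds (show (0:ℝ) < 1 by norm_num))] with l hl
      have e1 : X (s0 w0 (R - 1)) (sA κ κ3) (sB θ κ κ3) (zl l) 1 = R - 1 := by
        simp [X, s0, sA, sB, nL, nat4]
      have e2 : pathQ θ w0 R (-((zl l).2 / θ 1) - h l * τ / θ 1) 1 = R := by simp [pathQ]
      rw [e1, e2]; linarith
    · by_cases hA : sA κ κ3 k = 0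
      · filter_upwards with l
        have e1 := path_sub (w0 := w0) (R := R) (κ := κ) (κ3 := κ3) hth.ne' hk1 (zl l) (h l * τ)
          (h l * c k)
        rw [hA, zero_mul, zero_add] at e1
        have e2 : 0 ≤ h l * (sB θ κ κ3 k * τ - c k) :=
          mul_nonneg (hpos l).le (sub_nonneg.2 (hb k hk1 hA))
        have e3 : sB θ κ κ3 k * (h l * τ) - h l * c k = h l * (sB θ κ κ3 k * τ - c k) := by ring
        linarith
      · have hA0 : 0 < sA κ κ3 k := lt_of_le_of_ne (sA_nonneg hk hk3 k) (Ne.symm hA)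
        have h3 : Tendsto (fun l => sA κ κ3 k * (-((zl l).2 / θ 1) - h l * τ / θ 1 - (zl l).1) +
            (sB θ κ κ3 k * (h l * τ) - h l * c k)) atTop
            (𝓝 (sA κ κ3 k * (-(-(θ 1 * ξ) / θ 1) - 0 * τ / θ 1 - (ξ - x)) +
              (sB θ κ κ3 k * (0 * τ) - 0 * c k))) := by
          exact ((((h2.div_const _).neg.sub ((h0.mul_const τ).div_const _)).sub h1).const_mul _).add
            (((h0.mul_const τ).const_mul _).sub (h0.mul_const _))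
        have e4 : sA κ κ3 k * (-(-(θ 1 * ξ) / θ 1) - 0 * τ / θ 1 - (ξ - x)) +
              (sB θ κ κ3 k * (0 * τ) - 0 * c k) = sA κ κ3 k * x := by
          have := hth.ne'
          field_simp
          ring
        rw [e4] at h3
        filter_upwards [h3.eventually (lt_mem_nhds (mul_pos hA0 hx))] with l hl
        have e1 := path_sub (w0 := w0) (R := R) (κ := κ) (κ3 := κ3) hth.ne' hk1 (zl l) (h l * τ)
          (h l * c k)
        linarith
  filter_upwards [eventually_all.2 key] with l hl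
  exact hl

/-- **sweeps pass to the tangents**: `e` = direction in slots which are constant in `v`, `c` = base
box, natural (`= sB * τ`) in the slots of `e` and not finer than natural in the slots which are
constant in `v`. -/
theorem Cx.tan_sweep (C : Cx θ q g w0 R T0 cab cby cr ν c₀) (hk : 0 ≤ κ) (hk3 : κ ≤ κ3)
    {e : Fin 11 → ℝ} {c1 : ℝ} (hS : RecS θ w0 R ν e c1) (he : ∀ k, 0 ≤ e k) {ξ x : ℝ}
    (hξ : 1 / 3 < ξ) (hξ' : ξ < 2 / 3) (hx : 0 < x) {zl : ℕ → ℝ × ℝ}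
    (hzl : Tendsto zl atTop (𝓝 (pt θ ξ x))) {h : ℕ → ℝ} (hpos : ∀ l, 0 < h l)
    (h0 : Tendsto h atTop (𝓝 0)) {L : Set (Fin 11 → ℝ)} {lam : (Fin 11 → ℝ) → ℝ}
    (ht : IsTan (Leg monQ R) L ν
      (fun l => X (s0 w0 (R - 1)) (sA κ κ3) (sB θ κ κ3) (zl l)) h lam)
    {c : Fin 11 → ℝ} {τ y : ℝ} (hc : c ∈ L) (hy : 0 ≤ y) (hcy : c + y • e ∈ L)
    (hb : ∀ k, k ≠ 1 → sA κ κ3 k = 0 → c k ≤ sB θ κ κ3 k * τ)
    (hs : ∀ k, e k ≠ 0 → k ≠ 1 ∧ sA κ κ3 k = 0 ∧ c k = sB θ κ κ3 k * τ) :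
    c1 * y ≤ lam c - lam (c + y • e) := by
  obtain ⟨y0, hy0, HS⟩ := hS
  have hth := C.th1
  have h2 : Tendsto (fun l => (zl l).2) atTop (𝓝 (-(θ 1 * ξ))) :=
    (continuous_snd.tendsto _).comp hzl
  have h3 : Tendsto (fun l => -((zl l).2 / θ 1) - h l * τ / θ 1) atTop (𝓝 ξ) := by
    have := (h2.div_const (θ 1)).neg.sub ((h0.mul_const τ).div_const (θ 1))
    have e1 : -(-(θ 1 * ξ) / θ 1) - 0 * τ / θ 1 = ξ := by
      have := hth.ne'
      field_simp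
      ring
    rwa [e1] at this
  have h4 : Tendsto (fun l => h l * y) atTop (𝓝 0) := by simpa using h0.mul_const y
  refine le_of_forall_pos_le_add fun ε hε => ?_
  have hev := ht (max ‖c‖ ‖c + y • e‖) (ε / 2) (half_pos hε)
  obtain ⟨l, ⟨⟨h5, h6⟩, h7, h8⟩, h9⟩ := ((((below (w0 := w0) (R := R) hth hk hk3 hx hzl hpos h0
    hb).and hev).and ((h3.eventually (lt_mem_nhds (show (1/4:ℝ) < ξ by linarith))).and
    (h3.eventually (gt_mem_nhds (show ξ < (3/4:ℝ) by linarith))))).and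
    (h4.eventually (gt_mem_nhds hy0))).exists
  obtain ⟨m1, n1⟩ := h6 c hc (le_max_left _ _)
  obtain ⟨m2, n2⟩ := h6 _ hcy (le_max_right _ _)
  have hh := hpos l
  have e1 : X (s0 w0 (R - 1)) (sA κ κ3) (sB θ κ κ3) (zl l) + h l • (c + y • e) =
      (X (s0 w0 (R - 1)) (sA κ κ3) (sB θ κ κ3) (zl l) + h l • c) + (h l * y) • e := by
    rw [smul_add, smul_smul, add_assoc]
  rw [e1] at m2 n2
  have hv0 : (0:ℝ) ≤ -((zl l).2 / θ 1) - h l * τ / θ 1 := by linarith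
  have hv1 : -((zl l).2 / θ 1) - h l * τ / θ 1 ≤ 1 := by linarith
  have s1 := C.prf.sweep m1 (C.big.path_leg hv0 hv1) m2 h5
    (by intro k; simp only [Pi.smul_apply, smul_eq_mul]; exact mul_nonneg (by positivity) (he k))
    (by
      intro k hke
      have hke' : e k ≠ 0 := by
        intro h; apply hke; simp [h]
      obtain ⟨k1, kA, kc⟩ := hs k hke'
      have e2 := path_sub (w0 := w0) (R := R) (κ := κ) (κ3 := κ3) hth.ne' k1 (zl l) (h l * τ)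
        (h l * c k)
      rw [kA, kc] at e2
      simp only [Pi.add_apply, Pi.smul_apply, smul_eq_mul]
      rw [kc]
      linarith)
  have s2 := HS _ h7.le h8.le (h l * y) (by positivity) h9.le
  have a1 := abs_le.1 n1
  have a2 := abs_le.1 n2
  have b1 : h l * (c1 * y) ≤ h l * (lam c - lam (c + y • e) + ε) := by nlinarith [a1.1, a1.2, a2.1, a2.2]
  exact le_of_mul_le_mul_left b1 hh

/-- **S1**: `C_a` loses at least `c1 y` -/
theorem Cx.tan_S1 (C : Cx θ q g w0 R T0 cab cby cr ν c₀) (hk : 0 ≤ κ) (hk3 : κ ≤ κ3)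
    {c1 : ℝ} (hS : RecS θ w0 R ν (eCa 1) c1) {ξ x : ℝ}
    (hξ : 1 / 3 < ξ) (hξ' : ξ < 2 / 3) (hx : 0 < x) {zl : ℕ → ℝ × ℝ}
    (hzl : Tendsto zl atTop (𝓝 (pt θ ξ x))) {h : ℕ → ℝ} (hpos : ∀ l, 0 < h l)
    (h0 : Tendsto h atTop (𝓝 0)) {L : Set (Fin 11 → ℝ)} {lam : (Fin 11 → ℝ) → ℝ}
    (ht : IsTan (Leg monQ R) L ν
      (fun l => X (s0 w0 (R - 1)) (sA κ κ3) (sB θ κ κ3) (zl l)) h lam)
    {c : Fin 11 → ℝ} {y : ℝ} (hc : c ∈ L) (hy : 0 ≤ y) (hcy : c + eCa y ∈ L)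
    (hb : ∀ k, k ≠ 1 → sA κ κ3 k = 0 → c k ≤ sB θ κ κ3 k * c 5) :
    c1 * y ≤ lam c - lam (c + eCa y) := by
  rw [← smul_eCa] at hcy ⊢
  refine C.tan_sweep hk hk3 hS (by intro k; fin_cases k <;> simp [eCa]) hξ hξ' hx hzl hpos h0 ht
    hc hy hcy hb ?_
  intro k hke
  fin_cases k <;> simp [eCa] at hke ⊢
  simp [sA, sB, nL]

/-- **S2**: the pair `(E, C_b)` loses at least `c1 y` on the planes `κ = 0` -/
theorem Cx.tan_S2 (C : Cx θ q g w0 R T0 cab cby cr ν c₀) (hk3 : 0 ≤ κ3)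
    {c1 : ℝ} (hS : RecS θ w0 R ν (eECb 1) c1) {ξ x : ℝ}
    (hξ : 1 / 3 < ξ) (hξ' : ξ < 2 / 3) (hx : 0 < x) {zl : ℕ → ℝ × ℝ}
    (hzl : Tendsto zl atTop (𝓝 (pt θ ξ x))) {h : ℕ → ℝ} (hpos : ∀ l, 0 < h l)
    (h0 : Tendsto h atTop (𝓝 0)) {L : Set (Fin 11 → ℝ)} {lam : (Fin 11 → ℝ) → ℝ}
    (ht : IsTan (Leg monQ R) L ν
      (fun l => X (s0 w0 (R - 1)) (sA 0 κ3) (sB θ 0 κ3) (zl l)) h lam)
    {c : Fin 11 → ℝ} {τ y : ℝ} (hc : c ∈ L) (hy : 0 ≤ y) (hcy : c + eECb y ∈ L)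
    (hb : ∀ k, k ≠ 1 → sA 0 κ3 k = 0 → c k ≤ sB θ 0 κ3 k * τ)
    (h2 : c 2 = (θ 2 / θ 1 - 1) * τ) (h6 : c 6 = θ 2 / θ 1 * τ) :
    c1 * y ≤ lam c - lam (c + eECb y) := by
  rw [← smul_eECb] at hcy ⊢
  refine C.tan_sweep le_rfl hk3 hS (by intro k; fin_cases k <;> simp [eECb]) hξ hξ' hx hzl hpos
    h0 ht hc hy hcy hb ?_
  intro k hke
  fin_cases k <;> simp [eECb] at hke ⊢
  · simp [sA, sB, nL, h2]
  · simp [sA, sB, nL, h6]

/-! ### the facts in the thick branch -/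

section thick

open Crest.Agent.R136.Top484 (Par4 Dat4)
open Crest.Agent.R136.GeoQ186 (W0 w0_zero w0_one mem_PDQ PDQ)

variable {η : ℝ} {p : Par4} {D : Dat4} {I1 : ℕ → Finset (ℕ × ℝ)} {π : Equiv.Perm (Fin 3)}
  {eE fA fB : ℕ → ℕ × ℝ → ℝ} {V T : Fin 11 → Prop} {PD : Set (Fin 11 → ℝ)}
  {own : (Fin 11 → ℝ) → ℝ}

/-- the facts for the scalar part, with the exponents `cab, cby, cr, cc` of a reading `W0` of the
level-`0` mark (power gaps) -/
theorem Cx.of_thick (h : Thick η p D I1 π eE fA fB V T w0 R T0 PD ν own c₀) (hη : 0 < η)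
    {cc : ℝ} (hW : W0 D.B D.r0 D.lev D.w cab cby cr cc) :
    Cx p.θ p.q p.g w0 R T0 (max (max 0 (p.θ 2 - p.θ 1)) cab) (max (max 0 (p.θ 0 - p.θ 2)) cby)
      (max (max 0 (1 - p.θ 0)) cr) ν c₀ where
  big := h.tp.big
  th1 := h.tp.ok.θ1
  ab := ⟨(le_max_left _ _).trans (le_max_left _ _), (le_max_right _ _).trans (le_max_left _ _)⟩
  by' := ⟨(le_max_left _ _).trans (le_max_left _ _), (le_max_right _ _).trans (le_max_left _ _)⟩
  res := ⟨(le_max_left _ _).trans (le_max_left _ _), (le_max_right _ _).trans (le_max_left _ _)⟩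
  prf := ⟨h.ext.lip, h.ext.submod⟩
  dmax := fun x hx => by
    have hth := h.tp.ok.θ1
    have h1 := ((w0_zero h.tp.pre.mka).mix (w0_one h.tp.pre.mka)).mix hW
    obtain ⟨p0, p1, p2, p3, p4, p5, p6⟩ := hx
    refine dmax_PDQ h (q_nonneg h.tp.ok hη) (mem_PDQ h1 p0 p1 p2 p3 p4 p5 ?_)
    have e1 : p.θ 1 ≤ max (max 0 (p.θ 1)) cc := (le_max_right _ _).trans (le_max_left _ _)
    linarith
  record := h.ext.record

/-- without gap -/
theorem Cx.of_thick0 (h : Thick η p D I1 π eE fA fB V T w0 R T0 PD ν own c₀) (hη : 0 < η) :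
    Cx p.θ p.q p.g w0 R T0 (max 0 (p.θ 2 - p.θ 1)) (max 0 (p.θ 0 - p.θ 2))
      (max 0 (1 - p.θ 0)) ν c₀ := by
  have h1 := Cx.of_thick h hη (w0_zero h.tp.pre.mka)
  rwa [max_eq_left (le_max_left _ _), max_eq_left (le_max_left _ _),
    max_eq_left (le_max_left _ _)] at h1

/-- with a power gap between thickness and narrow width -/
theorem Cx.of_gap (h : Thick η p D I1 π eE fA fB V T w0 R T0 PD ν own c₀) (hη : 0 < η)
    (hG : Gap23 D) : ∃ γ : ℝ, 0 < γ ∧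
    Cx p.θ p.q p.g w0 R T0 (max 0 (p.θ 2 - p.θ 1)) (max (max 0 (p.θ 0 - p.θ 2)) γ)
      (max 0 (1 - p.θ 0)) ν c₀ := by
  obtain ⟨γ, hγ, hG⟩ := hG
  refine ⟨γ, hγ, ?_⟩
  have h0 := w0_zero h.tp.pre.mka
  have hW : W0 D.B D.r0 D.lev D.w 0 γ 0 0 :=
    { pos := h0.pos, ab := h0.ab, res := h0.res, cap := h0.cap
      by' := fun ε hε => by
        filter_upwards [hG, h0.pos 2] with n hn h2
        exact hn.trans (mul_le_mul_of_nonneg_right
          (Crest.Agent.R138.Dp76.dpow_le D.B n (by linarith)) h2.le) }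
  have h1 := Cx.of_thick h hη hW
  rwa [max_eq_left (le_max_left _ _), max_eq_left (le_max_left (0:ℝ) (1 - p.θ 0))] at h1

theorem wk12 {a b c : ℝ} : b - c ≤ max (-a) 0 + |b| + |c| := by
  have h1 := le_max_right (-a) 0
  have h2 := le_abs_self b
  have h3 := neg_abs_le c
  linarith

theorem wk10 {a b c : ℝ} : b - a ≤ max (-a) 0 + |b| + |c| := by
  have h1 := le_max_left (-a) 0
  have h2 := le_abs_self b
  have h3 := abs_nonneg c
  linarith

theorem wk20 {a b c : ℝ} : c - a ≤ max (-a) 0 + |b| + |c| := by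
  have h1 := le_max_left (-a) 0
  have h2 := le_abs_self c
  have h3 := abs_nonneg b
  linarith

theorem wk00 {a b c : ℝ} : 0 ≤ max (-a) 0 + |b| + |c| := by
  have h1 := le_max_right (-a) 0
  have h2 := abs_nonneg b
  have h3 := abs_nonneg c
  linarith

/-- **the rewards are negligible against the growth**, from the weak bound of the slopes -/
theorem slackw (ok : ParOk η p) (hη1 : η ≤ 1 / 8) (w1 : κ ≤ max (p.θ 1 - p.θ 2) 0)
    (w2 : κ3 ≤ max (-(p.θ 0)) 0 + |p.θ 1| + |p.θ 2|) : p.q 2 * κ + p.q 0 * κ3 < p.g := by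
  have g0 := ok.g0.1
  have e1 := mul_le_mul_of_nonneg_left w1 ok.q2.1.le
  have e2 := mul_le_mul_of_nonneg_left w2 ok.q0.1
  have e3 : η * p.g ≤ 1 / 8 * p.g := mul_le_mul_of_nonneg_right hη1 g0.le
  linarith [ok.θb]

/-- the same, in the form of the rows: `h1`, `h2` are not used, the true conditions `w1`, `w2` are
proved automatically for `κ = 0, θ 1 - θ 2` and `κ3 = 0, θ i - θ 0, θ 1 - θ 2` -/
theorem slack (ok : ParOk η p) (hη : 0 < η) (hη1 : η ≤ 1 / 8)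
    (hθ : p.q 2 * max (p.θ 1 - p.θ 2) 0 + p.q 0 * (max (-(p.θ 0)) 0 + |p.θ 1| + |p.θ 2|) ≤
      η * p.g) {i j k l : Fin 3} (h1 : κ ≤ |p.θ i| + |p.θ j|)
    (h2 : κ3 ≤ |p.θ k| + |p.θ l|)
    (w1 : κ ≤ max (p.θ 1 - p.θ 2) 0 := by
      first | exact le_max_left _ _ | exact le_max_right _ _ |
        exact le_trans (by linarith) (le_max_left _ _))
    (w2 : κ3 ≤ max (-(p.θ 0)) 0 + |p.θ 1| + |p.θ 2| := by
      first | exact Crest.Agent.R136.Tb628.wk10 | exact Crest.Agent.R136.Tb628.wk20 |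
        exact Crest.Agent.R136.Tb628.wk12 | exact Crest.Agent.R136.Tb628.wk00 |
        exact le_trans (by linarith) Crest.Agent.R136.Tb628.wk10 |
        exact le_trans (by linarith) Crest.Agent.R136.Tb628.wk20) :
    p.q 2 * κ + p.q 0 * κ3 < p.g := slackw ok hη1 w1 w2

end thick

end Crest.Agent.R136.Tb628
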