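import Crest.Agent.R136.Tb2_628

/-!
# R136, scalar part of the thick table (helper628), part 3: any plane through the record line

* `PlOk θ w0 R x0 a b` : the plane `X x0 a b` contains the record line (slots `≠ 1`), slot `1` is a
  constant `< R`, all slopes in `v` are `≥ 0`.
* `Cx.sweepP` : sweeps of the tangents at points to the left of the record line.
* `Cx.rayP`, `Cx.deadP` : last rung, if the boxes of the plane are finer than (or equal to) the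
  natural boxes with left slopes `κ`, `κ3`.
* `srfF` : natural surface with a slack slot `F_b` (865): slope `kf`, `0 ≤ kf ≤ κ3 - κ`.
-/

set_option autoImplicit false
set_option linter.unusedVariables false

open Finset Filter Topology

namespace Crest.Agent.R136.Tb628

open Crest.Agent.R136.Net191
open Crest.Agent.R136.NetQ186
open Crest.Agent.R136.NatT550
open Crest.Agent.R136.NatR550
open Crest.Agent.R136.Lq196
open Crest.Agent.R136.Wq638
open Crest.Agent.R136.Dg219 (Walls mw mw_P mem_mwO mem_mwL Tn)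
open Crest.Agent.R136.Dg262 (X)
open Crest.Agent.R136.K2S774 (Ray)
open Crest.Agent.R138.Ex926 (Base U QProf IsTan)

variable {θ q : Fin 3 → ℝ} {g w0 R T0 cab cby cr c₀ κ κ3 : ℝ} {ν : (Fin 11 → ℝ) → ℝ}
  {x0 a b : Fin 11 → ℝ}

/-- the plane contains the record line -/
structure PlOk (θ : Fin 3 → ℝ) (w0 R : ℝ) (x0 a b : Fin 11 → ℝ) : Prop where
  r1 : x0 1 < R
  ra : a 1 = 0
  rb : b 1 = 0
  a0 : ∀ k, 0 ≤ a k
  base : ∀ k, k ≠ 1 → x0 k = pathQ θ w0 R 0 k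
  slope : ∀ k, k ≠ 1 → a k - θ 1 * b k = pathQ θ w0 R 1 k - pathQ θ w0 R 0 k

theorem pathQ_lin (θ : Fin 3 → ℝ) (w0 R v : ℝ) (k : Fin 11) :
    pathQ θ w0 R v k = pathQ θ w0 R 0 k + (pathQ θ w0 R 1 k - pathQ θ w0 R 0 k) * v := by
  fin_cases k <;>
    simp only [pathQ, Matrix.cons_val, Fin.zero_eta, Fin.mk_one, Fin.reduceFinMk, Fin.isValue] <;>
    ring

/-- record box of the level `-(t + τ)/θ 1` minus a box near the point `(v, t)` of the plane -/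
theorem PlOk.path_sub (H : PlOk θ w0 R x0 a b) (h1 : θ 1 ≠ 0) {k : Fin 11} (hk : k ≠ 1)
    (z : ℝ × ℝ) (τ y : ℝ) :
    pathQ θ w0 R (-(z.2 / θ 1) - τ / θ 1) k - (X x0 a b z k + y) =
      a k * (-(z.2 / θ 1) - τ / θ 1 - z.1) + (b k * τ - y) := by
  rw [pathQ_lin, ← H.slope k hk, ← H.base k hk]
  simp only [X]
  field_simp
  ring

/-- boxes near a point of the plane lie below the record box -/
theorem PlOk.below (H : PlOk θ w0 R x0 a b) (hth : 0 < θ 1) {ξ x : ℝ} (hx : 0 < x)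
    {zl : ℕ → ℝ × ℝ} (hzl : Tendsto zl atTop (𝓝 (pt θ ξ x))) {h : ℕ → ℝ} (hpos : ∀ l, 0 < h l)
    (h0 : Tendsto h atTop (𝓝 0)) {c : Fin 11 → ℝ} {τ : ℝ}
    (hb : ∀ k, k ≠ 1 → a k = 0 → c k ≤ b k * τ) :
    ∀ᶠ l in atTop, X x0 a b (zl l) + h l • c ≤
      pathQ θ w0 R (-((zl l).2 / θ 1) - h l * τ / θ 1) := by
  have h1 : Tendsto (fun l => (zl l).1) atTop (𝓝 (ξ - x)) := (continuous_fst.tendsto _).comp hzl
  have h2 : Tendsto (fun l => (zl l).2) atTop (𝓝 (-(θ 1 * ξ))) :=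
    (continuous_snd.tendsto _).comp hzl
  have key : ∀ k : Fin 11, ∀ᶠ l in atTop, (X x0 a b (zl l) + h l • c) k ≤
        pathQ θ w0 R (-((zl l).2 / θ 1) - h l * τ / θ 1) k := by
    intro k
    simp only [Pi.add_apply, Pi.smul_apply, smul_eq_mul]
    by_cases hk1 : k = 1
    · subst hk1
      have h3 : Tendsto (fun l => h l * c 1) atTop (𝓝 0) := by
        simpa using h0.mul_const (c 1)
      filter_upwards [h3.eventually (gt_mem_nhds (show (0:ℝ) < R - x0 1 by linarith [H.r1]))]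
        with l hl
      have e1 : X x0 a b (zl l) 1 = x0 1 := by
        simp [X, H.ra, H.rb]
      have e2 : pathQ θ w0 R (-((zl l).2 / θ 1) - h l * τ / θ 1) 1 = R := by simp [pathQ]
      rw [e1, e2]; linarith
    · by_cases hA : a k = 0
      · filter_upwards with l
        have e1 := H.path_sub hth.ne' hk1 (zl l) (h l * τ) (h l * c k)
        rw [hA, zero_mul, zero_add] at e1
        have e2 : 0 ≤ h l * (b k * τ - c k) :=
          mul_nonneg (hpos l).le (sub_nonneg.2 (hb k hk1 hA))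
        have e3 : b k * (h l * τ) - h l * c k = h l * (b k * τ - c k) := by ring
        linarith
      · have hA0 : 0 < a k := lt_of_le_of_ne (H.a0 k) (Ne.symm hA)
        have h3 : Tendsto (fun l => a k * (-((zl l).2 / θ 1) - h l * τ / θ 1 - (zl l).1) +
            (b k * (h l * τ) - h l * c k)) atTop
            (𝓝 (a k * (-(-(θ 1 * ξ) / θ 1) - 0 * τ / θ 1 - (ξ - x)) +
              (b k * (0 * τ) - 0 * c k))) := by
          exact ((((h2.div_const _).neg.sub ((h0.mul_const τ).div_const _)).sub h1).const_mul _).add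
            (((h0.mul_const τ).const_mul _).sub (h0.mul_const _))
        have e4 : a k * (-(-(θ 1 * ξ) / θ 1) - 0 * τ / θ 1 - (ξ - x)) +
              (b k * (0 * τ) - 0 * c k) = a k * x := by
          have := hth.ne'
          field_simp
          ring
        rw [e4] at h3
        filter_upwards [h3.eventually (lt_mem_nhds (mul_pos hA0 hx))] with l hl
        have e1 := H.path_sub hth.ne' hk1 (zl l) (h l * τ) (h l * c k)
        linarith
  filter_upwards [eventually_all.2 key] with l hl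
  exact hl

/-- **sweeps pass to the tangents**, any plane through the record line: `e` = direction in slots
which are constant in `v`, `c` = base box, natural (`= b * τ`) in the slots of `e` and not finer
than natural in the slots which are constant in `v`. -/
theorem Cx.sweepP (C : Cx θ q g w0 R T0 cab cby cr ν c₀) (H : PlOk θ w0 R x0 a b)
    {e : Fin 11 → ℝ} {c1 : ℝ} (hS : RecS θ w0 R ν e c1) (he : ∀ k, 0 ≤ e k) {ξ x : ℝ}
    (hξ : 1 / 3 < ξ) (hξ' : ξ < 2 / 3) (hx : 0 < x) {zl : ℕ → ℝ × ℝ}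
    (hzl : Tendsto zl atTop (𝓝 (pt θ ξ x))) {h : ℕ → ℝ} (hpos : ∀ l, 0 < h l)
    (h0 : Tendsto h atTop (𝓝 0)) {L : Set (Fin 11 → ℝ)} {lam : (Fin 11 → ℝ) → ℝ}
    (ht : IsTan (Leg monQ R) L ν (fun l => X x0 a b (zl l)) h lam)
    {c : Fin 11 → ℝ} {τ y : ℝ} (hc : c ∈ L) (hy : 0 ≤ y) (hcy : c + y • e ∈ L)
    (hb : ∀ k, k ≠ 1 → a k = 0 → c k ≤ b k * τ)
    (hs : ∀ k, e k ≠ 0 → k ≠ 1 ∧ a k = 0 ∧ c k = b k * τ) :
    c1 * y ≤ lam c - lam (c + y • e) := by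
  obtain ⟨y0, hy0, HS⟩ := hS
  have hth := C.th1
  have h2 : Tendsto (fun l => (zl l).2) atTop (𝓝 (-(θ 1 * ξ))) :=
    (continuous_snd.tendsto _).comp hzl
  have h3 : Tendsto (fun l => -((zl l).2 / θ 1) - h l * τ / θ 1) atTop (𝓝 ξ) := by
    have := (h2.div_const (θ 1)).neg.sub ((h0.mul_const τ).div_const (θ 1))
    have e1 : -(-(θ 1 * ξ) / θ 1) - 0 * τ / θ 1 = ξ := by
      have := hth.ne'
      field_simp
      ring
    rwa [e1] at this
  have h4 : Tendsto (fun l => h l * y) atTop (𝓝 0) := by simpa using h0.mul_const y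
  refine le_of_forall_pos_le_add fun ε hε => ?_
  have hev := ht (max ‖c‖ ‖c + y • e‖) (ε / 2) (half_pos hε)
  obtain ⟨l, ⟨⟨h5, h6⟩, h7, h8⟩, h9⟩ := ((((H.below hth hx hzl hpos h0
    hb).and hev).and ((h3.eventually (lt_mem_nhds (show (1/4:ℝ) < ξ by linarith))).and
    (h3.eventually (gt_mem_nhds (show ξ < (3/4:ℝ) by linarith))))).and
    (h4.eventually (gt_mem_nhds hy0))).exists
  obtain ⟨m1, n1⟩ := h6 c hc (le_max_left _ _)
  obtain ⟨m2, n2⟩ := h6 _ hcy (le_max_right _ _)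
  have hh := hpos l
  have e1 : X x0 a b (zl l) + h l • (c + y • e) = (X x0 a b (zl l) + h l • c) + (h l * y) • e := by
    rw [smul_add, smul_smul, add_assoc]
  rw [e1] at m2 n2
  have hv0 : (0:ℝ) ≤ -((zl l).2 / θ 1) - h l * τ / θ 1 := by linarith
  have hv1 : -((zl l).2 / θ 1) - h l * τ / θ 1 ≤ 1 := by linarith
  have s1 := C.prf.sweep m1 (C.big.path_leg hv0 hv1) m2 h5
    (by intro k; simp only [Pi.smul_apply, smul_eq_mul]; exact mul_nonneg (by positivity) (he k))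
    (by
      intro k hke
      have hke' : e k ≠ 0 := by
        intro h; apply hke; simp [h]
      obtain ⟨k1, kA, kc⟩ := hs k hke'
      have e2 := H.path_sub hth.ne' k1 (zl l) (h l * τ) (h l * c k)
      rw [kA, kc] at e2
      simp only [Pi.add_apply, Pi.smul_apply, smul_eq_mul]
      rw [kc]
      linarith)
  have s2 := HS _ h7.le h8.le (h l * y) (by positivity) h9.le
  have a1 := abs_le.1 n1
  have a2 := abs_le.1 n2
  have b1 : h l * (c1 * y) ≤ h l * (lam c - lam (c + y • e) + ε) := by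
    nlinarith [a1.1, a1.2, a2.1, a2.2]
  exact le_of_mul_le_mul_left b1 hh

/-- **S1** : `c k ≤ b k * c 5` in the slots constant in `v` ⊢ `C_a` loses at least `c1 y` -/
theorem Cx.S1P (C : Cx θ q g w0 R T0 cab cby cr ν c₀) (H : PlOk θ w0 R x0 a b)
    (ha5 : a 5 = 0) (hb5 : b 5 = 1) {c1 : ℝ} (hS : RecS θ w0 R ν (eCa 1) c1) {ξ x : ℝ}
    (hξ : 1 / 3 < ξ) (hξ' : ξ < 2 / 3) (hx : 0 < x) {zl : ℕ → ℝ × ℝ}
    (hzl : Tendsto zl atTop (𝓝 (pt θ ξ x))) {h : ℕ → ℝ} (hpos : ∀ l, 0 < h l)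
    (h0 : Tendsto h atTop (𝓝 0)) {L : Set (Fin 11 → ℝ)} {lam : (Fin 11 → ℝ) → ℝ}
    (ht : IsTan (Leg monQ R) L ν (fun l => X x0 a b (zl l)) h lam)
    {c : Fin 11 → ℝ} {y : ℝ} (hc : c ∈ L) (hy : 0 ≤ y) (hcy : c + eCa y ∈ L)
    (hb : ∀ k, k ≠ 1 → a k = 0 → c k ≤ b k * c 5) :
    c1 * y ≤ lam c - lam (c + eCa y) := by
  rw [← smul_eCa] at hcy ⊢
  refine C.sweepP H hS (by intro k; fin_cases k <;> simp [eCa]) hξ hξ' hx hzl hpos h0 ht
    hc hy hcy hb ?_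
  intro k hke
  fin_cases k <;> simp [eCa] at hke ⊢
  exact ⟨ha5, by rw [hb5, one_mul]⟩

/-- **S2** : the pair `(E, C_b)` loses at least `c1 y` -/
theorem Cx.S2P (C : Cx θ q g w0 R T0 cab cby cr ν c₀) (H : PlOk θ w0 R x0 a b)
    (ha2 : a 2 = 0) (ha6 : a 6 = 0) {c1 : ℝ} (hS : RecS θ w0 R ν (eECb 1) c1) {ξ x : ℝ}
    (hξ : 1 / 3 < ξ) (hξ' : ξ < 2 / 3) (hx : 0 < x) {zl : ℕ → ℝ × ℝ}
    (hzl : Tendsto zl atTop (𝓝 (pt θ ξ x))) {h : ℕ → ℝ} (hpos : ∀ l, 0 < h l)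
    (h0 : Tendsto h atTop (𝓝 0)) {L : Set (Fin 11 → ℝ)} {lam : (Fin 11 → ℝ) → ℝ}
    (ht : IsTan (Leg monQ R) L ν (fun l => X x0 a b (zl l)) h lam)
    {c : Fin 11 → ℝ} {τ y : ℝ} (hc : c ∈ L) (hy : 0 ≤ y) (hcy : c + eECb y ∈ L)
    (hb : ∀ k, k ≠ 1 → a k = 0 → c k ≤ b k * τ) (h2 : c 2 = b 2 * τ) (h6 : c 6 = b 6 * τ) :
    c1 * y ≤ lam c - lam (c + eECb y) := by
  rw [← smul_eECb] at hcy ⊢
  refine C.sweepP H hS (by intro k; fin_cases k <;> simp [eECb]) hξ hξ' hx hzl hpos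
    h0 ht hc hy hcy hb ?_
  intro k hke
  fin_cases k <;> simp [eECb] at hke ⊢
  · exact ⟨ha2, h2⟩
  · exact ⟨ha6, h6⟩

/-! ### last rung -/

theorem PlOk.at_rec (H : PlOk θ w0 R x0 a b) (ξ : ℝ) :
    X x0 a b (pt θ ξ 0) ≤ pathQ θ w0 R ξ := by
  intro k
  by_cases hk : k = 1
  · subst hk
    have e1 : X x0 a b (pt θ ξ 0) 1 = x0 1 := by simp [X, H.ra, H.rb]
    have e2 : pathQ θ w0 R ξ 1 = R := by simp [pathQ]
    rw [e1, e2]; exact H.r1.le
  · refine le_of_eq ?_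
    rw [pathQ_lin, ← H.slope k hk, ← H.base k hk]
    simp only [X, pt]
    ring

/-- rays of a plane whose boxes are finer than the natural boxes -/
theorem Cx.rayP (C : Cx θ q g w0 R T0 cab cby cr ν c₀) (H : PlOk θ w0 R x0 a b) (hk : 0 ≤ κ)
    (hk3 : κ ≤ κ3) {S : ℝ} (hS : Small θ cab cby κ κ3 S)
    (hleg : ∀ ξ ∈ Set.Ioo (1 / 3 : ℝ) (2 / 3), ∀ x, 0 ≤ x → x ≤ S → X x0 a b (pt θ ξ x) ∈ Leg monQ R)
    (hge : ∀ ξ ∈ Set.Ioo (1 / 3 : ℝ) (2 / 3), srf θ w0 (R - 1) κ κ3 (pt θ ξ S) ≤ X x0 a b (pt θ ξ S)) :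
    Ray (Leg monQ R) ν x0 a b (0, 0) (1, -θ 1) (1, 0)
      (fun ξ => c₀ + DQ g 0 q w0 (pathQ θ w0 R ξ)) (4 + κ + κ3 + q 2 * κ + q 0 * κ3 - g)
      (Set.Ioo (1 / 3) (2 / 3)) S 11 where
  det := by
    have := C.th1
    simp only [mul_zero, zero_sub, mul_one]
    intro h; linarith
  K0 := by norm_num
  lip := fun p hp q hq => C.prf.lip' hp hq
  leg := fun ξ hξ x h0 h1 => by
    rw [pt_eq]
    exact hleg ξ hξ x h0 h1
  dmax := fun ξ hξ => by
    rw [pt_eq]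
    have hN := hS.near hk hk3 hξ.1.le hξ.2.le hS.pos.le le_rfl
    have h1 := C.dmax _ (C.srf_PD hk hk3 hN (hS.r12 ξ hξ.1.le hξ.2.le) (hS.r23 ξ hξ.1.le hξ.2.le))
    rw [D_srf C.th1.ne'] at h1
    have h2 := (C.prf.lip _ (srf_leg C.big C.th1 hk hk3 hN) _ (hleg ξ hξ S hS.pos.le le_rfl)
      (hge ξ hξ)).1
    linarith
  rcd := fun ξ hξ => by
    rw [pt_eq]
    have h0 : (0 : ℝ) ≤ ξ := by linarith [hξ.1]
    have h1 : ξ ≤ 1 := by linarith [hξ.2]
    have h2 := C.record ξ h0 h1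
    have h4 := (C.prf.lip _ (hleg ξ hξ 0 le_rfl hS.pos.le) _ (C.big.path_leg h0 h1)
      (H.at_rec ξ)).1
    linarith

/-- **last rung**, any plane -/
theorem Cx.deadP (C : Cx θ q g w0 R T0 cab cby cr ν c₀) (H : PlOk θ w0 R x0 a b) (hk : 0 ≤ κ)
    (hk3 : κ ≤ κ3) {S : ℝ} (hS : Small θ cab cby κ κ3 S)
    (hleg : ∀ ξ ∈ Set.Ioo (1 / 3 : ℝ) (2 / 3), ∀ x, 0 ≤ x → x ≤ S → X x0 a b (pt θ ξ x) ∈ Leg monQ R)
    (hge : ∀ ξ ∈ Set.Ioo (1 / 3 : ℝ) (2 / 3), srf θ w0 (R - 1) κ κ3 (pt θ ξ S) ≤ X x0 a b (pt θ ξ S))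
    (hsl : q 2 * κ + q 0 * κ3 < g)
    (hF : ∀ᵐ z : ℝ × ℝ, z ∈ Om θ S → ∃ D : ℝ × ℝ →L[ℝ] ℝ,
      HasFDerivAt (fun z => ν (X x0 a b z)) D z ∧ D (1, 0) ≤ -(4 + κ + κ3)) : False := by
  have h1 := (C.rayP H hk hk3 hS hleg hge).dead (g := g - q 2 * κ - q 0 * κ3) (by linarith) hS.pos
    (O := Om θ S) (fun ξ hξ s h0 h1 => ⟨ξ, s, hξ.1, hξ.2, h0, h1, pt_eq θ ξ s⟩) (by
      filter_upwards [hF] with z hz hzO
      obtain ⟨D, hD, hD2⟩ := hz hzO
      exact ⟨D, hD, by linarith⟩)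
  have h2 : MeasureTheory.volume (Set.Ioo (1 / 3 : ℝ) (2 / 3)) = 0 := by
    have h3 : Set.Ioo (1 / 3 : ℝ) (2 / 3) = {ξ : ℝ | ¬ ξ ∉ Set.Ioo (1 / 3 : ℝ) (2 / 3)} := by
      ext ξ; simp
    rw [h3]
    exact h1
  rw [Real.volume_Ioo, ENNReal.ofReal_eq_zero] at h2
  norm_num at h2

/-! ### natural surfaces and natural surfaces with slack `F_b` -/

/-- the natural surfaces contain the record line -/
theorem plOk_srf (h1 : θ 1 ≠ 0) (hk : 0 ≤ κ) (hk3 : κ ≤ κ3) :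
    PlOk θ w0 R (s0 w0 (R - 1)) (sA κ κ3) (sB θ κ κ3) where
  r1 := by simp [s0, nat4]
  ra := by simp [sA, nL]
  rb := by simp [sB, nL]
  a0 := sA_nonneg hk hk3
  base := fun k hk => by
    fin_cases k <;> first | exact absurd rfl hk | simp [s0, nat4, pathQ]
  slope := fun k hk => by
    fin_cases k <;> first
      | exact absurd rfl hk
      | (simp only [sA, sB, nL, pathQ, Matrix.cons_val, Fin.zero_eta, Fin.reduceFinMk,
          Fin.isValue]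
         field_simp
         ring)

/-- slopes in `v` of the surface with slack `F_b` -/
def fA (κ κ3 kf : ℝ) : Fin 11 → ℝ := Function.update (sA κ κ3) 3 kf

/-- slopes in `t` of the surface with slack `F_b` -/
noncomputable def fB (θ : Fin 3 → ℝ) (κ κ3 kf : ℝ) : Fin 11 → ℝ :=
  Function.update (sB θ κ κ3) 3 ((kf - (θ 2 - θ 0)) / θ 1)

theorem fX_of_ne (κ κ3 kf : ℝ) (z : ℝ × ℝ) {k : Fin 11} (hk : k ≠ 3) :
    X (s0 w0 (R - 1)) (fA κ κ3 kf) (fB θ κ κ3 kf) z k = srf θ w0 (R - 1) κ κ3 z k := by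
  rw [srf_eq]
  simp only [X, fA, fB, Function.update_of_ne hk]

theorem fX_three (h1 : θ 1 ≠ 0) (κ κ3 kf ξ x : ℝ) :
    X (s0 w0 (R - 1)) (fA κ κ3 kf) (fB θ κ κ3 kf) (pt θ ξ x) 3 =
      w0 + (θ 2 - θ 0) * ξ - kf * x := by
  simp only [X, fA, fB, Function.update_self, s0, nat4, pt, Matrix.cons_val, Fin.isValue]
  field_simp
  ring

theorem plOk_F (h1 : θ 1 ≠ 0) (hk : 0 ≤ κ) (hk3 : κ ≤ κ3) {kf : ℝ} (hf : 0 ≤ kf) :
    PlOk θ w0 R (s0 w0 (R - 1)) (fA κ κ3 kf) (fB θ κ κ3 kf) := by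
  have H := plOk_srf (w0 := w0) (R := R) h1 hk hk3
  refine ⟨H.r1, ?_, ?_, fun k => ?_, H.base, fun k hk => ?_⟩
  · rw [fA, Function.update_of_ne (by decide)]; exact H.ra
  · rw [fB, Function.update_of_ne (by decide)]; exact H.rb
  · by_cases h3 : k = 3
    · subst h3; rw [fA, Function.update_self]; exact hf
    · rw [fA, Function.update_of_ne h3]; exact H.a0 k
  · by_cases h3 : k = 3
    · subst h3
      rw [fA, fB, Function.update_self, Function.update_self]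
      simp only [pathQ, Matrix.cons_val, Fin.isValue]
      field_simp
      ring
    · rw [fA, fB, Function.update_of_ne h3, Function.update_of_ne h3]; exact H.slope k hk

/-- the boxes with slack `F_b` are finer than the natural ones -/
theorem srf_le_F (h1 : θ 1 ≠ 0) {kf ξ x : ℝ} (hx : 0 ≤ x) (hf : kf ≤ κ3 - κ) :
    srf θ w0 (R - 1) κ κ3 (pt θ ξ x) ≤
      X (s0 w0 (R - 1)) (fA κ κ3 kf) (fB θ κ κ3 kf) (pt θ ξ x) := by
  intro k
  by_cases h3 : k = 3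
  · subst h3
    rw [fX_three h1, srf_pt h1]
    simp only [nat4, Matrix.cons_val, Fin.isValue]
    have := mul_le_mul_of_nonneg_right hf hx
    rw [sub_mul] at this
    linarith
  · rw [fX_of_ne _ _ _ _ h3]

/-- legality and open part of the surface with slack `F_b` -/
theorem F_OQ (h : BigQ θ w0 R T0) (h1 : 0 < θ 1) (hk : 0 ≤ κ) (hk3 : κ ≤ κ3) {kf ξ x : ℝ}
    (hf : 0 ≤ kf) (hf' : kf < κ3 - κ) (hn : Near0 κ κ3 ξ x) (hx : 0 < x) :
    OQ R (s0 w0 (R - 1)) (fA κ κ3 kf) (fB θ κ κ3 kf) (pt θ ξ x) := by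
  have H := srf_OQ h h1 hk hk3 hn
  obtain ⟨g1, g2⟩ := slots h h1 hk hk3 hn
  obtain ⟨b0, w423, w625, w701, w745, w736, w805, w906, w928, w107, w148, w139⟩ := H
  simp only [← srf_eq, Wl] at b0 w423 w625 w701 w745 w736 w805 w906 w928 w107 w148 w139
  have hkx := mul_pos (sub_pos.2 hf') hx
  have h3 : srf θ w0 (R - 1) κ κ3 (pt θ ξ x) 3 + (κ3 - κ - kf) * x =
      w0 + (θ 2 - θ 0) * ξ - kf * x := by
    rw [srf_pt h1.ne']
    simp only [nat4, Matrix.cons_val, Fin.isValue]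
    ring
  have h3' := fX_three (w0 := w0) (R := R) h1.ne' κ κ3 kf ξ x
  have tg : ∀ k i j : Fin 11, k ≠ 3 → i ≠ 3 → j ≠ 3 →
      (Tg (s0 w0 (R - 1)) (sA κ κ3) (sB θ κ κ3) k i j ∨
        srf θ w0 (R - 1) κ κ3 (pt θ ξ x) k < srf θ w0 (R - 1) κ κ3 (pt θ ξ x) i +
          srf θ w0 (R - 1) κ κ3 (pt θ ξ x) j) →
      Wl (s0 w0 (R - 1)) (fA κ κ3 kf) (fB θ κ κ3 kf) (pt θ ξ x) k i j := by
    intro k i j e1 e2 e3 hh
    rcases hh with hh | hh
    · refine Or.inl ⟨hh.1, ?_, ?_⟩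
      · rw [fA, Function.update_of_ne e1, Function.update_of_ne e2, Function.update_of_ne e3]
        exact hh.2.1
      · rw [fB, Function.update_of_ne e1, Function.update_of_ne e2, Function.update_of_ne e3]
        exact hh.2.2
    · refine Or.inr ?_
      rw [fX_of_ne _ _ _ _ e1, fX_of_ne _ _ _ _ e2, fX_of_ne _ _ _ _ e3]
      exact hh
  have nn : ∀ k j : Fin 11, k ≠ 3 → j ≠ 3 →
      srf θ w0 (R - 1) κ κ3 (pt θ ξ x) k ≤ srf θ w0 (R - 1) κ κ3 (pt θ ξ x) 3 +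
        srf θ w0 (R - 1) κ κ3 (pt θ ξ x) j →
      X (s0 w0 (R - 1)) (fA κ κ3 kf) (fB θ κ κ3 kf) (pt θ ξ x) k <
        X (s0 w0 (R - 1)) (fA κ κ3 kf) (fB θ κ κ3 kf) (pt θ ξ x) 3 +
          X (s0 w0 (R - 1)) (fA κ κ3 kf) (fB θ κ κ3 kf) (pt θ ξ x) j := by
    intro k j e1 e2 hh
    rw [fX_of_ne _ _ _ _ e1, fX_of_ne _ _ _ _ e2, h3']
    linarith
  have hw := h.w0T
  have hT := h.T0
  refine ⟨fun k => ?_, Or.inr ?_, tg _ _ _ (by decide) (by decide) (by decide) w625,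
    tg _ _ _ (by decide) (by decide) (by decide) w701,
    tg _ _ _ (by decide) (by decide) (by decide) w745,
    Or.inr (nn 7 6 (by decide) (by decide) ?_), tg _ _ _ (by decide) (by decide) (by decide) w805,
    tg _ _ _ (by decide) (by decide) (by decide) w906,
    tg _ _ _ (by decide) (by decide) (by decide) w928,
    tg _ _ _ (by decide) (by decide) (by decide) w107,
    tg _ _ _ (by decide) (by decide) (by decide) w148,
    Or.inr (nn 10 9 (by decide) (by decide) ?_)⟩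
  · by_cases e3 : k = 3
    · subst e3
      rw [h3']
      have b3 := b0 3
      have v0 : 0 ≤ ξ := by linarith [hn.l0, hn.x0]
      have c2 := h.bd v0 hn.l1.le 2
      have c0 := h.bd v0 hn.l1.le 0
      have hkf : 0 ≤ kf * x := mul_nonneg hf hx.le
      have hR := h.R0
      constructor
      · linarith [b3.1]
      · nlinarith
    · rw [fX_of_ne _ _ _ _ e3]; exact b0 k
  · have := nn 4 2 (by decide) (by decide) (by
      rw [srf_pt h1.ne']; simp only [nat4, Matrix.cons_val, Fin.isValue]; linarith)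
    linarith
  · rw [srf_pt h1.ne']; simp only [nat4, Matrix.cons_val, Fin.isValue]; linarith
  · rw [srf_pt h1.ne']; simp only [nat4, Matrix.cons_val, Fin.isValue]; linarith

/-- points of the open part are legal -/
theorem OQ_leg {z : ℝ × ℝ} (H : OQ R x0 a b z) : X x0 a b z ∈ Leg monQ R :=
  ⟨legalQ_iff.2 ⟨fun k => (H.box k).1.le, H.w423.le, H.w625.le, H.w701.le, H.w745.le, H.w736.le,
    H.w805.le, H.w906.le, H.w928.le, H.w107.le, H.w148.le, H.w139.le⟩, fun k => (H.box k).2.le⟩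

theorem F_leg (h : BigQ θ w0 R T0) (h1 : 0 < θ 1) (hk : 0 ≤ κ) (hk3 : κ ≤ κ3) {kf ξ x : ℝ}
    (hf : 0 ≤ kf) (hf' : kf < κ3 - κ) (hn : Near0 κ κ3 ξ x) :
    X (s0 w0 (R - 1)) (fA κ κ3 kf) (fB θ κ κ3 kf) (pt θ ξ x) ∈ Leg monQ R := by
  rcases hn.x0.eq_or_lt with hx | hx
  · have e1 : X (s0 w0 (R - 1)) (fA κ κ3 kf) (fB θ κ κ3 kf) (pt θ ξ x) =
        srf θ w0 (R - 1) κ κ3 (pt θ ξ x) := by
      funext k
      by_cases h3 : k = 3
      · subst h3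
        rw [fX_three h1.ne', srf_pt h1.ne', ← hx]
        simp only [nat4, Matrix.cons_val, Fin.isValue]
        ring
      · exact fX_of_ne _ _ _ _ h3
    rw [e1]
    exact srf_leg h h1 hk hk3 hn
  · exact OQ_leg (F_OQ h h1 hk hk3 hf hf' hn hx)

/-- cone of the surface with slack `F_b` -/
def coneF : Set (Fin 11 → ℝ) :=
  {c | c 6 ≤ c 2 + c 5 ∧ c 7 ≤ c 4 + c 5 ∧ c 8 ≤ c 0 + c 5 ∧ c 9 ≤ c 0 + c 6 ∧ c 9 ≤ c 2 + c 8 ∧
    c 10 ≤ c 0 + c 7 ∧ c 10 ≤ c 4 + c 8}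

theorem F_L (h : BigQ θ w0 R T0) (h1 : 0 < θ 1) (hk : 0 ≤ κ) (hk3 : κ ≤ κ3) {kf ξ x : ℝ}
    (hf : 0 ≤ kf) (hf' : kf < κ3 - κ) (hn : Near0 κ κ3 ξ x) (hx : 0 < x) {c : Fin 11 → ℝ} :
    c ∈ (mw monQ).L (s0 w0 (R - 1)) (fA κ κ3 kf) (fB θ κ κ3 kf) ↔ c ∈ coneF := by
  rw [memL_monQ (F_OQ h h1 hk hk3 hf hf' hn hx)]
  have hN := srf_OQ h h1 hk hk3 hn
  have g2 := (slots h h1 hk hk3 hn).2
  -- the three walls with `F_b` and the wall with `R` are not identities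
  have n3 : ∀ k j : Fin 11, k ≠ 3 → j ≠ 3 → sA κ κ3 k = sA κ κ3 3 + sA κ κ3 j →
      ¬ (fA κ κ3 kf k = fA κ κ3 kf 3 + fA κ κ3 kf j) := by
    intro k j e1 e2 hs hh
    rw [fA, Function.update_of_ne e1, Function.update_self, Function.update_of_ne e2, hs] at hh
    have : sA κ κ3 3 = κ3 - κ := by simp [sA, nL]
    linarith
  have t423 : ¬ Tg (s0 w0 (R - 1)) (fA κ κ3 kf) (fB θ κ κ3 kf) 4 2 3 := fun ht =>
    n3 4 2 (by decide) (by decide) (by simp [sA, nL]) (by linarith [ht.2.1])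
  have t736 : ¬ Tg (s0 w0 (R - 1)) (fA κ κ3 kf) (fB θ κ κ3 kf) 7 3 6 := fun ht =>
    n3 7 6 (by decide) (by decide) (by simp [sA, nL]) ht.2.1
  have t139 : ¬ Tg (s0 w0 (R - 1)) (fA κ κ3 kf) (fB θ κ κ3 kf) 10 3 9 := fun ht =>
    n3 10 9 (by decide) (by decide) (by simp [sA, nL]; ring) ht.2.1
  have t701 : ¬ Tg (s0 w0 (R - 1)) (fA κ κ3 kf) (fB θ κ κ3 kf) 7 0 1 := by
    intro ht
    have := X_tg ht (pt θ ξ x)
    rw [fX_of_ne _ _ _ _ (by decide), fX_of_ne _ _ _ _ (by decide), fX_of_ne _ _ _ _ (by decide),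
      srf_pt h1.ne'] at this
    simp only [nat4, Matrix.cons_val, Fin.isValue] at this
    linarith
  have tg : ∀ k i j : Fin 11, k ≠ 3 → i ≠ 3 → j ≠ 3 →
      Tg (s0 w0 (R - 1)) (sA κ κ3) (sB θ κ κ3) k i j →
      Tg (s0 w0 (R - 1)) (fA κ κ3 kf) (fB θ κ κ3 kf) k i j := by
    intro k i j e1 e2 e3 hh
    refine ⟨hh.1, ?_, ?_⟩
    · rw [fA, Function.update_of_ne e1, Function.update_of_ne e2, Function.update_of_ne e3]
      exact hh.2.1
    · rw [fB, Function.update_of_ne e1, Function.update_of_ne e2, Function.update_of_ne e3]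
      exact hh.2.2
  have nt : ∀ k i j : Fin 11, (k, i, j) ∈ ({(4, 2, 3), (6, 2, 5), (7, 4, 5), (7, 3, 6), (8, 0, 5),
      (9, 0, 6), (9, 2, 8), (10, 0, 7), (10, 4, 8), (10, 3, 9)} :
        Finset (Fin 11 × Fin 11 × Fin 11)) →
      Tg (s0 w0 (R - 1)) (sA κ κ3) (sB θ κ κ3) k i j := by
    intro k i j hk
    have := nat_tg w0 (R - 1) ![0, 0, 0] ![κ3, 0, κ]
      ![(θ 0 + κ3) / θ 1, 1, (θ 2 + κ) / θ 1] hk
    simp only [Matrix.cons_val, Fin.isValue] at this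
    exact this
  constructor
  · rintro ⟨-, c2, -, c4, -, c6, c7, c8, c9, c10, -⟩
    exact ⟨c2 (tg _ _ _ (by decide) (by decide) (by decide) (nt _ _ _ (by decide))),
      c4 (tg _ _ _ (by decide) (by decide) (by decide) (nt _ _ _ (by decide))),
      c6 (tg _ _ _ (by decide) (by decide) (by decide) (nt _ _ _ (by decide))),
      c7 (tg _ _ _ (by decide) (by decide) (by decide) (nt _ _ _ (by decide))),
      c8 (tg _ _ _ (by decide) (by decide) (by decide) (nt _ _ _ (by decide))),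
      c9 (tg _ _ _ (by decide) (by decide) (by decide) (nt _ _ _ (by decide))),
      c10 (tg _ _ _ (by decide) (by decide) (by decide) (nt _ _ _ (by decide)))⟩
  · rintro ⟨c2, c4, c6, c7, c8, c9, c10⟩
    exact ⟨fun h => absurd h t423, fun _ => c2, fun h => absurd h t701, fun _ => c4,
      fun h => absurd h t736, fun _ => c6, fun _ => c7, fun _ => c8, fun _ => c9, fun _ => c10,
      fun h => absurd h t139⟩

/-- **last rung on the surface with slack `F_b`** -/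
theorem Cx.deadF (C : Cx θ q g w0 R T0 cab cby cr ν c₀) (hk : 0 ≤ κ) (hk3 : κ ≤ κ3) {kf : ℝ}
    (hf : 0 ≤ kf) (hf' : kf < κ3 - κ) {S : ℝ} (hS : Small θ cab cby κ κ3 S)
    (hsl : q 2 * κ + q 0 * κ3 < g)
    (hF : ∀ᵐ z : ℝ × ℝ, z ∈ Om θ S → ∃ D : ℝ × ℝ →L[ℝ] ℝ,
      HasFDerivAt (fun z => ν (X (s0 w0 (R - 1)) (fA κ κ3 kf) (fB θ κ κ3 kf) z)) D z ∧
        D (1, 0) ≤ -(4 + κ + κ3)) : False :=
  C.deadP (plOk_F C.th1.ne' hk hk3 hf) hk hk3 hS
    (fun ξ hξ x h0 h1 => F_leg C.big C.th1 hk hk3 hf hf' (hS.near hk hk3 hξ.1.le hξ.2.le h0 h1))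
    (fun ξ hξ => srf_le_F C.th1.ne' hS.pos.le hf'.le) hsl hF

/-- points of `Om` are in the open part, surface with slack `F_b` -/
theorem F_O (h : BigQ θ w0 R T0) (h1 : 0 < θ 1) (hk : 0 ≤ κ) (hk3 : κ ≤ κ3) {kf : ℝ}
    (hf : 0 ≤ kf) (hf' : kf < κ3 - κ) {S : ℝ} (hS : Small θ cab cby κ κ3 S) {z : ℝ × ℝ}
    (hz : z ∈ Om θ S) :
    z ∈ (mw monQ).O (fun _ => 0) (fun _ => R) (s0 w0 (R - 1)) (fA κ κ3 kf) (fB θ κ κ3 kf) := by
  obtain ⟨ξ, x, a1, a2, a3, a4, rfl⟩ := hz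
  exact memO_monQ (F_OQ h h1 hk hk3 hf hf' (hS.near hk hk3 a1.le a2.le a3.le a4.le) a3)

/-- points of `Om` are in the open part, natural surface -/
theorem Om_O (h : BigQ θ w0 R T0) (h1 : 0 < θ 1) (hk : 0 ≤ κ) (hk3 : κ ≤ κ3) {S : ℝ}
    (hS : Small θ cab cby κ κ3 S) {z : ℝ × ℝ} (hz : z ∈ Om θ S) :
    z ∈ (mw monQ).O (fun _ => 0) (fun _ => R) (s0 w0 (R - 1)) (sA κ κ3) (sB θ κ κ3) := by
  obtain ⟨ξ, x, a1, a2, a3, a4, rfl⟩ := hz
  exact srf_O h h1 hk hk3 (hS.near hk hk3 a1.le a2.le a3.le a4.le)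

end Crest.Agent.R136.Tb628
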