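import Crest.Agent.R136.Pl2B_860
import Crest.Agent.R136.Pl7b_186

/-!
# R136 (S0187), PLAN 2, leaf (B3): tubes of the classes of `Two1` (helper795)

* `pig1`, `pigJ`, `sub_net` : a part of a finite family of lines on which finitely many bounded
  functionals vary little;
* `tube_gen` : lines of one sheet within `K δ w1` of a line in the wide direction: at most
  `C M δ^(1+qm 1)`;
* `tubeL : Pl2.TubeL`.
-/

set_option autoImplicit false
set_option linter.unusedVariables false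
set_option linter.unusedSectionVars false

open Finset

namespace Crest.Agent.R136.Tb3795

open Crest.Agent.R136.Sh605
open Crest.Agent.R136.K4 (Plk4)
open Crest.Agent.R136.Tlt51 (Shp InP)
open Crest.Agent.R136.Phc248 (ph phC ph_le_one ph_ge_one ph_mono)
open Crest.Agent.R136.Pl2W102 (Near Ex2 Two1)
open Crest.Agent.R136.Pl7186 (flQ shN_fl shN_sub)
open Crest.Agent.R136.Fl808 (InB dt_expand)
open Crest.Agent.R136.HR829 (parseval)
open Crest.Agent.R136.Pl2 (FH TubeL)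

/-! ### pigeonholes -/

/-- one functional -/
theorem pig1 {ι : Type*} (F : Finset ι) (l : ι → ℝ) {X x : ℝ} (hx : 0 < x)
    (hb : ∀ t ∈ F, |l t| ≤ X) :
    ∃ G ⊆ F, (F.card : ℝ) ≤ (2 * X / x + 2) * G.card ∧ ∀ s ∈ G, ∀ t ∈ G, |l s - l t| ≤ x := by
  classical
  rcases F.eq_empty_or_nonempty with h0 | ⟨t0, ht0⟩
  · exact ⟨∅, by simp [h0], by simp [h0], by simp⟩
  have hX : 0 ≤ X := (abs_nonneg _).trans (hb t0 ht0)
  set lab : ι → ℕ := fun t => ⌊(l t + X) / x⌋₊ with hlab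
  set N : ℕ := ⌊2 * X / x⌋₊ + 1 with hN
  have hmap : ∀ t ∈ F, lab t ∈ range N := by
    intro t ht
    rw [mem_range, hN, Nat.lt_succ_iff]
    apply Nat.floor_le_floor
    have := (abs_le.1 (hb t ht)).2
    gcongr
    linarith
  obtain ⟨k, hk, hmax⟩ := exists_max_image (range N) (fun k => (F.filter fun t => lab t = k).card)
    ⟨0, by rw [mem_range]; omega⟩
  refine ⟨F.filter fun t => lab t = k, filter_subset _ _, ?_, ?_⟩
  · have h1 : F.card = ∑ j ∈ range N, (F.filter fun t => lab t = j).card :=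
      card_eq_sum_card_fiberwise hmap
    have h2 : F.card ≤ N * (F.filter fun t => lab t = k).card := by
      rw [h1]
      calc ∑ j ∈ range N, (F.filter fun t => lab t = j).card
          ≤ ∑ j ∈ range N, (F.filter fun t => lab t = k).card := sum_le_sum fun j hj => hmax j hj
        _ = N * (F.filter fun t => lab t = k).card := by simp
    have h3 : (N : ℝ) ≤ 2 * X / x + 2 := by
      have : (⌊2 * X / x⌋₊ : ℝ) ≤ 2 * X / x := Nat.floor_le (by positivity)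
      rw [hN]; push_cast; linarith
    calc (F.card : ℝ) ≤ (N : ℝ) * ((F.filter fun t => lab t = k).card : ℝ) := by exact_mod_cast h2
      _ ≤ _ := by gcongr
  · intro s hs t ht
    rw [mem_filter] at hs ht
    have a1 : 0 ≤ (l s + X) / x := by
      have := (abs_le.1 (hb s hs.1)).1
      apply div_nonneg _ hx.le; linarith
    have a2 : 0 ≤ (l t + X) / x := by
      have := (abs_le.1 (hb t ht.1)).1
      apply div_nonneg _ hx.le; linarith
    have b1 := Nat.floor_le a1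
    have b2 := Nat.floor_le a2
    have b3 := Nat.lt_floor_add_one ((l s + X) / x)
    have b4 := Nat.lt_floor_add_one ((l t + X) / x)
    have e1 : (⌊(l s + X) / x⌋₊ : ℝ) = ⌊(l t + X) / x⌋₊ := by
      have h1 : ⌊(l s + X) / x⌋₊ = k := hs.2
      have h2 : ⌊(l t + X) / x⌋₊ = k := ht.2
      rw [h1, h2]
    have c1 : |(l s + X) / x - (l t + X) / x| ≤ 1 := by
      rw [abs_le]; constructor <;> linarith
    have c2 : (l s + X) / x - (l t + X) / x = (l s - l t) / x := by ring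
    rw [c2, abs_div, abs_of_pos hx, div_le_iff₀ hx, one_mul] at c1
    exact c1

/-- finitely many functionals -/
theorem pigJ {ι κ : Type*} [DecidableEq κ] (J : Finset κ) (F : Finset ι) (l : κ → ι → ℝ)
    {X x : κ → ℝ} (hx : ∀ j ∈ J, 0 < x j) (hX : ∀ j ∈ J, 0 ≤ X j)
    (hb : ∀ j ∈ J, ∀ t ∈ F, |l j t| ≤ X j) :
    ∃ G ⊆ F, (F.card : ℝ) ≤ (∏ j ∈ J, (2 * X j / x j + 2)) * G.card ∧
      ∀ j ∈ J, ∀ s ∈ G, ∀ t ∈ G, |l j s - l j t| ≤ x j := by
  induction J using Finset.induction_on with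
  | empty => exact ⟨F, subset_rfl, by simp, by simp⟩
  | insert j J hj ih =>
    obtain ⟨G, hG, h1, h2⟩ := ih (fun i hi => hx i (mem_insert_of_mem hi))
      (fun i hi => hX i (mem_insert_of_mem hi)) (fun i hi => hb i (mem_insert_of_mem hi))
    obtain ⟨G', hG', h3, h4⟩ := pig1 G (l j) (hx j (mem_insert_self j J))
      (fun t ht => hb j (mem_insert_self j J) t (hG ht))
    refine ⟨G', hG'.trans hG, ?_, ?_⟩
    · rw [prod_insert hj]
      have hp : 0 ≤ ∏ i ∈ J, (2 * X i / x i + 2) := prod_nonneg fun i hi => by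
        have a1 := hx i (mem_insert_of_mem hi)
        have a2 := hX i (mem_insert_of_mem hi)
        positivity
      calc (F.card : ℝ) ≤ (∏ i ∈ J, (2 * X i / x i + 2)) * G.card := h1
        _ ≤ (∏ i ∈ J, (2 * X i / x i + 2)) * ((2 * X j / x j + 2) * G'.card) := by gcongr
        _ = _ := by ring
    · intro i hi s hs t ht
      rcases mem_insert.1 hi with rfl | hi
      · exact h4 s hs t ht
      · exact h2 i hi s (hG' hs) t (hG' ht)

/-- affine functions between the two ends -/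
theorem aff_le {e : V3} {S T : Ln4} {z0 ρ x : ℝ} (hρ : 0 < ρ)
    (h0 : |dt e (S.pos z0 - T.pos z0)| ≤ x)
    (h1 : |dt e (S.pos (z0 + ρ) - T.pos (z0 + ρ))| ≤ x) {z : ℝ} (hz : z0 ≤ z)
    (hz' : z ≤ z0 + ρ) : |dt e (S.pos z - T.pos z)| ≤ x := by
  have key : ρ * dt e (S.pos z - T.pos z) = (z0 + ρ - z) * dt e (S.pos z0 - T.pos z0) +
      (z - z0) * dt e (S.pos (z0 + ρ) - T.pos (z0 + ρ)) := by
    simp only [dt, Ln4.pos, Pi.sub_apply]; ring
  have h2 : ρ * |dt e (S.pos z - T.pos z)| ≤ ρ * x := by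
    rw [← abs_of_pos hρ, ← abs_mul, abs_of_pos hρ, key]
    refine (abs_add_le _ _).trans ?_
    rw [abs_mul, abs_mul, abs_of_nonneg (by linarith : 0 ≤ z0 + ρ - z),
      abs_of_nonneg (by linarith : 0 ≤ z - z0)]
    have a1 : (z0 + ρ - z) * |dt e (S.pos z0 - T.pos z0)| ≤ (z0 + ρ - z) * x :=
      mul_le_mul_of_nonneg_left h0 (by linarith)
    have a2 : (z - z0) * |dt e (S.pos (z0 + ρ) - T.pos (z0 + ρ))| ≤ (z - z0) * x :=
      mul_le_mul_of_nonneg_left h1 (by linarith)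
    linarith
  exact le_of_mul_le_mul_left h2 hρ

/-- **net** in a box: a large part on which all coordinates vary by at most `x` -/
theorem sub_net {e : Fin 3 → V3} {ι : Type*} (F : Finset ι) (L : ι → Ln4) {z0 ρ : ℝ} (hρ : 0 < ρ)
    (b : Fin 3 → Ln4) {X x : Fin 3 → ℝ} (hx : ∀ i, 0 < x i) (hX : ∀ i, 0 ≤ X i)
    (hb : ∀ t ∈ F, ∀ z, z0 ≤ z → z ≤ z0 + ρ → ∀ i, |dt (e i) ((L t).pos z - (b i).pos z)| ≤ X i) :
    ∃ G ⊆ F, (F.card : ℝ) ≤ (∏ i, (2 * X i / x i + 2)) ^ 2 * G.card ∧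
      ∀ s ∈ G, ∀ t ∈ G, ∀ z, z0 ≤ z → z ≤ z0 + ρ → ∀ i,
        |dt (e i) ((L s).pos z - (L t).pos z)| ≤ x i := by
  obtain ⟨G1, hG1, c1, d1⟩ := pigJ (univ : Finset (Fin 3)) F
    (fun i t => dt (e i) ((L t).pos z0 - (b i).pos z0)) (X := X) (x := x) (fun i _ => hx i)
    (fun i _ => hX i) (fun i _ t ht => hb t ht z0 le_rfl (by linarith) i)
  obtain ⟨G2, hG2, c2, d2⟩ := pigJ (univ : Finset (Fin 3)) G1
    (fun i t => dt (e i) ((L t).pos (z0 + ρ) - (b i).pos (z0 + ρ))) (X := X) (x := x)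
    (fun i _ => hx i) (fun i _ => hX i)
    (fun i _ t ht => hb t (hG1 ht) (z0 + ρ) (by linarith) le_rfl i)
  have hp : 0 ≤ ∏ i, (2 * X i / x i + 2) := prod_nonneg fun i _ => by
    have a1 := hx i
    have a2 := hX i
    positivity
  refine ⟨G2, hG2.trans hG1, ?_, ?_⟩
  · calc (F.card : ℝ) ≤ (∏ i, (2 * X i / x i + 2)) * G1.card := c1
      _ ≤ (∏ i, (2 * X i / x i + 2)) * ((∏ i, (2 * X i / x i + 2)) * G2.card) := by gcongr
      _ = _ := by ring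
  · intro s hs t ht z hz hz' i
    have sub : ∀ y : ℝ, dt (e i) ((L s).pos y - (L t).pos y) =
        dt (e i) ((L s).pos y - (b i).pos y) - dt (e i) ((L t).pos y - (b i).pos y) := by
      intro y
      simp only [dt_sub]; ring
    refine aff_le hρ ?_ ?_ hz hz'
    · rw [sub]; exact d1 i (mem_univ i) s (hG2 hs) t (hG2 ht)
    · rw [sub]; exact d2 i (mem_univ i) s hs t ht

/-! ### the factor `ph` -/

theorem ph_bd {m p R δ x : ℝ} (hm : 0 ≤ m) (hmp : m ≤ p) (hR : 1 ≤ R) (hδ : 0 < δ) (hδ1 : δ ≤ 1)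
    (hx : 0 ≤ x) (h : x ≤ R * δ) : ph m p x ≤ R ^ (1 + p) * δ ^ (1 + m) := by
  have R0 : 0 < R := by linarith
  rcases le_total x 1 with h1 | h1
  · rw [ph_le_one hm hmp hx h1]
    calc x ^ (1 + m) ≤ (R * δ) ^ (1 + m) := Real.rpow_le_rpow hx h (by linarith)
      _ = R ^ (1 + m) * δ ^ (1 + m) := Real.mul_rpow R0.le hδ.le
      _ ≤ R ^ (1 + p) * δ ^ (1 + m) := by gcongr
  · rw [ph_ge_one hmp h1]
    calc x ^ (1 + p) ≤ (R * δ) ^ (1 + p) := Real.rpow_le_rpow hx h (by linarith)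
      _ = R ^ (1 + p) * δ ^ (1 + p) := Real.mul_rpow R0.le hδ.le
      _ ≤ R ^ (1 + p) * δ ^ (1 + m) := by
        refine mul_le_mul_of_nonneg_left ?_ (by positivity)
        exact Real.rpow_le_rpow_of_exponent_ge hδ hδ1 (by linarith)

theorem ph_bd1 {m p R x : ℝ} (hm : 0 ≤ m) (hmp : m ≤ p) (hR : 1 ≤ R) (hx : 0 ≤ x) (h : x ≤ R) :
    ph m p x ≤ R ^ (1 + p) := by
  have := ph_bd hm hmp hR one_pos le_rfl hx (by linarith)
  simpa using this

/-! ### the tube lemma -/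

section

variable {qm qp : Fin 3 → ℝ} {L : ℕ → Ln4} {P : Finset ℕ} {W M a w1 w2 z0 ρ r : ℝ}

theorem fac {W s y x : ℝ} (W1 : 1 ≤ W) (sW : s * (2 * W ^ 2) = 1) (xp : 0 < x)
    (h : s * y ≤ x) : 2 * y / x + 2 ≤ 6 * W ^ 2 := by
  have h1 : 2 * y / x ≤ 4 * W ^ 2 := by
    rw [div_le_iff₀ xp]
    calc 2 * y = 4 * W ^ 2 * (s * y) := by
          have : 4 * W ^ 2 * (s * y) = 2 * (s * (2 * W ^ 2)) * y := by ring
          rw [this, sW]; ring
      _ ≤ 4 * W ^ 2 * x := mul_le_mul_of_nonneg_left h (by positivity)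
  have W2 : 1 ≤ W ^ 2 := one_le_pow₀ W1
  linarith

theorem fac1 {W s K D u x : ℝ} (W1 : 1 ≤ W) (K1 : 1 ≤ K) (sW : s * (2 * W ^ 2) = 1) (xp : 0 < x)
    (hD : D ≤ W * u) (h : s * u ≤ x) : 2 * (K * D) / x + 2 ≤ 6 * K * W ^ 3 := by
  have K0 : 0 < K := by linarith
  have h1 : 2 * (K * D) / x ≤ 4 * K * W ^ 3 := by
    rw [div_le_iff₀ xp]
    calc 2 * (K * D) ≤ 2 * (K * (W * u)) := by gcongr
      _ = 4 * K * W ^ 3 * (s * u) := by
          have : 4 * K * W ^ 3 * (s * u) = (s * (2 * W ^ 2)) * (2 * (K * (W * u))) := by ring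
          rw [this, sW]; ring
      _ ≤ 4 * K * W ^ 3 * x := mul_le_mul_of_nonneg_left h (by positivity)
  have h3 : 1 ≤ K * W ^ 3 := one_le_mul_of_one_le_of_one_le K1 (one_le_pow₀ W1)
  linarith

/-- capacity of the sub-box -/
theorem cap_le (hq : ∀ k, 0 ≤ qm k ∧ qm k ≤ qp k) {K δ A x1 x2 : ℝ} (W1 : 1 ≤ W) (K1 : 1 ≤ K)
    (a0 : 0 < a) (w10 : 0 < w1) (w20 : 0 < w2) (hδ : 0 < δ) (hδ1 : δ ≤ 1) (A0 : 0 ≤ A)
    (x10 : 0 ≤ x1) (x20 : 0 ≤ x2) (hA : A ≤ W * a) (h1 : x1 ≤ W * K * δ * w1)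
    (h2 : x2 ≤ W * w2) : phC qm qp a w1 w2 A x1 x2 ≤ W ^ (1 + qp 0) *
        ((W * K) ^ (1 + qp 1) * δ ^ (1 + qm 1)) * W ^ (1 + qp 2) := by
  have WK : 1 ≤ W * K := one_le_mul_of_one_le_of_one_le W1 K1
  have W0 : 0 < W := by linarith
  have p0 : ph (qm 0) (qp 0) (A / a) ≤ W ^ (1 + qp 0) :=
    ph_bd1 (hq 0).1 (hq 0).2 W1 (by positivity) (by rw [div_le_iff₀ a0]; exact hA)
  have p1 : ph (qm 1) (qp 1) (x1 / w1) ≤ (W * K) ^ (1 + qp 1) * δ ^ (1 + qm 1) := by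
    refine ph_bd (hq 1).1 (hq 1).2 WK hδ hδ1 (by positivity) ?_
    rw [div_le_iff₀ w10]; exact h1
  have p2 : ph (qm 2) (qp 2) (x2 / w2) ≤ W ^ (1 + qp 2) :=
    ph_bd1 (hq 2).1 (hq 2).2 W1 (by positivity) (by rw [div_le_iff₀ w20]; exact h2)
  have n0 : 0 ≤ ph (qm 0) (qp 0) (A / a) := le_max_of_le_left (by positivity)
  have n1 : 0 ≤ ph (qm 1) (qp 1) (x1 / w1) := le_max_of_le_left (by positivity)
  have n2 : 0 ≤ ph (qm 2) (qp 2) (x2 / w2) := le_max_of_le_left (by positivity)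
  unfold phC
  exact mul_le_mul (mul_le_mul p0 p1 n1 (by positivity)) p2 n2 (by positivity)

open Classical in
/-- lines in a small sub-box of a curved sheet -/
theorem cnt_curved
    (Dm : ∀ S : Plk4, Shp S z0 ρ r → S.w 1 ≤ ρ →
      ((P.filter fun t => InP (L t) S z0 ρ).card : ℝ) ≤
        W * M * phC qm qp a w1 w2 S.a (S.w 1) (S.w 2))
    {S : Plk4} (hS : Shp S z0 ρ r) (Sa : 0 < S.a) {s y : ℝ} (s0 : 0 < s) (s1 : s ≤ 1 / 2)
    (y2 : S.w 2 ≤ y) (y1 : y ≤ S.w 1) (hthin : S.a ≤ s * S.w 0) (hρ : s * y ≤ ρ)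
    (G : Finset ℕ) (hG : G ⊆ P) (hin : ∀ t ∈ G, InP (L t) S z0 ρ) {T : ℕ} (hT : T ∈ G)
    (hn : ∀ t ∈ G, ∀ z, z0 ≤ z → z ≤ z0 + ρ → ∀ i,
      |dt (S.e i) ((L t).pos z - (L T).pos z)| ≤
        (![s * S.w 0, s * y, s * S.w 2] : Fin 3 → ℝ) i) :
    (G.card : ℝ) ≤ W * M * phC qm qp a w1 w2 S.a (s * y) (s * S.w 2) := by
  have hSh : ShN S.e S.c S.w S.q S.a z0 ρ r := hS
  have Sw0 : 0 < S.w 0 := Sa.trans_le hSh.a_le0
  have Sw2 : 0 < S.w 2 := Sw0.trans_le hSh.w0_le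
  have Sw1 : 0 < S.w 1 := Sw2.trans_le hSh.w_le
  have hsub : ShN S.e (L T) ![s * S.w 0, s * y, s * S.w 2] S.q S.a z0 ρ r := by
    refine shN_sub hSh (hin T hT) ?_ ?_ ?_ Sa hthin
      (mul_le_mul_of_nonneg_left hSh.w0_le s0.le) (mul_le_mul_of_nonneg_left y2 s0.le) ?_ ?_
    · have := mul_le_mul_of_nonneg_right s1 Sw0.le
      linarith
    · have := mul_le_mul_of_nonneg_right s1 (Sw2.le.trans y2)
      linarith
    · have := mul_le_mul_of_nonneg_right s1 Sw2.le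
      linarith
    · calc S.w 0 * (s * y) = s * S.w 0 * y := by ring
        _ ≤ s * S.w 0 * S.w 1 := mul_le_mul_of_nonneg_left y1 (by positivity)
    · exact le_of_eq (by ring)
  have h3 := Dm ⟨S.j, S.e, L T, ![s * S.w 0, s * y, s * S.w 2], S.q, S.a⟩ hsub hρ
  have h4 : G ⊆ P.filter fun t =>
      InP (L t) ⟨S.j, S.e, L T, ![s * S.w 0, s * y, s * S.w 2], S.q, S.a⟩ z0 ρ := by
    intro t ht
    rw [mem_filter]
    exact ⟨hG ht, fun z hz hz' => ⟨fun i => hn t ht z hz hz' i, (hin t ht z hz hz').2⟩⟩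
  exact le_trans (by exact_mod_cast card_le_card h4) h3

open Classical in
/-- lines in a flat box -/
theorem cnt_flat
    (Dm : ∀ S : Plk4, Shp S z0 ρ r → S.w 1 ≤ ρ →
      ((P.filter fun t => InP (L t) S z0 ρ).card : ℝ) ≤
        W * M * phC qm qp a w1 w2 S.a (S.w 1) (S.w 2))
    {e : Fin 3 → V3} (he : Ortho e) {A x1 x2 : ℝ} (A0 : 0 < A) (hr : r ≤ A)
    (hA2 : A ≤ x2) (x21 : x2 ≤ x1) (hρ : x1 ≤ ρ)
    (G : Finset ℕ) (hG : G ⊆ P) (T : ℕ)
    (hn : ∀ t ∈ G, ∀ z, z0 ≤ z → z ≤ z0 + ρ → ∀ i,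
      |dt (e i) ((L t).pos z - (L T).pos z)| ≤ (![A, x1, x2] : Fin 3 → ℝ) i) :
    (G.card : ℝ) ≤ W * M * phC qm qp a w1 w2 A x1 x2 := by
  have hsub : ShN e (L T) ![x2, x1, x2] (flQ (e 0) (L T)) A z0 ρ r :=
    shN_fl he (L T) z0 ρ rfl hA2 x21 hr (A0.trans_le hA2)
  have h3 := Dm ⟨0, e, L T, ![x2, x1, x2], flQ (e 0) (L T), A⟩ hsub hρ
  have h4 : G ⊆ P.filter fun t =>
      InP (L t) ⟨0, e, L T, ![x2, x1, x2], flQ (e 0) (L T), A⟩ z0 ρ := by
    intro t ht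
    rw [mem_filter]
    refine ⟨hG ht, fun z hz hz' => ⟨fun i => ?_, hn t ht z hz hz' 0⟩⟩
    have h5 := hn t ht z hz hz' i
    fin_cases i
    · exact h5.trans hA2
    · exact h5
    · exact h5
  exact le_trans (by exact_mod_cast card_le_card h4) h3

open Classical in
/-- **tube in one sheet** -/
theorem tube_gen (hq : ∀ k, 0 ≤ qm k ∧ qm k ≤ qp k) (W1 : 1 ≤ W) (M0 : 0 < M) (hρ : 0 < ρ)
    (r0 : 0 < r) (rρ : r ≤ ρ) (a0 : 0 < a) (w10 : 0 < w1) (w20 : 0 < w2) (w1ρ : w1 ≤ W * ρ)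
    (Dm : ∀ S : Plk4, Shp S z0 ρ r → S.w 1 ≤ ρ →
      ((P.filter fun t => InP (L t) S z0 ρ).card : ℝ) ≤
        W * M * phC qm qp a w1 w2 S.a (S.w 1) (S.w 2))
    {S : Plk4} (hS : Shp S z0 ρ r) (dim : Near W a S.a ∧ Near W w1 (S.w 1) ∧ Near W w2 (S.w 2))
    {K δ : ℝ} (K1 : 1 ≤ K) (hδ1 : δ ≤ 1) (hδw : w2 ≤ K * (δ * w1)) (F : Finset ℕ) (hF : F ⊆ P)
    (T0 : Ln4) (hin : ∀ t ∈ F, InP (L t) S z0 ρ)
    (hb : ∀ t ∈ F, ∀ z, z0 ≤ z → z ≤ z0 + ρ →
      |dt (S.e 1) ((L t).pos z - T0.pos z)| ≤ K * (δ * w1)) :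
    (F.card : ℝ) ≤ 46656 * K ^ 2 * W ^ 14 * (W * M * (W ^ (1 + qp 0) *
      ((W * K) ^ (1 + qp 1) * δ ^ (1 + qm 1)) * W ^ (1 + qp 2))) := by
  obtain ⟨⟨da, da'⟩, ⟨d1, d1'⟩, ⟨d2, d2'⟩⟩ := dim
  have hSh : ShN S.e S.c S.w S.q S.a z0 ρ r := hS
  have W0 : 0 < W := by linarith
  have K0 : 0 < K := by linarith
  have hKδ : 0 < K * (δ * w1) := w20.trans_le hδw
  have hδ : 0 < δ := (mul_pos_iff_of_pos_right w10).1 ((mul_pos_iff_of_pos_left K0).1 hKδ)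
  have Sa : 0 < S.a := r0.trans_le hSh.r0_le
  have Sw0 : 0 < S.w 0 := Sa.trans_le hSh.a_le0
  have Sw2 : 0 < S.w 2 := Sw0.trans_le hSh.w0_le
  have Sw1 : 0 < S.w 1 := Sw2.trans_le hSh.w_le
  obtain ⟨s, s0, s1, sW⟩ : ∃ s : ℝ, 0 < s ∧ s ≤ 1 / 2 ∧ s * (2 * W ^ 2) = 1 := by
    have W2 : 1 ≤ W ^ 2 := one_le_pow₀ W1
    refine ⟨1 / (2 * W ^ 2), by positivity, ?_, by field_simp⟩
    apply one_div_le_one_div_of_le (by norm_num)
    linarith
  have s1' : s ≤ 1 := by linarith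
  -- the sizes of the sub-box
  obtain ⟨y, hyδ, hy2, hy1, hyw⟩ : ∃ y : ℝ, δ * S.w 1 ≤ y ∧ S.w 2 ≤ y ∧ y ≤ S.w 1 ∧
      y ≤ W * K * δ * w1 := by
    have w2K : S.w 2 ≤ W * K * δ * w1 := by
      calc S.w 2 ≤ W * w2 := d2'
        _ ≤ W * (K * (δ * w1)) := mul_le_mul_of_nonneg_left hδw W0.le
        _ = _ := by ring
    refine ⟨max (δ * S.w 1) (S.w 2), le_max_left _ _, le_max_right _ _,
      max_le (mul_le_of_le_one_left Sw1.le hδ1) hSh.w_le, max_le ?_ w2K⟩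
    calc δ * S.w 1 ≤ δ * (W * w1) := mul_le_mul_of_nonneg_left d1' hδ.le
      _ = W * 1 * δ * w1 := by ring
      _ ≤ W * K * δ * w1 := by gcongr
  have yp : 0 < y := Sw2.trans_le hy2
  have sw1 : s * S.w 1 ≤ ρ / 2 := by
    have h1 : S.w 1 ≤ W * (W * ρ) := d1'.trans (mul_le_mul_of_nonneg_left w1ρ W0.le)
    calc s * S.w 1 ≤ s * (W * (W * ρ)) := mul_le_mul_of_nonneg_left h1 s0.le
      _ = s * (2 * W ^ 2) * (ρ / 2) := by ring
      _ = ρ / 2 := by rw [sW, one_mul]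
  have syρ : s * y ≤ ρ := by
    have := mul_le_mul_of_nonneg_left hy1 s0.le
    linarith
  have sw0ρ : s * S.w 0 ≤ ρ := by
    have := mul_le_mul_of_nonneg_left (hSh.w0_le.trans hSh.w_le) s0.le
    linarith
  obtain ⟨A, hAa, hAρ, hrA, hA0⟩ : ∃ A : ℝ, A ≤ S.a ∧ A ≤ ρ ∧ r ≤ A ∧
      (A = S.a ∨ A = ρ) := by
    refine ⟨min S.a ρ, min_le_left _ _, min_le_right _ _, le_min hSh.r0_le rρ, ?_⟩
    exact min_choice _ _
  have Ap : 0 < A := r0.trans_le hrA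
  have hAw2 : A ≤ S.w 2 := (hAa.trans hSh.a_le0).trans hSh.w0_le
  obtain ⟨x0, hx0⟩ : ∃ x0, x0 = max (s * S.w 0) A := ⟨_, rfl⟩
  obtain ⟨x1, hx1⟩ : ∃ x1, x1 = max (s * y) A := ⟨_, rfl⟩
  obtain ⟨x2, hx2⟩ : ∃ x2, x2 = max (s * S.w 2) A := ⟨_, rfl⟩
  have x0p : 0 < x0 := by rw [hx0]; exact Ap.trans_le (le_max_right _ _)
  have x1p : 0 < x1 := by rw [hx1]; exact Ap.trans_le (le_max_right _ _)
  have x2p : 0 < x2 := by rw [hx2]; exact Ap.trans_le (le_max_right _ _)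
  have x21 : x2 ≤ x1 := by
    rw [hx1, hx2]
    exact max_le ((mul_le_mul_of_nonneg_left hy2 s0.le).trans (le_max_left _ _))
      (le_max_right _ _)
  have x1ρ : x1 ≤ ρ := by rw [hx1]; exact max_le syρ hAρ
  -- the net
  obtain ⟨G, hG, hcard, hnear⟩ := sub_net (e := S.e) F L hρ (b := ![S.c, T0, S.c])
    (X := ![S.w 0, K * (δ * w1), S.w 2]) (x := ![x0, x1, x2])
    (by intro i; fin_cases i; exacts [x0p, x1p, x2p])
    (by intro i; fin_cases i; exacts [Sw0.le, hKδ.le, Sw2.le])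
    (by
      intro t ht z hz hz' i
      have h1 := (hin t ht z hz hz').1
      fin_cases i
      · exact h1 0
      · exact hb t ht z hz hz'
      · exact h1 2)
  rw [Fin.prod_univ_three] at hcard
  simp only [Matrix.cons_val] at hcard
  have f0 : 2 * S.w 0 / x0 + 2 ≤ 6 * W ^ 2 := fac W1 sW x0p (by rw [hx0]; exact le_max_left _ _)
  have f2 : 2 * S.w 2 / x2 + 2 ≤ 6 * W ^ 2 := fac W1 sW x2p (by rw [hx2]; exact le_max_left _ _)
  have f1 : 2 * (K * (δ * w1)) / x1 + 2 ≤ 6 * K * W ^ 3 := by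
    refine fac1 W1 K1 sW x1p (u := δ * S.w 1) ?_ ?_
    · calc δ * w1 ≤ δ * (W * S.w 1) := mul_le_mul_of_nonneg_left d1 hδ.le
        _ = _ := by ring
    · rw [hx1]
      exact (mul_le_mul_of_nonneg_left hyδ s0.le).trans (le_max_left _ _)
  have g0 : 0 ≤ 2 * S.w 0 / x0 + 2 := by positivity
  have g1 : 0 ≤ 2 * (K * (δ * w1)) / x1 + 2 := by positivity
  have g2 : 0 ≤ 2 * S.w 2 / x2 + 2 := by positivity
  have hsq : ((2 * S.w 0 / x0 + 2) * (2 * (K * (δ * w1)) / x1 + 2) *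
      (2 * S.w 2 / x2 + 2)) ^ 2 ≤ 46656 * K ^ 2 * W ^ 14 := by
    calc _ ≤ ((6 * W ^ 2) * (6 * K * W ^ 3) * (6 * W ^ 2)) ^ 2 := by
          apply pow_le_pow_left₀ (by positivity)
          exact mul_le_mul (mul_le_mul f0 f1 g1 (by positivity)) f2 g2 (by positivity)
      _ = 46656 * K ^ 2 * W ^ 14 := by ring
  obtain ⟨B, hB⟩ : ∃ B, B = W * M * (W ^ (1 + qp 0) * ((W * K) ^ (1 + qp 1) * δ ^ (1 + qm 1)) *
    W ^ (1 + qp 2)) := ⟨_, rfl⟩
  have B0 : 0 ≤ B := by rw [hB]; positivity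
  have WM : 0 ≤ W * M := by positivity
  -- the count of the part
  have hGc : (G.card : ℝ) ≤ B := by
    rcases G.eq_empty_or_nonempty with h0 | ⟨T, hT⟩
    · rw [h0, card_empty, Nat.cast_zero]; exact B0
    by_cases hthin : S.a ≤ s * S.w 0
    · -- curved sub-sheet
      have hs2 : S.a ≤ s * S.w 2 := hthin.trans (mul_le_mul_of_nonneg_left hSh.w0_le s0.le)
      have hs1 : S.a ≤ s * y := hs2.trans (mul_le_mul_of_nonneg_left hy2 s0.le)
      have ex0 : x0 = s * S.w 0 := by rw [hx0]; exact max_eq_left (hAa.trans hthin)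
      have ex2 : x2 = s * S.w 2 := by rw [hx2]; exact max_eq_left (hAa.trans hs2)
      have ex1 : x1 = s * y := by rw [hx1]; exact max_eq_left (hAa.trans hs1)
      have h3 := cnt_curved Dm hS Sa s0 s1 hy2 hy1 hthin syρ G (hG.trans hF)
        (fun t ht => hin t (hG ht)) hT (fun t ht z hz hz' i => by
          have h := hnear t ht T hT z hz hz' i
          rw [ex0, ex1, ex2] at h
          exact h)
      refine h3.trans ?_
      rw [hB]
      refine mul_le_mul_of_nonneg_left (cap_le hq W1 K1 a0 w10 w20 hδ hδ1 Sa.le (by positivity)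
        (by positivity) da' ?_ ?_) WM
      · exact (mul_le_of_le_one_left yp.le s1').trans hyw
      · exact (mul_le_of_le_one_left Sw2.le s1').trans d2'
    · -- flat box
      have hA1 : s * S.w 0 ≤ A := by
        rcases hA0 with h | h
        · rw [h]; exact (not_le.1 hthin).le
        · rw [h]; exact sw0ρ
      have ex0 : x0 = A := by rw [hx0]; exact max_eq_right hA1
      have hA2 : A ≤ x2 := by rw [hx2]; exact le_max_right _ _
      have h3 := cnt_flat Dm hSh.ortho Ap hrA hA2 x21 x1ρ G (hG.trans hF) T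
        (fun t ht z hz hz' i => by
          have h := hnear t ht T hT z hz hz' i
          rw [ex0] at h
          exact h)
      refine h3.trans ?_
      rw [hB]
      refine mul_le_mul_of_nonneg_left (cap_le hq W1 K1 a0 w10 w20 hδ hδ1 Ap.le x1p.le
        x2p.le (hAa.trans da') ?_ ?_) WM
      · rw [hx1]
        exact max_le ((mul_le_of_le_one_left yp.le s1').trans hyw)
          ((hAw2.trans hy2).trans hyw)
      · rw [hx2]
        exact max_le ((mul_le_of_le_one_left Sw2.le s1').trans d2') (hAw2.trans d2')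
  rw [← hB]
  calc (F.card : ℝ) ≤ _ := hcard
    _ ≤ 46656 * K ^ 2 * W ^ 14 * B := mul_le_mul hsq hGc (by positivity) (by positivity)

end

/-! ### the literal -/

/-- the wide coordinate in the frame of the sheet from the hull frame -/
theorem wide_le {m Y : ℝ} {S : Plk4} {f : Fin 3 → V3} {z0 ρ : ℝ} (hm : 1 ≤ m)
    (h : FH m Y S f z0 ρ) (w1 : 0 < S.w 1) (w21 : S.w 2 ≤ S.w 1) (w2 : 0 < S.w 2)
    (he : Ortho S.e) {t t' : Ln4}
    (ht : InP t S z0 ρ) (ht' : InP t' S z0 ρ) {z : ℝ} (hz : z0 ≤ z) (hz' : z ≤ z0 + ρ) :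
    |dt (S.e 1) (t.pos z - t'.pos z)| ≤ |dt (f 1) (t.pos z - t'.pos z)| +
      m * (m * |Y|) + m * (m * S.w 2) := by
  set Δ := t.pos z - t'.pos z with hΔ
  have hb : ∀ i, |dt (f i) Δ| ≤ (![m * Y, m * S.w 1, m * S.w 2] : V3) i :=
    fun i => h.box t t' ht ht' z hz hz' i
  have b0 : |dt (f 0) Δ| ≤ m * |Y| := (hb 0).trans (by
    change m * Y ≤ m * |Y|
    exact mul_le_mul_of_nonneg_left (le_abs_self _) (by linarith))
  have b2 : |dt (f 2) Δ| ≤ m * S.w 2 := hb 2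
  have m0 : 0 < m := by linarith
  have c0 : |dt (f 0) (S.e 1)| ≤ m := by
    have h1 := h.e01
    have h2 : |dt (f 0) (S.e 1)| * S.w 1 ≤ m * S.w 1 :=
      h1.trans (mul_le_mul_of_nonneg_left w21 m0.le)
    exact le_of_mul_le_mul_right h2 w1
  have c2 : |dt (f 2) (S.e 1)| ≤ m := by
    have h1 := h.e21
    have h2 : |dt (f 2) (S.e 1)| * S.w 1 ≤ m * S.w 1 :=
      h1.trans (mul_le_mul_of_nonneg_left w21 m0.le)
    exact le_of_mul_le_mul_right h2 w1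
  have g11 : dt (S.e 1) (S.e 1) = 1 := by simpa using he 1 1
  have c1 : |dt (f 1) (S.e 1)| ≤ 1 := by
    have h3 := parseval h.ortho (S.e 1)
    rw [g11] at h3
    rw [← sq_le_one_iff_abs_le_one]
    nlinarith [sq_nonneg (dt (f 0) (S.e 1)), sq_nonneg (dt (f 2) (S.e 1))]
  have hexp : dt (S.e 1) Δ = dt (f 0) (S.e 1) * dt (f 0) Δ + dt (f 1) (S.e 1) * dt (f 1) Δ +
      dt (f 2) (S.e 1) * dt (f 2) Δ := by
    have h4 := dt_expand h.ortho (S.e 1) Δ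
    have cm : ∀ u v : V3, dt u v = dt v u := fun u v => by simp only [dt]; ring
    rw [cm (S.e 1) (f 0), cm (S.e 1) (f 1), cm (S.e 1) (f 2)] at h4
    exact h4
  rw [hexp]
  have t0 : |dt (f 0) (S.e 1) * dt (f 0) Δ| ≤ m * (m * |Y|) := by
    rw [abs_mul]; exact mul_le_mul c0 b0 (abs_nonneg _) m0.le
  have t1 : |dt (f 1) (S.e 1) * dt (f 1) Δ| ≤ |dt (f 1) Δ| := by
    rw [abs_mul]; exact mul_le_of_le_one_left (abs_nonneg _) c1
  have t2 : |dt (f 2) (S.e 1) * dt (f 2) Δ| ≤ m * (m * S.w 2) := by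
    rw [abs_mul]; exact mul_le_mul c2 b2 (abs_nonneg _) m0.le
  have h5 := abs_add_le (dt (f 0) (S.e 1) * dt (f 0) Δ + dt (f 1) (S.e 1) * dt (f 1) Δ)
    (dt (f 2) (S.e 1) * dt (f 2) Δ)
  have h6 := abs_add_le (dt (f 0) (S.e 1) * dt (f 0) Δ) (dt (f 1) (S.e 1) * dt (f 1) Δ)
  linarith

open Classical in
/-- **(B3)** -/
theorem tubeL : TubeL := by
  intro η qm qp hE
  have q0 : 0 ≤ qp 0 := (hE.le 0).1.trans (hE.le 0).2
  have q1 : 0 ≤ qp 1 := (hE.le 1).1.trans (hE.le 1).2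
  have q2 : 0 ≤ qp 2 := (hE.le 2).1.trans (hE.le 2).2
  refine ⟨49 + qp 0 + 6 * qp 1 + qp 2, by positivity, ?_⟩
  intro L P cu cv Uf Vf W M a w1 w2 z0 ρ r h rρ t ht m δ Y f m1 hf hY hδ hδm
  have W1 := h.W1
  have W0 : 0 < W := by linarith
  have m0 : 0 < m := by linarith
  have w10 := h.w10
  have w20 := h.w20
  obtain ⟨da, d1, d2⟩ := h.dimU t ht
  have hS : ShN (Uf (cu t)).e (Uf (cu t)).c (Uf (cu t)).w (Uf (cu t)).q (Uf (cu t)).a z0 ρ r :=
    h.shU t ht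
  have Sa : 0 < (Uf (cu t)).a := h.r0.trans_le hS.r0_le
  have Sw2 : 0 < (Uf (cu t)).w 2 := Sa.trans_le (hS.a_le0.trans hS.w0_le)
  have Sw1 : 0 < (Uf (cu t)).w 1 := Sw2.trans_le hS.w_le
  have hY0 : 0 ≤ Y := by
    have h1 := hf.box (L t) (L t) (h.inU t ht) (h.inU t ht) z0 le_rfl (by linarith [h.ρ0]) 0
    have h2 : 0 ≤ m * Y := (abs_nonneg _).trans h1
    by_contra hn
    have : m * Y < 0 := mul_neg_of_pos_of_neg m0 (not_le.1 hn)
    linarith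
  -- the number N
  obtain ⟨N, hN⟩ : ∃ N, N = 2 * W * m := ⟨_, rfl⟩
  have N2 : 2 ≤ N := by
    rw [hN]
    have := one_le_mul_of_one_le_of_one_le W1 m1
    linarith
  have N1 : 1 ≤ N := by linarith
  have N0 : 0 < N := by linarith
  have WN : 2 * W ≤ N := by
    rw [hN]; nlinarith
  have mN : 2 * m ≤ N := by
    rw [hN]; nlinarith
  -- δ' = min δ 1
  have δ0 : 0 < δ := by
    have h1 : 0 < m * (δ * w1) := w20.trans_le hδ
    exact (mul_pos_iff_of_pos_right w10).1 ((mul_pos_iff_of_pos_left m0).1 h1)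
  obtain ⟨δ', e0, e1, eδ, emδ⟩ : ∃ δ' : ℝ, 0 < δ' ∧ δ' ≤ 1 ∧ δ' ≤ δ ∧ δ ≤ m * δ' := by
    refine ⟨min δ 1, lt_min δ0 one_pos, min_le_right _ _, min_le_left _ _, ?_⟩
    rcases min_choice δ 1 with h1 | h1 <;> rw [h1]
    · exact le_mul_of_one_le_left δ0.le m1
    · linarith
  have hδw : w2 ≤ N ^ 5 * (δ' * w1) := by
    calc w2 ≤ m * (δ * w1) := hδ
      _ ≤ m * (m * δ' * w1) := by gcongr
      _ = m ^ 2 * (δ' * w1) := by ring
      _ ≤ N ^ 5 * (δ' * w1) := by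
        apply mul_le_mul_of_nonneg_right _ (by positivity)
        calc m ^ 2 ≤ N ^ 2 := by gcongr; linarith
          _ ≤ N ^ 5 := pow_le_pow_right₀ N1 (by norm_num)
  have key : (1 + m ^ 3 * (m + W)) * m ≤ N ^ 5 := by
    have k1 : m ≤ N / 2 := by linarith
    have k2 : W ≤ N / 2 := by linarith
    have k3 : (1:ℝ) ≤ (N / 2) ^ 4 := one_le_pow₀ (by linarith)
    calc (1 + m ^ 3 * (m + W)) * m ≤ ((N / 2) ^ 4 + (N / 2) ^ 3 * (N / 2 + N / 2)) * (N / 2) := by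
          gcongr
      _ = 3 / 32 * N ^ 5 := by ring
      _ ≤ N ^ 5 := by
        have : 0 < N ^ 5 := by positivity
        linarith
  have h0 := tube_gen (qm := qm) (qp := qp) (L := L) (P := P) (W := W) (M := M) (a := a)
    (w1 := w1) (w2 := w2) (z0 := z0) (ρ := ρ) (r := r) hE.le W1 h.M0 h.ρ0 h.r0 rρ h.a0 w10 w20
    h.w1ρ h.dmax (S := Uf (cu t)) hS (h.dimU t ht) (K := N ^ 5) (δ := δ') (one_le_pow₀ N1) e1 hδw
    (P.filter fun s => cu s = cu t ∧ ∀ z, z0 ≤ z → z ≤ z0 + ρ →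
        |dt (f 1) ((L s).pos z - (L t).pos z)| ≤ δ * w1) (filter_subset _ _) (L t)
    (by
      intro s hs
      rw [mem_filter] at hs
      have := h.inU s hs.1
      rw [hs.2.1] at this
      exact this)
    (by
      intro s hs z hz hz'
      rw [mem_filter] at hs
      have h1 := h.inU s hs.1
      rw [hs.2.1] at h1
      have h2 := wide_le m1 hf Sw1 hS.w_le Sw2 hS.ortho h1 (h.inU t ht) hz hz'
      have h3 := hs.2.2 z hz hz'
      rw [abs_of_nonneg hY0] at h2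
      have h4 : (Uf (cu t)).w 2 ≤ W * w2 := d2.2
      calc |dt ((Uf (cu t)).e 1) ((L s).pos z - (L t).pos z)|
          ≤ δ * w1 + m * (m * Y) + m * (m * (Uf (cu t)).w 2) := by linarith
        _ ≤ δ * w1 + m * (m * (m * w2)) + m * (m * (W * w2)) := by gcongr
        _ = δ * w1 + m ^ 2 * (m + W) * w2 := by ring
        _ ≤ δ * w1 + m ^ 2 * (m + W) * (m * (δ * w1)) := by gcongr
        _ = (1 + m ^ 3 * (m + W)) * (δ * w1) := by ring
        _ ≤ (1 + m ^ 3 * (m + W)) * (m * δ' * w1) := by gcongr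
        _ = ((1 + m ^ 3 * (m + W)) * m) * (δ' * w1) := by ring
        _ ≤ N ^ 5 * (δ' * w1) := mul_le_mul_of_nonneg_right key (by positivity))
  refine h0.trans ?_
  rw [← hN]
  have hM := h.M0
  have WN' : W ≤ N := by linarith
  have r1 : W ^ (1 + qp 0) ≤ N ^ (1 + qp 0) := Real.rpow_le_rpow W0.le WN' (by linarith)
  have r2 : W ^ (1 + qp 2) ≤ N ^ (1 + qp 2) := Real.rpow_le_rpow W0.le WN' (by linarith)
  have r3 : (W * N ^ 5) ^ (1 + qp 1) ≤ N ^ (6 * (1 + qp 1)) := by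
    calc (W * N ^ 5) ^ (1 + qp 1) ≤ (N ^ (6:ℕ)) ^ (1 + qp 1) := by
          apply Real.rpow_le_rpow (by positivity) _ (by linarith)
          calc W * N ^ 5 ≤ N * N ^ 5 := by gcongr
            _ = N ^ 6 := by ring
      _ = N ^ (6 * (1 + qp 1)) := by
          rw [← Real.rpow_natCast, ← Real.rpow_mul N0.le]
          norm_num
  have r4 : (46656 : ℝ) ≤ N ^ (16:ℕ) := by
    calc (46656 : ℝ) ≤ 2 ^ (16:ℕ) := by norm_num
      _ ≤ N ^ (16:ℕ) := by gcongr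
  have r5 : δ' ^ (1 + qm 1) ≤ δ ^ (1 + qm 1) :=
    Real.rpow_le_rpow e0.le eδ (by linarith [(hE.le 1).1])
  have total : N ^ (49 + qp 0 + 6 * qp 1 + qp 2) =
      N ^ (16:ℕ) * (N ^ (5:ℕ)) ^ 2 * N ^ (14:ℕ) * (N * (N ^ (1 + qp 0) * N ^ (6 * (1 + qp 1)) *
        N ^ (1 + qp 2))) := by
    have e1 : N ^ (16:ℕ) * (N ^ (5:ℕ)) ^ 2 * N ^ (14:ℕ) * (N * (N ^ (1 + qp 0) *
        N ^ (6 * (1 + qp 1)) * N ^ (1 + qp 2))) =
        N ^ (41:ℕ) * (N ^ (1 + qp 0) * N ^ (6 * (1 + qp 1)) * N ^ (1 + qp 2)) := by ring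
    rw [e1, ← Real.rpow_natCast, ← Real.rpow_add N0, ← Real.rpow_add N0, ← Real.rpow_add N0]
    congr 1
    push_cast
    ring
  rw [total]
  calc 46656 * (N ^ 5) ^ 2 * W ^ 14 * (W * M * (W ^ (1 + qp 0) *
        ((W * N ^ 5) ^ (1 + qp 1) * δ' ^ (1 + qm 1)) * W ^ (1 + qp 2)))
      ≤ N ^ (16:ℕ) * (N ^ 5) ^ 2 * N ^ 14 * (N * M * (N ^ (1 + qp 0) *
        (N ^ (6 * (1 + qp 1)) * δ ^ (1 + qm 1)) * N ^ (1 + qp 2))) := by gcongr
    _ = _ := by ring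

end Crest.Agent.R136.Tb3795
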