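import Crest.Agent.R136.Tb4_628
import Crest.Agent.R136.Ev7_356

/-!
# R136 (helper628), part 5: rows of the thick table on the two standard planes

* `row_nat` / `row_nat0` : natural plane `s0 w0 (R-1)`, `sA κ κ3`, `sB θ κ κ3`; `row_F` / `row_F0` :
  the plane with slack `F_b`, `fA κ κ3 kf`, `fB θ κ κ3 kf`.  `..0` = only `Thick` and the parameters.
* `sB_two`, `sB_three`, `sB_four` : which slots touch the own path.
* `cone_nat`, `cone_F` : the cone; `mem_act` : the active monomials of weight `2`.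
* `Cx.recA_ab` : sweep of `C_a` with constant `q 2` without room for the widths.
-/

set_option autoImplicit false
set_option linter.unusedVariables false
set_option linter.unusedSectionVars false

open Finset Filter Topology

namespace Crest.Agent.R136.Tb628

open Crest.Agent.R136.Net191
open Crest.Agent.R136.NetQ186
open Crest.Agent.R136.NatT550
open Crest.Agent.R136.NatR550
open Crest.Agent.R136.Lq196
open Crest.Agent.R136.Wq638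
open Crest.Agent.R136.Gf356
open Crest.Agent.R136.Qg926
open Crest.Agent.R136.Dg219
open Crest.Agent.R136.Dg262 (X)
open Crest.Agent.R136.Aw413
open Crest.Agent.R136.Rc146 (OutA leg_outA)
open Crest.Agent.R138.Ex926 (Base U QProf IsTan)
open Crest.Agent.R136.Top484 (Par4 Dat4)
open Crest.Agent.R136.GeoQ186 (W0)

variable {η : ℝ} {p : Par4} {D : Dat4} {I1 : ℕ → Finset (ℕ × ℝ)} {π : Equiv.Perm (Fin 3)}
  {eE gA gB : ℕ → ℕ × ℝ → ℝ} {V T : Fin 11 → Prop} {PD : Set (Fin 11 → ℝ)}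
  {w0 R T0 cab cby cr cc c₀ κ κ3 : ℝ} {ν own : (Fin 11 → ℝ) → ℝ} {x0 a b : Fin 11 → ℝ}
  {θ : Fin 3 → ℝ}

/-! ### slopes -/

theorem sB_two (h1 : θ 1 ≠ 0) (κ κ3 : ℝ) : sB θ κ κ3 2 = (κ - (θ 1 - θ 2)) / θ 1 := by
  simp only [sB, nL, Matrix.cons_val, Fin.isValue]
  field_simp
  ring

theorem sB_three (h1 : θ 1 ≠ 0) (κ κ3 : ℝ) :
    sB θ κ κ3 3 = (κ3 - κ - (θ 2 - θ 0)) / θ 1 := by
  simp only [sB, nL, Matrix.cons_val, Fin.isValue]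
  field_simp
  ring

theorem sB_four (h1 : θ 1 ≠ 0) (κ κ3 : ℝ) : sB θ κ κ3 4 = (κ3 - (θ 1 - θ 0)) / θ 1 := by
  simp only [sB, nL, Matrix.cons_val, Fin.isValue]
  field_simp
  ring

theorem sB_two0 (h1 : θ 1 ≠ 0) {κ κ3 : ℝ} : sB θ κ κ3 2 = 0 ↔ κ = θ 1 - θ 2 := by
  rw [sB_two h1, div_eq_zero_iff, or_iff_left h1, sub_eq_zero]

theorem sB_three0 (h1 : θ 1 ≠ 0) {κ κ3 : ℝ} : sB θ κ κ3 3 = 0 ↔ κ3 - κ = θ 2 - θ 0 := by
  rw [sB_three h1, div_eq_zero_iff, or_iff_left h1, sub_eq_zero]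

theorem sB_four0 (h1 : θ 1 ≠ 0) {κ κ3 : ℝ} : sB θ κ κ3 4 = 0 ↔ κ3 = θ 1 - θ 0 := by
  rw [sB_four h1, div_eq_zero_iff, or_iff_left h1, sub_eq_zero]

theorem fB_of_ne {κ κ3 kf : ℝ} {k : Fin 11} (hk : k ≠ 3) : fB θ κ κ3 kf k = sB θ κ κ3 k := by
  rw [fB, Function.update_of_ne hk]

theorem fB_three {κ κ3 kf : ℝ} : fB θ κ κ3 kf 3 = (kf - (θ 2 - θ 0)) / θ 1 := by
  rw [fB, Function.update_self]

/-! ### cones and active walls -/

theorem cone_nat (h : BigQ θ w0 R T0) (h1 : 0 < θ 1) (hk : 0 ≤ κ) (hk3 : κ ≤ κ3) {S : ℝ}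
    (hS : Small θ cab cby κ κ3 S) :
    coneM (actM monQ (s0 w0 (R - 1)) (sA κ κ3) (sB θ κ κ3)) = coneN := by
  ext c
  rw [coneM_actM]
  exact srf_L h h1 hk hk3 (hS.near hk hk3 (ξ := 1 / 2) (x := S) (by norm_num) (by norm_num)
    hS.pos.le le_rfl)

theorem cone_F (h : BigQ θ w0 R T0) (h1 : 0 < θ 1) (hk : 0 ≤ κ) (hk3 : κ ≤ κ3) {kf : ℝ}
    (hf : 0 ≤ kf) (hf' : kf < κ3 - κ) {S : ℝ} (hS : Small θ cab cby κ κ3 S) :
    coneM (actM monQ (s0 w0 (R - 1)) (fA κ κ3 kf) (fB θ κ κ3 kf)) = coneF := by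
  ext c
  rw [coneM_actM]
  exact F_L h h1 hk hk3 hf hf' (hS.near hk hk3 (ξ := 1 / 2) (x := S) (by norm_num) (by norm_num)
    hS.pos.le le_rfl) hS.pos

theorem sum_mv (i j : Fin 11) (c : Fin 11 → ℝ) :
    ∑ s, ((Ev356.mv i j s : ℕ) : ℝ) * c s = c i + c j := by
  have e1 : ∀ s, ((Ev356.mv i j s : ℕ) : ℝ) * c s =
      (if s = i then c s else 0) + (if s = j then c s else 0) := by
    intro s
    unfold Ev356.mv
    push_cast
    split_ifs <;> ring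
  simp only [e1, sum_add_distrib, sum_ite_eq', mem_univ, if_true]

/-- active walls of weight `2` -/
theorem mem_act {k i j : Fin 11} : Ev356.mv i j ∈ (actM monQ x0 a b).mon k ↔
    Ev356.mv i j ∈ monQ.mon k ∧ Tg x0 a b k i j := by
  rw [mem_actM, sum_mv, sum_mv, sum_mv]
  rfl

/-! ### rows on the natural plane -/

theorem hV_nat (sl : SlotOk θ V T) (h1 : 0 < θ 1) (h2 : V 2 → θ 1 - θ 2 ≤ κ)
    (h3 : V 3 → θ 2 - θ 0 ≤ κ3 - κ) (h4 : V 4 → θ 1 - θ 0 ≤ κ3) :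
    ∀ k, V k → 0 ≤ sB θ κ κ3 k := by
  intro k hk
  rcases (sl.vis k hk).1 with rfl | rfl | rfl
  · rw [sB_two h1.ne']; exact div_nonneg (sub_nonneg.2 (h2 hk)) h1.le
  · rw [sB_three h1.ne']; exact div_nonneg (sub_nonneg.2 (h3 hk)) h1.le
  · rw [sB_four h1.ne']; exact div_nonneg (sub_nonneg.2 (h4 hk)) h1.le

theorem sA_zero : sA κ κ3 0 = 1 := by simp [sA, nL]
theorem sB_zero : sB θ κ κ3 0 = 0 := by simp [sB, nL]

/-- **one row of the thick table, natural plane** -/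
theorem row_nat (h : Thick η p D I1 π eE gA gB V T w0 R T0 PD ν own c₀)
    (C : Cx p.θ p.q p.g w0 R T0 cab cby cr ν c₀) (hk : 0 ≤ κ) (hk3 : κ ≤ κ3) {S : ℝ}
    (hS : Small p.θ cab cby κ κ3 S) (hsl : p.q 2 * κ + p.q 0 * κ3 < p.g)
    (h2 : V 2 → p.θ 1 - p.θ 2 ≤ κ) (h3 : V 3 → p.θ 2 - p.θ 0 ≤ κ3 - κ)
    (h4 : V 4 → p.θ 1 - p.θ 0 ≤ κ3)
    (F : ∀ (ξ x : ℝ) (h : ℕ → ℝ) (lam : (Fin 11 → ℝ) → ℝ) (A : ℝ × ℝ)
      (φ : ℕ → (Fin 11 → ℝ) → ℝ) (r : ℕ → ℝ), x < S →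
      RowPt D.B D.I I1 (couQ D.B D.lev D.w w0 (incQ π D.L eE gA gB)) p.θ w0 R ν V T
        (s0 w0 (R - 1)) (sA κ κ3) (sB p.θ κ κ3) ξ x h lam A φ r →
      Hom (s0 w0 (R - 1)) (sA κ κ3) (sB p.θ κ κ3) φ → A.1 ≤ -(4 + κ + κ3)) : False :=
  thick_row h C (plOk_srf C.th1.ne' hk hk3) sA_zero sB_zero hk hk3 hS
    (fun z hz => Om_O C.big C.th1 hk hk3 hS hz)
    (fun ξ hξ x h0 h1 => by
      rw [← srf_eq]
      exact srf_leg C.big C.th1 hk hk3 (hS.near hk hk3 hξ.1.le hξ.2.le h0 h1))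
    (fun ξ _ => by rw [← srf_eq]) hsl (hV_nat h.tp.slots C.th1 h2 h3 h4) F

/-- **one row of the thick table, plane with slack `F_b`** -/
theorem row_F (h : Thick η p D I1 π eE gA gB V T w0 R T0 PD ν own c₀)
    (C : Cx p.θ p.q p.g w0 R T0 cab cby cr ν c₀) (hk : 0 ≤ κ) (hk3 : κ ≤ κ3) {kf : ℝ}
    (hf : 0 ≤ kf) (hf' : kf < κ3 - κ) {S : ℝ}
    (hS : Small p.θ cab cby κ κ3 S) (hsl : p.q 2 * κ + p.q 0 * κ3 < p.g)
    (h2 : V 2 → p.θ 1 - p.θ 2 ≤ κ) (h3 : V 3 → p.θ 2 - p.θ 0 ≤ kf)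
    (h4 : V 4 → p.θ 1 - p.θ 0 ≤ κ3)
    (F : ∀ (ξ x : ℝ) (h : ℕ → ℝ) (lam : (Fin 11 → ℝ) → ℝ) (A : ℝ × ℝ)
      (φ : ℕ → (Fin 11 → ℝ) → ℝ) (r : ℕ → ℝ), x < S →
      RowPt D.B D.I I1 (couQ D.B D.lev D.w w0 (incQ π D.L eE gA gB)) p.θ w0 R ν V T
        (s0 w0 (R - 1)) (Tb628.fA κ κ3 kf) (Tb628.fB p.θ κ κ3 kf) ξ x h lam A φ r →
      Hom (s0 w0 (R - 1)) (Tb628.fA κ κ3 kf) (Tb628.fB p.θ κ κ3 kf) φ →
      A.1 ≤ -(4 + κ + κ3)) : False :=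
  thick_row h C (plOk_F C.th1.ne' hk hk3 hf)
    (by rw [Tb628.fA, Function.update_of_ne (by decide)]; exact sA_zero)
    (by rw [fB_of_ne (by decide)]; exact sB_zero) hk hk3 hS
    (fun z hz => F_O C.big C.th1 hk hk3 hf hf' hS hz)
    (fun ξ hξ x h0 h1 => F_leg C.big C.th1 hk hk3 hf hf' (hS.near hk hk3 hξ.1.le hξ.2.le h0 h1))
    (fun ξ _ => srf_le_F C.th1.ne' hS.pos.le hf'.le) hsl (by
      intro k hk'
      by_cases h3' : k = 3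
      · subst h3'
        rw [fB_three]; exact div_nonneg (sub_nonneg.2 (h3 hk')) C.th1.le
      · rw [fB_of_ne h3']
        rcases (h.tp.slots.vis k hk').1 with rfl | rfl | rfl
        · rw [sB_two C.th1.ne']; exact div_nonneg (sub_nonneg.2 (h2 hk')) C.th1.le
        · exact absurd rfl h3'
        · rw [sB_four C.th1.ne']; exact div_nonneg (sub_nonneg.2 (h4 hk')) C.th1.le) F

/-! ### room -/

/-- **the facts and a good `S` from `Thick` alone**: room for the widths if `κ ≠ 0`, room for the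
thickness if `κ3 ≠ κ` -/
theorem exists_cx (h : Thick η p D I1 π eE gA gB V T w0 R T0 PD ν own c₀) (hη : 0 < η)
    (hk : 0 ≤ κ) (hk3 : κ ≤ κ3) (h12 : κ = 0 ∨ p.θ 1 ≠ p.θ 2)
    (h23 : κ3 = κ ∨ p.θ 2 ≠ p.θ 0 ∨ Gap23 D) :
    ∃ (cab cby cr S : ℝ), Cx p.θ p.q p.g w0 R T0 cab cby cr ν c₀ ∧ Small p.θ cab cby κ κ3 S ∧
      (p.θ 1 ≠ p.θ 2 → RecS p.θ w0 R ν (eCa 1) (p.q 1)) ∧
      (p.θ 2 ≠ p.θ 0 ∨ Gap23 D → RecS p.θ w0 R ν (eECb 1) (p.q 2)) := by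
  by_cases hg : Gap23 D
  · obtain ⟨γ, hγ, C⟩ := Cx.of_gap h hη hg
    have r23 : ∀ v : ℝ, 0 < v → v < 1 → 0 < rm23 p.θ (max (max 0 (p.θ 0 - p.θ 2)) γ) v := by
      intro v h0 h1
      have e1 : γ ≤ max (max 0 (p.θ 0 - p.θ 2)) γ := le_max_right _ _
      have e2 : p.θ 0 - p.θ 2 ≤ max (max 0 (p.θ 0 - p.θ 2)) γ :=
        (le_max_right _ _).trans (le_max_left _ _)
      unfold rm23
      rcases le_total (p.θ 0 - p.θ 2) 0 with hc | hc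
      · have := mul_nonneg (show 0 ≤ p.θ 2 - p.θ 0 by linarith) h0.le
        linarith
      · rcases hc.eq_or_lt with hc | hc
        · have : p.θ 2 - p.θ 0 = 0 := by linarith
          rw [this, zero_mul, zero_add]; linarith
        · nlinarith
    obtain ⟨S, hS⟩ := exists_small (κ := κ) (κ3 := κ3) C hk hk3
      (h12.imp id fun hc => ⟨C.rm12_pos hc (by norm_num) (by norm_num),
        C.rm12_pos hc (by norm_num) (by norm_num)⟩)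
      (Or.inr ⟨r23 _ (by norm_num) (by norm_num), r23 _ (by norm_num) (by norm_num)⟩)
    exact ⟨_, _, _, S, C, hS, fun hc => C.recA (C.rm12_pos hc (by norm_num) (by norm_num))
      (C.rm12_pos hc (by norm_num) (by norm_num)), fun _ => C.recB (r23 _ (by norm_num)
      (by norm_num)) (r23 _ (by norm_num) (by norm_num))⟩
  · have C := Cx.of_thick0 h hη
    obtain ⟨S, hS⟩ := exists_small (κ := κ) (κ3 := κ3) C hk hk3
      (h12.imp id fun hc => ⟨C.rm12_pos hc (by norm_num) (by norm_num),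
        C.rm12_pos hc (by norm_num) (by norm_num)⟩)
      (h23.imp id fun hc => by
        rcases hc with hc | hc
        · exact ⟨C.rm23_pos hc (by norm_num) (by norm_num),
            C.rm23_pos hc (by norm_num) (by norm_num)⟩
        · exact absurd hc hg)
    exact ⟨_, _, _, S, C, hS, fun hc => C.recA (C.rm12_pos hc (by norm_num) (by norm_num))
      (C.rm12_pos hc (by norm_num) (by norm_num)), fun hc => by
      rcases hc with hc | hc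
      · exact C.recB (C.rm23_pos hc (by norm_num) (by norm_num))
          (C.rm23_pos hc (by norm_num) (by norm_num))
      · exact absurd hc hg⟩

/-- **natural plane, from `Thick` alone**; `F` gets the sweeps `C_a` (if `θ 1 ≠ θ 2`) and `(E, C_b)`
(if `θ 2 ≠ θ 0` or gap) -/
theorem row_nat0 (h : Thick η p D I1 π eE gA gB V T w0 R T0 PD ν own c₀) (hη : 0 < η)
    (hk : 0 ≤ κ) (hk3 : κ ≤ κ3) (h12 : κ = 0 ∨ p.θ 1 ≠ p.θ 2)
    (h23 : κ3 = κ ∨ p.θ 2 ≠ p.θ 0 ∨ Gap23 D) (hsl : p.q 2 * κ + p.q 0 * κ3 < p.g)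
    (h2 : V 2 → p.θ 1 - p.θ 2 ≤ κ) (h3 : V 3 → p.θ 2 - p.θ 0 ≤ κ3 - κ)
    (h4 : V 4 → p.θ 1 - p.θ 0 ≤ κ3)
    (F : (p.θ 1 ≠ p.θ 2 → RecS p.θ w0 R ν (eCa 1) (p.q 1)) →
      (p.θ 2 ≠ p.θ 0 ∨ Gap23 D → RecS p.θ w0 R ν (eECb 1) (p.q 2)) →
      coneM (actM monQ (s0 w0 (R - 1)) (sA κ κ3) (sB p.θ κ κ3)) = coneN →
      ∀ (ξ x : ℝ) (h : ℕ → ℝ) (lam : (Fin 11 → ℝ) → ℝ) (A : ℝ × ℝ)
      (φ : ℕ → (Fin 11 → ℝ) → ℝ) (r : ℕ → ℝ),
      RowPt D.B D.I I1 (couQ D.B D.lev D.w w0 (incQ π D.L eE gA gB)) p.θ w0 R ν V T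
        (s0 w0 (R - 1)) (sA κ κ3) (sB p.θ κ κ3) ξ x h lam A φ r →
      Hom (s0 w0 (R - 1)) (sA κ κ3) (sB p.θ κ κ3) φ → A.1 ≤ -(4 + κ + κ3)) : False := by
  obtain ⟨cab, cby, cr, S, C, hS, g1, g2⟩ := exists_cx h hη hk hk3 h12 h23
  exact row_nat h C hk hk3 hS hsl h2 h3 h4 fun ξ x h' lam A φ r _ =>
    F g1 g2 (cone_nat C.big C.th1 hk hk3 hS) ξ x h' lam A φ r

/-- **plane with slack `F_b`, from `Thick` alone** -/
theorem row_F0 (h : Thick η p D I1 π eE gA gB V T w0 R T0 PD ν own c₀) (hη : 0 < η)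
    (hk : 0 ≤ κ) (hk3 : κ ≤ κ3) {kf : ℝ} (hf : 0 ≤ kf) (hf' : kf < κ3 - κ)
    (h12 : κ = 0 ∨ p.θ 1 ≠ p.θ 2)
    (h23 : p.θ 2 ≠ p.θ 0 ∨ Gap23 D) (hsl : p.q 2 * κ + p.q 0 * κ3 < p.g)
    (h2 : V 2 → p.θ 1 - p.θ 2 ≤ κ) (h3 : V 3 → p.θ 2 - p.θ 0 ≤ kf)
    (h4 : V 4 → p.θ 1 - p.θ 0 ≤ κ3)
    (F : (p.θ 1 ≠ p.θ 2 → RecS p.θ w0 R ν (eCa 1) (p.q 1)) →
      RecS p.θ w0 R ν (eECb 1) (p.q 2) →
      coneM (actM monQ (s0 w0 (R - 1)) (Tb628.fA κ κ3 kf) (Tb628.fB p.θ κ κ3 kf)) = coneF →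
      ∀ (ξ x : ℝ) (h : ℕ → ℝ) (lam : (Fin 11 → ℝ) → ℝ) (A : ℝ × ℝ)
      (φ : ℕ → (Fin 11 → ℝ) → ℝ) (r : ℕ → ℝ),
      RowPt D.B D.I I1 (couQ D.B D.lev D.w w0 (incQ π D.L eE gA gB)) p.θ w0 R ν V T
        (s0 w0 (R - 1)) (Tb628.fA κ κ3 kf) (Tb628.fB p.θ κ κ3 kf) ξ x h lam A φ r →
      Hom (s0 w0 (R - 1)) (Tb628.fA κ κ3 kf) (Tb628.fB p.θ κ κ3 kf) φ →
      A.1 ≤ -(4 + κ + κ3)) : False := by
  obtain ⟨cab, cby, cr, S, C, hS, g1, g2⟩ := exists_cx h hη hk hk3 h12 (Or.inr h23)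
  exact row_F h C hk hk3 hf hf' hS hsl h2 h3 h4 fun ξ x h' lam A φ r _ =>
    F g1 (g2 h23) (cone_F C.big C.th1 hk hk3 hf hf' hS) ξ x h' lam A φ r

/-! ### sweep of `C_a` without room for the widths -/

/-- **sweep of `C_a`** with constant `q 2`: only room between the wide width and the thickness -/
theorem recA_ab (h : Thick η p D I1 π eE gA gB V T w0 R T0 PD ν own c₀) (hη : 0 < η)
    (h12 : p.q 2 ≤ p.q 1)
    (hr : ∃ cab cby cr cc, W0 D.B D.r0 D.lev D.w cab cby cr cc ∧ p.θ 2 - p.θ 1 ≤ cab ∧ 0 ≤ cab ∧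
      p.θ 0 - p.θ 2 ≤ cby ∧ 0 ≤ cby ∧ 1 - p.θ 0 ≤ cr ∧ 0 ≤ cr ∧ p.θ 1 ≤ cc ∧
      0 < (p.θ 1 - p.θ 0) * (1 / 4) + cab + cby ∧ 0 < (p.θ 1 - p.θ 0) * (3 / 4) + cab + cby) :
    RecS p.θ w0 R ν (eCa 1) (p.q 2) := by
  obtain ⟨cab, cby, cr, cc, hW, a1, a2, a3, a4, a5, a6, a7, a8, a9⟩ := hr
  have C := Cx.of_thick0 h hη
  have hth := C.th1
  set y0 : ℝ := min 1 (min ((p.θ 1 - p.θ 0) * (1 / 4) + cab + cby)
    ((p.θ 1 - p.θ 0) * (3 / 4) + cab + cby)) with hy0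
  have hy0p : 0 < y0 := lt_min one_pos (lt_min a8 a9)
  refine C.recA_of ⟨y0, hy0p, fun v hv1 hv2 y hy hyy => ?_⟩
  have hv0 : (0:ℝ) ≤ v := by linarith
  have hv' : v ≤ 1 := by linarith
  have hy1 : y ≤ 1 := hyy.trans (min_le_left _ _)
  have hyr : y ≤ (p.θ 1 - p.θ 0) * v + cab + cby := by
    have e1 := hyy.trans ((min_le_right _ _).trans (min_le_left _ _))
    have e2 := hyy.trans ((min_le_right _ _).trans (min_le_right _ _))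
    rcases le_total 0 (p.θ 1 - p.θ 0) with hc | hc
    · nlinarith
    · nlinarith
  have hL : pathQ p.θ w0 R v + eCXa y ∈ Leg monQ R :=
    leg_aux C.big hv0 hv' le_rfl hy le_rfl hy le_rfl zero_le_one hy1 zero_le_one hy1
      zero_le_one (by linarith) le_rfl le_rfl (by linarith)
  have m1 : ∀ {u c : ℝ}, u ≤ c → 0 ≤ c → u * v ≤ c := fun {u c} h1 h2 => by
    rcases le_total 0 u with hu | hu
    · nlinarith
    · nlinarith [mul_nonneg_of_nonpos_of_nonpos hu (neg_nonpos.2 hv0)]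
  have b1 := m1 a1 a2
  have b3 := m1 a3 a4
  have b5 := m1 a5 a6
  have h5 := Crest.Agent.R136.NatD550.dmax_ab h (q_nonneg h.tp.ok hη) h12 hW hL
    (by simp only [pathQ, eCXa, Pi.add_apply, Matrix.cons_val, Fin.isValue]; linarith)
    (by simp only [pathQ, eCXa, Pi.add_apply, Matrix.cons_val, Fin.isValue]; linarith)
    (by simp only [pathQ, eCXa, Pi.add_apply, Matrix.cons_val, Fin.isValue]; nlinarith)
    (by simp only [pathQ, eCXa, Pi.add_apply, Matrix.cons_val, Fin.isValue]; nlinarith)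
    (by simp only [pathQ, eCXa, Pi.add_apply, Matrix.cons_val, Fin.isValue]; linarith)
    (by simp only [pathQ, eCXa, Pi.add_apply, Matrix.cons_val, Fin.isValue]; nlinarith)
    (by simp only [pathQ, eCXa, Pi.add_apply, Matrix.cons_val, Fin.isValue]; nlinarith)
  have e1 : DQ p.g 0 p.q w0 (pathQ p.θ w0 R v + eCXa y) =
      DQ p.g 0 p.q w0 (pathQ p.θ w0 R v) - (1 + p.q 1) * y := by
    simp only [DQ, pathQ, eCXa, Pi.add_apply, Matrix.cons_val, Fin.isValue]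
    ring
  have e2 : (p.q 1 - p.q 2) * max 0 ((pathQ p.θ w0 R v + eCXa y) 8 + w0 - cab -
      (pathQ p.θ w0 R v + eCXa y) 9) ≤ (p.q 1 - p.q 2) * y := by
    refine mul_le_mul_of_nonneg_left (max_le hy ?_) (by linarith)
    simp only [pathQ, eCXa, Pi.add_apply, Matrix.cons_val, Fin.isValue]
    linarith
  rw [e1] at h5
  linarith

/-- `θ 0 < θ 1` : no other condition -/
theorem recA_lt (h : Thick η p D I1 π eE gA gB V T w0 R T0 PD ν own c₀) (hη : 0 < η)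
    (h12 : p.q 2 ≤ p.q 1) (h01 : p.θ 0 < p.θ 1) : RecS p.θ w0 R ν (eCa 1) (p.q 2) := by
  have e1 : p.θ 2 - p.θ 1 ≤ max (p.θ 2 - p.θ 1) 0 := le_max_left _ _
  have e2 : 0 ≤ max (p.θ 2 - p.θ 1) 0 := le_max_right _ _
  have e3 : p.θ 0 - p.θ 2 ≤ max (p.θ 0 - p.θ 2) 0 := le_max_left _ _
  have e4 : 0 ≤ max (p.θ 0 - p.θ 2) 0 := le_max_right _ _
  refine recA_ab h hη h12 ⟨_, _, _, _, Crest.Agent.R136.NatD550.w0_base h, e1, e2, e3, e4,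
    le_max_left _ _, le_max_right _ _, le_rfl, ?_, ?_⟩
  · nlinarith
  · nlinarith

end Crest.Agent.R136.Tb628
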