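import Crest.Agent.R136.Tb5_628

/-!
# R136 (helper628), part 6: sweep of `C_a` for equal slopes of the widths, any order of the rewards

* `gD_ab21` : D-max of a box without order between the two in-plane sizes if `q 1 ≤ q 2`;
* `recA_min` : `θ 0 < θ 1` gives the sweep of `C_a` with constant `min (q 1) (q 2)`;
* `hsl_of` : the rewards are negligible against the growth, from `ParOk`.
-/

set_option autoImplicit false
set_option linter.unusedVariables false

open Finset Filter Topology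

namespace Crest.Agent.R136.Tb628

open Crest.Agent.R138.Ex926 (Base U)
open Crest.Agent.R138.Mk163 (zc zl rho alive)
open Crest.Agent.R138
open Crest.Agent.R136.MkA627
open Crest.Agent.R136.Net191
open Crest.Agent.R136.NetQ186
open Crest.Agent.R136.Sh605
open Crest.Agent.R136.Top484 (geo4 Par4 Dat4 Rng)
open Crest.Agent.R136.Wq638
open Crest.Agent.R136.GeoQ186
open Crest.Agent.R136.NatT550
open Crest.Agent.R136.NatR550

section

variable {B : Base} {I : ℕ → Finset (ℕ × ℝ)} {lev : ℕ → ℚ → ℕ}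
    {A : ℕ → ℝ} {g s : ℝ} {τ : Fin 3 → ℝ → ℝ} {f : ℕ → ℚ → ℕ → ℤ → ℕ} {b : ℕ → ℚ → ℕ → K4.Plk4}
    {vm : ℕ → ℚ → ℝ} {w : Fin 3 → ℕ → ℚ → ℝ} {L : ℕ → ℕ → Ln4} {r0 : ℕ → ℝ}
    {wr cR : Fin 3 → ℕ → ℝ} {q : Fin 3 → ℝ}
    {π : Equiv.Perm (Fin 3)} {E Fa Fb : ℕ → ℕ × ℝ → ℝ} {w0 R : ℝ} {p : Fin 11 → ℝ}

open Classical in
/-- **D-max of a chart box, no order between the two in-plane sizes**, `q 1 ≤ q 2`. -/
theorem gD_ab21
    (hM : MkA B I (geo4 L r0 wr cR q) lev A (fun v => g * v) (fun v => s * v) τ f b vm w)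
    (hwr : Rng B wr cR w) (hq : ∀ j, 0 ≤ q j) (h21 : q 1 ≤ q 2)
    (hE : ∀ n, ∀ x ∈ I n, |E n x| ≤ 1) (hFa : ∀ n, ∀ x ∈ I n, |Fa n x| ≤ 1)
    (hFb : ∀ n, ∀ x ∈ I n, |Fb n x| ≤ 1) {cab cby cr cc : ℝ}
    (h : W0 B r0 lev w cab cby cr cc)
    (w8 : p 8 ≤ p 0 + p 5) (w9 : p 9 ≤ p 0 + p 6) (w10 : p 10 ≤ p 0 + p 7)
    (hp0 : w0 ≤ p 0) (hp1 : p 0 ≤ w0 + 1)
    (h2 : p 9 + w0 ≤ p 10 + cby) (h1 : p 8 + 2 * w0 ≤ p 10 + cby + cab)
    (h3 : p 10 ≤ cr + 4 * w0) (h4 : p 0 + w0 < p 8 + cc) (h5 : p 0 + 2 * w0 < p 9 + cab + cc) :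
    ∀ K : ℝ, 1 ≤ K → ∀ ε : ℝ, 0 < ε → ∀ᶠ n in (U : Filter ℕ), ∀ x ∈ I n,
      (((I n).filter fun y => Near (couQ B lev w w0 (incQ π L E Fa Fb) n) (B.d n) p K x y).card
        : ℝ) ≤ N0Q A vm n * B.d n ^ (-(DQ g s q w0 p + ε)) := by
  intro K0 hK0 ε hε
  refine near_of_shear (K := K0) ?_ (by linarith) h.pos
  have hK : 0 < K0 := by linarith
  have dpp := fun n a => Dp76.dpow_pos B n a
  have hpos : ∀ k, ∀ᶠ n in (U : Filter ℕ), 0 < SQ B lev w w0 p k n := fun k => by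
    filter_upwards [h.pos 0, h.pos 1, h.pos 2] with n a b c
    exact SQ_pos a b c k
  -- the two cases
  rcases Ultrafilter.eventually_or.1 (Filter.Eventually.of_forall fun n =>
    le_total (SQ B lev w w0 p 2 n) (SQ B lev w w0 p 1 n)) with hc | hc
  · -- usual order
    have hT : TubeOk B r0 wr cR lev (p 0 - w0)
        (fun k => SQ B lev w w0 p ((1 : Equiv.Perm (Fin 3)) k)) := by
      refine ⟨fun k => hpos _, fun ε' hε' => ?_, fun ε' hε' => ?_, fun ε' hε' => ?_, ?_,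
        fun k C => rng_SQ hwr k C⟩
      · filter_upwards [SQ_le (w0 := w0) (p := p) h hε', hpos 2] with n a b
        exact a.2.1.trans (mul_le_mul_of_nonneg_right (Dp76.dpow_le B n (by linarith)) b.le)
      · filter_upwards [hc, hpos 1] with n a b
        refine le_trans a (le_mul_of_one_le_left b.le ?_)
        have := Dp76.dpow_le B n (show -ε' ≤ 0 by linarith)
        rwa [Real.rpow_zero] at this
      · filter_upwards [SQ_le (w0 := w0) (p := p) h hε', hpos 0] with n a b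
        exact a.2.2.1.trans (mul_le_mul_of_nonneg_right (Dp76.dpow_le B n (by linarith)) b.le)
      · refine ⟨(p 8 + cc - (p 0 + w0)) / 2, by linarith, ?_⟩
        filter_upwards [SQ_le (w0 := w0) (p := p) (ε := (p 8 + cc - (p 0 + w0)) / 2) h
          (by linarith)] with n a
        exact a.2.2.2.trans (mul_le_mul_of_nonneg_right (Dp76.dpow_le B n (by linarith))
          (rho_pos _).le)
    obtain ⟨δ, hδ, hn⟩ := gD_perm_shear (π := π) (E := E) (Fa := Fa) (Fb := Fb) hM hq hE hFa hFb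
      1 w8 w9 w10 hp0 hp1 hT hK hε
    refine ⟨δ, hδ, ?_⟩
    filter_upwards [hn, hpos 0, hpos 1, hpos 2, hM.vpos 0 le_rfl zero_le_one] with n hn a0 a1 a2 av
      x hx μ lam nu hμ hl hnu
    refine (hn x hx μ lam nu hμ hl hnu).trans ?_
    rw [rnk_one (fun k => by fin_cases k <;> assumption), mul_one]
  · -- reversed order
    have e0 : (Equiv.swap (1 : Fin 3) 2) 0 = 0 := by decide
    have e1 : (Equiv.swap (1 : Fin 3) 2) 1 = 2 := by decide
    have e2 : (Equiv.swap (1 : Fin 3) 2) 2 = 1 := by decide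
    have hT : TubeOk B r0 wr cR lev (p 0 - w0)
        (fun k => SQ B lev w w0 p ((Equiv.swap (1 : Fin 3) 2) k)) := by
      have hrn : ∀ (k : Fin 3) (C : ℝ), ∀ᶠ n in (U : Filter ℕ),
          wr k n ≤ B.d n ^ C * SQ B lev w w0 p (Equiv.swap (1 : Fin 3) 2 k) n ∧
          SQ B lev w w0 p (Equiv.swap (1 : Fin 3) 2 k) n ≤ B.d n ^ C * cR k n := by
        intro k C
        fin_cases k
        · show ∀ᶠ n in (U : Filter ℕ),
            wr 0 n ≤ B.d n ^ C * SQ B lev w w0 p (Equiv.swap (1 : Fin 3) 2 0) n ∧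
            SQ B lev w w0 p (Equiv.swap (1 : Fin 3) 2 0) n ≤ B.d n ^ C * cR 0 n
          rw [e0]
          exact rng_SQ hwr 0 C
        · show ∀ᶠ n in (U : Filter ℕ),
            wr 1 n ≤ B.d n ^ C * SQ B lev w w0 p (Equiv.swap (1 : Fin 3) 2 1) n ∧
            SQ B lev w w0 p (Equiv.swap (1 : Fin 3) 2 1) n ≤ B.d n ^ C * cR 1 n
          rw [e1]
          filter_upwards [rng_SQ (lev := lev) (w0 := w0) (p := p) hwr 1 C,
            rng_SQ21 (w0 := w0) (p := p) h hwr C, hc] with n h1 h2 h3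
          exact ⟨h1.1.trans (mul_le_mul_of_nonneg_left h3 (dpp n C).le), h2.2⟩
        · show ∀ᶠ n in (U : Filter ℕ),
            wr 2 n ≤ B.d n ^ C * SQ B lev w w0 p (Equiv.swap (1 : Fin 3) 2 2) n ∧
            SQ B lev w w0 p (Equiv.swap (1 : Fin 3) 2 2) n ≤ B.d n ^ C * cR 2 n
          rw [e2]
          filter_upwards [rng_SQ (lev := lev) (w0 := w0) (p := p) hwr 2 C,
            rng_SQ21 (w0 := w0) (p := p) h hwr C, hc] with n h1 h2 h3
          exact ⟨h2.1, h3.trans h1.2⟩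
      refine ⟨fun k => hpos _, fun ε' hε' => ?_, fun ε' hε' => ?_, fun ε' hε' => ?_, ?_, hrn⟩
      · filter_upwards [SQ_le (w0 := w0) (p := p) h (show 0 < ε' / 2 by linarith), hpos 1,
          hpos 2] with n a b c
        show SQ B lev w w0 p (Equiv.swap (1 : Fin 3) 2 0) n ≤
          B.d n ^ (-ε') * SQ B lev w w0 p (Equiv.swap (1 : Fin 3) 2 2) n
        rw [e0, e2]
        refine a.2.1.trans ?_
        calc _ ≤ B.d n ^ (cby + p 10 - w0 - p 9 - ε' / 2) *
              (B.d n ^ (cab + p 9 - w0 - p 8 - ε' / 2) * SQ B lev w w0 p 1 n) :=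
              mul_le_mul_of_nonneg_left a.1 (dpp n _).le
          _ = B.d n ^ ((cby + p 10 - w0 - p 9 - ε' / 2) + (cab + p 9 - w0 - p 8 - ε' / 2)) *
              SQ B lev w w0 p 1 n := by
              rw [Dp76.dpow_add B n (cby + p 10 - w0 - p 9 - ε' / 2)]; ring
          _ ≤ _ := mul_le_mul_of_nonneg_right (Dp76.dpow_le B n (by linarith)) b.le
      · filter_upwards [hc, hpos 2] with n a b
        show SQ B lev w w0 p (Equiv.swap (1 : Fin 3) 2 2) n ≤
          B.d n ^ (-ε') * SQ B lev w w0 p (Equiv.swap (1 : Fin 3) 2 1) n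
        rw [e1, e2]
        refine le_trans a (le_mul_of_one_le_left b.le ?_)
        have := Dp76.dpow_le B n (show -ε' ≤ 0 by linarith)
        rwa [Real.rpow_zero] at this
      · filter_upwards [SQ_le (w0 := w0) (p := p) h hε', hpos 0] with n a b
        show r0 n ≤ B.d n ^ (-ε') * SQ B lev w w0 p (Equiv.swap (1 : Fin 3) 2 0) n
        rw [e0]
        exact a.2.2.1.trans (mul_le_mul_of_nonneg_right (Dp76.dpow_le B n (by linarith)) b.le)
      · obtain ⟨η, hη⟩ : ∃ η : ℝ, η = (p 9 + cab + cc - (p 0 + 2 * w0)) / 3 := ⟨_, rfl⟩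
        have hη0 : 0 < η := by rw [hη]; linarith
        refine ⟨η, hη0, ?_⟩
        filter_upwards [SQ_le (w0 := w0) (p := p) h hη0] with n a
        show SQ B lev w w0 p (Equiv.swap (1 : Fin 3) 2 1) n ≤
          B.d n ^ (p 0 - w0 + η) * rho (lev n 0)
        rw [e1]
        refine a.1.trans ?_
        calc _ ≤ B.d n ^ (cab + p 9 - w0 - p 8 - η) *
              (B.d n ^ (cc + p 8 - 2 * w0 - η) * rho (lev n 0)) :=
              mul_le_mul_of_nonneg_left a.2.2.2 (dpp n _).le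
          _ = B.d n ^ ((cab + p 9 - w0 - p 8 - η) + (cc + p 8 - 2 * w0 - η)) *
              rho (lev n 0) := by
              rw [Dp76.dpow_add B n (cab + p 9 - w0 - p 8 - η)]; ring
          _ ≤ _ := mul_le_mul_of_nonneg_right (Dp76.dpow_le B n (by rw [hη]; linarith))
              (rho_pos _).le
    obtain ⟨δ, hδ, hn⟩ := gD_perm_shear (π := π) (E := E) (Fa := Fa) (Fb := Fb) hM hq hE hFa hFb
      (Equiv.swap 1 2) w8 w9 w10 hp0 hp1 hT hK hε
    refine ⟨δ, hδ, ?_⟩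
    filter_upwards [hn, hc, hpos 0, hpos 1, hpos 2, hM.vpos 0 le_rfl zero_le_one]
      with n hn hcn a0 a1 a2 av x hx μ lam nu hμ hl hnu
    refine (hn x hx μ lam nu hμ hl hnu).trans ?_
    rw [rnk_swap (fun k => by fin_cases k <;> assumption)]
    have hN : 0 ≤ N0Q A vm n := mul_nonneg (hM.Apos n).le av.le
    refine mul_le_of_le_one_right (mul_nonneg hN (dpp n _).le) ?_
    exact Real.rpow_le_one_of_one_le_of_nonpos ((one_le_div a1).2 hcn) (by linarith)

end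

section

variable {η : ℝ} {p : Par4} {D : Dat4} {I1 : ℕ → Finset (ℕ × ℝ)} {π : Equiv.Perm (Fin 3)}
  {eE gA gB : ℕ → ℕ × ℝ → ℝ} {V T : Fin 11 → Prop} {PD : Set (Fin 11 → ℝ)}
  {w0 R T0 cab cby cr cc c₀ κ κ3 : ℝ} {ν own : (Fin 11 → ℝ) → ℝ}

/-- **sweep of `C_a`**, room between the wide width and the thickness only, any order of the
rewards -/
theorem recA_ab' (h : Thick η p D I1 π eE gA gB V T w0 R T0 PD ν own c₀)
    (hr : ∃ cab cby cr cc, W0 D.B D.r0 D.lev D.w cab cby cr cc ∧ p.θ 2 - p.θ 1 ≤ cab ∧ 0 ≤ cab ∧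
      p.θ 0 - p.θ 2 ≤ cby ∧ 0 ≤ cby ∧ 1 - p.θ 0 ≤ cr ∧ 0 ≤ cr ∧ p.θ 1 ≤ cc ∧
      0 < (p.θ 1 - p.θ 0) * (1 / 4) + cab + cby ∧ 0 < (p.θ 1 - p.θ 0) * (3 / 4) + cab + cby) :
    RecS p.θ w0 R ν (eCa 1) (min (p.q 1) (p.q 2)) := by
  have hη := h.tp.ok.η_pos
  rcases le_total (p.q 2) (p.q 1) with h12 | h21
  · rw [min_eq_right h12]; exact recA_ab h hη h12 hr
  rw [min_eq_left h21]
  obtain ⟨cab, cby, cr, cc, hW, a1, a2, a3, a4, a5, a6, a7, a8, a9⟩ := hr
  have C := Cx.of_thick0 h hη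
  have hth := C.th1
  set y0 : ℝ := min 1 (min ((p.θ 1 - p.θ 0) * (1 / 4) + cab + cby)
    ((p.θ 1 - p.θ 0) * (3 / 4) + cab + cby)) with hy0
  have hy0p : 0 < y0 := lt_min one_pos (lt_min a8 a9)
  refine C.recA_of ⟨y0, hy0p, fun v hv1 hv2 y hy hyy => ?_⟩
  have hv0 : (0:ℝ) ≤ v := by linarith
  have hv' : v ≤ 1 := by linarith
  have hy1 : y ≤ 1 := hyy.trans (min_le_left _ _)
  have hyr : y ≤ (p.θ 1 - p.θ 0) * v + cab + cby := by
    have e1 := hyy.trans ((min_le_right _ _).trans (min_le_left _ _))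
    have e2 := hyy.trans ((min_le_right _ _).trans (min_le_right _ _))
    rcases le_total 0 (p.θ 1 - p.θ 0) with hc | hc
    · nlinarith
    · nlinarith
  have hL : pathQ p.θ w0 R v + eCXa y ∈ Leg monQ R :=
    leg_aux C.big hv0 hv' le_rfl hy le_rfl hy le_rfl zero_le_one hy1 zero_le_one hy1
      zero_le_one (by linarith) le_rfl le_rfl (by linarith)
  have m1 : ∀ {u c : ℝ}, u ≤ c → 0 ≤ c → u * v ≤ c := fun {u c} h1 h2 => by
    rcases le_total 0 u with hu | hu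
    · nlinarith
    · nlinarith [mul_nonneg_of_nonpos_of_nonpos hu (neg_nonpos.2 hv0)]
  have b1 := m1 a1 a2
  have b3 := m1 a3 a4
  have b5 := m1 a5 a6
  have x0 : (pathQ p.θ w0 R v + eCXa y) 0 = w0 + v := by simp [pathQ, eCXa]
  have x8 : (pathQ p.θ w0 R v + eCXa y) 8 = 2 * w0 + (1 - p.θ 1) * v + y := by simp [pathQ, eCXa]
  have x9 : (pathQ p.θ w0 R v + eCXa y) 9 = 3 * w0 + (1 - p.θ 2) * v := by simp [pathQ, eCXa]
  have x10 : (pathQ p.θ w0 R v + eCXa y) 10 = 4 * w0 + (1 - p.θ 0) * v := by simp [pathQ, eCXa]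
  have k1 : p.θ 1 * v < p.θ 1 := by nlinarith
  have k2 : p.θ 2 * v < cab + cc := by
    rcases le_total 0 (p.θ 2) with hc | hc
    · rcases hc.eq_or_lt with hc | hc
      · rw [← hc]; linarith
      · nlinarith
    · nlinarith
  obtain ⟨-, l1, l2, l3, l4, l5, l6, l7, l8, l9, l10, l11⟩ := legalQ_iff.1 hL.1
  have h5 := dmax_any h hL (gD_ab21 h.tp.pre.mka h.tp.wrs (q_nonneg h.tp.ok hη) h21
    (fun n y hy => (h.tp.flag n y hy).1)
    (fun n y hy => (h.tp.flag n y hy).2.1) (fun n y hy => (h.tp.flag n y hy).2.2) hW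
    (by assumption) (by assumption) (by assumption)
    (by rw [x0]; linarith) (by rw [x0]; linarith) (by rw [x9, x10]; linarith)
    (by rw [x8, x10]; linarith) (by rw [x10]; linarith) (by rw [x0, x8]; linarith)
    (by rw [x0, x9]; linarith))
  have e1 : DQ p.g 0 p.q w0 (pathQ p.θ w0 R v + eCXa y) =
      DQ p.g 0 p.q w0 (pathQ p.θ w0 R v) - (1 + p.q 1) * y := by
    simp only [DQ, pathQ, eCXa, Pi.add_apply, Matrix.cons_val, Fin.isValue]
    ring
  rw [e1] at h5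
  linarith

/-- **`θ 0 < θ 1` : sweep of `C_a` with constant `min (q 1) (q 2)`**, no other condition -/
theorem recA_min (h : Thick η p D I1 π eE gA gB V T w0 R T0 PD ν own c₀) (h01 : p.θ 0 < p.θ 1) :
    RecS p.θ w0 R ν (eCa 1) (min (p.q 1) (p.q 2)) := by
  have e1 : p.θ 2 - p.θ 1 ≤ max (p.θ 2 - p.θ 1) 0 := le_max_left _ _
  have e2 : 0 ≤ max (p.θ 2 - p.θ 1) 0 := le_max_right _ _
  have e3 : p.θ 0 - p.θ 2 ≤ max (p.θ 0 - p.θ 2) 0 := le_max_left _ _
  have e4 : 0 ≤ max (p.θ 0 - p.θ 2) 0 := le_max_right _ _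
  refine recA_ab' h ⟨_, _, _, _, Crest.Agent.R136.NatD550.w0_base h, e1, e2, e3, e4,
    le_max_left _ _, le_max_right _ _, le_rfl, ?_, ?_⟩
  · nlinarith
  · nlinarith

theorem min_q_pos (ok : ParOk η p) : 0 < min (p.q 1) (p.q 2) := lt_min ok.g0.2 ok.q2.1

/-- the rewards are negligible against the growth; `h1`, `h2` are not used, the true conditions
`w1`, `w2` are proved automatically for `κ = 0, θ 1 - θ 2` and `κ3 = 0, θ i - θ 0, θ 1 - θ 2` -/
theorem hsl_of (ok : ParOk η p) (hη : η ≤ 1 / 8) {i j k l : Fin 3}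
    (h1 : κ ≤ |p.θ i| + |p.θ j|) (h2 : κ3 ≤ |p.θ k| + |p.θ l|)
    (w1 : κ ≤ max (p.θ 1 - p.θ 2) 0 := by
      first | exact le_max_left _ _ | exact le_max_right _ _ |
        exact le_trans (by linarith) (le_max_left _ _))
    (w2 : κ3 ≤ max (-(p.θ 0)) 0 + |p.θ 1| + |p.θ 2| := by
      first | exact Crest.Agent.R136.Tb628.wk10 | exact Crest.Agent.R136.Tb628.wk20 |
        exact Crest.Agent.R136.Tb628.wk12 | exact Crest.Agent.R136.Tb628.wk00 |
        exact le_trans (by linarith) Crest.Agent.R136.Tb628.wk10 |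
        exact le_trans (by linarith) Crest.Agent.R136.Tb628.wk20) :
    p.q 2 * κ + p.q 0 * κ3 < p.g := slackw ok hη w1 w2

/-- the same for differences of slopes -/
theorem hsl_sub (ok : ParOk η p) (hη : η ≤ 1 / 8) {i j k l : Fin 3}
    (h1 : κ ≤ |p.θ i - p.θ j|) (h2 : κ3 ≤ |p.θ k - p.θ l|)
    (w1 : κ ≤ max (p.θ 1 - p.θ 2) 0 := by
      first | exact le_max_left _ _ | exact le_max_right _ _ |
        exact le_trans (by linarith) (le_max_left _ _))
    (w2 : κ3 ≤ max (-(p.θ 0)) 0 + |p.θ 1| + |p.θ 2| := by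
      first | exact Crest.Agent.R136.Tb628.wk10 | exact Crest.Agent.R136.Tb628.wk20 |
        exact Crest.Agent.R136.Tb628.wk12 | exact Crest.Agent.R136.Tb628.wk00 |
        exact le_trans (by linarith) Crest.Agent.R136.Tb628.wk10 |
        exact le_trans (by linarith) Crest.Agent.R136.Tb628.wk20) :
    p.q 2 * κ + p.q 0 * κ3 < p.g := slackw ok hη w1 w2

end

end Crest.Agent.R136.Tb628
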