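import Crest.Agent.R136.Pl2Def_860
import Crest.Agent.R136.Ndl_372
import Crest.Agent.R136.Cbx3_140
import Crest.Agent.R136.Cs2_501
import Crest.Agent.R136.Cs5_123

/-!
# R136 (S0187), PLAN 2, leaf C5: `TiltCore` from the selection and the two-step data (helper48)

* `end1`, `end2`, `end0` : exponents of the three counts;
* `size_u`, `size_v` : classes have at most `9 W M` lines;
* `Sel`, `MidD`, `Mid` : the inputs; `tiltCore_of : Sel → Mid → TiltCore`.
-/

set_option autoImplicit false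
set_option linter.unusedVariables false

open Finset

namespace Crest.Agent.R136.Tcs48

open Crest.Agent.R136.Sh605 Crest.Agent.R136.Fl808 Crest.Agent.R136.Pl2
open Crest.Agent.R136.Ndl372 (reach join Nd needle card_le_real)
open Crest.Agent.R136.Pl2W102 (Ex2)

/-! ### exponents -/

theorem log_rpow' {x y : ℝ} (hx : 0 < x) : Real.log (x ^ y) = y * Real.log x := Real.log_rpow hx y

/-- two steps -/
theorem end1 {W Λ G x y τ p0 p2 m1 m2 A : ℝ} (hA : 0 < A) (hW : 1 ≤ W) (hΛ : 1 ≤ Λ) (hG : 1 ≤ G)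
    (x0 : 0 < x) (y0 : 0 < y) (hx : x ≤ 16) (hxy : x ≤ Λ ^ τ * y) (hp0 : 0 ≤ p0)
    (hτ : 8 * τ ≤ m1) (h1 : 8 * (p2 + p0) ≤ m1) (h2 : 2 * p0 ≤ m2)
    (h : 1 ≤ A * W ^ 4 * ((x * Λ * G) ^ (1 + p0) * Λ ^ (1 + p2)) * (1 / (y * Λ)) *
      (W / (Λ ^ (1 + m1) * G ^ (1 + m2)))) :
    Λ ^ (3 * m1 / 4) * G ^ (m2 / 2) ≤ A * 16 ^ p0 * W ^ 5 := by
  have W0 : 0 < W := by linarith
  have L0 : 0 < Λ := by linarith
  have G0 : 0 < G := by linarith
  have hl : 0 ≤ Real.log Λ := Real.log_nonneg hΛ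
  have hg : 0 ≤ Real.log G := Real.log_nonneg hG
  have lx : Real.log x ≤ Real.log 16 := Real.log_le_log x0 hx
  have lxy : Real.log x ≤ τ * Real.log Λ + Real.log y := by
    have := Real.log_le_log x0 hxy
    rwa [Real.log_mul (by positivity) (by positivity), Real.log_rpow L0] at this
  have e1 : Real.log (A * W ^ 4 * ((x * Λ * G) ^ (1 + p0) * Λ ^ (1 + p2)) * (1 / (y * Λ)) *
      (W / (Λ ^ (1 + m1) * G ^ (1 + m2)))) =
      Real.log A + 4 * Real.log W + ((1 + p0) * (Real.log x + Real.log Λ + Real.log G) +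
      (1 + p2) * Real.log Λ) - (Real.log y + Real.log Λ) + (Real.log W -
      ((1 + m1) * Real.log Λ + (1 + m2) * Real.log G)) := by
    rw [Real.log_mul (by positivity) (by positivity), Real.log_mul (by positivity) (by positivity),
      Real.log_mul (by positivity) (by positivity), Real.log_mul (by positivity) (by positivity),
      Real.log_mul (by positivity) (by positivity), Real.log_rpow (by positivity),
      Real.log_rpow L0, Real.log_mul (by positivity) (by positivity),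
      Real.log_mul (by positivity) (by positivity), Real.log_div (by positivity) (by positivity),
      Real.log_div (by positivity) (by positivity), Real.log_mul (by positivity) (by positivity),
      Real.log_mul (by positivity) (by positivity), Real.log_rpow L0, Real.log_rpow G0,
      Real.log_pow, Real.log_one]
    push_cast
    ring
  have e2 := Real.log_nonneg h
  rw [e1] at e2
  have e3 : Real.log (Λ ^ (3 * m1 / 4) * G ^ (m2 / 2)) ≤ Real.log (A * 16 ^ p0 * W ^ 5) := by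
    rw [Real.log_mul (by positivity) (by positivity), Real.log_mul (by positivity) (by positivity),
      Real.log_mul (by positivity) (by positivity), Real.log_rpow L0, Real.log_rpow G0,
      Real.log_rpow (by norm_num : (0:ℝ) < 16), Real.log_pow]
    push_cast
    have a1 : p0 * Real.log x ≤ p0 * Real.log 16 := mul_le_mul_of_nonneg_left lx hp0
    have a2 : (τ + p0 + p2 - m1 + 3 * m1 / 4) * Real.log Λ ≤ 0 :=
      mul_nonpos_of_nonpos_of_nonneg (by linarith) hl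
    have a3 : (p0 - m2 + m2 / 2) * Real.log G ≤ 0 :=
      mul_nonpos_of_nonpos_of_nonneg (by linarith) hg
    nlinarith
  exact (Real.log_le_log_iff (by positivity) (by positivity)).1 e3

/-- one step at the last scale -/
theorem end2 {W Λ G x p0 p2 m1 m2 A : ℝ} (hA : 0 < A) (hW : 1 ≤ W) (hΛ : 1 ≤ Λ) (hG : 1 ≤ G)
    (x0 : 0 < x) (hx : x * Λ ≤ 16) (hp0 : 0 ≤ p0) (hm1 : 0 ≤ m1)
    (h1 : 8 * (p2 + p0) ≤ m1) (h2 : 2 * p0 ≤ m2)
    (h : 1 ≤ A * W ^ 4 * ((x * Λ * G) ^ (1 + p0) * Λ ^ (1 + p2)) *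
      (W / (Λ ^ (1 + m1) * G ^ (1 + m2)))) :
    Λ ^ (3 * m1 / 4) * G ^ (m2 / 2) ≤ A * 16 ^ (1 + p0) * W ^ 5 := by
  have W0 : 0 < W := by linarith
  have L0 : 0 < Λ := by linarith
  have G0 : 0 < G := by linarith
  have hl : 0 ≤ Real.log Λ := Real.log_nonneg hΛ
  have hg : 0 ≤ Real.log G := Real.log_nonneg hG
  have lx : Real.log x + Real.log Λ ≤ Real.log 16 := by
    rw [← Real.log_mul (by positivity) (by positivity)]
    exact Real.log_le_log (by positivity) hx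
  have e1 : Real.log (A * W ^ 4 * ((x * Λ * G) ^ (1 + p0) * Λ ^ (1 + p2)) *
      (W / (Λ ^ (1 + m1) * G ^ (1 + m2)))) =
      Real.log A + 4 * Real.log W + ((1 + p0) * (Real.log x + Real.log Λ + Real.log G) +
      (1 + p2) * Real.log Λ) + (Real.log W -
      ((1 + m1) * Real.log Λ + (1 + m2) * Real.log G)) := by
    rw [Real.log_mul (by positivity) (by positivity), Real.log_mul (by positivity) (by positivity),
      Real.log_mul (by positivity) (by positivity),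
      Real.log_mul (by positivity) (by positivity), Real.log_rpow (by positivity),
      Real.log_rpow L0, Real.log_mul (by positivity) (by positivity),
      Real.log_mul (by positivity) (by positivity), Real.log_div (by positivity) (by positivity),
      Real.log_mul (by positivity) (by positivity), Real.log_rpow L0, Real.log_rpow G0,
      Real.log_pow]
    push_cast
    ring
  have e2 := Real.log_nonneg h
  rw [e1] at e2
  have e3 : Real.log (Λ ^ (3 * m1 / 4) * G ^ (m2 / 2)) ≤ Real.log (A * 16 ^ (1 + p0) * W ^ 5) := by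
    rw [Real.log_mul (by positivity) (by positivity), Real.log_mul (by positivity) (by positivity),
      Real.log_mul (by positivity) (by positivity), Real.log_rpow L0, Real.log_rpow G0,
      Real.log_rpow (by norm_num : (0:ℝ) < 16), Real.log_pow]
    push_cast
    have a1 : (1 + p0) * (Real.log x + Real.log Λ) ≤ (1 + p0) * Real.log 16 :=
      mul_le_mul_of_nonneg_left lx (by linarith)
    have a2 : (p2 - m1 + 3 * m1 / 4) * Real.log Λ ≤ 0 :=
      mul_nonpos_of_nonpos_of_nonneg (by linarith) hl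
    have a3 : (p0 - m2 + m2 / 2) * Real.log G ≤ 0 :=
      mul_nonpos_of_nonpos_of_nonneg (by linarith) hg
    nlinarith
  exact (Real.log_le_log_iff (by positivity) (by positivity)).1 e3

/-- one step without crossings -/
theorem end0 {W Λ G p0 p2 m1 m2 A : ℝ} (hA : 0 < A) (hW : 1 ≤ W) (hΛ : 1 ≤ Λ) (hG : 1 ≤ G)
    (hp0 : 0 ≤ p0) (hm1 : 0 ≤ m1) (h1 : 8 * (p2 + p0) ≤ m1) (h2 : 2 * p0 ≤ m2)
    (h : 1 ≤ A * W ^ 4 * ((Λ * G) ^ (1 + p0) * Λ ^ (1 + p2)) *
      (W / (Λ ^ (1 + m1) * G ^ (1 + m2)))) :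
    Λ ^ (3 * m1 / 4) * G ^ (m2 / 2) ≤ A * Λ ^ (1 + p0) * W ^ 5 := by
  have W0 : 0 < W := by linarith
  have L0 : 0 < Λ := by linarith
  have G0 : 0 < G := by linarith
  have hl : 0 ≤ Real.log Λ := Real.log_nonneg hΛ
  have hg : 0 ≤ Real.log G := Real.log_nonneg hG
  have e1 : Real.log (A * W ^ 4 * ((Λ * G) ^ (1 + p0) * Λ ^ (1 + p2)) *
      (W / (Λ ^ (1 + m1) * G ^ (1 + m2)))) =
      Real.log A + 4 * Real.log W + ((1 + p0) * (Real.log Λ + Real.log G) +
      (1 + p2) * Real.log Λ) + (Real.log W -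
      ((1 + m1) * Real.log Λ + (1 + m2) * Real.log G)) := by
    rw [Real.log_mul (by positivity) (by positivity), Real.log_mul (by positivity) (by positivity),
      Real.log_mul (by positivity) (by positivity),
      Real.log_mul (by positivity) (by positivity), Real.log_rpow (by positivity),
      Real.log_rpow L0, Real.log_mul (by positivity) (by positivity),
      Real.log_div (by positivity) (by positivity),
      Real.log_mul (by positivity) (by positivity), Real.log_rpow L0, Real.log_rpow G0,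
      Real.log_pow]
    push_cast
    ring
  have e2 := Real.log_nonneg h
  rw [e1] at e2
  have e3 : Real.log (Λ ^ (3 * m1 / 4) * G ^ (m2 / 2)) ≤ Real.log (A * Λ ^ (1 + p0) * W ^ 5) := by
    rw [Real.log_mul (by positivity) (by positivity), Real.log_mul (by positivity) (by positivity),
      Real.log_mul (by positivity) (by positivity), Real.log_rpow L0, Real.log_rpow G0,
      Real.log_rpow L0, Real.log_pow]
    push_cast
    have a2 : (p2 - m1 + 3 * m1 / 4) * Real.log Λ ≤ 0 :=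
      mul_nonpos_of_nonpos_of_nonneg (by linarith) hl
    have a3 : (p0 - m2 + m2 / 2) * Real.log G ≤ 0 :=
      mul_nonpos_of_nonpos_of_nonneg (by linarith) hg
    nlinarith
  exact (Real.log_le_log_iff (by positivity) (by positivity)).1 e3

/-! ### sizes of the classes -/

variable {qm qp : Fin 3 → ℝ} {L : ℕ → Ln4} {P : Finset ℕ} {u v : ℕ → ℕ} {bu bv : ℕ → Ln4}
  {eu ev : ℕ → Fin 3 → V3} {W M a Y w1 w2 z0 ρ : ℝ}

/-- a difference which is at most `w` at both ends is at most `w` on the cell -/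
theorem ends {e : V3} {s t : Ln4} {w : ℝ} (hρ : 0 < ρ) (h0 : |dt e (s.pos z0 - t.pos z0)| ≤ w)
    (h1 : |dt e (s.pos (z0 + ρ) - t.pos (z0 + ρ))| ≤ w) (z : ℝ) (hz : z0 ≤ z) (hz' : z ≤ z0 + ρ) :
    |dt e (s.pos z - t.pos z)| ≤ w := by
  set l := (z - z0) / ρ with hl
  have l0 : 0 ≤ l := div_nonneg (by linarith) hρ.le
  have l1 : l ≤ 1 := by rw [hl, div_le_one hρ]; linarith
  have hz2 : z = z0 + l * ρ := by rw [hl]; field_simp; ring
  have e1 : dt e (s.pos z - t.pos z) = (1 - l) * dt e (s.pos z0 - t.pos z0) +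
      l * dt e (s.pos (z0 + ρ) - t.pos (z0 + ρ)) := by
    rw [hz2]
    simp only [dt, Pi.sub_apply, Ln4.pos]
    ring
  rw [e1]
  rw [abs_le] at h0 h1 ⊢
  constructor <;> nlinarith

open Classical in
/-- a class covered by tubes -/
theorem size_gen {c : ℕ → ℕ} {b : Ln4} {e : V3} {k : ℕ} {D : ℝ} (hρ : 0 < ρ)
    (hw1 : 0 < w1) (hD : 0 ≤ D)
    (hb : ∀ t ∈ P, c t = k → ∀ z, z0 ≤ z → z ≤ z0 + ρ → |dt e ((L t).pos z - b.pos z)| ≤ w1)
    (ht : ∀ t ∈ P, c t = k → ((P.filter fun s => c s = k ∧ ∀ z, z0 ≤ z → z ≤ z0 + ρ →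
      |dt e ((L s).pos z - (L t).pos z)| ≤ w1).card : ℝ) ≤ D) :
    ((P.filter fun t => c t = k).card : ℝ) ≤ 9 * D := by
  set A : ℕ → ℤ × ℤ := fun t => (⌊dt e ((L t).pos z0 - b.pos z0) / w1⌋,
    ⌊dt e ((L t).pos (z0 + ρ) - b.pos (z0 + ρ)) / w1⌋) with hA
  have fl : ∀ x : ℝ, |x| ≤ w1 → ⌊x / w1⌋ ∈ Finset.Icc (-1 : ℤ) 1 := by
    intro x hx
    rw [abs_le] at hx
    rw [Finset.mem_Icc]
    constructor
    · rw [Int.le_floor]; push_cast; rw [le_div_iff₀ hw1]; linarith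
    · have : ⌊x / w1⌋ ≤ ⌊(1:ℝ)⌋ := Int.floor_le_floor (by rw [div_le_one hw1]; exact hx.2)
      simpa using this
  have h1 : ((P.filter fun t => c t = k).card : ℝ) ≤
      ((Finset.Icc (-1 : ℤ) 1 ×ˢ Finset.Icc (-1 : ℤ) 1).card : ℝ) * D := by
    refine card_le_real _ A _ (fun t htt => ?_) fun y _ => ?_
    · rw [mem_filter] at htt
      rw [hA, mem_product]
      exact ⟨fl _ (hb t htt.1 htt.2 z0 le_rfl (by linarith)),
        fl _ (hb t htt.1 htt.2 (z0 + ρ) (by linarith) le_rfl)⟩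
    · by_cases h : ∃ t, (t ∈ P ∧ c t = k) ∧ A t = y
      swap
      · refine le_trans (le_of_eq ?_) hD
        rw [Nat.cast_eq_zero, card_eq_zero, eq_empty_iff_forall_notMem]
        intro t htt
        have htt' := (@Finset.mem_filter _ _ (_) _ _).1 htt
        exact h ⟨t, mem_filter.1 htt'.1, htt'.2⟩
      · obtain ⟨t, htt⟩ := h
        refine le_trans (Nat.cast_le.2 (card_le_card fun s hs => ?_)) (ht t htt.1.1 htt.1.2)
        have hs1 := (@Finset.mem_filter _ _ (_) _ _).1 hs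
        have hs2 := mem_filter.1 hs1.1
        rw [mem_filter]
        refine ⟨hs2.1, hs2.2, ?_⟩
        have hAA : A s = A t := hs1.2.trans htt.2.symm
        rw [hA] at hAA
        simp only [Prod.mk.injEq] at hAA
        have key : ∀ z : ℝ, ⌊dt e ((L s).pos z - b.pos z) / w1⌋ =
            ⌊dt e ((L t).pos z - b.pos z) / w1⌋ → |dt e ((L s).pos z - (L t).pos z)| ≤ w1 := by
          intro z hz
          have h3 := Int.abs_sub_lt_one_of_floor_eq_floor hz
          rw [← sub_div, abs_div, abs_of_pos hw1, div_lt_one hw1] at h3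
          have e3 : dt e ((L s).pos z - (L t).pos z) = dt e ((L s).pos z - b.pos z) -
              dt e ((L t).pos z - b.pos z) := by
            simp only [dt, Pi.sub_apply]; ring
          rw [e3]; exact h3.le
        exact fun z hz hz' => ends hρ (key _ hAA.1) (key _ hAA.2) z hz hz'
  have h2 : ((Finset.Icc (-1 : ℤ) 1 ×ˢ Finset.Icc (-1 : ℤ) 1).card : ℝ) = 9 := by
    rw [card_product]; simp; try norm_num
  rw [h2] at h1
  exact h1

open Classical in
theorem size_u (h : TCore qm qp L P u v bu bv eu ev W M a Y w1 w2 z0 ρ) (k : ℕ) :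
    ((P.filter fun t => u t = k).card : ℝ) ≤ 9 * (W * M) := by
  have hW := h.W1
  have hM := h.M0
  have hw1 : 0 < w1 := by have := h.a0; have := h.aY; have := h.Yw; have := h.ww; linarith
  rcases (P.filter fun t => u t = k).eq_empty_or_nonempty with h0 | ⟨t0, ht0⟩
  · rw [h0]; simp; positivity
  rw [mem_filter] at ht0
  refine size_gen (L := L) (z0 := z0) (b := bu k) (e := eu k 1) h.ρ0 hw1 (by positivity) ?_ ?_
  · intro t ht htk z hz hz'
    have := h.mu t ht z hz hz' 1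
    rw [htk] at this
    simpa using this
  · intro t ht htk
    have h1 := h.tubeu t ht 1 (by have := h.ww; linarith) le_rfl
    rw [Real.one_rpow, mul_one, one_mul, htk] at h1
    exact h1

open Classical in
theorem size_v (h : TCore qm qp L P u v bu bv eu ev W M a Y w1 w2 z0 ρ) (k : ℕ) :
    ((P.filter fun t => v t = k).card : ℝ) ≤ 9 * (W * M) := by
  have hW := h.W1
  have hM := h.M0
  have hw1 : 0 < w1 := by have := h.a0; have := h.aY; have := h.Yw; have := h.ww; linarith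
  refine size_gen (L := L) (z0 := z0) (b := bv k) (e := ev k 1) h.ρ0 hw1 (by positivity) ?_ ?_
  · intro t ht htk z hz hz'
    have := h.mv t ht z hz hz' 1
    rw [htk] at this
    simpa using this
  · intro t ht htk
    have h1 := h.tubev t ht 1 (by have := h.ww; linarith) le_rfl
    rw [Real.one_rpow, mul_one, one_mul, htk] at h1
    exact h1

/-! ### one step without crossings -/

/-- all lines of a class which meets the class of `t0` lie in one box -/
theorem one_box {e f : Fin 3 → V3} {b b' t t1 : Ln4} {Λ E : ℝ} (he : Ortho e) (hf : Ortho f)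
    (hY : 0 < Y) (hYw : Y ≤ w2) (hw : w2 ≤ w1) (hΛ : 1 ≤ Λ) (hE : 1 ≤ E)
    (hlw : Λ * w2 ≤ 2 * w1) (hT : Cbx140.Tb e f Y w1 w2 Λ E)
    (h1 : InB t1 b e ![Y, w1, w2] z0 ρ) (h2 : InB t1 b' f ![Y, w1, w2] z0 ρ)
    (h3 : InB t b' f ![Y, w1, w2] z0 ρ) :
    InB t b e ![8 * (Λ * E * Y), 10 ^ 6 * w1, 16 * (Λ * w2)] z0 ρ := by
  have hw2 : 0 < w2 := hY.trans_le hYw
  have hw1 : 0 < w1 := hw2.trans_le hw
  intro z hz hz' i
  have a1 := h1 z hz hz'
  have d : ∀ k, |dt (f k) (t.pos z - t1.pos z)| ≤ 2 * ![Y, w1, w2] k :=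
    fun k => Cbx140.inB_sub h2 h3 z hz hz' k
  have d0 : |dt (f 0) (t.pos z - t1.pos z)| ≤ 2 * Y := by simpa using d 0
  have d1 : |dt (f 1) (t.pos z - t1.pos z)| ≤ 2 * w1 := by simpa using d 1
  have d2 : |dt (f 2) (t.pos z - t1.pos z)| ≤ 2 * w2 := by simpa using d 2
  have one : ∀ i j, |dt (e i) (f j)| ≤ 1 := fun i j => abs_dt_le_one hf he i j
  have tri : ∀ k, |dt (e k) (t.pos z - b.pos z)| ≤ |dt (e k) (t1.pos z - b.pos z)| +
      (|dt (e k) (f 0)| * (2 * Y) + |dt (e k) (f 1)| * (2 * w1) + |dt (e k) (f 2)| * (2 * w2)) := by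
    intro k
    have e1 : dt (e k) (t.pos z - b.pos z) = dt (e k) (t1.pos z - b.pos z) +
        dt (e k) (t.pos z - t1.pos z) := by
      simp only [dt, Pi.sub_apply]; ring
    rw [e1]
    refine (abs_add_le _ _).trans (add_le_add le_rfl ?_)
    rw [dt_expand hf (e k) (t.pos z - t1.pos z)]
    refine Cbx140.abs3.trans ?_
    rw [abs_mul, abs_mul, abs_mul]
    gcongr
  have hLE : 1 ≤ Λ * E := by nlinarith
  have p1 : Y ≤ Λ * E * Y := by nlinarith
  have p2 : E * Y ≤ Λ * E * Y := by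
    have : 0 < E * Y := by positivity
    nlinarith
  have p3 : w2 ≤ Λ * w2 := by nlinarith
  fin_cases i
  · show |dt (e 0) (t.pos z - b.pos z)| ≤ 8 * (Λ * E * Y)
    refine (tri 0).trans ?_
    have b0 : |dt (e 0) (t1.pos z - b.pos z)| ≤ Y := by simpa using a1 0
    have c0 : |dt (e 0) (f 0)| * (2 * Y) ≤ 1 * (2 * Y) :=
      mul_le_mul_of_nonneg_right (one 0 0) (by positivity)
    have c1 := hT.t01
    have c2 := hT.t02
    nlinarith
  · show |dt (e 1) (t.pos z - b.pos z)| ≤ 10 ^ 6 * w1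
    refine (tri 1).trans ?_
    have b0 : |dt (e 1) (t1.pos z - b.pos z)| ≤ w1 := by simpa using a1 1
    have c0 : |dt (e 1) (f 0)| * (2 * Y) ≤ 1 * (2 * Y) :=
      mul_le_mul_of_nonneg_right (one 1 0) (by positivity)
    have c1 : |dt (e 1) (f 1)| * (2 * w1) ≤ 1 * (2 * w1) :=
      mul_le_mul_of_nonneg_right (one 1 1) (by positivity)
    have c2 : |dt (e 1) (f 2)| * (2 * w2) ≤ 1 * (2 * w2) :=
      mul_le_mul_of_nonneg_right (one 1 2) (by positivity)
    linarith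
  · show |dt (e 2) (t.pos z - b.pos z)| ≤ 16 * (Λ * w2)
    refine (tri 2).trans ?_
    have b0 : |dt (e 2) (t1.pos z - b.pos z)| ≤ w2 := by simpa using a1 2
    have c0 : |dt (e 2) (f 0)| * (2 * Y) ≤ 1 * (2 * Y) :=
      mul_le_mul_of_nonneg_right (one 2 0) (by positivity)
    have c1 := hT.a21
    have c2 : |dt (e 2) (f 2)| * (2 * w2) ≤ 1 * (2 * w2) :=
      mul_le_mul_of_nonneg_right (one 2 2) (by positivity)
    nlinarith

open Classical in
/-- number of classes in a region -/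
theorem num_le {lab : ℕ → ℕ} {K : Finset ℕ} {B : ℕ → Prop} {A : ℝ}
    (hK : ∀ c ∈ K, A ≤ ((P.filter fun t => lab t = c).card : ℝ))
    (hB : ∀ t ∈ P, lab t ∈ K → B t) : (K.card : ℝ) * A ≤ ((P.filter B).card : ℝ) := by
  have h1 : (P.filter fun t => lab t ∈ K).card = ∑ c ∈ K, (P.filter fun t => lab t = c).card := by
    rw [card_eq_sum_card_fiberwise (f := lab) (t := K) (s := P.filter fun t => lab t ∈ K)]
    · refine sum_congr rfl fun c hc => ?_
      congr 1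
      ext t
      simp only [mem_filter]
      constructor
      · rintro ⟨⟨h1, _⟩, h2⟩; exact ⟨h1, h2⟩
      · rintro ⟨h1, h2⟩; exact ⟨⟨h1, h2 ▸ hc⟩, h2⟩
    · intro t ht
      rw [mem_coe, mem_filter] at ht
      exact mem_coe.2 ht.2
  have h2 : (K.card : ℝ) * A ≤ ((P.filter fun t => lab t ∈ K).card : ℝ) := by
    rw [h1]; push_cast
    rw [← nsmul_eq_mul, ← sum_const]
    exact sum_le_sum hK
  refine h2.trans (Nat.cast_le.2 (card_le_card fun t ht => ?_))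
  rw [mem_filter] at ht ⊢
  exact ⟨ht.1, hB t ht.1 ht.2⟩

open Classical in
/-- **one step, no crossings** -/
theorem one_core {j k' : ℕ} (h : TCore qm qp L P u v bu bv eu ev W M a Y w1 w2 z0 ρ)
    (hne : P.Nonempty) (hd : ∀ t ∈ P, Dy (eu (u t)) (ev (v t)) Y w1 w2 j k')
    (hlw : (2:ℝ) ^ j * w2 ≤ 2 * w1) (hEY : Y * (2:ℝ) ^ k' ≤ 8 * w2)
    (hWs : W ≤ (2:ℝ) ^ j * 2 ^ k') (hp0 : 0 ≤ qp 0) (hp2 : 0 ≤ qp 2) :
    1 ≤ (8 ^ (1 + qp 0) * 64 ^ (1 + qp 2)) * W ^ 4 *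
      (((2:ℝ) ^ j * (2 ^ k' * (Y / a))) ^ (1 + qp 0) * ((2:ℝ) ^ j) ^ (1 + qp 2)) *
      (W / (((2:ℝ) ^ j) ^ (1 + qm 1) * ((2:ℝ) ^ k' * (Y / a)) ^ (1 + qm 2))) := by
  obtain ⟨t0, ht0⟩ := hne
  have hW := h.W1
  have hM := h.M0
  have ha := h.a0
  have hY : 0 < Y := ha.trans_le h.aY
  have hw2 : 0 < w2 := hY.trans_le h.Yw
  have hw1 : 0 < w1 := hw2.trans_le h.ww
  have hW0 : 0 < W := by linarith
  have hΛ : (1:ℝ) ≤ 2 ^ j := one_le_pow₀ one_le_two
  have hE : (1:ℝ) ≤ 2 ^ k' := one_le_pow₀ one_le_two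
  set Λ : ℝ := 2 ^ j with hΛd
  set E : ℝ := 2 ^ k' with hEd
  have hΛ0 : 0 < Λ := by linarith
  have hE0 : 0 < E := by linarith
  have hX : 1 ≤ Y / a := (one_le_div ha).2 h.aY
  have hG : 1 ≤ E * (Y / a) := by nlinarith
  set G : ℝ := E * (Y / a) with hGd
  have hG0 : 0 < G := by linarith
  set S := P.filter fun t => u t = u t0 with hS
  set K := S.image v with hK
  -- shares
  have s1 : (S.card : ℝ) ≤ (K.card : ℝ) * (W * M / (Λ ^ (1 + qm 1) * G ^ (1 + qm 2))) := by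
    refine card_le_real S v K (fun t ht => mem_image_of_mem v ht) fun c hc => ?_
    rw [hK, mem_image] at hc
    obtain ⟨t, ht, rfl⟩ := hc
    rw [hS, mem_filter] at ht
    refine le_trans (Nat.cast_le.2 (card_le_card fun s hs => ?_))
      (h.share t ht.1 j k' (hd t ht.1) hWs)
    have hs1 := (@Finset.mem_filter _ _ (_) _ _).1 hs
    rw [hS, mem_filter] at hs1
    rw [mem_filter]
    exact ⟨hs1.1.1, hs1.1.2.trans ht.2.symm, hs1.2⟩
  -- number of classes
  have s2 : (K.card : ℝ) * (M / W) ≤ W * M * ((8 * (Λ * E * Y) / a) ^ (1 + qp 0) *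
      (64 * (Λ * w2) / w2) ^ (1 + qp 2)) := by
    refine le_trans (num_le (P := P) (lab := v) (K := K)
      (B := fun t => InB (L t) (bu (u t0)) (eu (u t0)) ![8 * (Λ * E * Y), 10 ^ 6 * w1,
        64 * (Λ * w2)] z0 ρ) ?_ ?_) (h.hull (bu (u t0)) (eu (u t0)) (8 * (Λ * E * Y))
        (64 * (Λ * w2)) (h.ou t0 ht0) ?_ ?_ ?_ ?_)
    · intro c hc
      rw [hK, mem_image] at hc
      obtain ⟨t, ht, rfl⟩ := hc
      rw [hS, mem_filter] at ht
      have := h.fv t ht.1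
      rw [div_le_iff₀ hW0]
      linarith
    · intro t ht htK
      rw [hK, mem_image] at htK
      obtain ⟨t1, ht1, hv1⟩ := htK
      rw [hS, mem_filter] at ht1
      have hdy := hd t1 ht1.1
      rw [ht1.2] at hdy
      have hb := one_box (z0 := z0) (ρ := ρ) (b := bu (u t0)) (b' := bv (v t1)) (t := L t)
        (t1 := L t1) (h.ou t0 ht0) (h.ov t1 ht1.1) hY h.Yw h.ww hΛ hE hlw
        (Cbx140.tb_of_dy hdy (h.ou t0 ht0) (h.ov t1 ht1.1) hY h.Yw h.ww)
        (by have := h.mu t1 ht1.1; rwa [ht1.2] at this) (h.mv t1 ht1.1)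
        (by have := h.mv t ht; rwa [← hv1] at this)
      intro z hz hz' i
      refine (hb z hz hz' i).trans ?_
      fin_cases i
      · exact le_rfl
      · exact le_rfl
      · show 16 * (Λ * w2) ≤ 64 * (Λ * w2)
        have : 0 < Λ * w2 := by positivity
        linarith
    · have h1 : Y ≤ Λ * E * Y := by
        have : 1 ≤ Λ * E := by nlinarith
        nlinarith
      have := h.aY
      have : 0 < Λ * E * Y := by positivity
      linarith
    · have : w2 ≤ Λ * w2 := by nlinarith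
      linarith
    · have : Λ * (Y * E) ≤ Λ * (8 * w2) := mul_le_mul_of_nonneg_left hEY hΛ0.le
      nlinarith
    · linarith
  have e1 : 8 * (Λ * E * Y) / a = 8 * (Λ * G) := by rw [hGd]; ring
  have e2 : 64 * (Λ * w2) / w2 = 64 * Λ := by field_simp
  rw [e1, e2, Real.mul_rpow (by norm_num) (by positivity), Real.mul_rpow (by norm_num) hΛ0.le]
    at s2
  -- conclusion
  have s3 : M ≤ W * (S.card : ℝ) := h.fu t0 ht0
  set σ : ℝ := W / (Λ ^ (1 + qm 1) * G ^ (1 + qm 2)) with hσ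
  have hσ0 : 0 < σ := by positivity
  have e3 : W * M / (Λ ^ (1 + qm 1) * G ^ (1 + qm 2)) = σ * M := by rw [hσ]; ring
  rw [e3] at s1
  set N : ℝ := (Λ * G) ^ (1 + qp 0) * Λ ^ (1 + qp 2) with hN
  have hN0 : 0 < N := by positivity
  set A : ℝ := 8 ^ (1 + qp 0) * 64 ^ (1 + qp 2) with hA
  have hA0 : 0 < A := by positivity
  have e4 : W * M * (8 ^ (1 + qp 0) * (Λ * G) ^ (1 + qp 0) * (64 ^ (1 + qp 2) *
      Λ ^ (1 + qp 2))) = W * M * (A * N) := by rw [hA, hN]; ring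
  rw [e4] at s2
  have s4 : (K.card : ℝ) ≤ W ^ 2 * (A * N) := by
    have h1 : (K.card : ℝ) * M ≤ W ^ 2 * (A * N) * M := by
      calc (K.card : ℝ) * M = (K.card : ℝ) * (M / W) * W := by field_simp
        _ ≤ W * M * (A * N) * W := mul_le_mul_of_nonneg_right s2 hW0.le
        _ = _ := by ring
    exact le_of_mul_le_mul_right h1 hM
  have s5 : M ≤ W ^ 3 * (A * N) * σ * M := by
    calc M ≤ W * (S.card : ℝ) := s3
      _ ≤ W * (W ^ 2 * (A * N) * (σ * M)) :=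
        mul_le_mul_of_nonneg_left (s1.trans (mul_le_mul_of_nonneg_right s4 (by positivity)))
          hW0.le
      _ = _ := by ring
  have s6 : 1 ≤ W ^ 3 * (A * N) * σ := by
    by_contra hc
    rw [not_le] at hc
    nlinarith
  have s7 : W ^ 3 ≤ W ^ 4 := pow_le_pow_right₀ hW (by norm_num)
  calc (1:ℝ) ≤ W ^ 3 * (A * N) * σ := s6
    _ ≤ W ^ 4 * (A * N) * σ := by gcongr
    _ = A * W ^ 4 * N * σ := by ring

/-! ### two steps -/

open Classical in
/-- the data of `Nd` at all scales in `[1 / Λ, 16]`; `G = E Y / a` -/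
structure MidD (qp : Fin 3 → ℝ) (P : Finset ℕ) (u v : ℕ → ℕ) (cu cv : ℕ → ℕ → Prop)
    (au av : ℕ → ℕ → ℝ) (W M Λ G : ℝ) : Prop where
  symU : ∀ s t, cu s t → cu t s
  symV : ∀ s t, cv s t → cv t s
  symAu : ∀ s t, au s t = au t s
  symAv : ∀ s t, av s t = av t s
  topU : ∀ s ∈ P, ∀ t ∈ P, u s = u t → cu s t → au s t ≤ 16
  topV : ∀ s ∈ P, ∀ t ∈ P, v s = v t → cv s t → av s t ≤ 16
  crU : ∀ Q ⊆ P, P.card ≤ 4 * Q.card → (P.card : ℝ) * M ≤
    W * (((Q ×ˢ Q).filter fun p => u p.1 = u p.2 ∧ cu p.1 p.2).card : ℝ)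
  crV : ∀ Q ⊆ P, P.card ≤ 4 * Q.card → (P.card : ℝ) * M ≤
    W * (((Q ×ˢ Q).filter fun p => v p.1 = v p.2 ∧ cv p.1 p.2).card : ℝ)
  hullU : ∀ x, 1 / Λ ≤ x → x ≤ 16 → ∀ t0 ∈ P, ((reach P u v cu cv au av x t0).card : ℝ) ≤
    W * ((x * Λ * G) ^ (1 + qp 0) * Λ ^ (1 + qp 2))
  hullV : ∀ x, 1 / Λ ≤ x → x ≤ 16 → ∀ t0 ∈ P, ((reach P v u cv cu av au x t0).card : ℝ) ≤
    W * ((x * Λ * G) ^ (1 + qp 0) * Λ ^ (1 + qp 2))
  hull1 : ∀ x, 1 / Λ ≤ x → x ≤ 16 → ∀ t0 ∈ P,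
    (((P.filter fun t => u t0 = u t ∧ cu t0 t ∧ au t0 t ≤ x).image v).card : ℝ) ≤
    W * ((x * Λ * G) ^ (1 + qp 0) * Λ ^ (1 + qp 2))
  meetU : ∀ y, 1 / Λ ≤ y → y ≤ 16 → ∀ c c'', ((join P u v cv av y c c'').card : ℝ) ≤
    W * (1 / (y * Λ)) * M
  meetV : ∀ y, 1 / Λ ≤ y → y ≤ 16 → ∀ c c'', ((join P v u cu au y c c'').card : ℝ) ≤
    W * (1 / (y * Λ)) * M

/-- the scales -/
noncomputable def xs (Λ τ : ℝ) (k : ℕ) : ℝ := max (16 * Λ ^ (-(k * τ))) (1 / Λ)

theorem xs_lo (Λ τ : ℝ) (k : ℕ) : 1 / Λ ≤ xs Λ τ k := le_max_right _ _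

theorem xs_hi {Λ τ : ℝ} (hΛ : 1 ≤ Λ) (hτ : 0 ≤ τ) (k : ℕ) : xs Λ τ k ≤ 16 := by
  have L0 : 0 < Λ := by linarith
  refine max_le ?_ ?_
  · have h1 : Λ ^ (-(k * τ)) ≤ 1 :=
      Real.rpow_le_one_of_one_le_of_nonpos hΛ (by have : 0 ≤ (k:ℝ) * τ := by positivity
                                                  linarith)
    linarith
  · rw [div_le_iff₀ L0]; linarith

theorem xs_pos {Λ τ : ℝ} (hΛ : 1 ≤ Λ) (k : ℕ) : 0 < xs Λ τ k :=
  lt_of_lt_of_le (by positivity) (xs_lo Λ τ k)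

theorem xs_zero {Λ τ : ℝ} (hΛ : 1 ≤ Λ) : xs Λ τ 0 = 16 := by
  have L0 : 0 < Λ := by linarith
  unfold xs
  rw [Nat.cast_zero, zero_mul, neg_zero, Real.rpow_zero, mul_one]
  exact max_eq_left (by rw [div_le_iff₀ L0]; linarith)

theorem xs_step {Λ τ : ℝ} (hΛ : 1 ≤ Λ) (hτ : 0 ≤ τ) (k : ℕ) :
    xs Λ τ k ≤ Λ ^ τ * xs Λ τ (k + 1) := by
  have L0 : 0 < Λ := by linarith
  have h1 : 1 ≤ Λ ^ τ := Real.one_le_rpow hΛ hτ
  have h0 : 0 < Λ ^ τ := by linarith
  refine max_le ?_ ?_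
  · have e1 : 16 * Λ ^ (-(k * τ)) = Λ ^ τ * (16 * Λ ^ (-(((k + 1 : ℕ) : ℝ) * τ))) := by
      have : Λ ^ (-(k * τ)) = Λ ^ τ * Λ ^ (-(((k + 1 : ℕ) : ℝ) * τ)) := by
        rw [← Real.rpow_add L0]; congr 1; push_cast; ring
      rw [this]; ring
    rw [e1]
    exact mul_le_mul_of_nonneg_left (le_max_left _ _) h0.le
  · calc 1 / Λ ≤ Λ ^ τ * (1 / Λ) := by
          have : 0 < 1 / Λ := by positivity
          nlinarith
      _ ≤ _ := mul_le_mul_of_nonneg_left (le_max_right _ _) h0.le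

theorem xs_last {Λ τ : ℝ} {K : ℕ} (hΛ : 1 ≤ Λ) (hK : 1 ≤ (K:ℝ) * τ) : xs Λ τ K * Λ ≤ 16 := by
  have L0 : 0 < Λ := by linarith
  have h1 : xs Λ τ K ≤ 16 / Λ := by
    refine max_le ?_ ?_
    · have h2 : Λ ^ (-(K * τ)) ≤ Λ ^ (-1 : ℝ) :=
        Real.rpow_le_rpow_of_exponent_le hΛ (by linarith)
      rw [Real.rpow_neg_one] at h2
      rw [div_eq_mul_inv]
      linarith
    · exact div_le_div_of_nonneg_right (by norm_num) L0.le
  calc xs Λ τ K * Λ ≤ 16 / Λ * Λ := mul_le_mul_of_nonneg_right h1 L0.le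
    _ = 16 := by field_simp

open Classical in
theorem core_needle {W W' Λ G τ σ : ℝ} {K : ℕ} {cu cv : ℕ → ℕ → Prop} {au av : ℕ → ℕ → ℝ}
    (hne : P.Nonempty) (hΛ : 1 ≤ Λ) (hG : 1 ≤ G) (hW' : 1 ≤ W') (hM : 0 < M) (hσ0 : 0 ≤ σ)
    (hτ : 0 ≤ τ) (hp0 : 0 ≤ qp 0)
    (hsize : ∀ c, ((P.filter fun t => v t = c).card : ℝ) ≤ W' * M)
    (hsh : ∀ c c', ((P.filter fun t => u t = c ∧ v t = c').card : ℝ) ≤ σ * M)
    (hm : MidD qp P u v cu cv au av W' M Λ G) :
    (∃ k < K, 1 ≤ 6 * 4 ^ k * W' ^ 4 *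
      ((xs Λ τ k * Λ * G) ^ (1 + qp 0) * Λ ^ (1 + qp 2)) * (1 / (xs Λ τ (k + 1) * Λ)) * σ) ∨
      1 ≤ 2 * 4 ^ K * W' ^ 4 * ((xs Λ τ K * Λ * G) ^ (1 + qp 0) * Λ ^ (1 + qp 2)) * σ := by
  have hΛ0 : 0 < Λ := by linarith
  have hG0 : 0 < G := by linarith
  refine needle (N := fun x => (x * Λ * G) ^ (1 + qp 0) * Λ ^ (1 + qp 2))
    (r := fun y => 1 / (y * Λ)) (P := P) (u := u) (v := v) (cu := cu) (cv := cv) (au := au)
    (av := av) (x := xs Λ τ) (K := K) (M := M) (W := W') (σ := σ) ?_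
  constructor
  · exact hne
  · exact hW'
  · exact hM
  · exact hσ0
  · intro k
    have := xs_pos (τ := τ) hΛ k
    positivity
  · intro k
    have := xs_pos (τ := τ) hΛ k
    positivity
  · exact hm.symU
  · exact hm.symV
  · exact hm.symAu
  · exact hm.symAv
  · rw [xs_zero hΛ]; exact hm.topU
  · rw [xs_zero hΛ]; exact hm.topV
  · intro c; convert hsize c
  · intro Q hQ hc; convert hm.crU Q hQ hc
  · intro Q hQ hc; convert hm.crV Q hQ hc
  · intro c c'; convert hsh c c'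
  · intro k _ t0 ht0; exact hm.hullU (xs Λ τ k) (xs_lo _ _ k) (xs_hi hΛ hτ k) t0 ht0
  · intro k _ t0 ht0; exact hm.hullV (xs Λ τ k) (xs_lo _ _ k) (xs_hi hΛ hτ k) t0 ht0
  · intro t0 ht0; convert hm.hull1 (xs Λ τ K) (xs_lo _ _ K) (xs_hi hΛ hτ K) t0 ht0
  · intro k _ c c''
    exact hm.meetU (xs Λ τ (k + 1)) (xs_lo _ _ (k + 1)) (xs_hi hΛ hτ (k + 1)) c c''
  · intro k _ c c''
    exact hm.meetV (xs Λ τ (k + 1)) (xs_lo _ _ (k + 1)) (xs_hi hΛ hτ (k + 1)) c c''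

open Classical in
/-- **large base tilt** -/
theorem large {W' Λ G : ℝ} {j k' K : ℕ} {cu cv : ℕ → ℕ → Prop} {au av : ℕ → ℕ → ℝ}
    (h : TCore qm qp L P u v bu bv eu ev W M a Y w1 w2 z0 ρ) (hne : P.Nonempty)
    (hd : ∀ t ∈ P, Dy (eu (u t)) (ev (v t)) Y w1 w2 j k') (hWs : W ≤ (2:ℝ) ^ j * 2 ^ k')
    (hΛe : Λ = 2 ^ j) (hGe : G = 2 ^ k' * (Y / a))
    (hW' : 9 * W ≤ W') (hm : MidD qp P u v cu cv au av W' M Λ G)
    (hp0 : 0 ≤ qp 0) (hm1 : 0 ≤ qm 1) (h1 : 8 * (qp 2 + qp 0) ≤ qm 1) (h2 : 2 * qp 0 ≤ qm 2)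
    (hK : 1 ≤ (K:ℝ) * (qm 1 / 8)) :
    Λ ^ (3 * qm 1 / 4) * G ^ (qm 2 / 2) ≤ (6 * 4 ^ K) * 16 ^ (1 + qp 0) * W' ^ 5 := by
  have hW := h.W1
  have hM := h.M0
  have ha := h.a0
  have hΛ : 1 ≤ Λ := by rw [hΛe]; exact one_le_pow₀ one_le_two
  have hE : (1:ℝ) ≤ 2 ^ k' := one_le_pow₀ one_le_two
  have hX : 1 ≤ Y / a := (one_le_div ha).2 h.aY
  have hG : 1 ≤ G := by rw [hGe]; nlinarith
  have hΛ0 : 0 < Λ := by linarith
  have hG0 : 0 < G := by linarith
  have hW1 : 1 ≤ W' := by linarith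
  have hτ : 0 ≤ qm 1 / 8 := by linarith
  have hD : 0 < Λ ^ (1 + qm 1) * G ^ (1 + qm 2) := by positivity
  have hσ0 : 0 ≤ W' / (Λ ^ (1 + qm 1) * G ^ (1 + qm 2)) := by positivity
  have hsize : ∀ c, ((P.filter fun t => v t = c).card : ℝ) ≤ W' * M := by
    intro c
    refine (size_v h c).trans ?_
    calc 9 * (W * M) = 9 * W * M := by ring
      _ ≤ W' * M := mul_le_mul_of_nonneg_right hW' hM.le
  have hsh : ∀ c c', ((P.filter fun t => u t = c ∧ v t = c').card : ℝ) ≤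
      W' / (Λ ^ (1 + qm 1) * G ^ (1 + qm 2)) * M := by
    intro c c'
    by_cases hc : ∃ t ∈ P, u t = c ∧ v t = c'
    · obtain ⟨t, ht, rfl, rfl⟩ := hc
      refine (h.share t ht j k' (hd t ht) hWs).trans ?_
      rw [← hΛe, ← hGe, div_mul_eq_mul_div]
      refine div_le_div_of_nonneg_right ?_ hD.le
      exact mul_le_mul_of_nonneg_right (by linarith) hM.le
    · refine le_trans (le_of_eq ?_) (mul_nonneg hσ0 hM.le)
      rw [Nat.cast_eq_zero, card_eq_zero, eq_empty_iff_forall_notMem]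
      intro t ht
      rw [mem_filter] at ht
      exact hc ⟨t, ht.1, ht.2.1, ht.2.2⟩
  have c16 : (16:ℝ) ^ qp 0 ≤ 16 ^ (1 + qp 0) :=
    Real.rpow_le_rpow_of_exponent_le (by norm_num) (by linarith)
  rcases core_needle (W := W) (qp := qp) (τ := qm 1 / 8) (K := K) hne hΛ hG hW1 hM hσ0 hτ hp0
    hsize hsh hm with ⟨k, hk, hn⟩ | hn
  · refine (end1 (by positivity) hW1 hΛ hG (xs_pos hΛ k) (xs_pos hΛ (k + 1)) (xs_hi hΛ hτ k)
      (xs_step hΛ hτ k) hp0 (by linarith) h1 h2 hn).trans ?_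
    have h4 : (4:ℝ) ^ k ≤ 4 ^ K := pow_le_pow_right₀ (by norm_num) hk.le
    gcongr
  · refine (end2 (by positivity) hW1 hΛ hG (xs_pos hΛ K) (xs_last hΛ hK) hp0 hm1 h1 h2
      hn).trans ?_
    gcongr
    norm_num

/-- the two-step data at large base tilt -/
def Mid (qm qp : Fin 3 → ℝ) : Prop := ∃ A c : ℝ, 1 ≤ A ∧ 0 ≤ c ∧
  ∀ (L : ℕ → Ln4) (P : Finset ℕ) (u v : ℕ → ℕ) (bu bv : ℕ → Ln4) (eu ev : ℕ → Fin 3 → V3)
    (W M a Y w1 w2 z0 ρ : ℝ) (j k' : ℕ),
    TCore qm qp L P u v bu bv eu ev W M a Y w1 w2 z0 ρ → P.Nonempty →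
    (∀ t ∈ P, Dy (eu (u t)) (ev (v t)) Y w1 w2 j k') → (2:ℝ) ^ j * w2 ≤ 2 * w1 →
    Y * (2:ℝ) ^ k' ≤ 8 * w2 → (2 * W) ^ c ≤ (2:ℝ) ^ j →
    ∃ (cu cv : ℕ → ℕ → Prop) (au av : ℕ → ℕ → ℝ),
      MidD qp P u v cu cv au av (A * (2 * W) ^ c) M ((2:ℝ) ^ j) ((2:ℝ) ^ k' * (Y / a))

theorem pow_two_ge {A W : ℝ} (hA : 1 ≤ A) (hW : 1 ≤ W) :
    A ≤ (2 * W) ^ (Real.log A / Real.log 2) := by
  have l2 : 0 < Real.log 2 := Real.log_pos one_lt_two
  have hx : 0 ≤ Real.log A / Real.log 2 := div_nonneg (Real.log_nonneg hA) l2.le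
  calc A = (2:ℝ) ^ (Real.log A / Real.log 2) := by
        rw [Real.rpow_def_of_pos (by norm_num), mul_div_cancel₀ _ l2.ne',
          Real.exp_log (by linarith)]
    _ ≤ _ := Real.rpow_le_rpow (by norm_num) (by linarith) hx

/-- **`TiltCore` from the two-step data** -/
theorem tiltCore_of_mid (hmid : ∀ (η : ℝ) (qm qp : Fin 3 → ℝ), Ex2 η qm qp → Mid qm qp) :
    TiltCore := by
  intro η qm qp hq
  obtain ⟨A, c, hA, hc, H⟩ := hmid η qm qp hq
  have q0 := hq.le 0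
  have q1 := hq.le 1
  have q2 := hq.le 2
  have pos := hq.pos
  have e02 := hq.e02
  have e1 := hq.e1
  have hm1 : 0 < qm 1 := by linarith [q0.1, q0.2, q2.2]
  obtain ⟨K, hK⟩ := exists_nat_ge (8 / qm 1)
  have hK' : 1 ≤ (K:ℝ) * (qm 1 / 8) := by
    rw [div_le_iff₀ hm1] at hK
    linarith
  set A1 : ℝ := (6 * 4 ^ K) * 16 ^ (1 + qp 0) * (9 * A) ^ 5 with hA1
  have hA1' : 1 ≤ A1 := by
    have h1 : (1:ℝ) ≤ 4 ^ K := one_le_pow₀ (by norm_num)
    have h2 : (1:ℝ) ≤ 16 ^ (1 + qp 0) := Real.one_le_rpow (by norm_num) (by linarith [q0.1, q0.2])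
    have h3 : (1:ℝ) ≤ (9 * A) ^ 5 := one_le_pow₀ (by linarith)
    have h4 : (1:ℝ) ≤ 6 * 4 ^ K := by linarith
    have h5 : (1:ℝ) ≤ (6 * 4 ^ K) * 16 ^ (1 + qp 0) := by nlinarith
    rw [hA1]; nlinarith
  set a1 : ℝ := Real.log A1 / Real.log 2 with ha1
  have ha1' : 0 ≤ a1 := div_nonneg (Real.log_nonneg hA1') (Real.log_pos one_lt_two).le
  set D : ℝ := a1 + (c + 1) * 5 with hD
  have hD0 : 0 ≤ D := by positivity
  have hs : 0 < qm 2 - qp 0 := by linarith [q0.1, q0.2]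
  have hcS : 0 ≤ Cs5123.cS qm qp c :=
    Cs5123.cS_nonneg (by linarith [q0.1, q0.2]) (by linarith [q2.1, q2.2]) hs hc
  refine ⟨8 + 9 * Cs5123.cS qm qp c + 9 * (2 * D / qm 2), by positivity, ?_⟩
  intro L P u v bu bv eu ev W M a Y w1 w2 z0 ρ h hP
  obtain ⟨P', hP', hne, j, k', hd, hlw, hEY, -, h'⟩ := Cs501.core_sel h hP
  obtain ⟨t, ht⟩ := hne
  refine ⟨t, hP' ht, j, k', hd t ht, ?_⟩
  have hne : P'.Nonempty := ⟨t, ht⟩
  have hW := h.W1
  have hW2 : (1:ℝ) ≤ 2 * W := by linarith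
  set V : ℝ := (2 * W) ^ 8 with hV
  have hV1 : 1 ≤ V := one_le_pow₀ hW2
  -- powers of `2 V`
  have h2V : ∀ x : ℝ, 0 ≤ x → (2 * V) ^ x ≤ (2 * W) ^ (9 * x) := by
    intro x hx
    have e1 : 2 * V ≤ (2 * W) ^ (9:ℕ) := by
      calc 2 * V ≤ (2 * W) * V := mul_le_mul_of_nonneg_right (by linarith) (by linarith)
        _ = (2 * W) ^ (9:ℕ) := by rw [hV]; ring
    calc (2 * V) ^ x ≤ ((2 * W) ^ (9:ℕ)) ^ x := Real.rpow_le_rpow (by linarith) e1 hx
      _ = (2 * W) ^ (9 * x) := by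
        rw [← Real.rpow_natCast, ← Real.rpow_mul (by linarith)]; norm_num
  have mono : ∀ x y : ℝ, x ≤ y → (2 * W) ^ x ≤ (2 * W) ^ y :=
    fun x y hxy => Real.rpow_le_rpow_of_exponent_le hW2 hxy
  have hDq : 0 ≤ 2 * D / qm 2 := by positivity
  by_cases c0 : (2:ℝ) ^ j * 2 ^ k' ≤ V
  · refine c0.trans ?_
    have e1 : V = (2 * W) ^ (8:ℝ) := by rw [hV, ← Real.rpow_natCast]; norm_num
    rw [e1]
    exact mono _ _ (by linarith)
  rw [not_le] at c0
  by_cases c1 : (2:ℝ) ^ j ≤ (2 * V) ^ c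
  · refine (Cs5123.small_lam hq h' hne hd c0.le c1).trans ((h2V _ hcS).trans (mono _ _ ?_))
    linarith
  rw [not_le] at c1
  obtain ⟨cu, cv, au, av, hm⟩ := H L P' u v bu bv eu ev V M a Y w1 w2 z0 ρ j k' h' hne hd hlw hEY
    c1.le
  have hVc : 1 ≤ (2 * V) ^ c := Real.one_le_rpow (by linarith) hc
  -- enlarge the constant
  set W' : ℝ := 9 * A * ((2 * V) ^ c * (2 * V)) with hW'
  have hle : A * (2 * V) ^ c ≤ W' := by
    have h1 : A * (2 * V) ^ c * 1 ≤ A * (2 * V) ^ c * (9 * (2 * V)) :=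
      mul_le_mul_of_nonneg_left (by linarith) (by positivity)
    calc _ = A * (2 * V) ^ c * 1 := by ring
      _ ≤ _ := h1
      _ = _ := by rw [hW']; ring
  have h9 : 9 * V ≤ W' := by
    have h1 : 1 ≤ A * (2 * V) ^ c := by nlinarith
    have h2 : 9 * V * 1 ≤ (9 * (2 * V)) * (A * (2 * V) ^ c) := by
      refine mul_le_mul (by linarith) h1 zero_le_one (by linarith)
    calc _ = 9 * V * 1 := by ring
      _ ≤ _ := h2
      _ = _ := by rw [hW']; ring
  have hm' : MidD qp P' u v cu cv au av W' M ((2:ℝ) ^ j) ((2:ℝ) ^ k' * (Y / a)) := by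
    have hM := h'.M0
    have ha := h'.a0
    have hY : 0 < Y := ha.trans_le h'.aY
    exact {
      symU := hm.symU
      symV := hm.symV
      symAu := hm.symAu
      symAv := hm.symAv
      topU := hm.topU
      topV := hm.topV
      crU := fun Q h1 h2 => (hm.crU Q h1 h2).trans
        (mul_le_mul_of_nonneg_right hle (Nat.cast_nonneg _))
      crV := fun Q h1 h2 => (hm.crV Q h1 h2).trans
        (mul_le_mul_of_nonneg_right hle (Nat.cast_nonneg _))
      hullU := fun x h1 h2 t0 h3 => (hm.hullU x h1 h2 t0 h3).trans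
        (mul_le_mul_of_nonneg_right hle (by
          have : 0 ≤ x := le_trans (by positivity) h1
          positivity))
      hullV := fun x h1 h2 t0 h3 => (hm.hullV x h1 h2 t0 h3).trans
        (mul_le_mul_of_nonneg_right hle (by
          have : 0 ≤ x := le_trans (by positivity) h1
          positivity))
      hull1 := fun x h1 h2 t0 h3 => (hm.hull1 x h1 h2 t0 h3).trans
        (mul_le_mul_of_nonneg_right hle (by
          have : 0 ≤ x := le_trans (by positivity) h1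
          positivity))
      meetU := fun y h1 h2 c c'' => (hm.meetU y h1 h2 c c'').trans
        (mul_le_mul_of_nonneg_right (mul_le_mul_of_nonneg_right hle (by
          have : 0 ≤ y := le_trans (by positivity) h1
          positivity)) hM.le)
      meetV := fun y h1 h2 c c'' => (hm.meetV y h1 h2 c c'').trans
        (mul_le_mul_of_nonneg_right (mul_le_mul_of_nonneg_right hle (by
          have : 0 ≤ y := le_trans (by positivity) h1
          positivity)) hM.le) }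
  have hL := large (K := K) h' hne hd c0.le rfl rfl h9 hm' (by linarith [q0.1, q0.2]) hm1.le e1 e02
    hK'
  have hΛ : (1:ℝ) ≤ 2 ^ j := one_le_pow₀ one_le_two
  have hE : (1:ℝ) ≤ 2 ^ k' := one_le_pow₀ one_le_two
  have hX : 1 ≤ Y / a := (one_le_div h'.a0).2 h'.aY
  have hGE : (2:ℝ) ^ k' ≤ 2 ^ k' * (Y / a) := by nlinarith
  have hlow : ((2:ℝ) ^ j * 2 ^ k') ^ (qm 2 / 2) ≤
      ((2:ℝ) ^ j) ^ (3 * qm 1 / 4) * ((2:ℝ) ^ k' * (Y / a)) ^ (qm 2 / 2) := by
    rw [Real.mul_rpow (by positivity) (by positivity)]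
    refine mul_le_mul ?_ ?_ (by positivity) (by positivity)
    · exact Real.rpow_le_rpow_of_exponent_le hΛ (by linarith [q0.1, q0.2, q2.2])
    · exact Real.rpow_le_rpow (by positivity) hGE (by positivity)
  have hup : (6 * 4 ^ K) * 16 ^ (1 + qp 0) * W' ^ 5 ≤ (2 * V) ^ D := by
    have e1 : (6 * 4 ^ K) * 16 ^ (1 + qp 0) * W' ^ 5 = A1 * ((2 * V) ^ c * (2 * V)) ^ 5 := by
      rw [hA1, hW']; ring
    have e2 : ((2 * V) ^ c * (2 * V)) ^ 5 = (2 * V) ^ ((c + 1) * 5) := by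
      have : (2 * V) ^ c * (2 * V) = (2 * V) ^ (c + 1) := by
        rw [Real.rpow_add (by linarith), Real.rpow_one]
      rw [this, ← Real.rpow_natCast, ← Real.rpow_mul (by linarith)]; norm_num
    rw [e1, e2, hD, Real.rpow_add (by linarith : (0:ℝ) < 2 * V)]
    exact mul_le_mul_of_nonneg_right (pow_two_ge hA1' hV1) (by positivity)
  have hfin : ((2:ℝ) ^ j * 2 ^ k') ^ (qm 2 / 2) ≤ (2 * V) ^ D := hlow.trans (hL.trans hup)
  have hp : 0 < qm 2 / 2 := by positivity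
  have hz : (2:ℝ) ^ j * 2 ^ k' ≤ (2 * V) ^ (2 * D / qm 2) := by
    have h1 := Real.rpow_le_rpow (by positivity) hfin (by positivity : 0 ≤ (qm 2 / 2)⁻¹)
    rw [← Real.rpow_mul (by positivity), mul_inv_cancel₀ hp.ne', Real.rpow_one,
      ← Real.rpow_mul (by linarith)] at h1
    refine h1.trans (le_of_eq ?_)
    congr 1
    field_simp
  exact hz.trans ((h2V _ hDq).trans (mono _ _ (by linarith)))

end Crest.Agent.R136.Tcs48
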