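import Crest.Agent.R136.Tcs_48
import Crest.Agent.R136.Cmt_113
import Crest.Agent.R136.Chg_48

/-!
# R136 (S0187), PLAN 2, leaf C5: the two-step data from the crossing pairs (helper48)

* `top` : the normalised determinant is at most `4`;
* `Cross` : the statement of C2 (crossing pairs in every quarter of the lines);
* `mid_of : Cross → Mid`, `tiltCore_of : Cross → TiltCore`.
-/

set_option autoImplicit false
set_option linter.unusedVariables false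

open Finset

namespace Crest.Agent.R136.Tcs48

open Crest.Agent.R136.Sh605 Crest.Agent.R136.Fl808 Crest.Agent.R136.Pl2
open Crest.Agent.R136.Ndl372 (reach join Nd needle card_le_real)
open Crest.Agent.R136.Pl2W102 (Ex2)
open Crest.Agent.R136.Cmd113
open Crest.Agent.R136.Hl706 (det3 det3_frame sh)

variable {qm qp : Fin 3 → ℝ} {L : ℕ → Ln4} {P : Finset ℕ} {u v : ℕ → ℕ} {bu bv : ℕ → Ln4}
  {eu ev : ℕ → Fin 3 → V3} {W M a Y w1 w2 z0 ρ : ℝ}

theorem det_mid (a b c : V3) : |det3 a b c| = |det3 b a c| := by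
  have h : det3 a b c = -det3 b a c := by simp only [det3]; ring
  rw [h, abs_neg]

/-- two boxes `e`, `g` adjacent to `f` -/
theorem det_le {e f g : Fin 3 → V3} {Λ E : ℝ} (hf : Ortho f) (hw1 : 0 < w1)
    (h1 : Cbx140.Tb e f Y w1 w2 Λ E) (h2 : Cbx140.Tb g f Y w1 w2 Λ E) :
    |det3 (e 1) (f 1) (g 1)| * w1 ^ 2 ≤ 4 * (Λ ^ 2 * E * Y * w2) := by
  rw [det_mid, det3_frame hf]
  have a1 : |dt (f 2) (e 1)| * w1 ≤ 2 * (Λ * w2) := by rw [dt_comm]; exact h1.a12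
  have a2 : |dt (f 2) (g 1)| * w1 ≤ 2 * (Λ * w2) := by rw [dt_comm]; exact h2.a12
  have b1 : |dt (f 0) (e 1)| * w1 ≤ Λ * E * Y := by rw [dt_comm]; exact h1.t10
  have b2 : |dt (f 0) (g 1)| * w1 ≤ Λ * E * Y := by rw [dt_comm]; exact h2.t10
  have e1 : |sh f (e 1) (g 1)| ≤ |dt (f 2) (e 1)| * |dt (f 0) (g 1)| +
      |dt (f 0) (e 1)| * |dt (f 2) (g 1)| := by
    unfold sh
    rw [← abs_mul, ← abs_mul]
    exact abs_sub _ _
  have n1 := abs_nonneg (dt (f 2) (e 1))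
  have n2 := abs_nonneg (dt (f 0) (g 1))
  have n3 := abs_nonneg (dt (f 0) (e 1))
  have n4 := abs_nonneg (dt (f 2) (g 1))
  have m1 : (|dt (f 2) (e 1)| * w1) * (|dt (f 0) (g 1)| * w1) ≤ 2 * (Λ * w2) * (Λ * E * Y) :=
    mul_le_mul a1 b2 (by positivity) ((mul_nonneg n1 hw1.le).trans a1)
  have m2 : (|dt (f 0) (e 1)| * w1) * (|dt (f 2) (g 1)| * w1) ≤ (Λ * E * Y) * (2 * (Λ * w2)) :=
    mul_le_mul b1 a2 (by positivity) ((mul_nonneg n3 hw1.le).trans b1)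
  calc |sh f (e 1) (g 1)| * w1 ^ 2 ≤ (|dt (f 2) (e 1)| * |dt (f 0) (g 1)| +
        |dt (f 0) (e 1)| * |dt (f 2) (g 1)|) * w1 ^ 2 :=
        mul_le_mul_of_nonneg_right e1 (by positivity)
    _ = (|dt (f 2) (e 1)| * w1) * (|dt (f 0) (g 1)| * w1) +
        (|dt (f 0) (e 1)| * w1) * (|dt (f 2) (g 1)| * w1) := by ring
    _ ≤ 2 * (Λ * w2) * (Λ * E * Y) + (Λ * E * Y) * (2 * (Λ * w2)) := add_le_add m1 m2
    _ = _ := by ring

theorem aV_top {Λ E : ℝ} {s t : ℕ} (hf : Ortho (ev (v t))) (hw1 : 0 < w1) (hw2 : 0 < w2)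
    (hY : 0 < Y) (hΛ : 0 < Λ) (hE : 0 < E) (hst : v s = v t)
    (h1 : Cbx140.Tb (eu (u s)) (ev (v s)) Y w1 w2 Λ E)
    (h2 : Cbx140.Tb (eu (u t)) (ev (v t)) Y w1 w2 Λ E) :
    aV u v eu ev Y w1 w2 Λ E s t ≤ 16 := by
  unfold aV
  rw [if_pos hst, div_le_iff₀ (by positivity)]
  rw [hst] at h1
  refine (det_le hf hw1 h1 h2).trans ?_
  have : 0 < Λ ^ 2 * E * Y * w2 := by positivity
  linarith

open Classical in
/-- **C2**: crossing pairs in every quarter of the lines -/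
def Cross : Prop := ∀ (η : ℝ) (qm qp : Fin 3 → ℝ), Ex2 η qm qp → ∃ C : ℝ, 0 ≤ C ∧
  ∀ (L : ℕ → Ln4) (P : Finset ℕ) (u v : ℕ → ℕ) (bu bv : ℕ → Ln4) (eu ev : ℕ → Fin 3 → V3)
    (W M a Y w1 w2 z0 ρ : ℝ) (j k' : ℕ),
    TCore qm qp L P u v bu bv eu ev W M a Y w1 w2 z0 ρ → P.Nonempty →
    (∀ t ∈ P, Dy (eu (u t)) (ev (v t)) Y w1 w2 j k') → (2:ℝ) ^ j * w2 ≤ 2 * w1 →
    (2 * W) ^ C ≤ (2:ℝ) ^ j →
    ∃ B θ : ℝ, 0 ≤ B ∧ B ≤ (2 * W) ^ C ∧ 0 < θ ∧ θ ≤ 1 ∧ θ⁻¹ ≤ (2 * W) ^ C ∧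
      (∀ Q ⊆ P, P.card ≤ 4 * Q.card → (P.card : ℝ) * M ≤ (2 * W) ^ C *
        (((Q ×ˢ Q).filter fun p => u p.1 = u p.2 ∧
          CrV L P v u ev eu w1 z0 ρ M (2 ^ j) B θ p.1 p.2).card : ℝ)) ∧
      (∀ Q ⊆ P, P.card ≤ 4 * Q.card → (P.card : ℝ) * M ≤ (2 * W) ^ C *
        (((Q ×ˢ Q).filter fun p => v p.1 = v p.2 ∧
          CrV L P u v eu ev w1 z0 ρ M (2 ^ j) B θ p.1 p.2).card : ℝ))

open Classical in
theorem mid_of (hC : Cross) (η : ℝ) (qm qp : Fin 3 → ℝ) (hq : Ex2 η qm qp) : Mid qm qp := by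
  obtain ⟨C, hC0, H⟩ := hC η qm qp hq
  have q0 : 0 ≤ qp 0 := (hq.le 0).1.trans (hq.le 0).2
  have q2 : 0 ≤ qp 2 := (hq.le 2).1.trans (hq.le 2).2
  have hcH : 1 ≤ Chg48.cH qp := by
    have h1 : (1:ℝ) ≤ 4896 ^ (1 + qp 0) := Real.one_le_rpow (by norm_num) (by linarith)
    have h2 : (1:ℝ) ≤ 130000 ^ (1 + qp 2) := Real.one_le_rpow (by norm_num) (by linarith)
    unfold Chg48.cH
    nlinarith
  refine ⟨Chg48.cH qp * 12800000, 2 * C + 3, by linarith, by linarith, ?_⟩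
  intro L P u v bu bv eu ev W M a Y w1 w2 z0 ρ j k' h hne hd hlw hEY hbig
  have hW := h.W1
  have hM := h.M0
  have ha := h.a0
  have hY : 0 < Y := ha.trans_le h.aY
  have hw2 : 0 < w2 := hY.trans_le h.Yw
  have hw1 : 0 < w1 := hw2.trans_le h.ww
  have hW2 : (1:ℝ) ≤ 2 * W := by linarith
  have hΛ : (0:ℝ) < 2 ^ j := by positivity
  have hE : (0:ℝ) < 2 ^ k' := by positivity
  set Z : ℝ := (2 * W) ^ (2 * C + 3) with hZ
  have hCZ : (2 * W) ^ C ≤ Z := Real.rpow_le_rpow_of_exponent_le hW2 (by linarith)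
  have hZ1 : 1 ≤ Z := Real.one_le_rpow hW2 (by linarith)
  have hWC : 1 ≤ (2 * W) ^ C := Real.one_le_rpow hW2 hC0
  obtain ⟨B, θ, hB0, hB, hθ, hθ1, hθC, crU, crV⟩ := H L P u v bu bv eu ev W M a Y w1 w2 z0 ρ j k' h
    hne hd hlw (hCZ.trans hbig)
  have hA1 : (1:ℝ) ≤ Chg48.cH qp * 12800000 := by linarith
  have hconst : (2 * W) ^ C ≤ Chg48.cH qp * 12800000 * Z := by nlinarith
  -- constants
  have hhull : Chg48.cH qp * W ^ 2 ≤ Chg48.cH qp * 12800000 * Z := by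
    have h1 : W ^ 2 ≤ Z := by
      calc W ^ 2 ≤ (2 * W) ^ 2 := by gcongr; linarith
        _ = (2 * W) ^ (2:ℝ) := by rw [← Real.rpow_natCast]; norm_num
        _ ≤ Z := Real.rpow_le_rpow_of_exponent_le hW2 (by linarith)
    have h2 : Chg48.cH qp * W ^ 2 ≤ Chg48.cH qp * Z := by gcongr
    have h3 : 0 ≤ Chg48.cH qp * Z := by positivity
    nlinarith
  have hmeet : (B + 4 * W) * 12800000 * θ⁻¹ ≤ Chg48.cH qp * 12800000 * Z := by
    have h1 : B + 4 * W ≤ (2 * W) ^ (C + 3) := by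
      have e1 : (2 * W) ^ (C + 3) = (2 * W) ^ C * (2 * W) ^ 3 := by
        rw [Real.rpow_add (by linarith)]
        congr 1
        rw [← Real.rpow_natCast]; norm_num
      have e2 : 1 + 4 * W ≤ (2 * W) ^ 3 := by
        have hW3 : W ≤ W ^ 3 := le_self_pow₀ hW (by norm_num)
        calc 1 + 4 * W ≤ 8 * W ^ 3 := by linarith
          _ = (2 * W) ^ 3 := by ring
      rw [e1]
      have e3 : B + 4 * W ≤ (2 * W) ^ C * (1 + 4 * W) := by nlinarith
      exact e3.trans (mul_le_mul_of_nonneg_left e2 (by linarith))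
    have h2 : (B + 4 * W) * θ⁻¹ ≤ Z := by
      calc (B + 4 * W) * θ⁻¹ ≤ (2 * W) ^ (C + 3) * (2 * W) ^ C :=
            mul_le_mul h1 hθC (by positivity) (by positivity)
        _ = Z := by rw [← Real.rpow_add (by linarith), hZ]; congr 1; ring
    calc (B + 4 * W) * 12800000 * θ⁻¹ = 12800000 * ((B + 4 * W) * θ⁻¹) := by ring
      _ ≤ 12800000 * Z := by gcongr
      _ ≤ Chg48.cH qp * (12800000 * Z) := by
          have : 0 ≤ 12800000 * Z := by positivity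
          nlinarith
      _ = _ := by ring
  have hx : ∀ x : ℝ, 1 / 2 ^ j ≤ x → 1 ≤ x * 2 ^ j := by
    intro x h1
    rwa [div_le_iff₀ hΛ] at h1
  have eN : ∀ x : ℝ, x * ((2:ℝ) ^ j * 2 ^ k') * (Y / a) = x * 2 ^ j * (2 ^ k' * (Y / a)) := by
    intro x; ring
  have tb : ∀ t ∈ P, Cbx140.Tb (eu (u t)) (ev (v t)) Y w1 w2 (2 ^ j) (2 ^ k') := fun t ht =>
    Cbx140.tb_of_dy (hd t ht) (h.ou t ht) (h.ov t ht) hY h.Yw h.ww
  have hrate : ∀ y : ℝ, 0 < y → (B + 4 * W) * (12800000 / (θ * y * 2 ^ j)) * M ≤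
      Chg48.cH qp * 12800000 * Z * (1 / (y * 2 ^ j)) * M := by
    intro y hy
    refine mul_le_mul_of_nonneg_right ?_ hM.le
    have e1 : (B + 4 * W) * (12800000 / (θ * y * 2 ^ j)) =
        (B + 4 * W) * 12800000 * θ⁻¹ * (1 / (y * 2 ^ j)) := by
      field_simp
    rw [e1]
    exact mul_le_mul_of_nonneg_right hmeet (by positivity)
  refine ⟨CrV L P v u ev eu w1 z0 ρ M (2 ^ j) B θ, CrV L P u v eu ev w1 z0 ρ M (2 ^ j) B θ,
    aV v u ev eu Y w1 w2 (2 ^ j) (2 ^ k'), aV u v eu ev Y w1 w2 (2 ^ j) (2 ^ k'), ?_⟩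
  constructor
  · exact fun s t => CrV.symm
  · exact fun s t => CrV.symm
  · exact fun s t => aV_comm _ _ _ _ _ _ _ _ _ s t
  · exact fun s t => aV_comm _ _ _ _ _ _ _ _ _ s t
  · intro s hs t ht hst _
    exact aV_top (h.ou t ht) hw1 hw2 hY hΛ hE hst (tb s hs).symm (tb t ht).symm
  · intro s hs t ht hst _
    exact aV_top (h.ov t ht) hw1 hw2 hY hΛ hE hst (tb s hs) (tb t ht)
  · exact fun Q h1 h2 => (crU Q h1 h2).trans
      (mul_le_mul_of_nonneg_right hconst (Nat.cast_nonneg _))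
  · exact fun Q h1 h2 => (crV Q h1 h2).trans
      (mul_le_mul_of_nonneg_right hconst (Nat.cast_nonneg _))
  · intro x h1 h2 t0 ht0
    have := Chg48.hullUg h hd (hx x h1) q0 q2
      (CrV L P v u ev eu w1 z0 ρ M (2 ^ j) B θ) (CrV L P u v eu ev w1 z0 ρ M (2 ^ j) B θ) ht0
    rw [eN] at this
    have h0 : 0 ≤ x := le_trans (by positivity) h1
    exact this.trans (mul_le_mul_of_nonneg_right hhull (by positivity))
  · intro x h1 h2 t0 ht0
    have := Chg48.hullVg h hd (hx x h1) q0 q2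
      (CrV L P v u ev eu w1 z0 ρ M (2 ^ j) B θ) (CrV L P u v eu ev w1 z0 ρ M (2 ^ j) B θ) ht0
    rw [eN] at this
    have h0 : 0 ≤ x := le_trans (by positivity) h1
    exact this.trans (mul_le_mul_of_nonneg_right hhull (by positivity))
  · intro x h1 h2 t0 ht0
    have := Chg48.hull1g h hd (hx x h1) q0 q2
      (CrV L P v u ev eu w1 z0 ρ M (2 ^ j) B θ) ht0 inferInstance inferInstance
    rw [eN] at this
    have h0 : 0 ≤ x := le_trans (by positivity) h1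
    have h3 := this.trans (mul_le_mul_of_nonneg_right hhull (by positivity))
    convert h3
  · intro y h1 h2 c c''
    have hy : 0 < y := lt_of_lt_of_le (by positivity) h1
    exact (core_meet h hd hB0 hθ hθ1 c c'' y hy h2).trans (hrate y hy)
  · intro y h1 h2 c c''
    have hy : 0 < y := lt_of_lt_of_le (by positivity) h1
    exact (core_meet' h hd hB0 hθ hθ1 c c'' y hy h2).trans (hrate y hy)

/-- **`TiltCore` from C2** -/
theorem tiltCore_of (hC : Cross) : TiltCore := tiltCore_of_mid (mid_of hC)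

end Crest.Agent.R136.Tcs48
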