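import Crest.Agent.R136.Tct_48
import Crest.Agent.R136.CoreX_18
import Crest.Agent.R136.Gin_524

/-!
# R136 (S0187), PLAN 2, leaf C5: `tiltCore : TiltCore` (helper48)

From `CoreX_18.core_cross` (C2), `Gin_524.good_u / good_v`, `Cmt_113` (C3), `Chg_706` (C4),
`Cs2_501` (C1), `Cs5_123.small_lam`, `Ndl_372.needle`.
-/

set_option autoImplicit false
set_option linter.unusedVariables false

open Finset

namespace Crest.Agent.R136.Tcs48

open Crest.Agent.R136.Sh605 Crest.Agent.R136.Fl808 Crest.Agent.R136.Pl2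
open Crest.Agent.R136.Pl2W102 (Ex2)
open Crest.Agent.R136.Cmd113

theorem cross : Cross := by
  intro η qm qp hq
  have q0 := hq.le 0
  have q2 := hq.le 2
  have e1 := hq.e1
  have hm1 : 0 < qm 1 := by linarith [hq.pos, q0.1, q0.2, q2.2]
  obtain ⟨C, hC, H⟩ := Cx18.core_cross hm1
  set k1 : ℝ := max 1 (Gin524.Kq (qm 1)) with hk1
  have hk1' : 1 ≤ k1 := le_max_left _ _
  set b : ℝ := Real.log k1 / Real.log 2 with hb
  have hb0 : 0 ≤ b := div_nonneg (Real.log_nonneg hk1') (Real.log_pos one_lt_two).le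
  refine ⟨C + 12 + (b + 2), by linarith, ?_⟩
  intro L P u v bu bv eu ev W M a Y w1 w2 z0 ρ j k' h hne hd hlw hbig
  have hW := h.W1
  have hW2 : (1:ℝ) ≤ 2 * W := by linarith
  have mono : ∀ x y : ℝ, x ≤ y → (2 * W) ^ x ≤ (2 * W) ^ y :=
    fun x y hxy => Real.rpow_le_rpow_of_exponent_le hW2 hxy
  set B : ℝ := (2 * W) ^ (b + 2) with hB
  have hKB : Gin524.Kq (qm 1) * W ^ 2 ≤ B := by
    have h1 : Gin524.Kq (qm 1) ≤ (2 * W) ^ b := (le_max_right _ _).trans (pow_two_ge hk1' hW)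
    have h2 : W ^ 2 ≤ (2 * W) ^ (2:ℝ) := by
      calc W ^ 2 ≤ (2 * W) ^ 2 := by gcongr; linarith
        _ = (2 * W) ^ (2:ℝ) := by rw [← Real.rpow_natCast]; norm_num
    rw [hB, Real.rpow_add (by linarith)]
    exact mul_le_mul h1 h2 (by positivity) (by positivity)
  have hg1 : Cx18.GoodMost L P u eu w1 M B z0 ρ j :=
    Gin524.good_u h hm1 hlw (Nat.le_succ j) hKB
  have hg2 : Cx18.GoodMost L P v ev w1 M B z0 ρ j :=
    Gin524.good_v h hm1 hlw (Nat.le_succ j) hKB
  obtain ⟨h1, h2⟩ := H qm qp L P u v bu bv eu ev W M a Y w1 w2 z0 ρ B j rfl h hlw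
    ((mono _ _ (by linarith)).trans hbig) hg1 hg2
  refine ⟨B, (2 * W) ^ (-C), by positivity, mono _ _ (by linarith), by positivity,
    Real.rpow_le_one_of_one_le_of_nonpos hW2 (by linarith), ?_, ?_, ?_⟩
  · rw [Real.rpow_neg (by linarith), inv_inv]
    exact mono _ _ (by linarith)
  · exact fun Q a1 a2 => (h1 Q a1 a2).trans
      (mul_le_mul_of_nonneg_right (mono _ _ (by linarith)) (Nat.cast_nonneg _))
  · exact fun Q a1 a2 => (h2 Q a1 a2).trans
      (mul_le_mul_of_nonneg_right (mono _ _ (by linarith)) (Nat.cast_nonneg _))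

/-- **TARGET 1** : the base tilt theorem -/
theorem tiltCore : TiltCore := tiltCore_of cross

end Crest.Agent.R136.Tcs48
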