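import Mathlib
import Crest.Agent.R136.Yc4_953

/-!
# R136 U4, pure penalty: extra directions of the near-maximal slope (helper289)

The reward `P q` is strictly concave (`RwdF.eqc`), so the slope `θ` of the near-maximal marks is
unique and every direction `ψ'` which is bounded above sees the same `θ`:

* `DirF 𝒯 Ψ ψ' g κ'` : `UBF 𝒯 (Ψ + δ ψ') (g - κ' δ)` for small `δ > 0`, `ψ' ≤ C l`;
* `theta_dir` : marks with linear widths `θ (1 - v)` at one level `v` ⊢ `κ' ≤ ψ' 1 θ`;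
* **`xoutFd`** : 953's `xoutF` with `κ' i ≤ ψ' i 1 θ` for finitely many extra directions.
-/

set_option autoImplicit false
set_option linter.unusedSectionVars false

open Finset Filter Topology

namespace Crest.Agent.R136.Thd289

open Crest.Agent.R138.Ex926 Crest.Agent.R138.Dp76 Crest.Agent.R138.Ps627
open Crest.Agent.R138.Ps926
open Crest.Agent.R138.Mk163 (zc zl rho alive own Negl)
open Crest.Agent.R138.MkRef627 (lc kc own_one alive_mono mem_alive card_class own_lower exists_num)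
open Crest.Agent.R138.MkZoom779 (zc_nested zc_eq exists_rep)
open Crest.Agent.R136.MkA627 (ampA Geo MkA)
open Crest.Agent.R116.Xa794 (TS)
open Crest.Agent.R116.Xa2794 (lc_nested class_fib_ge class_fib_le)
open Crest.Agent.R116.Xa3794
open Crest.Agent.R116.Xc794 Crest.Agent.R116.Xc1794
open Crest.Agent.R116.Xc3794 Crest.Agent.R116.Xc4794 Crest.Agent.R116.Xc5794
open Crest.Agent.R116.Xc7794
open Crest.Agent.R116.Xc8794 (exists_rate diag_marks)
open Crest.Agent.R116.Xc9794 (refineF add_mark exists_vlim)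
open Crest.Agent.R136.Yc953

variable {Ln ι S : Type} [Fintype ι]

/-- an extra direction `ψ'` of the reward `Ψ`: bounded above, drop rate `κ'` (any sign) -/
structure DirF (𝒯 : Set (TS Ln ι S)) (Ψ ψ' : ℝ → (ι → ℝ) → ℝ) (g κ' : ℝ) : Prop where
  cont : Continuous (fun z : ℝ × (ι → ℝ) => ψ' z.1 z.2)
  hom : ∀ c l x, 0 ≤ c → 0 ≤ l → ψ' (c * l) (fun j => c * x j) = c * ψ' l x
  bdd : ∃ C : ℝ, ∀ l x, 0 ≤ l → ψ' l x ≤ C * l
  drop : ∃ δ0 : ℝ, 0 < δ0 ∧ ∀ δ : ℝ, 0 < δ → δ ≤ δ0 →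
    UBF 𝒯 (fun l x => Ψ l x + δ * ψ' l x) (g - κ' * δ)

section

variable {𝒯 : Set (TS Ln ι S)} {B : Base} {I : ℕ → Finset (ℕ × ℝ)} {lev : ℕ → ℚ → ℕ}
  {T : ℕ → TS Ln ι S} {L : ℕ → ℕ → Ln} {A : ℕ → ℝ} {g : ℝ}
  {atop : ℕ → ι → ℕ} {N : ℕ → ℕ}

/-- one extra direction, finite stage -/
theorem dir_fin [Nonempty S] {Ψ ψ' : ℝ → (ι → ℝ) → ℝ} {κ' : ℝ} (hH : HomA Ψ) (hS : SupA Ψ)
    (h : Cx 𝒯 B I T L lev A Zf g Ψ atop N) {v : ℚ} (hv0 : 0 < v) (hv1 : v < 1)
    {f : ℕ → ℕ → ℤ → ℕ} {b : ℕ → ℕ → (ι → ℕ) × S} {a : ℕ → ι → ℕ}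
    (hM : Mrk B I T L lev A (fun v => g * v + 2 * Zf v) (VV T Ψ lev atop) v f b a)
    (hD : DirF 𝒯 Ψ ψ' g κ') {e : ℝ} (he : 0 < e) :
    ∀ᶠ n in (U : Filter ℕ), ∃ a' : ι → ℕ,
      Ψ (len B lev n 0) (ys B lev atop n 0 a') ≤
        Ψ (len B lev n v) (ys B lev atop n v (a n)) +
        Ψ (len B lev n 0 - len B lev n v)
          (fun j => ys B lev atop n 0 a' j - ys B lev atop n v (a n) j) + e ∧
      κ' * (v : ℝ) - e ≤ ψ' (len B lev n 0 - len B lev n v)
          (fun j => ys B lev atop n 0 a' j - ys B lev atop n v (a n) j) := by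
  obtain ⟨C, hC⟩ := hD.bdd
  obtain ⟨δ0, hδ0, hdrop⟩ := hD.drop
  set K : ℝ := 2 * |C| + |κ'| + 1 with hK
  have hKp : 0 < K := by positivity
  set δ : ℝ := min δ0 (e / (2 * K)) with hδ
  have hδp : 0 < δ := lt_min hδ0 (by positivity)
  have hδ1 : δ ≤ δ0 := min_le_left _ _
  have hδ2 : δ ≤ e / (2 * K) := min_le_right _ _
  have hδK : δ * K ≤ e / 2 := by
    rw [le_div_iff₀ (by positivity)] at hδ2
    linarith
  set η : ℝ := min (e / 4) (e * δ / 2) with hη
  have hηp : 0 < η := lt_min (by positivity) (by positivity)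
  have hη1 : η ≤ e / 4 := min_le_left _ _
  have hη2 : η ≤ e * δ / 2 := min_le_right _ _
  have hHp : HomA (fun l x => Ψ l x + δ * ψ' l x) := by
    intro c l x hc hl
    simp only
    rw [hH c l x hc hl, hD.hom c l x hc hl]; ring
  have hvR0 : (0 : ℝ) < v := by exact_mod_cast hv0
  have hvR1 : (v : ℝ) < 1 := by exact_mod_cast hv1
  have hlu := len_lim h.sq le_rfl zero_le_one
  have hlv := len_lim h.sq hv0.le hv1.le
  have hlen := (hlu.sub hlv).eventually_lt_const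
    (show (1 - ((0 : ℚ) : ℝ)) - (1 - (v : ℝ)) < 2 by rw [Rat.cast_zero]; linarith)
  filter_upwards [step_finF h hH hHp (hdrop δ hδp hδ1) (le_refl (0 : ℚ)) hv0 hv1.le hM (η := η) hηp,
    h.sq.lev_mono 0 v le_rfl hv0.le hv1.le, h.sq.lev_mono v 1 hv0.le hv1.le le_rfl, hlen]
    with n hn h1 h2 h3
  obtain ⟨A', hA', f', b', a', -, e1, e2, e3, e4, e5⟩ := hn
  have h1' : (0 : ℝ) ≤ (lev n v : ℝ) - lev n 0 := by
    have : (lev n 0 : ℝ) ≤ lev n v := by exact_mod_cast h1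
    linarith
  have h2' : (0 : ℝ) ≤ (lev n 1 : ℝ) - lev n v := by
    have : (lev n v : ℝ) ≤ lev n 1 := by exact_mod_cast h2
    linarith
  have h3' : 0 ≤ len B lev n v := mul_nonneg (cn_pos B n).le h2'
  have h4 : 0 ≤ len B lev n 0 - len B lev n v := by
    have : len B lev n 0 - len B lev n v = cn B n * ((lev n v : ℝ) - lev n 0) := by
      unfold len; ring
    rw [this]
    exact mul_nonneg (cn_pos B n).le h1'
  have h5 := hS _ _ (ys B lev atop n v (a n))
    (fun j => ys B lev atop n 0 a' j - ys B lev atop n v (a n) j) h3' h4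
  have h6 : len B lev n v + (len B lev n 0 - len B lev n v) = len B lev n 0 := by ring
  have h7 : (fun j => ys B lev atop n v (a n) j + (ys B lev atop n 0 a' j -
      ys B lev atop n v (a n) j)) = ys B lev atop n 0 a' := by
    funext j; ring
  rw [h6, h7] at h5
  have hψ := hC (len B lev n 0 - len B lev n v)
    (fun j => ys B lev atop n 0 a' j - ys B lev atop n v (a n) j) h4
  simp only [Rat.cast_zero, sub_zero] at e4
  set X : ℝ := ψ' (len B lev n 0 - len B lev n v)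
    (fun j => ys B lev atop n 0 a' j - ys B lev atop n v (a n) j) with hX
  have hX2 : X ≤ 2 * |C| := by
    refine hψ.trans ?_
    have h8 : C * (len B lev n 0 - len B lev n v) ≤ |C| * (len B lev n 0 - len B lev n v) :=
      mul_le_mul_of_nonneg_right (le_abs_self C) h4
    have h9 : |C| * (len B lev n 0 - len B lev n v) ≤ |C| * 2 :=
      mul_le_mul_of_nonneg_left h3.le (abs_nonneg C)
    linarith
  refine ⟨a', ?_, ?_⟩
  · have h10 : δ * X ≤ δ * (2 * |C|) := mul_le_mul_of_nonneg_left hX2 hδp.le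
    have h11 : -(κ' * δ) * (v : ℝ) ≤ δ * |κ'| := by
      have h12 : -κ' * (v : ℝ) ≤ |κ'| := by
        have h13 : -κ' * (v : ℝ) ≤ |κ'| * v :=
          mul_le_mul_of_nonneg_right (neg_le_abs κ') hvR0.le
        have h14 : |κ'| * (v : ℝ) ≤ |κ'| * 1 :=
          mul_le_mul_of_nonneg_left hvR1.le (abs_nonneg κ')
        linarith
      nlinarith
    have h15 : δ * (2 * |C|) + δ * |κ'| ≤ δ * K := by rw [hK]; nlinarith
    nlinarith
  · have h16 : δ * (κ' * (v : ℝ) - e) ≤ δ * X := by nlinarith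
    exact le_of_mul_le_mul_left h16 hδp

/-- **one extra direction** : `κ' ≤ ψ' 1 θ`. -/
theorem theta_dir [Nonempty S] {P : ℝ → ℝ → (ι → ℝ) → ℝ} {ψ ψ' : ℝ → (ι → ℝ) → ℝ}
    {q0 Qm q κ' : ℝ} (hP : RwdF P ψ q0 Qm) (hq0 : q0 ≤ q) (hq8 : q ≤ Qm)
    (h : Cx 𝒯 B I T L lev A Zf g (P q) atop N) {v : ℚ} (hv0 : 0 < v) (hv1 : v < 1)
    {f : ℕ → ℕ → ℤ → ℕ} {b : ℕ → ℕ → (ι → ℕ) × S} {a : ℕ → ι → ℕ}
    (hM : Mrk B I T L lev A (fun v => g * v + 2 * Zf v) (VV T (P q) lev atop) v f b a)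
    {θ : ι → ℝ}
    (hθ : ∀ j, Tendsto (fun n => ys B lev atop n v (a n) j) U (𝓝 (θ j * (1 - (v : ℝ)))))
    (hD : DirF 𝒯 (P q) ψ' g κ') : κ' ≤ ψ' 1 θ := by
  have hq0' : 0 ≤ q := hP.q0pos.le.trans hq0
  have hHq : HomA (P q) := fun c l x hc hl => hP.hom q c l x hq0' hc hl
  have hSq : SupA (P q) := fun l l' x x' hl hl' => hP.sup q l l' x x' hq0' hl hl'
  have hvR0 : (0 : ℝ) < v := by exact_mod_cast hv0
  have hvR1 : (v : ℝ) < 1 := by exact_mod_cast hv1
  obtain ⟨e, he0, hel, he⟩ := exists_rate _ (fun e he => dir_fin hHq hSq h hv0 hv1 hM hD (e := e) he)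
  have hsm : ∀ e' : ℝ, 0 < e' → ∀ᶠ n in (U : Filter ℕ), e n ≤ e' := by
    intro e' he'
    filter_upwards [hel.eventually_lt_const he'] with n hn using hn.le
  have hch : ∀ n, ∃ a' : ι → ℕ, ((∃ a' : ι → ℕ,
      P q (len B lev n 0) (ys B lev atop n 0 a') ≤
        P q (len B lev n v) (ys B lev atop n v (a n)) +
        P q (len B lev n 0 - len B lev n v)
          (fun j => ys B lev atop n 0 a' j - ys B lev atop n v (a n) j) + e n ∧
      κ' * (v : ℝ) - e n ≤ ψ' (len B lev n 0 - len B lev n v)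
          (fun j => ys B lev atop n 0 a' j - ys B lev atop n v (a n) j)) →
      (P q (len B lev n 0) (ys B lev atop n 0 a') ≤
        P q (len B lev n v) (ys B lev atop n v (a n)) +
        P q (len B lev n 0 - len B lev n v)
          (fun j => ys B lev atop n 0 a' j - ys B lev atop n v (a n) j) + e n ∧
      κ' * (v : ℝ) - e n ≤ ψ' (len B lev n 0 - len B lev n v)
          (fun j => ys B lev atop n 0 a' j - ys B lev atop n v (a n) j))) := by
    intro n
    by_cases hP' : ∃ a' : ι → ℕ,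
      P q (len B lev n 0) (ys B lev atop n 0 a') ≤
        P q (len B lev n v) (ys B lev atop n v (a n)) +
        P q (len B lev n 0 - len B lev n v)
          (fun j => ys B lev atop n 0 a' j - ys B lev atop n v (a n) j) + e n ∧
      κ' * (v : ℝ) - e n ≤ ψ' (len B lev n 0 - len B lev n v)
          (fun j => ys B lev atop n 0 a' j - ys B lev atop n v (a n) j)
    · obtain ⟨a', h1⟩ := hP'
      exact ⟨a', fun _ => h1⟩
    · exact ⟨fun _ => 0, fun h => absurd h hP'⟩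
  choose a' ha' using hch
  have hE : ∀ e' : ℝ, 0 < e' → ∀ᶠ n in (U : Filter ℕ),
      P q (len B lev n 0) (ys B lev atop n 0 (a' n)) ≤
        P q (len B lev n v) (ys B lev atop n v (a n)) +
        P q (len B lev n 0 - len B lev n v)
          (fun j => ys B lev atop n 0 (a' n) j - ys B lev atop n v (a n) j) + e' := by
    intro e' he'
    filter_upwards [he, hsm e' he'] with n h1 h2
    have := (ha' n h1).1
    linarith
  have hy := fun j => eq_limF hP hq0 hq8 h.sq (le_refl (0 : ℚ)) hv0 hv1 hθ hE j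
  have hlu := len_lim h.sq (le_refl (0 : ℚ)) zero_le_one
  have hlv := len_lim h.sq hv0.le hv1.le
  have hx : Tendsto (fun n => fun j => ys B lev atop n 0 (a' n) j - ys B lev atop n v (a n) j) U
      (𝓝 (fun j => (v : ℝ) * θ j)) := by
    refine tendsto_pi_nhds.2 fun j => ?_
    have h1 := (hy j).sub (hθ j)
    have e1 : θ j * (1 - ((0 : ℚ) : ℝ)) - θ j * (1 - (v : ℝ)) = (v : ℝ) * θ j := by
      rw [Rat.cast_zero]; ring
    rw [e1] at h1
    exact h1
  have hl : Tendsto (fun n => len B lev n 0 - len B lev n v) U (𝓝 ((v : ℝ) * 1)) := by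
    have h1 := hlu.sub hlv
    have e1 : (1 - ((0 : ℚ) : ℝ)) - (1 - (v : ℝ)) = (v : ℝ) * 1 := by
      rw [Rat.cast_zero]; ring
    rw [e1] at h1
    exact h1
  have hlim : Tendsto (fun n => ψ' (len B lev n 0 - len B lev n v)
      (fun j => ys B lev atop n 0 (a' n) j - ys B lev atop n v (a n) j)) U
      (𝓝 (ψ' ((v : ℝ) * 1) (fun j => (v : ℝ) * θ j))) :=
    (hD.cont.tendsto (((v : ℝ) * 1, fun j => (v : ℝ) * θ j) : ℝ × (ι → ℝ))).comp
      (hl.prodMk_nhds hx)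
  have hge : κ' * (v : ℝ) ≤ ψ' ((v : ℝ) * 1) (fun j => (v : ℝ) * θ j) := by
    refine le_of_forall_pos_le_add fun e' he' => ?_
    have h6 := ge_of_tendsto hlim (b := κ' * (v : ℝ) - e') (by
      filter_upwards [he, hsm e' he'] with n h1 h2
      have := (ha' n h1).2
      linarith)
    linarith
  rw [hD.hom (v : ℝ) 1 θ hvR0.le zero_le_one] at hge
  have h7 : (v : ℝ) * κ' ≤ (v : ℝ) * ψ' 1 θ := by linarith
  exact le_of_mul_le_mul_left h7 hvR0

end

/-- **953's `xoutF` with extra directions.** -/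
theorem xoutFd {𝒯 : Set (TS Ln ι S)} {P : ℝ → ℝ → (ι → ℝ) → ℝ} {ψ : ℝ → (ι → ℝ) → ℝ}
    {q0 Qm κ δ0 q g : ℝ} (hP : RwdF P ψ q0 Qm) (hch : ChsF 𝒯 P q0 Qm κ δ0 q g)
    {ν : Type} [Fintype ν] {ψx : ν → ℝ → (ι → ℝ) → ℝ} {κx : ν → ℝ}
    (hx : ∀ i, DirF 𝒯 (P q) (ψx i) g (κx i)) :
    ∃ θ : ι → ℝ, XOutF 𝒯 (P q) ψ κ g θ ∧ ∀ i, κx i ≤ ψx i 1 θ := by
  classical
  have hq0 : 0 ≤ q := hP.q0pos.le.trans hch.qlo
  have hq8 : q ≤ Qm := by linarith [hch.qhi, hch.δ0pos]
  have hSq : SupA (P q) := fun l l' x x' hl hl' => hP.sup q l l' x x' hq0 hl hl'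
  obtain ⟨B, I, T, L, lev, A, f, b, atop, N, hS, hT, hfin, hNd, hA, hsq, h0, hM⟩ :=
    exists_initF (hP.zero q) hch.low hch.ub
  obtain ⟨J, hJI, hJd, hdm⟩ := exists_dmxF hsq 𝒯 hSq hch.ub hT hfin hNd hA h0
  rw [cZ] at hM hdm
  obtain ⟨J1, h1, h2, h3, h4, h5⟩ := refineF hsq hJd {1} (by
      intro v hv
      rw [mem_singleton] at hv
      subst hv
      exact ⟨zero_le_one, le_rfl⟩) (mem_singleton_self _) (fun _ => I)
    (fun _ _ n => Subset.refl _) (fun _ _ => Eventually.of_forall fun n => hJI n)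
    (fun _ _ => Eventually.of_forall fun n x _ y hy _ => hy) (fun _ => f) (fun _ => b)
    (fun _ => atop) (by
      intro v hv
      rw [mem_singleton] at hv
      subst hv
      exact hM)
  have hCx : Cx 𝒯 B J1 T L lev A Zf g (P q) atop N := ⟨hT, hfin, hNd, hA, h4, hdm.mono h1⟩
  have hM1 := h5 1 (mem_singleton_self _)
  -- all directions in one continuous function of `θ`
  set ψa : ℝ → (ι → ℝ) → ℝ := fun l x =>
    -(max 0 (κ - ψ l x) + ∑ i, max 0 (κx i - ψx i l x)) with hψa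
  have hψac : Continuous (fun z : ℝ × (ι → ℝ) => ψa z.1 z.2) := by
    simp only [hψa]
    refine (Continuous.add (continuous_const.max (continuous_const.sub hP.contψ))
      (continuous_finsetSum _ fun i _ =>
        continuous_const.max (continuous_const.sub (hx i).cont))).neg
  have hiff : ∀ x, 0 ≤ ψa 1 x ↔ κ ≤ ψ 1 x ∧ ∀ i, κx i ≤ ψx i 1 x := by
    intro x
    have hs0 : 0 ≤ ∑ i, max 0 (κx i - ψx i 1 x) := sum_nonneg fun i _ => le_max_left _ _
    have hm0 : 0 ≤ max 0 (κ - ψ 1 x) := le_max_left _ _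
    constructor
    · intro h
      simp only [hψa] at h
      have h1 : max 0 (κ - ψ 1 x) = 0 := by linarith
      have h2 : ∑ i, max 0 (κx i - ψx i 1 x) = 0 := by linarith
      refine ⟨?_, fun i => ?_⟩
      · have := le_max_right 0 (κ - ψ 1 x); linarith
      · have h3 := (sum_eq_zero_iff_of_nonneg fun i _ => le_max_left _ _).1 h2 i (mem_univ i)
        have := le_max_right 0 (κx i - ψx i 1 x)
        linarith
    · rintro ⟨h1, h2⟩
      simp only [hψa]
      have e1 : max 0 (κ - ψ 1 x) = 0 := max_eq_left (by linarith)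
      have e2 : ∑ i, max 0 (κx i - ψx i 1 x) = 0 :=
        sum_eq_zero fun i _ => max_eq_left (by linarith [h2 i])
      rw [e1, e2]; simp
  obtain ⟨J2, f2, b2, a2, θ, g1, g2, g3, g4, g5⟩ :=
    Crest.Agent.R116.XcD794.final_diag hCx (κ := 0) (ψ := ψa) hψac (by
      obtain ⟨R, hR, hR2⟩ := hP.coe κ hch.κpos
      exact ⟨R * 1, fun x hx' j =>
        hR2 1 x zero_le_one (by rw [mul_one]; exact ((hiff x).1 hx').1) j⟩) (by
      intro v0 hv0 hv1 W hW
      obtain ⟨J, f, b, a, θ, e1, e2, e3, e4, e5, e6⟩ := meshF hP hch hCx hv0 hv1 hM1 W hW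
      have hmv := e6 v0 (mem_insert_of_mem (mem_insert_self _ _))
      exact ⟨J, f, b, a, θ, e1, e2, e3.sq, e4, (hiff θ).2 ⟨e5, fun i =>
        theta_dir hP hch.qlo hq8 e3 hv0 hv1 hmv.1 hmv.2 (hx i)⟩, e6⟩)
  obtain ⟨hk, hkx⟩ := (hiff θ).1 g4
  have hmk := Crest.Agent.R116.XcM708.mk_assemble hA g2 (hCx.dmx.mono g1) f2 b2 a2 θ g3
    (fun v h0 h1 => (g5 v h0 h1).1) (fun v h0 h1 => (g5 v h0 h1).2)
  rw [← cZ, Zf_eq] at hmk
  refine ⟨θ, ⟨B, J2, T, L, lev, A, f2, b2, fun n v => VV T (P q) lev atop n (lev n v) (a2 n v),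
    fun j n v => (1 / 2 : ℝ) ^ (a2 n v j), atop, N, a2, hT, hfin, hNd, hk,
    hmk, g3, fun n v j => rfl, fun n v => rfl, ?_⟩, hkx⟩
  intro v hv0 hv1
  filter_upwards [(g5 v hv0 hv1).1.mark, g2.ne] with n hn hne
  obtain ⟨x, hx⟩ := hne
  obtain ⟨-, m2, m3⟩ := hn x hx
  exact ⟨_, _, m2, m3⟩

end Crest.Agent.R136.Thd289
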