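import Mathlib
import Crest.Agent.R136.Mxh_615

/-!
# R136 (U4, PLAN 2 (AL), mixed curvatures): thin base sheet (helper615)

`thn V` = flat sheet of thickness `V.w 0` containing the whole box of `V`; `V.w 0` is a free
half-width, used when `V.w 0 < 10 ^ 6 * V.a`.
-/

set_option autoImplicit false
set_option linter.unusedVariables false

namespace Crest.Agent.R136.Mxc615

open Crest.Agent.R136.Rk601
open Crest.Agent.R136.Sh605 Crest.Agent.R136.Tl102
open Crest.Agent.R136.K4 (Plk4)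
open Crest.Agent.R136.Tlt51 (Shp InP)
open Crest.Agent.R136.KapP335 (kapP DetP kapP_eq expP_eq expP)

/-- flat sheet of half-width `10^6 w 0` and thickness `w 0` around the box of `V` -/
def thn (V : Plk4) : Plk4 where
  j := V.j
  e := V.e
  c := V.c
  w := ![10 ^ 6 * V.w 0, V.w 1, V.w 2]
  q := fun z x => dt (V.e 0) (x - V.c.pos z)
  a := V.w 0

@[simp] theorem thn_e (V : Plk4) : (thn V).e = V.e := rfl
@[simp] theorem thn_c (V : Plk4) : (thn V).c = V.c := rfl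
@[simp] theorem thn_a (V : Plk4) : (thn V).a = V.w 0 := rfl
@[simp] theorem thn_w0 (V : Plk4) : (thn V).w 0 = 10 ^ 6 * V.w 0 := rfl
@[simp] theorem thn_w1 (V : Plk4) : (thn V).w 1 = V.w 1 := rfl
@[simp] theorem thn_w2 (V : Plk4) : (thn V).w 2 = V.w 2 := rfl
theorem thn_q (V : Plk4) (z : ℝ) (x : V3) : (thn V).q z x = dt (V.e 0) (x - V.c.pos z) := rfl

theorem thn_isQ (V : Plk4) : IsQ (thn V).q := by
  refine ⟨-dt (V.e 0) V.c.p, -dt (V.e 0) V.c.v, 0, V.e 0, 0, 0, fun z x => ?_⟩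
  rw [thn_q]
  simp only [dt, Pi.sub_apply, Ln4.pos, Fin.sum_univ_three, Pi.zero_apply]
  ring

theorem thn_step {V : Plk4} (h : Ortho V.e) (z τ : ℝ) (x : V3) (k : Fin 3) :
    (thn V).q z (x + τ • V.e k) - (thn V).q z x = if k = 0 then τ else 0 := by
  have h1 := h 0 k
  have h2 : (thn V).q z (x + τ • V.e k) - (thn V).q z x = τ * dt (V.e 0) (V.e k) := by
    rw [thn_q, thn_q]
    simp only [dt, Pi.sub_apply, Pi.add_apply, Pi.smul_apply, smul_eq_mul]
    ring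
  rw [h2, h1]
  by_cases hk : k = 0
  · subst hk; simp
  · rw [if_neg (fun h => hk h.symm), if_neg hk, mul_zero]

theorem thn_shp {V : Plk4} {z0 ρ r : ℝ} (hr : 0 < r) (hV : Shp V z0 ρ r)
    (h : 10 ^ 6 * V.w 0 ≤ V.w 2) : Shp (thn V) z0 ρ r := by
  have haV : 0 < V.a := lt_of_lt_of_le hr hV.r0_le
  have gw0 : 0 < V.w 0 := lt_of_lt_of_le haV hV.a_le0
  have gw2 : 0 < V.w 2 := lt_of_lt_of_le gw0 hV.w0_le
  have gw1 : 0 < V.w 1 := lt_of_lt_of_le gw2 hV.w_le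
  exact
  { ortho := hV.ortho
    isQ := thn_isQ V
    a_le0 := by show V.w 0 ≤ 10 ^ 6 * V.w 0; linarith
    w0_le := h
    w_le := hV.w_le
    r0_le := hV.r0_le.trans hV.a_le0
    st0 := fun z hz hz' x τ hτ h1 h2 => by
      have e0 := thn_step hV.ortho z τ x 0
      rw [if_pos rfl] at e0
      rw [thn_e] at *
      rw [e0]
      constructor <;> linarith
    sl1 := fun z hz hz' x τ hτ h1 h2 => by
      have e0 := thn_step hV.ortho z τ x 1
      rw [if_neg (by decide)] at e0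
      rw [thn_e] at *
      rw [e0, abs_zero, thn_w0, thn_w1]
      positivity
    sl2 := fun z hz hz' x τ hτ h1 h2 => by
      have e0 := thn_step hV.ortho z τ x 2
      rw [if_neg (by decide)] at e0
      rw [thn_e] at *
      rw [e0, abs_zero, thn_w0, thn_w2]
      positivity }

theorem thn_inP {V : Plk4} {T : Ln4} {z0 ρ : ℝ} (tV : InP T V z0 ρ) : InP T (thn V) z0 ρ := by
  intro z h1 h2
  have h3 := (tV z h1 h2).1
  refine ⟨fun i => ?_, ?_⟩
  · have h0 : |dt (V.e i) (T.pos z - V.c.pos z)| ≤ V.w i := h3 i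
    have hw := (abs_nonneg _).trans (h3 0)
    show |dt (V.e i) (T.pos z - V.c.pos z)| ≤ (thn V).w i
    fin_cases i
    · show |dt (V.e 0) (T.pos z - V.c.pos z)| ≤ 10 ^ 6 * V.w 0
      have h4 : |dt (V.e 0) (T.pos z - V.c.pos z)| ≤ V.w 0 := h3 0
      linarith
    · exact h3 1
    · exact h3 2
  · exact h3 0

theorem thn_isExp {V : Plk4} (hV : Ortho V.e) (T : Ln4) (z0 ρ : ℝ) :
    IsExp (thn V).q (thn V).e (thn V).w T z0 ρ ![1, 0, 0] 0 ⟨0, 0, 0, 0, 0, 0⟩ := by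
  intro ζ x
  have h1 := dt_cmb_fr hV (thn V).w x 0
  have h2 : (thn V).q (z0 + ρ * ζ) (T.pos (z0 + ρ * ζ) + cmb (fr V.e (thn V).w) x) =
      (thn V).q (z0 + ρ * ζ) (T.pos (z0 + ρ * ζ)) + dt (V.e 0) (cmb (fr V.e (thn V).w) x) := by
    rw [thn_q, thn_q]
    simp only [dt, Pi.sub_apply, Pi.add_apply]
    ring
  rw [thn_e, h2, h1]
  simp [Fq, bz, dt, QF.ev]

theorem thn_kapP {V : Plk4} (hV : Ortho V.e) (h0 : V.w 0 ≠ 0) (T : Ln4) (z0 ρ : ℝ) :
    kapP (thn V) z0 ρ T = 0 := by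
  have hw : (thn V).w 0 ≠ 0 := by rw [thn_w0]; positivity
  rw [kapP_eq hw (thn_isExp hV T z0 ρ)]
  simp [kap, shB1, shG]

theorem thn_expP {V : Plk4} (hV : Ortho V.e) (h0 : V.w 0 ≠ 0) (T : Ln4) (z0 ρ : ℝ) :
    expP (thn V) z0 ρ T = (![1, 0, 0], 0, ⟨0, 0, 0, 0, 0, 0⟩) := by
  have hw : (thn V).w 0 ≠ 0 := by rw [thn_w0]; positivity
  exact expP_eq hw (thn_isExp hV T z0 ρ)

end Crest.Agent.R136.Mxc615
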