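import Mathlib

/-!
# R136, helper248: choice of the rewards by a THRESHOLD (helper294, doc 2206, section 2)

`β q1 q2` = supremum of the gap of the configurations with reward `q1` on the wide lateral width
and `q2` on the narrow one (no reward on the thickness).

* `exists_thr`        : one variable.  `q = max {q : θ ≤ β q + κ q}`: sweep
  `β (q+ε) ≤ β q - κ ε` for ALL `ε > 0` and `θ - κ q ≤ β q`.
* `exists_thr_lip`    : for a Lipschitz `β` in addition `β q + κ q = θ`.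
* `exists_rewards`    : the choice `0 < q2 ≤ η g`, `0 < g = β q1 q2 ≤ η q1`, sweep in `q1`
  (`q2 << g << q1`, `η` any constant).
-/

set_option autoImplicit false

namespace Crest.Agent.R136.Thr248

open Set Filter Topology

/-- Choice of the reward by a threshold, only upper semicontinuity is used. -/
theorem exists_thr {β : ℝ → ℝ} {q0 Q θ κ : ℝ} (hQ : q0 ≤ Q)
    (husc : UpperSemicontinuousOn β (Icc q0 Q)) (h0 : θ ≤ β q0 + κ * q0)
    (h2 : β Q + κ * Q < θ) :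
    ∃ q : ℝ, q0 ≤ q ∧ q < Q ∧ θ ≤ β q + κ * q ∧
      (∀ q', q < q' → q' ≤ Q → β q' + κ * q' < θ) ∧
      ∀ ε, 0 < ε → q + ε ≤ Q → β (q + ε) ≤ β q - κ * ε := by
  classical
  set g : ℝ → ℝ := fun q => β q + κ * q with hg
  have hgusc : UpperSemicontinuousOn g (Icc q0 Q) := by
    apply husc.add
    exact (continuous_const.mul continuous_id).continuousOn.upperSemicontinuousOn
  set S : Set ℝ := {q | q ∈ Icc q0 Q ∧ θ ≤ g q} with hS
  have hq0S : q0 ∈ S := ⟨⟨le_refl _, hQ⟩, h0⟩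
  have hbdd : BddAbove S := ⟨Q, fun q hq => hq.1.2⟩
  have hne : S.Nonempty := ⟨q0, hq0S⟩
  set q : ℝ := sSup S with hq
  have hq0 : q0 ≤ q := le_csSup hbdd hq0S
  have hq2 : q ≤ Q := csSup_le hne (fun p hp => hp.1.2)
  have hqI : q ∈ Icc q0 Q := ⟨hq0, hq2⟩
  have hgq : θ ≤ g q := by
    by_contra hlt
    push Not at hlt
    have := hgusc q hqI θ hlt
    rw [eventually_nhdsWithin_iff] at this
    obtain ⟨δ, hδ, hball⟩ := Metric.eventually_nhds_iff.1 this
    obtain ⟨p, hpS, hp⟩ := exists_lt_of_lt_csSup hne (show q - δ < sSup S by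
      rw [← hq]; linarith)
    have hpq : p ≤ q := le_csSup hbdd hpS
    have hdist : dist p q < δ := by
      rw [Real.dist_eq, abs_lt]; constructor <;> linarith
    have := hball hdist hpS.1
    exact absurd hpS.2 (not_le.2 this)
  have hqlt : q < Q := by
    rcases hq2.lt_or_eq with h | h
    · exact h
    · exfalso
      rw [h] at hgq
      exact absurd hgq (not_le.2 h2)
  have hlt : ∀ q', q < q' → q' ≤ Q → β q' + κ * q' < θ := by
    intro q' h1 h2
    have hmem : q' ∈ Icc q0 Q := ⟨by linarith, h2⟩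
    by_contra hge
    push Not at hge
    have := le_csSup hbdd (show q' ∈ S from ⟨hmem, hge⟩)
    rw [← hq] at this
    linarith
  refine ⟨q, hq0, hqlt, hgq, hlt, ?_⟩
  intro ε hε hle
  have h5 : β (q + ε) + κ * (q + ε) < θ := hlt (q + ε) (by linarith) hle
  have h6 : θ ≤ β q + κ * q := hgq
  nlinarith [h5, h6]

/-- The same for a Lipschitz function: the threshold is attained exactly. -/
theorem exists_thr_lip {β : ℝ → ℝ} {q0 Q θ κ C : ℝ} (hQ : q0 ≤ Q)
    (hL : ∀ q ∈ Icc q0 Q, ∀ q' ∈ Icc q0 Q, |β q - β q'| ≤ C * |q - q'|)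
    (h0 : θ ≤ β q0 + κ * q0) (h2 : β Q + κ * Q < θ) :
    ∃ q : ℝ, q0 ≤ q ∧ q < Q ∧ β q = θ - κ * q ∧
      ∀ ε, 0 < ε → q + ε ≤ Q → β (q + ε) ≤ β q - κ * ε := by
  have hcont : ContinuousOn β (Icc q0 Q) := by
    have : LipschitzOnWith (Real.toNNReal C) β (Icc q0 Q) := by
      apply LipschitzOnWith.of_dist_le_mul
      intro x hx y hy
      rw [Real.dist_eq, Real.dist_eq]
      refine (hL x hx y hy).trans ?_
      exact mul_le_mul_of_nonneg_right (Real.le_coe_toNNReal C) (abs_nonneg _)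
    exact this.continuousOn
  obtain ⟨q, hq0, hqQ, hge, hlt, hsw⟩ :=
    exists_thr hQ hcont.upperSemicontinuousOn h0 h2
  refine ⟨q, hq0, hqQ, ?_, hsw⟩
  have hle : β q + κ * q ≤ θ := by
    have hqI : q ∈ Icc q0 Q := ⟨hq0, hqQ.le⟩
    have hc : ContinuousWithinAt (fun x => β x + κ * x) (Ioc q Q) q := by
      have h1 : ContinuousWithinAt (fun x => β x + κ * x) (Icc q0 Q) q :=
        ((hcont.add (continuous_const.mul continuous_id).continuousOn) q hqI)
      exact h1.mono (fun x hx => ⟨by linarith [hx.1], hx.2⟩)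
    have hcl : q ∈ closure (Ioc q Q) := by
      rw [closure_Ioc hqQ.ne]
      exact ⟨le_refl _, hqQ.le⟩
    have : (𝓝[Ioc q Q] q).NeBot := mem_closure_iff_nhdsWithin_neBot.1 hcl
    refine le_of_tendsto (f := fun x => β x + κ * x) hc ?_
    filter_upwards [self_mem_nhdsWithin] with x hx
    exact (hlt x hx.1 hx.2).le
  linarith

/-- **Choice of the two rewards** (doc 2206, section 2): `q2 << g << q1` with a sweep in `q1`.
`Q` = the end of the interval of wide rewards where the gap is known to be nonpositive (`Q = 2`). -/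
theorem exists_rewards {β : ℝ → ℝ → ℝ} {C Q η : ℝ} (hC : 0 ≤ C) (hQ : 0 < Q) (hη : 0 < η)
    (hL1 : ∀ q2 ∈ Icc (0:ℝ) 1, ∀ q ∈ Icc (0:ℝ) Q, ∀ q' ∈ Icc (0:ℝ) Q,
      |β q q2 - β q' q2| ≤ C * |q - q'|)
    (hL2 : ∀ q ∈ Icc (0:ℝ) Q, ∀ q2 ∈ Icc (0:ℝ) 1, |β q q2 - β q 0| ≤ C * q2)
    (h0 : 0 < β 0 0) (hend : β Q 0 ≤ 0) :
    ∃ q1 q2 κ : ℝ, 0 < q1 ∧ q1 < Q ∧ 0 < q2 ∧ q2 ≤ 1 ∧ 0 < κ ∧
      0 < β q1 q2 ∧ q2 ≤ η * β q1 q2 ∧ β q1 q2 ≤ η * q1 ∧
      ∀ ε, 0 < ε → q1 + ε ≤ Q → β (q1 + ε) q2 ≤ β q1 q2 - κ * ε := by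
  -- small base reward `q0`
  set b : ℝ := β 0 0 with hb
  set K : ℝ := C + 1 with hK
  have hK1 : 1 ≤ K := by linarith
  set q0 : ℝ := min (Q / 2) (b / (4 * K)) with hq0
  have hq0p : 0 < q0 := lt_min (by linarith) (by positivity)
  have hq0Q : q0 < Q := lt_of_le_of_lt (min_le_left _ _) (by linarith)
  have hq0b : K * q0 ≤ b / 4 := by
    calc K * q0 ≤ K * (b / (4 * K)) :=
          mul_le_mul_of_nonneg_left (min_le_right _ _) (by linarith)
      _ = b / 4 := by field_simp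
  -- the threshold
  set θ : ℝ := min (η * q0) (b / 4) with hθ
  have hθp : 0 < θ := lt_min (by positivity) (by positivity)
  have hθη : θ ≤ η * q0 := min_le_left _ _
  have hθb : θ ≤ b / 4 := min_le_right _ _
  set κ : ℝ := θ / (4 * Q) with hκ
  have hκp : 0 < κ := by positivity
  have hκQ : κ * Q = θ / 4 := by rw [hκ]; field_simp
  -- the narrow reward
  set q2 : ℝ := min 1 (min (θ / (4 * K)) (η * θ / 2)) with hq2
  have hq2p : 0 < q2 := lt_min one_pos (lt_min (by positivity) (by positivity))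
  have hq21 : q2 ≤ 1 := min_le_left _ _
  have hq2K : K * q2 ≤ θ / 4 := by
    calc K * q2 ≤ K * (θ / (4 * K)) :=
          mul_le_mul_of_nonneg_left ((min_le_right _ _).trans (min_le_left _ _)) (by linarith)
      _ = θ / 4 := by field_simp
  have hq2η : q2 ≤ η * θ / 2 := (min_le_right _ _).trans (min_le_right _ _)
  have hCq2 : C * q2 ≤ θ / 4 := by nlinarith
  have hmem2 : q2 ∈ Icc (0:ℝ) 1 := ⟨hq2p.le, hq21⟩
  have hz2 : (0:ℝ) ∈ Icc (0:ℝ) 1 := ⟨le_refl _, zero_le_one⟩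
  have hmem0 : q0 ∈ Icc (0:ℝ) Q := ⟨hq0p.le, hq0Q.le⟩
  have hmemz : (0:ℝ) ∈ Icc (0:ℝ) Q := ⟨le_refl _, hQ.le⟩
  have hmemQ : Q ∈ Icc (0:ℝ) Q := ⟨hQ.le, le_refl _⟩
  -- signs at the two ends
  have hA : θ ≤ β q0 q2 + κ * q0 := by
    have h1 := (abs_le.1 (hL1 0 hz2 q0 hmem0 0 hmemz)).1
    have h2 := (abs_le.1 (hL2 q0 hmem0 q2 hmem2)).1
    rw [sub_zero, abs_of_pos hq0p] at h1
    have h3 : C * q0 ≤ b / 4 := by nlinarith
    have h4 : 0 < κ * q0 := by positivity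
    linarith
  have hB : β Q q2 + κ * Q < θ := by
    have h2 := (abs_le.1 (hL2 Q hmemQ q2 hmem2)).2
    linarith
  obtain ⟨q1, h01, h1Q, heq, hsw⟩ := exists_thr_lip (β := fun q => β q q2) (C := C) hq0Q.le
    (fun q hq q' hq' => hL1 q2 hmem2 q ⟨by linarith [hq.1], hq.2⟩ q'
      ⟨by linarith [hq'.1], hq'.2⟩) hA hB
  have heq' : β q1 q2 = θ - κ * q1 := heq
  have h5 : κ * q1 ≤ θ / 4 := by
    rw [← hκQ]; exact mul_le_mul_of_nonneg_left h1Q.le hκp.le
  have h6 : 0 ≤ κ * q1 := by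
    have : 0 ≤ q1 := by linarith
    positivity
  have hlow : θ / 2 ≤ β q1 q2 := by linarith
  refine ⟨q1, q2, κ, by linarith, h1Q, hq2p, hq21, hκp, by linarith, ?_, ?_, hsw⟩
  · calc q2 ≤ η * θ / 2 := hq2η
      _ = η * (θ / 2) := by ring
      _ ≤ η * β q1 q2 := mul_le_mul_of_nonneg_left hlow hη.le
  · calc β q1 q2 ≤ θ := by linarith
      _ ≤ η * q0 := hθη
      _ ≤ η * q1 := mul_le_mul_of_nonneg_left h01 hη.le

end Crest.Agent.R136.Thr248
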