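import Mathlib

/-!
# R136, tilt lemma, second order part (helper214): algebra of two sheets with broad common fans

`E` = space-time (any real vector space), `q0, q1` quadratic polynomials on `E` (two sheets
`|q0| ≤ a`, `|q1| ≤ a`), `eY` = steep direction, `eA, eB` lateral directions, all already multiplied
by the widths of the box.  See doc 2262.
-/

set_option autoImplicit false
set_option linter.unusedVariables false
set_option linter.unusedSectionVars false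

namespace Crest.Agent.R136.Tl214

/-- quadratic polynomials on `E` -/
structure QP (E : Type*) [AddCommGroup E] [Module ℝ E] where
  c : ℝ
  l : E →ₗ[ℝ] ℝ
  H : E →ₗ[ℝ] E →ₗ[ℝ] ℝ
  symm : ∀ x y, H x y = H y x

section identities

variable {E : Type*} [AddCommGroup E] [Module ℝ E]

/-- value -/
def QP.f (q : QP E) (x : E) : ℝ := q.c + q.l x + q.H x x

/-- gradient -/
def QP.G (q : QP E) (x ξ : E) : ℝ := q.l ξ + 2 * q.H x ξ

theorem QP.taylor (q : QP E) (x ξ : E) : q.f (x + ξ) = q.f x + q.G x ξ + q.H ξ ξ := by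
  simp only [QP.f, QP.G, map_add, LinearMap.add_apply]
  rw [q.symm ξ x]; ring

theorem QP.G_add (q : QP E) (x ξ η : E) : q.G (x + ξ) η = q.G x η + 2 * q.H ξ η := by
  simp only [QP.G, map_add, LinearMap.add_apply]; ring

theorem QP.G_add' (q : QP E) (x η ζ : E) : q.G x (η + ζ) = q.G x η + q.G x ζ := by
  simp only [QP.G, map_add]; ring

theorem QP.G_sub' (q : QP E) (x η ζ : E) : q.G x (η - ζ) = q.G x η - q.G x ζ := by
  simp only [QP.G, map_sub]; ring

theorem QP.G_smul (q : QP E) (x η : E) (t : ℝ) : q.G x (t • η) = t * q.G x η := by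
  simp only [QP.G, map_smul, smul_eq_mul]; ring

variable (q0 q1 : QP E) (eY : E)

/-- ratio of the normal derivatives -/
noncomputable def rt (x : E) : ℝ := q1.G x eY / q0.G x eY

/-- second order form of `K_x = q1 - rt x * q0` -/
noncomputable def Hx (x η ζ : E) : ℝ := q1.H η ζ - rt q0 q1 eY x * q0.H η ζ

/-- first order form of `K_x` -/
noncomputable def Gam (x η : E) : ℝ := q1.G x η - rt q0 q1 eY x * q0.G x η

/-- tangent lift -/
noncomputable def lift (x D : E) : E := D - (q0.G x D / q0.G x eY) • eY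

variable {q0 q1 eY}

theorem Hx_add_left (x η η' ζ : E) :
    Hx q0 q1 eY x (η + η') ζ = Hx q0 q1 eY x η ζ + Hx q0 q1 eY x η' ζ := by
  simp only [Hx, map_add, LinearMap.add_apply]; ring

theorem Hx_smul_left (x η ζ : E) (t : ℝ) :
    Hx q0 q1 eY x (t • η) ζ = t * Hx q0 q1 eY x η ζ := by
  simp only [Hx, map_smul, LinearMap.smul_apply, smul_eq_mul]; ring

theorem Hx_symm (x η ζ : E) : Hx q0 q1 eY x η ζ = Hx q0 q1 eY x ζ η := by
  simp only [Hx]; rw [q0.symm η ζ, q1.symm η ζ]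

theorem Hx_add_right (x η ζ ζ' : E) :
    Hx q0 q1 eY x η (ζ + ζ') = Hx q0 q1 eY x η ζ + Hx q0 q1 eY x η ζ' := by
  simp only [Hx, map_add]; ring

theorem Hx_smul_right (x η ζ : E) (t : ℝ) :
    Hx q0 q1 eY x η (t • ζ) = t * Hx q0 q1 eY x η ζ := by
  simp only [Hx, map_smul, smul_eq_mul]; ring

theorem Gam_eY {x : E} (h : q0.G x eY ≠ 0) : Gam q0 q1 eY x eY = 0 := by
  unfold Gam rt; field_simp; ring

theorem Gam_lift {x : E} (h : q0.G x eY ≠ 0) (z D : E) (hz : q0.G z eY ≠ 0) :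
    Gam q0 q1 eY z (lift q0 eY x D) = Gam q0 q1 eY z D := by
  have h1 := Gam_eY (q0 := q0) (q1 := q1) (eY := eY) hz
  unfold lift
  unfold Gam at h1 ⊢
  rw [q1.G_sub', q0.G_sub', q1.G_smul, q0.G_smul]
  linear_combination (-(q0.G x D / q0.G x eY)) * h1

theorem G_lift {x : E} (h : q0.G x eY ≠ 0) (D : E) : q0.G x (lift q0 eY x D) = 0 := by
  unfold lift
  rw [q0.G_sub', q0.G_smul]; field_simp; ring

/-- **(1)** exact variation of the ratio -/
theorem rt_add {x ξ : E} (h : q0.G x eY ≠ 0) (h' : q0.G (x + ξ) eY ≠ 0) :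
    rt q0 q1 eY (x + ξ) - rt q0 q1 eY x = 2 * Hx q0 q1 eY x ξ eY / q0.G (x + ξ) eY := by
  rw [eq_div_iff h']
  have e : rt q0 q1 eY (x + ξ) * q0.G (x + ξ) eY = q1.G (x + ξ) eY := by
    unfold rt; field_simp
  have e' : rt q0 q1 eY x * q0.G x eY = q1.G x eY := by unfold rt; field_simp
  rw [sub_mul, e, q1.G_add, q0.G_add]
  unfold Hx
  linear_combination -e'

theorem Hx_pt {x ξ : E} (h : q0.G x eY ≠ 0) (h' : q0.G (x + ξ) eY ≠ 0) (η ζ : E) :
    Hx q0 q1 eY (x + ξ) η ζ = Hx q0 q1 eY x η ζ -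
      (2 * Hx q0 q1 eY x ξ eY / q0.G (x + ξ) eY) * q0.H η ζ := by
  rw [← rt_add h h']; unfold Hx; ring

theorem lift_pt {x ξ : E} (h : q0.G x eY ≠ 0) (h' : q0.G (x + ξ) eY ≠ 0) (D : E) :
    lift q0 eY (x + ξ) D = lift q0 eY x D +
      (-(2 * q0.H ξ (lift q0 eY x D) / q0.G (x + ξ) eY)) • eY := by
  have e : 2 * q0.H ξ (lift q0 eY x D) = q0.G (x + ξ) (lift q0 eY x D) := by
    rw [q0.G_add, G_lift h]; ring
  rw [e]
  unfold lift
  rw [sub_add, ← sub_smul]
  congr 2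
  rw [q0.G_sub', q0.G_smul]
  field_simp
  ring

/-- **(2)** exact variation of the tangential gradient -/
theorem Gam_pt {x ξ : E} (h : q0.G x eY ≠ 0) (h' : q0.G (x + ξ) eY ≠ 0) (D : E) :
    q0.G (x + ξ) eY * (Gam q0 q1 eY (x + ξ) (lift q0 eY x D) - Gam q0 q1 eY x (lift q0 eY x D)) =
      2 * Hx q0 q1 eY x ξ (lift q0 eY x D) * q0.G (x + ξ) eY -
        4 * Hx q0 q1 eY x ξ eY * q0.H ξ (lift q0 eY x D) := by
  have e1 := rt_add (q1 := q1) h h'
  rw [eq_div_iff h'] at e1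
  have e2 : q0.G (x + ξ) (lift q0 eY x D) = 2 * q0.H ξ (lift q0 eY x D) := by
    rw [q0.G_add, G_lift h]; ring
  have e3 := G_lift (q0 := q0) (eY := eY) h D
  have e4 : q1.G (x + ξ) (lift q0 eY x D) = q1.G x (lift q0 eY x D) +
    2 * q1.H ξ (lift q0 eY x D) := q1.G_add _ _ _
  have e5 : Gam q0 q1 eY (x + ξ) (lift q0 eY x D) - Gam q0 q1 eY x (lift q0 eY x D) =
      2 * Hx q0 q1 eY x ξ (lift q0 eY x D) -
        (rt q0 q1 eY (x + ξ) - rt q0 q1 eY x) * (2 * q0.H ξ (lift q0 eY x D)) := by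
    unfold Gam Hx
    rw [e2, e3, e4]; ring
  rw [e5]
  linear_combination (-(2 * q0.H ξ (lift q0 eY x D))) * e1

/-- **(3), (4)** on one line -/
theorem line_bounds {x τ D : E} {h γ K : ℝ} (hh : |h| = 1 / 4) (hγ : 0 ≤ γ) (hK : 0 ≤ K)
    (g0 : ∀ j ∈ ({0, 1, 2} : Finset ℕ), 1 / 2 ≤ q0.G (x + ((j : ℝ) * h) • τ) eY ∧
      q0.G (x + ((j : ℝ) * h) • τ) eY ≤ 2)
    (hΓ : ∀ j ∈ ({0, 1, 2} : Finset ℕ), |Gam q0 q1 eY (x + ((j : ℝ) * h) • τ) D| ≤ γ)
    (hH : |q0.H τ eY| ≤ K) :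
    |Hx q0 q1 eY x τ (lift q0 eY x D)| ≤ 40 * γ ∧
      |Hx q0 q1 eY x τ eY| * |q0.H τ (lift q0 eY x D)| ≤ (24 + 40 * K) * γ := by
  have h0 := g0 0 (by simp)
  have h1 := g0 1 (by simp)
  have h2 := g0 2 (by simp)
  simp only [Nat.cast_zero, zero_mul, zero_smul, add_zero, Nat.cast_one, one_mul,
    Nat.cast_ofNat] at h0 h1 h2
  have k0 := hΓ 0 (by simp)
  have k1 := hΓ 1 (by simp)
  have k2 := hΓ 2 (by simp)
  simp only [Nat.cast_zero, zero_mul, zero_smul, add_zero, Nat.cast_one, one_mul,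
    Nat.cast_ofNat] at k0 k1 k2
  have n0 : q0.G x eY ≠ 0 := by linarith [h0.1]
  have n1 : q0.G (x + h • τ) eY ≠ 0 := by linarith [h1.1]
  have n2 : q0.G (x + (2 * h) • τ) eY ≠ 0 := by linarith [h2.1]
  set d := lift q0 eY x D with hd
  have r1 := Gam_pt (q1 := q1) n0 n1 D
  have r2 := Gam_pt (q1 := q1) n0 n2 D
  rw [← hd, Hx_smul_left, Hx_smul_left, map_smul, LinearMap.smul_apply, smul_eq_mul] at r1 r2
  rw [Gam_lift n0 _ D n1, Gam_lift n0 _ D n0] at r1
  rw [Gam_lift n0 _ D n2, Gam_lift n0 _ D n0] at r2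
  have s1 : q0.G (x + h • τ) eY = q0.G x eY + 2 * h * q0.H τ eY := by
    rw [q0.G_add, map_smul, LinearMap.smul_apply, smul_eq_mul]; ring
  have s2 : q0.G (x + (2 * h) • τ) eY = q0.G x eY + 4 * h * q0.H τ eY := by
    rw [q0.G_add, map_smul, LinearMap.smul_apply, smul_eq_mul]; ring
  set a := Hx q0 q1 eY x τ d with ha
  set b := Hx q0 q1 eY x τ eY with hb
  set e := q0.H τ d with he
  set k := q0.H τ eY with hk
  set g := q0.G x eY with hg
  set R1 := q0.G (x + h • τ) eY * (Gam q0 q1 eY (x + h • τ) D - Gam q0 q1 eY x D) with hR1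
  set R2 := q0.G (x + (2 * h) • τ) eY * (Gam q0 q1 eY (x + (2 * h) • τ) D - Gam q0 q1 eY x D)
    with hR2
  have b1 : |R1| ≤ 4 * γ := by
    rw [hR1, abs_mul, abs_of_nonneg (by linarith [h1.1])]
    have : |Gam q0 q1 eY (x + h • τ) D - Gam q0 q1 eY x D| ≤ 2 * γ := by
      rw [abs_le] at k0 k1 ⊢; constructor <;> linarith [k0.1, k0.2, k1.1, k1.2]
    nlinarith [h1.2, abs_nonneg (Gam q0 q1 eY (x + h • τ) D - Gam q0 q1 eY x D), h1.1]
  have b2 : |R2| ≤ 4 * γ := by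
    rw [hR2, abs_mul, abs_of_nonneg (by linarith [h2.1])]
    have : |Gam q0 q1 eY (x + (2 * h) • τ) D - Gam q0 q1 eY x D| ≤ 2 * γ := by
      rw [abs_le] at k0 k2 ⊢; constructor <;> linarith [k0.1, k0.2, k2.1, k2.2]
    nlinarith [h2.2, abs_nonneg (Gam q0 q1 eY (x + (2 * h) • τ) D - Gam q0 q1 eY x D), h2.1]
  rw [s1] at r1
  rw [s2] at r2
  have hsq : h ^ 2 = 1 / 16 := by rw [← sq_abs, hh]; norm_num
  -- `P1 = g a`, `P2 = a k - b e`
  have p1 : 4 * h * (g * a) = 4 * R1 - R2 := by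
    linear_combination -4 * r1 + r2
  have p2 : 8 * h ^ 2 * (a * k - b * e) = R2 - 2 * R1 := by
    linear_combination 2 * r1 - r2
  have c1 : |g * a| ≤ 20 * γ := by
    have : |4 * h * (g * a)| ≤ 20 * γ := by
      rw [p1, abs_le]; rw [abs_le] at b1 b2; constructor <;> linarith [b1.1, b1.2, b2.1, b2.2]
    rw [abs_mul, abs_mul, hh] at this
    norm_num at this
    rw [abs_mul]
    exact this
  have c2 : |a * k - b * e| ≤ 24 * γ := by
    have : |8 * h ^ 2 * (a * k - b * e)| ≤ 12 * γ := by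
      rw [p2, abs_le]; rw [abs_le] at b1 b2; constructor <;> linarith [b1.1, b1.2, b2.1, b2.2]
    rw [hsq, abs_mul] at this
    norm_num at this
    linarith
  have c3 : |a| ≤ 40 * γ := by
    rw [abs_mul, abs_of_nonneg (by linarith [h0.1])] at c1
    nlinarith [abs_nonneg a, h0.1]
  refine ⟨c3, ?_⟩
  rw [← abs_mul]
  have c4 : |a * k| ≤ 40 * γ * K := by
    rw [abs_mul]; exact mul_le_mul c3 hH (abs_nonneg _) (by linarith)
  have : b * e = a * k - (a * k - b * e) := by ring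
  rw [this]
  calc |a * k - (a * k - b * e)| ≤ |a * k| + |a * k - b * e| := abs_sub _ _
    _ ≤ _ := by linarith

end identities

end Crest.Agent.R136.Tl214
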