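import Crest.Agent.R136.Tl2_102

/-!
# R136 (S0187): algebra of the tilt lemma, twist and flat case (helper102)
-/

set_option autoImplicit false

namespace Crest.Agent.R136.Tl102

open Crest.Agent.R136.Sh605 (V3 dt)

theorem twist_arith {K r B0 β : ℝ} (hK : 1 ≤ K) (hr : 0 ≤ r) (hB0 : 0 ≤ B0) (hβ : 0 ≤ β) :
    (2 * ((8 * B0 + (3 * K + 12 * (K * K)) * r) + 2 * (β * K))) * (5 * K ^ 2) + 8 * B0 +
      2 * (β * K) ≤ 150 * K ^ 4 * (β + B0 + r) := by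
  have p1 : K ^ 2 ≤ K ^ 4 := pow_le_pow_right₀ hK (by norm_num)
  have p2 : K ^ 3 ≤ K ^ 4 := pow_le_pow_right₀ hK (by norm_num)
  have p3 : (1 : ℝ) ≤ K ^ 4 := one_le_pow₀ hK
  have p4 : K ≤ K ^ 4 := by simpa using pow_le_pow_right₀ hK (show 1 ≤ 4 by norm_num)
  have q3 : K ^ 2 * B0 ≤ K ^ 4 * B0 := mul_le_mul_of_nonneg_right p1 hB0
  have q4 : B0 ≤ K ^ 4 * B0 := le_mul_of_one_le_left hB0 p3
  have q5 : K * β ≤ K ^ 4 * β := mul_le_mul_of_nonneg_right p4 hβ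
  have q6 : K ^ 3 * β ≤ K ^ 4 * β := mul_le_mul_of_nonneg_right p2 hβ
  have q7 : K ^ 3 * r ≤ K ^ 4 * r := mul_le_mul_of_nonneg_right p2 hr
  have q9 : 0 ≤ K ^ 4 * β := by positivity
  have q10 : 0 ≤ K ^ 4 * B0 := by positivity
  have q11 : 0 ≤ K ^ 4 * r := by positivity
  have e : (2 * ((8 * B0 + (3 * K + 12 * (K * K)) * r) + 2 * (β * K))) * (5 * K ^ 2) + 8 * B0 +
      2 * (β * K) = 80 * (K ^ 2 * B0) + 30 * (K ^ 3 * r) + 120 * (K ^ 4 * r) + 20 * (K ^ 3 * β) +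
        8 * B0 + 2 * (K * β) := by ring
  have e2 : 150 * K ^ 4 * (β + B0 + r) = 150 * (K ^ 4 * β) + 150 * (K ^ 4 * B0) +
      150 * (K ^ 4 * r) := by ring
  rw [e, e2]
  linarith

/-- **twist**: three pairwise transversal lines through a box at one height bound the lateral second
form by the twist `β = |b1_X|` (tangent coordinates: `b0 1 = b0 2 = 0`). -/
theorem twist {b0 b1 : V3} {G : QF} {η K r B0 β c : ℝ} (hη : 0 < η)
    (hK : 1 ≤ K) (hb1 : ∀ k, |b1 k| ≤ K) (hG : G.Le K)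
    (hs0 : 1 / 2 ≤ b0 0) (hs1 : 1 / 2 ≤ b0 0 + b1 0)
    (hs2 : |b1 0| ≤ 2) (h01 : b0 1 = 0) (h02 : b0 2 = 0) (hβ1 : |b1 1| ≤ β) (hβ2 : |b1 2| ≤ β)
    (hc0 : 0 ≤ c) (hc1 : c ≤ 1) {D t : Fin 3 → V3}
    (hD : ∀ j k, |D j k| ≤ r) (ht : ∀ j k, |t j k| ≤ K)
    (htd : ∀ j j', j ≠ j' → η ≤ |t j 1 * t j' 2 - t j' 1 * t j 2|)
    (h0 : ∀ j z', 0 ≤ z' → z' ≤ 1 → |Fq b0 b1 G z' (pos (D j) (t j) c z')| ≤ B0) :
    |G.uu| ≤ 5400 * K ^ 6 * (β + B0 + r) / η ^ 2 ∧ |G.uv| ≤ 5400 * K ^ 6 * (β + B0 + r) / η ^ 2 ∧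
      |G.vv| ≤ 5400 * K ^ 6 * (β + B0 + r) / η ^ 2 := by
  have hr : 0 ≤ r := (abs_nonneg _).trans (hD 0 0)
  have hB0 : 0 ≤ B0 := (abs_nonneg _).trans (h0 0 0 le_rfl zero_le_one)
  have hβ : 0 ≤ β := (abs_nonneg _).trans hβ1
  have hby : 1 / 2 ≤ b0 0 + c * b1 0 := by nlinarith
  have key : ∀ j, |G.uu * t j 1 ^ 2 + G.uv * (t j 1 * t j 2) + G.vv * t j 2 ^ 2| ≤
      150 * K ^ 4 * (β + B0 + r) := by
    intro j
    obtain ⟨e1, e2⟩ := line_coef hc0 hc1 (h0 j) hG hb1 (hD j) (ht j)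
    obtain ⟨m1, m2, m3, m4, m5, m6⟩ := hG
    -- size of `t j 0`
    have k1 : |b1 1 * t j 1 + b1 2 * t j 2| ≤ 2 * (β * K) := by
      refine (abs_add_le _ _).trans ?_
      rw [abs_mul, abs_mul]
      have h1 : |b1 1| * |t j 1| ≤ β * K := mul_le_mul hβ1 (ht j 1) (abs_nonneg _) hβ
      have h2 : |b1 2| * |t j 2| ≤ β * K := mul_le_mul hβ2 (ht j 2) (abs_nonneg _) hβ
      linarith
    have k2 : (b0 0 + c * b1 0) * t j 0 = dt (bz b0 b1 c) (t j) -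
        c * (b1 1 * t j 1 + b1 2 * t j 2) := by
      simp only [dt, bz, h01, h02]; ring
    set E := 8 * B0 + (3 * K + 12 * (K * K)) * r with hE
    have hE0 : 0 ≤ E := (abs_nonneg _).trans e1
    have k3 : |t j 0| ≤ 2 * (E + 2 * (β * K)) := by
      have h1 : |(b0 0 + c * b1 0) * t j 0| ≤ E + 2 * (β * K) := by
        rw [k2]
        refine (abs_sub _ _).trans (add_le_add e1 ?_)
        rw [abs_mul, abs_of_nonneg hc0]
        have := abs_nonneg (b1 1 * t j 1 + b1 2 * t j 2)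
        nlinarith
      rw [abs_mul, abs_of_pos (by linarith : (0 : ℝ) < b0 0 + c * b1 0)] at h1
      have := abs_nonneg (t j 0)
      nlinarith
    have k4 : G.uu * t j 1 ^ 2 + G.uv * (t j 1 * t j 2) + G.vv * t j 2 ^ 2 =
        (dt b1 (t j) + G.ev (t j)) - (b1 1 * t j 1 + b1 2 * t j 2) -
          t j 0 * (b1 0 + G.yy * t j 0 + (G.yu * t j 1 + G.yv * t j 2)) := by
      simp only [dt, QF.ev]; ring
    have k5 : |b1 0 + G.yy * t j 0 + (G.yu * t j 1 + G.yv * t j 2)| ≤ 5 * K ^ 2 := by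
      have h1 : |G.yy * t j 0| ≤ K * K := by
        rw [abs_mul]; exact mul_le_mul m1 (ht j 0) (abs_nonneg _) (by linarith)
      have h2 : |G.yu * t j 1| ≤ K * K := by
        rw [abs_mul]; exact mul_le_mul m2 (ht j 1) (abs_nonneg _) (by linarith)
      have h3 : |G.yv * t j 2| ≤ K * K := by
        rw [abs_mul]; exact mul_le_mul m3 (ht j 2) (abs_nonneg _) (by linarith)
      have h4 := abs_add_le (b1 0 + G.yy * t j 0) (G.yu * t j 1 + G.yv * t j 2)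
      have h5 := abs_add_le (b1 0) (G.yy * t j 0)
      have h6 := abs_add_le (G.yu * t j 1) (G.yv * t j 2)
      have h11 : (1 : ℝ) ≤ K * K := by nlinarith
      have h12 : 5 * K ^ 2 = 5 * (K * K) := by ring
      rw [h12]
      linarith
    rw [k4]
    have h7 := abs_sub ((dt b1 (t j) + G.ev (t j)) - (b1 1 * t j 1 + b1 2 * t j 2))
      (t j 0 * (b1 0 + G.yy * t j 0 + (G.yu * t j 1 + G.yv * t j 2)))
    have h8 := abs_sub (dt b1 (t j) + G.ev (t j)) (b1 1 * t j 1 + b1 2 * t j 2)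
    have h9 : |t j 0 * (b1 0 + G.yy * t j 0 + (G.yu * t j 1 + G.yv * t j 2))| ≤
        (2 * (E + 2 * (β * K))) * (5 * K ^ 2) := by
      rw [abs_mul]; exact mul_le_mul k3 k5 (abs_nonneg _) (by positivity)
    have h10 : (2 * (E + 2 * (β * K))) * (5 * K ^ 2) + 8 * B0 + 2 * (β * K) ≤
        150 * K ^ 4 * (β + B0 + r) := by
      rw [hE]; exact twist_arith hK hr hB0 hβ
    linarith
  have hK0 : (0 : ℝ) ≤ K := by linarith
  have Q : ∀ u v : ℝ, |u| ≤ 1 → |v| ≤ 1 →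
      |G.uu * u ^ 2 + G.uv * (u * v) + G.vv * v ^ 2| ≤ 1800 * K ^ 6 * (β + B0 + r) / η ^ 2 := by
    intro u v hu hv
    refine (quad2 hη hK0 zero_le_one (key 0) (key 1) (key 2) (ht 0 1) (ht 0 2) (ht 1 1) (ht 1 2)
      (ht 2 1) (ht 2 2) (htd 0 1 (by decide)) (htd 0 2 (by decide)) (htd 1 2 (by decide)) hu
      hv).trans (le_of_eq ?_)
    ring
  set W := 1800 * K ^ 6 * (β + B0 + r) / η ^ 2 with hW
  have hW' : 5400 * K ^ 6 * (β + B0 + r) / η ^ 2 = 3 * W := by rw [hW]; ring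
  have w1 := Q 1 0 (by norm_num) (by norm_num)
  have w2 := Q 0 1 (by norm_num) (by norm_num)
  have w3 := Q 1 1 (by norm_num) (by norm_num)
  have W0 : 0 ≤ W := (abs_nonneg _).trans w1
  rw [hW']
  norm_num at w1 w2 w3
  rw [abs_le] at w1 w2 w3
  refine ⟨?_, ?_, ?_⟩ <;> rw [abs_le] <;> constructor <;>
    linarith [w1.1, w1.2, w2.1, w2.2, w3.1, w3.2]

/-- coefficients of a binary quadratic form from its values -/
theorem coef_of_values {a b c W : ℝ} (h : ∀ u v : ℝ, |u| ≤ 1 → |v| ≤ 1 →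
    |a * u ^ 2 + b * (u * v) + c * v ^ 2| ≤ W) : |a| ≤ 3 * W ∧ |b| ≤ 3 * W ∧ |c| ≤ 3 * W := by
  have w1 := h 1 0 (by norm_num) (by norm_num)
  have w2 := h 0 1 (by norm_num) (by norm_num)
  have w3 := h 1 1 (by norm_num) (by norm_num)
  have W0 : 0 ≤ W := (abs_nonneg _).trans w1
  norm_num at w1 w2 w3
  rw [abs_le] at w1 w2 w3
  refine ⟨?_, ?_, ?_⟩ <;> rw [abs_le] <;> constructor <;>
    linarith [w1.1, w1.2, w2.1, w2.2, w3.1, w3.2]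

/-- the two equations along a line, flat case -/
theorem flat_eqs {l0 l1 D t : V3} {M : QF} {K r B S c : ℝ} (hK : 1 ≤ K)
    (hy0 : |l0 0| ≤ K) (hy1 : |l1 0| ≤ K) (hyy : |M.yy| ≤ K) (hyu : |M.yu| ≤ K)
    (hyv : |M.yv| ≤ K) (hc0 : 0 ≤ c) (hc1 : c ≤ 1) (hr1 : r ≤ K)
    (hD0 : |D 0| ≤ K) (hD1 : |D 1| ≤ r) (hD2 : |D 2| ≤ r) (ht : ∀ k, |t k| ≤ K)
    (h1 : ∀ z, 0 ≤ z → z ≤ 1 → |Fq l0 l1 M z (pos D t c z)| ≤ B)
    (s1 : |l1 1| ≤ S) (s2 : |l1 2| ≤ S) (s3 : |M.uu| ≤ S) (s4 : |M.uv| ≤ S) (s5 : |M.vv| ≤ S) :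
    |(l0 1 + c * l1 1) * t 1 + (l0 2 + c * l1 2) * t 2| ≤ 8 * B + 9 * K ^ 3 + 8 * (S * K * r) ∧
    |(M.uu * t 1 ^ 2 + M.uv * (t 1 * t 2) + M.vv * t 2 ^ 2) + (l1 1 * t 1 + l1 2 * t 2)| ≤
      8 * B + 4 * K ^ 3 := by
  obtain ⟨q1, q2⟩ := quad_coef hc0 hc1 (fun z hz hz' => by
    have := h1 z hz hz'; rw [Fq_pos] at this; exact this)
  have hK0 : (0 : ℝ) ≤ K := by linarith
  have hr : 0 ≤ r := (abs_nonneg _).trans hD1
  have hS : 0 ≤ S := (abs_nonneg _).trans s1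
  have K2 : K ^ 2 ≤ K ^ 3 := pow_le_pow_right₀ hK (by norm_num)
  have mm : ∀ {x y A B : ℝ}, |x| ≤ A → |y| ≤ B → 0 ≤ A → |x * y| ≤ A * B := by
    intro x y A B hx hy hA
    rw [abs_mul]; exact mul_le_mul hx hy (abs_nonneg _) hA
  have SK : 0 ≤ S * K := by positivity
  have Sr : S * r ≤ S * K * r := by
    have : S ≤ S * K := le_mul_of_one_le_right hS hK
    exact mul_le_mul_of_nonneg_right this hr
  constructor
  · have e : (l0 1 + c * l1 1) * t 1 + (l0 2 + c * l1 2) * t 2 =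
        (dt (bz l0 l1 c) t + dt l1 D + M.pol D t) - (l0 0 * t 0 + c * (l1 0 * t 0)) -
        l1 0 * D 0 - (l1 1 * D 1 + l1 2 * D 2) -
        (2 * (M.yy * (D 0 * t 0)) + (M.yu * (D 0 * t 1) + M.yu * (D 1 * t 0)) +
          (M.yv * (D 0 * t 2) + M.yv * (D 2 * t 0))) -
        (2 * (M.uu * (D 1 * t 1)) + (M.uv * (D 1 * t 2) + M.uv * (D 2 * t 1)) +
          2 * (M.vv * (D 2 * t 2))) := by
      simp only [dt, bz, QF.pol]; ring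
    have a1 := mm hy0 (ht 0) hK0
    have a2 : |c * (l1 0 * t 0)| ≤ 1 * (K * K) :=
      mm (by rw [abs_of_nonneg hc0]; exact hc1) (mm hy1 (ht 0) hK0) zero_le_one
    have a3 := mm hy1 hD0 hK0
    have a4 := mm s1 hD1 hS
    have a5 := mm s2 hD2 hS
    have b1 := mm hyy (mm hD0 (ht 0) hK0) hK0
    have b2 := mm hyu (mm hD0 (ht 1) hK0) hK0
    have b3 := mm hyu (mm hD1 (ht 0) hr) hK0
    have b4 := mm hyv (mm hD0 (ht 2) hK0) hK0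
    have b5 := mm hyv (mm hD2 (ht 0) hr) hK0
    have c1 := mm s3 (mm hD1 (ht 1) hr) hS
    have c2 := mm s4 (mm hD1 (ht 2) hr) hS
    have c3 := mm s4 (mm hD2 (ht 1) hr) hS
    have c4 := mm s5 (mm hD2 (ht 2) hr) hS
    have k3 : K * (K * K) = K ^ 3 := by ring
    have k4 : K * K = K ^ 2 := by ring
    have k5 : K * (r * K) ≤ K ^ 3 := by
      calc K * (r * K) ≤ K * (K * K) := by gcongr
        _ = K ^ 3 := by ring
    have k6 : S * (r * K) = S * K * r := by ring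
    rw [k3] at b1 b2 b4
    rw [k4] at a1 a2 a3
    rw [k6] at c1 c2 c3 c4
    rw [e]
    rw [abs_le] at q1 a1 a2 a3 a4 a5 b1 b2 b3 b4 b5 c1 c2 c3 c4 ⊢
    obtain ⟨q1, q1'⟩ := q1
    obtain ⟨a1, a1'⟩ := a1
    obtain ⟨a2, a2'⟩ := a2
    obtain ⟨a3, a3'⟩ := a3
    obtain ⟨a4, a4'⟩ := a4
    obtain ⟨a5, a5'⟩ := a5
    obtain ⟨b1, b1'⟩ := b1
    obtain ⟨b2, b2'⟩ := b2
    obtain ⟨b3, b3'⟩ := b3
    obtain ⟨b4, b4'⟩ := b4
    obtain ⟨b5, b5'⟩ := b5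
    obtain ⟨c1, c1'⟩ := c1
    obtain ⟨c2, c2'⟩ := c2
    obtain ⟨c3, c3'⟩ := c3
    obtain ⟨c4, c4'⟩ := c4
    constructor <;> linarith
  · have e : (M.uu * t 1 ^ 2 + M.uv * (t 1 * t 2) + M.vv * t 2 ^ 2) + (l1 1 * t 1 + l1 2 * t 2) =
        (dt l1 t + M.ev t) - l1 0 * t 0 - M.yy * (t 0 * t 0) - M.yu * (t 0 * t 1) -
          M.yv * (t 0 * t 2) := by
      simp only [dt, QF.ev]; ring
    have a1 := mm hy1 (ht 0) hK0
    have a2 := mm hyy (mm (ht 0) (ht 0) hK0) hK0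
    have a3 := mm hyu (mm (ht 0) (ht 1) hK0) hK0
    have a4 := mm hyv (mm (ht 0) (ht 2) hK0) hK0
    have k3 : K * (K * K) = K ^ 3 := by ring
    have k4 : K * K = K ^ 2 := by ring
    rw [k3] at a2 a3 a4
    rw [k4] at a1
    rw [e]
    rw [abs_le] at q2 a1 a2 a3 a4 ⊢
    constructor <;> linarith [q2.1, q2.2, a1.1, a1.2, a2.1, a2.2, a3.1, a3.2, a4.1, a4.2]

/-- **the pencil lemma, flat case**: `S₀` a box of height comparable to its curvature; the `y`-terms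
of `ω` are bounded by `K`; then so are the lateral ones, up to powers of `K / η`. -/
theorem pencil_flat {l0 l1 : V3} {M : QF} {η K r B : ℝ} (hη : 0 < η) (hη1 : η ≤ 1) (hK : 1 ≤ K)
    (hy0 : |l0 0| ≤ K) (hy1 : |l1 0| ≤ K) (hyy : |M.yy| ≤ K) (hyu : |M.yu| ≤ K)
    (hyv : |M.yv| ≤ K) {z : Fin 3 → ℝ} (hz : ∀ i, 0 ≤ z i ∧ z i ≤ 1)
    (hzd : ∀ i j, i ≠ j → η ≤ |z i - z j|) {D t : Fin 3 → Fin 3 → V3}
    (hD0 : ∀ i j, |D i j 0| ≤ K) (hD1 : ∀ i j, |D i j 1| ≤ r) (hD2 : ∀ i j, |D i j 2| ≤ r)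
    (ht : ∀ i j k, |t i j k| ≤ K)
    (htd : ∀ i j j', j ≠ j' → η ≤ |t i j 1 * t i j' 2 - t i j' 1 * t i j 2|)
    (h1 : ∀ i j z', 0 ≤ z' → z' ≤ 1 → |Fq l0 l1 M z' (pos (D i j) (t i j) (z i) z')| ≤ B)
    (hsm : 10 ^ 4 * K ^ 5 * r ≤ η ^ 4) :
    |l0 1| ≤ 6000 * K ^ 7 * (B + 1) / η ^ 4 ∧ |l0 2| ≤ 6000 * K ^ 7 * (B + 1) / η ^ 4 ∧
    |l1 1| ≤ 6000 * K ^ 7 * (B + 1) / η ^ 4 ∧ |l1 2| ≤ 6000 * K ^ 7 * (B + 1) / η ^ 4 ∧
    |M.uu| ≤ 6000 * K ^ 7 * (B + 1) / η ^ 4 ∧ |M.uv| ≤ 6000 * K ^ 7 * (B + 1) / η ^ 4 ∧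
    |M.vv| ≤ 6000 * K ^ 7 * (B + 1) / η ^ 4 := by
  have hK0 : (0 : ℝ) < K := by linarith
  have hr : 0 ≤ r := (abs_nonneg _).trans (hD1 0 0)
  have hB : 0 ≤ B := (abs_nonneg _).trans (h1 0 0 0 le_rfl zero_le_one)
  have hη4 : η ^ 4 ≤ 1 := pow_le_one₀ hη.le hη1
  have K5 : (1 : ℝ) ≤ K ^ 5 := one_le_pow₀ hK
  have hr1 : r ≤ K := by
    have : r ≤ K ^ 5 * r := le_mul_of_one_le_left hr K5
    have h2 : 10 ^ 4 * (K ^ 5 * r) ≤ 1 := by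
      calc 10 ^ 4 * (K ^ 5 * r) = 10 ^ 4 * K ^ 5 * r := by ring
        _ ≤ _ := hsm.trans hη4
    linarith
  obtain ⟨S, s1, s2, s3, s4, s5, hSm⟩ : ∃ S : ℝ, |l1 1| ≤ S ∧ |l1 2| ≤ S ∧ |M.uu| ≤ S ∧
      |M.uv| ≤ S ∧ |M.vv| ≤ S ∧ ∀ X : ℝ, |l1 1| ≤ X → |l1 2| ≤ X → |M.uu| ≤ X → |M.uv| ≤ X →
        |M.vv| ≤ X → S ≤ X := by
    refine ⟨max (max |l1 1| |l1 2|) (max (max |M.uu| |M.uv|) |M.vv|), ?_, ?_, ?_, ?_, ?_, ?_⟩
    · simp
    · simp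
    · simp
    · simp
    · simp
    · intro X a b c d e
      exact max_le (max_le a b) (max_le (max_le c d) e)
  have hS : 0 ≤ S := (abs_nonneg _).trans s1
  set E := 8 * B + 9 * K ^ 3 + 8 * (S * K * r) with hE
  have hE0 : 0 ≤ E := by positivity
  have eqs := fun i j => flat_eqs hK hy0 hy1 hyy hyu hyv (hz i).1 (hz i).2 hr1 (hD0 i j) (hD1 i j)
    (hD2 i j) (ht i j) (h1 i j) s1 s2 s3 s4 s5
  -- linear part
  have hlam : ∀ i, |l0 1 + z i * l1 1| ≤ 2 * K * E / η ∧ |l0 2 + z i * l1 2| ≤ 2 * K * E / η :=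
    fun i => lin2 hη (eqs i 0).1 (eqs i 1).1 (ht i 0 1) (ht i 0 2) (ht i 1 1) (ht i 1 2)
      (htd i 0 1 (by decide))
  have hlin : ∀ a b : ℝ, (∀ i, |a + z i * b| ≤ 2 * K * E / η) →
      |b| ≤ 4 * K * E / η ^ 2 ∧ |a| ≤ 6 * K * E / η ^ 2 := by
    intro a b h
    have hd := hzd 0 1 (by decide)
    have e : (z 0 - z 1) * b = (a + z 0 * b) - (a + z 1 * b) := by ring
    have h2 : |z 0 - z 1| * |b| ≤ 4 * K * E / η := by
      rw [← abs_mul, e]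
      refine (abs_sub _ _).trans ((add_le_add (h 0) (h 1)).trans (le_of_eq ?_))
      ring
    have h3 : η * |b| ≤ 4 * K * E / η := (mul_le_mul_of_nonneg_right hd (abs_nonneg _)).trans h2
    have h4 : |b| ≤ 4 * K * E / η ^ 2 := by
      rw [le_div_iff₀ (by positivity)]
      rw [le_div_iff₀ hη] at h3
      calc |b| * η ^ 2 = η * |b| * η := by ring
        _ ≤ _ := h3
    refine ⟨h4, ?_⟩
    have e2 : a = (a + z 0 * b) - z 0 * b := by ring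
    have h5 : |z 0 * b| ≤ 4 * K * E / η ^ 2 := by
      rw [abs_mul, abs_of_nonneg (hz 0).1]
      exact (mul_le_of_le_one_left (abs_nonneg _) (hz 0).2).trans h4
    have h6 : 2 * K * E / η ≤ 2 * K * E / η ^ 2 := by
      have : η ^ 2 ≤ η := by nlinarith
      gcongr
    have h7 : 6 * K * E / η ^ 2 = 2 * K * E / η ^ 2 + 4 * K * E / η ^ 2 := by ring
    rw [e2, h7]
    exact (abs_sub _ _).trans (add_le_add ((h 0).trans h6) h5)
  obtain ⟨u1, u0⟩ := hlin _ _ fun i => (hlam i).1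
  obtain ⟨v1, v0⟩ := hlin _ _ fun i => (hlam i).2
  -- quadratic part
  have hK2 : (1 : ℝ) ≤ K ^ 2 := one_le_pow₀ hK
  have hη2 : η ^ 2 ≤ 1 := pow_le_one₀ hη.le hη1
  have hK3 : (0 : ℝ) ≤ K ^ 3 := by positivity
  have hSKr : 0 ≤ S * K * r := by positivity
  have hq : ∀ j, |M.uu * t 0 j 1 ^ 2 + M.uv * (t 0 j 1 * t 0 j 2) + M.vv * t 0 j 2 ^ 2| ≤
      9 * K ^ 2 * E / η ^ 2 := by
    intro j
    have e : M.uu * t 0 j 1 ^ 2 + M.uv * (t 0 j 1 * t 0 j 2) + M.vv * t 0 j 2 ^ 2 =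
      ((M.uu * t 0 j 1 ^ 2 + M.uv * (t 0 j 1 * t 0 j 2) + M.vv * t 0 j 2 ^ 2) +
        (l1 1 * t 0 j 1 + l1 2 * t 0 j 2)) - l1 1 * t 0 j 1 - l1 2 * t 0 j 2 := by ring
    have g1 : |l1 1 * t 0 j 1| ≤ (4 * K * E / η ^ 2) * K := by
      rw [abs_mul]; exact mul_le_mul u1 (ht 0 j 1) (abs_nonneg _) (by positivity)
    have g2 : |l1 2 * t 0 j 2| ≤ (4 * K * E / η ^ 2) * K := by
      rw [abs_mul]; exact mul_le_mul v1 (ht 0 j 2) (abs_nonneg _) (by positivity)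
    have g3 := (eqs 0 j).2
    have g4 : 8 * B + 4 * K ^ 3 ≤ K ^ 2 * E / η ^ 2 := by
      rw [le_div_iff₀ (by positivity)]
      have a1 : (8 * B + 4 * K ^ 3) * η ^ 2 ≤ 8 * B + 4 * K ^ 3 :=
        mul_le_of_le_one_right (by positivity) hη2
      have a2 : 8 * B + 4 * K ^ 3 ≤ E := by rw [hE]; linarith
      have a3 : E ≤ K ^ 2 * E := le_mul_of_one_le_left hE0 hK2
      linarith
    have g5 : 9 * K ^ 2 * E / η ^ 2 = K ^ 2 * E / η ^ 2 + (4 * K * E / η ^ 2) * K +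
        (4 * K * E / η ^ 2) * K := by ring
    rw [e, g5]
    refine (abs_sub _ _).trans (add_le_add ?_ g2)
    exact (abs_sub _ _).trans (add_le_add (g3.trans g4) g1)
  obtain ⟨q1, q2, q3⟩ := coef_of_values (a := M.uu) (b := M.uv) (c := M.vv)
    (W := 12 * K ^ 2 * 1 ^ 2 * (9 * K ^ 2 * E / η ^ 2) / η ^ 2) fun u v hu hv =>
    quad2 hη hK0.le zero_le_one (hq 0) (hq 1) (hq 2) (ht 0 0 1) (ht 0 0 2) (ht 0 1 1) (ht 0 1 2)
      (ht 0 2 1) (ht 0 2 2) (htd 0 0 1 (by decide)) (htd 0 0 2 (by decide))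
      (htd 0 1 2 (by decide)) hu hv
  have e3 : 3 * (12 * K ^ 2 * 1 ^ 2 * (9 * K ^ 2 * E / η ^ 2) / η ^ 2) = 324 * K ^ 4 * E / η ^ 4 := by
    field_simp; ring
  rw [e3] at q1 q2 q3
  have cmp : 6 * K * E / η ^ 2 ≤ 324 * K ^ 4 * E / η ^ 4 := by
    have a1 : K ≤ K ^ 4 := by simpa using pow_le_pow_right₀ hK (show 1 ≤ 4 by norm_num)
    have a2 : η ^ 4 ≤ η ^ 2 := pow_le_pow_of_le_one hη.le hη1 (by norm_num)
    gcongr
    norm_num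
  have cmp2 : 4 * K * E / η ^ 2 ≤ 6 * K * E / η ^ 2 := by gcongr; norm_num
  have hSE : S ≤ 324 * K ^ 4 * E / η ^ 4 :=
    hSm _ (u1.trans (cmp2.trans cmp)) (v1.trans (cmp2.trans cmp)) q1 q2 q3
  have K37 : K ^ 3 * K ^ 4 = K ^ 7 := by ring
  have K47 : K ^ 4 ≤ K ^ 7 := pow_le_pow_right₀ hK (by norm_num)
  have fin : 324 * K ^ 4 * E / η ^ 4 ≤ 6000 * K ^ 7 * (B + 1) / η ^ 4 := by
    have h2 : S * η ^ 4 ≤ 324 * K ^ 4 * E := by rwa [le_div_iff₀ (by positivity)] at hSE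
    have h3 : 324 * K ^ 4 * E = 2592 * (K ^ 4 * B) + 2916 * K ^ 7 + 2592 * (K ^ 5 * r) * S := by
      rw [hE]; ring
    have h4 : 5184 * (K ^ 5 * r) ≤ η ^ 4 := by
      have : 0 ≤ K ^ 5 * r := by positivity
      have : 10 ^ 4 * (K ^ 5 * r) = 10 ^ 4 * K ^ 5 * r := by ring
      linarith
    have h5 : 2592 * (K ^ 5 * r) * S ≤ η ^ 4 / 2 * S := mul_le_mul_of_nonneg_right (by linarith) hS
    have h6 : K ^ 4 * B ≤ K ^ 7 * B := mul_le_mul_of_nonneg_right K47 hB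
    have h7 : 6000 * K ^ 7 * (B + 1) = 6000 * (K ^ 7 * B) + 6000 * K ^ 7 := by ring
    have h8 : 0 ≤ K ^ 7 * B := by positivity
    have h9 : 0 ≤ K ^ 7 := by positivity
    refine div_le_div_of_nonneg_right ?_ (by positivity)
    rw [h7]
    rw [h3] at h2 ⊢
    linarith
  exact ⟨(u0.trans cmp).trans fin, (v0.trans cmp).trans fin, (u1.trans (cmp2.trans cmp)).trans fin,
    (v1.trans (cmp2.trans cmp)).trans fin, q1.trans fin, q2.trans fin, q3.trans fin⟩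

end Crest.Agent.R136.Tl102
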