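import Crest.Agent.R136.Sh7_321

/-!
# R136, U6 thin (helper327): velocities of a near-maximal sheet are spread along the wide axis

`chop1` : a family of lines in one sheet whose `e 1`-velocities differ by at most `(r / 2) w₁ / ρ` is
covered by `7 / r` sheets of width `r w₁`.
-/

set_option autoImplicit false
set_option linter.unusedVariables false

open Finset

namespace Crest.Agent.R136.Tn327

open Sh605 Sh321

/-- centre line of a piece: `e 1`-component moved by `s + (z - z0) μ` -/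
def cmv (e : Fin 3 → V3) (c : Ln4) (s μ z0 : ℝ) : Ln4 where
  p := c.p + (s - z0 * μ) • e 1
  v := c.v + μ • e 1

theorem cmv_pos (e : Fin 3 → V3) (c : Ln4) (s μ z0 z : ℝ) :
    (cmv e c s μ z0).pos z = c.pos z + (s + (z - z0) * μ) • e 1 := by
  funext i
  simp only [cmv, Ln4.pos, Pi.add_apply, Pi.smul_apply, smul_eq_mul]
  ring

theorem dt_cmv {e : Fin 3 → V3} (he : Ortho e) (c : Ln4) (s μ z0 z : ℝ) (x : V3) (i : Fin 3) :
    dt (e i) (x - (cmv e c s μ z0).pos z) =
      dt (e i) (x - c.pos z) - (if i = 1 then s + (z - z0) * μ else 0) := by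
  have h1 : x - (cmv e c s μ z0).pos z = (x - c.pos z) - (s + (z - z0) * μ) • e 1 := by
    rw [cmv_pos]; abel
  rw [h1, dt_sub, dt_smul, he i 1]
  split_ifs <;> ring

theorem dt_line (u : V3) (t c : Ln4) (z z0 : ℝ) :
    dt u (t.pos z - c.pos z) = dt u (t.pos z0 - c.pos z0) + (z - z0) * dt u (t.v - c.v) := by
  simp only [dt, Ln4.pos, Pi.sub_apply]; ring

open Classical in
/-- **chopping the wide side into pieces which move with the lines** -/
theorem chop1 {A : Finset ℕ} {L : ℕ → Ln4} {e : Fin 3 → V3} {c : Ln4} {w : V3}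
    {q : ℝ → V3 → ℝ} {a z0 ρ r0 : ℝ} (hr0 : 0 < r0) (hρ : 0 ≤ ρ) (hS' : ShN e c w q a z0 ρ r0)
    (hA : ∀ t ∈ A, InSheet (L t) e c w q a z0 ρ) {r : ℝ} (h0 : 0 < r) (h1 : r ≤ 1 / 4)
    (hw : w 2 ≤ r * w 1)
    (hv : ∀ t ∈ A, ∀ t' ∈ A, |dt (e 1) ((L t).v - (L t').v)| * ρ ≤ r / 2 * w 1)
    {N : ℝ} (hN' : ∀ c' : Ln4, ShN e c' ![w 0, r * w 1, w 2] q a z0 ρ r0 →
      ((A.filter fun t => InSheet (L t) e c' ![w 0, r * w 1, w 2] q a z0 ρ).card : ℝ) ≤ N) :
    (A.card : ℝ) ≤ 7 / r * N := by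
  have hS : ShC e c w q a z0 ρ r0 := ShN.toC hr0 hS'
  have hN : ∀ c' : Ln4, ShC e c' ![w 0, r * w 1, w 2] q a z0 ρ r0 →
      ((A.filter fun t => InSheet (L t) e c' ![w 0, r * w 1, w 2] q a z0 ρ).card : ℝ) ≤ N :=
    fun c' h => hN' c' h.toN
  obtain ⟨pa, p0, p2, p1⟩ := hS.pos hr0
  rcases A.eq_empty_or_nonempty with rfl | ⟨t1, ht1⟩
  · -- the empty family
    have hN0 : (0 : ℝ) ≤ N ∨ N < 0 := le_or_gt 0 N
    rcases hN0 with hN0 | hN0
    · simp only [card_empty, Nat.cast_zero]; positivity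
    · exfalso
      -- the piece around the centre is a sheet
      have hp : ShC e (cmv e c 0 0 z0) ![w 0, r * w 1, w 2] q a z0 ρ r0 := by
        refine hS.sub hr0 le_rfl le_rfl ?_ hS.r0_le hS.w0_ge hS.w0_le hw ?_ ?_
        · intro z hz hz' x hx i
          have := hx i
          rw [dt_cmv hS.ortho] at this
          have h2 : (if i = 1 then (0 : ℝ) + (z - z0) * 0 else 0) = 0 := by split_ifs <;> ring
          rw [h2, sub_zero] at this
          refine this.trans ?_
          fin_cases i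
          · exact le_rfl
          · show 2 * (r * w 1) ≤ 2 * w 1
            nlinarith
          · exact le_rfl
        · show w 0 * (r * w 1) ≤ w 0 * w 1
          nlinarith [mul_pos p0 p1]
        · exact le_rfl
      have := hN _ hp
      have h3 : (0 : ℝ) ≤ ((((∅ : Finset ℕ).filter fun t => InSheet (L t) e (cmv e c 0 0 z0)
        ![w 0, r * w 1, w 2] q a z0 ρ).card : ℕ) : ℝ) := Nat.cast_nonneg _
      linarith
  -- cells
  set μ : ℝ := dt (e 1) ((L t1).v - c.v) with hμ
  set h : ℝ := r / 2 * w 1 with hh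
  have hpos : 0 < h := by positivity
  set ps : ℕ → ℝ := fun t => dt (e 1) ((L t).pos z0 - c.pos z0) with hps
  set k : ℕ → ℤ := fun t => ⌊ps t / h⌋ with hk
  have hzz : z0 ≤ z0 + ρ := by linarith
  have hps1 : ∀ t ∈ A, |ps t| ≤ w 1 := fun t ht => (hA t ht z0 le_rfl hzz).1 1
  -- the lines of one cell stay in one piece
  have hin : ∀ t ∈ A, ∀ z, z0 ≤ z → z ≤ z0 + ρ →
      |dt (e 1) ((L t).pos z - c.pos z) - ((k t : ℝ) * h + (z - z0) * μ)| ≤ r * w 1 := by
    intro t ht z hz hz'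
    have e1 := dt_line (e 1) (L t) c z z0
    have e2 : dt (e 1) ((L t).v - c.v) - μ = dt (e 1) ((L t).v - (L t1).v) := by
      rw [hμ]; simp only [dt, Pi.sub_apply]; ring
    have e3 : dt (e 1) ((L t).pos z - c.pos z) - ((k t : ℝ) * h + (z - z0) * μ) =
        (ps t - (k t : ℝ) * h) + (z - z0) * dt (e 1) ((L t).v - (L t1).v) := by
      rw [e1, ← e2]; simp only [hps]; ring
    have f1 : (k t : ℝ) ≤ ps t / h := Int.floor_le _
    have f2 : ps t / h < k t + 1 := Int.lt_floor_add_one _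
    rw [le_div_iff₀ hpos] at f1
    rw [div_lt_iff₀ hpos] at f2
    have f3 : |ps t - (k t : ℝ) * h| ≤ h := by
      rw [abs_le]; constructor <;> linarith
    have f4 : |(z - z0) * dt (e 1) ((L t).v - (L t1).v)| ≤ h := by
      rw [abs_mul, abs_of_nonneg (by linarith : 0 ≤ z - z0)]
      calc (z - z0) * |dt (e 1) ((L t).v - (L t1).v)|
          ≤ ρ * |dt (e 1) ((L t).v - (L t1).v)| :=
            mul_le_mul_of_nonneg_right (by linarith) (abs_nonneg _)
        _ = |dt (e 1) ((L t).v - (L t1).v)| * ρ := mul_comm _ _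
        _ ≤ h := hv t ht t1 ht1
    rw [e3]
    have := (abs_add_le (ps t - (k t : ℝ) * h) ((z - z0) * dt (e 1) ((L t).v - (L t1).v))).trans
      (add_le_add f3 f4)
    refine this.trans (le_of_eq ?_)
    rw [hh]; ring
  -- one cell
  have hcell : ∀ j ∈ A.image k, ((A.filter fun t => k t = j).card : ℝ) ≤ N := by
    intro j hj
    obtain ⟨t2, ht2, rfl⟩ := mem_image.1 hj
    have hp : ShC e (cmv e c ((k t2 : ℝ) * h) μ z0) ![w 0, r * w 1, w 2] q a z0 ρ r0 := by
      refine hS.sub hr0 le_rfl le_rfl ?_ hS.r0_le hS.w0_ge hS.w0_le hw ?_ ?_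
      · intro z hz hz' x hx i
        have hi := hx i
        rw [dt_cmv hS.ortho] at hi
        fin_cases i
        · simpa [dbl3] using hi
        · simp only [Fin.mk_one, if_true] at hi
          have h5 := hin t2 ht2 z hz hz'
          have h6 := (hA t2 ht2 z hz hz').1 1
          have h7 : |dt (e 1) (x - c.pos z) - ((k t2 : ℝ) * h + (z - z0) * μ)| ≤
              2 * (r * w 1) := hi
          show |dt (e 1) (x - c.pos z)| ≤ 2 * w 1
          have h8 : |(k t2 : ℝ) * h + (z - z0) * μ| ≤ w 1 + r * w 1 := by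
            rw [abs_le] at h5 h6 ⊢
            constructor <;> linarith [h5.1, h5.2, h6.1, h6.2]
          rw [abs_le] at h7 h8 ⊢
          have h9 : r * w 1 ≤ 1 / 4 * w 1 := mul_le_mul_of_nonneg_right h1 p1.le
          constructor <;> linarith [h7.1, h7.2, h8.1, h8.2]
        · simpa [dbl3] using hi
      · show w 0 * (r * w 1) ≤ w 0 * w 1
        have h9 : r * w 1 ≤ w 1 := by nlinarith
        exact mul_le_mul_of_nonneg_left h9 p0.le
      · exact le_rfl
    refine le_trans ?_ (hN _ hp)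
    refine Nat.cast_le.2 (card_le_card ?_)
    intro t ht
    rw [mem_filter] at ht ⊢
    refine ⟨ht.1, fun z hz hz' => ?_⟩
    have h5 := hin t ht.1 z hz hz'
    have h6 := hA t ht.1 z hz hz'
    refine ⟨fun i => ?_, h6.2⟩
    rw [dt_cmv hS.ortho]
    fin_cases i
    · simpa using h6.1 0
    · simp only [Fin.mk_one, if_true]
      rw [← ht.2]
      exact h5
    · simpa using h6.1 2
  -- number of cells
  have hNn : 0 ≤ N := by
    have := hcell (k t1) (mem_image_of_mem _ ht1)
    exact le_trans (Nat.cast_nonneg _) this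
  have hsub : A.image k ⊆ Finset.Icc (-(⌈2 / r⌉ + 1)) ⌈2 / r⌉ := by
    intro j hj
    obtain ⟨t, ht, rfl⟩ := mem_image.1 hj
    have h5 := hps1 t ht
    rw [abs_le] at h5
    have e4 : w 1 / h = 2 / r := by rw [hh]; field_simp
    have h6 : ps t / h ≤ 2 / r := by rw [← e4]; exact div_le_div_of_nonneg_right h5.2 hpos.le
    have h7 : -(2 / r) ≤ ps t / h := by
      rw [← e4, ← neg_div]; exact div_le_div_of_nonneg_right h5.1 hpos.le
    rw [Finset.mem_Icc]
    constructor
    · rw [hk]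
      refine Int.le_floor.2 ?_
      push_cast
      have := Int.le_ceil (2 / r)
      linarith
    · refine Int.floor_le_iff.2 ?_
      have := Int.le_ceil (2 / r)
      linarith
  have hcard : ((A.image k).card : ℝ) ≤ 7 / r := by
    have h5 := card_le_card hsub
    rw [Int.card_Icc] at h5
    have hr2 : 0 < 2 / r := by positivity
    have h6 : (0 : ℤ) ≤ ⌈2 / r⌉ := Int.ceil_nonneg hr2.le
    have h7 : (((⌈2 / r⌉ + 1 - -(⌈2 / r⌉ + 1)).toNat : ℕ) : ℝ) = 2 * (⌈2 / r⌉ : ℝ) + 2 := by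
      have h8 : (((⌈2 / r⌉ + 1 - -(⌈2 / r⌉ + 1)).toNat : ℕ) : ℤ) = 2 * ⌈2 / r⌉ + 2 := by
        rw [Int.toNat_of_nonneg (by linarith)]; ring
      exact_mod_cast h8
    have h9 : ((A.image k).card : ℝ) ≤ 2 * (⌈2 / r⌉ : ℝ) + 2 := by
      rw [← h7]; exact_mod_cast h5
    have h10 := Int.ceil_lt_add_one (2 / r)
    have h11 : 4 ≤ 1 / r := by
      rw [le_div_iff₀ h0]; linarith
    have h12 : 7 / r = 2 * (2 / r) + 3 * (1 / r) := by ring
    rw [h12]
    linarith
  calc (A.card : ℝ) = ((∑ j ∈ A.image k, (A.filter fun t => k t = j).card : ℕ) : ℝ) := by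
        rw [card_eq_sum_card_image k A]
    _ = ∑ j ∈ A.image k, ((A.filter fun t => k t = j).card : ℝ) := by push_cast; rfl
    _ ≤ ∑ j ∈ A.image k, N := sum_le_sum hcell
    _ = (A.image k).card * N := by rw [sum_const, nsmul_eq_mul]
    _ ≤ 7 / r * N := mul_le_mul_of_nonneg_right hcard hNn

end Crest.Agent.R136.Tn327
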