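import Crest.Agent.R136.TnB_327

/-!
# R136, U6 thin (helper327): non-concentration for `geo4` (as of 03:00Z)
-/

set_option autoImplicit false
set_option linter.unusedVariables false

open Finset Filter Topology

namespace Crest.Agent.R136.Tn327

open Crest.Agent.R138.Ex926 (Base U)
open Crest.Agent.R138.Mk163 (zc zl rho alive own Negl)
open Crest.Agent.R136.MkA627 Crest.Agent.R136.Sh605 Crest.Agent.R136.K4 Crest.Agent.R136.Top484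

theorem geoS_geo4 (L : ℕ → ℕ → Ln4) (r0 : ℕ → ℝ) (wr cr : Fin 3 → ℕ → ℝ) (q : Fin 3 → ℝ) :
    GeoS (geo4 L r0 wr cr q) L r0 q where
  mem := fun _ _ _ _ _ => Iff.rfl
  adm := fun _ _ _ _ h => h.1
  val := fun _ _ _ _ => rfl

open Classical in
/-- **non-concentration**, geometry `geo4` -/
theorem nonconc4 {B : Base} {I : ℕ → Finset (ℕ × ℝ)} {lev : ℕ → ℚ → ℕ}
    {A : ℕ → ℝ} {c Λ : ℝ → ℝ} {τ : Fin 3 → ℝ → ℝ} {f : ℕ → ℚ → ℕ → ℤ → ℕ} {b : ℕ → ℚ → ℕ → Plk4}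
    {vm : ℕ → ℚ → ℝ} {w : Fin 3 → ℕ → ℚ → ℝ} {L : ℕ → ℕ → Ln4} {r0 : ℕ → ℝ}
    {wr cr : Fin 3 → ℕ → ℝ} {q : Fin 3 → ℝ}
    (hM : MkA B I (geo4 L r0 wr cr q) lev A c Λ τ f b vm w) (hr0 : ∀ n, 0 < r0 n)
    {u : ℚ} (hu0 : 0 ≤ u) (hu1 : u ≤ 1) {ε : ℝ} (hε : 0 < ε) :
    ∀ᶠ n in (U : Filter ℕ), ∀ x ∈ I n, ∀ A' ⊆ cls I lev f n u x, ∀ r : ℝ, 0 < r → r ≤ 1 / 4 →
      (mk lev f b n u x).w 2 ≤ r * (mk lev f b n u x).w 1 →
      wr 1 n ≤ r * (mk lev f b n u x).w 1 →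
      (∀ t ∈ A', ∀ t' ∈ A', |dt ((mk lev f b n u x).e 1) ((L n t).v - (L n t').v)| *
        rho (lev n u) ≤ r / 2 * (mk lev f b n u x).w 1) →
      (A'.card : ℝ) ≤ B.d n ^ (-ε) * r ^ q 1 * ((cls I lev f n u x).card : ℝ) := by
  filter_upwards [nonconc hM (geoS_geo4 L r0 wr cr q) hr0 hu0 hu1 hε, hM.mark u hu0 hu1] with n h hm
    x hx A' hA' r h0 h1 hw hwr hv
  have h2 := (hm (zc (lev n u) x.2) x.1 (mem_alive_of hx)).2.1.2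
  have h3 := (hm (zc (lev n u) x.2) x.1 (mem_alive_of hx)).2.1.1
  have hp := (Sh321.ShN.toC (hr0 n) h3).pos (hr0 n)
  have h4 : 0 < (mk lev f b n u x).w 1 := hp.2.2.2
  have h5 : (mk lev f b n u x).w 1 ≤ rho (lev n u) := h2.1
  have h6 : (mk lev f b n u x).w 1 ≤ cr 1 n := (h2.2 1).2
  have h8 : wr 0 n ≤ (mk lev f b n u x).a ∧ (mk lev f b n u x).a ≤ cr 0 n := h2.2 0
  have h7 : wr 2 n ≤ (mk lev f b n u x).w 2 ∧ (mk lev f b n u x).w 2 ≤ cr 2 n := h2.2 2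
  refine h x hx A' hA' r h0 h1 hw (fun c' hc' => ⟨hc', ?_, ?_⟩) hv
  · show r * (mk lev f b n u x).w 1 ≤ rho (lev n u)
    nlinarith
  · intro k
    fin_cases k
    · exact h8
    · show wr 1 n ≤ r * (mk lev f b n u x).w 1 ∧ r * (mk lev f b n u x).w 1 ≤ cr 1 n
      exact ⟨hwr, by nlinarith⟩
    · exact h7

end Crest.Agent.R136.Tn327
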