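import Mathlib

/-!
# R136: sublevel sets of polynomials in one variable, by Lagrange interpolation (helper102)

* `abs_eval_le` : if `|p| ≤ α` at `D+1` points of `[-1,1]` which are pairwise `t`-separated then
  `|p x| ≤ (D+1) α (2/t)^D` on `[-1,1]`, `D ≥ natDegree p`.
* `arcs` : if `|p x₀| > (D+1) α (2/t)^D` for one `x₀ ∈ [-1,1]` then `{x ∈ [-1,1] : |p x| ≤ α}` is
  covered by `D` intervals of radius `t`.
-/

set_option autoImplicit false

open Finset

namespace Crest.Agent.R136.Tq102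

/-- **Lagrange bound.** -/
theorem abs_eval_le {D : ℕ} {p : Polynomial ℝ} (hp : p.natDegree ≤ D) {T : Finset ℝ}
    (hT : T.card = D + 1) {t α : ℝ} (ht : 0 < t) (hα : 0 ≤ α)
    (h1 : ∀ x ∈ T, |x| ≤ 1) (hsep : ∀ x ∈ T, ∀ y ∈ T, x ≠ y → t ≤ |x - y|)
    (hα' : ∀ x ∈ T, |p.eval x| ≤ α) {x : ℝ} (hx : |x| ≤ 1) :
    |p.eval x| ≤ (D + 1) * α * (2 / t) ^ D := by
  classical
  have hdeg : p.degree < T.card := by
    rw [hT]
    refine lt_of_le_of_lt Polynomial.degree_le_natDegree ?_
    exact_mod_cast Nat.lt_succ_of_le hp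
  have hinj : Set.InjOn (id : ℝ → ℝ) T := Function.injective_id.injOn
  have heq := Lagrange.eq_interpolate (v := id) (s := T) hinj (f := p) hdeg
  have hev : p.eval x = ∑ i ∈ T, p.eval i * (Lagrange.basis T id i).eval x := by
    conv_lhs => rw [heq]
    rw [Lagrange.interpolate_apply, Polynomial.eval_finsetSum]
    refine Finset.sum_congr rfl fun i _ => ?_
    rw [Polynomial.eval_mul, Polynomial.eval_C]
    rfl
  rw [hev]
  refine (Finset.abs_sum_le_sum_abs _ _).trans ?_
  have hb : ∀ i ∈ T, |(Lagrange.basis T id i).eval x| ≤ (2 / t) ^ D := by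
    intro i hi
    rw [Lagrange.basis, Polynomial.eval_prod, Finset.abs_prod]
    have hc : (T.erase i).card = D := by rw [Finset.card_erase_of_mem hi, hT]; rfl
    rw [← hc, ← Finset.prod_const]
    refine Finset.prod_le_prod (fun _ _ => abs_nonneg _) fun j hj => ?_
    obtain ⟨hji, hjT⟩ := Finset.mem_erase.1 hj
    rw [Lagrange.basisDivisor, Polynomial.eval_mul, Polynomial.eval_C, Polynomial.eval_sub,
      Polynomial.eval_X, Polynomial.eval_C, abs_mul, abs_inv]
    simp only [id]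
    have h3 : t ≤ |i - j| := hsep i hi j hjT (Ne.symm hji)
    have h4 : |x - j| ≤ 2 := by
      have := h1 j hjT
      rw [abs_le] at hx this ⊢
      constructor <;> linarith
    have h5 : 0 < |i - j| := ht.trans_le h3
    rw [inv_mul_eq_div]
    exact div_le_div₀ (by norm_num) h4 ht h3
  calc ∑ i ∈ T, |p.eval i * (Lagrange.basis T id i).eval x|
      ≤ ∑ i ∈ T, α * (2 / t) ^ D := by
        refine Finset.sum_le_sum fun i hi => ?_
        rw [abs_mul]
        exact mul_le_mul (hα' i hi) (hb i hi) (abs_nonneg _) hα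
    _ = (D + 1) * α * (2 / t) ^ D := by
        rw [Finset.sum_const, hT, nsmul_eq_mul]
        push_cast
        ring

/-- a maximal separated subset of a set all of whose separated finite subsets have `≤ D` points. -/
theorem exists_net {X : Set ℝ} {t : ℝ} (ht : 0 < t) {D : ℕ}
    (h : ∀ T : Finset ℝ, (T : Set ℝ) ⊆ X → (∀ x ∈ T, ∀ y ∈ T, x ≠ y → t ≤ |x - y|) →
      T.card ≤ D) :
    ∃ T : Finset ℝ, (T : Set ℝ) ⊆ X ∧ T.card ≤ D ∧ ∀ x ∈ X, ∃ y ∈ T, |x - y| < t := by
  classical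
  by_contra hcon
  push Not at hcon
  -- build separated sets of every size
  have key : ∀ n : ℕ, ∃ T : Finset ℝ, (T : Set ℝ) ⊆ X ∧
      (∀ x ∈ T, ∀ y ∈ T, x ≠ y → t ≤ |x - y|) ∧ T.card = n := by
    intro n
    induction n with
    | zero => exact ⟨∅, by simp, by simp, rfl⟩
    | succ n ih =>
      obtain ⟨T, hTX, hs, hc⟩ := ih
      obtain ⟨x, hx, hxy⟩ := hcon T hTX (h T hTX hs)
      have hxT : x ∉ T := fun hxT => by
        have := hxy x hxT
        rw [sub_self, abs_zero] at this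
        linarith
      refine ⟨insert x T, ?_, ?_, ?_⟩
      · intro y hy
        rcases Finset.mem_insert.1 (Finset.mem_coe.1 hy) with rfl | hy
        · exact hx
        · exact hTX hy
      · intro a ha b hb hab
        rcases Finset.mem_insert.1 ha with ha1 | ha1
        · rcases Finset.mem_insert.1 hb with hb1 | hb1
          · exact absurd (ha1.trans hb1.symm) hab
          · rw [ha1]
            exact hxy b hb1
        · rcases Finset.mem_insert.1 hb with hb1 | hb1
          · rw [abs_sub_comm, hb1]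
            exact hxy a ha1
          · exact hs a ha1 b hb1 hab
      · rw [Finset.card_insert_of_notMem hxT, hc]
  obtain ⟨T, hTX, hs, hc⟩ := key (D + 1)
  have := h T hTX hs
  omega

/-- **sublevel sets are few short arcs.** -/
theorem arcs {D : ℕ} {p : Polynomial ℝ} (hp : p.natDegree ≤ D) {t α : ℝ} (ht : 0 < t)
    (hα : 0 ≤ α) {x₀ : ℝ} (hx₀ : |x₀| ≤ 1) (hbig : (D + 1) * α * (2 / t) ^ D < |p.eval x₀|) :
    ∃ T : Finset ℝ, T.card ≤ D ∧ (∀ y ∈ T, |y| ≤ 1 ∧ |p.eval y| ≤ α) ∧
      ∀ x : ℝ, |x| ≤ 1 → |p.eval x| ≤ α → ∃ y ∈ T, |x - y| < t := by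
  obtain ⟨T, hTX, hc, hcov⟩ := exists_net (X := {x : ℝ | |x| ≤ 1 ∧ |p.eval x| ≤ α}) ht (D := D) (by
    intro T hTX hs
    by_contra hcon
    obtain ⟨T', hT'T, hT'⟩ := Finset.exists_subset_card_eq (Nat.succ_le_of_lt (not_le.1 hcon))
    have := abs_eval_le hp hT' ht hα (fun x hx => (hTX (hT'T hx)).1)
      (fun x hx y hy => hs x (hT'T hx) y (hT'T hy)) (fun x hx => (hTX (hT'T hx)).2) hx₀
    linarith)
  exact ⟨T, hc, fun y hy => hTX hy, fun x hx hx' => hcov x ⟨hx, hx'⟩⟩

end Crest.Agent.R136.Tq102
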