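import Crest.Agent.R136.Cod2_289
import Crest.Agent.R136.Nrm2_823
import Crest.Agent.R136.KDef7_879

/-!
# R136, block U4 (helper823): the extremal sequence on codes, finite half

* `LegS Leg Sh`  : members of the class with widths in the finite set `Sh`;
* `geoW`         : the geometry of sheets for codes and a legality predicate;
* `exists_codes` : codes for a finite set of incidences;
* `Good`, `exists_good` : `norm6B` on codes.
-/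

set_option autoImplicit false
set_option linter.unusedVariables false

open Finset

namespace Crest.Agent.R136.XIn823

open Sh605 K4 KS879 En879 XA248 Win823 Cod289
open Crest.Agent.R138.Mk163 (zc zl rho alive own)
open Crest.Agent.R138.MkRef627 (mem_alive)
open MkA627 (Geo)

noncomputable section

/-- members of the class with widths in the finite set `Sh` -/
def LegS (Leg : ℕ → ℝ → ℝ → Plk4 → Prop) (Sh : Finset (Fin 3 → ℝ)) (i : ℕ) (r Λ : ℝ)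
    (K : Plk4) : Prop :=
  Leg i r Λ K ∧ wd K ∈ Sh

/-- the geometry of sheets for the codes `ℓ` and the legality `Lg` -/
def geoW (ℓ : ℕ → ℕ → Ln4) (q : Fin 3 → ℝ) (Lg : ℕ → ℕ → Plk4 → Prop) : Geo Plk4 (Fin 3) where
  mem := fun n i J s t => InSheet (ℓ n t) s.e s.c s.w s.q s.a (zl i J) (rho i)
  adm := fun n i J s => Lg n i (atJ J s)
  val := fun n i J s => s.a * s.w 2 * s.w 1 *
    ((s.a / rho i) ^ q 0 * (s.w 1 / rho i) ^ q 1 * (s.w 2 / rho i) ^ q 2)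
  wid := fun k s => ![s.a, s.w 1, s.w 2] k

theorem geoOf_W (ℓ : ℕ → ℕ → Ln4) (q : Fin 3 → ℝ) (Lg : ℕ → ℕ → Plk4 → Prop) (n : ℕ) :
    GeoOf (geoW ℓ q Lg) (ℓ n) q n (Lg n) :=
  ⟨fun _ _ _ _ => Iff.rfl, fun _ _ _ => Iff.rfl, fun _ _ _ => rfl, fun _ _ => rfl⟩

theorem wv_geoW (ℓ : ℕ → ℕ → Ln4) (q : Fin 3 → ℝ) (Lg : ℕ → ℕ → Plk4 → Prop) (s : Plk4) :
    wv (geoW ℓ q Lg) s = wd s := by
  funext k; rfl

theorem GeoOf.wv_eq {G : Geo Plk4 (Fin 3)} {ℓ : ℕ → Ln4} {q : Fin 3 → ℝ} {n : ℕ}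
    {Lg : ℕ → Plk4 → Prop} (hG : GeoOf G ℓ q n Lg) (s : Plk4) : wv G s = wd s := by
  funext k
  unfold wv
  rw [hG.wid]
  rfl

theorem wd_atJ (J : ℤ) (s : Plk4) : wd (atJ J s) = wd s := rfl

theorem atJ_self {J : ℤ} {s : Plk4} (h : J = s.j) : atJ J s = s := by subst h; rfl

/-- codes for a finite set of incidences -/
theorem exists_codes (I : Finset (Ln4 × ℝ)) : ∃ (ℓ : ℕ → Ln4) (A : Finset (ℕ × ℝ)),
    Inj ℓ A ∧ enc ℓ A = I := by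
  classical
  set S : Finset Ln4 := I.image Prod.fst with hS
  set e := S.equivFin
  set ℓ : ℕ → Ln4 := fun t => if h : t < S.card then (e.symm ⟨t, h⟩ : Ln4) else ⟨0, 0⟩ with hℓ
  set code : Ln4 → ℕ := fun l => if h : l ∈ S then (e ⟨l, h⟩ : ℕ) else 0 with hcode
  have hinv : ∀ x ∈ I, ℓ (code x.1) = x.1 := by
    intro x hx
    have h : x.1 ∈ S := mem_image_of_mem _ hx
    have e1 : code x.1 = (e ⟨x.1, h⟩ : ℕ) := by rw [hcode]; simp only [dif_pos h]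
    rw [e1, hℓ]
    simp only [Fin.is_lt, dif_pos, Fin.eta, Equiv.symm_apply_apply]
  refine ⟨ℓ, I.image fun x => (code x.1, x.2), ?_, ?_⟩
  · intro x hx y hy hxy
    obtain ⟨u, hu, rfl⟩ := mem_image.1 hx
    obtain ⟨v, hv, rfl⟩ := mem_image.1 hy
    simp only [hinv u hu, hinv v hv] at hxy
    simp only [hxy]
  · ext y
    rw [mem_enc]
    constructor
    · rintro ⟨x, hx, rfl⟩
      obtain ⟨u, hu, rfl⟩ := mem_image.1 hx
      simp only [hinv u hu]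
      exact hu
    · intro hy
      exact ⟨(code y.1, y.2), mem_image_of_mem _ hy, by simp only [hinv y hy]⟩

section

variable {G : Geo Plk4 (Fin 3)} {ℓ : ℕ → Ln4} {q : Fin 3 → ℝ} {n : ℕ}
  {Lg : ℕ → Plk4 → Prop}

open Classical in
/-- bounds for objects are bounds for alive codes -/
theorem up_of_objs (hG : GeoOf G ℓ q n Lg) {A : Finset (ℕ × ℝ)} (hi : Inj ℓ A)
    {i : ℕ} {D : ℝ} (hpos : ∀ K, Lg i K → 0 < K.a ∧ 0 < K.w 2 ∧ 0 < K.w 1)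
    (h : ∀ K, Lg i K → ((objs4 i (enc ℓ A) K).card : ℝ) ≤ D * cap5 q i K)
    (R : Rel (Fin 3)) (j : ℕ) (w : Fin 3 → ℝ) : Up G R 0 n i A j w D := by
  intro J s hs _
  have h1 : Lg i (atJ J s) := (hG.adm _ _ _).1 hs
  obtain ⟨pa, p2, p1⟩ := hpos _ h1
  have h2 := h _ h1
  rw [hG.valx_eq 0 i J (s := s) pa p2 p1, add_zero]
  refine le_trans ?_ h2
  rw [card_objs hG hi i (atJ J s)]
  refine Nat.cast_le.2 (card_le_card fun t ht => ?_)
  rw [mem_filter] at ht ⊢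
  exact ⟨ht.1, (hG.mem _ _ _ _).2 ((hG.mem i J s t).1 ht.2)⟩

variable {Leg : ℕ → ℝ → ℝ → Plk4 → Prop} {F : Cf6}

/-- the classes of a configuration on codes -/
theorem isCl_of (hG : GeoOf G ℓ q n fun i K => Leg i F.r F.Λm K)
    (hF : Ok6 Leg q F) {A : Finset (ℕ × ℝ)} (hA : enc ℓ A = F.I) {w : Fin 3 → ℝ}
    (hw : ∀ x ∈ F.I, wd (F.K (F.cl (ob4 F.top x))) = w) :
    IsCl G n F.top A (fun t J => F.cl (ℓ t, J)) F.K w := by
  intro J t ht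
  obtain ⟨x, hx, hx1, hx2⟩ := mem_alive.1 ht
  have hy : (ℓ x.1, x.2) ∈ F.I := by rw [← hA]; exact mem_enc.2 ⟨x, hx, rfl⟩
  have e1 : ob4 F.top (ℓ x.1, x.2) = (ℓ t, J) := by
    unfold ob4
    rw [← hx2, ← hx1]; rfl
  have h1 := hF.legal _ hy
  have h2 := hF.mem _ hy
  have h3 := hw _ hy
  rw [e1] at h1 h2 h3
  have e2 : atJ J (F.K (F.cl (ℓ t, J))) = F.K (F.cl (ℓ t, J)) := atJ_self h2.1
  refine ⟨?_, ?_, ?_⟩
  · rw [hG.mem_iff, e2]; exact h2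
  · rw [hG.adm, e2]; exact h1
  · rw [GeoOf.wv_eq hG]; exact h3

open Classical in
theorem low_of (hG : GeoOf G ℓ q n fun i K => Leg i F.r F.Λm K)
    (hpos : ∀ i K, Leg i F.r F.Λm K → 0 < K.a ∧ 0 < K.w 2 ∧ 0 < K.w 1)
    (hF : Ok6 Leg q F) {A : Finset (ℕ × ℝ)} (hi : Inj ℓ A) (hA : enc ℓ A = F.I) :
    Low G 0 n F.top A (fun t J => F.cl (ℓ t, J)) F.K F.D1 := by
  intro J t ht
  obtain ⟨x, hx, hx1, hx2⟩ := mem_alive.1 ht
  have hy : (ℓ x.1, x.2) ∈ F.I := by rw [← hA]; exact mem_enc.2 ⟨x, hx, rfl⟩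
  have e1 : ob4 F.top (ℓ x.1, x.2) = (ℓ t, J) := by
    unfold ob4
    rw [← hx2, ← hx1]; rfl
  have h1 := hF.legal _ hy
  have h2 := hF.mem _ hy
  have h3 := hF.low _ hy
  rw [e1] at h1 h2 h3
  obtain ⟨pa, p2, p1⟩ := hpos _ _ h1
  have e2 : atJ J (F.K (F.cl (ℓ t, J))) = F.K (F.cl (ℓ t, J)) := atJ_self h2.1
  have e3 : valx G 0 n F.top J (F.K (F.cl (ℓ t, J))) = cap5 q F.top (F.K (F.cl (ℓ t, J))) := by
    rw [hG.valx_eq 0 F.top J (s := F.K (F.cl (ℓ t, J))) pa p2 p1, add_zero, e2]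
  rw [e3]
  refine h3.trans (Nat.cast_le.2 ?_)
  unfold Cf4.cls
  refine card_le_card_of_injOn (fun o => dec ℓ A o.1) (fun o ho => ?_) ?_
  · rw [Finset.mem_coe, mem_filter] at ho
    obtain ⟨ho1, ho2⟩ := ho
    obtain ⟨z, hz, rfl⟩ := mem_image.1 ho1
    rw [e1] at ho2
    have h4 := hF.mem z hz
    rw [ho2] at h4
    have hJ : (ob4 F.top z).2 = J := h4.1.trans h2.1.symm
    have hz' := hz
    rw [← hA] at hz'
    obtain ⟨u, hu, hu1⟩ := mem_enc.1 hz'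
    have e4 : (ob4 F.top z).1 = ℓ u.1 := by rw [← hu1]; rfl
    have e5 : dec ℓ A (ob4 F.top z).1 = u.1 := by rw [e4]; exact dec_eq hi hu
    have e6 : ob4 F.top z = (ℓ u.1, J) := Prod.ext e4 hJ
    rw [Finset.mem_coe]
    show dec ℓ A (ob4 F.top z).1 ∈ _
    rw [e5, mem_filter, mem_alive]
    refine ⟨⟨u, hu, rfl, ?_⟩, ?_⟩
    · rw [← hJ, ← hu1]; rfl
    · show F.cl (ℓ u.1, J) = F.cl (ℓ t, J)
      rw [← e6]; exact ho2
  · intro o ho o' ho' hoo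
    rw [Finset.mem_coe, mem_filter] at ho ho'
    have key : ∀ o, o ∈ (F.I.image (ob4 F.top)) → F.cl o = F.cl (ob4 F.top (ℓ x.1, x.2)) →
        o = (ℓ (dec ℓ A o.1), J) := by
      intro o ho1 ho2
      obtain ⟨z, hz, rfl⟩ := mem_image.1 ho1
      rw [e1] at ho2
      have h4 := hF.mem z hz
      rw [ho2] at h4
      have hJ : (ob4 F.top z).2 = J := h4.1.trans h2.1.symm
      have hz' := hz
      rw [← hA] at hz'
      obtain ⟨u, hu, hu1⟩ := mem_enc.1 hz'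
      have e4 : (ob4 F.top z).1 = ℓ u.1 := by rw [← hu1]; rfl
      have e5 : dec ℓ A (ob4 F.top z).1 = u.1 := by rw [e4]; exact dec_eq hi hu
      rw [e5]
      exact Prod.ext e4 hJ
    rw [key o ho.1 ho.2, key o' ho'.1 ho'.2]
    simp only at hoo
    rw [hoo]

end

/-- normalised configuration on codes -/
structure Good (Leg : ℕ → ℝ → ℝ → Plk4 → Prop) (q : Fin 3 → ℝ) (F : Cf6)
    (Sh : Finset (Fin 3 → ℝ)) (CU K0 : ℝ) (h' : ℕ) (ℓ : ℕ → Ln4) (A : Finset (ℕ × ℝ))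
    (c : ℕ → ℤ → ℕ) (b : ℕ → Plk4) (w : Fin 3 → ℝ) : Prop where
  inj : Inj ℓ A
  sub : enc ℓ A ⊆ F.I
  ne : A.Nonempty
  one : ∀ x ∈ A, ∀ y ∈ A, x.1 = y.1 → zc F.top x.2 = zc F.top y.2 → x = y
  own : ∀ x ∈ A, 2 ^ (F.M + 20) ≤ 2 ^ h' * (own A F.m F.top x).card
  wSh : w ∈ Sh
  cl : ∀ (G : Geo Plk4 (Fin 3)) (n : ℕ),
    GeoOf G ℓ q n (fun i K => LegS Leg Sh i F.r F.Λm K) → IsCl G n F.top A c b w
  low : ∀ (G : Geo Plk4 (Fin 3)) (n : ℕ),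
    GeoOf G ℓ q n (fun i K => LegS Leg Sh i F.r F.Λm K) →
      Low G 0 n F.top A c b (F.D1 / (4 * K0 ^ 2 * (Sh.card : ℝ)))
  up : ∀ (G : Geo Plk4 (Fin 3)) (n : ℕ),
    GeoOf G ℓ q n (fun i K => LegS Leg Sh i F.r F.Λm K) → ∀ (R : Rel (Fin 3)) (i : ℕ),
      F.m ≤ i → i ≤ F.top →
      Up G R 0 n i A F.top w ((2:ℝ) ^ (CU * ((i : ℝ) - F.m + F.h + 10)) * F.D0)

open Classical in
theorem exists_good {Leg : ℕ → ℝ → ℝ → Plk4 → Prop} {q : Fin 3 → ℝ} {F : Cf6}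
    (hpos : ∀ i K, Leg i F.r F.Λm K → 0 < K.a ∧ 0 < K.w 2 ∧ 0 < K.w 1)
    {CU : ℝ} (hCU : 0 ≤ CU)
    (hall : ∀ i, F.m ≤ i → i ≤ F.top → ∀ S, Leg i F.r F.Λm S → ((objs4 i F.I S).card : ℝ) ≤
      (2:ℝ) ^ (CU * ((i : ℝ) - F.m + F.h + 10)) * F.D0 * cap5 q i S)
    (hF : Ok6 Leg q F) (Sh : Finset (Fin 3 → ℝ)) {K0 : ℝ} (hK0 : 1 ≤ K0)
    (hRnd : ∀ x ∈ F.I, ∀ K, K = F.K (F.cl (ob4 F.top x)) → ∀ O : Finset (Ln4 × ℤ),
      (∀ o ∈ O, In4 F.top K o) →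
      ∃ K', Leg F.top F.r F.Λm K' ∧ wd K' ∈ Sh ∧ cap5 q F.top K' ≤ K0 * cap5 q F.top K ∧
        (O.card : ℝ) ≤ K0 * ((O.filter fun o => In4 F.top K' o).card : ℝ))
    {h' : ℕ} (hh : 4 * K0 * (Sh.card : ℝ) * 2 ^ F.h ≤ 2 ^ h') (hhM : h' ≤ F.M) :
    ∃ ℓ A c b w, Good Leg q F Sh CU K0 h' ℓ A c b w := by
  obtain ⟨F', hF', em, eM, er, eΛ, hI, hone, ⟨s, hs, hws⟩, eh, eD0, eD1, hup⟩ :=
    norm6B hCU hall hF (fun K => wd K) Sh hK0 hRnd hh hhM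
  obtain ⟨ℓ, A, hinj, henc⟩ := exists_codes F'.I
  have etop : F'.top = F.top := by unfold Cf4.top; rw [em, eM]
  have hFS : Ok6 (LegS Leg Sh) q F' := by
    refine ⟨⟨hF'.M1, hF'.r0, hF'.rle, hF'.Λ1, hF'.ne, hF'.cell, hF'.D1p, ?_, hF'.mem, hF'.low,
      fun K hK => hF'.up K hK.1⟩, hF'.h20, hF'.hM, fun i h1 h2 K hK => hF'.ups i h1 h2 K hK.1,
      hF'.own⟩
    intro x hx
    refine ⟨hF'.legal x hx, ?_⟩
    have := hws x hx
    rw [← etop] at this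
    rw [this]; exact hs
  have hxy : ∀ x ∈ A, (ℓ x.1, x.2) ∈ F'.I := fun x hx => by
    rw [← henc]; exact mem_enc.2 ⟨x, hx, rfl⟩
  have hposS : ∀ i K, LegS Leg Sh i F'.r F'.Λm K → 0 < K.a ∧ 0 < K.w 2 ∧ 0 < K.w 1 := by
    intro i K hK
    rw [er, eΛ] at hK
    exact hpos i K hK.1
  refine ⟨ℓ, A, fun t J => F'.cl (ℓ t, J), F'.K, s, hinj, ?_, ?_, ?_, ?_, hs, ?_, ?_, ?_⟩
  · rw [henc]; exact hI
  · obtain ⟨y, hy⟩ := hF'.ne
    rw [← henc] at hy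
    obtain ⟨x, hx, -⟩ := mem_enc.1 hy
    exact ⟨x, hx⟩
  · intro x hx y hy h1 h2
    have h3 := hone _ (hxy x hx) _ (hxy y hy) (by
      unfold ob4
      rw [h1]
      exact Prod.ext rfl h2)
    exact Prod.ext h1 (Prod.ext_iff.1 h3).2
  · intro x hx
    have h1 := hF'.own _ (hxy x hx)
    rw [eM, eh, em, etop, ← henc, ownc4_enc hinj _ _ hx] at h1
    exact h1
  · intro G n hG
    rw [← er, ← eΛ] at hG
    have := isCl_of hG hFS henc (w := s) (fun x hx => by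
      have := hws x hx
      rwa [← etop] at this)
    rwa [etop] at this
  · intro G n hG
    rw [← er, ← eΛ] at hG
    have := low_of hG hposS hFS hinj henc
    rwa [etop, eD1] at this
  · intro G n hG R i h1 h2
    refine up_of_objs hG hinj (fun K hK => hpos i K hK.1) (fun K hK => ?_) R _ _
    rw [henc]
    exact hup i h1 h2 K hK.1

end

end Crest.Agent.R136.XIn823
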