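import Crest.Agent.R136.Tq1_879
import Crest.Agent.R136.XIn1_823

/-!
# R136: the enemy over the class of sheets `TS36` (helper879)

`enemy36 : ¬ KS4 → ∃ K ≥ 2, EnemyH K TT36`.
-/

set_option autoImplicit false
set_option linter.unusedVariables false

open Finset

namespace Crest.Agent.R136.Tq879

open Crest.Agent.R116.Xa794 (TS)
open Crest.Agent.R116.Xc794 (Cfg capP rel)
open Crest.Agent.R138.Mk163 (zc zl rho alive own)
open Crest.Agent.R138.MkRef627 (mem_alive)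
open Sh605 K4 KS879 En879 Cod289 Win823 KF879 XIn823

noncomputable section

theorem half_le {a b : ℕ} (h : ((1:ℝ) / 2) ^ a ≤ (1 / 2) ^ b) : b ≤ a := by
  by_contra hn
  rw [not_le] at hn
  have : ((1:ℝ) / 2) ^ b < (1 / 2) ^ a :=
    pow_lt_pow_right_of_lt_one₀ (by norm_num) (by norm_num) hn
  linarith

theorem inv_pow2 (n : ℕ) : (1:ℝ) / 2 ^ n = (1 / 2) ^ n := by
  rw [div_pow, one_pow]

open Classical in
/-- **the enemy as a configuration with room `h`** -/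
theorem cfg36 {b0 η : ℝ} {N Mt : ℕ} {s : Finset GLine4} {I : Finset (GLine4 × ℤ)} {μ : ℝ}
    (hR : Raw b0 η N Mt s I μ) {h : ℕ} (hM : h + 1 ≤ Mt) :
    ∃ F : Cfg Ln4 (Fin 3) Plk4, OkH (TS36 (1 / 2 ^ Mt)) (fun _ _ => 0) h F ∧ F.m = h ∧
      F.M = Mt - h ∧ F.N = Mt ∧ (F.I.card : ℝ) ≤ 2 ^ (5 * Mt) ∧
      F.nu = (2:ℝ) ^ ((1 - η) * Mt) / 32 ∧ (∀ j, F.a j = Mt) ∧ F.D1 = μ * 8 ^ Mt ∧
      F.D0 = 128000000 * ((Mt : ℝ) + 2 * (2:ℕ) + h + 6) ^ 2 * 8 ^ (Mt + 2 + h) := by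
  obtain ⟨J, cl, ctr, hne, hcard, hcard5, hz, hz0, hinj, hvel, hmem, hmul, hown, hsep⟩ :=
    grid_cf6 hR
  obtain ⟨ℓ, A, hi, hA⟩ := exists_codes J
  have hμ : 0 < μ := lt_of_lt_of_le (by positivity) hR.big
  have hr : (0:ℝ) < 1 / 2 ^ Mt := by positivity
  have hmh : h + (Mt - h) = Mt := by omega
  have hAJ : ∀ x ∈ A, (ℓ x.1, x.2) ∈ J := fun x hx => by rw [← hA]; exact mem_enc.2 ⟨x, hx, rfl⟩
  have hz0' : ∀ x ∈ A, zc 0 x.2 = 0 := fun x hx => hz0 _ (hAJ x hx)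
  set b : ℕ → (Fin 3 → ℕ) × Plk4 := fun c => (fun _ => Mt, cubeK (1 / 2 ^ Mt) (ctr c)) with hb
  -- geometry of codes, only used for `card_objs`
  set G := geoW (fun _ => ℓ) 0 (fun _ _ _ => True) with hGd
  have hG : GeoOf G ℓ 0 0 (fun _ _ => True) := geoOf_W _ _ _ _
  refine ⟨⟨h, Mt - h, A, ℓ, fun t J => cl (ℓ t, J), b, fun _ => Mt,
    128000000 * ((Mt : ℝ) + 2 * (2:ℕ) + h + 6) ^ 2 * 8 ^ (Mt + 2 + h), μ * 8 ^ Mt,
    (2:ℝ) ^ ((1 - η) * Mt) / 32, Mt⟩, ?_, rfl, rfl, rfl, ?_, rfl, fun _ => rfl, rfl, rfl⟩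
  swap
  · -- cardinality
    have h1 : A.card = J.card := by
      rw [← hA]
      unfold enc
      rw [card_image_of_injOn]
      intro x hx y hy hxy
      have h1 : (ℓ x.1, x.2) = (ℓ y.1, y.2) := hxy
      rw [Prod.ext_iff] at h1
      exact Prod.ext (hi x hx y hy h1.1) h1.2
    show (A.card : ℝ) ≤ _
    rw [h1]; exact hcard5
  refine ⟨?_, le_rfl, ?_, ?_, by show 0 < μ * 8 ^ Mt; positivity,
    by show (0:ℝ) < (2:ℝ) ^ ((1 - η) * Mt) / 32; positivity, ?_, ?_, ?_, ?_, ?_⟩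
  · show 1 ≤ Mt - h; omega
  · show A.Nonempty
    obtain ⟨y, hy⟩ := hne
    rw [← hA] at hy
    obtain ⟨x, hx, _⟩ := mem_enc.1 hy
    exact ⟨x, hx⟩
  · intro x hx y hy
    show zc (h - h) x.2 = zc (h - h) y.2
    rw [Nat.sub_self, hz0' x hx, hz0' y hy]
  · -- fin
    intro i J' t ht j
    have h0 := ht.1.r0_le
    have h1 : t.2.a ≤ wd t.2 j := by
      fin_cases j
      · exact le_rfl
      · exact ht.1.a_le.trans ht.1.w_le
      · exact ht.1.a_le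
    have h2 := h0.trans h1
    rw [ht.2.2 j, inv_pow2] at h2
    exact half_le h2
  · -- top
    intro J' t ht
    change t ∈ alive A (h + (Mt - h)) J' at ht
    show (TS36 (1 / 2 ^ Mt)).mem (h + (Mt - h)) J' (b (cl (ℓ t, J'))) (ℓ t) ∧
      (TS36 (1 / 2 ^ Mt)).adm (h + (Mt - h)) J' (b (cl (ℓ t, J'))) ∧
      (b (cl (ℓ t, J'))).1 = fun _ => Mt
    rw [hmh] at ht ⊢
    obtain ⟨x, hx, hx1, hx2⟩ := mem_alive.1 ht
    have hy := hAJ x hx
    have e1 : ob4 Mt (ℓ x.1, x.2) = (ℓ t, J') := by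
      unfold ob4
      rw [← hx2, ← hx1]; rfl
    obtain ⟨h1, h2⟩ := hmem _ hy
    rw [e1] at h1 h2
    have h3 : zc4 Mt x.2 = J' := hx2
    simp only at h1 h2
    rw [h3] at h1
    rw [hx1] at h2
    refine ⟨⟨?_, ?_⟩, ⟨cubeN _ hr, le_rfl, ?_⟩, rfl⟩
    · rw [← h1] at h2
      exact h2
    · intro k
      have := (hvel _ hy k).1
      simp only [hx1] at this
      linarith
    · intro k
      show wd (cubeK (1 / 2 ^ Mt) _) k = (1 / 2) ^ Mt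
      rw [← inv_pow2]
      fin_cases k <;> rfl
  · -- low
    intro J' t ht
    change t ∈ alive A (h + (Mt - h)) J' at ht
    show μ * 8 ^ Mt * (TS36 (1 / 2 ^ Mt)).vol (h + (Mt - h)) (fun _ => Mt) ≤
      (((alive A (h + (Mt - h)) J').filter fun s => cl (ℓ s, J') = cl (ℓ t, J')).card : ℝ)
    rw [hmh] at ht ⊢
    have e0 : μ * 8 ^ Mt * (TS36 (1 / 2 ^ Mt)).vol Mt (fun _ => Mt) = μ := by
      show μ * 8 ^ Mt * ((1 / 2 : ℝ) ^ Mt * (1 / 2) ^ Mt * (1 / 2) ^ Mt) = μ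
      rw [← mul_pow, ← mul_pow, mul_assoc, ← mul_pow]
      norm_num
    rw [e0]
    obtain ⟨x, hx, hx1, hx2⟩ := mem_alive.1 ht
    have hy := hAJ x hx
    have e1 : ob4 Mt (ℓ x.1, x.2) = (ℓ t, J') := by
      unfold ob4
      rw [← hx2, ← hx1]; rfl
    have h3 := hmul _ hy
    rw [e1] at h3
    have hctr : (ctr (cl (ℓ t, J'))).2 = J' := by
      have h1 := (hmem _ hy).1
      rw [e1] at h1
      rw [← h1]; exact hx2
    refine h3.trans (Nat.cast_le.2 ?_)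
    have key : ∀ o ∈ J.image (ob4 Mt), cl o = cl (ℓ t, J') → ∃ u ∈ A, o = (ℓ u.1, J') ∧
        zc Mt u.2 = J' := by
      intro o ho1 ho2
      obtain ⟨z, hz1, rfl⟩ := mem_image.1 ho1
      have hJ : zc4 Mt z.2 = J' := by
        rw [(hmem z hz1).1, ho2, hctr]
      have hz' := hz1
      rw [← hA] at hz'
      obtain ⟨u, hu, hu1⟩ := mem_enc.1 hz'
      refine ⟨u, hu, ?_, ?_⟩
      · unfold ob4
        rw [hJ, ← hu1]
      · rw [← hJ, ← hu1]; rfl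
    refine card_le_card_of_injOn (fun o => dec ℓ A o.1) (fun o ho => ?_) ?_
    · rw [Finset.mem_coe, mem_filter] at ho
      obtain ⟨u, hu, rfl, hu2⟩ := key o ho.1 ho.2
      rw [Finset.mem_coe]
      show dec ℓ A (ℓ u.1) ∈ _
      rw [dec_eq hi hu, mem_filter, mem_alive]
      exact ⟨⟨u, hu, rfl, hu2⟩, ho.2⟩
    · intro o ho o' ho' hoo
      rw [Finset.mem_coe, mem_filter] at ho ho'
      obtain ⟨u, hu, rfl, -⟩ := key o ho.1 ho.2
      obtain ⟨u', hu', rfl, -⟩ := key o' ho'.1 ho'.2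
      simp only at hoo
      rw [dec_eq hi hu, dec_eq hi hu'] at hoo
      rw [hoo]
  · -- own
    intro x hx
    show (2:ℝ) ^ ((1 - η) * Mt) / 32 ≤ ((own A (h - h) (h + (Mt - h)) x).card : ℝ)
    rw [hmh, Nat.sub_self]
    have h1 := hown _ (hAJ x hx)
    have h2 := ownc4_enc hi 0 Mt hx
    rw [hA] at h2
    have h3 : ((J.filter fun y => y.1 = ℓ x.1).image (ob4 Mt)).card ≤ (own A 0 Mt x).card := by
      rw [← h2]
      unfold ownc4
      refine card_le_card (image_subset_image fun y hy => ?_)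
      rw [mem_filter] at hy ⊢
      refine ⟨hy.1, ?_⟩
      unfold ob4
      rw [hy.2, hz0 y hy.1, hz0 _ (hAJ x hx)]
    have h4 : (((J.filter fun y => y.1 = ℓ x.1).image (ob4 Mt)).card : ℝ) ≤
        ((own A 0 Mt x).card : ℝ) := by exact_mod_cast h3
    rw [div_le_iff₀ (by norm_num)]
    linarith
  · -- up
    intro J' t ht
    change (TS36 (1 / 2 ^ Mt)).adm h J' t at ht
    show (((alive A h J').filter fun u => (TS36 (1 / 2 ^ Mt)).mem h J' t (ℓ u)).card : ℝ) ≤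
      128000000 * ((Mt : ℝ) + 2 * (2:ℕ) + h + 6) ^ 2 * 8 ^ (Mt + 2 + h) *
        capP (TS36 (1 / 2 ^ Mt)) (fun _ _ => 0) (h + (Mt - h)) (fun _ => Mt) h t.1
    set K : Plk4 := Cod289.atJ J' t.2 with hK
    have hLeg : LegN h (1 / 2 ^ Mt) 1 K := ⟨ht.1, ht.2.1⟩
    have hw : K.w 1 ≤ 2 ^ 2 := by
      have h1 : K.w 1 ≤ 1 / 2 ^ h := ht.2.1
      have h2 : (1:ℝ) / 2 ^ h ≤ 1 := by
        rw [div_le_one (by positivity)]; exact one_le_pow₀ (by norm_num)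
      linarith
    have h1 := kr_cell6 (κ := 2) (i := h) J hsep (clsOK6_N.sheet _ _ _ _ hr hLeg) hw
    have h2 := card_objs hG hi h K
    rw [hA] at h2
    rw [h2] at h1
    have h3 : ((alive A h J').filter fun u => (TS36 (1 / 2 ^ Mt)).mem h J' t (ℓ u)).card ≤
        ((alive A h K.j).filter fun u => G.mem 0 h K.j K u).card := by
      refine card_le_card fun u hu => ?_
      rw [mem_filter] at hu ⊢
      exact ⟨hu.1, hu.2.1⟩
    have h4 : (((alive A h J').filter fun u => (TS36 (1 / 2 ^ Mt)).mem h J' t (ℓ u)).card : ℝ) ≤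
        (((alive A h K.j).filter fun u => G.mem 0 h K.j K u).card : ℝ) := by
      exact_mod_cast h3
    refine h4.trans (h1.trans (le_of_eq ?_))
    have e1 : capP (TS36 (1 / 2 ^ Mt)) (fun _ _ => 0) (h + (Mt - h)) (fun _ => Mt) h t.1 =
        K.a * K.w 2 * K.w 1 := by
      unfold capP
      rw [neg_zero, Real.rpow_zero, mul_one, vol_eq ht]
      rfl
    rw [e1]

set_option maxHeartbeats 400000 in
/-- **ENEMY** -/
theorem enemy36 (hKS : ¬ KS4) : ∃ K : ℕ, 2 ≤ K ∧ EnemyH K TT36 := by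
  obtain ⟨b0, hb0, hraw⟩ := enemy_raw hKS
  -- `K + 1 ≥ 12 / b0`, `K ≥ 2`
  obtain ⟨K, hK1, hK2⟩ : ∃ K : ℕ, 2 ≤ K ∧ 24 ≤ b0 * (K + 1 : ℝ) := by
    refine ⟨⌈24 / b0⌉₊ + 2, by omega, ?_⟩
    have h1 : 24 / b0 ≤ (⌈24 / b0⌉₊ : ℝ) := Nat.le_ceil _
    rw [div_le_iff₀ hb0] at h1
    push_cast
    nlinarith
  have hK0 : (0:ℝ) < K + 1 := by positivity
  refine ⟨K, hK1, b0 / 2, by linarith, fun δ0 hδ0 M0 => ?_⟩
  set δ : ℝ := min δ0 1 with hδd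
  have hδ : 0 < δ := by positivity
  have hδδ : δ ≤ δ0 := min_le_left _ _
  have hδ1 : δ ≤ 1 := min_le_right _ _
  set C : ℝ := 128000000 * 4 * 8 ^ 3 with hC
  have ev := ((poly_small (64 + 10) (by norm_num) (by positivity : 0 < δ / 4)).and
    ((poly_small C (by positivity) (by positivity : 0 < b0 / 8)).and
      (Filter.eventually_ge_atTop (2 * M0 + 4 * K + 4)))).exists_forall_of_atTop
  obtain ⟨M1, hM1⟩ := ev
  obtain ⟨N, Mt, s, I, μ, hMM, hR⟩ := hraw (δ / 2) (by positivity) M1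
  obtain ⟨k1, k2, k3⟩ := hM1 Mt hMM
  set h : ℕ := Mt / (K + 1) + 1 with hh
  have hdm := Nat.div_add_mod Mt (K + 1)
  have hmod : Mt % (K + 1) < K + 1 := Nat.mod_lt Mt (Nat.succ_pos K)
  have hq3 : Mt / (K + 1) * 3 ≤ Mt := by
    calc Mt / (K + 1) * 3 ≤ Mt / (K + 1) * (K + 1) := Nat.mul_le_mul_left _ (by omega)
      _ ≤ Mt := Nat.div_mul_le_self _ _
  have h2h : 2 * h ≤ Mt := by omega
  have hKh : Mt - h ≤ K * h := by
    have e : (K + 1) * h = (K + 1) * (Mt / (K + 1)) + (K + 1) := by rw [hh]; ring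
    have e2 : (K + 1) * h = K * h + h := by ring
    omega
  obtain ⟨F, hF, hm, hFM, hN, hcard, hnu, ha, hD1, hD0⟩ := cfg36 hR (h := h) (by omega)
  have hMt0 : (0:ℝ) < Mt := by
    have : 0 < Mt := by omega
    exact_mod_cast this
  have hFMr : (F.M : ℝ) = Mt - h := by
    rw [hFM]; push_cast [Nat.cast_sub (by omega : h ≤ Mt)]; ring
  have hhr : 2 * (h : ℝ) ≤ Mt := by exact_mod_cast h2h
  have hFMge : (Mt : ℝ) ≤ 2 * F.M := by rw [hFMr]; linarith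
  have hFM0 : (0:ℝ) < F.M := by linarith
  -- `3 h ≤ b0 / 8 * Mt + 3`
  have hhb : 3 * (h : ℝ) ≤ b0 / 8 * Mt + 3 := by
    have h1 : (h : ℝ) ≤ Mt / (K + 1 : ℝ) + 1 := by
      rw [hh]; push_cast
      have := @Nat.cast_div_le ℝ _ _ _ Mt (K + 1)
      push_cast at this
      linarith
    have h2 : (Mt:ℝ) / (K + 1 : ℝ) ≤ b0 / 24 * Mt := by
      rw [div_le_iff₀ hK0]
      nlinarith
    linarith
  have hmono : (2:ℝ) ^ (δ / 4 * Mt) ≤ (2:ℝ) ^ (δ0 * F.M) := by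
    refine Real.rpow_le_rpow_of_exponent_le (by norm_num) ?_
    calc δ / 4 * (Mt:ℝ) ≤ δ / 4 * (2 * F.M) := by gcongr
      _ = δ / 2 * F.M := by ring
      _ ≤ δ0 * F.M := by gcongr; linarith
  have hbig : (74:ℝ) * (Mt + 6) ≤ (2:ℝ) ^ (δ / 4 * Mt) := by
    refine le_trans ?_ k1
    have : (Mt:ℝ) + 6 ≤ (Mt + 6) ^ 2 := by nlinarith
    nlinarith
  refine ⟨TS36 (1 / 2 ^ Mt), ⟨_, by positivity, rfl⟩, F, h, hF, ?_, ?_, ?_, hm, ?_, ?_, ?_, ?_, ?_,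
    ?_⟩
  · rw [hFM]; omega
  · rw [hFM]; exact hKh
  · rw [hFM]; omega
  · -- log
    have hne : (0:ℝ) < F.I.card := by exact_mod_cast card_pos.2 hF.ne
    calc Real.log (F.I.card : ℝ) ≤ Real.log (2 ^ (5 * Mt)) := Real.log_le_log hne hcard
      _ = (5 * Mt : ℕ) * Real.log 2 := by rw [Real.log_pow]
      _ ≤ (5 * Mt : ℕ) * 1 := by
        have : Real.log 2 ≤ 1 := by
          have := Real.log_two_lt_d9; linarith
        gcongr
      _ ≤ 74 * ((Mt:ℝ) + 6) := by push_cast; linarith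
      _ ≤ _ := hbig.trans hmono
  · rw [hN]
    refine le_trans ?_ (hbig.trans hmono)
    linarith
  · rw [hN, hm, hFM]; omega
  · -- own
    rw [hnu, le_div_iff₀ (by norm_num)]
    have e1 : (F.M : ℝ) + h = Mt := by rw [hFMr]; ring
    rw [e1]
    have h32 : (32:ℝ) ≤ (2:ℝ) ^ (δ / 4 * Mt) := by
      refine le_trans ?_ hbig; linarith
    have h33 : (2:ℝ) ^ ((1 - δ0) * Mt) ≤ (2:ℝ) ^ ((1 - δ) * Mt) :=
      Real.rpow_le_rpow_of_exponent_le (by norm_num)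
        (mul_le_mul_of_nonneg_right (by linarith) hMt0.le)
    calc (2:ℝ) ^ ((1 - δ0) * Mt) * 32 ≤ (2:ℝ) ^ ((1 - δ) * Mt) * (2:ℝ) ^ (δ / 4 * Mt) :=
          mul_le_mul h33 h32 (by norm_num) (by positivity)
      _ = (2:ℝ) ^ ((1 - 3 * δ / 4) * Mt) := by
        rw [← Real.rpow_add (by norm_num)]; congr 1; ring
      _ ≤ (2:ℝ) ^ ((1 - δ / 2) * Mt) :=
        Real.rpow_le_rpow_of_exponent_le (by norm_num)
          (mul_le_mul_of_nonneg_right (by linarith) hMt0.le)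
  · intro j
    rw [ha, hm, hFM]; omega
  · -- value
    rw [hD1, hD0]
    have h8 : (8:ℝ) ^ (Mt + 2 + h) ≤ 8 ^ Mt * 8 ^ 3 * (2:ℝ) ^ (b0 / 8 * Mt) * 8 := by
      have e5 : (8:ℝ) ^ h = (2:ℝ) ^ (3 * (h:ℝ)) := by
        rw [Real.rpow_mul (by norm_num)]; norm_num
      have e6 : (2:ℝ) ^ (3 * (h:ℝ)) ≤ (2:ℝ) ^ (b0 / 8 * Mt) * 8 := by
        have e7 : (2:ℝ) ^ (b0 / 8 * Mt) * 8 = (2:ℝ) ^ (b0 / 8 * Mt + 3) := by
          rw [Real.rpow_add (by norm_num)]; norm_num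
        rw [e7]
        exact Real.rpow_le_rpow_of_exponent_le (by norm_num) hhb
      rw [pow_add, pow_add, e5]
      calc (8:ℝ) ^ Mt * 8 ^ 2 * (2:ℝ) ^ (3 * (h:ℝ)) ≤
            8 ^ Mt * 8 ^ 2 * ((2:ℝ) ^ (b0 / 8 * Mt) * 8) := by gcongr
        _ ≤ _ := by
          have : (0:ℝ) < 8 ^ Mt * (2:ℝ) ^ (b0 / 8 * Mt) := by positivity
          nlinarith
    have hp : ((Mt : ℝ) + 2 * (2:ℕ) + h + 6) ^ 2 ≤ 4 * (Mt + 6) ^ 2 := by
      have : (Mt : ℝ) + 2 * (2:ℕ) + h + 6 ≤ 2 * (Mt + 6) := by push_cast; linarith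
      calc ((Mt : ℝ) + 2 * (2:ℕ) + h + 6) ^ 2 ≤ (2 * (Mt + 6)) ^ 2 :=
            pow_le_pow_left₀ (by positivity) this 2
        _ = _ := by ring
    have hμ8 : (2:ℝ) ^ (b0 * Mt) ≤ μ := hR.big
    have hFb : (2:ℝ) ^ (b0 / 2 * F.M) ≤ (2:ℝ) ^ (b0 / 2 * Mt) := by
      refine Real.rpow_le_rpow_of_exponent_le (by norm_num) ?_
      have : (F.M:ℝ) ≤ Mt := by
        rw [hFMr]
        have : (0:ℝ) ≤ h := Nat.cast_nonneg h
        linarith
      gcongr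
    have hx8 : (8:ℝ) < (2:ℝ) ^ (b0 / 8 * Mt) := by
      have h1 : C * ((Mt:ℝ) + 6) ^ 2 ≤ (2:ℝ) ^ (b0 / 8 * Mt) := k2
      have h2 : (1:ℝ) ≤ ((Mt:ℝ) + 6) ^ 2 := by nlinarith
      have h3 : (8:ℝ) < C := by rw [hC]; norm_num
      nlinarith
    calc (2:ℝ) ^ (b0 / 2 * F.M) *
          (128000000 * ((Mt : ℝ) + 2 * (2:ℕ) + h + 6) ^ 2 * 8 ^ (Mt + 2 + h))
        ≤ (2:ℝ) ^ (b0 / 2 * Mt) * (128000000 * (4 * (Mt + 6) ^ 2) *
            (8 ^ Mt * 8 ^ 3 * (2:ℝ) ^ (b0 / 8 * Mt) * 8)) := by gcongr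
      _ = (2:ℝ) ^ (b0 / 2 * Mt) * (2:ℝ) ^ (b0 / 8 * Mt) * (C * (Mt + 6) ^ 2) * 8 * 8 ^ Mt := by
        rw [hC]; ring
      _ ≤ (2:ℝ) ^ (b0 / 2 * Mt) * (2:ℝ) ^ (b0 / 8 * Mt) * (2:ℝ) ^ (b0 / 8 * Mt) * 8 * 8 ^ Mt := by
        gcongr
      _ < (2:ℝ) ^ (b0 / 2 * Mt) * (2:ℝ) ^ (b0 / 8 * Mt) * (2:ℝ) ^ (b0 / 8 * Mt) *
          (2:ℝ) ^ (b0 / 8 * Mt) * 8 ^ Mt := by gcongr
      _ = (2:ℝ) ^ (7 * b0 / 8 * Mt) * 8 ^ Mt := by
        rw [← Real.rpow_add (by norm_num), ← Real.rpow_add (by norm_num),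
          ← Real.rpow_add (by norm_num)]
        congr 2; ring
      _ ≤ (2:ℝ) ^ (b0 * Mt) * 8 ^ Mt := by
        gcongr
        · norm_num
        · linarith
      _ ≤ μ * 8 ^ Mt := by gcongr

end

end Crest.Agent.R136.Tq879
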