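import Crest.Agent.R136.Plw1_102
import Crest.Agent.R136.Pl2Def_860
import Crest.Agent.R136.Prs2_262

/-!
# R136 (S0187), PLAN 2: from a cell `[zL, zL + ρL]` to a sub-cell `[z0, z0 + ρ]` and back (helper46)

The D-max of rotated sub-planks is only legal over a shorter cell (685, ARCH 12c), so the sheets of
`Two7` live over a longer cell than the D-max.

* `kp_le`, `kp_ge`, `det_sub`, `rot_sub`, `typU_sub`, `typP_sub` : facts at a line, long cell to sub-cell.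
* `closeC_sub` : closeness passes to sub-cells.
* `closeC_ext` : **closeness over the sub-cell and non-degeneracy of the base sheet give closeness
  over the long cell.**
* `close_up` : the same in both directions.
-/

set_option autoImplicit false
set_option linter.unusedVariables false

open Finset

namespace Crest.Agent.R136.Tw746

open Crest.Agent.R136.Sh605
open Crest.Agent.R136.Tl102
open Crest.Agent.R136.Deep51 (CloseC)
open Crest.Agent.R136.K4 (Plk4)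
open Crest.Agent.R136.Tlt51 (Shp InP)
open Crest.Agent.R136.KapP335
open Crest.Agent.R136.Cps605
open Crest.Agent.R136.Pl2 (kp rot2 TypU TypP)
open Crest.Agent.R136.Pl2W102 (Ty ty_sub)

variable {S S' : Plk4} {T : Ln4} {z0 ρ zL ρL r : ℝ}

theorem inP_sub {S : Plk4} {T : Ln4} (h : InP T S zL ρL) (h1 : zL ≤ z0) (h1' : z0 + ρ ≤ zL + ρL) :
    InP T S z0 ρ := fun z a b => h z (h1.trans a) (b.trans h1')

theorem w0_pos {S : Plk4} (hr : 0 < r) (hS : Shp S z0 ρ r) : 0 < S.w 0 :=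
  hr.trans_le (hS.r0_le.trans hS.a_le0)

/-! ### curvature extent, non-degeneracy, rotation -/

theorem kp_nonneg {S : Plk4} (hw : 0 ≤ S.w 0) : 0 ≤ kp S z0 ρ T :=
  Crest.Agent.R136.Pl2W102.kapP_nonneg hw

/-- the extent over a sub-cell is at most `40` times the one over the cell -/
theorem kp_le (hr : 0 < r) (hρ : 0 < ρ) (h1 : zL ≤ z0) (h1' : z0 + ρ ≤ zL + ρL)
    (hS : Shp S zL ρL r) (hT : InP T S zL ρL) : kp S z0 ρ T ≤ 40 * kp S zL ρL T :=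
  Crest.Agent.R136.Pl2W102.kapP_le hr hρ h1 h1' hS hT

/-- the extent over a sub-cell is at least `(ρ / ρL) / 160` times the one over the cell -/
theorem kp_ge (hr : 0 < r) (hρ : 0 < ρ) (h1 : zL ≤ z0) (h1' : z0 + ρ ≤ zL + ρL)
    (hS : Shp S zL ρL r) (hT : InP T S zL ρL) :
    ρ / ρL * kp S zL ρL T ≤ 160 * kp S z0 ρ T := by
  unfold kp
  have hw0 : 0 < S.w 0 := w0_pos hr hS
  have hρ1 : 0 < ρL := by linarith
  have P := StP.of_shN hS hw0
  obtain ⟨b0, b1, G, hE⟩ := exists_isExp P.isQ S.e hw0.ne' T zL ρL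
  have N := hE.nrmC P hρ1.le (fun z h1 h2 => (hT z h1 h2).1)
  obtain ⟨m0, m1, m2⟩ := hgt_mem (z0' := zL) (z0 := z0) hρ1 hρ.le h1 h1'
  have hEs := isExp_mono (z0 := z0) (ρ := ρ) hE hρ1.ne'
  have hτ0 : 0 < ρ / ρL := div_pos hρ hρ1
  rw [kapP_eq hw0.ne' hE, kapP_eq hw0.ne' hEs]
  have := mul_le_mul_of_nonneg_left (kap_le_sub N m0 hτ0.le m2) hw0.le
  linarith

theorem kp_ge' {t : ℝ} (hr : 0 < r) (hρ : 0 < ρ) (h1 : zL ≤ z0) (h1' : z0 + ρ ≤ zL + ρL)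
    (ht : t * ρL ≤ ρ) (hS : Shp S zL ρL r) (hT : InP T S zL ρL) :
    t * kp S zL ρL T ≤ 160 * kp S z0 ρ T := by
  have hρ1 : 0 < ρL := by linarith
  refine le_trans (mul_le_mul_of_nonneg_right ?_ (kp_nonneg (w0_pos hr hS).le))
    (kp_ge hr hρ h1 h1' hS hT)
  rw [le_div_iff₀ hρ1]; exact ht

/-- non-degeneracy over a sub-cell -/
theorem det_sub {δ t : ℝ} (hr : 0 < r) (hρ : 0 < ρ) (h1 : zL ≤ z0) (h1' : z0 + ρ ≤ zL + ρL)
    (ht0 : 0 ≤ t) (ht : t * ρL ≤ ρ) (hS : Shp S zL ρL r) (hT : InP T S zL ρL) (hδ : 0 ≤ δ)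
    (hκ : 0 < kp S zL ρL T) (hdet : DetP δ S zL ρL T) : DetP (t ^ 2 / 40 ^ 3 * δ) S z0 ρ T := by
  have hρ1 : 0 < ρL := by linarith
  obtain ⟨-, -, k3⟩ := kapP_sub hr hρ h1 h1' hS hT hκ hdet
  refine k3.mono ?_
  have : t ≤ ρ / ρL := by rw [le_div_iff₀ hρ1]; exact ht
  have := pow_le_pow_left₀ ht0 this 2
  gcongr

theorem rot2_iff {δ : ℝ} (hq : IsQ S.q) (hw : S.w 0 ≠ 0) : δ ≤ rot2 S z0 ρ T ↔ Ty δ S T z0 ρ := by
  have hE := expP_spec hq hw z0 ρ T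
  constructor
  · intro h b0 b1 G hE'
    obtain ⟨e1, e2, e3⟩ := isExp_unique hw hE' hE
    rw [e1, e2, e3]
    exact h
  · intro h
    exact h _ _ _ hE

/-- type I over a sub-cell -/
theorem rot_sub {δ t : ℝ} (hr : 0 < r) (hρ : 0 < ρ) (h1 : zL ≤ z0) (h1' : z0 + ρ ≤ zL + ρL)
    (ht : t * ρL ≤ ρ) (hS : Shp S zL ρL r) (hT : InP T S zL ρL) (hδ : 0 ≤ δ)
    (hκ : 0 < kp S z0 ρ T) (hd : δ ≤ rot2 S zL ρL T) : t * δ / 160 ≤ rot2 S z0 ρ T := by
  have hρ1 : 0 < ρL := by linarith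
  have hw0 : 0 < S.w 0 := w0_pos hr hS
  have h2 := ty_sub hr hρ h1 h1' hS hT hκ hδ ((rot2_iff hS.isQ hw0.ne').1 hd)
  refine (rot2_iff hS.isQ hw0.ne').2 (h2.mono ?_)
  have : t ≤ ρ / ρL := by rw [le_div_iff₀ hρ1]; exact ht
  gcongr

/-- **typical facts over a sub-cell** -/
theorem typU_sub {K K1 W W' a t : ℝ} (hr : 0 < r) (hρ : 0 < ρ) (h1 : zL ≤ z0)
    (h1' : z0 + ρ ≤ zL + ρL) (ht0 : 0 < t) (ht : t * ρL ≤ ρ) (hS : Shp S zL ρL r)
    (hT : InP T S zL ρL) (ha : 0 < a) (hW : 0 < W) (hWW : 40 ^ 3 / t ^ 2 * W ≤ W')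
    (h : TypU K1 W a S T zL ρL) : TypU K W' a S T z0 ρ := by
  have hρ1 : 0 < ρL := by linarith
  have hw0 : 0 < S.w 0 := w0_pos hr hS
  have ht1 : t ≤ 1 := by
    by_contra hc
    push Not at hc
    nlinarith
  have ht2 : t ^ 2 ≤ 1 := pow_le_one₀ ht0.le ht1
  have hi : 1 ≤ 1 / t ^ 2 := by rw [le_div_iff₀ (by positivity)]; linarith
  have hW40 : 40 ^ 3 * W ≤ W' := by
    refine le_trans ?_ hWW
    have : 40 ^ 3 / t ^ 2 * W = 40 ^ 3 * W * (1 / t ^ 2) := by ring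
    rw [this]
    exact le_mul_of_one_le_right (by positivity) hi
  have hW' : 0 < W' := lt_of_lt_of_le (by positivity) hW40
  have key : W' * a ≤ kp S z0 ρ T → W * a ≤ kp S zL ρL T := by
    intro h2
    have h3 := kp_le hr hρ h1 h1' hS hT
    have h4 : 40 ^ 3 * W * a ≤ W' * a := mul_le_mul_of_nonneg_right hW40 ha.le
    have h5 : 0 < W * a := mul_pos hW ha
    nlinarith
  refine ⟨fun h2 => ?_, fun h2 h3 => ?_⟩
  · have h4 := key h2
    have h5 : 0 < kp S zL ρL T := lt_of_lt_of_le (mul_pos hW ha) h4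
    have h6 := det_sub hr hρ h1 h1' ht0.le ht hS hT (inv_nonneg.2 hW.le) h5 (h.det h4)
    refine h6.mono ?_
    rw [inv_le_iff_one_le_mul₀ hW']
    have e : t ^ 2 / 40 ^ 3 * W⁻¹ * W' = W' / (40 ^ 3 / t ^ 2 * W) := by
      field_simp
    rw [e, le_div_iff₀ (by positivity), one_mul]
    exact hWW
  · have h4 := key h2
    have h5 : 0 < kp S z0 ρ T := lt_of_lt_of_le (mul_pos hW' ha) h2
    have h3' : W * S.w 2 ≤ S.w 1 := by
      refine le_trans (mul_le_mul_of_nonneg_right ?_ (hw0.trans_le hS.w0_le).le) h3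
      linarith
    have h6 := rot_sub hr hρ h1 h1' ht hS hT (by positivity) h5 (h.rot h4 h3')
    refine le_trans ?_ h6
    rw [div_le_iff₀ hW']
    have e : t * (1 / W) / 160 * W' = t * W' / (160 * W) := by
      field_simp
    rw [e, le_div_iff₀ (by positivity), one_mul]
    have h7 : 40 ^ 3 * W ≤ t ^ 2 * W' := by
      rw [div_mul_eq_mul_div, div_le_iff₀ (by positivity)] at hWW
      linarith
    have h8 : t ^ 2 * W' ≤ t * W' := by
      refine mul_le_mul_of_nonneg_right ?_ hW'.le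
      nlinarith
    linarith

/-- **the pair facts over a sub-cell**: after exchanging the roles of the two sheets, the more curved
one is the base sheet -/
theorem typP_sub {K K' K1 K2 W W' a t : ℝ} (hr : 0 < r) (hρ : 0 < ρ) (h1 : zL ≤ z0)
    (h1' : z0 + ρ ≤ zL + ρL) (ht0 : 0 < t) (ht : t * ρL ≤ ρ) (hS : Shp S zL ρL r)
    (hT : InP T S zL ρL) (hS' : Shp S' zL ρL r) (hT' : InP T S' zL ρL) (ha : 0 < a) (hW : 0 < W)
    (hWW : 40 ^ 3 / t ^ 2 * W ≤ W') (hK : 160 / t * K' ≤ K)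
    (hbig : K * a ≤ max (kp S zL ρL T) (kp S' zL ρL T))
    (hU : TypU K1 W a S T zL ρL) (hV : TypU K2 W a S' T zL ρL) :
    TypP K' W' a S S' T z0 ρ ∨ TypP K' W' a S' S T z0 ρ := by
  have g1 := kp_ge' hr hρ h1 h1' ht hS hT
  have g2 := kp_ge' hr hρ h1 h1' ht hS' hT'
  have hb : K' * a ≤ max (kp S z0 ρ T) (kp S' z0 ρ T) := by
    have h3 : 160 * (K' * a) ≤ t * (K * a) := by
      have := mul_le_mul_of_nonneg_right hK ha.le
      have h4 : 160 / t * K' * a = 160 * (K' * a) / t := by ring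
      rw [h4, div_le_iff₀ ht0] at this
      linarith
    have h5 : t * (K * a) ≤ 160 * max (kp S z0 ρ T) (kp S' z0 ρ T) := by
      rcases le_max_iff.1 hbig with h6 | h6
      · have := mul_le_mul_of_nonneg_left h6 ht0.le
        linarith [le_max_left (kp S z0 ρ T) (kp S' z0 ρ T)]
      · have := mul_le_mul_of_nonneg_left h6 ht0.le
        linarith [le_max_right (kp S z0 ρ T) (kp S' z0 ρ T)]
    linarith
  have tU := typU_sub (K := K') hr hρ h1 h1' ht0 ht hS hT ha hW hWW hU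
  have tV := typU_sub (K := K') hr hρ h1 h1' ht0 ht hS' hT' ha hW hWW hV
  rcases le_total (kp S' z0 ρ T) (kp S z0 ρ T) with h | h
  · left
    exact ⟨by rwa [max_eq_left h] at hb, h, tU, tV⟩
  · right
    exact ⟨by rwa [max_eq_right h] at hb, h, tV, tU⟩

/-! ### closeness -/

theorem closeC_sub {e : Fin 3 → V3} {w : V3} {q q' : ℝ → V3 → ℝ} {a E E' : ℝ}
    (h : CloseC e w q a q' E T zL ρL) (hE : E ≤ E') (h1 : zL ≤ z0) (h1' : z0 + ρ ≤ zL + ρL) :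
    CloseC e w q a q' E' T z0 ρ :=
  fun z a1 a2 x hx hq => (h z (h1.trans a1) (a2.trans h1') x hx hq).trans hE

/-- evaluation of `ω` at an arbitrary height -/
theorem omB_far {κ X Z : ℝ} {b0 b1 : V3} {G : QF} {b0' b1' : V3} {G' : QF}
    (O : OmB κ X X X b0 b1 G b0' b1' G') (hb0 : b0 0 ≠ 0) {ζ h s : ℝ} {p : V3} (hζ : |ζ| ≤ Z)
    (h0 : |p 0| ≤ h) (h1 : |p 1| ≤ s) (h2 : |p 2| ≤ s) :
    |Fq (om0 κ b0 b0') (om1 κ b0 b1 b0' b1') (omM κ b0 G b0' G') ζ p| ≤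
      X * (Z * h + h ^ 2 + 2 * (h * s) + 2 * s + 2 * (Z * s) + 3 * s ^ 2) := by
  have z0 := om0_zero κ hb0 b0'
  have e : Fq (om0 κ b0 b0') (om1 κ b0 b1 b0' b1') (omM κ b0 G b0' G') ζ p =
      (ζ * om1 κ b0 b1 b0' b1' 0 * p 0 + (omM κ b0 G b0' G').yy * (p 0 * p 0) +
        ((omM κ b0 G b0' G').yu * (p 0 * p 1) + (omM κ b0 G b0' G').yv * (p 0 * p 2))) +
      ((om0 κ b0 b0' 1 * p 1 + om0 κ b0 b0' 2 * p 2) +
        (ζ * om1 κ b0 b1 b0' b1' 1 * p 1 + ζ * om1 κ b0 b1 b0' b1' 2 * p 2) +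
        ((omM κ b0 G b0' G').uu * (p 1 * p 1) + (omM κ b0 G b0' G').uv * (p 1 * p 2) +
          (omM κ b0 G b0' G').vv * (p 2 * p 2))) := by
    simp only [Fq, dt, bz, QF.ev, z0]; ring
  rw [e]
  refine (Arc880.abs_add2 (Arc880.abs_add2 (Arc880.abs_add2
    (mul_abs_le (mul_abs_le hζ O.y1) h0) (mul_abs_le O.yy (mul_abs_le h0 h0)))
    (Arc880.abs_add2 (mul_abs_le O.yu (mul_abs_le h0 h1)) (mul_abs_le O.yv (mul_abs_le h0 h2))))
    (Arc880.abs_add2 (Arc880.abs_add2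
      (Arc880.abs_add2 (mul_abs_le O.h01 h1) (mul_abs_le O.h02 h2))
      (Arc880.abs_add2 (mul_abs_le (mul_abs_le hζ O.h11) h1)
        (mul_abs_le (mul_abs_le hζ O.h12) h2)))
      (Arc880.abs_add2 (Arc880.abs_add2 (mul_abs_le O.uu (mul_abs_le h1 h1))
        (mul_abs_le O.uv (mul_abs_le h1 h2))) (mul_abs_le O.vv (mul_abs_le h2 h2))))).trans
    (le_of_eq (by ring))

set_option maxHeartbeats 1000000 in
/-- **the coefficient form over the sub-cell gives closeness over the cell** -/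
theorem closeC_poly {t E' : ℝ} (hr : 0 < r) (hρ : 0 < ρ) (h1 : zL ≤ z0)
    (h1' : z0 + ρ ≤ zL + ρL) (hS : Shp S zL ρL r) (hT : InP T S zL ρL) (hS' : Shp S' zL ρL r)
    (hT' : InP T S' zL ρL) (ht0 : 0 < t) (ht : t * ρL ≤ ρ) (hpoly : PolyC E' S S' T z0 ρ)
    (hE'0 : 0 ≤ E') (hk : 0 < kp S zL ρL T) (hka : S.a ≤ kp S zL ρL T) :
    CloseC S.e S.w S.q S.a S'.q (S'.a + 16 * S.a + 10 ^ 6 / t ^ 2 * E') T zL ρL := by
  have hρ1 : 0 < ρL := by linarith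
  have hw0 : 0 < S.w 0 := w0_pos hr hS
  have hw0' : 0 < S'.w 0 := w0_pos hr hS'
  have ht1 : t ≤ 1 := by
    by_contra hc
    push Not at hc
    nlinarith
  have P := StP.of_shN hS hw0
  have hwp : ∀ k, 0 < S.w k := P.pos
  have hwne : ∀ k, S.w k ≠ 0 := fun k => (hwp k).ne'
  obtain ⟨b0, b1, G, hEx⟩ := exists_isExp P.isQ S.e hw0.ne' T zL ρL
  have hTK : ∀ z, zL ≤ z → z ≤ zL + ρL → InK S.e S.c S.w z (T.pos z) :=
    fun z h1 h2 => (hT z h1 h2).1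
  have N := hEx.nrmC P hρ1.le hTK
  obtain ⟨m0, m1, m2⟩ := hgt_mem (z0' := zL) (z0 := z0) hρ1 hρ.le h1 h1'
  have hEs := isExp_mono (z0 := z0) (ρ := ρ) hEx hρ1.ne'
  have hτ0 : 0 < ρ / ρL := div_pos hρ hρ1
  have hζ01 : (z0 - zL) / ρL ≤ 1 := by linarith
  obtain ⟨b0', b1', G', hEx'⟩ := exists_isExp hS'.isQ S.e hw0.ne' T z0 ρ
  obtain ⟨μ1, μ2, X, hX, OB⟩ := hpoly _ _ _ _ _ _ hEs hEx'
  have hk1 : t * kap b0 b1 G ≤
      160 * kap (b0s b0 b1 ((z0 - zL) / ρL)) (b1s b1 (ρ / ρL)) G := by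
    refine le_trans (mul_le_mul_of_nonneg_right ?_ (kap_nonneg _ _ _)) (kap_le_sub N m0 hτ0.le m2)
    rw [le_div_iff₀ hρ1]; exact ht
  unfold kp at hk hka
  rw [kapP_eq hw0.ne' hEx] at hk hka
  have hκL : 0 < kap b0 b1 G := (mul_pos_iff_of_pos_left hw0).1 hk
  obtain ⟨q1, q2⟩ := D_ge N m0 hζ01
  have sl1 := slope_sub N m0 hζ01 (k := 1) (Or.inl rfl)
  have sl2 := slope_sub N m0 hζ01 (k := 2) (Or.inr rfl)
  obtain ⟨kc1, kc2, -⟩ := kap_comp b0 b1 G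
  set ζ0 := (z0 - zL) / ρL with hζ0
  set B0 := b0s b0 b1 ζ0 with hB0
  set B1 := b1s b1 (ρ / ρL) with hB1
  set κ := kap B0 B1 G with hκ
  set κL := kap b0 b1 G with hκLd
  have hκ0 : 0 < κ := by
    have : 0 < t * κL := mul_pos ht0 hκL
    linarith
  have hX0 : 0 ≤ X := OB.nonneg.1
  have hB00 : B0 0 ≠ 0 := by linarith
  intro z hz1 hz2 y hy hq
  have ez : z = z0 + ρ * ((z - z0) / ρ) := by field_simp; ring
  have ezL : z = zL + ρL * ((z - zL) / ρL) := by field_simp; ring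
  have hζa : |(z - z0) / ρ| ≤ 1 / t := by
    rw [abs_div, abs_of_pos hρ, div_le_div_iff₀ hρ ht0, one_mul]
    have h3 : |z - z0| ≤ ρL := by
      rw [abs_le]; constructor <;> linarith
    calc |z - z0| * t ≤ ρL * t := mul_le_mul_of_nonneg_right h3 ht0.le
      _ ≤ ρ := by linarith
  have hζL0 : 0 ≤ (z - zL) / ρL := div_nonneg (by linarith) hρ1.le
  have hζL1 : (z - zL) / ρL ≤ 1 := by rw [div_le_one hρ1]; linarith
  -- the point in the coordinates of `S`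
  have hpv : ∀ k : Fin 3, |pv S.e S.w (y - T.pos z) k| ≤ 1 / 8 := by
    intro k
    have h3 := hy k
    simp only [pv]
    rw [abs_div, abs_of_pos (hwp k), div_le_iff₀ (hwp k)]
    linarith
  have hyK : InK S.e S.c (dbl3 S.w) z y := by
    intro k
    have h3 := hy k
    have h4 := hTK z hz1 hz2 k
    have e1 : dt (S.e k) (y - S.c.pos z) =
        dt (S.e k) (y - T.pos z) + dt (S.e k) (T.pos z - S.c.pos z) := by
      rw [← dt_add]
      congr 1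
      abel
    rw [e1]
    refine (abs_add_le _ _).trans ?_
    simp only [dbl3]
    have := hwp k
    beta_reduce at h3
    linarith
  have hTq : |S.q z (T.pos z)| ≤ S.a := (hT z hz1 hz2).2
  have hTq' : |S'.q z (T.pos z)| ≤ S'.a := (hT' z hz1 hz2).2
  have hyc := yc_le2 P hρ1.le hTK hEx (ζ := (z - zL) / ρL) hζL0 hζL1 (X := y) (r := 1 / 8)
    (by rw [← ezL]; exact hyK) le_rfl (by rw [← ezL]; exact hpv 1) (by rw [← ezL]; exact hpv 2)
  rw [← ezL, pc_pv] at hyc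
  set x := pv S.e S.w (y - T.pos z) with hx
  have hyc1 : |yc b0 x| ≤ 5 * κL := by
    have h3 : S.w 0 * |yc b0 x| ≤ S.w 0 * (5 * κL) := by
      refine hyc.trans ?_
      have h4 : 0 < S.w 0 * κL := mul_pos hw0 hκL
      nlinarith
    exact le_of_mul_le_mul_left h3 hw0
  have hyc2 : |yc B0 x| ≤ 6 * κL := by
    have e1 : yc B0 x = yc b0 x + (B0 1 / B0 0 - b0 1 / b0 0) * x 1 +
        (B0 2 / B0 0 - b0 2 / b0 0) * x 2 := by
      unfold yc; ring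
    rw [e1]
    have f : ∀ k : Fin 3, |shB1 b0 b1 k| ≤ κL → |B0 k / B0 0 - b0 k / b0 0| ≤
        2 * ζ0 * |shB1 b0 b1 k| → |(B0 k / B0 0 - b0 k / b0 0) * x k| ≤ κL / 4 := by
      intro k h3 h4
      have h5 : 2 * ζ0 * |shB1 b0 b1 k| ≤ 2 * κL := by
        have := abs_nonneg (shB1 b0 b1 k)
        nlinarith
      have := mul_abs_le (h4.trans h5) (hpv k)
      linarith
    have g1 := f 1 kc1 sl1
    have g2 := f 2 kc2 sl2
    have := Arc880.abs_add2 (Arc880.abs_add2 hyc1 g1) g2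
    linarith
  have hp0 : |tv κ B0 S.e S.w (y - T.pos z) 0| ≤ 960 / t := by
    change |yc B0 x / κ| ≤ 960 / t
    rw [abs_div, abs_of_pos hκ0, div_le_div_iff₀ hκ0 ht0]
    calc |yc B0 x| * t ≤ 6 * κL * t := mul_le_mul_of_nonneg_right hyc2 ht0.le
      _ ≤ 960 * κ := by linarith
  have hv := om_val P.ortho hwne hEs hEx' hκ0.ne' ((z - z0) / ρ) y
  rw [← ez] at hv
  have hF := omB_far OB hB00 (p := tv κ B0 S.e S.w (y - T.pos z)) hζa hp0
    (show |tv κ B0 S.e S.w (y - T.pos z) 1| ≤ 1 / 8 from hpv 1)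
    (show |tv κ B0 S.e S.w (y - T.pos z) 2| ≤ 1 / 8 from hpv 2)
  have hnum : 1 / t * (960 / t) + (960 / t) ^ 2 + 2 * (960 / t * (1 / 8)) + 2 * (1 / 8) +
      2 * (1 / t * (1 / 8)) + 3 * (1 / 8) ^ 2 ≤ 10 ^ 6 / t ^ 2 := by
    rw [le_div_iff₀ (by positivity)]
    have e1 : (1 / t * (960 / t) + (960 / t) ^ 2 + 2 * (960 / t * (1 / 8)) + 2 * (1 / 8) +
      2 * (1 / t * (1 / 8)) + 3 * (1 / 8) ^ 2) * t ^ 2 =
        960 + 921600 + 240 * t + t ^ 2 / 4 + t / 4 + 3 / 64 * t ^ 2 := by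
      field_simp
      ring
    rw [e1]
    have : t ^ 2 ≤ 1 := pow_le_one₀ ht0.le ht1
    linarith
  have hom : |S.w 0 * κ * Fq (om0 κ B0 b0') (om1 κ B0 B1 b0' b1') (omM κ B0 G b0' G')
      ((z - z0) / ρ) (tv κ B0 S.e S.w (y - T.pos z))| ≤ 10 ^ 6 / t ^ 2 * E' := by
    rw [abs_mul, abs_of_pos (mul_pos hw0 hκ0)]
    calc S.w 0 * κ * |Fq (om0 κ B0 b0') (om1 κ B0 B1 b0' b1') (omM κ B0 G b0' G')
          ((z - z0) / ρ) (tv κ B0 S.e S.w (y - T.pos z))|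
        ≤ S.w 0 * κ * (X * (10 ^ 6 / t ^ 2)) :=
          mul_le_mul_of_nonneg_left (hF.trans (mul_le_mul_of_nonneg_left hnum hX0))
            (mul_pos hw0 hκ0).le
      _ = 10 ^ 6 / t ^ 2 * (X * (S.w 0 * κ)) := by ring
      _ ≤ 10 ^ 6 / t ^ 2 * E' := mul_le_mul_of_nonneg_left hX (by positivity)
  rw [← hv] at hom
  have hmq : |b0' 0 / B0 0 * (S.q z y - S.q z (T.pos z))| ≤ 8 * (2 * S.a) := by
    refine mul_abs_le μ2 ?_
    have := Arc880.abs_sub2 hq hTq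
    linarith
  have e2 : S'.q z y = S'.q z (T.pos z) + b0' 0 / B0 0 * (S.q z y - S.q z (T.pos z)) +
      (S'.q z y - S'.q z (T.pos z) - b0' 0 / B0 0 * (S.q z y - S.q z (T.pos z))) := by ring
  rw [e2]
  have := Arc880.abs_add2 (Arc880.abs_add2 hTq' hmq) hom
  linarith

/-- **closeness over the sub-cell gives closeness over the cell**, non-degeneracy over the cell -/
theorem closeC_ext {δ t E E' : ℝ} (hr : 0 < r) (hρ : 0 < ρ) (h1 : zL ≤ z0)
    (h1' : z0 + ρ ≤ zL + ρL) (hS : Shp S zL ρL r) (hT : InP T S zL ρL) (hS' : Shp S' zL ρL r)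
    (hT' : InP T S' zL ρL) (ht0 : 0 < t) (ht : t * ρL ≤ ρ) (hδ : 0 < δ)
    (hdet : DetP δ S zL ρL T) (hcl : CloseC S.e S.w S.q S.a S'.q E T z0 ρ) (hE'0 : 0 < E')
    (hE : 10 ^ 62 * E ≤ t ^ 17 * δ ^ 8 * E') (hk : E' ≤ kp S zL ρL T)
    (hka : S.a ≤ kp S zL ρL T) :
    CloseC S.e S.w S.q S.a S'.q (S'.a + 16 * S.a + 10 ^ 6 / t ^ 2 * E') T zL ρL :=
  closeC_poly hr hρ h1 h1' hS hT hS' hT' ht0 ht
    (polyC_sub hr hρ h1 h1' h1 h1' hS hS' hT hT' ht0 ht hδ hdet hcl hE'0 hE hk) hE'0.le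
    (hE'0.trans_le hk) hka

/-- **closeness over the sub-cell gives closeness over the cell**, non-degeneracy over the
sub-cell -/
theorem closeC_extS {δ t E : ℝ} (hr : 0 < r) (hρ : 0 < ρ) (h1 : zL ≤ z0)
    (h1' : z0 + ρ ≤ zL + ρL) (hS : Shp S zL ρL r) (hT : InP T S zL ρL) (hS' : Shp S' zL ρL r)
    (hT' : InP T S' zL ρL) (ht0 : 0 < t) (ht : t * ρL ≤ ρ) (hδ : 0 < δ)
    (hdet : DetP δ S z0 ρ T) (hcl : CloseC S.e S.w S.q S.a S'.q E T z0 ρ) (hE0 : 0 ≤ E)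
    (hE : 10 ^ 20 * E ≤ δ ^ 8 * kp S z0 ρ T) (hka : 40 * S.a ≤ kp S z0 ρ T) :
    CloseC S.e S.w S.q S.a S'.q (S'.a + 16 * S.a + 10 ^ 6 / t ^ 2 * (10 ^ 19 * E / δ ^ 8))
      T zL ρL := by
  have hw0 : 0 < S.w 0 := w0_pos hr hS
  have hw0' : 0 < S'.w 0 := w0_pos hr hS'
  have ha : 0 < S.a := hr.trans_le hS.r0_le
  have hk0 : 0 < kp S z0 ρ T := by linarith
  have hk1 := kp_le hr hρ h1 h1' hS hT
  exact closeC_poly hr hρ h1 h1' hS hT hS' hT' ht0 ht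
    (Crest.Agent.R136.TL650.polyC_of_close (shp_sub hS h1 h1') hw0 hρ.le (inP_sub hT h1 h1') hS'
      hw0' h1 h1' hT' hk0 hδ hdet hcl hE) (by positivity) (by linarith) (by linarith)

end Crest.Agent.R136.Tw746
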