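import Crest.Agent.R136.GW5_650
import Crest.Agent.R136.FlW1_464
import Crest.Agent.R136.PrW3_464

/-!
# R136, U6 thin (helper327): closeness of two sheets on a box ⊢ closeness of the flag slots

`sidesW_unW` : graded sizes satisfy the walls; **`slots_of_close`** : two sheets which are close on the
box of the quadric around the line, at the middle height, have close slots in the frame of the line
at every height of the cell.
-/

set_option autoImplicit false
set_option linter.unusedVariables false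

namespace Crest.Agent.R136.Tn327

open Crest.Agent.R136.Sh605
open Crest.Agent.R136.NetW191
open Crest.Agent.R136.GeoW778
open Crest.Agent.R136.GW650 (sz3 sz3_pos fl_of_sup)
open Crest.Agent.R136.FlW464 (frW drW rel_fr)
open Crest.Agent.R136.EvW938 (SidesW tr_size)
open Crest.Agent.R136.PrW464 (unW unW_pos unW_list)

theorem sidesW_unW {uz uc un : ℝ} (hz : 0 < uz) (hc : 0 < uc) (hn : 0 < un) :
    SidesW (unW uz uc un) where
  pos := fun k => (unW_pos hz hc hn k).le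
  wall := fun k l hl => (unW_list hz hc hn k l hl).le

/-- closeness of two sheets in the box `|z| ≤ r`, `|A| ≤ α`, `|B| ≤ β` of the quadric in the frame `g` -/
def CloseW (κ : ℝ) (g : Fin 4 → ℝ) (r α β D : ℝ) (G G' : Fin 14 → ℝ) : Prop :=
  ∀ z a b : ℝ, |z| ≤ r → |a| ≤ α → |b| ≤ β →
    |evY G (fz g z) (fA g z a) (fB κ g z a b)
        (fz g z * fB κ g z a b + κ * fA g z a ^ 2) -
      evY G' (fz g z) (fA g z a) (fB κ g z a b)
        (fz g z * fB κ g z a b + κ * fA g z a ^ 2)| ≤ D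

theorem CloseW.nonneg {κ : ℝ} {g : Fin 4 → ℝ} {r α β D : ℝ} {G G' : Fin 14 → ℝ}
    (h : CloseW κ g r α β D G G') (hr : 0 ≤ r) (hα : 0 ≤ α) (hβ : 0 ≤ β) : 0 ≤ D :=
  (abs_nonneg _).trans (h 0 0 0 (by rwa [abs_zero]) (by rwa [abs_zero]) (by rwa [abs_zero]))

theorem unW_left (uz uc un : ℝ) (i : Fin 4) :
    unW uz uc un (Fin.castAdd 14 i) = ![uz, uc, uz * uc, uz * uc ^ 2] i := by
  fin_cases i <;> simp [unW, PrW464.wz, PrW464.wc, PrW464.wn]

theorem unW_right {r α D : ℝ} (hr : 0 < r) (hα : 0 < α) (k : Fin 14) :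
    unW r (α / r) D (Fin.natAdd 4 k) = D / sz3 r α (α ^ 2 / r) k := by
  have h1 := hr.ne'
  have h2 := hα.ne'
  have e1 : (α / r) ^ (-1 : ℤ) = r / α := by rw [zpow_neg_one, inv_div]
  fin_cases k
  · show r ^ (-4 : ℤ) * (α / r) ^ (-4 : ℤ) * D ^ (1 : ℤ) = D / (r * (α ^ 2 / r)) ^ 2
    rw [zpow_neg, zpow_neg, zpow_one]
    norm_cast
    field_simp
  · show r ^ (-3 : ℤ) * (α / r) ^ (-4 : ℤ) * D ^ (1 : ℤ) = D / ((α ^ 2 / r) * (r * (α ^ 2 / r)))
    rw [zpow_neg, zpow_neg, zpow_one]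
    norm_cast
    field_simp
  · show r ^ (-3 : ℤ) * (α / r) ^ (-3 : ℤ) * D ^ (1 : ℤ) = D / (α * (r * (α ^ 2 / r)))
    rw [zpow_neg, zpow_neg, zpow_one]
    norm_cast
    field_simp
  · show r ^ (-2 : ℤ) * (α / r) ^ (-4 : ℤ) * D ^ (1 : ℤ) = D / (α ^ 2 / r) ^ 2
    rw [zpow_neg, zpow_neg, zpow_one]
    norm_cast
    field_simp
  · show r ^ (-3 : ℤ) * (α / r) ^ (-2 : ℤ) * D ^ (1 : ℤ) = D / (r * (r * (α ^ 2 / r)))
    rw [zpow_neg, zpow_neg, zpow_one]
    norm_cast
    field_simp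
  · show r ^ (-2 : ℤ) * (α / r) ^ (-3 : ℤ) * D ^ (1 : ℤ) = D / (α * (α ^ 2 / r))
    rw [zpow_neg, zpow_neg, zpow_one]
    norm_cast
    field_simp
  · show r ^ (-2 : ℤ) * (α / r) ^ (-2 : ℤ) * D ^ (1 : ℤ) = D / (α ^ 2)
    rw [zpow_neg, zpow_neg, zpow_one]
    norm_cast
    field_simp
  · show r ^ (-2 : ℤ) * (α / r) ^ (-2 : ℤ) * D ^ (1 : ℤ) = D / (r * (α ^ 2 / r))
    rw [zpow_neg, zpow_neg, zpow_one]
    norm_cast
    field_simp
  · show r ^ (-2 : ℤ) * (α / r) ^ (-1 : ℤ) * D ^ (1 : ℤ) = D / (r * α)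
    rw [zpow_neg, e1, zpow_one]
    norm_cast
    field_simp
  · show r ^ (-2 : ℤ) * (α / r) ^ (0 : ℤ) * D ^ (1 : ℤ) = D / (r ^ 2)
    rw [zpow_neg, zpow_zero, zpow_one]
    norm_cast
    field_simp
  · show r ^ (-1 : ℤ) * (α / r) ^ (-2 : ℤ) * D ^ (1 : ℤ) = D / (α ^ 2 / r)
    rw [zpow_neg_one, zpow_neg, zpow_one]
    norm_cast
    field_simp
  · show r ^ (-1 : ℤ) * (α / r) ^ (-1 : ℤ) * D ^ (1 : ℤ) = D / α
    rw [zpow_neg_one, e1, zpow_one]
    field_simp
  · show r ^ (-1 : ℤ) * (α / r) ^ (0 : ℤ) * D ^ (1 : ℤ) = D / r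
    rw [zpow_neg_one, zpow_zero, zpow_one]
    field_simp
  · show r ^ (0 : ℤ) * (α / r) ^ (0 : ℤ) * D ^ (1 : ℤ) = D / 1
    rw [zpow_zero, zpow_zero, zpow_one]
    simp

/-- **closeness on the box at the middle height bounds the slots at every height of the cell** -/
theorem slots_of_close' {κ : ℝ} (hκ : |κ| ≤ 1) (M : Ln4) {zm zh r α D K : ℝ} (hr : 0 < r)
    (hα : 0 < α) (hK : 6 ≤ K) {G G' : Fin 14 → ℝ}
    (h : CloseW κ (frW M zm) r α (α ^ 2 / r) D G G')
    (hz : |zh - zm| ≤ K * r) (hd : |drW κ M * (zh - zm)| ≤ K * (α ^ 2 / r)) (k : Fin 14) :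
    |tr κ (frW M zh) (G - G') k| ≤ 470 * K ^ 7 * unW r (α / r) D (Fin.natAdd 4 k) := by
  have hβ : 0 < α ^ 2 / r := by positivity
  have hD := h.nonneg hr.le hα.le hβ.le
  have hc : 0 < α / r := by positivity
  have e2 : r * (α / r) ^ 2 = α ^ 2 / r := by field_simp
  have b1 : ∀ q, |tr κ (frW M zm) (G - G') q| ≤ 6 * D / sz3 r α (α ^ 2 / r) q := fun q =>
    fl_of_sup hr hα hβ (by
      have : r * (α ^ 2 / r) = α ^ 2 := by field_simp
      rw [this]
      exact mul_le_of_le_one_left (sq_nonneg _) hκ) ⟨frW M zm, G⟩ G' h q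
  have e3 : tr κ (frW M zh) (G - G') =
      tr κ (rel κ (frW M zm) (frW M zh)) (tr κ (frW M zm) (G - G')) := (tr_rel κ _ _ _)
  rw [e3, rel_fr]
  rcases hD.eq_or_lt with h0 | h0
  · have w0 : tr κ (frW M zm) (G - G') = 0 := by
      funext q
      have := b1 q
      rw [← h0, mul_zero, zero_div] at this
      exact abs_nonpos_iff.1 this
    rw [w0, tr_zero, Pi.zero_apply, abs_zero, unW_right hr hα, ← h0, zero_div, mul_zero]
  · have hX := sidesW_unW hr hc h0
    refine tr_size (h := ![zh - zm, 0, 0, drW κ M * (zh - zm)])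
      (w := tr κ (frW M zm) (G - G')) hκ hX (K := K) (by linarith)
      (fun i => by
        rw [unW_left]
        have hK0 : 0 ≤ K := by linarith
        fin_cases i
        · exact hz
        · show |(0 : ℝ)| ≤ K * (α / r)
          rw [abs_zero]; positivity
        · show |(0 : ℝ)| ≤ K * (r * (α / r))
          rw [abs_zero]; positivity
        · show |drW κ M * (zh - zm)| ≤ K * (r * (α / r) ^ 2)
          rw [e2]; exact hd)
      (fun q => by
        refine (b1 q).trans ?_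
        rw [unW_right hr hα, mul_div_assoc]
        exact mul_le_mul_of_nonneg_right hK
          (div_nonneg hD (sz3_pos hr hα hβ q).le)) k

/-- the same with absolute constants -/
theorem slots_of_close {κ : ℝ} (hκ : |κ| ≤ 1) (M : Ln4) {zm zh r α D : ℝ} (hr : 0 < r)
    (hα : 0 < α) {G G' : Fin 14 → ℝ} (h : CloseW κ (frW M zm) r α (α ^ 2 / r) D G G')
    (hz : |zh - zm| ≤ r) (hd : |drW κ M * (zh - zm)| ≤ α ^ 2 / r) (k : Fin 14) :
    |tr κ (frW M zh) (G - G') k| ≤ 131569920 * unW r (α / r) D (Fin.natAdd 4 k) := by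
  have hβ : 0 < α ^ 2 / r := by positivity
  refine (slots_of_close' hκ M hr hα le_rfl h (by linarith) (by linarith) k).trans (le_of_eq ?_)
  norm_num

end Crest.Agent.R136.Tn327
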