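import Mathlib
import Crest.Agent.R136.Two8_904

/-!
# R136 (U4, PLAN 2): the marks of two levels at one incidence (helper904)
-/

set_option autoImplicit false
set_option linter.unusedVariables false
set_option maxHeartbeats 400000

open Finset Filter Topology

namespace Crest.Agent.R136.Eng904

open Crest.Agent.R138.Ex926 Crest.Agent.R138.Dp76
open Crest.Agent.R138.Mk163 (zc zl rho alive own)
open Crest.Agent.R138.MkRef627 (lc)
open Crest.Agent.R136.MkA627 (Geo MkA ampA fib_bounds)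
open Crest.Agent.R136.Deep51 Crest.Agent.R136.Tlt51 Crest.Agent.R136.Top484
open Crest.Agent.R136.Sh605 Crest.Agent.R136.K4
open Crest.Agent.R136.Pl2W102 (Near Two1 TwoAt Pair zs rs)

variable {η : ℝ} {p : Par4} {D : Dat4}

theorem rho7 (D : Dat4) (v : ℚ) (n : ℕ) : rho (D.lev n v) = 128 * rs D v n := by
  unfold Crest.Agent.R136.Pl2W102.rs Crest.Agent.R138.Mk163.rho
  rw [pow_add]; field_simp; norm_num

open Classical in
/-- **the marks of two levels at one incidence** -/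
theorem pair_ev (hJ : J1c η p D) : ∃ Cw : ℝ, 0 ≤ Cw ∧ ∀ b c : ℚ, 0 ≤ b → b ≤ 1 → 0 ≤ c → c ≤ 1 →
    (∀ ε : ℝ, 0 < ε → ∀ᶠ n in (U : Filter ℕ), ∀ k : Fin 3,
      Near (D.B.d n ^ (-(Cw * |(b:ℝ) - c| + ε))) (D.w k n b) (D.w k n c)) ∧
    ∀ jx : ℕ → ℕ × ℝ → ℤ,
    (∀ᶠ n in (U : Filter ℕ), ∀ x ∈ D.I n, jx n x / 2 ^ 7 = zc (D.lev n (max b c)) x.2) →
    ∀ ε : ℝ, 0 < ε → ∀ᶠ n in (U : Filter ℕ), ∀ x ∈ D.I n,
      Pair D n b c (D.B.d n ^ (-(Cw * |(b:ℝ) - c| + ε))) (zs D (max b c) jx n x)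
        (rs D (max b c) n) x ∧
      Pair D n c b (D.B.d n ^ (-(Cw * |(c:ℝ) - b| + ε))) (zs D (max b c) jx n x)
        (rs D (max b c) n) x := by
  obtain ⟨K, hK1, hK⟩ : ∃ K : ℝ, 1 ≤ K ∧ ∀ k : Fin 3, |1 - p.θ k| ≤ K := by
    have h0 := abs_nonneg (1 - p.θ 0)
    have h1 := abs_nonneg (1 - p.θ 1)
    have h2 := abs_nonneg (1 - p.θ 2)
    refine ⟨|1 - p.θ 0| + |1 - p.θ 1| + |1 - p.θ 2| + 1, by linarith, fun k => ?_⟩
    fin_cases k
    · show |1 - p.θ 0| ≤ _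
      linarith
    · show |1 - p.θ 1| ≤ _
      linarith
    · show |1 - p.θ 2| ≤ _
      linarith
  refine ⟨K, by linarith, fun b c hb0 hb1 hc0 hc1 => ⟨fun ε hε => ?_, fun jx hjx ε hε => ?_⟩⟩
  · filter_upwards [ratio_rw hJ.mka hK hb0 hb1 hc0 hc1 hε] with n hn k
    exact ⟨(hn k).2.2.1, (hn k).2.2.2⟩
  set δ : ℝ := |(b:ℝ) - c| with hδ
  have hδ0 : 0 ≤ δ := abs_nonneg _
  have hv0 : 0 ≤ max b c := hb0.trans (le_max_left _ _)
  have hv1 : max b c ≤ 1 := max_le hb1 hc1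
  set v : ℚ := max b c with hv
  have hvb : (v:ℝ) - b ≤ δ := by
    rw [hδ, hv]; push_cast
    rcases le_total (b:ℝ) c with h | h
    · rw [max_eq_right h, abs_of_nonpos (by linarith)]; linarith
    · rw [max_eq_left h]; simp
  have hvc : (v:ℝ) - c ≤ δ := by
    rw [hδ, hv]; push_cast
    rcases le_total (b:ℝ) c with h | h
    · rw [max_eq_right h]; simp
    · rw [max_eq_left h, abs_of_nonneg (by linarith)]
  have hcb : |(c:ℝ) - b| = δ := abs_sub_comm _ _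
  have hKδ : δ ≤ K * δ := le_mul_of_one_le_left hδ0 hK1
  -- one level
  have one : ∀ e : ℚ, 0 ≤ e → e ≤ 1 → e ≤ v → (v:ℝ) - e ≤ δ →
      ∀ᶠ n in (U : Filter ℕ), rh D n e ≤ D.B.d n ^ (-(K * δ + ε)) * rs D v n ∧
        ∀ x ∈ D.I n, zx D n e x ≤ zs D v jx n x ∧
          zs D v jx n x + rs D v n ≤ zx D n e x + rh D n e := by
    intro e he0 he1 hev hd
    filter_upwards [hjx, hJ.mka.lev_mono e v he0 hev hv1,
      lev2 hJ.mka he0 hev hv1 (show 0 < ε / 2 by positivity),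
      ev_small D.B (show 0 < ε / 2 by positivity) (K := 1 / 128) (by norm_num)] with n h1 h2 h3 h4
    have hρ7 : 0 < rs D v n := rho_pos _
    constructor
    · have hde := dpow_pos D.B n (ε / 2)
      have h5 : (128:ℝ) ≤ D.B.d n ^ (-(ε / 2)) := by
        rw [Real.rpow_neg (D.B.pos n).le, le_inv_comm₀ (by norm_num) hde]
        rw [one_div] at h4; exact h4
      have h6 : rho (D.lev n e) ≤ D.B.d n ^ (-((v:ℝ) - e + ε / 2)) * rho (D.lev n v) := by
        unfold Crest.Agent.R138.Mk163.rho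
        rw [mul_one_div, div_le_div_iff₀ (by positivity) (by positivity), one_mul]
        exact h3
      rw [rho7 D v n] at h6
      have h7 : D.B.d n ^ (-((v:ℝ) - e + ε / 2)) * D.B.d n ^ (-(ε / 2)) ≤
          D.B.d n ^ (-(K * δ + ε)) := by
        rw [← dpow_add]
        exact Real.rpow_le_rpow_of_exponent_ge (D.B.pos n) (D.B.lt n).le (by linarith)
      have hp := dpow_pos D.B n (-((v:ℝ) - e + ε / 2))
      show rho (D.lev n e) ≤ _
      calc rho (D.lev n e) ≤ D.B.d n ^ (-((v:ℝ) - e + ε / 2)) * (128 * rs D v n) := h6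
        _ = D.B.d n ^ (-((v:ℝ) - e + ε / 2)) * 128 * rs D v n := by ring
        _ ≤ D.B.d n ^ (-((v:ℝ) - e + ε / 2)) * D.B.d n ^ (-(ε / 2)) * rs D v n :=
            mul_le_mul_of_nonneg_right (mul_le_mul_of_nonneg_left h5 hp.le) hρ7.le
        _ ≤ _ := mul_le_mul_of_nonneg_right h7 hρ7.le
    · intro x hx
      have hj := h1 x hx
      have e1 : anc (D.lev n v) (D.lev n v + 7) (jx n x) = zc (D.lev n v) x.2 := by
        unfold Crest.Agent.R136.Deep51.anc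
        rw [Nat.add_sub_cancel_left]
        exact hj
      have e2 : anc (D.lev n e) (D.lev n v + 7) (jx n x) = zc (D.lev n e) x.2 := by
        rw [← anc_anc h2 (by omega) (jx n x), e1, anc_zc h2]
      obtain ⟨s1, s2⟩ := sub_cell (i := D.lev n e) (m := D.lev n v + 7) (by omega) (jx n x)
      rw [e2] at s1 s2
      exact ⟨s1, s2⟩
  filter_upwards [mark_ofM hJ.mka hb0 hb1, mark_ofM hJ.mka hc0 hc1,
    one b hb0 hb1 (le_max_left _ _) hvb, one c hc0 hc1 (le_max_right _ _) hvc] with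
    n m1 m2 o1 o2 x hx
  have M1 := m1 x hx
  have M2 := m2 x hx
  obtain ⟨r1, z1⟩ := o1
  obtain ⟨r2, z2⟩ := o2
  obtain ⟨a1, a2⟩ := z1 x hx
  obtain ⟨b1, b2⟩ := z2 x hx
  rw [hcb]
  exact ⟨⟨M1.shp, M2.shp, M1.inP, M2.inP, a1, a2, b1, b2, r1, r2, M1.a, M1.w1, M1.w2⟩,
    ⟨M2.shp, M1.shp, M2.inP, M1.inP, b1, b2, a1, a2, r2, r1, M2.a, M2.w1, M2.w2⟩⟩

end Crest.Agent.R136.Eng904
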