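import Crest.Agent.R136.K2A_146
import Crest.Agent.R136.Qg5_926
import Crest.Agent.R138.Dp1_76
import Crest.Agent.R138.Lg_926

/-!
# R136: twin zoom (helper683)

Two natural points `y = z.1 T + z.2 b` (interior of the plane) and `r = z.2 b` (record line) of one
stage of the ladder, blown up along the same scales:

* `JT.of_psi`, `JT.twin` : joint tangents at both points, base points
  `x (ψ l) + h (ψ l) • y`, `x (ψ l) + h (ψ l) • r`, same scales;
* `RecX` : value of `ν` at the moving base points; passes to `r`;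
* `Twin` : the data; **`alive`** : contrapositive of 774's `Stage.dead` with the twin record point;
* `base_ext`, **`exists_zwin_twin`** : zoom windows of both with one base, one `J`;
* `few_coarse`, `popular`, **`exists_popular`** : coarse label constant on the fine classes of a
  dense part.
-/

set_option autoImplicit false
set_option linter.unusedSectionVars false
set_option linter.unusedVariables false

open Set Filter Topology Metric MeasureTheory

namespace Crest.Agent.R136.Tw683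

open Dg262 (X X_cont SupOn LegU)
open Dg219 (Tn BUp Walls OutS gC dhC nC)
open Rc146 (OutA)
open K2S774 K2A146
open Crest.Agent.R138

variable {m : ℕ} {W : Type*} [Fintype W] {Q : Walls (Fin m) W} {A : W → Prop}
  {P : Set (Fin m → ℝ)} {ν own : (Fin m → ℝ) → ℝ} {K : ℝ}
  {r0 ρ : Fin m → ℝ} {Dl : (Fin m → ℝ) →ₗ[ℝ] ℝ} {Qd : Set (Fin m → ℝ)} {Z Tie : Set (Fin m)}
  {kz : Fin m} {o : Fin m → ℝ} {τ : ℝ} {Dr : Set (Fin m)}
  {lam lo lam' lo' lam1 lo1 : (Fin m → ℝ) → ℝ}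

/-! ### joint tangents at two points -/

/-- joint tangent of a joint tangent, given index function -/
theorem JT_of_psi {y : Fin m → ℝ} {x : ℕ → Fin m → ℝ} {h k : ℕ → ℝ}
    (H : JT Q A P ν own r0 x h lam lo) (hyn : Nat Q A y)
    (kpos : ∀ l, 0 < k l) (k0 : Tendsto k atTop (𝓝 0))
    (H1 : Ex926.IsTan (cn Q A) (cn Q A) lam (fun _ => y) k lam')
    (H2 : Ex926.IsTan (cn Q A) (cn Q A) lo (fun _ => y) k lo')
    {ψ : ℕ → ℕ} (hψ : ∀ m, m ≤ ψ m)
    (hψ2 : ∀ m : ℕ, ∀ c ∈ cn Q A, ‖c‖ ≤ ‖y‖ + k m * m → x (ψ m) + h (ψ m) • c ∈ P ∧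
      |ν (x (ψ m) + h (ψ m) • c) - ν (x (ψ m)) - h (ψ m) * lam c| ≤ k m / (m + 1) * h (ψ m))
    (hψ3 : ∀ m : ℕ, ∀ c ∈ cn Q A, ‖c‖ ≤ ‖y‖ + k m * m → x (ψ m) + h (ψ m) • c ∈ P ∧
      |own (x (ψ m) + h (ψ m) • c) - own (x (ψ m)) - h (ψ m) * lo c| ≤
        k m / (m + 1) * h (ψ m)) :
    JT Q A P ν own r0 (fun m => x (ψ m) + h (ψ m) • y) (fun m => h (ψ m) * k m) lam' lo' := by
  have hψt : Tendsto ψ atTop atTop := tendsto_atTop_mono hψ tendsto_id
  have h0 : Tendsto (fun n => h (ψ n)) atTop (𝓝 0) := H.zero.comp hψt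
  refine ⟨fun l => mul_pos (H.pos _) (kpos l), ?_, ?_, ?_, ?_,
    tan_of_psi H.pos kpos hyn.mem H1 hψ2, tan_of_psi H.pos kpos hyn.mem H2 hψ3⟩
  · have := h0.mul k0
    rwa [zero_mul] at this
  · intro l w hw
    have h1 := H.nat (ψ l) w hw
    have h2 := hyn w hw
    rw [Q.rhs_add, Q.rhs_smul, Pi.add_apply, Pi.smul_apply, smul_eq_mul, h1, h2]
    ring
  · intro w hwA R
    have hk1 : ∀ᶠ l in atTop, |k l| ≤ 1 := by
      have h1 := k0.abs
      rw [abs_zero] at h1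
      exact (h1.eventually_lt_const one_pos).mono fun l hl => hl.le
    filter_upwards [hψt.eventually (H.gap w hwA (|y (Q.hd w)| + |Q.rhs w y| + |R|)), hk1]
      with l hl hk
    rw [Q.rhs_add, Q.rhs_smul, Pi.add_apply, Pi.smul_apply, smul_eq_mul]
    have hh := (H.pos (ψ l)).le
    have b1 : h (ψ l) * y (Q.hd w) ≤ h (ψ l) * |y (Q.hd w)| :=
      mul_le_mul_of_nonneg_left (le_abs_self _) hh
    have b2 : h (ψ l) * -Q.rhs w y ≤ h (ψ l) * |Q.rhs w y| :=
      mul_le_mul_of_nonneg_left (neg_le_abs _) hh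
    have b3 : R * k l ≤ |R| := by
      refine (le_abs_self _).trans ?_
      rw [abs_mul]
      exact mul_le_of_le_one_right (abs_nonneg _) hk
    have b4 : h (ψ l) * (R * k l) ≤ h (ψ l) * |R| := mul_le_mul_of_nonneg_left b3 hh
    nlinarith
  · have h1 : Tendsto (fun n => x (ψ n)) atTop (𝓝 r0) := H.base.comp hψt
    have h2 : Tendsto (fun n => h (ψ n) • y) atTop (𝓝 0) := by
      have := h0.smul_const y
      rwa [zero_smul] at this
    have := h1.add h2
    rwa [add_zero] at this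

/-- **joint tangents at two points, one sequence** -/
theorem JT_twin {y r : Fin m → ℝ} {x : ℕ → Fin m → ℝ} {h k : ℕ → ℝ}
    (H : JT Q A P ν own r0 x h lam lo) (hy : Nat Q A y) (hr : Nat Q A r)
    (kpos : ∀ l, 0 < k l) (k0 : Tendsto k atTop (𝓝 0))
    (H1 : Ex926.IsTan (cn Q A) (cn Q A) lam (fun _ => y) k lam')
    (H2 : Ex926.IsTan (cn Q A) (cn Q A) lo (fun _ => y) k lo')
    (H3 : Ex926.IsTan (cn Q A) (cn Q A) lam (fun _ => r) k lam1)
    (H4 : Ex926.IsTan (cn Q A) (cn Q A) lo (fun _ => r) k lo1)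
    {Xp : ℕ → ℕ → Prop} (hX : ∀ n, ∀ᶠ l in atTop, Xp n l) :
    ∃ ψ : ℕ → ℕ, (∀ m, m ≤ ψ m) ∧ (∀ m, Xp m (ψ m)) ∧
      JT Q A P ν own r0 (fun m => x (ψ m) + h (ψ m) • y) (fun m => h (ψ m) * k m) lam' lo' ∧
      JT Q A P ν own r0 (fun m => x (ψ m) + h (ψ m) • r) (fun m => h (ψ m) * k m) lam1 lo1 ∧
      ∀ m : ℕ, |ν (x (ψ m) + h (ψ m) • r) - ν (x (ψ m)) - h (ψ m) * lam r| ≤
        k m / (m + 1) * h (ψ m) := by
  have key : ∀ n : ℕ, ∃ l : ℕ, n ≤ l ∧ Xp n l ∧
      (∀ c ∈ cn Q A, ‖c‖ ≤ max ‖y‖ ‖r‖ + k n * n →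
      x l + h l • c ∈ P ∧ |ν (x l + h l • c) - ν (x l) - h l * lam c| ≤ k n / (n + 1) * h l) ∧
      (∀ c ∈ cn Q A, ‖c‖ ≤ max ‖y‖ ‖r‖ + k n * n →
      x l + h l • c ∈ P ∧ |own (x l + h l • c) - own (x l) - h l * lo c| ≤ k n / (n + 1) * h l) := by
    intro n
    have h1 := H.tan (max ‖y‖ ‖r‖ + k n * n) (k n / (n + 1)) (div_pos (kpos n) (by positivity))
    have h2 := H.tano (max ‖y‖ ‖r‖ + k n * n) (k n / (n + 1)) (div_pos (kpos n) (by positivity))
    obtain ⟨l, ⟨⟨hl1, hl3⟩, hl2⟩, hl4⟩ :=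
      (((h1.and h2).and (eventually_ge_atTop n)).and (hX n)).exists
    exact ⟨l, hl2, hl4, hl1, hl3⟩
  choose ψ hψ hψX hψ2 hψ3 using key
  refine ⟨ψ, hψ, hψX, ?_, ?_, fun n => ?_⟩
  · exact JT_of_psi H hy kpos k0 H1 H2 hψ
      (fun n c hc hcn => hψ2 n c hc (hcn.trans (by gcongr; exact le_max_left _ _)))
      (fun n c hc hcn => hψ3 n c hc (hcn.trans (by gcongr; exact le_max_left _ _)))
  · exact JT_of_psi H hr kpos k0 H3 H4 hψ
      (fun n c hc hcn => hψ2 n c hc (hcn.trans (by gcongr; exact le_max_right _ _)))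
      (fun n c hc hcn => hψ3 n c hc (hcn.trans (by gcongr; exact le_max_right _ _)))
  · refine (hψ2 n r hr.mem ?_).2
    have := mul_nonneg (kpos n).le (Nat.cast_nonneg n)
    have := le_max_right ‖y‖ ‖r‖
    linarith

/-! ### values at the record base points -/

/-- `RecX` passes to the next record point -/
theorem RecX_next {x : ℕ → Fin m → ℝ} {h k : ℕ → ℝ} {r : Fin m → ℝ} {ξ : ℝ} {σ : ℕ → ℝ}
    (hpos : ∀ l, 0 < h l) (kpos : ∀ l, 0 < k l)
    (hσ : ∀ l, ∀ i, i ∉ Dr → x l i = r0 i + σ l * ρ i) {ψ : ℕ → ℕ}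
    (hψX : ∀ m : ℕ, |ν (x (ψ m)) - ν r0 - σ (ψ m) * Dl ρ| ≤ k m / (m + 1) * h (ψ m))
    (hr : ∀ i, i ∉ Dr → r i = ξ * ρ i) (hlr : lam r = ξ * Dl ρ)
    (hψr : ∀ m : ℕ, |ν (x (ψ m) + h (ψ m) • r) - ν (x (ψ m)) - h (ψ m) * lam r| ≤
        k m / (m + 1) * h (ψ m)) :
    RecX ν r0 ρ Dl Dr (fun m => x (ψ m) + h (ψ m) • r) (fun m => h (ψ m) * k m) := by
  refine ⟨fun l => σ (ψ l) + h (ψ l) * ξ, fun l i hi => ?_, ?_⟩
  · simp only [Pi.add_apply, Pi.smul_apply, smul_eq_mul]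
    rw [hσ _ i hi, hr i hi]; ring
  · have h1 : Tendsto (fun l : ℕ => 2 * (1 / ((l : ℝ) + 1))) atTop (𝓝 0) := by
      have := tendsto_one_div_add_atTop_nhds_zero_nat (𝕜 := ℝ) |>.const_mul 2
      rwa [mul_zero] at this
    refine squeeze_zero_norm (fun l => ?_) h1
    have hk := kpos l
    have hh := hpos (ψ l)
    have a1 := hψX l
    have a2 := hψr l
    rw [hlr] at a2
    rw [Real.norm_eq_abs, abs_div, abs_of_pos (mul_pos hh hk), div_le_iff₀ (mul_pos hh hk)]
    have e1 : ν (x (ψ l) + h (ψ l) • r) - ν r0 - (σ (ψ l) + h (ψ l) * ξ) * Dl ρ =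
        (ν (x (ψ l) + h (ψ l) • r) - ν (x (ψ l)) - h (ψ l) * (ξ * Dl ρ)) +
          (ν (x (ψ l)) - ν r0 - σ (ψ l) * Dl ρ) := by ring
    rw [e1]
    refine (abs_add_le _ _).trans ((add_le_add a2 a1).trans (le_of_eq ?_))
    field_simp
    ring

/-- own position of the interior base points -/
theorem baseOk_of {x : ℕ → Fin m → ℝ} {h k : ℕ → ℝ} {T b : Fin m → ℝ} {z : ℝ × ℝ} (hz : z.1 < 0)
    (hpos : ∀ l, 0 < h l) (k0 : Tendsto k atTop (𝓝 0))
    (hxt : ∀ l, ∀ i ∈ Tie, x l i - r0 i = o i * (x l kz - r0 kz))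
    (hb : ∀ i ∈ Tie, b i = o i * b kz) (ψ : ℕ → ℕ) :
    BaseOk Tie kz o T r0 (fun m => x (ψ m) + h (ψ m) • X 0 T b z) (fun m => h (ψ m) * k m) := by
  refine ⟨fun l i hi hT' => ?_, fun l i hi hT' => ?_, fun i hi hT' R => ?_⟩
  · have h1 := hxt (ψ l) i hi
    rw [X_zero]
    simp only [Pi.add_apply, Pi.smul_apply, smul_eq_mul]
    rw [hT', hb i hi]
    linear_combination h1
  · have h1 := hxt (ψ l) i hi
    have h3 : 0 ≤ h (ψ l) * ((-z.1) * (T i - o i * T kz)) :=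
      mul_nonneg (hpos _).le (mul_nonneg (by linarith) (by linarith))
    rw [X_zero]
    simp only [Pi.add_apply, Pi.smul_apply, smul_eq_mul]
    rw [hb i hi]
    nlinarith
  · have hs : 0 < (-z.1) * (T i - o i * T kz) := mul_pos (by linarith) (by linarith)
    have h3 : Tendsto (fun l => R * k l) atTop (𝓝 0) := by
      have := k0.const_mul R
      rwa [mul_zero] at this
    filter_upwards [h3.eventually_lt_const hs] with l hl
    have h1 := hxt (ψ l) i hi
    have h2 := mul_le_mul_of_nonneg_left hl.le (hpos (ψ l)).le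
    rw [X_zero]
    simp only [Pi.add_apply, Pi.smul_apply, smul_eq_mul]
    rw [hb i hi]
    nlinarith

/-- **the twin data** : `(lam', lo')` at the interior base points `x'`, `(lam1, lo1)` at the record
base points `x1`, same scales `h'`, distance `H • (z.1 • T)` with `h' = o(H)` -/
structure Twin (Q : Walls (Fin m) W) (A : W → Prop) (P : Set (Fin m → ℝ))
    (ν own : (Fin m → ℝ) → ℝ) (r0 ρ : Fin m → ℝ) (Dl : (Fin m → ℝ) →ₗ[ℝ] ℝ) (Tie : Set (Fin m))
    (kz : Fin m) (o : Fin m → ℝ) (Dr : Set (Fin m)) (T : Fin m → ℝ) (z1 : ℝ)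
    (x' x1 : ℕ → Fin m → ℝ) (h' : ℕ → ℝ) (lam' lo' lam1 lo1 : (Fin m → ℝ) → ℝ) : Prop where
  jt' : JT Q A P ν own r0 x' h' lam' lo'
  jt1 : JT Q A P ν own r0 x1 h' lam1 lo1
  base : BaseOk Tie kz o T r0 x' h'
  tie : ∀ l, ∀ i ∈ Tie, x1 l i - r0 i = o i * (x1 l kz - r0 kz)
  rel : ∃ H : ℕ → ℝ, (∀ l, 0 < H l) ∧ Tendsto (fun l => h' l / H l) atTop (𝓝 0) ∧
    ∀ l, x' l = x1 l + H l • (z1 • T)
  recx : RecX ν r0 ρ Dl Dr x1 h'

/-- **contrapositive of `Stage.dead` with the twin record point** -/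
theorem alive (H : Stage Q P ν own K r0 ρ Dl Qd Z Tie kz o τ A Dr lam lo)
    (R : RecD Q A ρ Qd Tie kz o) {T T' b : Fin m → ℝ} {J : Finset (Fin m)}
    (D : RungD Q A Dr Z Tie kz Qd ρ T T' b J) {g : ℝ} (hg : 0 < g) :
    ∃ z : ℝ × ℝ, z.1 < 0 ∧ ∃ E : ℝ × ℝ →L[ℝ] ℝ, HasFDerivAt (fun z => lam (X 0 T b z)) E z ∧
      -E (1, 0) + Dl T' < g ∧
      ∃ (k : ℕ → ℝ) (lam' lo' lam1 lo1 : (Fin m → ℝ) → ℝ), (∀ l, 0 < k l) ∧
        Tendsto k atTop (𝓝 0) ∧
        Ex926.IsTan (cn Q A) (cn Q A) lam (fun _ => X 0 T b z) k lam' ∧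
        Ex926.IsTan (cn Q A) (cn Q A) lo (fun _ => X 0 T b z) k lo' ∧
        Ex926.IsTan (cn Q A) (cn Q A) lam (fun _ => z.2 • b) k lam1 ∧
        Ex926.IsTan (cn Q A) (cn Q A) lo (fun _ => z.2 • b) k lo1 ∧
        (∃ (φ : ℕ → (Fin m → ℝ) → ℝ) (rt : ℕ → ℝ),
          OutA (gC T b) (cn Q A) T b (dhC T b) (nC T b) lam' (E (1, 0), E (0, 1)) φ rt) ∧
        Prf (cn Q A) lam' lo' K ∧
        Stage Q P ν own K r0 ρ Dl Qd Z Tie kz o τ A Dr lam1 lo1 ∧
        ∃ (x' x1 : ℕ → Fin m → ℝ) (h' : ℕ → ℝ),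
          Twin Q A P ν own r0 ρ Dl Tie kz o Dr T z.1 x' x1 h' lam' lo' lam1 lo1 := by
  by_contra hcon
  have hnb := H.nat_b R.nat D.bρ
  have hT : Nat Q A T := D.natT
  obtain ⟨x, h, hJ, hxt, σ, hσ, hσ0⟩ := H.jt
  have hF : ∀ᵐ z : ℝ × ℝ, z ∈ {z : ℝ × ℝ | z.1 < 0} → ∃ E : ℝ × ℝ →L[ℝ] ℝ,
      HasFDerivAt (fun z => lam (X 0 T b z)) E z ∧ g ≤ -E (1, 0) - -(Dl T') := by
    filter_upwards [cn_outA H.prf R.full D.T0 K2S774.Nat.zero hT hnb] with z hz hz1
    obtain ⟨E, hE, hout⟩ := hz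
    refine ⟨E, hE, ?_⟩
    by_contra hlt
    apply hcon
    have hy : Nat Q A (X 0 T b z) := by
      rw [X_zero]; exact (hT.smul _).add (hnb.smul _)
    have hr : Nat Q A (z.2 • b) := hnb.smul _
    set k : ℕ → ℝ := fun l => 1 / ((l : ℝ) + 1) with hk
    have kpos : ∀ l, 0 < k l := fun l => by positivity
    have k0 : Tendsto k atTop (𝓝 0) := tendsto_one_div_add_atTop_nhds_zero_nat
    obtain ⟨φ1, hφ1, lam', lo', H1, H2⟩ := exists_joint H.prf cn_closed cn_zero
      (fun C => ⟨1, one_pos, fun h hh _ c hc _ => cn_nat_add hy hc hh.le⟩) kpos k0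
    obtain ⟨φ2, hφ2, lam1, lo1, H3, H4⟩ := exists_joint H.prf cn_closed cn_zero
      (fun C => ⟨1, one_pos, fun h hh _ c hc _ => cn_nat_add hr hc hh.le⟩)
      (k := fun l => k (φ1 l)) (fun l => kpos _) (k0.comp hφ1.tendsto_atTop)
    set q : ℕ → ℝ := fun l => k (φ1 (φ2 l)) with hq
    have qpos : ∀ l, 0 < q l := fun l => kpos _
    have q0 : Tendsto q atTop (𝓝 0) :=
      (k0.comp hφ1.tendsto_atTop).comp hφ2.tendsto_atTop
    have H1' := tan_sub H1 hφ2.tendsto_atTop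
    have H2' := tan_sub H2 hφ2.tendsto_atTop
    have hlr : lam (z.2 • b) = z.2 * Dl ρ := H.lam_b R.nat hr.mem fun i hi => by
      rw [Pi.smul_apply, smul_eq_mul, D.bρ i hi]
    have hX : ∀ n : ℕ, ∀ᶠ l in atTop,
        |ν (x l) - ν r0 - σ l * Dl ρ| ≤ q n / (n + 1) * h l := by
      intro n
      have e : 0 < q n / (n + 1) := div_pos (qpos n) (by positivity)
      filter_upwards [(Metric.tendsto_nhds.1 hσ0) _ e] with l hl
      rw [Real.dist_eq, sub_zero, abs_div, abs_of_pos (hJ.pos l), div_lt_iff₀ (hJ.pos l)] at hl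
      exact hl.le
    obtain ⟨ψ, hψ, hψX, J1, J2, hψr⟩ := JT_twin hJ hy hr qpos q0 H1' H2' H3 H4 hX
    obtain ⟨f, rt, hO⟩ := hout _ lam' (Dg219.bup_of_tan qpos q0 H1')
    have hbk : b kz = ρ kz := D.bρ kz H.zD
    have hbt : ∀ i ∈ Tie, b i = o i * b kz := fun i hi => by
      rw [D.bρ i (H.TD i hi), hbk, R.tie i hi]
    refine ⟨z, hz1, E, hE, by linarith [not_le.1 hlt], q, lam', lo', lam1, lo1, qpos, q0, H1', H2',
      H3, H4, ⟨f, rt, hO⟩, H.prf.tan qpos H1' H2', H.at_rec R D.bρ qpos q0 H3 H4, _, _, _,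
      ⟨J1, J2, baseOk_of hz1 hJ.pos q0 hxt hbt ψ, fun l i hi => ?_,
        ⟨fun l => h (ψ l), fun l => hJ.pos _, ?_, fun l => ?_⟩, ?_⟩⟩
    · have h1 := hxt (ψ l) i hi
      simp only [Pi.add_apply, Pi.smul_apply, smul_eq_mul]
      rw [hbt i hi]
      linear_combination h1
    · refine q0.congr fun l => ?_
      have := (hJ.pos (ψ l)).ne'
      field_simp
    · rw [X_zero, smul_add, ← add_assoc, add_assoc, add_comm (h (ψ l) • z.1 • T), ← add_assoc]
    · exact RecX_next hJ.pos qpos hσ hψX (fun i hi => by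
        rw [Pi.smul_apply, smul_eq_mul, D.bρ i hi]) hlr hψr
  have hd := (H.ray R D).dead hg one_pos (O := {z : ℝ × ℝ | z.1 < 0}) (fun ξ _ s hs _ => by
    show (pt 0 (0, 1) (1, 0) ξ s).1 < 0
    simp [pt]; exact hs) (by
    filter_upwards [hF] with z hz hz1
    exact hz hz1)
  obtain ⟨ξ, hξ⟩ := hd.exists
  exact hξ (mem_univ _)

/-! ### windows -/

section win

open Finset Crest.Agent.R138.Ex926 Crest.Agent.R136.Net191 Crest.Agent.R136.Qg926

theorem base_ext {B1 B2 : Base} (h : ∀ n, B1.d n = B2.d n) : B1 = B2 := by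
  cases B1; cases B2
  simp only at h
  simp only [Base.mk.injEq]
  exact funext h

variable {ι : ℕ → Type*} [∀ n, DecidableEq (ι n)]

/-- **zoom windows of two joint blow-ups with one base and one set of incidences** -/
theorem exists_zwin_twin {B : Base} {I J : ∀ n, Finset (ι n)} {co : ∀ n, ι n → ι n → Fin m → ℝ}
    {M : Mons m} {C Rr : ℝ} {ν : (Fin m → ℝ) → ℝ} (hN : NProf B I J co M C Rr ν)
    {x' x1 : ℕ → Fin m → ℝ} {h : ℕ → ℝ} (hpos : ∀ l, 0 < h l) {D : Set (Fin m → ℝ)}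
    (h0 : (0 : Fin m → ℝ) ∈ D) {lam' lam1 : (Fin m → ℝ) → ℝ}
    (htan' : IsTan (Leg M Rr) D ν x' h lam') (htan1 : IsTan (Leg M Rr) D ν x1 h lam1)
    (s : ℕ → ℕ → ℝ) (hs : ∀ i, B.Sub (s i)) :
    ∃ k : ℕ → ℕ, Tendsto k U atTop ∧ ∀ k' : ℕ → ℕ, Tendsto k' U atTop →
      (∀ᶠ n in (U : Filter ℕ), k' n ≤ k n) → ∃ B' : Base,
        (∀ n, B'.d n = B.d n ^ h (k' n)) ∧ (∀ n, B'.L n = h (k' n) * B.L n) ∧
        (∀ i, B'.Sub (s i)) ∧
        ZWin B B' I J co M C (fun n => x' (k' n)) (fun n => h (k' n)) D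
          (fun n => B.d n ^ (-(ν (x' (k' n))))) lam' ∧
        ZWin B B' I J co M C (fun n => x1 (k' n)) (fun n => h (k' n)) D
          (fun n => B.d n ^ (-(ν (x1 (k' n))))) lam1 := by
  obtain ⟨k1, hk1, H1⟩ := exists_zwin hN hpos h0 htan' s hs
  obtain ⟨k2, hk2, H2⟩ := exists_zwin hN hpos h0 htan1 s hs
  refine ⟨fun n => min (k1 n) (k2 n), tendsto_atTop.2 fun a => ?_, fun k' hk' hle => ?_⟩
  · filter_upwards [hk1.eventually_ge_atTop a, hk2.eventually_ge_atTop a] with n a1 a2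
    exact le_min a1 a2
  · obtain ⟨B1, a1, a2, a3, a4⟩ := H1 k' hk' (hle.mono fun n hn => hn.trans (min_le_left _ _))
    obtain ⟨B2, b1, b2, b3, b4⟩ := H2 k' hk' (hle.mono fun n hn => hn.trans (min_le_right _ _))
    have e : B1 = B2 := base_ext fun n => by rw [a1, b1]
    subst e
    exact ⟨B1, a1, a2, a3, a4, b4⟩

/-- a fine class meets boundedly many coarse classes -/
theorem few_coarse {B : Base} {I : ∀ n, Finset (ι n)} {co : ∀ n, ι n → ι n → Fin m → ℝ}
    {M : Mons m} {C : ℝ} (h : ∀ n, Chart (I n) (co n) M C) {n : ℕ} {p q : Fin m → ℝ}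
    (hp : Legal M p) (hq : Legal M q) (hpq : p ≤ q) {i : ι n} (hi : i ∈ I n) :
    (((cls (I n) (nlab B I co M C n q) i).image (nlab B I co M C n p)).card : ℝ) ≤
      cN M C (cK0 M C) := by
  classical
  have hC0 := (h 0).C0
  have hK0 : 1 ≤ cK0 M C := cK0_one hC0
  have hd := B.pos n
  have hd1 := (B.lt n).le
  have h1 := card_nlab_le (B := B) h hp hp le_rfl hK0 hi
  simp only [sub_self, Finset.sum_const_zero, neg_zero, Real.rpow_zero, mul_one] at h1
  refine le_trans ?_ h1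
  have hsub : (cls (I n) (nlab B I co M C n q) i).image (nlab B I co M C n p) ⊆
      ((I n).filter fun j => Near (co n) (B.d n) p (cK0 M C) i j).image
        (nlab B I co M C n p) := by
    refine Finset.image_subset_image fun x hx => ?_
    obtain ⟨hxI, hxi⟩ := mem_cls.1 hx
    rw [Finset.mem_filter]
    exact ⟨hxI, (near_of_nlab h hq hi hxI hxi.symm).anti hd hd1 (by linarith) hpq⟩
  exact_mod_cast Finset.card_le_card hsub

/-- a label `g` with at most `N` values on every class of `f` : a part of size `≥ 1/N` on which `f`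
determines `g` -/
theorem popular {α β γ : Type*} [DecidableEq α] [DecidableEq β] [DecidableEq γ] (J : Finset α)
    (f : α → β) (g : α → γ) {N : ℝ}
    (hN : ∀ i ∈ J, (((cls J f i).image g).card : ℝ) ≤ N) :
    ∃ J' ⊆ J, (J.card : ℝ) ≤ N * J'.card ∧ ∀ a ∈ J', ∀ b ∈ J', f a = f b → g a = g b := by
  classical
  -- for every value `v` of `f` a popular value of `g`
  have key : ∀ v : β, ∃ c : Option γ, ((J.filter fun y => f y = v).card : ℝ) ≤
      N * ((J.filter fun y => f y = v ∧ some (g y) = c).card : ℝ) := by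
    intro v
    by_cases hne : (J.filter fun y => f y = v).Nonempty
    · obtain ⟨i, hi⟩ := hne
      obtain ⟨hiJ, hiv⟩ := mem_filter.1 hi
      have hcl : cls J f i = J.filter fun y => f y = v := by
        ext y
        rw [mem_cls, mem_filter, hiv]
      set A := J.filter fun y => f y = v with hA
      have hAi : (A.image g).Nonempty := ⟨g i, mem_image_of_mem _ hi⟩
      obtain ⟨c, hc, hmax⟩ := Finset.exists_max_image (A.image g)
        (fun c => (A.filter fun y => g y = c).card) hAi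
      refine ⟨some c, ?_⟩
      have h1 : A.card = ∑ c' ∈ A.image g, (A.filter fun y => g y = c').card :=
        card_eq_sum_card_fiberwise fun y hy => mem_image_of_mem _ hy
      have h2 : (A.card : ℝ) ≤ ((A.image g).card : ℝ) * ((A.filter fun y => g y = c).card : ℝ) := by
        have : A.card ≤ (A.image g).card * (A.filter fun y => g y = c).card := by
          rw [h1]
          exact (sum_le_card_nsmul _ _ _ fun c' hc' => hmax c' hc').trans (le_of_eq (by simp))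
        exact_mod_cast this
      have h3 := hN i hiJ
      rw [hcl] at h3
      refine h2.trans ?_
      have e1 : (J.filter fun y => f y = v ∧ some (g y) = some c) = A.filter fun y => g y = c := by
        ext y
        simp only [hA, mem_filter, Option.some.injEq]
        tauto
      rw [e1]
      exact mul_le_mul_of_nonneg_right h3 (Nat.cast_nonneg _)
    · refine ⟨none, ?_⟩
      rw [Finset.not_nonempty_iff_eq_empty.1 hne]
      simp
  choose c hc using key
  refine ⟨J.filter fun y => some (g y) = c (f y), filter_subset _ _, ?_, ?_⟩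
  · have e1 : (J.card : ℝ) = ∑ v ∈ J.image f, ((J.filter fun y => f y = v).card : ℝ) := by
      rw [card_eq_sum_card_fiberwise (f := f) (t := J.image f) fun y hy => mem_image_of_mem _ hy]
      push_cast
      rfl
    have e2 : (((J.filter fun y => some (g y) = c (f y)).card : ℕ) : ℝ) =
        ∑ v ∈ J.image f, ((J.filter fun y => f y = v ∧ some (g y) = c v).card : ℝ) := by
      rw [card_eq_sum_card_fiberwise (f := f) (t := J.image f)
        fun y hy => mem_image_of_mem _ (mem_filter.1 hy).1]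
      push_cast
      refine sum_congr rfl fun v _ => ?_
      congr 2
      ext y
      simp only [mem_filter]
      constructor
      · rintro ⟨⟨h1, h2⟩, h3⟩; exact ⟨h1, h3, h3 ▸ h2⟩
      · rintro ⟨h1, h2, h3⟩; exact ⟨⟨h1, h2 ▸ h3⟩, h2⟩
    rw [e1, e2, mul_sum]
    exact sum_le_sum fun v _ => hc v
  · intro a ha b hb hab
    have h1 := (mem_filter.1 ha).2
    have h2 := (mem_filter.1 hb).2
    rw [hab, ← h2] at h1
    exact Option.some.inj h1

/-- the loss of a dense part as a sub-polynomial sequence -/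
theorem dense_sub {B : Base} {J' J : ∀ n, Finset (ι n)} (h : Crest.Agent.R138.Dp76.Dense B J' J)
    (hne : ∀ᶠ n in (U : Filter ℕ), (J n).Nonempty) :
    ∃ S : ℕ → ℝ, B.Sub S ∧ ∀ᶠ n in (U : Filter ℕ), ((J n).card : ℝ) ≤ S n * (J' n).card ∧
      1 ≤ S n := by
  set S : ℕ → ℝ := fun n => max 1 ((J n).card / (J' n).card) with hS
  have hne' : ∀ᶠ n in (U : Filter ℕ), 0 < ((J' n).card : ℝ) := by
    filter_upwards [hne, h.2 1 one_pos] with n h1 h2
    have h3 : 0 < ((J n).card : ℝ) := by exact_mod_cast h1.card_pos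
    exact lt_of_lt_of_le (mul_pos (Real.rpow_pos_of_pos (B.pos n) _) h3) h2
  have hub : ∀ ε : ℝ, 0 < ε → ∀ᶠ n in (U : Filter ℕ), 1 ≤ S n ∧ S n ≤ B.d n ^ (-ε) := by
    intro ε hε
    filter_upwards [hne', h.2 ε hε] with n h1 h2
    refine ⟨le_max_left _ _, max_le ?_ ?_⟩
    · exact Real.one_le_rpow_of_pos_of_le_one_of_nonpos (B.pos n) (B.lt n).le (by linarith)
    · rw [div_le_iff₀ h1, Real.rpow_neg (B.pos n).le]
      have h3 := Real.rpow_pos_of_pos (B.pos n) ε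
      rw [inv_mul_eq_div, le_div_iff₀ h3]
      linarith
  refine ⟨S, ?_, ?_⟩
  · rw [Base.Sub.iff]
    refine ⟨(hub 1 one_pos).mono fun n hn => by linarith [hn.1], ?_⟩
    rw [Metric.tendsto_nhds]
    intro ε hε
    filter_upwards [hub (ε / 2) (by positivity)] with n hn
    have hL := B.L_pos n
    have h0 : 0 < S n := by linarith [hn.1]
    have h1 : 0 ≤ Real.log (S n) := Real.log_nonneg hn.1
    have h2 := Real.log_le_log h0 hn.2
    rw [Real.log_rpow (B.pos n)] at h2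
    have h3 : Real.log (B.d n) = -B.L n := by unfold Base.L; ring
    rw [h3] at h2
    rw [Real.dist_eq, sub_zero]
    unfold Base.lg
    rw [abs_of_nonneg (div_nonneg h1 hL.le), div_lt_iff₀ hL]
    nlinarith
  · filter_upwards [hne'] with n h1
    refine ⟨?_, le_max_left _ _⟩
    have := mul_le_mul_of_nonneg_right (le_max_right (1 : ℝ) ((J n).card / (J' n).card)) h1.le
    rwa [div_mul_cancel₀ _ h1.ne'] at this

/-- **coarse labels constant on the fine classes of a dense part** -/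
theorem exists_popular {B : Base} {I J : ∀ n, Finset (ι n)} {co : ∀ n, ι n → ι n → Fin m → ℝ}
    {M : Mons m} {C : ℝ} (h : ∀ n, Chart (I n) (co n) M C)
    (hsub : ∀ᶠ n in (U : Filter ℕ), J n ⊆ I n) {p q : ℕ → Fin m → ℝ}
    (hp : ∀ᶠ n in (U : Filter ℕ), Legal M (p n)) (hq : ∀ᶠ n in (U : Filter ℕ), Legal M (q n))
    (hpq : ∀ᶠ n in (U : Filter ℕ), p n ≤ q n) :
    ∃ J' : ∀ n, Finset (ι n), (∀ n, J' n ⊆ J n) ∧
      (∀ᶠ n in (U : Filter ℕ), ((J n).card : ℝ) ≤ cN M C (cK0 M C) * (J' n).card) ∧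
      ∀ᶠ n in (U : Filter ℕ), ∀ a ∈ J' n, ∀ b ∈ J' n,
        nlab B I co M C n (q n) a = nlab B I co M C n (q n) b →
        nlab B I co M C n (p n) a = nlab B I co M C n (p n) b := by
  have key : ∀ n, ∃ J' : Finset (ι n), J' ⊆ J n ∧
      (J n ⊆ I n → Legal M (p n) → Legal M (q n) → p n ≤ q n →
        ((J n).card : ℝ) ≤ cN M C (cK0 M C) * J'.card ∧ ∀ a ∈ J', ∀ b ∈ J',
        nlab B I co M C n (q n) a = nlab B I co M C n (q n) b →
        nlab B I co M C n (p n) a = nlab B I co M C n (p n) b) := by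
    intro n
    by_cases hc : J n ⊆ I n ∧ Legal M (p n) ∧ Legal M (q n) ∧ p n ≤ q n
    · obtain ⟨c1, c2, c3, c4⟩ := hc
      obtain ⟨J', h1, h2, h3⟩ := popular (J n) (nlab B I co M C n (q n))
        (nlab B I co M C n (p n)) (N := cN M C (cK0 M C)) (fun i hi => by
          refine le_trans ?_ (few_coarse (B := B) h c2 c3 c4 (c1 hi))
          exact_mod_cast Finset.card_le_card (Finset.image_subset_image (cls_mono c1 _ _)))
      exact ⟨J', h1, fun _ _ _ _ => ⟨h2, h3⟩⟩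
    · exact ⟨∅, empty_subset _, fun c1 c2 c3 c4 => absurd ⟨c1, c2, c3, c4⟩ hc⟩
  choose J' h1 h2 using key
  refine ⟨J', h1, ?_, ?_⟩
  · filter_upwards [hsub, hp, hq, hpq] with n a1 a2 a3 a4 using (h2 n a1 a2 a3 a4).1
  · filter_upwards [hsub, hp, hq, hpq] with n a1 a2 a3 a4 using (h2 n a1 a2 a3 a4).2

/-- the interior base points are coarser than the (shifted) record base points -/
theorem twin_le {x' x1 : ℕ → Fin m → ℝ} {h' H : ℕ → ℝ} {z1 : ℝ} {T c0 : Fin m → ℝ} (hz : z1 < 0)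
    (H0 : ∀ l, 0 < H l) (hH : Tendsto (fun l => h' l / H l) atTop (𝓝 0))
    (e : ∀ l, x' l = x1 l + H l • (z1 • T)) (hpos : ∀ l, 0 < h' l) (T0 : ∀ i, 0 ≤ T i)
    (hc : ∀ i, T i = 0 → 0 ≤ c0 i) : ∀ᶠ l in atTop, x' l ≤ x1 l + h' l • c0 := by
  have key : ∀ i : Fin m, ∀ᶠ l in atTop, x' l i ≤ (x1 l + h' l • c0) i := by
    intro i
    rcases (T0 i).eq_or_lt with hT | hT
    · refine Eventually.of_forall fun l => ?_
      rw [e]
      simp only [Pi.add_apply, Pi.smul_apply, smul_eq_mul, ← hT]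
      have := mul_nonneg (hpos l).le (hc i hT.symm)
      linarith
    · have h1 : Tendsto (fun l => (h' l / H l) * -c0 i) atTop (𝓝 0) := by
        have := hH.mul_const (-c0 i)
        rwa [zero_mul] at this
      have h2 : 0 < -(z1 * T i) := by nlinarith
      filter_upwards [h1.eventually_lt_const h2] with l hl
      rw [e]
      simp only [Pi.add_apply, Pi.smul_apply, smul_eq_mul]
      have h3 := H0 l
      have h4 : h' l / H l * -c0 i * H l < -(z1 * T i) * H l := mul_lt_mul_of_pos_right hl h3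
      have h5 : h' l / H l * -c0 i * H l = -(h' l * c0 i) := by
        field_simp
      rw [h5] at h4
      nlinarith
  filter_upwards [eventually_all.2 key] with l hl i using hl i

end win

end Crest.Agent.R136.Tw683
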