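import Crest.Agent.R136.U4H_879
import Crest.Agent.R136.TopD_484

/-!
# R136 (S0187), U4: existence of the extremiser (helper879)

`exists_core` : the failure of `KS4` gives the extremiser `J1c η` for every `η > 0`.
-/

set_option autoImplicit false

open Finset Filter Topology

namespace Crest.Agent.R136.U4G879

open Crest.Agent.R136.KS879 (KS4)
open Crest.Agent.R136.Top484 (Par4 Dat4 J1c)

/-- **existence of the extremiser.** -/
theorem exists_core {η : ℝ} (hη : 0 < η) (h : ¬ KS4) : ∃ (p : Par4) (D : Dat4), J1c η p D := by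
  obtain ⟨B, I, L, r0, wr, cr, lev, A, f, b, vm, w, q, θ, qm, qp, g, hP, hE, hO⟩ := exists_out hη h
  exact ⟨⟨q, g, θ⟩, ⟨B, I, L, r0, wr, cr, lev, A, f, b, vm, w⟩,
    { mka := hO.mka
      alld := hO.alld
      sub7 := hO.sub7
      dall := ⟨qm, qp, hE, hO.dall, hO.dall7⟩
      q0 := ⟨hP.q0.1.le, hP.q0.2⟩
      q2 := hP.q2
      q21 := hP.q21
      g0 := hP.g0
      θ1 := hP.θ1
      θb := hP.θb
      θ1b := hP.θ1b
      wrs := hO.wrs
      r0pos := hO.r0pos
      r0log := hO.r0log
      vel := hO.vel }⟩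

/-- the same, `∀ η`. -/
theorem seamCore : ∀ η : ℝ, 0 < η → ¬ KS4 → ∃ (p : Par4) (D : Dat4), J1c η p D :=
  fun _ hη h => exists_core hη h

end Crest.Agent.R136.U4G879
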