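import Mathlib
import Crest.Agent.R136.Yk5_953

/-!
# R136 U4, pure penalty: chain with room, part 6 (helper953)

`final_diagK` (adapted from helper794's `R116/XcD`), `rebaseK` (one cell of the level `u2`) and
**`xoutK`** : `2 ≤ K → RwdF P ψ q0 Qm → ChsK K 𝒯 P q0 Qm κ δ0 q g → ∃ θ, XOutF 𝒯 (P q) ψ κ g θ`.
-/

set_option autoImplicit false
set_option linter.unusedSectionVars false

open Finset Filter Topology

namespace Crest.Agent.R136.Yk953

open Crest.Agent.R138.Ex926 Crest.Agent.R138.Dp76 Crest.Agent.R138.Ps627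
open Crest.Agent.R138.Ps926
open Crest.Agent.R138.Mk163 (zc zl rho alive own Negl)
open Crest.Agent.R138.MkRef627 (lc kc own_one alive_mono mem_alive card_class own_lower exists_num)
open Crest.Agent.R138.MkZoom779 (zc_nested zc_eq exists_rep)
open Crest.Agent.R136.MkA627 (ampA Geo MkA)
open Crest.Agent.R116.Xa794 (TS)
open Crest.Agent.R116.Xa2794 (lc_nested class_fib_ge class_fib_le)
open Crest.Agent.R116.Xa3794
open Crest.Agent.R116.Xc794 Crest.Agent.R116.Xc1794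
open Crest.Agent.R116.Xc3794 Crest.Agent.R116.Xc4794 Crest.Agent.R116.Xc5794
open Crest.Agent.R116.Xc7794
open Crest.Agent.R116.Xc9794 (refineF exists_vlim)
open Crest.Agent.R136.Yc953 (RwdF Zf XOutF eq_limF cZ Zf_eq Zf_apply)
open Crest.Agent.R136.KF879 (OkH UBH)

variable {Ln ι S : Type} [Fintype ι]

section
variable {𝒯 : Set (TS Ln ι S)} {B : Base} {I : ℕ → Finset (ℕ × ℝ)} {lev : ℕ → ℚ → ℕ}
  {T : ℕ → TS Ln ι S} {L : ℕ → ℕ → Ln} {A : ℕ → ℝ} {g : ℝ} {u0 u2 : ℚ}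
  {Ψ : ℝ → (ι → ℝ) → ℝ} {atop : ℕ → ι → ℕ} {N : ℕ → ℕ}

open Classical in
/-- finite-level statement at one level `v` with error `e` -/
def PvK (B : Base) (T : ℕ → TS Ln ι S) (L : ℕ → ℕ → Ln) (lev : ℕ → ℚ → ℕ) (A : ℕ → ℝ)
    (g : ℝ) (Ψ : ℝ → (ι → ℝ) → ℝ) (atop : ℕ → ι → ℕ) (n : ℕ) (J : Finset (ℕ × ℝ))
    (f : ℕ → ℤ → ℕ) (b : ℕ → (ι → ℕ) × S) (a : ι → ℕ) (θ : ι → ℝ) (e : ℝ) (v : ℚ) : Prop :=
  (∀ x ∈ J, (T n).mem (lev n v) (zc (lev n v) x.2) (b (f x.1 (zc (lev n v) x.2))) (L n x.1) ∧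
      (T n).adm (lev n v) (zc (lev n v) x.2) (b (f x.1 (zc (lev n v) x.2))) ∧
      (b (f x.1 (zc (lev n v) x.2))).1 = a) ∧
  (∀ x ∈ J, ampA B A (fun v => g * v) n v * VV T Ψ lev atop n (lev n v) a ≤
      B.d n ^ (-e) * (((alive J (lev n v) (zc (lev n v) x.2)).filter fun s =>
        f s (zc (lev n v) x.2) = f x.1 (zc (lev n v) x.2)).card : ℝ)) ∧
  ∀ j, |ys B lev atop n v a j - θ j * (1 - (v : ℝ))| ≤ e

open Classical in
/-- the fibres at one level `v` with error `e` -/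
def FvK (B : Base) (lev : ℕ → ℚ → ℕ) (n : ℕ) (J : Finset (ℕ × ℝ)) (e : ℝ) (v : ℚ) : Prop :=
  ∀ x ∈ J, B.d n ^ (-(1 - (v : ℝ)) + (Zf 1 - Zf v) + e) ≤
      ((J.filter fun y => lc (lev n v) y = lc (lev n v) x).card : ℝ)

theorem final_diagK [Nonempty S] (hsq : Sq B I lev Zf) (_hu20 : 0 ≤ u2) (hu21 : (u2 : ℚ) ≤ 1 / 2)
    {κ : ℝ}
    {ψ : ℝ → (ι → ℝ) → ℝ}
    (hψ : Continuous fun z : ℝ × (ι → ℝ) => ψ z.1 z.2)
    (hcoe : ∃ R : ℝ, ∀ x, κ ≤ ψ 1 x → ∀ j, |x j| ≤ R)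
    (hk : ∀ v0 : ℚ, u2 < v0 → v0 < 1 → ∀ W : Finset ℚ, (∀ u ∈ W, u2 ≤ u ∧ u < v0) →
      ∃ (J : ℕ → Finset (ℕ × ℝ)) (f : ℚ → ℕ → ℕ → ℤ → ℕ) (b : ℚ → ℕ → ℕ → (ι → ℕ) × S)
        (a : ℚ → ℕ → ι → ℕ) (θ : ι → ℝ), (∀ n, J n ⊆ I n) ∧ Dense B J I ∧ Sq B J lev Zf ∧
        a 1 = atop ∧ κ ≤ ψ 1 θ ∧ ∀ v ∈ insert 1 (insert v0 W),
          Mrk B J T L lev A (fun v => g * v) (VV T Ψ lev atop) v (f v) (b v) (a v) ∧
          ∀ j, Tendsto (fun n => ys B lev atop n v (a v n) j) U (𝓝 (θ j * (1 - (v : ℝ))))) :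
    ∃ (J : ℕ → Finset (ℕ × ℝ)) (f : ℕ → ℚ → ℕ → ℤ → ℕ) (b : ℕ → ℚ → ℕ → (ι → ℕ) × S)
      (a : ℕ → ℚ → ι → ℕ) (θ : ι → ℝ), (∀ n, J n ⊆ I n) ∧ Sq B J lev Zf ∧
      (∀ n, a n 1 = atop n) ∧ κ ≤ ψ 1 θ ∧ ∀ v : ℚ, u2 ≤ v → v ≤ 1 →
        Mrk B J T L lev A (fun v => g * v) (VV T Ψ lev atop) v (fun n => f n v)
          (fun n => b n v) (fun n => a n v) ∧
        ∀ j, Tendsto (fun n => ys B lev atop n v (a n v) j) U (𝓝 (θ j * (1 - (v : ℝ)))) := by
  classical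
  set v0 : ℕ → ℚ := fun k => 1 - 1 / ((k : ℚ) + 3) with hv0
  have hv0p : ∀ k, u2 < v0 k := by
    intro k
    have : 1 / ((k : ℚ) + 3) < 1 / 2 := by
      rw [div_lt_div_iff₀ (by positivity) (by norm_num)]
      have : (0 : ℚ) ≤ k := Nat.cast_nonneg k
      linarith
    simp only [hv0]; linarith
  have hv01 : ∀ k, v0 k < 1 := by
    intro k
    have : 0 < 1 / ((k : ℚ) + 3) := by positivity
    simp only [hv0]; linarith
  set W0 : ℕ → Finset ℚ := fun k =>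
    ((range k).image (fun m => Denumerable.ofNat ℚ m)).filter fun u => 0 ≤ u ∧ u ≤ 1 with hW0
  set W : ℕ → Finset ℚ := fun k =>
    ((range k).image (fun m => Denumerable.ofNat ℚ m)).filter fun u => u2 ≤ u ∧ u < v0 k with hW
  have hex := fun k => hk (v0 k) (hv0p k) (hv01 k) (W k) (fun u hu => (mem_filter.1 hu).2)
  choose J f b a θ hJ hJd hJs ha hθ hM using hex
  set e : ℕ → ℝ := fun k => 1 / ((k : ℝ) + 1) with he
  have hep : ∀ k, 0 < e k := fun k => by simp only [he]; positivity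
  -- the finite statements
  have hP : ∀ k, ∀ᶠ n in (U : Filter ℕ), (J k n).Nonempty ∧
      (∀ v ∈ W0 k, FvK B lev n (J k n) (e k) v) ∧
      ∀ v ∈ insert 1 (insert (v0 k) (W k)), PvK B T L lev A g Ψ atop n (J k n) (f k v n)
        (b k v n) (a k v n) (θ k) (e k) v := by
    intro k
    refine ((hJs k).ne).and (Filter.Eventually.and ?_ ?_)
    · rw [Filter.eventually_all_finset]
      intro v hv
      obtain ⟨hv0', hv1'⟩ := (mem_filter.1 hv).2
      filter_upwards [(hJs k).fib v hv0' hv1' (e k) (hep k)] with n h3 x hx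
      exact (h3 x hx).1
    rw [Filter.eventually_all_finset]
    intro v hv
    obtain ⟨hMk, hy⟩ := hM k v hv
    have hyev : ∀ᶠ n in (U : Filter ℕ), ∀ j,
        |ys B lev atop n v (a k v n) j - θ k j * (1 - (v : ℝ))| ≤ e k := by
      rw [Filter.eventually_all]
      intro j
      have := (Metric.tendsto_nhds.1 (hy j)) (e k) (hep k)
      filter_upwards [this] with n hn
      rw [Real.dist_eq] at hn
      exact hn.le
    filter_upwards [hMk.mark, hMk.near (e k) (hep k), hyev] with n h1 h2 h4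
    exact ⟨h1, h2, h4⟩
  obtain ⟨kk, hkk, hkP⟩ := exists_diag _ hP
  have hkP' : ∀ᶠ n in (U : Filter ℕ), (J (kk n) n).Nonempty ∧
      (∀ v ∈ W0 (kk n), FvK B lev n (J (kk n) n) (e (kk n)) v) ∧
      ∀ v ∈ insert 1 (insert (v0 (kk n)) (W (kk n))), PvK B T L lev A g Ψ atop n (J (kk n) n)
        (f (kk n) v n) (b (kk n) v n) (a (kk n) v n) (θ (kk n)) (e (kk n)) v := by
    filter_upwards [hkP] with n hn using hn _ le_rfl
  -- every level is in the mesh
  have hin0 : ∀ v : ℚ, 0 ≤ v → v ≤ 1 → ∀ᶠ n in (U : Filter ℕ), v ∈ W0 (kk n) := by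
    intro v h0 h1
    obtain ⟨m, hm⟩ := exists_num v
    filter_upwards [hkk.eventually_ge_atTop (m + 1)] with n hn
    rw [hW0, mem_filter, mem_image]
    exact ⟨⟨m, mem_range.2 (by omega), hm⟩, h0, h1⟩
  have hin : ∀ v : ℚ, u2 ≤ v → v ≤ 1 → ∀ᶠ n in (U : Filter ℕ),
      v ∈ insert 1 (insert (v0 (kk n)) (W (kk n))) := by
    intro v h0 h1
    rcases h1.eq_or_lt with rfl | h1
    · exact Eventually.of_forall fun n => mem_insert_self _ _
    obtain ⟨m, hm⟩ := exists_num v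
    obtain ⟨K, hK⟩ := exists_nat_gt (1 / (1 - v))
    filter_upwards [hkk.eventually_ge_atTop (max (m + 1) K)] with n hn
    refine mem_insert_of_mem (mem_insert_of_mem ?_)
    rw [hW, mem_filter, mem_image]
    have h2 : m + 1 ≤ kk n := (le_max_left _ _).trans hn
    have h3 : K ≤ kk n := (le_max_right _ _).trans hn
    refine ⟨⟨m, mem_range.2 (by omega), hm⟩, h0, ?_⟩
    have h4 : (0 : ℚ) < 1 - v := by linarith
    have h5 : (K : ℚ) ≤ kk n := by exact_mod_cast h3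
    have h6 : 1 < (K : ℚ) * (1 - v) := by
      rwa [div_lt_iff₀ h4] at hK
    have h7 : 1 / ((kk n : ℚ) + 3) < 1 - v := by
      rw [div_lt_iff₀ (by positivity)]
      nlinarith
    simp only [hv0]; linarith
  have hesm : ∀ ε : ℝ, 0 < ε → ∀ᶠ n in (U : Filter ℕ), e (kk n) ≤ ε := by
    intro ε hε
    have h1 : Tendsto (fun n => e (kk n)) U (𝓝 0) :=
      tendsto_one_div_add_atTop_nhds_zero_nat.comp hkk
    filter_upwards [h1.eventually_lt_const hε] with n hn using hn.le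
  have helim : Tendsto (fun n => e (kk n)) U (𝓝 0) :=
    tendsto_one_div_add_atTop_nhds_zero_nat.comp hkk
  -- the limit direction
  obtain ⟨R, hR⟩ := hcoe
  obtain ⟨Θ, hΘ⟩ := exists_vlim (y := fun n => θ (kk n)) (C := R)
    (Eventually.of_forall fun n j => hR _ (hθ (kk n)) j)
  have hψΘ : κ ≤ ψ 1 Θ := by
    have h1 : Tendsto (fun n => ψ 1 (θ (kk n))) U (𝓝 (ψ 1 Θ)) :=
      (hψ.tendsto ((1, Θ) : ℝ × (ι → ℝ))).comp (tendsto_const_nhds.prodMk_nhds hΘ)
    exact ge_of_tendsto h1 (Eventually.of_forall fun n => hθ (kk n))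
  refine ⟨fun n => J (kk n) n, fun n v => f (kk n) v n, fun n v => b (kk n) v n,
    fun n v => a (kk n) v n, Θ, fun n => hJ (kk n) n, ?_, ?_, hψΘ, ?_⟩
  · refine
      { ne := by filter_upwards [hkP'] with n hn using hn.1
        card := ?_
        lam0 := hsq.lam0
        lam := hsq.lam
        lev_mono := hsq.lev_mono
        lev_lim := hsq.lev_lim
        cell0 := by
          filter_upwards [hsq.cell0] with n hn x hx y hy using
            hn x (hJ (kk n) n hx) y (hJ (kk n) n hy)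
        one := by
          filter_upwards [hsq.one] with n hn x hx y hy using
            hn x (hJ (kk n) n hx) y (hJ (kk n) n hy)
        fib := ?_ }
    · intro ε hε
      filter_upwards [hsq.card ε hε, hkP'] with n hn hne
      refine le_trans (Real.log_le_log (by exact_mod_cast card_pos.2 hne.1)
        (by exact_mod_cast card_le_card (hJ (kk n) n))) hn
    · intro v hv0 hv1 ε hε
      filter_upwards [hsq.fib v hv0 hv1 ε hε, hkP', hin0 v hv0 hv1, hesm ε hε]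
        with n h1 h2 h3 h4 x hx
      refine ⟨?_, ?_⟩
      · refine le_trans (dpow_le B n (by linarith)) (h2.2.1 v h3 x hx)
      · refine le_trans ?_ (h1 x (hJ (kk n) n hx)).2
        exact_mod_cast card_le_card (filter_subset_filter _ (hJ (kk n) n))
  · intro n
    simp only [ha]
  · intro v hv0 hv1
    refine ⟨{ mark := ?_, near := ?_ }, ?_⟩
    · filter_upwards [hkP', hin v hv0 hv1] with n h2 h3 using (h2.2.2 v h3).1
    · intro ε hε
      filter_upwards [hkP', hin v hv0 hv1, hesm ε hε] with n h2 h3 h4 x hx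
      refine ((h2.2.2 v h3).2.1 x hx).trans ?_
      exact mul_le_mul_of_nonneg_right (dpow_le B n (by linarith)) (Nat.cast_nonneg _)
    · intro j
      have h1 : Tendsto (fun n => ys B lev atop n v (a (kk n) v n) j -
          θ (kk n) j * (1 - (v : ℝ))) U (𝓝 0) := by
        refine squeeze_zero_norm' ?_ helim
        filter_upwards [hkP', hin v hv0 hv1] with n h2 h3
        rw [Real.norm_eq_abs]
        exact (h2.2.2 v h3).2.2 j
      have h2 : Tendsto (fun n => θ (kk n) j * (1 - (v : ℝ))) U (𝓝 (Θ j * (1 - (v : ℝ)))) :=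
        ((tendsto_pi_nhds.1 hΘ) j).mul_const _
      have h3 := h1.add h2
      rw [zero_add] at h3
      refine h3.congr fun n => ?_
      ring

/-- the base `d ^ c` -/
noncomputable def baseR (B : Base) (c : ℝ) (hc : 0 < c) : Base where
  d := fun n => B.d n ^ c
  pos := fun n => Real.rpow_pos_of_pos (B.pos n) c
  lt := fun n => Real.rpow_lt_one (B.pos n).le (B.lt n) hc
  lim0 := by
    have h1 := B.lim0.rpow_const (p := c) (Or.inr hc.le)
    rwa [Real.zero_rpow hc.ne'] at h1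

theorem baseR_d (B : Base) (c : ℝ) (hc : 0 < c) (n : ℕ) (x : ℝ) :
    (baseR B c hc).d n ^ x = B.d n ^ (c * x) := by
  change (B.d n ^ c) ^ x = _
  rw [← Real.rpow_mul (B.pos n).le]

theorem baseR_L (B : Base) (c : ℝ) (hc : 0 < c) (n : ℕ) : (baseR B c hc).L n = c * B.L n := by
  have h1 : (baseR B c hc).L n = - Real.log (B.d n ^ c) := rfl
  have h2 : B.L n = - Real.log (B.d n) := rfl
  rw [h1, h2, Real.log_rpow (B.pos n)]
  ring

/-- the affine map of the levels -/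
def sg (u2 v : ℚ) : ℚ := u2 + (1 - u2) * v

theorem sg_one (u2 : ℚ) : sg u2 1 = 1 := by unfold sg; ring

theorem sg_zero (u2 : ℚ) : sg u2 0 = u2 := by unfold sg; ring

theorem sg_le {u2 : ℚ} (h : u2 < 1) {u v : ℚ} (huv : u ≤ v) : sg u2 u ≤ sg u2 v := by
  unfold sg
  have : (1 - u2) * u ≤ (1 - u2) * v := mul_le_mul_of_nonneg_left huv (by linarith)
  linarith

theorem sg_range {u2 : ℚ} (h : u2 < 1) {v : ℚ} (h0 : 0 ≤ v) (h1 : v ≤ 1) :
    u2 ≤ sg u2 v ∧ sg u2 v ≤ 1 := by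
  have a := sg_le h h0
  have b := sg_le h h1
  rw [sg_zero] at a
  rw [sg_one] at b
  exact ⟨a, b⟩

theorem sg_cast (u2 v : ℚ) : ((sg u2 v : ℚ) : ℝ) = u2 + (1 - u2) * v := by
  unfold sg; push_cast; ring

open Classical in
/-- one cell of the level `i` -/
noncomputable def cellOf (I : Finset (ℕ × ℝ)) (i : ℕ) : Finset (ℕ × ℝ) :=
  if h : I.Nonempty then I.filter fun y => zc i y.2 = zc i h.choose.2 else ∅

theorem cellOf_sub (I : Finset (ℕ × ℝ)) (i : ℕ) : cellOf I i ⊆ I := by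
  unfold cellOf
  split_ifs with h
  · exact filter_subset _ _
  · exact empty_subset _

theorem cellOf_ne {I : Finset (ℕ × ℝ)} (h : I.Nonempty) (i : ℕ) : (cellOf I i).Nonempty := by
  unfold cellOf
  rw [dif_pos h]
  exact ⟨h.choose, mem_filter.2 ⟨h.choose_spec, rfl⟩⟩

theorem cellOf_cell (I : Finset (ℕ × ℝ)) (i : ℕ) : ∀ x ∈ cellOf I i, ∀ y ∈ cellOf I i,
    zc i x.2 = zc i y.2 := by
  intro x hx y hy
  unfold cellOf at hx hy
  by_cases h : I.Nonempty
  · rw [dif_pos h] at hx hy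
    rw [(mem_filter.1 hx).2, (mem_filter.1 hy).2]
  · rw [dif_neg h] at hx
    exact absurd hx (notMem_empty x)

theorem cellOf_in (I : Finset (ℕ × ℝ)) {i j : ℕ} (hij : i ≤ j) : ∀ x ∈ cellOf I i, ∀ y ∈ I,
    zc j y.2 = zc j x.2 → y ∈ cellOf I i := by
  intro x hx y hy hxy
  have h1 := zc_nested hij hxy
  unfold cellOf at hx ⊢
  by_cases h : I.Nonempty
  · rw [dif_pos h] at hx ⊢
    exact mem_filter.2 ⟨hy, h1.trans (mem_filter.1 hx).2⟩
  · rw [dif_neg h] at hx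
    exact absurd hx (notMem_empty x)

open Classical in
theorem cellOf_alive (I : Finset (ℕ × ℝ)) {i j : ℕ} (hij : i ≤ j) {x : ℕ × ℝ}
    (hx : x ∈ cellOf I i) : alive (cellOf I i) j (zc j x.2) = alive I j (zc j x.2) := by
  ext t
  constructor
  · intro ht
    exact alive_mono (cellOf_sub I i) _ _ ht
  · intro ht
    obtain ⟨y, hy, hy1, hy2⟩ := mem_alive.1 ht
    exact mem_alive.2 ⟨y, cellOf_in I hij x hx y hy hy2, hy1, hy2⟩

theorem cellOf_fib (I : Finset (ℕ × ℝ)) {i j : ℕ} (hij : i ≤ j) {x : ℕ × ℝ}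
    (hx : x ∈ cellOf I i) : ((cellOf I i).filter fun y => lc j y = lc j x) =
      I.filter fun y => lc j y = lc j x := by
  ext y
  rw [mem_filter, mem_filter]
  exact ⟨fun h => ⟨cellOf_sub I i h.1, h.2⟩,
    fun h => ⟨cellOf_in I hij x hx y h.1 (Prod.mk.inj h.2).2, h.2⟩⟩

/-- the own profile and the cell after the rebase -/
theorem rebase_sq (hsq : Sq B I lev Zf) (h0 : 0 ≤ u2) (h1 : u2 < 1)
    (hc : (0 : ℝ) < 1 - u2) :
    Sq (baseR B (1 - u2) hc) (fun n => cellOf (I n) (lev n u2)) (fun n v => lev n (sg u2 v)) Zf := by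
  classical
  have hsg0 : ∀ v : ℚ, 0 ≤ v → v ≤ 1 → 0 ≤ sg u2 v := fun v a b => h0.trans (sg_range h1 a b).1
  refine
    { ne := by filter_upwards [hsq.ne] with n hn using cellOf_ne hn _
      card := ?_
      lam0 := hsq.lam0
      lam := hsq.lam
      lev_mono := fun u v hu huv hv => hsq.lev_mono _ _ (hsg0 u hu (huv.trans hv)) (sg_le h1 huv)
        (sg_range h1 (hu.trans huv) hv).2
      lev_lim := ?_
      cell0 := ?_
      one := ?_
      fib := ?_ }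
  · intro ε hε
    filter_upwards [hsq.card ((1 - (u2 : ℝ)) * ε) (by positivity), hsq.ne] with n hn hne
    rw [baseR_d]
    have e1 : (1 - (u2 : ℝ)) * -ε = -((1 - (u2 : ℝ)) * ε) := by ring
    rw [e1]
    refine le_trans (Real.log_le_log (by exact_mod_cast card_pos.2 (cellOf_ne hne _))
        (by exact_mod_cast card_le_card (cellOf_sub (I n) (lev n u2)))) hn
  · intro u v hu huv hv
    have h2 := hsq.lev_lim _ _ (hsg0 u hu (huv.trans hv)) (sg_le h1 huv)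
        (sg_range h1 (hu.trans huv) hv).2
    have h3 := h2.div_const (1 - (u2 : ℝ))
    have e1 : (((sg u2 v : ℚ) : ℝ) - (sg u2 u : ℚ)) / (1 - (u2 : ℝ)) = (v : ℝ) - u := by
      rw [sg_cast, sg_cast]
      field_simp
      ring
    rw [e1] at h3
    refine h3.congr fun n => ?_
    rw [baseR_L]
    have hL := B.L_pos n
    field_simp
  · refine Eventually.of_forall fun n x hx y hy => ?_
    rw [sg_zero]
    exact cellOf_cell (I n) (lev n u2) x hx y hy
  · filter_upwards [hsq.one] with n hn x hx y hy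
    rw [sg_one]
    exact hn x (cellOf_sub _ _ hx) y (cellOf_sub _ _ hy)
  · intro v hv0 hv1 ε hε
    obtain ⟨r1, r2⟩ := sg_range h1 hv0 hv1
    filter_upwards [hsq.fib (sg u2 v) (h0.trans r1) r2 ((1 - (u2 : ℝ)) * ε) (by positivity),
      hsq.lev_mono u2 (sg u2 v) h0 r1 r2] with n hn hl x hx
    rw [cellOf_fib (I n) hl hx, baseR_d, baseR_d]
    have h4 := hn x (cellOf_sub _ _ hx)
    rw [sg_cast] at h4
    have e1 : (1 - (u2 : ℝ)) * (-(1 - (v : ℝ)) + (Zf 1 - Zf v) + ε) =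
        -(1 - ((u2 : ℝ) + (1 - u2) * v)) + (Zf 1 - Zf ((u2 : ℝ) + (1 - u2) * v)) +
          (1 - (u2 : ℝ)) * ε := by
      simp only [Zf_apply]; ring
    have e2 : (1 - (u2 : ℝ)) * (-(1 - (v : ℝ)) + (Zf 1 - Zf v) - ε) =
        -(1 - ((u2 : ℝ) + (1 - u2) * v)) + (Zf 1 - Zf ((u2 : ℝ) + (1 - u2) * v)) -
          (1 - (u2 : ℝ)) * ε := by
      simp only [Zf_apply]; ring
    rw [e1, e2]
    exact h4

theorem rebase_amp (hc : (0 : ℝ) < 1 - u2) (n : ℕ) (v : ℚ) :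
    ampA (baseR B (1 - u2) hc) (fun n => A n * B.d n ^ (-(g * (u2 : ℝ)))) (fun v => g * v) n v =
      ampA B A (fun v => g * v) n (sg u2 v) := by
  unfold ampA
  rw [baseR_d, mul_assoc, ← dpow_add, sg_cast]
  congr 2
  ring

theorem rebase_VV (n i : ℕ) (s : ι → ℕ) :
    VV T Ψ (fun n v => lev n (sg u2 v)) atop n i s = VV T Ψ lev atop n i s := by
  have h1 : (fun n v => lev n (sg u2 v)) n 1 = lev n 1 := congrArg (lev n) (sg_one u2)
  unfold VV
  rw [h1]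

theorem rebase_ys (hc : (0 : ℝ) < 1 - u2) (n : ℕ) (v : ℚ) (a : ι → ℕ) (j : ι) :
    ys (baseR B (1 - u2) hc) (fun n v => lev n (sg u2 v)) atop n v a j =
      ys B lev atop n (sg u2 v) a j / (1 - (u2 : ℝ)) := by
  have h1 : (fun n v => lev n (sg u2 v)) n 1 = lev n 1 := congrArg (lev n) (sg_one u2)
  unfold ys cn
  rw [baseR_L, h1]
  have hL := B.L_pos n
  field_simp

theorem rebase_dmx (hc : (0 : ℝ) < 1 - u2) (h1 : u2 < 1) (hu02 : u0 ≤ u2)
    (h : DmxU u0 B I T L lev A (fun v => g * v) (VV T Ψ lev atop)) :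
    Dmx (baseR B (1 - u2) hc) (fun n => cellOf (I n) (lev n u2)) T L
      (fun n v => lev n (sg u2 v)) (fun n => A n * B.d n ^ (-(g * (u2 : ℝ)))) (fun v => g * v)
      (VV T Ψ (fun n v => lev n (sg u2 v)) atop) := by
  classical
  intro v hv0 hv1 ε hε
  obtain ⟨r1, r2⟩ := sg_range h1 hv0 hv1
  filter_upwards [h (sg u2 v) (hu02.trans r1) r2 ((1 - (u2 : ℝ)) * ε) (by positivity)]
    with n hn J s hs
  rw [rebase_amp, rebase_VV, baseR_d]
  have e1 : (1 - (u2 : ℝ)) * -ε = -((1 - (u2 : ℝ)) * ε) := by ring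
  rw [e1]
  refine le_trans ?_ (hn J s hs)
  exact_mod_cast card_le_card (filter_subset_filter _ (alive_mono (cellOf_sub _ _) _ _))

theorem rebase_mrk (hsq : Sq B I lev Zf) (hc : (0 : ℝ) < 1 - u2) (h0 : 0 ≤ u2) (h1 : u2 < 1)
    {v : ℚ} (hv0 : 0 ≤ v) (hv1 : v ≤ 1)
    {f : ℕ → ℕ → ℤ → ℕ} {b : ℕ → ℕ → (ι → ℕ) × S} {a : ℕ → ι → ℕ}
    (hM : Mrk B I T L lev A (fun v => g * v) (VV T Ψ lev atop) (sg u2 v) f b a) :
    Mrk (baseR B (1 - u2) hc) (fun n => cellOf (I n) (lev n u2)) T L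
      (fun n v => lev n (sg u2 v)) (fun n => A n * B.d n ^ (-(g * (u2 : ℝ)))) (fun v => g * v)
      (VV T Ψ (fun n v => lev n (sg u2 v)) atop) v f b a := by
  classical
  obtain ⟨r1, r2⟩ := sg_range h1 hv0 hv1
  refine ⟨?_, ?_⟩
  · filter_upwards [hM.mark] with n hn x hx using hn x (cellOf_sub _ _ hx)
  · intro ε hε
    filter_upwards [hM.near ((1 - (u2 : ℝ)) * ε) (by positivity),
      hsq.lev_mono u2 (sg u2 v) h0 r1 r2] with n hn hl x hx
    rw [rebase_amp, rebase_VV, baseR_d, cellOf_alive (I n) hl hx]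
    have e1 : (1 - (u2 : ℝ)) * -ε = -((1 - (u2 : ℝ)) * ε) := by ring
    rw [e1]
    exact hn x (cellOf_sub _ _ hx)

end

/-- **X1-C with full own counts, room below the test level.** -/
theorem xoutK {K : ℕ} (hK : 2 ≤ K) {𝒯 : Set (TS Ln ι S)} {P : ℝ → ℝ → (ι → ℝ) → ℝ}
    {ψ : ℝ → (ι → ℝ) → ℝ}
    {q0 Qm κ δ0 q g : ℝ} (hP : RwdF P ψ q0 Qm) (hch : ChsK K 𝒯 P q0 Qm κ δ0 q g) :
    ∃ θ : ι → ℝ, XOutF 𝒯 (P q) ψ κ g θ := by
  classical
  have hq0 : 0 ≤ q := hP.q0pos.le.trans hch.qlo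
  have hSq : SupA (P q) := fun l l' x x' hl hl' => hP.sup q l l' x x' hq0 hl hl'
  obtain ⟨B, I, T, L, lev, A, f, b, atop, N, u0, hu00, hu01, hKu, hS, hT, hfin, hNd, hA, hsq, h0,
    hM, hroom⟩ := exists_initK hK (hP.zero q) hch.low hch.ub
  obtain ⟨J, hJI, hJd, hdm⟩ := exists_dmxK hu00.le hsq 𝒯 hSq hch.ub hT hfin hNd hA h0 hroom
  obtain ⟨J1, h1, h2, h3, h4, h5⟩ := refineF hsq hJd {1} (by
      intro v hv
      rw [mem_singleton] at hv
      subst hv
      exact ⟨zero_le_one, le_rfl⟩) (mem_singleton_self _) (fun _ => I)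
    (fun _ _ n => Subset.refl _) (fun _ _ => Eventually.of_forall fun n => hJI n)
    (fun _ _ => Eventually.of_forall fun n x _ y hy _ => hy) (fun _ => f) (fun _ => b)
    (fun _ => atop) (by
      intro v hv
      rw [mem_singleton] at hv
      subst hv
      exact hM)
  have hCx : CxK u0 𝒯 B J1 T L lev A g (P q) atop N := ⟨hT, hfin, hNd, hA, h4, hdm.mono h1⟩
  have hM1 := h5 1 (mem_singleton_self _)
  set u2 : ℚ := 1 / 2 with hu2
  have hu02 : u0 < u2 := by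
    have : (u0 : ℝ) < ((u2 : ℚ) : ℝ) := by rw [hu2]; push_cast; exact hu01
    exact_mod_cast this
  obtain ⟨J2, f2, b2, a2, θ, g1, g2, g3, g4, g5⟩ := final_diagK (u2 := u2) hCx.sq (κ := κ) (ψ := ψ)
    (hu00.trans hu02).le le_rfl hP.contψ (by
      obtain ⟨R, hR, hR2⟩ := hP.coe κ hch.κpos
      exact ⟨R * 1, fun x hx j => hR2 1 x zero_le_one (by rw [mul_one]; exact hx) j⟩) (by
      intro v0 hv0 hv1 W hW
      obtain ⟨J, f, b, a, θ, e1, e2, e3, e4, e5, e6⟩ := meshK hK hu00.le hKu hP hch hCx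
        (hu02.trans hv0) hv1 hM1 W (fun u hu => ⟨hu02.trans_le (hW u hu).1, (hW u hu).2⟩)
      exact ⟨J, f, b, a, θ, e1, e2, e3.sq, e4, e5, e6⟩)
  have hu20 : 0 ≤ u2 := (hu00.trans hu02).le
  have hu21 : u2 < 1 := by rw [hu2]; norm_num
  have hc : (0 : ℝ) < 1 - (u2 : ℚ) := by rw [hu2]; norm_num
  have hsq' := rebase_sq g2 hu20 hu21 hc
  have hdm' := rebase_dmx (T := T) (L := L) (A := A) hc hu21 hu02.le ((hdm.mono h1).mono g1)
  have hA' : ∀ n, 0 < A n * B.d n ^ (-(g * ((u2 : ℚ) : ℝ))) := fun n =>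
    mul_pos (hA n) (dpow_pos B n _)
  have htop' : ∀ n, a2 n (sg u2 1) = atop n := fun n => by rw [sg_one]; exact g3 n
  have hm' : ∀ v : ℚ, 0 ≤ v → v ≤ 1 → Mrk (baseR B (1 - u2) hc)
      (fun n => cellOf (J2 n) (lev n u2)) T L (fun n v => lev n (sg u2 v))
      (fun n => A n * B.d n ^ (-(g * ((u2 : ℚ) : ℝ)))) (fun v => g * v)
      (VV T (P q) (fun n v => lev n (sg u2 v)) atop) v (fun n => f2 n (sg u2 v))
      (fun n => b2 n (sg u2 v)) (fun n => a2 n (sg u2 v)) := fun v hv0 hv1 =>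
    rebase_mrk g2 hc hu20 hu21 hv0 hv1
      (g5 (sg u2 v) (sg_range hu21 hv0 hv1).1 (sg_range hu21 hv0 hv1).2).1
  have hy' : ∀ v : ℚ, 0 ≤ v → v ≤ 1 → ∀ j, Tendsto (fun n => ys (baseR B (1 - u2) hc)
      (fun n v => lev n (sg u2 v)) atop n v (a2 n (sg u2 v)) j) U
      (𝓝 (θ j * (1 - (v : ℝ)))) := by
    intro v hv0 hv1 j
    have h6 := ((g5 (sg u2 v) (sg_range hu21 hv0 hv1).1 (sg_range hu21 hv0 hv1).2).2 j).div_const
      (1 - ((u2 : ℚ) : ℝ))
    have e1 : θ j * (1 - ((sg u2 v : ℚ) : ℝ)) / (1 - ((u2 : ℚ) : ℝ)) = θ j * (1 - (v : ℝ)) := by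
      rw [sg_cast]
      have := hc.ne'
      field_simp
      ring
    rw [e1] at h6
    refine h6.congr fun n => ?_
    rw [rebase_ys]
  have hdm2 := hdm'
  have hm2 := hm'
  rw [cZ] at hdm2
  rw [cZ] at hm2
  have hmk := Crest.Agent.R116.XcM708.mk_assemble (B := baseR B (1 - u2) hc)
    (I := fun n => cellOf (J2 n) (lev n u2)) (lev := fun n v => lev n (sg u2 v)) (Λ := Zf)
    (T := T) (L := L) (A := fun n => A n * B.d n ^ (-(g * ((u2 : ℚ) : ℝ)))) (g := g) (Ψ := P q)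
    (atop := atop) hA' hsq' hdm2 (fun n v => f2 n (sg u2 v)) (fun n v => b2 n (sg u2 v))
    (fun n v => a2 n (sg u2 v)) θ htop' hm2 hy'
  rw [← cZ, Zf_eq] at hmk
  refine ⟨θ, baseR B (1 - u2) hc, fun n => cellOf (J2 n) (lev n u2), T, L,
    fun n v => lev n (sg u2 v), fun n => A n * B.d n ^ (-(g * ((u2 : ℚ) : ℝ))),
    fun n v => f2 n (sg u2 v), fun n v => b2 n (sg u2 v),
    fun n v => VV T (P q) (fun n v => lev n (sg u2 v)) atop n (lev n (sg u2 v)) (a2 n (sg u2 v)),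
    fun j n v => (1 / 2 : ℝ) ^ (a2 n (sg u2 v) j), atop, N, fun n v => a2 n (sg u2 v), hT, hfin, ?_,
    g4, hmk, htop', fun n v j => rfl, fun n v => rfl, ?_⟩
  · intro ε hε
    filter_upwards [hNd ((1 - ((u2 : ℚ) : ℝ)) * ε) (by positivity)] with n hn
    rw [baseR_d]
    have e1 : (1 - ((u2 : ℚ) : ℝ)) * -ε = -((1 - ((u2 : ℚ) : ℝ)) * ε) := by ring
    rw [e1]
    exact hn
  · intro v hv0 hv1
    filter_upwards [(hm' v hv0 hv1).mark, hsq'.ne] with n hn hne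
    obtain ⟨x, hx⟩ := hne
    obtain ⟨-, m2, m3⟩ := hn x hx
    exact ⟨_, _, m2, m3⟩

end Crest.Agent.R136.Yk953
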