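import Crest.Agent.R136.Sft3_289
import Crest.Agent.R136.Lz10_627
import Crest.Agent.R136.Yk6_953
import Crest.Agent.R136.Tq2_879

/-!
# R136 (S0187), U4: existence of the extremiser, data form (helper879)

`exists_out` : the failure of `KS4` gives the data of `J1c` : `OutD` (all fields of `J1c` except the
parameter inequalities), `ParL` (the parameter inequalities) and `Ex2` (the two-sided exponents).

enemy36 (879) → soft36 (289) → xoutK (953) → out_of2 (627).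
-/

set_option autoImplicit false

open Finset Filter Topology

namespace Crest.Agent.R136.U4G879

open Crest.Agent.R136.KS879 (KS4)
open Crest.Agent.R136.Tq879 (TT36 enemy36)
open Crest.Agent.R136.Yk953 (xoutK)
open Crest.Agent.R136.DAl879 (Ex2)
open Crest.Agent.R138.Ex926 (Base)
open Crest.Agent.R136.K4 (Plk4)
open Crest.Agent.R136.Sh605 (Ln4)
open Crest.Agent.R136.Lz627 (OutD out_of2)
open Crest.Agent.R136.Sft289 (soft36 ParL)

/-- **existence of the extremiser**, data form. -/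
theorem exists_out {η : ℝ} (hη : 0 < η) (h : ¬ KS4) :
    ∃ (B : Base) (I : ℕ → Finset (ℕ × ℝ)) (L : ℕ → ℕ → Ln4) (r0 : ℕ → ℝ)
      (wr cr : Fin 3 → ℕ → ℝ) (lev : ℕ → ℚ → ℕ) (A : ℕ → ℝ) (f : ℕ → ℚ → ℕ → ℤ → ℕ)
      (b : ℕ → ℚ → ℕ → Plk4) (vm : ℕ → ℚ → ℝ) (w : Fin 3 → ℕ → ℚ → ℝ) (q θ qm qp : Fin 3 → ℝ)
      (g : ℝ), ParL η g q θ ∧ Ex2 η qm qp ∧
        OutD B I L r0 wr cr lev A f b vm w q θ g qm qp := by
  obtain ⟨K, hK, hE⟩ := enemy36 h
  obtain ⟨P, ψ, q0, Qm, κ, δ0, q, g, hR, hC, hg, ⟨Kl, hKl, hL⟩, ⟨qm, qp, hEx, hTw⟩, hpar⟩ :=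
    soft36 hη hK hE
  obtain ⟨θ, hX⟩ := xoutK hK hR hC
  have hκ : κ ≤ ψ 1 θ := by
    obtain ⟨B, I, T, L, lev, A, f, b, vm, w, atop, N, a, h1, h2, h3, h4, -⟩ := hX
    exact h4
  obtain ⟨gl, ql, hgl, hlin, hPL⟩ := hpar θ hκ
  obtain ⟨B, I, L, r0, wr, cr, lev, A, f, b, vm, w, hO⟩ :=
    out_of2 hX hlin hg.le hKl hL hEx.le hTw
  exact ⟨B, I, L, r0, wr, cr, lev, A, f, b, vm, w, ql, θ, qm, qp, g + gl, hPL, hEx, hO⟩

end Crest.Agent.R136.U4G879
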