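import Crest.Agent.R136.Sh6_605

/-!
# R136 (S0187): (UB) for the class `C*` (helper683): statements and the bad-cell lemma

* `Good g zc ρ'`  : the affine curve `g` is almost constant on the cell of centre `zc`.
* `bad_card`      : among equally spaced cells at most 50 are not good.
* `good_low`      : a good cell in the long window has `|g zc| ≥ 2 ^ (-h-1)`.
* `OneSheetN`     : (UB-A), one sheet over a good cell (literal of helper861's leaf).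
* `UBfin`         : (UB), finite form (literal of helper877's leaf).
-/

set_option autoImplicit false
set_option linter.unusedVariables false

namespace Crest.Agent.R136.UB683

open Finset Sh605

/-! ### good cells of an affine curve -/

section good

variable {E : Type*} [NormedAddCommGroup E] [NormedSpace ℝ E]

/-- the affine curve `p + z r` is almost constant on the cell of centre `zc` and length `ρ'` -/
def Good (p r : E) (zc ρ' : ℝ) : Prop := 25 * (ρ' * ‖r‖) ≤ ‖p + zc • r‖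

theorem Good.near {p r : E} {zc ρ' z : ℝ} (h : Good p r zc ρ') (hz : |z - zc| ≤ ρ' / 2) :
    ‖(p + z • r) - (p + zc • r)‖ ≤ ‖p + zc • r‖ / 50 := by
  have e : (p + z • r) - (p + zc • r) = (z - zc) • r := by rw [sub_smul]; abel
  rw [e, norm_smul, Real.norm_eq_abs]
  have h1 : |z - zc| * ‖r‖ ≤ ρ' / 2 * ‖r‖ := mul_le_mul_of_nonneg_right hz (norm_nonneg r)
  unfold Good at h
  linarith

/-- two bad centres are at distance less than `50 ρ'` -/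
theorem bad_dist {p r : E} {z1 z2 ρ' : ℝ} (hρ : 0 < ρ') (h1 : ¬ Good p r z1 ρ')
    (h2 : ¬ Good p r z2 ρ') : |z1 - z2| < 50 * ρ' := by
  unfold Good at h1 h2
  rw [not_le] at h1 h2
  have hr : 0 < ‖r‖ := by
    by_contra h0
    have h0' : ‖r‖ = 0 := le_antisymm (not_lt.mp h0) (norm_nonneg r)
    rw [h0', mul_zero, mul_zero] at h1
    exact absurd h1 (not_lt.mpr (norm_nonneg _))
  have e : (z1 - z2) • r = (p + z1 • r) - (p + z2 • r) := by rw [sub_smul]; abel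
  have h3 : |z1 - z2| * ‖r‖ ≤ ‖p + z1 • r‖ + ‖p + z2 • r‖ := by
    rw [← Real.norm_eq_abs, ← norm_smul, e]
    exact norm_sub_le _ _
  have h4 : |z1 - z2| * ‖r‖ < 50 * ρ' * ‖r‖ := by linarith
  exact lt_of_mul_lt_mul_right h4 hr.le

open Classical in
/-- **at most 50 cells are bad** -/
theorem bad_card (p r : E) {ρ' z00 : ℝ} (hρ : 0 < ρ') (S : Finset ℤ)
    (hS : ∀ j ∈ S, ¬ Good p r (z00 + j * ρ') ρ') : S.card ≤ 50 := by
  rcases S.eq_empty_or_nonempty with h0 | hne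
  · rw [h0]; simp
  · set a := S.min' hne with ha
    have hsub : S ⊆ Finset.Ico a (a + 50) := by
      intro j hj
      have h1 : a ≤ j := S.min'_le j hj
      have h2 := bad_dist hρ (hS j hj) (hS a (S.min'_mem hne))
      have e : z00 + (j:ℝ) * ρ' - (z00 + (a:ℝ) * ρ') = ((j:ℝ) - a) * ρ' := by ring
      rw [e, abs_mul, abs_of_pos hρ] at h2
      have h3 : |(j:ℝ) - a| < 50 := lt_of_mul_lt_mul_right h2 hρ.le
      have h4 := (abs_lt.mp h3).2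
      have h5 : (j:ℝ) < a + 50 := by linarith
      have h6 : j < a + 50 := by exact_mod_cast h5
      exact Finset.mem_Ico.mpr ⟨h1, h6⟩
    refine (Finset.card_le_card hsub).trans ?_
    rw [Int.card_Ico]
    omega

/-- lower bound at a good centre -/
theorem good_low {p r : E} {zc ρ' zJ : ℝ} {h : ℕ} (h1 : 1 ≤ h) (hρ : 0 ≤ ρ')
    (hg : Good p r zc ρ') (hJ : 1 / 2 ≤ ‖p + zJ • r‖) (hd : |zJ - zc| ≤ 2 ^ h * ρ') :
    1 / 2 ^ (h + 1) ≤ ‖p + zc • r‖ := by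
  have e : p + zJ • r = (p + zc • r) + (zJ - zc) • r := by rw [sub_smul]; abel
  have h2 : ‖p + zJ • r‖ ≤ ‖p + zc • r‖ + |zJ - zc| * ‖r‖ := by
    rw [e]
    refine (norm_add_le _ _).trans ?_
    rw [norm_smul, Real.norm_eq_abs]
  have hp : (2:ℝ) ≤ 2 ^ h := by
    calc (2:ℝ) = 2 ^ 1 := by norm_num
      _ ≤ 2 ^ h := pow_le_pow_right₀ (by norm_num) h1
  have h3 : |zJ - zc| * ‖r‖ ≤ 2 ^ h * (‖p + zc • r‖ / 25) := by
    calc |zJ - zc| * ‖r‖ ≤ 2 ^ h * ρ' * ‖r‖ := mul_le_mul_of_nonneg_right hd (norm_nonneg r)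
      _ = 2 ^ h * (ρ' * ‖r‖) := by ring
      _ ≤ 2 ^ h * (‖p + zc • r‖ / 25) := by
        refine mul_le_mul_of_nonneg_left ?_ (by positivity)
        unfold Good at hg
        linarith
  have hn := norm_nonneg (p + zc • r)
  rw [div_le_iff₀ (by positivity), pow_succ]
  nlinarith

end good

/-! ### (UB-A): one sheet -/

/-- gradient of `q z` along the frame `e`, at the point of the line `y` of height `z`, written as an
affine curve `p + z r` -/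
def GradAt (q : ℝ → V3 → ℝ) (e : Fin 3 → V3) (y : Ln4) (p r : Fin 3 → ℝ) : Prop :=
  ∃ Hm : Fin 3 → Fin 3 → ℝ, (∀ i j, Hm i j = Hm j i) ∧ ∀ z, ∀ u : Fin 3 → ℝ,
    q z (y.pos z + (u 0 • e 0 + u 1 • e 1 + u 2 • e 2)) =
      q z (y.pos z) + ∑ i, (p i + z * r i) * u i + ∑ i, ∑ j, Hm i j * (u i * u j)

theorem exists_gradAt {q : ℝ → V3 → ℝ} (hq : IsQ q) (e : Fin 3 → V3) (y : Ln4) :
    ∃ p r : Fin 3 → ℝ, GradAt q e y p r := by
  obtain ⟨c0, c1, c2, b, d, g, hq⟩ := hq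
  refine ⟨fun i => ∑ k, b k * e i k + ∑ j, ∑ k, g j k * (y.p j * e i k + e i j * y.p k),
    fun i => ∑ k, d k * e i k + ∑ j, ∑ k, g j k * (y.v j * e i k + e i j * y.v k),
    fun i j => ∑ k, ∑ l, g k l * (e i k * e j l + e j k * e i l) / 2, ?_, ?_⟩
  · intro i j
    refine Finset.sum_congr rfl fun k _ => Finset.sum_congr rfl fun l _ => ?_
    ring
  · intro z u
    rw [hq, hq]
    simp only [Fin.sum_univ_three, Ln4.pos, Pi.add_apply, Pi.smul_apply, smul_eq_mul]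
    ring

/-- closeness of a line to `y` at a height, in the units `w` -/
def NearAt (e : Fin 3 → V3) (y t : Ln4) (w : V3) (ε z : ℝ) : Prop :=
  ∀ i, |dt (e i) (t.pos z - y.pos z)| ≤ ε * w i

/-- **(UB-A)** `K = M + h`: one sheet over a good cell. The short cell is `[z0, z0 + ρ]`, the cell
`J' = [z1, z1 + ρ']`, `ρ' = 2 ^ (M - h) ρ`, lies within distance `2 ^ M ρ` of it. -/
def OneSheetN : Prop :=
  ∀ (M h : ℕ), 1 ≤ h → h ≤ M → ∀ (e : Fin 3 → V3) (c : Ln4) (w : V3) (q : ℝ → V3 → ℝ)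
    (a z0 ρ r0 : ℝ), 0 < ρ → 0 < r0 → ShN e c w q a z0 ρ r0 →
    ∀ (y : Ln4), InSheet y e c w q a z0 ρ → ∀ (p r : Fin 3 → ℝ), GradAt q e y p r →
    ∀ (z1 ρ' : ℝ), ρ' * 2 ^ h = 2 ^ M * ρ → z0 + ρ - 2 ^ M * ρ ≤ z1 → z1 + ρ' ≤ z0 + 2 ^ M * ρ →
    25 * (ρ' * Real.sqrt (r 0 ^ 2 + r 2 ^ 2)) ≤
      Real.sqrt ((p 0 + (z1 + ρ' / 2) * r 0) ^ 2 + (p 2 + (z1 + ρ' / 2) * r 2) ^ 2) →
    25 * (ρ' * Real.sqrt (r 0 ^ 2 + r 1 ^ 2 + r 2 ^ 2)) ≤
      Real.sqrt ((p 0 + (z1 + ρ' / 2) * r 0) ^ 2 + (p 1 + (z1 + ρ' / 2) * r 1) ^ 2 +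
        (p 2 + (z1 + ρ' / 2) * r 2) ^ 2) →
    ∃ (e' : Fin 3 → V3) (w' : V3) (q' : ℝ → V3 → ℝ) (a' : ℝ), ShN e' y w' q' a' z1 ρ' r0 ∧
      (w 1 ≤ ρ → w' 1 ≤ ρ') ∧
      a' * w' 2 * w' 1 ≤ 2 ^ (5 * M + 2 * h + 14) * (a * w 2 * w 1) ∧
      (a' ≤ 2 ^ (4 * (M + h + 10)) * a ∧ a ≤ 2 ^ (4 * (M + h + 10)) * a') ∧
      (w' 2 ≤ 2 ^ (4 * (M + h + 10)) * w 2 ∧ w 2 ≤ 2 ^ (4 * (M + h + 10)) * w' 2) ∧
      (w' 1 ≤ 2 ^ (4 * (M + h + 10)) * w 1 ∧ w 1 ≤ 2 ^ (4 * (M + h + 10)) * w' 1) ∧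
      ∀ t : Ln4, InSheet t e c w q a z0 ρ → NearAt e y t w (1 / 2 ^ (2 * M + 2 * h + 17)) z0 →
        NearAt e y t w (1 / 2 ^ (2 * M + 2 * h + 17)) (z0 + ρ) → InSheet t e' y w' q' a' z1 ρ'

/-! ### (UB), finite form -/

open Classical in
/-- **(UB)**, finite form. `al j` = alive lines of the `j`-th cell `[z00 + j ρ', z00 + (j+1) ρ']`,
`j < 2 ^ h`, of the long window; the short cell lies in the long window. -/
def UBfin : Prop :=
  ∀ (M h : ℕ), 7 ≤ h → h ≤ M → ∀ {ι : Type} (L : ι → Ln4) (T : Finset ι) (al : ℕ → Finset ι)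
    (z00 ρ ρ' r0 D : ℝ) (R R' : ℝ → ℝ → ℝ → ℝ), 0 < ρ → 0 < r0 → 0 ≤ D →
    ρ' * 2 ^ h = 2 ^ M * ρ →
    (∀ j < 2 ^ h, DMaxN (al j) L (z00 + j * ρ') ρ' D R' r0 ρ') →
    ∀ (e : Fin 3 → V3) (c : Ln4) (w : V3) (q : ℝ → V3 → ℝ) (a z0 : ℝ), z00 ≤ z0 →
      z0 + ρ ≤ z00 + 2 ^ M * ρ → ShN e c w q a z0 ρ r0 → w 1 ≤ ρ →
      (∀ t ∈ T, InSheet (L t) e c w q a z0 ρ) →
      (∀ t ∈ T, 128 ≤ ((Finset.range (2 ^ h)).filter fun j => t ∈ al j).card) →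
      (∀ a' w2' w1', (a' ≤ 2 ^ (4 * (M + h + 10)) * a ∧ a ≤ 2 ^ (4 * (M + h + 10)) * a') →
        (w2' ≤ 2 ^ (4 * (M + h + 10)) * w 2 ∧ w 2 ≤ 2 ^ (4 * (M + h + 10)) * w2') →
        (w1' ≤ 2 ^ (4 * (M + h + 10)) * w 1 ∧ w 1 ≤ 2 ^ (4 * (M + h + 10)) * w1') →
        R' a' w2' w1' ≤ R a (w 2) (w 1)) →
      (T.card : ℝ) ≤ 2 ^ (20 * (M + h + 10)) * D * (a * w 2 * w 1 * R a (w 2) (w 1))

end Crest.Agent.R136.UB683
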