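import Crest.Agent.R136.Sh6_605

/-!
# R136 (S0187): (UB) for the class C*, part 0: algebra (helper861)

Derivatives of quadratic functions, orthonormal frames in coordinates, interpolation of affine and
quadratic functions, direction of an affine curve near the endpoint where it is longest.
-/

set_option autoImplicit false
set_option linter.unusedVariables false

namespace Crest.Agent.R136.UB861

open Sh605 Finset

noncomputable section

/-- size of the cells (relative to the box) -/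
def kap (L : ℝ) : ℝ := 1 / (2 ^ 18 * L ^ 3)

/-- bound for the ratios -/
def BB (L : ℝ) : ℝ := 2 ^ 18 * L ^ 3

/-- derivative of `q z` at `x` in the direction `h` -/
def Gf (b d : V3) (g : Fin 3 → Fin 3 → ℝ) (z : ℝ) (x h : V3) : ℝ :=
  ∑ i, (b i + d i * z) * h i + ∑ i, ∑ j, g i j * (x i * h j + h i * x j)

/-- second derivative -/
def Bf (g : Fin 3 → Fin 3 → ℝ) (h k : V3) : ℝ := ∑ i, ∑ j, g i j * (h i * k j + k i * h j)

/-- `q` with coefficients -/
def QR (q : ℝ → V3 → ℝ) (c0 c1 c2 : ℝ) (b d : V3) (g : Fin 3 → Fin 3 → ℝ) : Prop :=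
  ∀ z x, q z x = c0 + c1 * z + c2 * z ^ 2 + ∑ i, (b i + d i * z) * x i +
    ∑ i, ∑ j, g i j * (x i * x j)

section alg
variable {b d : V3} {g : Fin 3 → Fin 3 → ℝ}

theorem Gf_shift (z : ℝ) (x k h : V3) : Gf b d g z (x + k) h = Gf b d g z x h + Bf g k h := by
  simp only [Gf, Bf, Fin.sum_univ_three, Pi.add_apply]; ring

theorem Bf_smul (s : ℝ) (h k : V3) : Bf g (s • h) k = s * Bf g h k := by
  simp only [Bf, Fin.sum_univ_three, Pi.smul_apply, smul_eq_mul]; ring

/-- linear combination of three vectors -/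
def lc (U : V3) (e : Fin 3 → V3) : V3 := U 0 • e 0 + U 1 • e 1 + U 2 • e 2

theorem dt_lc (U : V3) (e : Fin 3 → V3) (x : V3) :
    dt (lc U e) x = U 0 * dt (e 0) x + U 1 * dt (e 1) x + U 2 * dt (e 2) x := by
  simp only [dt, lc, Pi.add_apply, Pi.smul_apply, smul_eq_mul]; ring

theorem Gf_lc (z : ℝ) (x : V3) (U : V3) (e : Fin 3 → V3) :
    Gf b d g z x (lc U e) =
      U 0 * Gf b d g z x (e 0) + U 1 * Gf b d g z x (e 1) + U 2 * Gf b d g z x (e 2) := by
  simp only [Gf, lc, Fin.sum_univ_three, Pi.add_apply, Pi.smul_apply, smul_eq_mul]; ring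

theorem Bf_lc (k : V3) (U : V3) (e : Fin 3 → V3) :
    Bf g k (lc U e) = U 0 * Bf g k (e 0) + U 1 * Bf g k (e 1) + U 2 * Bf g k (e 2) := by
  simp only [Bf, lc, Fin.sum_univ_three, Pi.add_apply, Pi.smul_apply, smul_eq_mul]; ring

theorem Bf_lc_left (k : V3) (U : V3) (e : Fin 3 → V3) :
    Bf g (lc U e) k = U 0 * Bf g (e 0) k + U 1 * Bf g (e 1) k + U 2 * Bf g (e 2) k := by
  simp only [Bf, lc, Fin.sum_univ_three, Pi.add_apply, Pi.smul_apply, smul_eq_mul]; ring

theorem q_diff {q : ℝ → V3 → ℝ} {c0 c1 c2 : ℝ} (hq : QR q c0 c1 c2 b d g) (z : ℝ) (x h : V3)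
    (τ : ℝ) : q z (x + τ • h) - q z x = τ * Gf b d g z (x + (τ / 2) • h) h := by
  rw [hq, hq]
  simp only [Gf, Fin.sum_univ_three, Pi.add_apply, Pi.smul_apply, smul_eq_mul]; ring

/-- the derivative along a line is affine in the height -/
theorem Gf_aff (y : Ln4) (h : V3) (u v s : ℝ) :
    Gf b d g ((1 - s) * u + s * v) (y.pos ((1 - s) * u + s * v)) h =
      (1 - s) * Gf b d g u (y.pos u) h + s * Gf b d g v (y.pos v) h := by
  simp only [Gf, Fin.sum_univ_three, Ln4.pos]; ring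

/-- `q` along a line is quadratic in the height -/
theorem q_lag {q : ℝ → V3 → ℝ} {c0 c1 c2 : ℝ} (hq : QR q c0 c1 c2 b d g) (t : Ln4)
    (z0 ρ s : ℝ) : q (z0 + s * ρ) (t.pos (z0 + s * ρ)) =
      (2 * s - 1) * (s - 1) * q z0 (t.pos z0) +
      4 * (s * (1 - s)) * q (z0 + ρ / 2) (t.pos (z0 + ρ / 2)) +
      s * (2 * s - 1) * q (z0 + ρ) (t.pos (z0 + ρ)) := by
  rw [hq, hq, hq, hq]
  simp only [Fin.sum_univ_three, Ln4.pos]; ring

end alg

theorem dt_aff (e : V3) (t y : Ln4) (u v s : ℝ) :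
    dt e (t.pos ((1 - s) * u + s * v) - y.pos ((1 - s) * u + s * v)) =
      (1 - s) * dt e (t.pos u - y.pos u) + s * dt e (t.pos v - y.pos v) := by
  simp only [dt, Pi.sub_apply, Ln4.pos]; ring

/-! ### frames -/

/-- rotated frame -/
def fr (U : Fin 3 → V3) (e : Fin 3 → V3) : Fin 3 → V3 := fun i => lc (U i) e

theorem Ortho.e00 {e : Fin 3 → V3} (h : Ortho e) : dt (e 0) (e 0) = 1 := by simpa using h 0 0
theorem Ortho.e11 {e : Fin 3 → V3} (h : Ortho e) : dt (e 1) (e 1) = 1 := by simpa using h 1 1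
theorem Ortho.e22 {e : Fin 3 → V3} (h : Ortho e) : dt (e 2) (e 2) = 1 := by simpa using h 2 2

theorem dt_lc_right (U : V3) (e : Fin 3 → V3) (x : V3) :
    dt x (lc U e) = U 0 * dt x (e 0) + U 1 * dt x (e 1) + U 2 * dt x (e 2) := by
  simp only [dt, lc, Pi.add_apply, Pi.smul_apply, smul_eq_mul]; ring

theorem fr_ortho {U e : Fin 3 → V3} (hU : Ortho U) (he : Ortho e) : Ortho (fr U e) := by
  intro i j
  have h00 := he 0 0
  have h01 := he 0 1
  have h02 := he 0 2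
  have h10 := he 1 0
  have h11 := he 1 1
  have h12 := he 1 2
  have h20 := he 2 0
  have h21 := he 2 1
  have h22 := he 2 2
  simp only [Fin.isValue, reduceIte, zero_ne_one, one_ne_zero, if_false,
    (by decide : (0:Fin 3) ≠ 2), (by decide : (2:Fin 3) ≠ 0), (by decide : (1:Fin 3) ≠ 2),
    (by decide : (2:Fin 3) ≠ 1)] at h00 h01 h02 h10 h11 h12 h20 h21 h22
  have := hU i j
  unfold fr
  rw [dt_lc, dt_lc_right, dt_lc_right, dt_lc_right, h00, h01, h02, h10, h11, h12, h20, h21, h22,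
    ← this]
  simp only [dt]; ring

/-- inverse rotation -/
theorem fr_inv {U e : Fin 3 → V3} (hU : Ortho U) (k : V3) (j : Fin 3) :
    dt (e j) k = U 0 j * dt (fr U e 0) k + U 1 j * dt (fr U e 1) k + U 2 j * dt (fr U e 2) k := by
  unfold fr
  rw [dt_lc, dt_lc, dt_lc]
  have h0 := hU.col j 0
  have h1 := hU.col j 1
  have h2 := hU.col j 2
  have : U 0 j * (U 0 0 * dt (e 0) k + U 0 1 * dt (e 1) k + U 0 2 * dt (e 2) k) +
      U 1 j * (U 1 0 * dt (e 0) k + U 1 1 * dt (e 1) k + U 1 2 * dt (e 2) k) +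
      U 2 j * (U 2 0 * dt (e 0) k + U 2 1 * dt (e 1) k + U 2 2 * dt (e 2) k) =
      (U 0 j * U 0 0 + U 1 j * U 1 0 + U 2 j * U 2 0) * dt (e 0) k +
      (U 0 j * U 0 1 + U 1 j * U 1 1 + U 2 j * U 2 1) * dt (e 1) k +
      (U 0 j * U 0 2 + U 1 j * U 1 2 + U 2 j * U 2 2) * dt (e 2) k := by ring
  rw [this, h0, h1, h2]
  fin_cases j <;> simp

/-- expansion in an orthonormal frame, vector form -/
theorem expand_lc {e : Fin 3 → V3} (h : Ortho e) (k : V3) :
    k = lc (fun j => dt (e j) k) e := by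
  funext j
  rw [h.expand k j]
  simp only [lc, Pi.add_apply, Pi.smul_apply, smul_eq_mul]

/-- the entries of an orthonormal matrix are at most `1` -/
theorem entry_le {U : Fin 3 → V3} (hU : Ortho U) (i j : Fin 3) : |U i j| ≤ 1 := by
  have h := hU i i
  simp only [dt, if_true] at h
  rw [abs_le_one_iff_mul_self_le_one]
  have h0 := mul_self_nonneg (U i 0)
  have h1 := mul_self_nonneg (U i 1)
  have h2 := mul_self_nonneg (U i 2)
  fin_cases j <;> simp only [Fin.zero_eta, Fin.mk_one, Fin.reduceFinMk] <;> nlinarith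

/-- Parseval -/
theorem parseval {U : Fin 3 → V3} (hU : Ortho U) (k : V3) :
    dt (U 0) k ^ 2 + dt (U 1) k ^ 2 + dt (U 2) k ^ 2 = dt k k := by
  have h00 := hU.col 0 0
  have h01 := hU.col 0 1
  have h02 := hU.col 0 2
  have h11 := hU.col 1 1
  have h12 := hU.col 1 2
  have h22 := hU.col 2 2
  simp only [Fin.isValue, reduceIte, zero_ne_one, one_ne_zero, if_false,
    (by decide : (0:Fin 3) ≠ 2), (by decide : (1:Fin 3) ≠ 2)] at h00 h01 h02 h11 h12 h22
  have : dt (U 0) k ^ 2 + dt (U 1) k ^ 2 + dt (U 2) k ^ 2 =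
      (U 0 0 * U 0 0 + U 1 0 * U 1 0 + U 2 0 * U 2 0) * (k 0 * k 0) +
      (U 0 1 * U 0 1 + U 1 1 * U 1 1 + U 2 1 * U 2 1) * (k 1 * k 1) +
      (U 0 2 * U 0 2 + U 1 2 * U 1 2 + U 2 2 * U 2 2) * (k 2 * k 2) +
      2 * (U 0 0 * U 0 1 + U 1 0 * U 1 1 + U 2 0 * U 2 1) * (k 0 * k 1) +
      2 * (U 0 0 * U 0 2 + U 1 0 * U 1 2 + U 2 0 * U 2 2) * (k 0 * k 2) +
      2 * (U 0 1 * U 0 2 + U 1 1 * U 1 2 + U 2 1 * U 2 2) * (k 1 * k 2) := by
    simp only [dt]; ring
  rw [this, h00, h01, h02, h11, h12, h22]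
  simp only [dt]; ring

theorem dt_le_of {U : Fin 3 → V3} (hU : Ortho U) {k : V3} {m : ℝ} (hm : 0 ≤ m)
    (h : dt k k ≤ m ^ 2) (i : Fin 3) : |dt (U i) k| ≤ m := by
  apply abs_le_of_sq_le_sq _ hm
  have := parseval hU k
  have h0 := sq_nonneg (dt (U 0) k)
  have h1 := sq_nonneg (dt (U 1) k)
  have h2 := sq_nonneg (dt (U 2) k)
  fin_cases i <;> simp only [Fin.zero_eta, Fin.mk_one, Fin.reduceFinMk] <;> linarith

/-- orthonormal completion -/
theorem exists_frame (u : V3) (hu : dt u u = 1) : ∃ U : Fin 3 → V3, Ortho U ∧ U 0 = u := by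
  -- the case of a non-negative last coordinate
  have key : ∀ v : V3, dt v v = 1 → 0 ≤ v 2 → ∃ f g : V3, dt v f = 0 ∧ dt v g = 0 ∧ dt f g = 0 ∧
      dt f f = 1 ∧ dt g g = 1 := by
    intro v hv h2
    have hp : (1 + v 2) ≠ 0 := by positivity
    refine ⟨![1 - v 0 ^ 2 / (1 + v 2), -(v 0 * v 1) / (1 + v 2), -v 0],
      ![-(v 0 * v 1) / (1 + v 2), 1 - v 1 ^ 2 / (1 + v 2), -v 1], ?_, ?_, ?_, ?_, ?_⟩ <;>
    simp only [dt, Matrix.cons_val_zero, Matrix.cons_val_one, Matrix.cons_val] at hv ⊢ <;>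
    field_simp <;>
    [linear_combination (-(v 0)) * hv; linear_combination (-(v 1)) * hv;
     linear_combination (v 0 * v 1) * hv; linear_combination (v 0 ^ 2) * hv;
     linear_combination (v 1 ^ 2) * hv]
  have fin : ∀ f g : V3, dt u f = 0 → dt u g = 0 → dt f g = 0 → dt f f = 1 → dt g g = 1 →
      ∃ U : Fin 3 → V3, Ortho U ∧ U 0 = u := by
    intro f g h1 h2 h3 h4 h5
    refine ⟨![u, f, g], ?_, rfl⟩
    intro i j
    have h1' : dt f u = 0 := by rw [dt_comm]; exact h1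
    have h2' : dt g u = 0 := by rw [dt_comm]; exact h2
    have h3' : dt g f = 0 := by rw [dt_comm]; exact h3
    fin_cases i <;> fin_cases j <;> simp [hu, h1, h2, h3, h4, h5, h1', h2', h3']
  rcases le_total 0 (u 2) with h | h
  · obtain ⟨f, g, h1, h2, h3, h4, h5⟩ := key u hu h
    exact fin f g h1 h2 h3 h4 h5
  · have hn : dt (-u) (-u) = 1 := by
      rw [← hu]; simp only [dt, Pi.neg_apply]; ring
    obtain ⟨f, g, h1, h2, h3, h4, h5⟩ := key (-u) hn (by simpa using h)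
    have e1 : dt u f = 0 := by
      have : dt (-u) f = - dt u f := by simp only [dt, Pi.neg_apply]; ring
      linarith
    have e2 : dt u g = 0 := by
      have : dt (-u) g = - dt u g := by simp only [dt, Pi.neg_apply]; ring
      linarith
    exact fin f g e1 e2 h3 h4 h5

/-- direction close to a point of the curve -/
theorem grad_dir {U : Fin 3 → V3} (hU : Ortho U) {P E : V3} {m : ℝ} (hm : 0 < m)
    (hP : P = m • U 0) (hE : dt E E ≤ (m / 64) ^ 2) :
    (63 / 64 * m ≤ dt (U 0) (P + E) ∧ dt (U 0) (P + E) ≤ 65 / 64 * m) ∧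
    |dt (U 1) (P + E)| ≤ m / 64 ∧ |dt (U 2) (P + E)| ≤ m / 64 := by
  have hm' : 0 ≤ m / 64 := by positivity
  have h0 := abs_le.1 (dt_le_of hU hm' hE 0)
  have h1 := dt_le_of hU hm' hE 1
  have h2 := dt_le_of hU hm' hE 2
  have e0 : dt (U 0) (U 0) = 1 := by simpa using hU 0 0
  have e1 : dt (U 1) (U 0) = 0 := by simpa using hU 1 0
  have e2 : dt (U 2) (U 0) = 0 := by simpa using hU 2 0
  rw [dt_add, dt_add, dt_add, hP, dt_smul, dt_smul, dt_smul, e0, e1, e2]
  refine ⟨⟨by linarith [h0.1], by linarith [h0.2]⟩, ?_, ?_⟩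
  · simpa using h1
  · simpa using h2

theorem cauchy (x y : V3) : dt x y ^ 2 ≤ dt x x * dt y y := by
  have : dt x x * dt y y - dt x y ^ 2 = (x 0 * y 1 - x 1 * y 0) ^ 2 + (x 0 * y 2 - x 2 * y 0) ^ 2 +
      (x 1 * y 2 - x 2 * y 1) ^ 2 := by simp only [dt]; ring
  have h1 := sq_nonneg (x 0 * y 1 - x 1 * y 0)
  have h2 := sq_nonneg (x 0 * y 2 - x 2 * y 0)
  have h3 := sq_nonneg (x 1 * y 2 - x 2 * y 1)
  linarith

theorem dt_nonneg (x : V3) : 0 ≤ dt x x := by
  simp only [dt]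
  have := mul_self_nonneg (x 0)
  have := mul_self_nonneg (x 1)
  have := mul_self_nonneg (x 2)
  linarith

/-- convexity of the square of the length -/
theorem dt_conv (P Q : V3) {s : ℝ} (hs : 0 ≤ s) (hs' : s ≤ 1) :
    dt ((1 - s) • P + s • Q) ((1 - s) • P + s • Q) ≤ max (dt P P) (dt Q Q) := by
  have h1 : dt ((1 - s) • P + s • Q) ((1 - s) • P + s • Q) =
      (1 - s) * dt P P + s * dt Q Q - s * (1 - s) * dt (P - Q) (P - Q) := by
    simp only [dt, Pi.add_apply, Pi.smul_apply, smul_eq_mul, Pi.sub_apply]; ring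
  have h2 : 0 ≤ dt (P - Q) (P - Q) := by
    simp only [dt]; nlinarith [mul_self_nonneg ((P - Q) 0), mul_self_nonneg ((P - Q) 1),
      mul_self_nonneg ((P - Q) 2)]
  have h3 : 0 ≤ s * (1 - s) * dt (P - Q) (P - Q) :=
    mul_nonneg (mul_nonneg hs (by linarith)) h2
  have h4 : (1 - s) * dt P P ≤ (1 - s) * max (dt P P) (dt Q Q) :=
    mul_le_mul_of_nonneg_left (le_max_left _ _) (by linarith)
  have h5 : s * dt Q Q ≤ s * max (dt P P) (dt Q Q) :=
    mul_le_mul_of_nonneg_left (le_max_right _ _) hs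
  rw [h1]; linarith

/-- the affine curve -/
def Pc (P0 P1 : V3) (s : ℝ) : V3 := (1 - s) • P0 + s • P1

/-- an affine curve of length at least `1/2` somewhere: away from one bad point it is long and
almost constant on short intervals -/
theorem curve (P0 P1 : V3) {lam s0 : ℝ} (hl : 0 < lam) (hs0 : 0 ≤ s0) (hs0' : s0 ≤ 1)
    (h : 1 / 4 ≤ dt (Pc P0 P1 s0) (Pc P0 P1 s0)) :
    ∃ sb : ℝ, ∀ s, 0 ≤ s → s ≤ 1 → 2 * lam ≤ |s - sb| → ∃ m : ℝ, lam / 2 ≤ m ∧
      m ^ 2 = dt (Pc P0 P1 s) (Pc P0 P1 s) ∧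
      ∀ s', s ≤ s' → s' - s ≤ lam / 128 →
        dt (Pc P0 P1 s' - Pc P0 P1 s) (Pc P0 P1 s' - Pc P0 P1 s) ≤ (m / 64) ^ 2 := by
  set G : ℝ := max (dt P0 P0) (dt P1 P1) with hG
  have hG4 : 1 / 4 ≤ G := h.trans (dt_conv P0 P1 hs0 hs0')
  have hGp : 0 < G := by linarith
  set V : V3 := P1 - P0 with hV
  have hVV : 0 ≤ dt V V := dt_nonneg V
  have hV4 : dt V V ≤ 4 * G := by
    have h1 : dt V V + dt (P1 + P0) (P1 + P0) = 2 * dt P1 P1 + 2 * dt P0 P0 := by
      rw [hV]; simp only [dt, Pi.add_apply, Pi.sub_apply]; ring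
    have h2 := dt_nonneg (P1 + P0)
    have h3 : dt P0 P0 ≤ G := le_max_left _ _
    have h4 : dt P1 P1 ≤ G := le_max_right _ _
    linarith
  -- lower bound away from a bad point
  have key : ∃ sb : ℝ, ∀ s, 0 ≤ s → s ≤ 1 → 2 * lam ≤ |s - sb| →
      lam ^ 2 * G ≤ dt (Pc P0 P1 s) (Pc P0 P1 s) := by
    by_cases hc : dt V V ≤ G / 4
    · refine ⟨0, fun s hs hs' hsl => ?_⟩
      rw [sub_zero, abs_of_nonneg hs] at hsl
      have hl2 : lam ≤ 1 / 2 := by linarith
      -- choose the longer end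
      have main : ∀ (Q : V3) (r : ℝ), dt Q Q = G → |r| ≤ 1 → Pc P0 P1 s = Q + r • V →
          G / 4 ≤ dt (Pc P0 P1 s) (Pc P0 P1 s) := by
        intro Q r hQ hr hP
        have h1 := cauchy Q V
        have h2 := cauchy Q (Pc P0 P1 s)
        have h3 : dt Q (Pc P0 P1 s) = G + r * dt Q V := by rw [hP, dt_add, dt_smul, hQ]
        have h4 : |dt Q V| ≤ G / 2 := by
          apply abs_le_of_sq_le_sq _ (by positivity)
          calc dt Q V ^ 2 ≤ dt Q Q * dt V V := h1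
            _ ≤ G * (G / 4) := by rw [hQ]; exact mul_le_mul_of_nonneg_left hc hGp.le
            _ = (G / 2) ^ 2 := by ring
        have h5 : |r * dt Q V| ≤ G / 2 := by
          rw [abs_mul]
          calc |r| * |dt Q V| ≤ 1 * (G / 2) := mul_le_mul hr h4 (abs_nonneg _) zero_le_one
            _ = G / 2 := by ring
        have h6 : G / 2 ≤ dt Q (Pc P0 P1 s) := by rw [h3]; linarith [(abs_le.1 h5).1]
        have h7 : (G / 2) ^ 2 ≤ G * dt (Pc P0 P1 s) (Pc P0 P1 s) := by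
          calc (G / 2) ^ 2 ≤ dt Q (Pc P0 P1 s) ^ 2 := by
                apply pow_le_pow_left₀ (by positivity) h6
            _ ≤ _ := by rw [hQ] at h2; exact h2
        by_contra hcon
        push Not at hcon
        have : G * dt (Pc P0 P1 s) (Pc P0 P1 s) < G * (G / 4) := mul_lt_mul_of_pos_left hcon hGp
        nlinarith
      have hge : G / 4 ≤ dt (Pc P0 P1 s) (Pc P0 P1 s) := by
        rcases le_total (dt P0 P0) (dt P1 P1) with hm | hm
        · have hQ : dt P1 P1 = G := by rw [hG, max_eq_right hm]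
          refine main P1 (-(1 - s)) hQ ?_ ?_
          · rw [abs_neg, abs_of_nonneg (by linarith)]; linarith
          · rw [hV]; unfold Pc; funext i
            simp only [Pi.add_apply, Pi.smul_apply, smul_eq_mul, Pi.sub_apply]; ring
        · have hQ : dt P0 P0 = G := by rw [hG, max_eq_left hm]
          refine main P0 s hQ ?_ ?_
          · rw [abs_of_nonneg hs]; exact hs'
          · rw [hV]; unfold Pc; funext i
            simp only [Pi.add_apply, Pi.smul_apply, smul_eq_mul, Pi.sub_apply]; ring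
      have : lam ^ 2 ≤ 1 / 4 := by nlinarith
      nlinarith
    · push Not at hc
      have hVp : 0 < dt V V := lt_trans (by positivity) hc
      refine ⟨-(dt V P0 / dt V V), fun s hs hs' hsl => ?_⟩
      have h1 := cauchy V (Pc P0 P1 s)
      have h2 : dt V (Pc P0 P1 s) = (s - -(dt V P0 / dt V V)) * dt V V := by
        have : Pc P0 P1 s = P0 + s • V := by
          rw [hV]; unfold Pc; funext i
          simp only [Pi.add_apply, Pi.smul_apply, smul_eq_mul, Pi.sub_apply]; ring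
        rw [this, dt_add, dt_smul]
        field_simp
        ring
      rw [h2] at h1
      have h3 : (2 * lam) ^ 2 ≤ (s - -(dt V P0 / dt V V)) ^ 2 := by
        rw [← sq_abs (s - -(dt V P0 / dt V V))]
        exact pow_le_pow_left₀ (by positivity) hsl 2
      have h4 : (s - -(dt V P0 / dt V V)) ^ 2 * dt V V ≤ dt (Pc P0 P1 s) (Pc P0 P1 s) := by
        have : dt V V * ((s - -(dt V P0 / dt V V)) ^ 2 * dt V V) ≤
            dt V V * dt (Pc P0 P1 s) (Pc P0 P1 s) := by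
          calc dt V V * ((s - -(dt V P0 / dt V V)) ^ 2 * dt V V)
              = ((s - -(dt V P0 / dt V V)) * dt V V) ^ 2 := by ring
            _ ≤ _ := h1
        exact le_of_mul_le_mul_left this hVp
      calc lam ^ 2 * G = (2 * lam) ^ 2 * (G / 4) := by ring
        _ ≤ (s - -(dt V P0 / dt V V)) ^ 2 * dt V V :=
            mul_le_mul h3 hc.le (by positivity) (sq_nonneg _)
        _ ≤ _ := h4
  obtain ⟨sb, hsb⟩ := key
  refine ⟨sb, fun s hs hs' hsl => ?_⟩
  have hk := hsb s hs hs' hsl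
  have hn := dt_nonneg (Pc P0 P1 s)
  refine ⟨Real.sqrt (dt (Pc P0 P1 s) (Pc P0 P1 s)), ?_, Real.sq_sqrt hn, ?_⟩
  · apply Real.le_sqrt_of_sq_le
    calc (lam / 2) ^ 2 = lam ^ 2 * (1 / 4) := by ring
      _ ≤ lam ^ 2 * G := mul_le_mul_of_nonneg_left hG4 (sq_nonneg _)
      _ ≤ _ := hk
  · intro s' h1 h2
    rw [div_pow, Real.sq_sqrt hn]
    have e1 : Pc P0 P1 s' - Pc P0 P1 s = (s' - s) • V := by
      rw [hV]; unfold Pc; funext i
      simp only [Pi.add_apply, Pi.smul_apply, smul_eq_mul, Pi.sub_apply]; ring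
    rw [e1, dt_smul, smul_dt]
    have h3 : (s' - s) ^ 2 ≤ (lam / 128) ^ 2 := pow_le_pow_left₀ (by linarith) h2 2
    calc (s' - s) * ((s' - s) * dt V V) = (s' - s) ^ 2 * dt V V := by ring
      _ ≤ (lam / 128) ^ 2 * (4 * G) := mul_le_mul h3 hV4 hVV (sq_nonneg _)
      _ = lam ^ 2 * G / 64 ^ 2 := by ring
      _ ≤ _ := by gcongr

/-- frame with first vector in a given direction -/
theorem frame3 {P : V3} {m : ℝ} (hm : 0 < m) (hP : m ^ 2 = dt P P) :
    ∃ U : Fin 3 → V3, Ortho U ∧ P = m • U 0 := by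
  have h1 : dt (m⁻¹ • P) (m⁻¹ • P) = 1 := by
    rw [dt_smul, smul_dt, ← hP]; field_simp
  obtain ⟨U, hU, h0⟩ := exists_frame _ h1
  refine ⟨U, hU, ?_⟩
  rw [h0, smul_smul, mul_inv_cancel₀ hm.ne', one_smul]

/-- frame in the plane of the coordinates `0, 2` -/
theorem frame2 {P : V3} {m : ℝ} (hm : 0 < m) (hP : m ^ 2 = dt P P) (h1 : P 1 = 0) :
    ∃ U : Fin 3 → V3, Ortho U ∧ P = m • U 0 ∧ U 0 1 = 0 ∧ U 2 1 = 0 ∧ U 1 = ![0, 1, 0] := by
  have h2 : P 0 * P 0 + P 2 * P 2 = m ^ 2 := by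
    rw [hP]; simp only [dt, h1]; ring
  refine ⟨![![m⁻¹ * P 0, 0, m⁻¹ * P 2], ![0, 1, 0], ![-(m⁻¹ * P 2), 0, m⁻¹ * P 0]], ?_, ?_, rfl, rfl,
    rfl⟩
  · have h3 : m⁻¹ * P 0 * (m⁻¹ * P 0) + m⁻¹ * P 2 * (m⁻¹ * P 2) = 1 := by
      have : m⁻¹ * P 0 * (m⁻¹ * P 0) + m⁻¹ * P 2 * (m⁻¹ * P 2) =
        m⁻¹ ^ 2 * (P 0 * P 0 + P 2 * P 2) := by ring
      rw [this, h2]; field_simp
    generalize m⁻¹ * P 0 = α at h3 ⊢
    generalize m⁻¹ * P 2 = β at h3 ⊢
    have h4 : β * β + α * α = 1 := by linarith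
    intro i j
    fin_cases i <;> fin_cases j <;> simp [dt, h3, h4, mul_comm]
  · funext i
    fin_cases i
    · show P 0 = m * (m⁻¹ * P 0)
      field_simp
    · show P 1 = m * 0
      rw [h1, mul_zero]
    · show P 2 = m * (m⁻¹ * P 2)
      field_simp

end

end Crest.Agent.R136.UB861
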