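import Crest.Agent.R136.UB0_861

/-!
# R136 (S0187): (UB) for the class C*, part 1: one sheet (helper861)

`ub_one`: the lines of a C*-sheet over a short cell `[z0, z0 + ρ]` which are close to a line `y` of
the sheet are, over every short window `[z', z' + ρ']` of the long cell `[Z0, Z0 + L ρ]` which is
away from one bad height `zb`, contained in ONE C*-sheet with comparable parameters.
-/

set_option autoImplicit false
set_option linter.unusedVariables false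

namespace Crest.Agent.R136.UB861

open Sh605 Finset

noncomputable section

section basic
variable {e : Fin 3 → V3} {c : Ln4} {w : V3} {q : ℝ → V3 → ℝ} {a z0 ρ r0 : ℝ}
variable {c0 c1 c2 : ℝ} {b d : V3} {g : Fin 3 → Fin 3 → ℝ}

theorem a_pos (S : ShN0 e c w q a z0 ρ r0) (hr : 0 < r0) : 0 < a := hr.trans_le S.r0_le
theorem w2_pos (S : ShN0 e c w q a z0 ρ r0) (hr : 0 < r0) : 0 < w 2 := (a_pos S hr).trans_le S.a_le
theorem w1_pos (S : ShN0 e c w q a z0 ρ r0) (hr : 0 < r0) : 0 < w 1 := (w2_pos S hr).trans_le S.w_le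
theorem w0_pos (S : ShN0 e c w q a z0 ρ r0) (hr : 0 < r0) : 0 < w 0 := by
  rw [S.w0_eq]; exact w2_pos S hr

theorem wi_pos (S : ShN0 e c w q a z0 ρ r0) (hr : 0 < r0) (i : Fin 3) : 0 < w i := by
  fin_cases i
  · exact w0_pos S hr
  · exact w1_pos S hr
  · exact w2_pos S hr

theorem wi_ge (S : ShN0 e c w q a z0 ρ r0) (i : Fin 3) : w 2 ≤ w i := by
  fin_cases i
  · exact S.w0_eq.ge
  · exact S.w_le
  · exact le_rfl

/-- points of the doubled box -/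
theorem inK_shift (he : Ortho e) {z : ℝ} {x : V3} (hx : ∀ j, |dt (e j) (x - c.pos z)| ≤ 3 / 2 * w j)
    (hw : ∀ j, 0 < w j) (i : Fin 3) {s : ℝ} (hs : |s| ≤ w i / 2) :
    InK e c (dbl3 w) z (x + s • e i) := by
  intro j
  have e1 : x + s • e i - c.pos z = (x - c.pos z) + s • e i := by
    funext k; simp only [Pi.add_apply, Pi.sub_apply]; ring
  rw [e1, dt_add, dt_smul, he j i]
  show _ ≤ 2 * w j
  by_cases hji : j = i
  · subst hji
    rw [if_pos rfl, mul_one]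
    calc |dt (e j) (x - c.pos z) + s| ≤ |dt (e j) (x - c.pos z)| + |s| := abs_add_le _ _
      _ ≤ 2 * w j := by linarith [hx j]
  · rw [if_neg hji, mul_zero, add_zero]
    linarith [hx j, hw j]

/-- the difference quotient along `e i` over a chord centred at `x` -/
theorem dq_mid (S : ShN0 e c w q a z0 ρ r0) (hr : 0 < r0) (hq : QR q c0 c1 c2 b d g) {z : ℝ}
    {x : V3} (hx : ∀ j, |dt (e j) (x - c.pos z)| ≤ 3 / 2 * w j) (i : Fin 3) :
    ∃ x1 : V3, InK e c (dbl3 w) z x1 ∧ InK e c (dbl3 w) z (x1 + w i • e i) ∧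
      q z (x1 + w i • e i) - q z x1 = w i * Gf b d g z x (e i) := by
  have hw := wi_pos S hr
  refine ⟨x + (-(w i / 2)) • e i, ?_, ?_, ?_⟩
  · apply inK_shift S.ortho hx hw
    rw [abs_neg, abs_of_pos (by linarith [hw i])]
  · have : x + (-(w i / 2)) • e i + w i • e i = x + (w i / 2) • e i := by
      funext k; simp only [Pi.add_apply, Pi.smul_apply, smul_eq_mul]; ring
    rw [this]
    apply inK_shift S.ortho hx hw
    rw [abs_of_pos (by linarith [hw i])]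
  · rw [q_diff hq]
    have : x + (-(w i / 2)) • e i + (w i / 2) • e i = x := by
      funext k; simp only [Pi.add_apply, Pi.smul_apply, smul_eq_mul]; ring
    rw [this]

theorem grad0 (S : ShN0 e c w q a z0 ρ r0) (hr : 0 < r0) (hq : QR q c0 c1 c2 b d g) {z : ℝ}
    (hz : z0 ≤ z) (hz' : z ≤ z0 + ρ)
    {x : V3} (hx : ∀ j, |dt (e j) (x - c.pos z)| ≤ 3 / 2 * w j) :
    1 / 2 ≤ Gf b d g z x (e 0) ∧ Gf b d g z x (e 0) ≤ 2 := by
  obtain ⟨x1, h1, h2, h3⟩ := dq_mid S hr hq hx 0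
  have hw := wi_pos S hr 0
  have := S.st0 z hz hz' x1 (w 0) hw.le h1 h2
  rw [h3] at this
  constructor
  · by_contra hcon
    push Not at hcon
    nlinarith [this.1]
  · by_contra hcon
    push Not at hcon
    nlinarith [this.2]

theorem grad1 (S : ShN0 e c w q a z0 ρ r0) (hr : 0 < r0) (hq : QR q c0 c1 c2 b d g) {z : ℝ}
    (hz : z0 ≤ z) (hz' : z ≤ z0 + ρ)
    {x : V3} (hx : ∀ j, |dt (e j) (x - c.pos z)| ≤ 3 / 2 * w j) :
    |Gf b d g z x (e 1)| ≤ w 2 / w 1 := by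
  obtain ⟨x1, h1, h2, h3⟩ := dq_mid S hr hq hx 1
  have hw := wi_pos S hr 1
  have := S.st1 z hz hz' x1 (w 1) hw.le h1 h2
  rw [h3, abs_mul, abs_of_pos hw, mul_comm (w 2 / w 1)] at this
  exact le_of_mul_le_mul_left this hw

theorem grad2 (S : ShN0 e c w q a z0 ρ r0) (hr : 0 < r0) (hq : QR q c0 c1 c2 b d g) {z : ℝ}
    (hz : z0 ≤ z) (hz' : z ≤ z0 + ρ)
    {x : V3} (hx : ∀ j, |dt (e j) (x - c.pos z)| ≤ 3 / 2 * w j) :
    |Gf b d g z x (e 2)| ≤ 1 := by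
  obtain ⟨x1, h1, h2, h3⟩ := dq_mid S hr hq hx 2
  have hw := wi_pos S hr 2
  have := S.st2 z hz hz' x1 (w 2) hw.le h1 h2
  rw [h3, abs_mul, abs_of_pos hw] at this
  have h4 : w 2 * |Gf b d g z x (e 2)| ≤ w 2 * 1 := by linarith
  exact le_of_mul_le_mul_left h4 hw

/-- second derivatives -/
theorem hess (S : ShN0 e c w q a z0 ρ r0) (hr : 0 < r0) (hρ : 0 ≤ ρ) (hq : QR q c0 c1 c2 b d g)
    {y : Ln4} (hy : InSheet y e c w q a z0 ρ) (j i : Fin 3) :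
    |Bf g (e j) (e i)| * (w j * w i) ≤ 4 * w 2 := by
  have hw := wi_pos S hr
  have hyK := (hy z0 le_rfl (by linarith)).1
  set x := y.pos z0 with hx
  have hx1 : ∀ k, |dt (e k) (x - c.pos z0)| ≤ 3 / 2 * w k := fun k => by
    have := hyK k
    have := hw k
    linarith
  have hx2 : ∀ k, |dt (e k) (x + (w j / 2) • e j - c.pos z0)| ≤ 3 / 2 * w k := fun k => by
    have e1 : x + (w j / 2) • e j - c.pos z0 = (x - c.pos z0) + (w j / 2) • e j := by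
      funext k; simp only [Pi.add_apply, Pi.sub_apply]; ring
    rw [e1, dt_add, dt_smul, S.ortho k j]
    by_cases hkj : k = j
    · subst hkj
      rw [if_pos rfl, mul_one]
      calc |dt (e k) (x - c.pos z0) + w k / 2| ≤ |dt (e k) (x - c.pos z0)| + |w k / 2| :=
            abs_add_le _ _
        _ ≤ 3 / 2 * w k := by
            have h7 : |w k / 2| = w k / 2 := abs_of_pos (by linarith [hw k])
            rw [h7]
            have := hyK k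
            linarith
    · rw [if_neg hkj, mul_zero, add_zero]
      have := hyK k
      have := hw k
      linarith
  have hsh : Gf b d g z0 (x + (w j / 2) • e j) (e i) - Gf b d g z0 x (e i) =
      w j / 2 * Bf g (e j) (e i) := by
    rw [Gf_shift, Bf_smul]; ring
  have fin : ∀ K : ℝ, |w j / 2 * Bf g (e j) (e i)| ≤ K → 2 * K * w i ≤ 4 * w 2 →
      |Bf g (e j) (e i)| * (w j * w i) ≤ 4 * w 2 := by
    intro K h1 h2
    rw [abs_mul, abs_of_pos (by linarith [hw j])] at h1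
    have h3 : w j / 2 * |Bf g (e j) (e i)| * w i ≤ K * w i :=
      mul_le_mul_of_nonneg_right h1 (hw i).le
    nlinarith
  have hz1 : z0 ≤ z0 := le_rfl
  have hz2 : z0 ≤ z0 + ρ := by linarith
  fin_cases i
  · apply fin (3 / 2)
    · rw [← hsh]
      have h1 := grad0 S hr hq hz1 hz2 hx1
      have h2 := grad0 S hr hq hz1 hz2 hx2
      rw [abs_le]
      constructor <;> simp only [Fin.zero_eta] <;> linarith [h1.1, h1.2, h2.1, h2.2]
    · show 2 * (3 / 2) * w 0 ≤ 4 * w 2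
      rw [S.w0_eq]
      have := hw 2
      linarith
  · apply fin (2 * (w 2 / w 1))
    · rw [← hsh]
      have h1 := abs_le.1 (grad1 S hr hq hz1 hz2 hx1)
      have h2 := abs_le.1 (grad1 S hr hq hz1 hz2 hx2)
      rw [abs_le]
      constructor <;> simp only [Fin.mk_one] <;> linarith [h1.1, h1.2, h2.1, h2.2]
    · show 2 * (2 * (w 2 / w 1)) * w 1 ≤ 4 * w 2
      have h8 : 2 * (2 * (w 2 / w 1)) * w 1 = 4 * w 2 := by
        have := (hw 1).ne'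
        field_simp
        ring
      exact h8.le
  · apply fin 2
    · rw [← hsh]
      have h1 := abs_le.1 (grad2 S hr hq hz1 hz2 hx1)
      have h2 := abs_le.1 (grad2 S hr hq hz1 hz2 hx2)
      rw [abs_le]
      constructor <;> simp only [Fin.reduceFinMk] <;> linarith [h1.1, h1.2, h2.1, h2.2]
    · show 2 * 2 * w 2 ≤ 4 * w 2
      linarith

/-- second derivative of `q` on the new box -/
theorem bf_bound (he : Ortho e) (hw : ∀ i, 0 < w i)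
    (hH : ∀ j i, |Bf g (e j) (e i)| * (w j * w i) ≤ 4 * w 2) {k : V3} {al : V3}
    (hal : ∀ j, 0 ≤ al j) (hk : ∀ j, |dt (e j) k| ≤ al j * w j) (i : Fin 3) :
    |Bf g k (e i)| * w i ≤ 4 * w 2 * (al 0 + al 1 + al 2) := by
  have hexp : Bf g k (e i) = dt (e 0) k * Bf g (e 0) (e i) + dt (e 1) k * Bf g (e 1) (e i) +
      dt (e 2) k * Bf g (e 2) (e i) := by
    conv_lhs => rw [expand_lc he k]
    rw [Bf_lc_left]
  have one : ∀ j, |dt (e j) k * Bf g (e j) (e i)| * w i ≤ 4 * w 2 * al j := by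
    intro j
    rw [abs_mul]
    calc |dt (e j) k| * |Bf g (e j) (e i)| * w i ≤ (al j * w j) * |Bf g (e j) (e i)| * w i := by
          have := hk j
          have := abs_nonneg (Bf g (e j) (e i))
          have := (hw i).le
          gcongr
      _ = al j * (|Bf g (e j) (e i)| * (w j * w i)) := by ring
      _ ≤ al j * (4 * w 2) := mul_le_mul_of_nonneg_left (hH j i) (hal j)
      _ = 4 * w 2 * al j := by ring
  rw [hexp]
  have h1 : |dt (e 0) k * Bf g (e 0) (e i) + dt (e 1) k * Bf g (e 1) (e i) +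
      dt (e 2) k * Bf g (e 2) (e i)| ≤ |dt (e 0) k * Bf g (e 0) (e i)| +
      |dt (e 1) k * Bf g (e 1) (e i)| + |dt (e 2) k * Bf g (e 2) (e i)| := by
    refine (abs_add_le _ _).trans ?_
    linarith [abs_add_le (dt (e 0) k * Bf g (e 0) (e i)) (dt (e 1) k * Bf g (e 1) (e i))]
  have h2 := mul_le_mul_of_nonneg_right h1 (hw i).le
  have h3 := one 0
  have h4 := one 1
  have h5 := one 2
  linarith

end basic

/-! ### extension to the long cell -/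

section ext
variable {e : Fin 3 → V3} {c : Ln4} {w : V3} {q : ℝ → V3 → ℝ} {a z0 ρ r0 : ℝ}
variable {c0 c1 c2 : ℝ} {b d : V3} {g : Fin 3 → Fin 3 → ℝ}

/-- parameter of a point of the long cell -/
theorem s_bound (hρ : 0 < ρ) {L Z0 z : ℝ} (hL : 1 ≤ L) (h0 : Z0 ≤ z0) (h1 : z0 + ρ ≤ Z0 + L * ρ)
    (hz : Z0 ≤ z) (hz' : z ≤ Z0 + L * ρ) :
    ∃ s : ℝ, z = (1 - s) * z0 + s * (z0 + ρ) ∧ z = z0 + s * ρ ∧ |s| ≤ L ∧ |1 - s| ≤ L := by
  refine ⟨(z - z0) / ρ, ?_, ?_, ?_, ?_⟩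
  · field_simp; ring
  · field_simp; ring
  · rw [abs_le]
    constructor
    · rw [le_div_iff₀ hρ]; nlinarith
    · rw [div_le_iff₀ hρ]; nlinarith
  · have e1 : 1 - (z - z0) / ρ = (z0 + ρ - z) / ρ := by field_simp; ring
    rw [e1, abs_le]
    constructor
    · rw [le_div_iff₀ hρ]; nlinarith
    · rw [div_le_iff₀ hρ]; nlinarith

theorem aff_bound {L u v B s : ℝ} (hs : |s| ≤ L) (hs' : |1 - s| ≤ L) (hu : |u| ≤ B) (hv : |v| ≤ B) :
    |(1 - s) * u + s * v| ≤ 2 * L * B := by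
  have hL : 0 ≤ L := (abs_nonneg _).trans hs
  calc |(1 - s) * u + s * v| ≤ |1 - s| * |u| + |s| * |v| := by
        rw [← abs_mul, ← abs_mul]; exact abs_add_le _ _
    _ ≤ L * B + L * B := add_le_add (mul_le_mul hs' hu (abs_nonneg _) hL)
        (mul_le_mul hs hv (abs_nonneg _) hL)
    _ = 2 * L * B := by ring

/-- `q` along the lines of the sheet, over the long cell -/
theorem q_ext (hq : QR q c0 c1 c2 b d g) (hρ : 0 < ρ) {t : Ln4}
    (ht : InSheet t e c w q a z0 ρ) {L s : ℝ} (hL : 1 ≤ L) (hs : |s| ≤ L) (hs' : |1 - s| ≤ L) :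
    |q (z0 + s * ρ) (t.pos (z0 + s * ρ))| ≤ 8 * L ^ 2 * a := by
  have h0 := (ht z0 le_rfl (by linarith)).2
  have h1 := (ht (z0 + ρ / 2) (by linarith) (by linarith)).2
  have h2 := (ht (z0 + ρ) (by linarith) le_rfl).2
  have ha : 0 ≤ a := (abs_nonneg _).trans h0
  have hLp : 0 ≤ L := by linarith
  rw [q_lag hq]
  have hA : |2 * s - 1| ≤ 2 * L := by
    have : 2 * s - 1 = s - (1 - s) := by ring
    rw [this]
    exact (abs_sub _ _).trans (by linarith)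
  have hB : |s - 1| ≤ L := by rw [abs_sub_comm]; exact hs'
  have t1 : |(2 * s - 1) * (s - 1) * q z0 (t.pos z0)| ≤ 2 * L * L * a := by
    rw [abs_mul, abs_mul]
    exact mul_le_mul (mul_le_mul hA hB (abs_nonneg _) (by linarith)) h0 (abs_nonneg _)
      (by positivity)
  have t2 : |4 * (s * (1 - s)) * q (z0 + ρ / 2) (t.pos (z0 + ρ / 2))| ≤ 4 * (L * L) * a := by
    rw [abs_mul, abs_mul, abs_mul, abs_of_pos (by norm_num : (0:ℝ) < 4)]
    exact mul_le_mul (mul_le_mul le_rfl (mul_le_mul hs hs' (abs_nonneg _) hLp)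
      (by positivity) (by norm_num)) h1 (abs_nonneg _) (by positivity)
  have t3 : |s * (2 * s - 1) * q (z0 + ρ) (t.pos (z0 + ρ))| ≤ L * (2 * L) * a := by
    rw [abs_mul, abs_mul]
    exact mul_le_mul (mul_le_mul hs hA (abs_nonneg _) hLp) h2 (abs_nonneg _) (by positivity)
  refine (abs_add_le _ _).trans ?_
  have := abs_add_le ((2 * s - 1) * (s - 1) * q z0 (t.pos z0))
    (4 * (s * (1 - s)) * q (z0 + ρ / 2) (t.pos (z0 + ρ / 2)))
  nlinarith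

end ext

/-! ### new sheets -/

/-- the flat box -/
theorem box_sheet {e : Fin 3 → V3} (he : Ortho e) (y : Ln4) {w' : V3} {z' ρ' r0 : ℝ}
    (hp : 0 < w' 2) (hw0 : w' 0 = w' 2) (hw : w' 2 ≤ w' 1) (hr0 : r0 ≤ w' 2) :
    ShN0 e y w' (fun z x => dt (e 0) (x - y.pos z)) (w' 2) z' ρ' r0 := by
  have hs : ∀ (i : Fin 3) (z : ℝ) (x : V3) (τ : ℝ),
      dt (e 0) (x + τ • e i - y.pos z) - dt (e 0) (x - y.pos z) = τ * dt (e 0) (e i) := by
    intro i z x τ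
    simp only [dt, Pi.add_apply, Pi.sub_apply, Pi.smul_apply, smul_eq_mul]; ring
  have h00 : dt (e 0) (e 0) = 1 := by simpa using he 0 0
  have h01 : dt (e 0) (e 1) = 0 := by simpa using he 0 1
  have h02 : dt (e 0) (e 2) = 0 := by simpa using he 0 2
  refine ⟨he, ?_, hw0, le_rfl, hw, hr0, ?_, ?_, ?_⟩
  · refine ⟨-(dt (e 0) y.p), -(dt (e 0) y.v), 0, e 0, 0, 0, fun z x => ?_⟩
    simp only [dt, Pi.sub_apply, Ln4.pos, Fin.sum_univ_three, Pi.zero_apply]; ring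
  · intro z _ _ x τ hτ _ _
    simp only [hs, h00]
    constructor <;> linarith
  · intro z _ _ x τ hτ _ _
    simp only [hs, h01]
    rw [mul_zero, abs_zero]
    have : 0 < w' 1 := hp.trans_le hw
    positivity
  · intro z _ _ x τ hτ _ _
    simp only [hs, h02]
    rw [mul_zero, abs_zero]
    exact hτ

/-- the curved sheet -/
theorem flat_sheet {e' : Fin 3 → V3} (he' : Ortho e') {q : ℝ → V3 → ℝ} {c0 c1 c2 : ℝ} {b d : V3}
    {g : Fin 3 → Fin 3 → ℝ} (hq : QR q c0 c1 c2 b d g) (y : Ln4) {w' : V3} {a' m z' ρ' r0 : ℝ}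
    (hm : 0 < m) (hp : 0 < w' 2) (hw0 : w' 0 = w' 2) (ha : a' ≤ w' 2) (hw : w' 2 ≤ w' 1)
    (hr0 : r0 ≤ a')
    (g0 : ∀ z, z' ≤ z → z ≤ z' + ρ' → 63 / 64 * m ≤ Gf b d g z (y.pos z) (e' 0) ∧
      Gf b d g z (y.pos z) (e' 0) ≤ 65 / 64 * m)
    (g1 : ∀ z, z' ≤ z → z ≤ z' + ρ' → |Gf b d g z (y.pos z) (e' 1)| ≤ m / 2 * (w' 2 / w' 1))
    (g2 : ∀ z, z' ≤ z → z ≤ z' + ρ' → |Gf b d g z (y.pos z) (e' 2)| ≤ m / 64)
    (b0 : ∀ k : V3, (∀ i, |dt (e' i) k| ≤ 2 * w' i) → |Bf g k (e' 0)| ≤ m / 4)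
    (b1 : ∀ k : V3, (∀ i, |dt (e' i) k| ≤ 2 * w' i) → |Bf g k (e' 1)| ≤ m / 4 * (w' 2 / w' 1))
    (b2 : ∀ k : V3, (∀ i, |dt (e' i) k| ≤ 2 * w' i) → |Bf g k (e' 2)| ≤ m / 4) :
    ShN0 e' y w' (fun z x => q z x / m) a' z' ρ' r0 := by
  have mid : ∀ (i : Fin 3) (z : ℝ) (x : V3) (τ : ℝ), InK e' y (dbl3 w') z x →
      InK e' y (dbl3 w') z (x + τ • e' i) →
      ∃ k : V3, (∀ j, |dt (e' j) k| ≤ 2 * w' j) ∧
        q z (x + τ • e' i) / m - q z x / m =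
          τ * ((Gf b d g z (y.pos z) (e' i) + Bf g k (e' i)) / m) := by
    intro i z x τ h1 h2
    refine ⟨x + (τ / 2) • e' i - y.pos z, ?_, ?_⟩
    · intro j
      have h3 := abs_le.1 (h1 j)
      have h4 := abs_le.1 (h2 j)
      have e1 : dt (e' j) (x + (τ / 2) • e' i - y.pos z) =
          (dt (e' j) (x - y.pos z) + dt (e' j) (x + τ • e' i - y.pos z)) / 2 := by
        simp only [dt, Pi.add_apply, Pi.sub_apply, Pi.smul_apply, smul_eq_mul]; ring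
      have h5 : dbl3 w' j = 2 * w' j := rfl
      rw [h5] at h3 h4
      rw [e1, abs_le]
      constructor <;> linarith [h3.1, h3.2, h4.1, h4.2]
    · have e2 : x + (τ / 2) • e' i = y.pos z + (x + (τ / 2) • e' i - y.pos z) := by
        funext k; simp only [Pi.add_apply, Pi.sub_apply]; ring
      rw [← sub_div, q_diff hq, ← Gf_shift, ← e2, mul_div_assoc]
  have hr : 0 < w' 2 / w' 1 := div_pos hp (hp.trans_le hw)
  refine ⟨he', ?_, hw0, ha, hw, hr0, ?_, ?_, ?_⟩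
  · refine ⟨c0 / m, c1 / m, c2 / m, fun i => b i / m, fun i => d i / m, fun i j => g i j / m,
      fun z x => ?_⟩
    show q z x / m = _
    rw [hq]
    simp only [Fin.sum_univ_three]
    field_simp
  · intro z hz hz' x τ hτ h1 h2
    obtain ⟨k, hk, h3⟩ := mid 0 z x τ h1 h2
    simp only [h3]
    have h4 := abs_le.1 (b0 k hk)
    have h5 := g0 z hz hz'
    have h6 : 1 / 2 ≤ (Gf b d g z (y.pos z) (e' 0) + Bf g k (e' 0)) / m := by
      rw [le_div_iff₀ hm]; linarith [h4.1, h5.1]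
    have h7 : (Gf b d g z (y.pos z) (e' 0) + Bf g k (e' 0)) / m ≤ 2 := by
      rw [div_le_iff₀ hm]; linarith [h4.2, h5.2]
    constructor
    · calc τ / 2 = τ * (1 / 2) := by ring
        _ ≤ _ := mul_le_mul_of_nonneg_left h6 hτ
    · calc _ ≤ τ * 2 := mul_le_mul_of_nonneg_left h7 hτ
        _ = 2 * τ := by ring
  · intro z hz hz' x τ hτ h1 h2
    obtain ⟨k, hk, h3⟩ := mid 1 z x τ h1 h2
    simp only [h3]
    rw [abs_mul, abs_of_nonneg hτ, abs_div, abs_of_pos hm, mul_comm (w' 2 / w' 1)]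
    apply mul_le_mul_of_nonneg_left _ hτ
    rw [div_le_iff₀ hm]
    refine (abs_add_le _ _).trans ?_
    have h4 := g1 z hz hz'
    have h5 := b1 k hk
    nlinarith
  · intro z hz hz' x τ hτ h1 h2
    obtain ⟨k, hk, h3⟩ := mid 2 z x τ h1 h2
    simp only [h3]
    rw [abs_mul, abs_of_nonneg hτ, abs_div, abs_of_pos hm]
    have h6 : |Gf b d g z (y.pos z) (e' 2) + Bf g k (e' 2)| / m ≤ 1 := by
      rw [div_le_iff₀ hm]
      refine (abs_add_le _ _).trans ?_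
      linarith [g2 z hz hz', b2 k hk]
    calc _ ≤ τ * 1 := mul_le_mul_of_nonneg_left h6 hτ
      _ = τ := mul_one τ

/-! ### one sheet -/

/-- projection to the coordinates `0, 2` -/
def pr (P : V3) : V3 := ![P 0, 0, P 2]

theorem pr_Pc (P0 P1 : V3) (s : ℝ) : Pc (pr P0) (pr P1) s = pr (Pc P0 P1 s) := by
  funext i
  fin_cases i
  · rfl
  · show (1 - s) * 0 + s * 0 = 0
    ring
  · rfl

theorem dt_pr (U P : V3) (h : U 1 = 0) : dt U (pr P) = dt U P := by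
  simp only [dt, pr, h, Matrix.cons_val_zero, Matrix.cons_val_one, Matrix.cons_val]
  ring

/-- the conclusion of `ub_one` for one window -/
def Concl (e : Fin 3 → V3) (c : Ln4) (w : V3) (q : ℝ → V3 → ℝ) (a z0 ρ r0 Λ : ℝ) (y : Ln4)
    (z' ρ' : ℝ) : Prop :=
  ∃ (e' : Fin 3 → V3) (c' : Ln4) (w' : V3) (q' : ℝ → V3 → ℝ) (a' : ℝ),
    ShN0 e' c' w' q' a' z' ρ' r0 ∧
    (∀ t : Ln4, InSheet t e c w q a z0 ρ →
      (∀ i, |dt (e i) (t.pos z0 - y.pos z0)| ≤ kap Λ * w i) →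
      (∀ i, |dt (e i) (t.pos (z0 + ρ) - y.pos (z0 + ρ))| ≤ kap Λ * w i) →
      InSheet t e' c' w' q' a' z' ρ') ∧
    a ≤ a' ∧ a' ≤ BB Λ * a ∧ w' 2 ≤ w 2 ∧ w 2 ≤ BB Λ * w' 2 ∧ w' 1 ≤ w 1 ∧ w 1 ≤ BB Λ * w' 1

section one
variable {e : Fin 3 → V3} {c : Ln4} {w : V3} {q : ℝ → V3 → ℝ} {a z0 ρ r0 : ℝ}
variable {c0 c1 c2 : ℝ} {b d : V3} {g : Fin 3 → Fin 3 → ℝ}

/-- the thick case: the box itself -/
theorem concl_box (S : ShN0 e c w q a z0 ρ r0) (hr : 0 < r0) (hρ : 0 < ρ) {L Z0 Λ : ℝ}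
    (hL : 1 ≤ L) (hΛ : 1 ≤ Λ) (hLΛ : L ≤ Λ) (h0 : Z0 ≤ z0) (h1 : z0 + ρ ≤ Z0 + L * ρ) {y : Ln4}
    {v2 v1 : ℝ} (hv2 : 0 < v2) (hv2' : v2 ≤ w 2) (hv1' : v1 ≤ w 1) (hB2 : w 2 ≤ BB Λ * v2)
    (hB1 : w 1 ≤ BB Λ * v1) (hc2 : 2 * Λ * (kap Λ * w 2) ≤ v2) (hc1 : 2 * Λ * (kap Λ * w 1) ≤ v1)
    (hth : v2 ≤ BB Λ * a) (hBB : 1 ≤ BB Λ)
    {z' ρ' : ℝ} (hz' : Z0 ≤ z') (hz'' : z' + ρ' ≤ Z0 + L * ρ) :
    Concl e c w q a z0 ρ r0 Λ y z' ρ' := by
  have ha := a_pos S hr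
  set W : ℝ := max v2 a with hW
  have hWv : v2 ≤ W := le_max_left _ _
  have hWa : a ≤ W := le_max_right _ _
  have hWw : W ≤ w 2 := max_le hv2' S.a_le
  refine ⟨e, y, ![W, max v1 W, W], fun z x => dt (e 0) (x - y.pos z), W, ?_, ?_, hWa, ?_, hWw, ?_,
    ?_, ?_⟩
  · exact box_sheet (w' := ![W, max v1 W, W]) S.ortho y (hv2.trans_le hWv) rfl (le_max_right _ _)
      (S.r0_le.trans hWa)
  · intro t ht hc hc' z hz hz2
    obtain ⟨s, hs1, hs2, hs3, hs4⟩ := s_bound hρ hL h0 h1 (hz'.trans hz) (hz2.trans hz'')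
    have hb : ∀ i, |dt (e i) (t.pos z - y.pos z)| ≤ 2 * Λ * (kap Λ * w i) := by
      intro i
      rw [hs1, dt_aff]
      exact aff_bound (hs3.trans hLΛ) (hs4.trans hLΛ) (hc i) (hc' i)
    have e0 := (hb 0)
    rw [S.w0_eq] at e0
    constructor
    · intro i
      fin_cases i
      · exact e0.trans (hc2.trans hWv)
      · exact (hb 1).trans (hc1.trans (le_max_left _ _))
      · exact (hb 2).trans (hc2.trans hWv)
    · exact e0.trans (hc2.trans hWv)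
  · exact max_le hth (by nlinarith)
  · calc w 2 ≤ BB Λ * v2 := hB2
      _ ≤ BB Λ * W := mul_le_mul_of_nonneg_left hWv (by linarith)
  · exact max_le hv1' (hWw.trans S.w_le)
  · calc w 1 ≤ BB Λ * v1 := hB1
      _ ≤ BB Λ * max v1 W := mul_le_mul_of_nonneg_left (le_max_left _ _) (by linarith)

/-- the thin case: the rotated sheet -/
theorem concl_flat (S : ShN0 e c w q a z0 ρ r0) (hr : 0 < r0) (hρ : 0 < ρ) {L lam Z0 Λ : ℝ}
    (hL : 1 ≤ L) (hΛ : 1 ≤ Λ) (hLΛ : L ≤ Λ) (hlam : lam * Λ = L) (hlam0 : 0 < lam)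
    (h0 : Z0 ≤ z0) (h1 : z0 + ρ ≤ Z0 + L * ρ)
    {y : Ln4} (hq : QR q c0 c1 c2 b d g) {e' : Fin 3 → V3} (he' : Ortho e') {m : ℝ}
    (hm : lam / 2 ≤ m)
    {v2 v1 : ℝ} (hv2 : 0 < v2) (hv12 : v2 ≤ v1) (hv2' : v2 ≤ w 2) (hv1' : v1 ≤ w 1)
    (hB2 : w 2 ≤ BB Λ * v2)
    (hB1 : w 1 ≤ BB Λ * v1) (hth : 16 * Λ ^ 2 * a ≤ v2) (hBB : 16 * Λ ^ 2 ≤ BB Λ)
    (hcont : ∀ k : V3, (∀ i, |dt (e i) k| ≤ 2 * Λ * (kap Λ * w i)) →
      |dt (e' 0) k| ≤ v2 ∧ |dt (e' 1) k| ≤ v1 ∧ |dt (e' 2) k| ≤ v2)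
    {z' ρ' : ℝ} (hz' : Z0 ≤ z') (hz'' : z' + ρ' ≤ Z0 + L * ρ)
    (g0 : ∀ z, z' ≤ z → z ≤ z' + ρ' → 63 / 64 * m ≤ Gf b d g z (y.pos z) (e' 0) ∧
      Gf b d g z (y.pos z) (e' 0) ≤ 65 / 64 * m)
    (g1 : ∀ z, z' ≤ z → z ≤ z' + ρ' → |Gf b d g z (y.pos z) (e' 1)| ≤ m / 2 * (v2 / v1))
    (g2 : ∀ z, z' ≤ z → z ≤ z' + ρ' → |Gf b d g z (y.pos z) (e' 2)| ≤ m / 64)
    (hb : ∀ k : V3, |dt (e' 0) k| ≤ 2 * v2 → |dt (e' 1) k| ≤ 2 * v1 → |dt (e' 2) k| ≤ 2 * v2 →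
      |Bf g k (e' 0)| ≤ m / 4 ∧ |Bf g k (e' 1)| ≤ m / 4 * (v2 / v1) ∧ |Bf g k (e' 2)| ≤ m / 4) :
    Concl e c w q a z0 ρ r0 Λ y z' ρ' := by
  have ha := a_pos S hr
  have hmp : 0 < m := lt_of_lt_of_le (by positivity) hm
  have haa : a ≤ 16 * Λ ^ 2 * a := by
    have : 1 ≤ Λ ^ 2 := one_le_pow₀ hΛ
    nlinarith
  refine ⟨e', y, ![v2, v1, v2], fun z x => q z x / m, 16 * Λ ^ 2 * a, ?_, ?_, haa, ?_, hv2', hB2,
    hv1', hB1⟩
  · exact flat_sheet (w' := ![v2, v1, v2]) he' hq y hmp hv2 rfl hth hv12 (S.r0_le.trans haa) g0 g1 g2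
      (fun k hk => (hb k (hk 0) (hk 1) (hk 2)).1) (fun k hk => (hb k (hk 0) (hk 1) (hk 2)).2.1)
      (fun k hk => (hb k (hk 0) (hk 1) (hk 2)).2.2)
  · intro t ht hc hc' z hz hz2
    obtain ⟨s, hs1, hs2, hs3, hs4⟩ := s_bound hρ hL h0 h1 (hz'.trans hz) (hz2.trans hz'')
    have hbb : ∀ i, |dt (e i) (t.pos z - y.pos z)| ≤ 2 * Λ * (kap Λ * w i) := by
      intro i
      rw [hs1, dt_aff]
      exact aff_bound (hs3.trans hLΛ) (hs4.trans hLΛ) (hc i) (hc' i)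
    obtain ⟨k0, k1, k2⟩ := hcont _ hbb
    constructor
    · intro i
      fin_cases i
      · exact k0
      · exact k1
      · exact k2
    · have h2 := q_ext hq hρ ht hL hs3 hs4
      rw [← hs2] at h2
      show |q z (t.pos z) / m| ≤ _
      rw [abs_div, abs_of_pos hmp, div_le_iff₀ hmp]
      refine h2.trans ?_
      have h4 : (8 : ℝ) * L ^ 2 ≤ 16 * Λ ^ 2 * m := by
        have h5 : L * L ≤ L * Λ := mul_le_mul_of_nonneg_left hLΛ (by linarith)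
        have h6 : L * Λ = lam * Λ ^ 2 := by rw [← hlam]; ring
        have h7 : lam / 2 * Λ ^ 2 ≤ m * Λ ^ 2 := mul_le_mul_of_nonneg_right hm (sq_nonneg _)
        nlinarith
      calc 8 * L ^ 2 * a ≤ 16 * Λ ^ 2 * m * a := mul_le_mul_of_nonneg_right h4 ha.le
        _ = 16 * Λ ^ 2 * a * m := by ring
  · exact mul_le_mul_of_nonneg_right hBB ha.le

/-- Hessian in the cigar case -/
theorem cigar_bf (he : Ortho e) (hw : ∀ i, 0 < w i) (hw0 : w 0 = w 2)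
    (hH : ∀ j i, |Bf g (e j) (e i)| * (w j * w i) ≤ 4 * w 2) {U : Fin 3 → V3} (hU : Ortho U)
    (hU01 : U 0 1 = 0) (hU21 : U 2 1 = 0) (hU1 : U 1 = ![0, 1, 0]) {m1 m2 T : ℝ} (h1 : 0 ≤ m1)
    (h2 : 0 ≤ m2) (hT : 32 * m2 + 8 * m1 ≤ T) {k : V3} (hk0 : |dt (fr U e 0) k| ≤ 2 * (m2 * w 2))
    (hk1 : |dt (fr U e 1) k| ≤ 2 * (m1 * w 1)) (hk2 : |dt (fr U e 2) k| ≤ 2 * (m2 * w 2)) :
    |Bf g k (fr U e 0)| ≤ 2 * T ∧ |Bf g k (fr U e 1)| ≤ T * (w 2 / w 1) ∧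
      |Bf g k (fr U e 2)| ≤ 2 * T := by
  have hw2 := hw 2
  have hw1 := hw 1
  have hU10 : U 1 0 = 0 := by rw [hU1]; rfl
  have hU11 : U 1 1 = 1 := by rw [hU1]; rfl
  have hU12 : U 1 2 = 0 := by rw [hU1]; rfl
  have hcol : ∀ j, U 1 j = 0 → |dt (e j) k| ≤ 4 * m2 * w 2 := by
    intro j hj
    rw [fr_inv (e := e) hU k j, hj, zero_mul, add_zero]
    refine (abs_add_le _ _).trans ?_
    have t1 : |U 0 j * dt (fr U e 0) k| ≤ 2 * (m2 * w 2) := by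
      rw [abs_mul]
      calc _ ≤ 1 * |dt (fr U e 0) k| :=
            mul_le_mul_of_nonneg_right (entry_le hU 0 j) (abs_nonneg _)
        _ ≤ _ := by rw [one_mul]; exact hk0
    have t2 : |U 2 j * dt (fr U e 2) k| ≤ 2 * (m2 * w 2) := by
      rw [abs_mul]
      calc _ ≤ 1 * |dt (fr U e 2) k| :=
            mul_le_mul_of_nonneg_right (entry_le hU 2 j) (abs_nonneg _)
        _ ≤ _ := by rw [one_mul]; exact hk2
    linarith
  have hk : ∀ j, |dt (e j) k| ≤ (![4 * m2, 2 * m1, 4 * m2] : V3) j * w j := by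
    intro j
    fin_cases j
    · show _ ≤ 4 * m2 * w 0
      rw [hw0]; exact hcol 0 hU10
    · show _ ≤ 2 * m1 * w 1
      have : dt (e 1) k = dt (fr U e 1) k := by
        unfold fr; rw [dt_lc, hU10, hU11, hU12]; ring
      show |dt (e 1) k| ≤ _
      rw [this]; linarith
    · exact hcol 2 hU12
  have hal : ∀ j, 0 ≤ (![4 * m2, 2 * m1, 4 * m2] : V3) j := by
    intro j
    fin_cases j
    · show 0 ≤ 4 * m2
      positivity
    · show 0 ≤ 2 * m1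
      positivity
    · show 0 ≤ 4 * m2
      positivity
  have hb := bf_bound he hw hH hal hk
  have hsum : 4 * w 2 * ((![4 * m2, 2 * m1, 4 * m2] : V3) 0 + (![4 * m2, 2 * m1, 4 * m2] : V3) 1 +
      (![4 * m2, 2 * m1, 4 * m2] : V3) 2) ≤ T * w 2 := by
    show 4 * w 2 * (4 * m2 + 2 * m1 + 4 * m2) ≤ T * w 2
    nlinarith
  have b0 : |Bf g k (e 0)| ≤ T := by
    have := (hb 0).trans hsum
    rw [hw0] at this
    exact le_of_mul_le_mul_right this hw2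
  have b2 : |Bf g k (e 2)| ≤ T := le_of_mul_le_mul_right ((hb 2).trans hsum) hw2
  have b1 : |Bf g k (e 1)| ≤ T * (w 2 / w 1) := by
    have := (hb 1).trans hsum
    rw [← le_div_iff₀ hw1] at this
    rw [← mul_div_assoc]; exact this
  have hrow : ∀ i, U i 1 = 0 → |Bf g k (fr U e i)| ≤ 2 * T := by
    intro i hi
    unfold fr
    rw [Bf_lc, hi, zero_mul, add_zero]
    refine (abs_add_le _ _).trans ?_
    have t1 : |U i 0 * Bf g k (e 0)| ≤ T := by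
      rw [abs_mul]
      calc _ ≤ 1 * |Bf g k (e 0)| :=
            mul_le_mul_of_nonneg_right (entry_le hU i 0) (abs_nonneg _)
        _ ≤ _ := by rw [one_mul]; exact b0
    have t2 : |U i 2 * Bf g k (e 2)| ≤ T := by
      rw [abs_mul]
      calc _ ≤ 1 * |Bf g k (e 2)| :=
            mul_le_mul_of_nonneg_right (entry_le hU i 2) (abs_nonneg _)
        _ ≤ _ := by rw [one_mul]; exact b2
    linarith
  refine ⟨hrow 0 hU01, ?_, hrow 2 hU21⟩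
  unfold fr
  rw [Bf_lc, hU10, hU11, hU12, zero_mul, zero_mul, zero_add, add_zero, one_mul]
  exact b1

/-- Hessian in the cube case -/
theorem cube_bf (he : Ortho e) (hw : ∀ i, 0 < w i) (hwge : ∀ i, w 2 ≤ w i)
    (hH : ∀ j i, |Bf g (e j) (e i)| * (w j * w i) ≤ 4 * w 2) {U : Fin 3 → V3} (hU : Ortho U)
    {m2 : ℝ} (h2 : 0 ≤ m2) {k : V3} (hk : ∀ i, |dt (fr U e i) k| ≤ 2 * (m2 * w 2)) (i : Fin 3) :
    |Bf g k (fr U e i)| ≤ 216 * m2 := by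
  have hw2 := hw 2
  have hcol : ∀ j, |dt (e j) k| ≤ 6 * m2 * w j := by
    intro j
    rw [fr_inv (e := e) hU k j]
    have t : ∀ l, |U l j * dt (fr U e l) k| ≤ 2 * (m2 * w 2) := by
      intro l
      rw [abs_mul]
      calc _ ≤ 1 * |dt (fr U e l) k| :=
            mul_le_mul_of_nonneg_right (entry_le hU l j) (abs_nonneg _)
        _ ≤ _ := by rw [one_mul]; exact hk l
    have h3 := abs_add_le (U 0 j * dt (fr U e 0) k + U 1 j * dt (fr U e 1) k)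
      (U 2 j * dt (fr U e 2) k)
    have h4 := abs_add_le (U 0 j * dt (fr U e 0) k) (U 1 j * dt (fr U e 1) k)
    have h5 : 6 * m2 * w 2 ≤ 6 * m2 * w j := mul_le_mul_of_nonneg_left (hwge j) (by positivity)
    have := t 0
    have := t 1
    have := t 2
    linarith
  have hb := bf_bound he hw hH (al := fun _ => 6 * m2) (fun _ => by positivity) hcol
  have b : ∀ i, |Bf g k (e i)| ≤ 72 * m2 := by
    intro i
    have h3 := hb i
    have h4 : 4 * w 2 * (6 * m2 + 6 * m2 + 6 * m2) ≤ 72 * m2 * w i := by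
      have := mul_le_mul_of_nonneg_left (hwge i) (by positivity : 0 ≤ 72 * m2)
      linarith
    exact le_of_mul_le_mul_right (h3.trans h4) (hw i)
  unfold fr
  rw [Bf_lc]
  have t : ∀ l, |U i l * Bf g k (e l)| ≤ 72 * m2 := by
    intro l
    rw [abs_mul]
    calc _ ≤ 1 * |Bf g k (e l)| :=
          mul_le_mul_of_nonneg_right (entry_le hU i l) (abs_nonneg _)
      _ ≤ _ := by rw [one_mul]; exact b l
  have h3 := abs_add_le (U i 0 * Bf g k (e 0) + U i 1 * Bf g k (e 1)) (U i 2 * Bf g k (e 2))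
  have h4 := abs_add_le (U i 0 * Bf g k (e 0)) (U i 1 * Bf g k (e 1))
  have := t 0
  have := t 1
  have := t 2
  linarith

/-- the constants -/
theorem consts {Λ : ℝ} (hΛ : 1 ≤ Λ) : 0 < kap Λ ∧ BB Λ * kap Λ = 1 ∧ 0 < BB Λ ∧ 1 ≤ BB Λ ∧
    16 * Λ ^ 2 ≤ BB Λ ∧ 15552 * (Λ ^ 2 * kap Λ) * Λ ≤ 1 / 8 ∧ Λ ^ 2 * kap Λ ≤ 1 / 100 ∧
    Λ * kap Λ ≤ Λ ^ 2 * kap Λ := by
  have hΛp : 0 < Λ := by linarith
  have hκp : 0 < kap Λ := by unfold kap; positivity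
  have hκ3 : kap Λ * Λ ^ 3 = 1 / 2 ^ 18 := by unfold kap; field_simp
  have hΛ2 : Λ ^ 2 ≤ Λ ^ 3 := pow_le_pow_right₀ hΛ (by norm_num)
  have hκ2 : kap Λ * Λ ^ 2 ≤ 1 / 2 ^ 18 := by
    rw [← hκ3]; exact mul_le_mul_of_nonneg_left hΛ2 hκp.le
  have h1 : 1 ≤ Λ ^ 2 := one_le_pow₀ hΛ
  have h16 : 16 * Λ ^ 2 ≤ BB Λ := by
    unfold BB
    nlinarith
  refine ⟨hκp, ?_, ?_, ?_, h16, ?_, ?_, ?_⟩
  · unfold kap BB; field_simp
  · unfold BB; positivity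
  · linarith
  · have : 15552 * (Λ ^ 2 * kap Λ) * Λ = 15552 * (kap Λ * Λ ^ 3) := by ring
    rw [this, hκ3]; norm_num
  · rw [mul_comm]; refine hκ2.trans (by norm_num)
  · apply mul_le_mul_of_nonneg_right _ hκp.le
    nlinarith

/-- the gradient curve of `y` -/
theorem grad_curve (S : ShN0 e c w q a z0 ρ r0) (hr : 0 < r0) (hρ : 0 < ρ)
    (hq : QR q c0 c1 c2 b d g) {L Z0 : ℝ} (hL : 1 ≤ L) (h0 : Z0 ≤ z0)
    (h1 : z0 + ρ ≤ Z0 + L * ρ) {y : Ln4} (hy : InSheet y e c w q a z0 ρ) :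
    ∃ P0 P1 : V3, (∀ z i, Gf b d g z (y.pos z) (e i) = Pc P0 P1 ((z - Z0) / (L * ρ)) i) ∧
      (0 ≤ (z0 - Z0) / (L * ρ) ∧ (z0 - Z0) / (L * ρ) ≤ 1) ∧
      1 / 2 ≤ Pc P0 P1 ((z0 - Z0) / (L * ρ)) 0 ∧
      (∀ z, Z0 ≤ z → z ≤ Z0 + L * ρ → |Gf b d g z (y.pos z) (e 1)| ≤ 2 * L * (w 2 / w 1)) := by
  have hℓp : 0 < L * ρ := by positivity
  have hw := wi_pos S hr
  have hPc : ∀ z i, Gf b d g z (y.pos z) (e i) =
      Pc (fun i => Gf b d g Z0 (y.pos Z0) (e i))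
        (fun i => Gf b d g (Z0 + L * ρ) (y.pos (Z0 + L * ρ)) (e i)) ((z - Z0) / (L * ρ)) i := by
    intro z i
    have e1 : z = (1 - (z - Z0) / (L * ρ)) * Z0 + ((z - Z0) / (L * ρ)) * (Z0 + L * ρ) := by
      field_simp; ring
    conv_lhs => rw [e1]
    rw [Gf_aff]
    rfl
  have hyx : ∀ z, z0 ≤ z → z ≤ z0 + ρ → ∀ j, |dt (e j) (y.pos z - c.pos z)| ≤ 3 / 2 * w j := by
    intro z hz hz' j
    have := (hy z hz hz').1 j
    have := hw j
    linarith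
  refine ⟨_, _, hPc, ⟨div_nonneg (by linarith) hℓp.le, by rw [div_le_iff₀ hℓp]; linarith⟩, ?_, ?_⟩
  · rw [← hPc]
    exact (grad0 S hr hq le_rfl (by linarith) (hyx z0 le_rfl (by linarith))).1
  · intro z hz hz'
    obtain ⟨s, hs1, hs2, hs3, hs4⟩ := s_bound hρ hL h0 h1 hz hz'
    rw [hs1, Gf_aff]
    exact aff_bound hs3 hs4 (grad1 S hr hq le_rfl (by linarith) (hyx z0 le_rfl (by linarith)))
      (grad1 S hr hq (by linarith) le_rfl (hyx (z0 + ρ) (by linarith) le_rfl))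

/-- the point `z'` in the parameter of the curve -/
theorem param {L Z0 ρ lam sb z' ρ' : ℝ} (hℓp : 0 < L * ρ) (hz' : Z0 ≤ z') (hρ' : 0 ≤ ρ')
    (hz'' : z' + ρ' ≤ Z0 + L * ρ) (hρl : ρ' ≤ lam * (L * ρ) / 128)
    (hzb : 2 * lam * (L * ρ) ≤ |z' - (Z0 + sb * (L * ρ))|) :
    0 ≤ (z' - Z0) / (L * ρ) ∧ (z' - Z0) / (L * ρ) ≤ 1 ∧ 2 * lam ≤ |(z' - Z0) / (L * ρ) - sb| ∧
    (∀ z, z' ≤ z → z ≤ z' + ρ' → (z' - Z0) / (L * ρ) ≤ (z - Z0) / (L * ρ) ∧
      (z - Z0) / (L * ρ) - (z' - Z0) / (L * ρ) ≤ lam / 128) := by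
  refine ⟨div_nonneg (by linarith) hℓp.le, by rw [div_le_iff₀ hℓp]; linarith, ?_, ?_⟩
  · have e1 : (z' - Z0) / (L * ρ) - sb = (z' - (Z0 + sb * (L * ρ))) / (L * ρ) := by
      rw [← sub_sub, sub_div _ (sb * (L * ρ)), mul_div_cancel_right₀ _ hℓp.ne']
    rw [e1, abs_div, abs_of_pos hℓp, le_div_iff₀ hℓp]
    exact hzb
  · intro z hz hz2
    refine ⟨by gcongr, ?_⟩
    rw [← sub_div, div_le_iff₀ hℓp]
    linarith

theorem Gf_fr {y : Ln4} {P0 P1 : V3} {Z0 ℓ : ℝ}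
    (hPc : ∀ z i, Gf b d g z (y.pos z) (e i) = Pc P0 P1 ((z - Z0) / ℓ) i) (U : Fin 3 → V3)
    (z : ℝ) (i : Fin 3) :
    Gf b d g z (y.pos z) (fr U e i) = dt (U i) (Pc P0 P1 ((z - Z0) / ℓ)) := by
  unfold fr
  rw [Gf_lc, hPc, hPc, hPc]
  rfl

/-- the cigar -/
theorem case_cigar (S : ShN0 e c w q a z0 ρ r0) (hr : 0 < r0) (hρ : 0 < ρ) {L lam Z0 Λ : ℝ}
    (hL : 1 ≤ L) (hl : 0 < lam) (hΛ : 1 ≤ Λ) (hLΛ : L ≤ Λ) (hlam : lam * Λ = L)
    (h0 : Z0 ≤ z0) (h1 : z0 + ρ ≤ Z0 + L * ρ)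
    {y : Ln4} (hy : InSheet y e c w q a z0 ρ) (hcig : 12 * Λ * w 2 ≤ w 1) :
    ∃ zb : ℝ, ∀ z' ρ' : ℝ, Z0 ≤ z' → 0 ≤ ρ' → z' + ρ' ≤ Z0 + L * ρ →
      ρ' ≤ lam * (L * ρ) / 128 → 2 * lam * (L * ρ) ≤ |z' - zb| →
      Concl e c w q a z0 ρ r0 Λ y z' ρ' := by
  obtain ⟨c0, c1, c2, b, d, g, hq'⟩ := S.isQ
  have hq : QR q c0 c1 c2 b d g := hq'
  clear hq'
  obtain ⟨hκp, hBκ, hBBp, hBB1, hBB16, hK1, hK2, hK3⟩ := consts hΛ
  obtain ⟨P0, P1, hPc, ⟨hs0, hs0'⟩, hg0, hg1⟩ := grad_curve S hr hρ hq hL h0 h1 hy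
  have hH := hess S hr hρ.le hq hy
  have ha := a_pos S hr
  have hw := wi_pos S hr
  have hw2 := hw 2
  have hw1 := hw 1
  have hΛp : 0 < Λ := by linarith
  have hℓp : 0 < L * ρ := by positivity
  have hmu1 : 0 < 2 * (Λ * kap Λ) := by positivity
  have hmu2 : 0 < 24 * (Λ ^ 2 * kap Λ) := by positivity
  have hv12 : 24 * (Λ ^ 2 * kap Λ) * w 2 ≤ 2 * (Λ * kap Λ) * w 1 := by
    have := mul_le_mul_of_nonneg_left hcig hmu1.le
    calc _ = 2 * (Λ * kap Λ) * (12 * Λ * w 2) := by ring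
      _ ≤ _ := this
  have hv2' : 24 * (Λ ^ 2 * kap Λ) * w 2 ≤ w 2 := by
    calc _ ≤ 1 * w 2 := mul_le_mul_of_nonneg_right (by linarith) hw2.le
      _ = w 2 := one_mul _
  have hv1' : 2 * (Λ * kap Λ) * w 1 ≤ w 1 := by
    calc _ ≤ 1 * w 1 := mul_le_mul_of_nonneg_right (by linarith) hw1.le
      _ = w 1 := one_mul _
  have hB2 : w 2 ≤ BB Λ * (24 * (Λ ^ 2 * kap Λ) * w 2) := by
    have e1 : BB Λ * (24 * (Λ ^ 2 * kap Λ) * w 2) = 24 * Λ ^ 2 * (BB Λ * kap Λ) * w 2 := by ring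
    rw [e1, hBκ, mul_one]
    have : 1 ≤ 24 * Λ ^ 2 := by nlinarith
    calc w 2 = 1 * w 2 := (one_mul _).symm
      _ ≤ _ := mul_le_mul_of_nonneg_right this hw2.le
  have hB1 : w 1 ≤ BB Λ * (2 * (Λ * kap Λ) * w 1) := by
    have e1 : BB Λ * (2 * (Λ * kap Λ) * w 1) = 2 * Λ * (BB Λ * kap Λ) * w 1 := by ring
    rw [e1, hBκ, mul_one]
    calc w 1 = 1 * w 1 := (one_mul _).symm
      _ ≤ _ := mul_le_mul_of_nonneg_right (by linarith) hw1.le
  have hrat : 24 * (Λ ^ 2 * kap Λ) * w 2 / (2 * (Λ * kap Λ) * w 1) = 12 * Λ * (w 2 / w 1) := by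
    have := hκp.ne'
    field_simp
    ring
  by_cases hth : 16 * Λ ^ 2 * a ≤ 24 * (Λ ^ 2 * kap Λ) * w 2
  · have hc4 : 1 / 4 ≤ dt (Pc (pr P0) (pr P1) ((z0 - Z0) / (L * ρ)))
        (Pc (pr P0) (pr P1) ((z0 - Z0) / (L * ρ))) := by
      rw [pr_Pc]
      generalize Pc P0 P1 ((z0 - Z0) / (L * ρ)) = P at hg0 ⊢
      have e2 : dt (pr P) (pr P) = P 0 ^ 2 + P 2 ^ 2 := by
        show P 0 * P 0 + 0 * 0 + P 2 * P 2 = _
        ring
      rw [e2]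
      have := sq_nonneg (P 2)
      nlinarith
    obtain ⟨sb, hsb⟩ := curve (pr P0) (pr P1) hl hs0 hs0' hc4
    refine ⟨Z0 + sb * (L * ρ), fun z' ρ' hz' hρ' hz'' hρl hzb => ?_⟩
    obtain ⟨hs, hs', hsl, hpar⟩ := param hℓp hz' hρ' hz'' hρl hzb
    obtain ⟨m, hm, hm2, hcl⟩ := hsb _ hs hs' hsl
    have hmp : 0 < m := lt_of_lt_of_le (by positivity) hm
    have hmΛ : 1 / 8 ≤ m / 4 * Λ := by
      have h3 : lam / 2 * Λ ≤ m * Λ := mul_le_mul_of_nonneg_right hm hΛp.le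
      linarith
    have hp1 : (Pc (pr P0) (pr P1) ((z' - Z0) / (L * ρ))) 1 = 0 := by rw [pr_Pc]; rfl
    obtain ⟨U, hU, hPU, hU01, hU21, hU1⟩ := frame2 hmp hm2 hp1
    have hGd : ∀ z, z' ≤ z → z ≤ z' + ρ' →
        ((63 / 64 * m ≤ dt (U 0) (Pc P0 P1 ((z - Z0) / (L * ρ))) ∧
          dt (U 0) (Pc P0 P1 ((z - Z0) / (L * ρ))) ≤ 65 / 64 * m) ∧
        |dt (U 2) (Pc P0 P1 ((z - Z0) / (L * ρ)))| ≤ m / 64) := by
      intro z hz hz2
      obtain ⟨hp2, hp3⟩ := hpar z hz hz2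
      have hE := hcl _ hp2 hp3
      have hgd := grad_dir hU hmp hPU hE
      rw [add_sub_cancel, pr_Pc, dt_pr _ _ hU01, dt_pr _ _ hU21] at hgd
      exact ⟨hgd.1, hgd.2.2⟩
    have hfr1 : fr U e 1 = e 1 := by
      unfold fr lc; rw [hU1]
      funext k
      simp
    refine concl_flat S hr hρ hL hΛ hLΛ hlam hl h0 h1 hq (fr_ortho hU S.ortho) hm
      (mul_pos hmu2 hw2) hv12 hv2' hv1' hB2 hB1 hth hBB16 ?_ hz' hz'' ?_ ?_ ?_ ?_
    · -- containment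
      intro k hk
      have k0 := hk 0
      have k1 := hk 1
      have k2 := hk 2
      rw [S.w0_eq] at k0
      have hsm : 2 * Λ * (kap Λ * w 2) + 2 * Λ * (kap Λ * w 2) ≤ 24 * (Λ ^ 2 * kap Λ) * w 2 := by
        have h3 : Λ * kap Λ * w 2 ≤ Λ ^ 2 * kap Λ * w 2 := mul_le_mul_of_nonneg_right hK3 hw2.le
        have h4 : 0 < Λ ^ 2 * kap Λ * w 2 := by positivity
        linarith
      have hrow : ∀ i, U i 1 = 0 → |dt (fr U e i) k| ≤ 24 * (Λ ^ 2 * kap Λ) * w 2 := by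
        intro i hi
        unfold fr
        rw [dt_lc, hi, zero_mul, add_zero]
        refine (abs_add_le _ _).trans (le_trans ?_ hsm)
        apply add_le_add
        · rw [abs_mul]
          calc _ ≤ 1 * |dt (e 0) k| := by
                apply mul_le_mul_of_nonneg_right (entry_le hU i 0) (abs_nonneg _)
            _ ≤ _ := by rw [one_mul]; exact k0
        · rw [abs_mul]
          calc _ ≤ 1 * |dt (e 2) k| := by
                apply mul_le_mul_of_nonneg_right (entry_le hU i 2) (abs_nonneg _)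
            _ ≤ _ := by rw [one_mul]; exact k2
      refine ⟨hrow 0 hU01, ?_, hrow 2 hU21⟩
      rw [hfr1]
      linarith
    · intro z hz hz2
      rw [Gf_fr hPc]
      exact (hGd z hz hz2).1
    · intro z hz hz2
      rw [hfr1, hrat]
      refine (hg1 z (hz'.trans hz) (hz2.trans hz'')).trans ?_
      have h3 : 0 < w 2 / w 1 := div_pos hw2 hw1
      have h4 : 2 * L ≤ m / 2 * (12 * Λ) := by
        have h5 : lam / 2 * Λ ≤ m * Λ := mul_le_mul_of_nonneg_right hm hΛp.le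
        linarith
      calc 2 * L * (w 2 / w 1) ≤ m / 2 * (12 * Λ) * (w 2 / w 1) :=
            mul_le_mul_of_nonneg_right h4 h3.le
        _ = _ := by ring
    · intro z hz hz2
      rw [Gf_fr hPc]
      exact (hGd z hz hz2).2
    · intro k hk0 hk1 hk2
      have hT : 32 * (24 * (Λ ^ 2 * kap Λ)) + 8 * (2 * (Λ * kap Λ)) ≤ m / 8 := by
        have h3 : (32 * (24 * (Λ ^ 2 * kap Λ)) + 8 * (2 * (Λ * kap Λ))) * Λ ≤ m / 8 * Λ := by
          have h4 : (32 * (24 * (Λ ^ 2 * kap Λ)) + 8 * (2 * (Λ * kap Λ))) * Λ ≤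
              784 * (Λ ^ 2 * kap Λ) * Λ := mul_le_mul_of_nonneg_right (by linarith) hΛp.le
          have h5 : 784 * (Λ ^ 2 * kap Λ) * Λ ≤ 1 / 16 := by linarith
          linarith
        exact le_of_mul_le_mul_right h3 hΛp
      obtain ⟨r0', r1', r2'⟩ := cigar_bf S.ortho hw S.w0_eq hH hU hU01 hU21 hU1 hmu1.le hmu2.le hT
        hk0 hk1 hk2
      refine ⟨r0'.trans (by linarith), r1'.trans ?_, r2'.trans (by linarith)⟩
      rw [hrat]
      have h3 : 0 < w 2 / w 1 := div_pos hw2 hw1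
      calc m / 8 * (w 2 / w 1) ≤ m / 4 * (12 * Λ) * (w 2 / w 1) := by
            apply mul_le_mul_of_nonneg_right _ h3.le
            nlinarith
        _ = _ := by ring
  · refine ⟨0, fun z' ρ' hz' hρ' hz'' hρl hzb => ?_⟩
    push Not at hth
    refine concl_box S hr hρ hL hΛ hLΛ h0 h1 (mul_pos hmu2 hw2) hv2' hv1' hB2 hB1 ?_ ?_ ?_ hBB1
      hz' hz''
    · have h3 : Λ * kap Λ * w 2 ≤ Λ ^ 2 * kap Λ * w 2 := mul_le_mul_of_nonneg_right hK3 hw2.le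
      have h4 : 0 < Λ ^ 2 * kap Λ * w 2 := by positivity
      linarith
    · linarith
    · exact hth.le.trans (mul_le_mul_of_nonneg_right hBB16 ha.le)

/-- the cube -/
theorem case_cube (S : ShN0 e c w q a z0 ρ r0) (hr : 0 < r0) (hρ : 0 < ρ) {L lam Z0 Λ : ℝ}
    (hL : 1 ≤ L) (hl : 0 < lam) (hΛ : 1 ≤ Λ) (hLΛ : L ≤ Λ) (hlam : lam * Λ = L)
    (h0 : Z0 ≤ z0) (h1 : z0 + ρ ≤ Z0 + L * ρ)
    {y : Ln4} (hy : InSheet y e c w q a z0 ρ) (hcig : w 1 ≤ 12 * Λ * w 2) :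
    ∃ zb : ℝ, ∀ z' ρ' : ℝ, Z0 ≤ z' → 0 ≤ ρ' → z' + ρ' ≤ Z0 + L * ρ →
      ρ' ≤ lam * (L * ρ) / 128 → 2 * lam * (L * ρ) ≤ |z' - zb| →
      Concl e c w q a z0 ρ r0 Λ y z' ρ' := by
  obtain ⟨c0, c1, c2, b, d, g, hq'⟩ := S.isQ
  have hq : QR q c0 c1 c2 b d g := hq'
  clear hq'
  obtain ⟨hκp, hBκ, hBBp, hBB1, hBB16, hK1, hK2, hK3⟩ := consts hΛ
  obtain ⟨P0, P1, hPc, ⟨hs0, hs0'⟩, hg0, hg1⟩ := grad_curve S hr hρ hq hL h0 h1 hy
  have hH := hess S hr hρ.le hq hy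
  have ha := a_pos S hr
  have hw := wi_pos S hr
  have hwge := wi_ge S
  have hw21 := S.w_le
  have hw2 := hw 2
  have hw1 := hw 1
  have hΛp : 0 < Λ := by linarith
  have hℓp : 0 < L * ρ := by positivity
  have hΛκ : 0 < Λ * kap Λ := by positivity
  have hvp : 0 < 6 * (Λ * kap Λ) * w 1 := by positivity
  have hv72 : 6 * (Λ * kap Λ) * w 1 ≤ 72 * (Λ ^ 2 * kap Λ) * w 2 := by
    have := mul_le_mul_of_nonneg_left hcig (by positivity : 0 ≤ 6 * (Λ * kap Λ))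
    calc _ ≤ 6 * (Λ * kap Λ) * (12 * Λ * w 2) := this
      _ = _ := by ring
  have hv2' : 6 * (Λ * kap Λ) * w 1 ≤ w 2 := by
    refine hv72.trans ?_
    calc _ ≤ 1 * w 2 := mul_le_mul_of_nonneg_right (by linarith) hw2.le
      _ = w 2 := one_mul _
  have hv1' : 6 * (Λ * kap Λ) * w 1 ≤ w 1 := hv2'.trans hw21
  have hB1 : w 1 ≤ BB Λ * (6 * (Λ * kap Λ) * w 1) := by
    have e1 : BB Λ * (6 * (Λ * kap Λ) * w 1) = 6 * Λ * (BB Λ * kap Λ) * w 1 := by ring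
    rw [e1, hBκ, mul_one]
    calc w 1 = 1 * w 1 := (one_mul _).symm
      _ ≤ _ := mul_le_mul_of_nonneg_right (by linarith) hw1.le
  have hB2 : w 2 ≤ BB Λ * (6 * (Λ * kap Λ) * w 1) := hw21.trans hB1
  -- containment
  have hcon : ∀ k : V3, (∀ i, |dt (e i) k| ≤ 2 * Λ * (kap Λ * w i)) → ∀ (V : V3),
      (∀ j, |V j| ≤ 1) → |dt (lc V e) k| ≤ 6 * (Λ * kap Λ) * w 1 := by
    intro k hk V hV
    rw [dt_lc]
    have hk' : ∀ j, |dt (e j) k| ≤ 2 * (Λ * kap Λ) * w 1 := by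
      intro j
      refine (hk j).trans ?_
      have hwj : w j ≤ w 1 := by
        fin_cases j
        · exact S.w0_eq.le.trans hw21
        · exact le_rfl
        · exact hw21
      calc 2 * Λ * (kap Λ * w j) = 2 * (Λ * kap Λ) * w j := by ring
        _ ≤ _ := mul_le_mul_of_nonneg_left hwj (by positivity)
    have t : ∀ l, |V l * dt (e l) k| ≤ 2 * (Λ * kap Λ) * w 1 := by
      intro l
      rw [abs_mul]
      calc _ ≤ 1 * |dt (e l) k| := mul_le_mul_of_nonneg_right (hV l) (abs_nonneg _)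
        _ ≤ _ := by rw [one_mul]; exact hk' l
    have h3 := abs_add_le (V 0 * dt (e 0) k + V 1 * dt (e 1) k) (V 2 * dt (e 2) k)
    have h4 := abs_add_le (V 0 * dt (e 0) k) (V 1 * dt (e 1) k)
    have := t 0
    have := t 1
    have := t 2
    linarith
  by_cases hth : 16 * Λ ^ 2 * a ≤ 6 * (Λ * kap Λ) * w 1
  · have hc4 : 1 / 4 ≤ dt (Pc P0 P1 ((z0 - Z0) / (L * ρ))) (Pc P0 P1 ((z0 - Z0) / (L * ρ))) := by
      generalize Pc P0 P1 ((z0 - Z0) / (L * ρ)) = P at hg0 ⊢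
      simp only [dt]
      have := mul_self_nonneg (P 1)
      have := mul_self_nonneg (P 2)
      nlinarith
    obtain ⟨sb, hsb⟩ := curve P0 P1 hl hs0 hs0' hc4
    refine ⟨Z0 + sb * (L * ρ), fun z' ρ' hz' hρ' hz'' hρl hzb => ?_⟩
    obtain ⟨hs, hs', hsl, hpar⟩ := param hℓp hz' hρ' hz'' hρl hzb
    obtain ⟨m, hm, hm2, hcl⟩ := hsb _ hs hs' hsl
    have hmp : 0 < m := lt_of_lt_of_le (by positivity) hm
    have hmΛ : 1 / 8 ≤ m / 4 * Λ := by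
      have h3 : lam / 2 * Λ ≤ m * Λ := mul_le_mul_of_nonneg_right hm hΛp.le
      linarith
    obtain ⟨U, hU, hPU⟩ := frame3 hmp hm2
    have hGd : ∀ z, z' ≤ z → z ≤ z' + ρ' →
        ((63 / 64 * m ≤ dt (U 0) (Pc P0 P1 ((z - Z0) / (L * ρ))) ∧
          dt (U 0) (Pc P0 P1 ((z - Z0) / (L * ρ))) ≤ 65 / 64 * m) ∧
        |dt (U 1) (Pc P0 P1 ((z - Z0) / (L * ρ)))| ≤ m / 64 ∧
        |dt (U 2) (Pc P0 P1 ((z - Z0) / (L * ρ)))| ≤ m / 64) := by
      intro z hz hz2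
      obtain ⟨hp2, hp3⟩ := hpar z hz hz2
      have hE := hcl _ hp2 hp3
      have hgd := grad_dir hU hmp hPU hE
      rw [add_sub_cancel] at hgd
      exact hgd
    have hone : 6 * (Λ * kap Λ) * w 1 / (6 * (Λ * kap Λ) * w 1) = 1 := div_self hvp.ne'
    refine concl_flat S hr hρ hL hΛ hLΛ hlam hl h0 h1 hq (fr_ortho hU S.ortho) hm
      hvp le_rfl hv2' hv1' hB2 hB1 hth hBB16 ?_ hz' hz'' ?_ ?_ ?_ ?_
    · intro k hk
      exact ⟨hcon k hk (U 0) (entry_le hU 0), hcon k hk (U 1) (entry_le hU 1),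
        hcon k hk (U 2) (entry_le hU 2)⟩
    · intro z hz hz2
      rw [Gf_fr hPc]
      exact (hGd z hz hz2).1
    · intro z hz hz2
      rw [Gf_fr hPc, hone]
      have := (hGd z hz hz2).2.1
      linarith
    · intro z hz hz2
      rw [Gf_fr hPc]
      exact (hGd z hz hz2).2.2
    · intro k hk0 hk1 hk2
      have hk : ∀ i, |dt (fr U e i) k| ≤ 2 * (72 * (Λ ^ 2 * kap Λ) * w 2) := by
        intro i
        fin_cases i
        · exact hk0.trans (by linarith)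
        · exact hk1.trans (by linarith)
        · exact hk2.trans (by linarith)
      have hT : 216 * (72 * (Λ ^ 2 * kap Λ)) ≤ m / 4 := by
        have h3 : 216 * (72 * (Λ ^ 2 * kap Λ)) * Λ ≤ m / 4 * Λ := by
          have h4 : 216 * (72 * (Λ ^ 2 * kap Λ)) * Λ = 15552 * (Λ ^ 2 * kap Λ) * Λ := by ring
          linarith
        exact le_of_mul_le_mul_right h3 hΛp
      have hb := cube_bf S.ortho hw hwge hH hU (by positivity : 0 ≤ 72 * (Λ ^ 2 * kap Λ)) hk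
      refine ⟨(hb 0).trans hT, ?_, (hb 2).trans hT⟩
      rw [hone, mul_one]
      exact (hb 1).trans hT
  · refine ⟨0, fun z' ρ' hz' hρ' hz'' hρl hzb => ?_⟩
    push Not at hth
    refine concl_box S hr hρ hL hΛ hLΛ h0 h1 hvp hv2' hv1' hB2 hB1 ?_ ?_ ?_ hBB1 hz' hz''
    · have h3 : Λ * kap Λ * w 2 ≤ Λ * kap Λ * w 1 := mul_le_mul_of_nonneg_left hw21 hΛκ.le
      linarith
    · have h4 : 0 < Λ * kap Λ * w 1 := by positivity
      linarith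
    · exact hth.le.trans (mul_le_mul_of_nonneg_right hBB16 ha.le)

/-- **one sheet** -/
theorem ub_one (S : ShN0 e c w q a z0 ρ r0) (hr : 0 < r0) (hρ : 0 < ρ) {L lam Z0 : ℝ}
    (hL : 1 ≤ L) (hl : 0 < lam) (hl' : lam ≤ 1) (h0 : Z0 ≤ z0) (h1 : z0 + ρ ≤ Z0 + L * ρ)
    {y : Ln4} (hy : InSheet y e c w q a z0 ρ) :
    ∃ zb : ℝ, ∀ z' ρ' : ℝ, Z0 ≤ z' → 0 ≤ ρ' → z' + ρ' ≤ Z0 + L * ρ →
      ρ' ≤ lam * (L * ρ) / 128 → 2 * lam * (L * ρ) ≤ |z' - zb| →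
      ∃ (e' : Fin 3 → V3) (c' : Ln4) (w' : V3) (q' : ℝ → V3 → ℝ) (a' : ℝ),
        ShN0 e' c' w' q' a' z' ρ' r0 ∧
        (∀ t : Ln4, InSheet t e c w q a z0 ρ →
          (∀ i, |dt (e i) (t.pos z0 - y.pos z0)| ≤ kap (L / lam) * w i) →
          (∀ i, |dt (e i) (t.pos (z0 + ρ) - y.pos (z0 + ρ))| ≤ kap (L / lam) * w i) →
          InSheet t e' c' w' q' a' z' ρ') ∧
        a ≤ a' ∧ a' ≤ BB (L / lam) * a ∧ w' 2 ≤ w 2 ∧ w 2 ≤ BB (L / lam) * w' 2 ∧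
        w' 1 ≤ w 1 ∧ w 1 ≤ BB (L / lam) * w' 1 := by
  have hlam : lam * (L / lam) = L := by field_simp
  have hΛ : 1 ≤ L / lam := by rw [le_div_iff₀ hl]; linarith
  have hLΛ : L ≤ L / lam := by
    rw [le_div_iff₀ hl]; nlinarith
  rcases le_total (12 * (L / lam) * w 2) (w 1) with h | h
  · exact case_cigar S hr hρ hL hl hΛ hLΛ hlam h0 h1 hy h
  · exact case_cube S hr hρ hL hl hΛ hLΛ hlam h0 h1 hy h

end one

end

end Crest.Agent.R136.UB861
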