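import Crest.Agent.R136.Sh6_605

/-!
# R136 (UB) for the class `C*`: cover and pigeonhole (helper289)

`UbOne` : the one-sheet lemma (literal of helper861's `ub_one`);
`UBg A B k` : the finite statement; **`ubg : UbOne → UBg 22 3 10`**.
-/

set_option autoImplicit false
set_option linter.unusedVariables false

open Finset

namespace Crest.Agent.R136.UB289

open Sh605

noncomputable section

/-- the one-sheet lemma, literal of `UB861.ub_one` with `kap Λ = 1 / (2^18 Λ^3)`,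
`BB Λ = 2^18 Λ^3` -/
def UbOne : Prop :=
  ∀ {e : Fin 3 → V3} {c : Ln4} {w : V3} {q : ℝ → V3 → ℝ} {a z0 ρ r0 : ℝ},
    ShN e c w q a z0 ρ r0 → 0 < r0 → 0 < ρ → ∀ {L lam Z0 : ℝ}, 1 ≤ L → 0 < lam → lam ≤ 1 →
    Z0 ≤ z0 → z0 + ρ ≤ Z0 + L * ρ → ∀ {y : Ln4}, InSheet y e c w q a z0 ρ →
    ∃ zb : ℝ, ∀ z' ρ' : ℝ, Z0 ≤ z' → 0 ≤ ρ' → z' + ρ' ≤ Z0 + L * ρ →
      ρ' ≤ lam * (L * ρ) / 128 → 2 * lam * (L * ρ) ≤ |z' - zb| →
      ∃ (e' : Fin 3 → V3) (c' : Ln4) (w' : V3) (q' : ℝ → V3 → ℝ) (a' : ℝ),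
        ShN e' c' w' q' a' z' ρ' r0 ∧
        (∀ t : Ln4, InSheet t e c w q a z0 ρ →
          (∀ i, |dt (e i) (t.pos z0 - y.pos z0)| ≤ 1 / (2 ^ 18 * (L / lam) ^ 3) * w i) →
          (∀ i, |dt (e i) (t.pos (z0 + ρ) - y.pos (z0 + ρ))| ≤
            1 / (2 ^ 18 * (L / lam) ^ 3) * w i) →
          InSheet t e' c' w' q' a' z' ρ') ∧
        a ≤ a' ∧ a' ≤ 2 ^ 18 * (L / lam) ^ 3 * a ∧
        w' 2 ≤ w 2 ∧ w 2 ≤ 2 ^ 18 * (L / lam) ^ 3 * w' 2 ∧
        w' 1 ≤ w 1 ∧ w 1 ≤ 2 ^ 18 * (L / lam) ^ 3 * w' 1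

open Classical in
/-- **(UB)**, finite form with one-sided comparison of the rewards -/
def UBg (A B k : ℕ) : Prop :=
  ∀ (M h : ℕ), k ≤ h → 7 ≤ h → h ≤ M → ∀ {ι : Type} (L : ι → Ln4) (T : Finset ι)
    (al : ℕ → Finset ι) (z00 ρ ρ' r0 D : ℝ) (R R' : ℝ → ℝ → ℝ → ℝ), 0 < ρ → 0 < r0 → 0 ≤ D →
    ρ' * 2 ^ h = 2 ^ M * ρ →
    (∀ j < 2 ^ h, DMaxN (al j) L (z00 + j * ρ') ρ' D R' r0 ρ') →
    ∀ (e : Fin 3 → V3) (c : Ln4) (w : V3) (q : ℝ → V3 → ℝ) (a z0 : ℝ), z00 ≤ z0 →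
      z0 + ρ ≤ z00 + 2 ^ M * ρ → ShN e c w q a z0 ρ r0 → w 1 ≤ ρ →
      (∀ t ∈ T, InSheet (L t) e c w q a z0 ρ) →
      (∀ t ∈ T, 2 ^ k ≤ ((Finset.range (2 ^ h)).filter fun j => t ∈ al j).card) →
      0 ≤ R a (w 2) (w 1) →
      (∀ a' w2' w1', (a ≤ a' ∧ a' ≤ 2 ^ (B * (M + h + 10)) * a) →
        (w2' ≤ w 2 ∧ w 2 ≤ 2 ^ (B * (M + h + 10)) * w2') →
        (w1' ≤ w 1 ∧ w 1 ≤ 2 ^ (B * (M + h + 10)) * w1') →
        R' a' w2' w1' ≤ R a (w 2) (w 1)) →
      (T.card : ℝ) ≤ 2 ^ (A * (M + h + 10)) * D * (a * w 2 * w 1 * R a (w 2) (w 1))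

/-! ### few bad cells -/

open Classical in
/-- at most `2 n` cells have their left end at distance less than `n ρ'` from `zb` -/
theorem near_card {z00 ρ' zb : ℝ} (hρ : 0 < ρ') (n : ℕ) (S : Finset ℕ)
    (hS : ∀ j ∈ S, |z00 + j * ρ' - zb| < n * ρ') : S.card ≤ 2 * n := by
  set x : ℝ := (zb - z00) / ρ' with hx
  have h1 : ∀ j ∈ S, x - n < j ∧ (j:ℝ) < x + n := by
    intro j hj
    have h2 := abs_lt.1 (hS j hj)
    have hx' : x * ρ' = zb - z00 := by rw [hx]; field_simp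
    constructor
    · by_contra hn
      rw [not_lt] at hn
      have := mul_le_mul_of_nonneg_right hn hρ.le
      rw [sub_mul, hx'] at this
      linarith [h2.1]
    · by_contra hn
      rw [not_lt] at hn
      have := mul_le_mul_of_nonneg_right hn hρ.le
      rw [add_mul, hx'] at this
      linarith [h2.2]
  -- image in the integers between ⌊x⌋ - n + 1 and ⌊x⌋ + n
  have h3 : (S.image fun j : ℕ => (j : ℤ)) ⊆ Icc (⌊x⌋ - n + 1) (⌊x⌋ + n) ∨
      (S.image fun j : ℕ => (j : ℤ)) ⊆ Ico (⌈x⌉ - n) (⌈x⌉ + n) := by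
    by_cases hxi : (⌊x⌋ : ℝ) = x
    · right
      have hc : (⌈x⌉ : ℝ) = x := by
        rw [← hxi, Int.ceil_intCast]
      intro j hj
      obtain ⟨i, hi, rfl⟩ := mem_image.1 hj
      have := h1 i hi
      rw [← hc] at this
      rw [mem_Ico]
      constructor
      · have h4 : ((⌈x⌉ - n : ℤ) : ℝ) < ((i : ℤ) : ℝ) := by push_cast; exact this.1
        exact (by exact_mod_cast h4 : (⌈x⌉ - n : ℤ) < (i : ℤ)).le
      · have h4 : ((i : ℤ) : ℝ) < ((⌈x⌉ + n : ℤ) : ℝ) := by push_cast; exact this.2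
        exact_mod_cast h4
    · left
      intro j hj
      obtain ⟨i, hi, rfl⟩ := mem_image.1 hj
      have := h1 i hi
      have f1 := Int.floor_le x
      have f2 := Int.lt_floor_add_one x
      rw [mem_Icc]
      constructor
      · have h4 : ((⌊x⌋ - n : ℤ) : ℝ) < ((i : ℤ) : ℝ) := by push_cast; linarith [this.1]
        have h5 : (⌊x⌋ - n : ℤ) < (i : ℤ) := by exact_mod_cast h4
        linarith
      · have h4 : ((i : ℤ) : ℝ) < ((⌊x⌋ + n + 1 : ℤ) : ℝ) := by push_cast; linarith [this.2]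
        have h5 : (i : ℤ) < (⌊x⌋ + n + 1 : ℤ) := by exact_mod_cast h4
        linarith
  have hinj : (S.image fun j : ℕ => (j : ℤ)).card = S.card :=
    card_image_of_injective _ Nat.cast_injective
  rcases h3 with h3 | h3
  · have := card_le_card h3
    rw [hinj, Int.card_Icc] at this
    have e : (⌊x⌋ + (n:ℤ) + 1 - (⌊x⌋ - n + 1)).toNat = 2 * n := by omega
    rwa [e] at this
  · have := card_le_card h3
    rw [hinj, Int.card_Ico] at this
    have e : (⌈x⌉ + (n:ℤ) - (⌈x⌉ - n)).toNat = 2 * n := by omega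
    rwa [e] at this

/-! ### the codes -/

/-- code of a line: roundings at the two ends -/
def code (e : Fin 3 → V3) (c : Ln4) (w : V3) (κ z0 z1 : ℝ) (t : Ln4) :
    (Fin 3 → ℤ) × (Fin 3 → ℤ) :=
  (fun i => ⌊dt (e i) (t.pos z0 - c.pos z0) / (κ * w i)⌋,
    fun i => ⌊dt (e i) (t.pos z1 - c.pos z1) / (κ * w i)⌋)

theorem floor_close {x y s : ℝ} (hs : 0 < s) (h : ⌊x / s⌋ = ⌊y / s⌋) : |x - y| ≤ s := by
  have h1 := Int.floor_le (x / s)
  have h2 := Int.lt_floor_add_one (x / s)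
  have h3 := Int.floor_le (y / s)
  have h4 := Int.lt_floor_add_one (y / s)
  rw [h] at h1 h2
  have h5 : |x / s - y / s| ≤ 1 := by
    rw [abs_le]; constructor <;> linarith
  have e : x / s - y / s = (x - y) / s := by ring
  rw [e, abs_div, abs_of_pos hs, div_le_one hs] at h5
  exact h5

theorem dt_diff (e t y c : V3) : dt e (t - y) = dt e (t - c) - dt e (y - c) := by
  simp only [dt, Pi.sub_apply]; ring

theorem code_close {e : Fin 3 → V3} {c : Ln4} {w : V3} {κ z0 z1 : ℝ} {t y : Ln4}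
    (hκ : 0 < κ) (hw : ∀ i, 0 < w i) (h : code e c w κ z0 z1 t = code e c w κ z0 z1 y) :
    (∀ i, |dt (e i) (t.pos z0 - y.pos z0)| ≤ κ * w i) ∧
    (∀ i, |dt (e i) (t.pos z1 - y.pos z1)| ≤ κ * w i) := by
  unfold code at h
  rw [Prod.ext_iff] at h
  constructor
  · intro i
    rw [dt_diff _ _ _ (c.pos z0)]
    exact floor_close (mul_pos hκ (hw i)) (congrFun h.1 i)
  · intro i
    rw [dt_diff _ _ _ (c.pos z1)]
    exact floor_close (mul_pos hκ (hw i)) (congrFun h.2 i)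

theorem code_mem {e : Fin 3 → V3} {c : Ln4} {w : V3} {q : ℝ → V3 → ℝ} {a z0 ρ : ℝ} {n : ℕ}
    (hρ : 0 ≤ ρ) (hn : 0 < n) (hw : ∀ i, 0 < w i) {t : Ln4} (h : InSheet t e c w q a z0 ρ) :
    code e c w (1 / n) z0 (z0 + ρ) t ∈
      (Fintype.piFinset fun _ : Fin 3 => Icc (-(n:ℤ)) n) ×ˢ
      (Fintype.piFinset fun _ : Fin 3 => Icc (-(n:ℤ)) n) := by
  have hn' : (0:ℝ) < n := by exact_mod_cast hn
  have key : ∀ (x u : ℝ), 0 < u → |x| ≤ u → ⌊x / (1 / (n:ℝ) * u)⌋ ∈ Icc (-(n:ℤ)) n := by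
    intro x u hu hx
    have e1 : x / (1 / (n:ℝ) * u) = x / u * n := by field_simp
    have h1 : |x / u| ≤ 1 := by rw [abs_div, abs_of_pos hu, div_le_one hu]; exact hx
    rw [abs_le] at h1
    rw [e1, mem_Icc]
    constructor
    · rw [Int.le_floor]; push_cast; nlinarith [h1.1]
    · have : (⌊x / u * n⌋ : ℝ) ≤ n := (Int.floor_le _).trans (by nlinarith [h1.2])
      exact_mod_cast this
  have g0 := (h z0 le_rfl (by linarith)).1
  have g1 := (h (z0 + ρ) (by linarith) le_rfl).1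
  rw [mem_product]
  unfold code
  constructor
  · rw [Fintype.mem_piFinset]
    intro i
    exact key _ _ (hw i) (g0 i)
  · rw [Fintype.mem_piFinset]
    intro i
    exact key _ _ (hw i) (g1 i)

theorem code_card (n : ℕ) : ((Fintype.piFinset fun _ : Fin 3 => Icc (-(n:ℤ)) n) ×ˢ
    (Fintype.piFinset fun _ : Fin 3 => Icc (-(n:ℤ)) n)).card = (2 * n + 1) ^ 6 := by
  rw [card_product, Fintype.card_piFinset]
  have : (Icc (-(n:ℤ)) n).card = 2 * n + 1 := by rw [Int.card_Icc]; omega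
  simp only [this, prod_const, card_univ, Fintype.card_fin]
  ring

/-! ### cover and pigeonhole -/

open Classical in
/-- **(UB), finite form** -/
theorem ubg (hone : UbOne) : UBg 22 3 10 := by
  intro M h hk h7 hhM ι L T al z00 ρ ρ' r0 D R R' hρ hr hD hρρ hDM e c w q a z0 hz0 hz1 S hw1 hin
    hal hR0 hR
  obtain ⟨p2, p1, p0⟩ : 0 < w 2 ∧ 0 < w 1 ∧ 0 < w 0 := by
    have h1 : 0 < w 2 := (hr.trans_le S.r0_le).trans_le S.a_le
    exact ⟨h1, h1.trans_le S.w_le, (hr.trans_le S.r0_le).trans_le S.a_le0⟩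
  have pa : 0 < a := hr.trans_le S.r0_le
  have hw : ∀ i, 0 < w i := by intro i; fin_cases i; exacts [p0, p1, p2]
  have hρ' : 0 < ρ' := by
    have : 0 < ρ' * 2 ^ h := by rw [hρρ]; positivity
    exact pos_of_mul_pos_left this (by positivity)
  -- parameters
  set lam : ℝ := 2 ^ 7 / 2 ^ h with hlam
  have hlam0 : 0 < lam := by positivity
  have hlam1 : lam ≤ 1 := by
    rw [hlam, div_le_one (by positivity)]
    exact pow_le_pow_right₀ (by norm_num) h7
  have hLr : lam * (2 ^ M * ρ) = 2 ^ 7 * ρ' := by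
    rw [← hρρ, hlam]; field_simp
  have hΛ : (2:ℝ) ^ 18 * (2 ^ M / lam) ^ 3 = 2 ^ (3 * (M + h) - 3) := by
    have e1 : (2:ℝ) ^ M / lam = 2 ^ (M + h) / 2 ^ 7 := by
      rw [hlam, pow_add]; field_simp
    rw [e1, div_pow, ← pow_mul, ← pow_mul]
    have e2 : (2:ℝ) ^ ((M + h) * 3) = 2 ^ (3 * (M + h) - 3) * 2 ^ 3 := by
      rw [← pow_add]; congr 1; omega
    rw [e2]
    norm_num
    ring
  set n : ℕ := 2 ^ (3 * (M + h) - 3) with hn
  have hnr : (2:ℝ) ^ (3 * (M + h) - 3) = n := by rw [hn]; push_cast; rfl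
  have hn0 : 0 < n := by rw [hn]; positivity
  have hn0' : (0:ℝ) < n := by exact_mod_cast hn0
  rw [hnr] at hΛ
  have hn3 : (n:ℝ) ≤ 2 ^ (3 * (M + h + 10)) := by
    rw [← hnr]; exact pow_le_pow_right₀ (by norm_num) (by omega)
  -- the bound for one fibre
  set X : ℝ := D * (n * a * w 2 * w 1 * R a (w 2) (w 1)) with hX
  have hX0 : 0 ≤ X := by rw [hX]; positivity
  have hfib : ∀ y ∈ T, ((T.filter fun t => code e c w (1 / n) z0 (z0 + ρ) (L t) =
      code e c w (1 / n) z0 (z0 + ρ) (L y)).card : ℝ) ≤ 2 ^ h * X := by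
    intro y hy
    set Tc := T.filter fun t => code e c w (1 / n) z0 (z0 + ρ) (L t) =
      code e c w (1 / n) z0 (z0 + ρ) (L y) with hTc
    obtain ⟨zb, hzb⟩ := hone S hr hρ (L := 2 ^ M) (lam := lam) (Z0 := z00)
      (one_le_pow₀ (by norm_num)) hlam0 hlam1 hz0 hz1 (hin y hy)
    -- good cells
    set G : Finset ℕ := (Finset.range (2 ^ h)).filter fun j =>
      ((2 ^ 8 : ℕ) : ℝ) * ρ' ≤ |z00 + j * ρ' - zb| with hG
    have hcell : ∀ j ∈ G, ((Tc.filter fun t => t ∈ al j).card : ℝ) ≤ X := by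
      intro j hj
      rw [hG, mem_filter, mem_range] at hj
      obtain ⟨hj1, hj2⟩ := hj
      have hj1' : (j:ℝ) + 1 ≤ 2 ^ h := by
        have : ((j + 1 : ℕ) : ℝ) ≤ ((2 ^ h : ℕ) : ℝ) := Nat.cast_le.2 hj1
        push_cast at this
        exact this
      obtain ⟨e', c', w', q', a', hS', hin', ha1, ha2, hw2, hw2', hw1', hw1''⟩ :=
        hzb (z00 + j * ρ') ρ' (by
          have : (0:ℝ) ≤ j * ρ' := by positivity
          linarith) hρ'.le (by
          rw [← hρρ]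
          nlinarith) (by rw [hLr]; linarith) (by
          have e1 : 2 * lam * (2 ^ M * ρ) = ((2 ^ 8 : ℕ) : ℝ) * ρ' := by
            rw [mul_assoc, hLr]; push_cast; ring
          rw [e1]; exact hj2)
      rw [hΛ] at ha2 hw2' hw1'' hin'
      have hw1ρ : w' 1 ≤ ρ' := by
        refine hw1'.trans (hw1.trans ?_)
        have h1 : ρ * 2 ^ h ≤ ρ' * 2 ^ h := by
          rw [hρρ, mul_comm]
          have := pow_le_pow_right₀ (by norm_num : (1:ℝ) ≤ 2) hhM
          exact mul_le_mul_of_nonneg_right this hρ.le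
        exact le_of_mul_le_mul_right h1 (by positivity)
      have hd := hDM j hj1 e' c' w' q' a' hS' hw1ρ
      have hsub : ((Tc.filter fun t => t ∈ al j).card : ℝ) ≤
          (((al j).filter fun t => InSheet (L t) e' c' w' q' a' (z00 + j * ρ') ρ').card : ℝ) := by
        refine Nat.cast_le.2 (card_le_card fun t ht => ?_)
        rw [mem_filter] at ht ⊢
        refine ⟨ht.2, ?_⟩
        have ht1 := ht.1
        rw [hTc, mem_filter] at ht1
        obtain ⟨g1, g2⟩ := code_close (by positivity) hw ht1.2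
        exact hin' _ (hin t ht1.1) g1 g2
      refine hsub.trans (hd.trans ?_)
      have q2 : 0 < w' 2 := by
        by_contra hneg
        rw [not_lt] at hneg
        have := mul_nonpos_of_nonneg_of_nonpos hn0'.le hneg
        linarith
      have q1 : 0 < w' 1 := by
        by_contra hneg
        rw [not_lt] at hneg
        have := mul_nonpos_of_nonneg_of_nonpos hn0'.le hneg
        linarith
      have qa : 0 < a' := pa.trans_le ha1
      have hRR : R' a' (w' 2) (w' 1) ≤ R a (w 2) (w 1) := by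
        refine hR _ _ _ ⟨ha1, ?_⟩ ⟨hw2, ?_⟩ ⟨hw1', ?_⟩
        · exact ha2.trans (mul_le_mul_of_nonneg_right hn3 pa.le)
        · exact hw2'.trans (mul_le_mul_of_nonneg_right hn3 q2.le)
        · exact hw1''.trans (mul_le_mul_of_nonneg_right hn3 q1.le)
      rw [hX]
      refine mul_le_mul_of_nonneg_left ?_ hD
      calc a' * w' 2 * w' 1 * R' a' (w' 2) (w' 1) ≤ a' * w' 2 * w' 1 * R a (w 2) (w 1) := by
            gcongr
        _ ≤ (n * a) * w 2 * w 1 * R a (w 2) (w 1) := by gcongr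
    -- every line of the fibre has a good alive cell
    have hgood : ∀ t ∈ Tc, ∃ j ∈ G, t ∈ al j := by
      intro t ht
      by_contra hno
      push Not at hno
      have htT : t ∈ T := (mem_filter.1 ht).1
      have h1 := hal t htT
      have h2 := near_card (z00 := z00) (zb := zb) hρ' (2 ^ 8)
        ((Finset.range (2 ^ h)).filter fun j => t ∈ al j) (fun j hj => by
          rw [mem_filter] at hj
          by_contra h3
          rw [not_lt] at h3
          exact hno j (by rw [hG, mem_filter]; exact ⟨hj.1, h3⟩) hj.2)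
      have h3 := h1.trans h2
      norm_num at h3
    have hcov : Tc ⊆ G.biUnion fun j => Tc.filter fun t => t ∈ al j := by
      intro t ht
      obtain ⟨j, hj, htj⟩ := hgood t ht
      exact mem_biUnion.2 ⟨j, hj, mem_filter.2 ⟨ht, htj⟩⟩
    have h4 : (Tc.card : ℝ) ≤ ∑ j ∈ G, ((Tc.filter fun t => t ∈ al j).card : ℝ) := by
      have := (card_le_card hcov).trans card_biUnion_le
      exact_mod_cast this
    have h5 : ∑ j ∈ G, ((Tc.filter fun t => t ∈ al j).card : ℝ) ≤ G.card * X := by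
      have := Finset.sum_le_card_nsmul G (fun j => ((Tc.filter fun t => t ∈ al j).card : ℝ)) X hcell
      rwa [nsmul_eq_mul] at this
    have h6 : (G.card : ℝ) ≤ 2 ^ h := by
      have : G.card ≤ 2 ^ h := by
        rw [hG]
        refine (card_filter_le _ _).trans ?_
        rw [card_range]
      exact_mod_cast this
    exact h4.trans (h5.trans (mul_le_mul_of_nonneg_right h6 hX0))
  -- sum over the codes
  have hsum : (T.card : ℝ) ≤ ((2 * n + 1) ^ 6 : ℕ) * (2 ^ h * X) := by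
    have h1 : T.card = ∑ b ∈ T.image fun t => code e c w (1 / n) z0 (z0 + ρ) (L t),
        (T.filter fun t => code e c w (1 / n) z0 (z0 + ρ) (L t) = b).card :=
      card_eq_sum_card_image _ T
    have h2 : ((T.image fun t => code e c w (1 / n) z0 (z0 + ρ) (L t)).card : ℝ) ≤
        ((2 * n + 1) ^ 6 : ℕ) := by
      rw [← code_card n]
      refine Nat.cast_le.2 (card_le_card fun b hb => ?_)
      obtain ⟨t, ht, rfl⟩ := mem_image.1 hb
      exact code_mem hρ.le hn0 hw (hin t ht)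
    rw [h1]
    push_cast
    have h3 : ∑ b ∈ T.image fun t => code e c w (1 / n) z0 (z0 + ρ) (L t),
        ((T.filter fun t => code e c w (1 / n) z0 (z0 + ρ) (L t) = b).card : ℝ) ≤
        (T.image fun t => code e c w (1 / n) z0 (z0 + ρ) (L t)).card * (2 ^ h * X) := by
      have := Finset.sum_le_card_nsmul (T.image fun t => code e c w (1 / n) z0 (z0 + ρ) (L t))
        (fun b => ((T.filter fun t => code e c w (1 / n) z0 (z0 + ρ) (L t) = b).card : ℝ))
        (2 ^ h * X) (fun b hb => by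
          obtain ⟨y, hy, rfl⟩ := mem_image.1 hb
          exact hfib y hy)
      rwa [nsmul_eq_mul] at this
    refine h3.trans ?_
    have : (0:ℝ) ≤ 2 ^ h * X := by positivity
    have := mul_le_mul_of_nonneg_right h2 this
    push_cast at this
    exact this
  refine hsum.trans ?_
  have hn4 : (((2 * n + 1) ^ 6 : ℕ) : ℝ) ≤ 2 ^ (6 * (3 * (M + h) - 1)) := by
    push_cast
    rw [mul_comm 6, pow_mul]
    refine pow_le_pow_left₀ (by positivity) ?_ 6
    have e1 : (2:ℝ) ^ (3 * (M + h) - 1) = 4 * n := by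
      rw [← hnr, show 3 * (M + h) - 1 = (3 * (M + h) - 3) + 2 by omega, pow_add]; ring
    rw [e1]
    have : (1:ℝ) ≤ n := by exact_mod_cast hn0
    linarith
  have hfin : (2:ℝ) ^ (6 * (3 * (M + h) - 1)) * (2 ^ h * n) ≤ 2 ^ (22 * (M + h + 10)) := by
    rw [← hnr, ← pow_add, ← pow_add]
    exact pow_le_pow_right₀ (by norm_num) (by omega)
  have hW : 0 ≤ D * (a * w 2 * w 1 * R a (w 2) (w 1)) := by positivity
  calc (((2 * n + 1) ^ 6 : ℕ) : ℝ) * (2 ^ h * X)
      ≤ 2 ^ (6 * (3 * (M + h) - 1)) * (2 ^ h * X) := by gcongr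
    _ = (2 ^ (6 * (3 * (M + h) - 1)) * (2 ^ h * n)) * (D * (a * w 2 * w 1 * R a (w 2) (w 1))) := by
        rw [hX]; ring
    _ ≤ 2 ^ (22 * (M + h + 10)) * (D * (a * w 2 * w 1 * R a (w 2) (w 1))) := by gcongr
    _ = _ := by ring

end

end Crest.Agent.R136.UB289
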