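import Crest.Agent.R136.KF2_879

/-!
# R136, block U4 (pure penalty): order properties of `UBH`, the extremal gap `betH` (helper32)

* `UBH.mono`, `UBH.inf`, `UBH.iff_lt` : the set of upper bounds is a closed upper half line;
* `OkH.shift`, `UBH.shift` : `Ψ' ≤ Ψ + λ l` gives `UBH Ψ' b → UBH Ψ (b + λ)`;
* `betH`, `betH_spec`, `ubH_iff`, `le_betH`, `betH_le`, `betH_shift`, `betH_anti`.
-/

set_option autoImplicit false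

open Finset

namespace Crest.Agent.R136.KF879

open Crest.Agent.R138.Mk163 (zc zl rho alive own)
open Crest.Agent.R116.Xa794 (TS)
open Crest.Agent.R116.Xc794

section

variable {Ln ι S : Type}

/-- change of the reward: `Ψ' ≤ Ψ + λ l` multiplies the bottom density by `2^(λ M)`. -/
theorem OkH.shift {T : TS Ln ι S} {Ψ Ψ' : ℝ → (ι → ℝ) → ℝ} {h : ℕ} {F : Cfg Ln ι S} {lam : ℝ}
    (hF : OkH T Ψ h F) (hΨ : ∀ x : ι → ℝ, Ψ' F.M x ≤ Ψ F.M x + lam * F.M) :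
    OkH T Ψ' h { F with D0 := F.D0 * (2 : ℝ) ^ (lam * F.M) } where
  M1 := hF.M1
  h_le := hF.h_le
  ne := hF.ne
  cell := hF.cell
  D1p := hF.D1p
  nup := hF.nup
  fin := hF.fin
  top := hF.top
  low := hF.low
  own := hF.own
  up := by
    intro J s hs
    have h1 := hF.up J s hs
    refine h1.trans ?_
    have hv := T.volpos F.m s.1
    have hc : 0 < capP T Ψ (F.m + F.M) F.a F.m s.1 := by
      unfold capP; positivity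
    have hD0 : 0 ≤ F.D0 :=
      nonneg_of_mul_nonneg_left ((Nat.cast_nonneg _).trans h1) hc
    have e1 : (((F.m + F.M : ℕ) : ℝ) - F.m) = F.M := by push_cast; ring
    show F.D0 * (T.vol F.m s.1 * (2 : ℝ) ^ (-(Ψ (((F.m + F.M : ℕ) : ℝ) - F.m)
          (rel F.m s.1 (F.m + F.M) F.a)))) ≤ F.D0 * (2 : ℝ) ^ (lam * F.M) *
        (T.vol F.m s.1 * (2 : ℝ) ^ (-(Ψ' (((F.m + F.M : ℕ) : ℝ) - F.m)
          (rel F.m s.1 (F.m + F.M) F.a))))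
    rw [e1]
    have h2 := hΨ (rel F.m s.1 (F.m + F.M) F.a)
    have h3 : (2 : ℝ) ^ (-(Ψ F.M (rel F.m s.1 (F.m + F.M) F.a))) ≤
        (2 : ℝ) ^ (lam * F.M) * (2 : ℝ) ^ (-(Ψ' F.M (rel F.m s.1 (F.m + F.M) F.a))) := by
      rw [← Real.rpow_add (by norm_num)]
      exact Real.rpow_le_rpow_of_exponent_le (by norm_num) (by linarith)
    calc F.D0 * (T.vol F.m s.1 * (2 : ℝ) ^ (-(Ψ F.M (rel F.m s.1 (F.m + F.M) F.a)))) ≤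
          F.D0 * (T.vol F.m s.1 * ((2 : ℝ) ^ (lam * F.M) *
            (2 : ℝ) ^ (-(Ψ' F.M (rel F.m s.1 (F.m + F.M) F.a))))) :=
          mul_le_mul_of_nonneg_left (mul_le_mul_of_nonneg_left h3 hv.le) hD0
      _ = _ := by ring

/-- a bound of the gap implies that the bottom density is positive -/
theorem D0_pos_of {D1 D0 c : ℝ} (h1 : 0 < D1) (h : D1 ≤ (2 : ℝ) ^ c * D0) : 0 < D0 := by
  by_contra h0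
  push Not at h0
  have := mul_nonpos_of_nonneg_of_nonpos (by positivity : (0 : ℝ) ≤ (2 : ℝ) ^ c) h0
  linarith

theorem UBH.mono {K : ℕ} {𝒯 : Set (TS Ln ι S)} {Ψ : ℝ → (ι → ℝ) → ℝ} {b b' : ℝ}
    (h : UBH K 𝒯 Ψ b) (hb : b ≤ b') : UBH K 𝒯 Ψ b' := by
  intro η hη
  obtain ⟨δ, hδ, M0, h1⟩ := h η hη
  refine ⟨δ, hδ, M0, fun T hT F h hF a1 a2 a3 a4 a5 a6 => ?_⟩
  have h2 := h1 T hT F h hF a1 a2 a3 a4 a5 a6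
  have h3 := D0_pos_of hF.D1p h2
  refine h2.trans (mul_le_mul_of_nonneg_right ?_ h3.le)
  exact Real.rpow_le_rpow_of_exponent_le (by norm_num)
    (mul_le_mul_of_nonneg_right (by linarith) (Nat.cast_nonneg _))

theorem UBH.inf {K : ℕ} {𝒯 : Set (TS Ln ι S)} {Ψ : ℝ → (ι → ℝ) → ℝ} {b : ℝ}
    (h : ∀ b' : ℝ, b < b' → UBH K 𝒯 Ψ b') : UBH K 𝒯 Ψ b := by
  intro η hη
  obtain ⟨δ, hδ, M0, h1⟩ := h (b + η / 2) (by linarith) (η / 2) (by linarith)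
  refine ⟨δ, hδ, M0, fun T hT F h hF a1 a2 a3 a4 a5 a6 => ?_⟩
  have h2 := h1 T hT F h hF a1 a2 a3 a4 a5 a6
  have e : b + η / 2 + η / 2 = b + η := by ring
  rwa [e] at h2

/-- **change of the reward** : `Ψ' ≤ Ψ + λ l` -/
theorem UBH.shift {K : ℕ} {𝒯 : Set (TS Ln ι S)} {Ψ Ψ' : ℝ → (ι → ℝ) → ℝ} {b lam : ℝ}
    (h : UBH K 𝒯 Ψ' b) (hΨ : ∀ l x, 0 ≤ l → Ψ' l x ≤ Ψ l x + lam * l) :
    UBH K 𝒯 Ψ (b + lam) := by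
  intro η hη
  obtain ⟨δ, hδ, M0, h1⟩ := h η hη
  refine ⟨δ, hδ, M0, fun T hT F h hF a1 a2 a3 a4 a5 a6 => ?_⟩
  have h2 : F.D1 ≤ (2 : ℝ) ^ ((b + η) * F.M) * (F.D0 * (2 : ℝ) ^ (lam * F.M)) :=
    h1 T hT _ h (hF.shift (lam := lam) fun x => hΨ _ x (Nat.cast_nonneg _)) a1 a2 a3 a4 a5 a6
  refine h2.trans (le_of_eq ?_)
  have e : (b + lam + η) * (F.M : ℝ) = (b + η) * F.M + lam * F.M := by ring
  rw [e, Real.rpow_add (by norm_num)]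
  ring

/-- larger rewards : smaller gap -/
theorem UBH.anti {K : ℕ} {𝒯 : Set (TS Ln ι S)} {Ψ Ψ' : ℝ → (ι → ℝ) → ℝ} {b : ℝ}
    (h : UBH K 𝒯 Ψ' b) (hΨ : ∀ l x, 0 ≤ l → Ψ' l x ≤ Ψ l x) : UBH K 𝒯 Ψ b := by
  have := h.shift (Ψ := Ψ) (lam := 0) fun l x hl => by simpa using hΨ l x hl
  simpa using this

/-- the extremal gap -/
noncomputable def betH (K : ℕ) (𝒯 : Set (TS Ln ι S)) (Ψ : ℝ → (ι → ℝ) → ℝ) : ℝ :=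
  sInf {b | UBH K 𝒯 Ψ b}

/-- **the gap is attained**, if it is finite -/
theorem betH_spec {K : ℕ} {𝒯 : Set (TS Ln ι S)} {Ψ : ℝ → (ι → ℝ) → ℝ} {c C : ℝ}
    (hC : UBH K 𝒯 Ψ C) (hc : ∀ b : ℝ, b < c → ¬ UBH K 𝒯 Ψ b) :
    UBH K 𝒯 Ψ (betH K 𝒯 Ψ) ∧ (∀ b : ℝ, b < betH K 𝒯 Ψ → ¬ UBH K 𝒯 Ψ b) ∧
      c ≤ betH K 𝒯 Ψ ∧ betH K 𝒯 Ψ ≤ C := by
  have hbdd : BddBelow {b | UBH K 𝒯 Ψ b} := ⟨c, fun b hb => by
    by_contra h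
    push Not at h
    exact hc b h hb⟩
  have hne : {b | UBH K 𝒯 Ψ b}.Nonempty := ⟨C, hC⟩
  refine ⟨UBH.inf fun b' hb' => ?_, fun b hb h => ?_, le_csInf hne fun b hb => ?_,
    csInf_le hbdd hC⟩
  · obtain ⟨b, hb, hbb⟩ := exists_lt_of_csInf_lt hne hb'
    exact UBH.mono hb hbb.le
  · exact absurd (csInf_le hbdd (show b ∈ {b | UBH K 𝒯 Ψ b} from h)) (not_le.2 hb)
  · by_contra h
    push Not at h
    exact hc b h hb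

/-- upper bounds = numbers `≥ betH` -/
theorem ubH_iff {K : ℕ} {𝒯 : Set (TS Ln ι S)} {Ψ : ℝ → (ι → ℝ) → ℝ} {c C : ℝ}
    (hC : UBH K 𝒯 Ψ C) (hc : ∀ b : ℝ, b < c → ¬ UBH K 𝒯 Ψ b) (b : ℝ) :
    UBH K 𝒯 Ψ b ↔ betH K 𝒯 Ψ ≤ b := by
  obtain ⟨h1, h2, _, _⟩ := betH_spec hC hc
  refine ⟨fun h => ?_, fun h => h1.mono h⟩
  by_contra h3
  push Not at h3
  exact h2 b h3 h

/-- **the extremal gap under a change of the reward** : `Ψ' ≤ Ψ + λ l` gives `β Ψ ≤ β Ψ' + λ` -/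
theorem betH_shift {K : ℕ} {𝒯 : Set (TS Ln ι S)} {Ψ Ψ' : ℝ → (ι → ℝ) → ℝ} {c C c' C' lam : ℝ}
    (hC : UBH K 𝒯 Ψ C) (hc : ∀ b : ℝ, b < c → ¬ UBH K 𝒯 Ψ b)
    (hC' : UBH K 𝒯 Ψ' C') (hc' : ∀ b : ℝ, b < c' → ¬ UBH K 𝒯 Ψ' b)
    (hΨ : ∀ l x, 0 ≤ l → Ψ' l x ≤ Ψ l x + lam * l) :
    betH K 𝒯 Ψ ≤ betH K 𝒯 Ψ' + lam :=
  (ubH_iff hC hc _).1 ((betH_spec hC' hc').1.shift hΨ)

/-- larger rewards : smaller extremal gap -/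
theorem betH_anti {K : ℕ} {𝒯 : Set (TS Ln ι S)} {Ψ Ψ' : ℝ → (ι → ℝ) → ℝ} {c C c' C' : ℝ}
    (hC : UBH K 𝒯 Ψ C) (hc : ∀ b : ℝ, b < c → ¬ UBH K 𝒯 Ψ b)
    (hC' : UBH K 𝒯 Ψ' C') (hc' : ∀ b : ℝ, b < c' → ¬ UBH K 𝒯 Ψ' b)
    (hΨ : ∀ l x, 0 ≤ l → Ψ' l x ≤ Ψ l x) :
    betH K 𝒯 Ψ ≤ betH K 𝒯 Ψ' :=
  (ubH_iff hC hc _).1 ((betH_spec hC' hc').1.anti hΨ)

/-- near-extremisers: what `¬ UBH b` gives -/
theorem exists_of_not_ubH {K : ℕ} {𝒯 : Set (TS Ln ι S)} {Ψ : ℝ → (ι → ℝ) → ℝ} {b : ℝ}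
    (h : ¬ UBH K 𝒯 Ψ b) : ∃ η : ℝ, 0 < η ∧ ∀ δ : ℝ, 0 < δ → ∀ M0 : ℕ, ∃ T ∈ 𝒯,
      ∃ (F : Cfg Ln ι S) (h : ℕ), OkH T Ψ h F ∧ M0 ≤ F.M ∧ F.M ≤ K * h ∧ h ≤ F.M ∧
        Real.log (F.I.card : ℝ) ≤ (2 : ℝ) ^ (δ * F.M) ∧ (F.N : ℝ) ≤ (2 : ℝ) ^ (δ * F.M) ∧
        (2 : ℝ) ^ ((1 - δ) * (F.M + h : ℝ)) ≤ F.nu ∧
        (2 : ℝ) ^ ((b + η) * F.M) * F.D0 < F.D1 := by
  unfold UBH at h
  push Not at h
  obtain ⟨η, hη, h⟩ := h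
  refine ⟨η, hη, fun δ hδ M0 => ?_⟩
  obtain ⟨T, hT, F, h, hF, h1, h2, h3, h4, h5, h6, h7⟩ := h δ hδ M0
  exact ⟨T, hT, F, h, hF, h1, h2, h3, h4, h5, h6, h7⟩

end

end Crest.Agent.R136.KF879
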