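import Crest.Agent.R136.Ut0_262
import Crest.Agent.R138.NatTw_76
import Crest.Agent.R138.ArgM1_163

/-!
# R136 (S0187), U6 (helper555), part 0: abstract tools

* `dense_of_not_negl` : a part which is not negligible is dense (`U` is an ultrafilter);
* `J1c.sub'`, `J1.sub'` : `J1c`, `J1` pass to dense marked parts;
* `MkA.relabel` : new labels which split every class into few pieces: a dense part is again marked.
-/

set_option autoImplicit false
set_option linter.unusedVariables false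
set_option linter.unusedSectionVars false

open Finset Filter Topology

namespace Crest.Agent.R136.Us555

open Crest.Agent.R138.Ex926 Crest.Agent.R138.Dp76 Crest.Agent.R138.Ps627
open Crest.Agent.R138.Mk163 (zc zl rho alive own Negl)
open Crest.Agent.R138.NatTw76 (exists_avoid)
open Crest.Agent.R138.MkRef627 (lc kc own_one alive_mono mem_alive card_class own_lower hh hh_even
  hh_odd exists_num)
open Crest.Agent.R136.MkA627 Crest.Agent.R136.Sh605 Crest.Agent.R136.K4 Crest.Agent.R136.Top484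

open Classical in
/-- a part which is not negligible is dense. -/
theorem dense_of_not_negl {B : Base} {I : ℕ → Finset (ℕ × ℝ)} {P : ℕ → ℕ × ℝ → Prop}
    (h : ¬ Negl B I P) : Dense B (fun n => (I n).filter (P n)) I := by
  refine ⟨Eventually.of_forall fun n => filter_subset _ _, fun η hη => ?_⟩
  rcases ev_em (fun n => B.d n ^ η * ((I n).card : ℝ) ≤ (((I n).filter (P n)).card : ℝ)) with
    h1 | h1
  · exact h1
  · exact (h ⟨η, hη, h1.mono fun n hn => (not_le.1 hn).le⟩).elim

/-- D-max below the marks passes to dense parts. -/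
theorem DeepP.sub {σ κ : Type*} {B : Base} {I J : ℕ → Finset (ℕ × ℝ)} {G : Geo σ κ}
    {lev : ℕ → ℚ → ℕ} {A : ℕ → ℝ} {g : ℝ} {r0 : ℕ → ℝ} (h : Dia770.DeepP B I G lev A g r0)
    (hd : Dense B J I) : Dia770.DeepP B J G lev A g r0 :=
  fun v h0 h1 m hm hr K hK ε hε => h v h0 h1 m hm hr K (hK.trans hd) ε hε

open Classical in
/-- D-max at all levels passes to parts. -/
theorem AllD.sub {σ κ : Type*} {B : Base} {I J : ℕ → Finset (ℕ × ℝ)} {G : Geo σ κ}
    {lev : ℕ → ℚ → ℕ} {A : ℕ → ℝ} {g : ℝ} (h : Dia770.AllD B I G lev A g)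
    (hJ : ∀ n, J n ⊆ I n) : Dia770.AllD B J G lev A g := by
  intro ε hε
  filter_upwards [h ε hε] with n hn i h0 h1 j s hs
  refine le_trans ?_ (hn i h0 h1 j s hs)
  exact_mod_cast card_le_card (filter_subset_filter _ (alive_mono (hJ n) i j))

/-- `J1c` passes to a dense part with new marks of the same size. -/
theorem J1c.sub' {η : ℝ} {p : Par4} {D : Dat4} (h : J1c η p D) {J : ℕ → Finset (ℕ × ℝ)}
    {f' : ℕ → ℚ → ℕ → ℤ → ℕ} {b' : ℕ → ℚ → ℕ → Plk4} (hJ : ∀ n, J n ⊆ D.I n)
    (hd : Dense D.B J D.I)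
    (hM : MkA D.B J (D.G p) D.lev D.A (fun v => p.g * v) (fun v => 0 * v)
      (fun j v => p.θ j * (1 - v)) f' b' D.vm D.w) :
    J1c η p { D with I := J, f := f', b := b' } where
  mka := hM
  alld := AllD.sub h.alld hJ
  sub7 := h.sub7.mono (Eventually.of_forall hJ)
  dall := h.dall.imp fun _ => Exists.imp fun _ h1 => ⟨h1.1, h1.2.1.sub hJ, h1.2.2.sub hJ⟩
  q0 := h.q0
  q2 := h.q2
  q21 := h.q21
  g0 := h.g0
  θ1 := h.θ1
  θb := h.θb
  θ1b := h.θ1b
  wrs := h.wrs
  r0pos := h.r0pos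
  r0log := h.r0log
  vel := by
    filter_upwards [h.vel] with n hn x hx i using hn x (hJ n hx) i

/-- `J1` passes to a dense part with new marks of the same size. -/
theorem J1.sub' {η : ℝ} {p : Par4} {D : Dat4} (h : J1 η p D) {J : ℕ → Finset (ℕ × ℝ)}
    {f' : ℕ → ℚ → ℕ → ℤ → ℕ} {b' : ℕ → ℚ → ℕ → Plk4} (hJ : ∀ n, J n ⊆ D.I n)
    (hd : Dense D.B J D.I)
    (hM : MkA D.B J (D.G p) D.lev D.A (fun v => p.g * v) (fun v => 0 * v)
      (fun j v => p.θ j * (1 - v)) f' b' D.vm D.w) :
    J1 η p { D with I := J, f := f', b := b' } :=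
  ⟨J1c.sub' h.toJ1c hJ hd hM, h.g1, h.gq⟩

/-- `J1c` passes to a dense part of every dense part. -/
theorem J1c.refine {η : ℝ} {p : Par4} {D : Dat4} (h : J1c η p D) {J : ℕ → Finset (ℕ × ℝ)}
    (hJ : ∀ n, J n ⊆ D.I n) (hd : Dense D.B J D.I) :
    ∃ J' : ℕ → Finset (ℕ × ℝ), (∀ n, J' n ⊆ J n) ∧ Dense D.B J' D.I ∧
      J1c η p { D with I := J' } := by
  obtain ⟨J', h1, h2, -, h4⟩ := MkA.refine' h.mka hd
  have h5 := h2.trans hd
  exact ⟨J', h1, h5, J1c.sub' h (fun n => (h1 n).trans (hJ n)) h5 h4⟩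

/-- `J1` passes to a dense part of every dense part. -/
theorem J1.refine {η : ℝ} {p : Par4} {D : Dat4} (h : J1 η p D) {J : ℕ → Finset (ℕ × ℝ)}
    (hJ : ∀ n, J n ⊆ D.I n) (hd : Dense D.B J D.I) :
    ∃ J' : ℕ → Finset (ℕ × ℝ), (∀ n, J' n ⊆ J n) ∧ Dense D.B J' D.I ∧
      J1 η p { D with I := J' } := by
  obtain ⟨J', h1, h2, h3⟩ := J1c.refine h.toJ1c hJ hd
  exact ⟨J', h1, h2, ⟨h3, h.g1, h.gq⟩⟩

/-! ### few pieces: the unpopular ones are small -/

open Classical in
theorem bad_le {α β γ : Type*} (I : Finset α) (k : α → β) (k' : α → γ) {θ N : ℝ} (hθ : 0 ≤ θ)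
    (hN : ∀ x ∈ I, (((I.filter fun y => k y = k x).image k').card : ℝ) ≤ N) :
    ((I.filter fun x => ((I.filter fun y => k' y = k' x).card : ℝ) <
      θ * ((I.filter fun y => k y = k x).card : ℝ)).card : ℝ) ≤ N * θ * (I.card : ℝ) := by
  set bad := I.filter fun x => ((I.filter fun y => k' y = k' x).card : ℝ) <
      θ * ((I.filter fun y => k y = k x).card : ℝ) with hbad
  have e1 : (bad.card : ℝ) = ∑ c ∈ I.image k, ((bad.filter fun y => k y = c).card : ℝ) := by
    rw [card_eq_sum_card_fiberwise (f := k) (s := bad) (t := I.image k) (fun x hx => by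
      have hx' : x ∈ bad := hx
      rw [hbad, mem_filter] at hx'
      exact mem_image_of_mem _ hx'.1)]
    push_cast; rfl
  have e2 : (I.card : ℝ) = ∑ c ∈ I.image k, ((I.filter fun y => k y = c).card : ℝ) := by
    rw [card_eq_sum_card_image k I]
    push_cast; rfl
  rw [e1, e2, mul_sum]
  refine sum_le_sum fun c hc => ?_
  obtain ⟨x0, hx0, rfl⟩ := mem_image.1 hc
  set F := I.filter fun y => k y = k x0 with hF
  have hF0 : (0 : ℝ) ≤ F.card := Nat.cast_nonneg _
  have e3 : ((bad.filter fun y => k y = k x0).card : ℝ) =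
      ∑ a ∈ F.image k', (((bad.filter fun y => k y = k x0).filter fun y => k' y = a).card : ℝ) := by
    rw [card_eq_sum_card_fiberwise (f := k') (s := bad.filter fun y => k y = k x0)
      (t := F.image k') (fun x hx => by
        have hx' : x ∈ bad.filter fun y => k y = k x0 := hx
        rw [mem_filter, hbad, mem_filter] at hx'
        exact mem_image_of_mem _ (mem_filter.2 ⟨hx'.1.1, hx'.2⟩))]
    push_cast; rfl
  rw [e3]
  have e4 : ∀ a ∈ F.image k',
      (((bad.filter fun y => k y = k x0).filter fun y => k' y = a).card : ℝ) ≤ θ * F.card := by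
    intro a ha
    rcases ((bad.filter fun y => k y = k x0).filter fun y => k' y = a).eq_empty_or_nonempty with
      h0 | ⟨y, hy⟩
    · rw [h0, card_empty, Nat.cast_zero]
      exact mul_nonneg hθ hF0
    · rw [mem_filter, mem_filter] at hy
      obtain ⟨⟨hy1, hy2⟩, hy3⟩ := hy
      have hy4 := hy1
      rw [hbad, mem_filter] at hy4
      have hy5 := hy4.2
      rw [hy2, hy3] at hy5
      refine le_trans ?_ hy5.le
      have : ((bad.filter fun y => k y = k x0).filter fun y => k' y = a) ⊆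
          I.filter fun y => k' y = a := by
        intro z hz
        rw [mem_filter, mem_filter, hbad, mem_filter] at hz
        exact mem_filter.2 ⟨hz.1.1.1, hz.2⟩
      exact_mod_cast card_le_card this
  refine (sum_le_sum e4).trans ?_
  rw [sum_const, nsmul_eq_mul]
  have h1 := hN x0 hx0
  calc ((F.image k').card : ℝ) * (θ * F.card) ≤ N * (θ * F.card) :=
        mul_le_mul_of_nonneg_right h1 (mul_nonneg hθ hF0)
    _ = N * θ * F.card := by ring

section

variable {σ κ : Type*} {B : Base} {I : ℕ → Finset (ℕ × ℝ)} {G : Geo σ κ} {lev : ℕ → ℚ → ℕ}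
    {A : ℕ → ℝ} {c Λ : ℝ → ℝ} {τ : κ → ℝ → ℝ} {f : ℕ → ℚ → ℕ → ℤ → ℕ} {b : ℕ → ℚ → ℕ → σ}
    {vm : ℕ → ℚ → ℝ} {w : κ → ℕ → ℚ → ℝ}

open Classical in
/-- lines of a class and incidences of a class, any labels `φ`. -/
theorem class_conv (h : MkA B I G lev A c Λ τ f b vm w) (φ : ℕ → ℚ → ℕ → ℤ → ℕ) (v : ℚ)
    (hv0 : 0 ≤ v) (hv1 : v ≤ 1) {ε : ℝ} (hε : 0 < ε) :
    ∀ᶠ n in (U : Filter ℕ), ∀ x ∈ I n,
      B.d n ^ (-(1 - (v : ℝ)) + (Λ 1 - Λ v) + ε) *
          (((alive (I n) (lev n v) (zc (lev n v) x.2)).filter fun s =>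
            φ n v s (zc (lev n v) x.2) = φ n v x.1 (zc (lev n v) x.2)).card : ℝ) ≤
        (((I n).filter fun y => kc (lev n v) (φ n v) y = kc (lev n v) (φ n v) x).card : ℝ) ∧
      (((I n).filter fun y => kc (lev n v) (φ n v) y = kc (lev n v) (φ n v) x).card : ℝ) ≤
        B.d n ^ (-(1 - (v : ℝ)) + (Λ 1 - Λ v) - ε) *
          (((alive (I n) (lev n v) (zc (lev n v) x.2)).filter fun s =>
            φ n v s (zc (lev n v) x.2) = φ n v x.1 (zc (lev n v) x.2)).card : ℝ) := by
  filter_upwards [fib_bounds h v hv0 hv1 hε] with n h2 x hx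
  set J := zc (lev n v) x.2 with hJ
  set a : ℕ := φ n v x.1 J with ha
  have kI : ((I n).filter fun y => kc (lev n v) (φ n v) y = kc (lev n v) (φ n v) x) =
      (I n).filter fun y => (lc (lev n v) y).2 = J ∧ φ n v (lc (lev n v) y).1 J = a := by
    ext y
    rw [mem_filter, mem_filter]
    simp only [kc, lc, Prod.mk.injEq, ← hJ, ← ha]
    constructor
    · rintro ⟨h5, h6, h7⟩
      exact ⟨h5, h7, by rw [← h7]; exact h6⟩
    · rintro ⟨h5, h7, h6⟩
      exact ⟨h5, by rw [h7]; exact h6, h7⟩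
  rw [kI, card_class (I n) (lev n v) J (fun s => φ n v s J) a]
  constructor
  · have := mul_card_filter_le (n₁ := B.d n ^ (-(1 - (v : ℝ)) + (Λ 1 - Λ v) + ε)) (lc (lev n v))
      (I n) (fun o => o.2 = J ∧ φ n v o.1 J = a) (fun y hy => by convert (h2 y hy).1)
    convert this
  · have := card_filter_le_mul (n₂ := B.d n ^ (-(1 - (v : ℝ)) + (Λ 1 - Λ v) - ε)) (lc (lev n v))
      (I n) (fun o => o.2 = J ∧ φ n v o.1 J = a) (fun y hy => by convert (h2 y hy).2)
    convert this

open Classical in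
/-- **RELABEL.**  New labels `f'` refine the old ones and split every class into at most `d^(-δ)`
pieces (every `δ`); the new marks have the size and the widths of the old ones: a dense part is
marked by the new labels. -/
theorem MkA.relabel (h : MkA B I G lev A c Λ τ f b vm w) {f' : ℕ → ℚ → ℕ → ℤ → ℕ}
    {b' : ℕ → ℚ → ℕ → σ}
    (hmark : ∀ v : ℚ, 0 ≤ v → v ≤ 1 → ∀ᶠ n in (U : Filter ℕ), ∀ J : ℤ,
      ∀ t ∈ alive (I n) (lev n v) J,
        G.mem n (lev n v) J (b' n v (f' n v t J)) t ∧ G.adm n (lev n v) J (b' n v (f' n v t J)) ∧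
        G.val n (lev n v) J (b' n v (f' n v t J)) = vm n v ∧
        ∀ j, G.wid j (b' n v (f' n v t J)) = w j n v)
    (hcnt : ∀ v : ℚ, 0 ≤ v → v ≤ 1 → ∀ δ : ℝ, 0 < δ → ∀ᶠ n in (U : Filter ℕ), ∀ J : ℤ,
      ∀ t ∈ alive (I n) (lev n v) J,
        ((((alive (I n) (lev n v) J).filter fun s => f n v s J = f n v t J).image
          fun s => f' n v s J).card : ℝ) ≤ B.d n ^ (-δ)) :
    ∃ J' : ℕ → Finset (ℕ × ℝ), (∀ n, J' n ⊆ I n) ∧ Dense B J' I ∧
      MkA B J' G lev A c Λ τ f' b' vm w := by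
  -- the unpopular pieces are negligible
  have hneg : ∀ v : ℚ, 0 ≤ v → v ≤ 1 → ∀ ε : ℝ, 0 < ε → Negl B I fun n x =>
      (((I n).filter fun y => kc (lev n v) (f' n v) y = kc (lev n v) (f' n v) x).card : ℝ) <
        B.d n ^ ε *
          (((I n).filter fun y => kc (lev n v) (f n v) y = kc (lev n v) (f n v) x).card : ℝ) := by
    intro v h0 h1 ε hε
    refine ⟨ε / 2, by positivity, ?_⟩
    filter_upwards [hcnt v h0 h1 (ε / 2) (by positivity)] with n hn
    have hN : ∀ x ∈ I n, ((((I n).filter fun y => kc (lev n v) (f n v) y =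
        kc (lev n v) (f n v) x).image (kc (lev n v) (f' n v))).card : ℝ) ≤ B.d n ^ (-(ε / 2)) := by
      intro x hx
      refine le_trans ?_ (hn (zc (lev n v) x.2) x.1 (mem_alive.2 ⟨x, hx, rfl, rfl⟩))
      have hsub : ((I n).filter fun y => kc (lev n v) (f n v) y = kc (lev n v) (f n v) x).image
          (kc (lev n v) (f' n v)) ⊆
          (((alive (I n) (lev n v) (zc (lev n v) x.2)).filter fun s =>
            f n v s (zc (lev n v) x.2) = f n v x.1 (zc (lev n v) x.2)).image
              fun s => f' n v s (zc (lev n v) x.2)).image fun a => (a, zc (lev n v) x.2) := by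
        intro o ho
        obtain ⟨y, hy, rfl⟩ := mem_image.1 ho
        rw [mem_filter] at hy
        obtain ⟨hy1, hy2⟩ := hy
        simp only [kc, Prod.mk.injEq] at hy2
        obtain ⟨hy3, hy4⟩ := hy2
        refine mem_image.2 ⟨f' n v y.1 (zc (lev n v) x.2), mem_image.2 ⟨y.1, mem_filter.2
          ⟨mem_alive.2 ⟨y, hy1, rfl, hy4⟩, by rw [← hy3, hy4]⟩, rfl⟩, ?_⟩
        simp only [kc, hy4]
      have h5 := (card_le_card hsub).trans card_image_le
      exact_mod_cast h5
    have h3 := bad_le (I n) (kc (lev n v) (f n v)) (kc (lev n v) (f' n v)) (θ := B.d n ^ ε)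
      (N := B.d n ^ (-(ε / 2))) (dpow_pos B n ε).le (fun x hx => by convert hN x hx)
    have e1 : B.d n ^ (-(ε / 2)) * B.d n ^ ε = B.d n ^ (ε / 2) := by
      rw [← dpow_add]; congr 1; ring
    rw [e1] at h3
    convert h3
  -- avoid them for all levels and all `ε`
  obtain ⟨en, hen⟩ := exists_surjective_nat (ℚ × ℕ)
  have hN : ∀ k, Negl B I fun n x => (0 ≤ (en k).1 ∧ (en k).1 ≤ 1) ∧
      (((I n).filter fun y => kc (lev n (en k).1) (f' n (en k).1) y =
          kc (lev n (en k).1) (f' n (en k).1) x).card : ℝ) <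
        B.d n ^ (1 / (((en k).2 : ℝ) + 1)) *
          (((I n).filter fun y => kc (lev n (en k).1) (f n (en k).1) y =
            kc (lev n (en k).1) (f n (en k).1) x).card : ℝ) := by
    intro k
    by_cases hk : 0 ≤ (en k).1 ∧ (en k).1 ≤ 1
    · exact Crest.Agent.R138.Mk163.Negl.mono
        (hneg (en k).1 hk.1 hk.2 (1 / (((en k).2 : ℝ) + 1)) (by positivity))
        (Eventually.of_forall fun n x _ hx => hx.2)
    · exact Crest.Agent.R138.Mk163.Negl.mono Crest.Agent.R138.Mk163.Negl.false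
        (Eventually.of_forall fun n x _ hx => hk hx.1)
  obtain ⟨J0, hJ0I, hJ0d, hJ0⟩ := exists_avoid (B := B) (I := I) _ hN
  have hpop : ∀ v : ℚ, 0 ≤ v → v ≤ 1 → ∀ ε : ℝ, 0 < ε → ∀ᶠ n in (U : Filter ℕ), ∀ x ∈ J0 n,
      B.d n ^ ε *
          (((I n).filter fun y => kc (lev n v) (f n v) y = kc (lev n v) (f n v) x).card : ℝ) ≤
        (((I n).filter fun y => kc (lev n v) (f' n v) y = kc (lev n v) (f' n v) x).card : ℝ) := by
    intro v h0 h1 ε hε
    obtain ⟨K, hK⟩ := exists_nat_one_div_lt hε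
    obtain ⟨k, hk⟩ := hen (v, K)
    have h2 := hJ0 k
    rw [hk] at h2
    filter_upwards [h2] with n a1 x hx
    have a3 := a1 x hx
    have a4 := not_lt.1 fun hc => a3 ⟨⟨h0, h1⟩, hc⟩
    refine le_trans ?_ a4
    exact mul_le_mul_of_nonneg_right (dpow_le B n hK.le) (Nat.cast_nonneg _)
  -- prune
  obtain ⟨J', hsub, hhalf, hfib⟩ := prune_seq (η := fun _ _ => ℕ × ℤ) hJ0d (fun j n x =>
    if j % 2 = 0 then hh lev f (j / 2) n x else hh lev f' (j / 2) n x)
  have hJ'J : Dense B J' J0 := dense_of_half (by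
    filter_upwards [hhalf] with n hn using ⟨(hsub n).1, hn⟩)
  have hJ'I : Dense B J' I := hJ'J.trans hJ0d
  have hf1 : ∀ j : ℕ, ∀ ε : ℝ, 0 < ε → ∀ᶠ n in (U : Filter ℕ), ∀ x ∈ J' n,
      B.d n ^ ε * (((I n).filter fun y => hh lev f j n y = hh lev f j n x).card : ℝ) ≤
        (((J' n).filter fun y => hh lev f j n y = hh lev f j n x).card : ℝ) := by
    intro j ε hε
    have := hfib (2 * j) ε hε
    have h1 : (2 * j) / 2 = j := by omega
    have h2 : (2 * j) % 2 = 0 := by omega
    simp only [h1, h2, if_true] at this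
    exact this
  have hf2 : ∀ j : ℕ, ∀ ε : ℝ, 0 < ε → ∀ᶠ n in (U : Filter ℕ), ∀ x ∈ J' n,
      B.d n ^ ε * (((I n).filter fun y => hh lev f' j n y = hh lev f' j n x).card : ℝ) ≤
        (((J' n).filter fun y => hh lev f' j n y = hh lev f' j n x).card : ℝ) := by
    intro j ε hε
    have := hfib (2 * j + 1) ε hε
    have h1 : (2 * j + 1) / 2 = j := by omega
    have h2 : ¬ (2 * j + 1) % 2 = 0 := by omega
    simp only [h1, h2, if_false] at this
    exact this
  have fl : ∀ v : ℚ, ∀ ε : ℝ, 0 < ε → ∀ᶠ n in (U : Filter ℕ), ∀ x ∈ J' n,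
      B.d n ^ ε * (((I n).filter fun y => lc (lev n v) y = lc (lev n v) x).card : ℝ) ≤
        (((J' n).filter fun y => lc (lev n v) y = lc (lev n v) x).card : ℝ) := by
    intro v ε hε
    obtain ⟨j, rfl⟩ := exists_num v
    filter_upwards [hf1 (2 * j) ε hε] with n hn x hx
    have := hn x hx
    simp only [hh_even] at this
    exact this
  have fk : ∀ v : ℚ, ∀ ε : ℝ, 0 < ε → ∀ᶠ n in (U : Filter ℕ), ∀ x ∈ J' n,
      B.d n ^ ε * (((I n).filter fun y => kc (lev n v) (f n v) y = kc (lev n v) (f n v) x).card : ℝ)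
        ≤ (((J' n).filter fun y => kc (lev n v) (f n v) y = kc (lev n v) (f n v) x).card : ℝ) := by
    intro v ε hε
    obtain ⟨j, rfl⟩ := exists_num v
    filter_upwards [hf1 (2 * j + 1) ε hε] with n hn x hx
    have := hn x hx
    simp only [hh_odd] at this
    exact this
  have fk' : ∀ v : ℚ, ∀ ε : ℝ, 0 < ε → ∀ᶠ n in (U : Filter ℕ), ∀ x ∈ J' n,
      B.d n ^ ε *
          (((I n).filter fun y => kc (lev n v) (f' n v) y = kc (lev n v) (f' n v) x).card : ℝ) ≤
        (((J' n).filter fun y => kc (lev n v) (f' n v) y = kc (lev n v) (f' n v) x).card : ℝ) := by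
    intro v ε hε
    obtain ⟨j, rfl⟩ := exists_num v
    filter_upwards [hf2 (2 * j + 1) ε hε] with n hn x hx
    have := hn x hx
    simp only [hh_odd] at this
    exact this
  have hM : MkA B J' G lev A c Λ τ f b vm w := MkA.of_fib h (fun n => (hsub n).2)
    (hJ'I.nonempty h.ne) (fun v _ _ => fl v) (fun v _ _ => fk v)
  refine ⟨J', fun n => (hsub n).2, hJ'I, ?_⟩
  exact
    { ne := hM.ne
      card := hM.card
      Apos := hM.Apos
      c0 := hM.c0
      lam0 := hM.lam0
      lam := hM.lam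
      tau1 := hM.tau1
      lev_mono := hM.lev_mono
      lev_lim := hM.lev_lim
      cell0 := hM.cell0
      one := hM.one
      own := hM.own
      dmax := hM.dmax
      mark := by
        intro v h0 h1
        filter_upwards [hmark v h0 h1] with n hn J t ht
        exact hn J t (alive_mono (hsub n).2 _ _ ht)
      near := by
        intro v h0 h1 ε hε
        have h5 : 0 < ε / 5 := by positivity
        filter_upwards [hM.near v h0 h1 (ε / 5) h5, class_conv hM f v h0 h1 h5,
          class_conv hM f' v h0 h1 h5, hpop v h0 h1 (ε / 5) h5, fk' v (ε / 5) h5] with n a1 a2 a3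
          a4 a5 J t ht
        obtain ⟨x, hx, hx1, hx2⟩ := mem_alive.1 ht
        subst hx1
        subst hx2
        have b1 := a1 _ x.1 ht
        have b2 := (a2 x hx).1
        have b3 := (a3 x hx).2
        have b4 := a4 x ((hsub n).1 hx)
        have b5 := a5 x hx
        have b6 : (((J' n).filter fun y => kc (lev n v) (f n v) y =
            kc (lev n v) (f n v) x).card : ℝ) ≤
            (((I n).filter fun y => kc (lev n v) (f n v) y = kc (lev n v) (f n v) x).card : ℝ) := by
          exact_mod_cast card_le_card (filter_subset_filter _ (hsub n).2)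
        set N1 : ℝ := (((alive (J' n) (lev n v) (zc (lev n v) x.2)).filter fun s =>
            f n v s (zc (lev n v) x.2) = f n v x.1 (zc (lev n v) x.2)).card : ℝ) with hN1
        set N2 : ℝ := (((alive (J' n) (lev n v) (zc (lev n v) x.2)).filter fun s =>
            f' n v s (zc (lev n v) x.2) = f' n v x.1 (zc (lev n v) x.2)).card : ℝ) with hN2
        have pe := dpow_pos B n (ε / 5)
        have c1 : B.d n ^ (ε / 5) * (B.d n ^ (ε / 5) *
            (B.d n ^ (-(1 - (v : ℝ)) + (Λ 1 - Λ v) + ε / 5) * N1)) ≤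
            B.d n ^ (-(1 - (v : ℝ)) + (Λ 1 - Λ v) - ε / 5) * N2 :=
          calc _ ≤ B.d n ^ (ε / 5) * (B.d n ^ (ε / 5) * (((I n).filter fun y =>
                kc (lev n v) (f n v) y = kc (lev n v) (f n v) x).card : ℝ)) :=
                mul_le_mul_of_nonneg_left (mul_le_mul_of_nonneg_left (b2.trans b6) pe.le) pe.le
            _ ≤ B.d n ^ (ε / 5) * (((I n).filter fun y =>
                kc (lev n v) (f' n v) y = kc (lev n v) (f' n v) x).card : ℝ) :=
                mul_le_mul_of_nonneg_left b4 pe.le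
            _ ≤ _ := b5.trans b3
        have c2 : N1 ≤ B.d n ^ (-(4 * (ε / 5))) * N2 := by
          have e1 : B.d n ^ (ε / 5) * (B.d n ^ (ε / 5) *
              (B.d n ^ (-(1 - (v : ℝ)) + (Λ 1 - Λ v) + ε / 5) * N1)) =
              B.d n ^ (-(1 - (v : ℝ)) + (Λ 1 - Λ v) - ε / 5 + 4 * (ε / 5)) * N1 := by
            rw [← mul_assoc, ← mul_assoc, ← dpow_add, ← dpow_add]
            congr 2; ring
          rw [e1, dpow_add, mul_assoc] at c1
          have c3 := le_of_mul_le_mul_left c1 (dpow_pos B n _)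
          have c4 := mul_le_mul_of_nonneg_left c3 (dpow_pos B n (-(4 * (ε / 5)))).le
          rw [← mul_assoc, ← dpow_add, neg_add_cancel, Real.rpow_zero, one_mul] at c4
          exact c4
        refine b1.trans ?_
        have e2 : B.d n ^ (-ε) = B.d n ^ (-(ε / 5)) * B.d n ^ (-(4 * (ε / 5))) := by
          rw [← dpow_add]; congr 1; ring
        rw [e2, mul_assoc]
        exact mul_le_mul_of_nonneg_left c2 (dpow_pos B n _).le
      vpos := hM.vpos
      wpos := hM.wpos
      tau := hM.tau }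

end

end Crest.Agent.R136.Us555
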