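import Crest.Agent.R136.Us0_555

/-!
# R136 (S0187), U6 (helper555), part 1: flat sheets (321's `FltS`) and their planks

`FltW` : the sheet lies in the slab of normal `n` and half-thickness `K a` around a moving plane.
`exists_plank` : ONE orthonormal frame in which two lines of the sheet differ by at most
`2 (K + 1) a`, `6 w1`, `4 w2`, for every `K` with `FltS K`.
-/

set_option autoImplicit false
set_option linter.unusedVariables false

open Finset Filter Topology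

namespace Crest.Agent.R136.Us555

open Crest.Agent.R138.Ex926 (Base U)
open Crest.Agent.R138.Dp76 (Dense)
open Crest.Agent.R138.Mk163 (zc zl rho alive own Negl)
open Crest.Agent.R136.MkA627 Crest.Agent.R136.Sh605 Crest.Agent.R136.K4 Crest.Agent.R136.Top484
open Crest.Agent.R136.Ut262 (mkS w_pos ortho_comp)

/-- the sheet lies in a slab of normal `n` and half-thickness `K a` around a moving plane -/
def FltW (e : Fin 3 → V3) (c : Ln4) (w : V3) (q : ℝ → V3 → ℝ) (a z0 ρ K : ℝ) (n : V3) : Prop :=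
  dt n n = 1 ∧ ∃ m : Ln4, ∀ z, z0 ≤ z → z ≤ z0 + ρ → ∀ x : V3, InK e c w z x → |q z x| ≤ a →
    |dt n (x - m.pos z)| ≤ K * a

/-- **flat sheet** (helper321) -/
def FltS (e : Fin 3 → V3) (c : Ln4) (w : V3) (q : ℝ → V3 → ℝ) (a z0 ρ K : ℝ) : Prop :=
  ∃ n : V3, FltW e c w q a z0 ρ K n

theorem FltW.mono {e : Fin 3 → V3} {c : Ln4} {w : V3} {q : ℝ → V3 → ℝ} {a z0 ρ K K' : ℝ} {n : V3}
    (h : FltW e c w q a z0 ρ K n) (ha : 0 ≤ a) (hK : K ≤ K') : FltW e c w q a z0 ρ K' n := by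
  obtain ⟨h1, m, h2⟩ := h
  exact ⟨h1, m, fun z z0 z1 x hx hq =>
    (h2 z z0 z1 x hx hq).trans (mul_le_mul_of_nonneg_right hK ha)⟩

theorem FltS.mono {e : Fin 3 → V3} {c : Ln4} {w : V3} {q : ℝ → V3 → ℝ} {a z0 ρ K K' : ℝ}
    (h : FltS e c w q a z0 ρ K) (ha : 0 ≤ a) (hK : K ≤ K') : FltS e c w q a z0 ρ K' := by
  obtain ⟨n, hn⟩ := h
  exact ⟨n, hn.mono ha hK⟩

/-- the mark of level `v` of `x` is a flat sheet up to the factor `K` -/
def FltSM (D : Dat4) (K : ℝ) (n : ℕ) (v : ℚ) (x : ℕ × ℝ) : Prop :=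
  FltS (mkS D n v x).e (mkS D n v x).c (mkS D n v x).w (mkS D n v x).q (mkS D n v x).a
    (zl (D.lev n v) (zc (D.lev n v) x.2)) (rho (D.lev n v)) K

/-- **THICK**: outside negligible sets the marks of every level are flat up to `d^(-ε)` -/
def ThickS (D : Dat4) : Prop :=
  ∀ v : ℚ, 0 ≤ v → v ≤ 1 → ∀ ε : ℝ, 0 < ε →
    Negl D.B D.I fun n x => ¬ FltSM D (D.B.d n ^ (-ε)) n v x

/-! ### the frame -/

/-- Parseval in an orthonormal frame -/
theorem dt_expand {e : Fin 3 → V3} (he : Ortho e) (u y : V3) :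
    dt u y = dt (e 0) u * dt (e 0) y + dt (e 1) u * dt (e 1) y + dt (e 2) u * dt (e 2) y := by
  have h := he.expand u
  have e0 := h 0
  have e1 := h 1
  have e2 := h 2
  have : dt u y = u 0 * y 0 + u 1 * y 1 + u 2 * y 2 := rfl
  rw [this, e0, e1, e2]
  simp only [dt]
  ring

/-- components of a unit vector -/
theorem abs_dt_le_one {u v : V3} (hu : dt u u = 1) (hv : dt v v = 1) : |dt u v| ≤ 1 := by
  have h0 : 0 ≤ dt (u - v) (u - v) := by
    simp only [dt]; nlinarith [sq_nonneg ((u - v) 0), sq_nonneg ((u - v) 1), sq_nonneg ((u - v) 2)]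
  have h1 : 0 ≤ dt (u + v) (u + v) := by
    simp only [dt]; nlinarith [sq_nonneg ((u + v) 0), sq_nonneg ((u + v) 1), sq_nonneg ((u + v) 2)]
  rw [dt_sub, dt_comm (u - v) u, dt_comm (u - v) v, dt_sub, dt_sub, dt_comm v u] at h0
  rw [dt_add, dt_comm (u + v) u, dt_comm (u + v) v, dt_add, dt_add, dt_comm v u] at h1
  rw [abs_le]
  constructor <;> linarith

/-- **frame with first vector `n` and third vector orthogonal to `e 1`** -/
theorem exists_frame {e : Fin 3 → V3} (he : Ortho e) {n : V3} (hn : dt n n = 1) :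
    ∃ F : Fin 3 → V3, Ortho F ∧ (∀ y, dt (F 0) y = dt n y) ∧
      (∀ y, |dt (F 1) y| ≤ |dt (e 0) y| + |dt (e 1) y| + |dt (e 2) y|) ∧
      ∀ y, |dt (F 2) y| ≤ |dt (e 0) y| + |dt (e 2) y| := by
  set g0 := dt (e 0) n with hg0
  set g1 := dt (e 1) n with hg1
  set g2 := dt (e 2) n with hg2
  have hg : g0 ^ 2 + g1 ^ 2 + g2 ^ 2 = 1 := by
    rw [dt_expand he n n] at hn
    nlinarith
  -- a rotation matrix
  obtain ⟨r, hr, r00, r01, r02, r21⟩ : ∃ r : Fin 3 → V3, Ortho r ∧ r 0 0 = g0 ∧ r 0 1 = g1 ∧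
      r 0 2 = g2 ∧ r 2 1 = 0 := by
    by_cases hM : g0 ^ 2 + g2 ^ 2 = 0
    · have h0 : g0 = 0 := by nlinarith [sq_nonneg g0, sq_nonneg g2]
      have h2 : g2 = 0 := by nlinarith [sq_nonneg g0, sq_nonneg g2]
      refine ⟨![![g0, g1, g2], ![1, 0, 0], ![0, 0, 1]], ?_, rfl, rfl, rfl, rfl⟩
      rw [h0, h2] at hg ⊢
      intro i j
      fin_cases i <;> fin_cases j <;>
        simp only [dt, Fin.zero_eta, Fin.mk_one, Fin.reduceFinMk, Matrix.cons_val,
          Fin.isValue, if_true, Fin.reduceEq, if_false] <;> nlinarith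
    · have hM' : 0 < g0 ^ 2 + g2 ^ 2 := lt_of_le_of_ne (by positivity) (Ne.symm hM)
      set M := Real.sqrt (g0 ^ 2 + g2 ^ 2) with hMd
      have hM0 : 0 < M := Real.sqrt_pos.2 hM'
      have hM1 : M ≠ 0 := hM0.ne'
      have sM : M ^ 2 = g0 ^ 2 + g2 ^ 2 := Real.sq_sqrt hM'.le
      have sM' : M ^ 2 + g1 ^ 2 = 1 := by rw [sM]; linarith
      refine ⟨![![g0, g1, g2], ![-(g0 * g1) / M, M, -(g1 * g2) / M], ![-g2 / M, 0, g0 / M]], ?_,
        rfl, rfl, rfl, rfl⟩
      intro i j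
      fin_cases i <;> fin_cases j <;>
        simp only [dt, Fin.zero_eta, Fin.mk_one, Fin.reduceFinMk, Matrix.cons_val,
          Fin.isValue, if_true, Fin.reduceEq, if_false]
      · nlinarith
      · field_simp; rw [sM]; ring
      · field_simp; ring
      · field_simp; rw [sM]; ring
      · field_simp
        have : (g0 * g1) ^ 2 + M ^ 2 * M ^ 2 + (g1 * g2) ^ 2 = M ^ 2 := by
          have e1 : (g0 * g1) ^ 2 + (g1 * g2) ^ 2 = g1 ^ 2 * M ^ 2 := by rw [sM]; ring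
          calc (g0 * g1) ^ 2 + M ^ 2 * M ^ 2 + (g1 * g2) ^ 2
              = ((g0 * g1) ^ 2 + (g1 * g2) ^ 2) + M ^ 2 * M ^ 2 := by ring
            _ = M ^ 2 * (M ^ 2 + g1 ^ 2) := by rw [e1]; ring
            _ = M ^ 2 := by rw [sM', mul_one]
        nlinarith
      · field_simp; ring
      · field_simp; ring
      · field_simp; ring
      · field_simp; linarith
  have hF := ortho_comp he hr
  have hF1 : ∀ (i : Fin 3) (y : V3),
      dt (r i 0 • e 0 + r i 1 • e 1 + r i 2 • e 2) y =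
        r i 0 * dt (e 0) y + r i 1 * dt (e 1) y + r i 2 * dt (e 2) y := by
    intro i y
    simp only [add_dt, smul_dt]
  -- entries of the rotation matrix
  have hr1 : ∀ i j : Fin 3, |r i j| ≤ 1 := by
    intro i j
    have h1 := hr i i
    simp only [dt, if_true] at h1
    rw [abs_le_one_iff_mul_self_le_one]
    fin_cases j <;> simp only [Fin.zero_eta, Fin.mk_one, Fin.reduceFinMk] <;>
      nlinarith [mul_self_nonneg (r i 0), mul_self_nonneg (r i 1), mul_self_nonneg (r i 2)]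
  have m1 : ∀ (i j : Fin 3) (y : ℝ), |r i j * y| ≤ |y| := by
    intro i j y
    rw [abs_mul]
    calc |r i j| * |y| ≤ 1 * |y| := mul_le_mul_of_nonneg_right (hr1 i j) (abs_nonneg _)
      _ = |y| := one_mul _
  refine ⟨_, hF, ?_, ?_, ?_⟩
  · intro y
    rw [hF1, r00, r01, r02, dt_expand he n y]
  · intro y
    rw [hF1]
    exact (abs_add_le _ _).trans (add_le_add ((abs_add_le _ _).trans
      (add_le_add (m1 _ _ _) (m1 _ _ _))) (m1 _ _ _))
  · intro y
    rw [hF1, r21, zero_mul, add_zero]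
    exact (abs_add_le _ _).trans (add_le_add (m1 _ _ _) (m1 _ _ _))

/-- **the plank frame of a flat sheet**, one frame for all `K`. -/
theorem exists_plank {e : Fin 3 → V3} {c : Ln4} {w : V3} {q : ℝ → V3 → ℝ} {a z0 ρ r0 : ℝ}
    (h : ShN e c w q a z0 ρ r0) (ha : 0 < a) :
    ∃ F : Fin 3 → V3, Ortho F ∧ ∀ K : ℝ, 0 ≤ K → FltS e c w q a z0 ρ K → ∀ t t' : Ln4,
      InSheet t e c w q a z0 ρ → InSheet t' e c w q a z0 ρ → ∀ z, z0 ≤ z → z ≤ z0 + ρ →
      |dt (F 0) (t'.pos z - t.pos z)| ≤ 2 * (K + 1) * a ∧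
      |dt (F 1) (t'.pos z - t.pos z)| ≤ 6 * w 1 ∧
      |dt (F 2) (t'.pos z - t.pos z)| ≤ 4 * w 2 := by
  classical
  set S : Set ℝ := {K | 0 ≤ K ∧ FltS e c w q a z0 ρ K} with hS
  by_cases hne : S.Nonempty
  · have hb : BddBelow S := ⟨0, fun K hK => hK.1⟩
    -- a near-optimal normal vector
    obtain ⟨n, hn⟩ : ∃ n, FltW e c w q a z0 ρ (sInf S + 1) n := by
      obtain ⟨K, hK, hK1⟩ := exists_lt_of_csInf_lt hne (lt_add_one (sInf S))
      obtain ⟨n, hn⟩ := hK.2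
      exact ⟨n, hn.mono ha.le hK1.le⟩
    obtain ⟨F, hF, F0, F1, F2⟩ := exists_frame h.ortho hn.1
    refine ⟨F, hF, fun K hK hf t t' ht ht' z hz0 hz1 => ?_⟩
    have hKS : sInf S ≤ K := csInf_le hb ⟨hK, hf⟩
    obtain ⟨hn1, m, hm⟩ := hn
    obtain ⟨i1, i2⟩ := ht z hz0 hz1
    obtain ⟨i1', i2'⟩ := ht' z hz0 hz1
    have b1 := hm z hz0 hz1 _ i1 i2
    have b2 := hm z hz0 hz1 _ i1' i2'
    have hy : ∀ i, |dt (e i) (t'.pos z - t.pos z)| ≤ 2 * w i := by
      intro i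
      have e1 : t'.pos z - t.pos z = (t'.pos z - c.pos z) - (t.pos z - c.pos z) := by abel
      rw [e1, dt_sub]
      have := (abs_sub _ _).trans (add_le_add (i1' i) (i1 i))
      linarith
    have hw0 : w 0 ≤ w 2 := h.w0_le
    have hy0 : |dt (e 0) (t'.pos z - t.pos z)| ≤ 2 * w 2 := (hy 0).trans (by linarith)
    have hy1 := hy 1
    have hy2 := hy 2
    refine ⟨?_, ?_, ?_⟩
    · rw [F0]
      have e1 : t'.pos z - t.pos z = (t'.pos z - m.pos z) - (t.pos z - m.pos z) := by abel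
      rw [e1, dt_sub]
      refine (abs_sub _ _).trans ((add_le_add b2 b1).trans ?_)
      have : (sInf S + 1) * a ≤ (K + 1) * a := mul_le_mul_of_nonneg_right (by linarith) ha.le
      linarith
    · refine (F1 _).trans ?_
      have := h.w_le
      linarith
    · refine (F2 _).trans ?_
      linarith
  · exact ⟨e, h.ortho, fun K hK hf => (hne ⟨K, hK, hf⟩).elim⟩

/-! ### the new plank: a box around a line -/

/-- widths of the plank -/
def wP (w : V3) : V3 := ![w 2, w 1, w 2]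

/-- function of the plank -/
def qP (F : Fin 3 → V3) (c : Ln4) : ℝ → V3 → ℝ := fun z x => dt (F 0) (x - c.pos z)

theorem qP_isQ (F : Fin 3 → V3) (c : Ln4) : IsQ (qP F c) := by
  refine ⟨-dt (F 0) c.p, -dt (F 0) c.v, 0, F 0, 0, 0, fun z x => ?_⟩
  simp only [qP, dt, Ln4.pos, Pi.sub_apply, Fin.sum_univ_three, Pi.zero_apply]
  ring

/-- the plank is a legal sheet. -/
theorem plank_shN {e : Fin 3 → V3} {c : Ln4} {w : V3} {q : ℝ → V3 → ℝ} {a z0 ρ r0 : ℝ}
    (h : ShN e c w q a z0 ρ r0) (ha : 0 < a) {F : Fin 3 → V3} (hF : Ortho F) (c' : Ln4) :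
    ShN F c' (wP w) (qP F c') a z0 ρ r0 := by
  have hw := w_pos h ha
  have h1 : wP w 1 = w 1 := rfl
  have h2 : wP w 2 = w 2 := rfl
  have hs : ∀ (i : Fin 3) (z : ℝ) (x : V3) (τ : ℝ),
      qP F c' z (x + τ • F i) - qP F c' z x = τ * (if (0 : Fin 3) = i then 1 else 0) := by
    intro i z x τ
    have e2 : x + τ • F i - c'.pos z = (x - c'.pos z) + τ • F i := by abel
    simp only [qP]
    rw [e2, dt_add, dt_smul, hF 0 i]
    ring
  have k0 : ∀ z, z0 ≤ z → z ≤ z0 + ρ → ∀ (x : V3) (τ : ℝ), 0 ≤ τ → InK F c' (dbl3 (wP w)) z x →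
      InK F c' (dbl3 (wP w)) z (x + τ • F 0) →
      τ / 2 ≤ qP F c' z (x + τ • F 0) - qP F c' z x ∧
        qP F c' z (x + τ • F 0) - qP F c' z x ≤ 2 * τ := by
    intro z _ _ x τ hτ _ _
    rw [hs 0]
    simp only [if_true, mul_one]
    constructor <;> linarith
  have k1 : ∀ z, z0 ≤ z → z ≤ z0 + ρ → ∀ (x : V3) (τ : ℝ), 0 ≤ τ → InK F c' (dbl3 (wP w)) z x →
      InK F c' (dbl3 (wP w)) z (x + τ • F 1) →
      |qP F c' z (x + τ • F 1) - qP F c' z x| ≤ wP w 2 / wP w 1 * τ := by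
    intro z _ _ x τ hτ _ _
    rw [hs 1, h1, h2]
    simp only [Fin.isValue, Fin.reduceEq, if_false, mul_zero, abs_zero]
    exact mul_nonneg (div_nonneg (hw 2).le (hw 1).le) hτ
  have k2 : ∀ z, z0 ≤ z → z ≤ z0 + ρ → ∀ (x : V3) (τ : ℝ), 0 ≤ τ → InK F c' (dbl3 (wP w)) z x →
      InK F c' (dbl3 (wP w)) z (x + τ • F 2) →
      |qP F c' z (x + τ • F 2) - qP F c' z x| ≤ τ := by
    intro z _ _ x τ hτ _ _
    rw [hs 2]
    simp only [Fin.isValue, Fin.reduceEq, if_false, mul_zero, abs_zero]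
    exact hτ
  exact ShN0.toN ⟨hF, qP_isQ F c', rfl, h.a_le, h.w_le, h.r0_le, k0, k1, k2⟩

/-- differences of lines are affine in `z`: bounds at the ends of an interval hold inside. -/
theorem abs_dt_pos_le {u : V3} {t t' : Ln4} {z0 ρ h z : ℝ} (hρ : 0 < ρ)
    (h0 : |dt u (t'.pos z0 - t.pos z0)| ≤ h)
    (h1 : |dt u (t'.pos (z0 + ρ) - t.pos (z0 + ρ))| ≤ h) (hz0 : z0 ≤ z) (hz1 : z ≤ z0 + ρ) :
    |dt u (t'.pos z - t.pos z)| ≤ h := by
  set A := dt u (t'.pos z0 - t.pos z0) with hA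
  set B := dt u (t'.pos (z0 + ρ) - t.pos (z0 + ρ)) with hB
  have e1 : dt u (t'.pos z - t.pos z) * ρ = A * (z0 + ρ - z) + B * (z - z0) := by
    rw [hA, hB]
    simp only [dt, Ln4.pos, Pi.sub_apply]
    ring
  have e2 : dt u (t'.pos z - t.pos z) = (A * (z0 + ρ - z) + B * (z - z0)) / ρ := by
    rw [← e1]; field_simp
  rw [e2, abs_div, abs_of_pos hρ, div_le_iff₀ hρ]
  calc |A * (z0 + ρ - z) + B * (z - z0)| ≤ |A * (z0 + ρ - z)| + |B * (z - z0)| := abs_add_le _ _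
    _ = |A| * (z0 + ρ - z) + |B| * (z - z0) := by
        rw [abs_mul, abs_mul, abs_of_nonneg (by linarith : 0 ≤ z0 + ρ - z),
          abs_of_nonneg (by linarith : 0 ≤ z - z0)]
    _ ≤ h * (z0 + ρ - z) + h * (z - z0) :=
        add_le_add (mul_le_mul_of_nonneg_right h0 (by linarith))
          (mul_le_mul_of_nonneg_right h1 (by linarith))
    _ = h * ρ := by ring

/-! ### floors -/

/-- equal floors: close -/
theorem abs_sub_le_of_floor {x y h : ℝ} (hh : 0 < h) (hf : ⌊x / h⌋ = ⌊y / h⌋) : |x - y| ≤ h := by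
  have h1 := Int.abs_sub_lt_one_of_floor_eq_floor hf
  rw [← sub_div, abs_div, abs_of_pos hh, div_lt_one hh] at h1
  exact h1.le

/-- close: the floor lies in a short interval -/
theorem floor_mem_Icc {x y h : ℝ} {N : ℕ} (hh : 0 < h) (hxy : |x - y| ≤ N * h) :
    ⌊x / h⌋ ∈ Finset.Icc (⌊y / h⌋ - (N + 1)) (⌊y / h⌋ + (N + 1)) := by
  rw [abs_le] at hxy
  have h1 : x / h ≤ y / h + N := by
    rw [div_add' _ _ _ hh.ne']; exact div_le_div_of_nonneg_right (by linarith) hh.le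
  have h2 : y / h - N ≤ x / h := by
    rw [div_sub' hh.ne']; exact div_le_div_of_nonneg_right (by linarith) hh.le
  rw [Finset.mem_Icc]
  constructor
  · rw [Int.le_floor]
    have := Int.floor_le (y / h)
    push_cast
    linarith
  · rw [← Int.lt_add_one_iff, Int.floor_lt]
    have := Int.lt_floor_add_one (y / h)
    push_cast
    linarith

/-- the six floors of a line: coordinates in the frame `F`, from the line `c`, in units `h`, at the
two ends of the cell -/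
noncomputable def flo (F : Fin 3 → V3) (c : Ln4) (h : Fin 3 → ℝ) (z0 ρ : ℝ) (t : Ln4) :
    Fin 2 → Fin 3 → ℤ :=
  fun s k => ⌊dt (F k) (t.pos (z0 + (s : ℝ) * ρ) - c.pos (z0 + (s : ℝ) * ρ)) / h k⌋

/-- equal floors: the lines are close over the whole cell -/
theorem close_of_flo {F : Fin 3 → V3} {c : Ln4} {h : Fin 3 → ℝ} {z0 ρ : ℝ} {t t' : Ln4}
    (hh : ∀ k, 0 < h k) (hρ : 0 < ρ) (hf : flo F c h z0 ρ t = flo F c h z0 ρ t') (k : Fin 3)
    {z : ℝ} (hz0 : z0 ≤ z) (hz1 : z ≤ z0 + ρ) : |dt (F k) (t'.pos z - t.pos z)| ≤ h k := by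
  have key : ∀ s : Fin 2,
      |dt (F k) (t'.pos (z0 + (s : ℝ) * ρ) - t.pos (z0 + (s : ℝ) * ρ))| ≤ h k := by
    intro s
    have h1 := congrFun (congrFun hf s) k
    have h2 := abs_sub_le_of_floor (hh k) h1.symm
    rw [← dt_sub] at h2
    convert h2 using 3
    abel
  have k0 := key 0
  have k1 := key 1
  have c0 : ((((0 : Fin 2) : Fin 2) : ℕ) : ℝ) = 0 := by norm_num
  have c1 : ((((1 : Fin 2) : Fin 2) : ℕ) : ℝ) = 1 := by norm_num
  simp only [Fin.val_zero, Fin.val_one, Nat.cast_zero, Nat.cast_one, zero_mul, one_mul,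
    add_zero] at k0 k1
  exact abs_dt_pos_le hρ k0 k1 hz0 hz1

open Classical in
/-- few floors in a set of lines which are pairwise close -/
theorem card_flo_le {α : Type*} (A : Finset α) (L : α → Ln4) (F : Fin 3 → V3) (c : Ln4)
    (h : Fin 3 → ℝ) {z0 ρ : ℝ} (hh : ∀ k, 0 < h k) (hρ : 0 ≤ ρ) (t0 : Ln4) (N : ℕ)
    (hN : ∀ s ∈ A, ∀ k, ∀ z, z0 ≤ z → z ≤ z0 + ρ →
      |dt (F k) ((L s).pos z - t0.pos z)| ≤ N * h k) :
    (A.image fun s => flo F c h z0 ρ (L s)).card ≤ (2 * N + 3) ^ 6 := by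
  have hsub : (A.image fun s => flo F c h z0 ρ (L s)) ⊆
      Fintype.piFinset fun s : Fin 2 => Fintype.piFinset fun k : Fin 3 =>
        Finset.Icc (flo F c h z0 ρ t0 s k - (N + 1)) (flo F c h z0 ρ t0 s k + (N + 1)) := by
    intro φ hφ
    obtain ⟨s, hs, rfl⟩ := mem_image.1 hφ
    rw [Fintype.mem_piFinset]
    intro i
    rw [Fintype.mem_piFinset]
    intro k
    refine floor_mem_Icc (hh k) ?_
    rw [← dt_sub]
    have h1 : z0 ≤ z0 + (i : ℝ) * ρ := by
      have : (0 : ℝ) ≤ (i : ℝ) := Nat.cast_nonneg _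
      nlinarith
    have h2 : z0 + (i : ℝ) * ρ ≤ z0 + ρ := by
      have : ((i : ℕ) : ℝ) ≤ 1 := by exact_mod_cast Nat.lt_succ_iff.1 i.2
      nlinarith
    convert hN s hs k _ h1 h2 using 3
    abel
  refine (card_le_card hsub).trans (le_of_eq ?_)
  rw [Fintype.card_piFinset]
  have h3 : ∀ i : Fin 2, (Fintype.piFinset fun k : Fin 3 =>
      Finset.Icc (flo F c h z0 ρ t0 i k - (N + 1)) (flo F c h z0 ρ t0 i k + (N + 1))).card =
      (2 * N + 3) ^ 3 := by
    intro i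
    rw [Fintype.card_piFinset]
    have h4 : ∀ k : Fin 3, (Finset.Icc (flo F c h z0 ρ t0 i k - (N + 1))
        (flo F c h z0 ρ t0 i k + (N + 1))).card = 2 * N + 3 := by
      intro k
      rw [Int.card_Icc]
      omega
    simp only [h4, prod_const, card_univ, Fintype.card_fin]
  simp only [h3, prod_const, card_univ, Fintype.card_fin]
  ring

end Crest.Agent.R136.Us555
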