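import Crest.Agent.R136.Ut0_262
import Crest.Agent.R136.GD2_186

/-!
# R136 (S0187), U6 thick side (helper262), part 1: slopes of nearby frames

Coordinates `0 = Y` (normal), `1 = A` (wide), `2 = B` (narrow).  For an orthonormal frame `F`
(`F 0` normal, `F 1` wide axis, `F 2` narrow axis) near the standard one: slopes `fbS`, `faS` of the
hyperplane, `eS` of the wide axis in the `(A, B)` plane, `hS` of the wide axis in the `(A, Y)` plane.

`slE`, `slB`, `slA` : slopes with the rule for degenerate slots (`dE` : `w2/w1 = d^o(1)`, `dB` :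
`a/w2 = d^o(1)`); `fr_size` : a plank in the frame with these slopes.
-/

set_option autoImplicit false
set_option linter.unusedVariables false

open Finset

namespace Crest.Agent.R136.Ut262

open Crest.Agent.R136.Sh605
open Crest.Agent.R136.GeoQ186 (fr fr_adm fr_ortho sA_fr sB_fr sE_fr Adm cLn fpv pv)

/-! ### slopes -/

/-- slope of the hyperplane in the direction `B` -/
noncomputable def fbS (F : Fin 3 → V3) : ℝ := -F 0 2 / F 0 0
/-- slope of the hyperplane in the direction `A` -/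
noncomputable def faS (F : Fin 3 → V3) : ℝ := -F 0 1 / F 0 0
/-- slope of the wide axis in the `(A, B)` plane -/
noncomputable def eS (F : Fin 3 → V3) : ℝ := F 1 2 / F 1 1
/-- slope of the wide axis in the `(A, Y)` plane -/
noncomputable def hS (F : Fin 3 → V3) : ℝ := F 1 0 / F 1 1

theorem abs_coord {F : Fin 3 → V3} (h : Ortho F) (i j : Fin 3) : |F i j| ≤ 1 := by
  have h1 := h i i
  simp only [dt, if_true] at h1
  rw [← sq_le_one_iff_abs_le_one]
  fin_cases j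
  · change F i 0 ^ 2 ≤ 1; nlinarith [sq_nonneg (F i 1), sq_nonneg (F i 2)]
  · change F i 1 ^ 2 ≤ 1; nlinarith [sq_nonneg (F i 0), sq_nonneg (F i 2)]
  · change F i 2 ^ 2 ≤ 1; nlinarith [sq_nonneg (F i 1), sq_nonneg (F i 0)]

theorem m2 {a b u w : ℝ} (ha : |a| ≤ u) (hb : |b| ≤ w) : |a * b| ≤ u * w := by
  rw [abs_mul]; exact mul_le_mul ha hb (abs_nonneg _) ((abs_nonneg _).trans ha)

theorem a2 {a b u w : ℝ} (ha : |a| ≤ u) (hb : |b| ≤ w) : |a + b| ≤ u + w :=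
  (abs_add_le _ _).trans (add_le_add ha hb)

theorem s2 {a b u w : ℝ} (ha : |a| ≤ u) (hb : |b| ≤ w) : |a - b| ≤ u + w :=
  (abs_sub _ _).trans (add_le_add ha hb)

/-- coordinate `j` of a vector in the frame -/
theorem exp3 {F : Fin 3 → V3} (h : Ortho F) (x : V3) (j : Fin 3) :
    x j = dt x (F 0) * F 0 j + dt x (F 1) * F 1 j + dt x (F 2) * F 2 j := by
  have := h.expand x j
  rw [dt_comm x (F 0), dt_comm x (F 1), dt_comm x (F 2)]
  exact this

/-- the normal of a second frame -/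
theorem normal_near {F F' : Fin 3 → V3} (h : Ortho F) {δ τ1 τ2 : ℝ} (j : Fin 3)
    (hj : |F 0 j| ≤ δ) (h' : Ortho F') (t1 : |dt (F' 0) (F 1)| ≤ τ1) (t2 : |dt (F' 0) (F 2)| ≤ τ2) :
    |F' 0 j| ≤ δ + τ1 + τ2 := by
  rw [exp3 h (F' 0) j]
  have c0 : |dt (F' 0) (F 0)| ≤ 1 := by
    have e1 := h.col 0 0
    have hn : dt (F' 0) (F 0) ^ 2 ≤ 1 := by
      have f1 := h' 0 0
      have f2 := h 0 0
      simp only [dt, if_true] at f1 f2 ⊢
      nlinarith [sq_nonneg (F' 0 0 * F 0 1 - F' 0 1 * F 0 0),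
        sq_nonneg (F' 0 0 * F 0 2 - F' 0 2 * F 0 0), sq_nonneg (F' 0 1 * F 0 2 - F' 0 2 * F 0 1)]
    rwa [sq_le_one_iff_abs_le_one] at hn
  have b := a2 (a2 (m2 c0 hj) (m2 t1 (abs_coord h 1 j))) (m2 t2 (abs_coord h 2 j))
  linarith

/-- the wide axis of a second frame -/
theorem wide_near {F F' : Fin 3 → V3} (h : Ortho F) {δ τ0 τ2 : ℝ} (j : Fin 3)
    (hj : |F 1 j| ≤ δ) (h' : Ortho F') (t0 : |dt (F' 1) (F 0)| ≤ τ0) (t2 : |dt (F' 1) (F 2)| ≤ τ2) :
    |F' 1 j| ≤ δ + τ0 + τ2 := by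
  rw [exp3 h (F' 1) j]
  have c0 : |dt (F' 1) (F 1)| ≤ 1 := by
    have hn : dt (F' 1) (F 1) ^ 2 ≤ 1 := by
      have f1 := h' 1 1
      have f2 := h 1 1
      simp only [dt, if_true] at f1 f2 ⊢
      nlinarith [sq_nonneg (F' 1 0 * F 1 1 - F' 1 1 * F 1 0),
        sq_nonneg (F' 1 0 * F 1 2 - F' 1 2 * F 1 0), sq_nonneg (F' 1 1 * F 1 2 - F' 1 2 * F 1 1)]
    rwa [sq_le_one_iff_abs_le_one] at hn
  have b := a2 (a2 (m2 t0 (abs_coord h 0 j)) (m2 c0 hj)) (m2 t2 (abs_coord h 2 j))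
  linarith

/-- near the standard frame the diagonal entry is large -/
theorem diag_ge {F : Fin 3 → V3} (h : Ortho F) {i j k l : Fin 3} (hjk : (j, k, l) = (0, 1, 2) ∨
    (j, k, l) = (1, 0, 2)) (hk : |F i k| ≤ 3 / 5) (hl : |F i l| ≤ 3 / 5) : 1 / 2 ≤ |F i j| := by
  have h1 := h i i
  simp only [dt, if_true] at h1
  have k1 : F i k ^ 2 ≤ 9 / 25 := by
    rw [← sq_abs]; nlinarith [abs_nonneg (F i k)]
  have l1 : F i l ^ 2 ≤ 9 / 25 := by
    rw [← sq_abs]; nlinarith [abs_nonneg (F i l)]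
  rcases hjk with h2 | h2
  · obtain ⟨rfl, rfl, rfl⟩ : j = 0 ∧ k = 1 ∧ l = 2 := by simpa using h2
    by_contra hc
    push Not at hc
    have : |F i 0| ^ 2 < 1 / 4 := by nlinarith [abs_nonneg (F i 0)]
    rw [sq_abs] at this
    nlinarith
  · obtain ⟨rfl, rfl, rfl⟩ : j = 1 ∧ k = 0 ∧ l = 2 := by simpa using h2
    by_contra hc
    push Not at hc
    have : |F i 1| ^ 2 < 1 / 4 := by nlinarith [abs_nonneg (F i 1)]
    rw [sq_abs] at this
    nlinarith

theorem div_diff {x y p r T : ℝ} (hp : 1 / 2 ≤ |p|) (hr : 1 / 2 ≤ |r|) (h : |x * r - y * p| ≤ T) :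
    |x / p - y / r| ≤ 4 * T := by
  have hp0 : p ≠ 0 := by intro h0; rw [h0, abs_zero] at hp; linarith
  have hr0 : r ≠ 0 := by intro h0; rw [h0, abs_zero] at hr; linarith
  have e1 : x / p - y / r = (x * r - y * p) / (p * r) := by field_simp
  have hpr : 1 / 4 ≤ |p| * |r| := by nlinarith [abs_nonneg p, abs_nonneg r]
  have hT : 0 ≤ T := (abs_nonneg _).trans h
  rw [e1, abs_div, abs_mul, div_le_iff₀ (by linarith)]
  nlinarith

/-- **slopes of the hyperplane**, two frames -/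
theorem normal_diff {F F' : Fin 3 → V3} (h : Ortho F) (h' : Ortho F') {τ1 τ2 : ℝ}
    (p : 1 / 2 ≤ |F 0 0|) (p' : 1 / 2 ≤ |F' 0 0|) (t1 : |dt (F' 0) (F 1)| ≤ τ1)
    (t2 : |dt (F' 0) (F 2)| ≤ τ2) :
    |faS F' - faS F| ≤ 8 * (τ1 + τ2) ∧ |fbS F' - fbS F| ≤ 8 * (τ1 + τ2) := by
  have T1 : 0 ≤ τ1 := (abs_nonneg _).trans t1
  have T2 : 0 ≤ τ2 := (abs_nonneg _).trans t2
  have key : ∀ j : Fin 3, |F' 0 j * F 0 0 - F 0 j * F' 0 0| ≤ 2 * (τ1 + τ2) := by
    intro j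
    have e0 := exp3 h (F' 0) 0
    have ej := exp3 h (F' 0) j
    have e1 : F' 0 j * F 0 0 - F 0 j * F' 0 0 =
        dt (F' 0) (F 1) * (F 1 j * F 0 0 - F 0 j * F 1 0) +
        dt (F' 0) (F 2) * (F 2 j * F 0 0 - F 0 j * F 2 0) := by
      rw [e0, ej]; ring
    have c1 : |F 1 j * F 0 0 - F 0 j * F 1 0| ≤ 2 := by
      have := s2 (m2 (abs_coord h 1 j) (abs_coord h 0 0)) (m2 (abs_coord h 0 j) (abs_coord h 1 0))
      linarith
    have c2 : |F 2 j * F 0 0 - F 0 j * F 2 0| ≤ 2 := by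
      have := s2 (m2 (abs_coord h 2 j) (abs_coord h 0 0)) (m2 (abs_coord h 0 j) (abs_coord h 2 0))
      linarith
    rw [e1]
    have := a2 (m2 t1 c1) (m2 t2 c2)
    linarith
  constructor
  · have := div_diff (x := F' 0 1) (y := F 0 1) p' p (key 1)
    have e1 : faS F' - faS F = -(F' 0 1 / F' 0 0 - F 0 1 / F 0 0) := by unfold faS; ring
    rw [e1, abs_neg]; linarith
  · have := div_diff (x := F' 0 2) (y := F 0 2) p' p (key 2)
    have e1 : fbS F' - fbS F = -(F' 0 2 / F' 0 0 - F 0 2 / F 0 0) := by unfold fbS; ring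
    rw [e1, abs_neg]; linarith

/-- **slopes of the wide axis**, two frames -/
theorem wide_diff {F F' : Fin 3 → V3} (h : Ortho F) (h' : Ortho F') {τ0 τ2 : ℝ}
    (p : 1 / 2 ≤ |F 1 1|) (p' : 1 / 2 ≤ |F' 1 1|) (t0 : |dt (F' 1) (F 0)| ≤ τ0)
    (t2 : |dt (F' 1) (F 2)| ≤ τ2) :
    |eS F' - eS F| ≤ 8 * (τ0 + τ2) ∧ |hS F' - hS F| ≤ 8 * (τ0 + τ2) := by
  have T1 : 0 ≤ τ0 := (abs_nonneg _).trans t0
  have T2 : 0 ≤ τ2 := (abs_nonneg _).trans t2
  have key : ∀ j : Fin 3, |F' 1 j * F 1 1 - F 1 j * F' 1 1| ≤ 2 * (τ0 + τ2) := by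
    intro j
    have e0 := exp3 h (F' 1) 1
    have ej := exp3 h (F' 1) j
    have e1 : F' 1 j * F 1 1 - F 1 j * F' 1 1 =
        dt (F' 1) (F 0) * (F 0 j * F 1 1 - F 1 j * F 0 1) +
        dt (F' 1) (F 2) * (F 2 j * F 1 1 - F 1 j * F 2 1) := by
      rw [e0, ej]; ring
    have c1 : |F 0 j * F 1 1 - F 1 j * F 0 1| ≤ 2 := by
      have := s2 (m2 (abs_coord h 0 j) (abs_coord h 1 1)) (m2 (abs_coord h 1 j) (abs_coord h 0 1))
      linarith
    have c2 : |F 2 j * F 1 1 - F 1 j * F 2 1| ≤ 2 := by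
      have := s2 (m2 (abs_coord h 2 j) (abs_coord h 1 1)) (m2 (abs_coord h 1 j) (abs_coord h 2 1))
      linarith
    rw [e1]
    have := a2 (m2 t0 c1) (m2 t2 c2)
    linarith
  constructor
  · have := div_diff (x := F' 1 2) (y := F 1 2) p' p (key 2)
    unfold eS; linarith
  · have := div_diff (x := F' 1 0) (y := F 1 0) p' p (key 0)
    unfold hS; linarith

/-- the wide axis lies in the hyperplane -/
theorem hS_eq {F : Fin 3 → V3} (h : Ortho F) (p : F 0 0 ≠ 0) (p1 : F 1 1 ≠ 0) :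
    hS F = faS F + eS F * fbS F := by
  have h1 := h 0 1
  simp only [dt, Fin.isValue, Fin.reduceEq, if_false] at h1
  unfold hS faS eS fbS
  field_simp
  linarith

/-- **the slot `31`** -/
theorem slotA_diff {F F' : Fin 3 → V3} (h : Ortho F) {τ : ℝ} (p : F 0 0 ≠ 0)
    (p1 : 1 / 2 ≤ |F 1 1|) (p' : 1 / 2 ≤ |F' 0 0|) (t : |dt (F' 0) (F 1)| ≤ τ) :
    |(faS F' - faS F) + eS F * (fbS F' - fbS F)| ≤ 4 * τ := by
  have q1 : F 1 1 ≠ 0 := by intro h0; rw [h0, abs_zero] at p1; linarith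
  have q' : F' 0 0 ≠ 0 := by intro h0; rw [h0, abs_zero] at p'; linarith
  have e1 : (faS F' - faS F) + eS F * (fbS F' - fbS F) =
      -(dt (F' 0) (F 1)) / (F 1 1 * F' 0 0) := by
    have e2 := hS_eq h p q1
    have e3 : faS F' + eS F * fbS F' - hS F = -(dt (F' 0) (F 1)) / (F 1 1 * F' 0 0) := by
      unfold faS eS fbS hS dt
      field_simp
      ring
    rw [← e3, e2]; ring
  have hT : 0 ≤ τ := (abs_nonneg _).trans t
  have hpr : 1 / 4 ≤ |F 1 1| * |F' 0 0| := by nlinarith [abs_nonneg (F 1 1), abs_nonneg (F' 0 0)]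
  rw [e1, abs_div, abs_neg, abs_mul, div_le_iff₀ (by linarith)]
  nlinarith

/-! ### slopes with degenerate slots -/

section

open Classical in
/-- slope `e` -/
noncomputable def slE (dE dB : Prop) (F : Fin 3 → V3) : ℝ := if dE then 0 else eS F
open Classical in
/-- slope `fb` -/
noncomputable def slB (dE dB : Prop) (F : Fin 3 → V3) : ℝ := if dB then 0 else fbS F
open Classical in
/-- slope `fa` -/
noncomputable def slA (dE dB : Prop) (F : Fin 3 → V3) : ℝ :=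
  if dB then (if dE then 0 else hS F) else faS F

/-- the relevant axes of `F` are near the standard ones -/
structure Nst (dE dB : Prop) (δ : ℝ) (F : Fin 3 → V3) : Prop where
  ortho : Ortho F
  n1 : ¬ dB → |F 0 1| ≤ δ
  n2 : ¬ dB → |F 0 2| ≤ δ
  w0 : ¬ dE → |F 1 0| ≤ δ
  w2 : ¬ dE → |F 1 2| ≤ δ

theorem Nst.mono {dE dB : Prop} {δ δ' : ℝ} {F : Fin 3 → V3} (h : Nst dE dB δ F) (hδ : δ ≤ δ') :
    Nst dE dB δ' F :=
  ⟨h.ortho, fun a => (h.n1 a).trans hδ, fun a => (h.n2 a).trans hδ, fun a => (h.w0 a).trans hδ,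
    fun a => (h.w2 a).trans hδ⟩

theorem Nst.p0 {dE dB : Prop} {δ : ℝ} {F : Fin 3 → V3} (h : Nst dE dB δ F) (hδ : δ ≤ 3 / 5)
    (hB : ¬ dB) : 1 / 2 ≤ |F 0 0| :=
  diag_ge h.ortho (i := 0) (j := 0) (k := 1) (l := 2) (Or.inl rfl) ((h.n1 hB).trans hδ)
    ((h.n2 hB).trans hδ)

theorem Nst.p1 {dE dB : Prop} {δ : ℝ} {F : Fin 3 → V3} (h : Nst dE dB δ F) (hδ : δ ≤ 3 / 5)
    (hE : ¬ dE) : 1 / 2 ≤ |F 1 1| :=
  diag_ge h.ortho (i := 1) (j := 1) (k := 0) (l := 2) (Or.inr rfl) ((h.w0 hE).trans hδ)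
    ((h.w2 hE).trans hδ)

theorem div_le_two {x p δ : ℝ} (hx : |x| ≤ δ) (hp : 1 / 2 ≤ |p|) : |x / p| ≤ 2 * δ := by
  have hδ : 0 ≤ δ := (abs_nonneg _).trans hx
  rw [abs_div, div_le_iff₀ (by linarith)]
  nlinarith

/-- **the slopes are small** -/
theorem Nst.small {dE dB : Prop} {δ : ℝ} {F : Fin 3 → V3} (h : Nst dE dB δ F) (hδ : δ ≤ 3 / 5)
    (h0 : 0 ≤ δ) : |slE dE dB F| ≤ 2 * δ ∧ |slB dE dB F| ≤ 2 * δ ∧ |slA dE dB F| ≤ 2 * δ := by
  have z : |(0 : ℝ)| ≤ 2 * δ := by rw [abs_zero]; linarith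
  unfold slE slB slA
  refine ⟨?_, ?_, ?_⟩
  · split_ifs with hE
    · exact z
    · exact div_le_two (h.w2 hE) (h.p1 hδ hE)
  · split_ifs with hB
    · exact z
    · unfold fbS
      exact div_le_two (by rw [abs_neg]; exact h.n2 hB) (h.p0 hδ hB)
  · split_ifs with hB hE
    · exact z
    · exact div_le_two (h.w0 hE) (h.p1 hδ hE)
    · unfold faS
      exact div_le_two (by rw [abs_neg]; exact h.n1 hB) (h.p0 hδ hB)

/-- transfer of `Nst` to a second frame -/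
theorem Nst.trans {dE dB : Prop} {δ η : ℝ} {F F' : Fin 3 → V3} (h : Nst dE dB δ F) (h' : Ortho F')
    (n1 : ¬ dB → |dt (F' 0) (F 1)| ≤ η) (n2 : ¬ dB → |dt (F' 0) (F 2)| ≤ η)
    (w0 : ¬ dE → |dt (F' 1) (F 0)| ≤ η) (w2 : ¬ dE → |dt (F' 1) (F 2)| ≤ η) :
    Nst dE dB (δ + 2 * η) F' := by
  refine ⟨h', fun a => ?_, fun a => ?_, fun a => ?_, fun a => ?_⟩
  · have := normal_near h.ortho 1 (h.n1 a) h' (n1 a) (n2 a); linarith
  · have := normal_near h.ortho 2 (h.n2 a) h' (n1 a) (n2 a); linarith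
  · have := wide_near h.ortho 0 (h.w0 a) h' (w0 a) (w2 a); linarith
  · have := wide_near h.ortho 2 (h.w2 a) h' (w0 a) (w2 a); linarith

/-- **slot differences of two frames** near the standard one.  `pE, pB, pA` = precisions of the
slots `21, 32, 31`. -/
theorem slot_diff {dE dB : Prop} {δ : ℝ} {F F' : Fin 3 → V3} (h : Nst dE dB δ F)
    (h' : Nst dE dB δ F') (hδ : δ ≤ 3 / 5) {pE pB pA K : ℝ} (hK : 1 ≤ K) (p0 : 0 ≤ pA)
    (hAE : pA ≤ pE) (hAB : pA ≤ pB) (kE : dE → pB ≤ K * pA) (kB : dB → pE ≤ K * pA)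
    (t12 : |dt (F' 1) (F 2)| ≤ pE) (t02 : |dt (F' 0) (F 2)| ≤ pB) (t01 : |dt (F' 0) (F 1)| ≤ pA)
    (t10 : |dt (F' 1) (F 0)| ≤ pA) :
    |slE dE dB F' - slE dE dB F| ≤ 16 * pE ∧ |slB dE dB F' - slB dE dB F| ≤ 16 * pB ∧
    |(slA dE dB F' - slA dE dB F) + slE dE dB F * (slB dE dB F' - slB dE dB F)| ≤
      16 * (K * pA) := by
  have qE : 0 ≤ pE := p0.trans hAE
  have qB : 0 ≤ pB := p0.trans hAB
  have qK : pA ≤ K * pA := by nlinarith
  unfold slE slB slA
  by_cases hE : dE <;> by_cases hB : dB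
  · simp only [hE, hB, if_true, mul_zero, add_zero, abs_zero, sub_self]
    exact ⟨by linarith, by linarith, by linarith⟩
  · simp only [hE, hB, if_true, if_false, add_zero, abs_zero, sub_self, zero_mul]
    obtain ⟨d1, d2⟩ := normal_diff h.ortho h'.ortho (h.p0 hδ hB) (h'.p0 hδ hB) t01 t02
    refine ⟨by linarith, by linarith, ?_⟩
    have := kE hE
    linarith
  · simp only [hE, hB, if_true, if_false, mul_zero, add_zero, abs_zero, sub_self]
    obtain ⟨d1, d2⟩ := wide_diff h.ortho h'.ortho (h.p1 hδ hE) (h'.p1 hδ hE) t10 t12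
    refine ⟨by linarith, by linarith, ?_⟩
    have := kB hB
    linarith
  · simp only [hE, hB, if_false]
    obtain ⟨d1, d2⟩ := normal_diff h.ortho h'.ortho (h.p0 hδ hB) (h'.p0 hδ hB) t01 t02
    obtain ⟨d3, d4⟩ := wide_diff h.ortho h'.ortho (h.p1 hδ hE) (h'.p1 hδ hE) t10 t12
    have n0 : F 0 0 ≠ 0 := by
      intro h0; have := h.p0 hδ hB; rw [h0, abs_zero] at this; linarith
    have d5 := slotA_diff h.ortho n0 (h.p1 hδ hE) (h'.p0 hδ hB) t01
    exact ⟨by linarith, by linarith, by linarith⟩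

/-! ### a plank in the frame with the given slopes -/

/-- **a plank of the frame `F` is a plank of the frame with the slopes `slA, slB, slE`**, up to
`K ^ 2`. -/
theorem fr_size {dE dB : Prop} {δ : ℝ} {F : Fin 3 → V3} (h : Nst dE dB δ F) (hδ : δ ≤ 1 / 4)
    (hδ0 : 0 ≤ δ) {K a w1 w2 : ℝ} (hK : 1 ≤ K) (ha : 0 ≤ a) (haw : a ≤ w2) (hww : w2 ≤ w1)
    (kE : dE → w1 ≤ K * w2) (kB : dB → w2 ≤ K * a) {y : V3} (y0 : |dt (F 0) y| ≤ a)
    (y1 : |dt (F 1) y| ≤ w1) (y2 : |dt (F 2) y| ≤ w2) :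
    |dt (fr (slA dE dB F) (slB dE dB F) (slE dE dB F) 0) y| ≤ 24 * K ^ 2 * a ∧
    |dt (fr (slA dE dB F) (slB dE dB F) (slE dE dB F) 1) y| ≤ 24 * K ^ 2 * w1 ∧
    |dt (fr (slA dE dB F) (slB dE dB F) (slE dE dB F) 2) y| ≤ 24 * K ^ 2 * w2 := by
  obtain ⟨sE', sB', sA'⟩ := h.small (by linarith) hδ0
  have hE1 : |slE dE dB F| ≤ 1 := by linarith
  have hB1 : |slB dE dB F| ≤ 1 := by linarith
  have hA1 : |slA dE dB F| ≤ 1 := by linarith
  have hK2 : 1 ≤ K ^ 2 := one_le_pow₀ hK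
  have hKK : K ≤ K ^ 2 := by nlinarith
  have qw2 : 0 ≤ w2 := ha.trans haw
  have qw1 : 0 ≤ w1 := qw2.trans hww
  -- coordinates
  have hc : ∀ j, |y j| ≤ a + w1 + w2 := by
    intro j
    rw [h.ortho.expand y j]
    have := a2 (a2 (m2 y0 (abs_coord h.ortho 0 j)) (m2 y1 (abs_coord h.ortho 1 j)))
      (m2 y2 (abs_coord h.ortho 2 j))
    linarith
  -- normal coordinate, real hyperplane
  have hN : ¬ dB → |y 0 - faS F * y 1 - fbS F * y 2| ≤ 2 * a := by
    intro hB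
    have p := h.p0 (by linarith) hB
    have q : F 0 0 ≠ 0 := by intro h0; rw [h0, abs_zero] at p; linarith
    have e1 : y 0 - faS F * y 1 - fbS F * y 2 = dt (F 0) y / F 0 0 := by
      unfold faS fbS dt; field_simp; ring
    rw [e1]
    exact div_le_two y0 p
  -- coordinates transversal to the wide axis
  have hW : ¬ dE → |y 0 - hS F * y 1| ≤ 2 * (a + w2) ∧ |y 2 - eS F * y 1| ≤ 2 * (a + w2) := by
    intro hE
    have p := h.p1 (by linarith) hE
    have q : F 1 1 ≠ 0 := by intro h0; rw [h0, abs_zero] at p; linarith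
    have b1 : |hS F| ≤ 1 := by have := div_le_two (h.w0 hE) p; unfold hS; linarith
    have b2 : |eS F| ≤ 1 := by have := div_le_two (h.w2 hE) p; unfold eS; linarith
    have z0 : F 1 0 - hS F * F 1 1 = 0 := by unfold hS; field_simp; ring
    have z2 : F 1 2 - eS F * F 1 1 = 0 := by unfold eS; field_simp; ring
    have x0 := h.ortho.expand y 0
    have x1 := h.ortho.expand y 1
    have x2 := h.ortho.expand y 2
    constructor
    · have e1 : y 0 - hS F * y 1 = dt (F 0) y * (F 0 0 - hS F * F 0 1) +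
          dt (F 2) y * (F 2 0 - hS F * F 2 1) := by
        rw [x0, x1]; linear_combination dt (F 1) y * z0
      rw [e1]
      have c0 := s2 (abs_coord h.ortho 0 0) (m2 b1 (abs_coord h.ortho 0 1))
      have c2 := s2 (abs_coord h.ortho 2 0) (m2 b1 (abs_coord h.ortho 2 1))
      have := a2 (m2 y0 c0) (m2 y2 c2)
      linarith
    · have e1 : y 2 - eS F * y 1 = dt (F 0) y * (F 0 2 - eS F * F 0 1) +
          dt (F 2) y * (F 2 2 - eS F * F 2 1) := by
        rw [x1, x2]; linear_combination dt (F 1) y * z2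
      rw [e1]
      have c0 := s2 (abs_coord h.ortho 0 2) (m2 b2 (abs_coord h.ortho 0 1))
      have c2 := s2 (abs_coord h.ortho 2 2) (m2 b2 (abs_coord h.ortho 2 1))
      have := a2 (m2 y0 c0) (m2 y2 c2)
      linarith
  -- the three chart coordinates
  have key : |y 0 - slA dE dB F * y 1 - slB dE dB F * y 2| ≤ 4 * K ^ 2 * a ∧
      |y 2 - slE dE dB F * y 1| ≤ 4 * K ^ 2 * w2 := by
    unfold slE slB slA
    by_cases hE : dE <;> by_cases hB : dB
    · simp only [hE, hB, if_true, zero_mul, sub_zero]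
      have k1 := kE hE
      have k2 := kB hB
      have k3 : K * w2 ≤ K ^ 2 * a := by nlinarith
      constructor
      · have := hc 0; nlinarith
      · have := hc 2; nlinarith
    · simp only [hE, hB, if_true, if_false, zero_mul, sub_zero]
      have k1 := kE hE
      constructor
      · have := hN hB; nlinarith
      · have := hc 2; nlinarith
    · simp only [hE, hB, if_true, if_false, zero_mul, sub_zero]
      have k2 := kB hB
      obtain ⟨c1, c2⟩ := hW hE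
      constructor
      · nlinarith
      · nlinarith
    · simp only [hE, hB, if_false]
      obtain ⟨c1, c2⟩ := hW hE
      constructor
      · have := hN hB; nlinarith
      · nlinarith
  have hAd := fr_adm (Fa := slA dE dB F) (Fb := slB dE dB F) (E := slE dE dB F)
    (Equiv.refl (Fin 3)) hA1 hB1 hE1
  have e1 : fpv (Equiv.refl (Fin 3)) (fr (slA dE dB F) (slB dE dB F) (slE dE dB F)) =
      fr (slA dE dB F) (slB dE dB F) (slE dE dB F) := rfl
  have hx1 := hc 1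
  have := Crest.Agent.R136.GeoQ186.from_chart hAd (u := y) (n := 4 * K ^ 2 * a)
    (x := a + w1 + w2) (y := 4 * K ^ 2 * w2)
    (by rw [sA_fr, sB_fr]; exact key.1) hx1 (by rw [sE_fr]; exact key.2)
  rw [e1] at this
  obtain ⟨r0, r1, r2⟩ := this
  have k1 : K ^ 2 * a ≤ K ^ 2 * w2 := mul_le_mul_of_nonneg_left haw (by positivity)
  have k2 : K ^ 2 * w2 ≤ K ^ 2 * w1 := mul_le_mul_of_nonneg_left hww (by positivity)
  have k3 : w1 ≤ K ^ 2 * w1 := by nlinarith
  have k0 : 0 ≤ K ^ 2 * a := by positivity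
  refine ⟨r0.trans (by linarith), r1.trans ?_, r2.trans ?_⟩
  · nlinarith
  · nlinarith

end

end Crest.Agent.R136.Ut262
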