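import Crest.Agent.R136.Ut1_262
import Crest.Agent.R138.Dp1_76

/-!
# R136 (S0187), U6 thick side (helper262), part 2: rotation of the coordinates

`rv R x` : coordinates of `x` in the orthonormal frame `R`; `rl`, `rS` : rotated lines and sheets;
`MkA.rot` : a marked sequence in rotated coordinates; `exists_net` : finite net of frames;
`exists_pop` : a popular label is dense.
-/

set_option autoImplicit false
set_option linter.unusedVariables false

open Finset Filter Topology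

namespace Crest.Agent.R136.Ut262

open Crest.Agent.R138.Ex926 (Base U)
open Crest.Agent.R138.Dp76
open Crest.Agent.R138.Mk163 (zc zl rho alive own Negl)
open Crest.Agent.R136.MkA627 Crest.Agent.R136.Sh605 Crest.Agent.R136.K4 Crest.Agent.R136.Top484

/-! ### rotated vectors -/

/-- coordinates in the frame `R` -/
def rv (R : Fin 3 → V3) (x : V3) : V3 := fun i => dt (R i) x

/-- transposed frame -/
def rT (R : Fin 3 → V3) : Fin 3 → V3 := fun i j => R j i

theorem rv_add (R : Fin 3 → V3) (x y : V3) : rv R (x + y) = rv R x + rv R y := by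
  funext i; simp only [rv, dt_add, Pi.add_apply]

theorem rv_sub (R : Fin 3 → V3) (x y : V3) : rv R (x - y) = rv R x - rv R y := by
  funext i; simp only [rv, dt_sub, Pi.sub_apply]

theorem rv_smul (R : Fin 3 → V3) (c : ℝ) (x : V3) : rv R (c • x) = c • rv R x := by
  funext i; simp only [rv, dt_smul, Pi.smul_apply, smul_eq_mul]

theorem ortho_rT {R : Fin 3 → V3} (h : Ortho R) : Ortho (rT R) := by
  intro i j
  have := h.col i j
  simp only [dt, rT]
  exact this

theorem rT_rT (R : Fin 3 → V3) : rT (rT R) = R := rfl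

theorem rv_rT {R : Fin 3 → V3} (h : Ortho R) (x : V3) : rv (rT R) (rv R x) = x := by
  funext j
  rw [h.expand x j]
  simp only [rv, rT, dt]
  ring

theorem rv_rT' {R : Fin 3 → V3} (h : Ortho R) (x : V3) : rv R (rv (rT R) x) = x := by
  have := rv_rT (ortho_rT h) x
  rwa [rT_rT] at this

theorem dt_rv {R : Fin 3 → V3} (h : Ortho R) (x y : V3) : dt (rv R x) (rv R y) = dt x y := by
  have e0 := h.expand x 0
  have e1 := h.expand x 1
  have e2 := h.expand x 2
  have : dt x y = dt (R 0) x * dt (R 0) y + dt (R 1) x * dt (R 1) y + dt (R 2) x * dt (R 2) y := by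
    have k : dt x y = x 0 * y 0 + x 1 * y 1 + x 2 * y 2 := rfl
    rw [k, e0, e1, e2]
    simp only [dt]
    ring
  rw [this]
  simp only [rv, dt]

/-! ### rotated lines and sheets -/

/-- rotated line -/
def rl (R : Fin 3 → V3) (t : Ln4) : Ln4 := ⟨rv R t.p, rv R t.v⟩

theorem rl_pos (R : Fin 3 → V3) (t : Ln4) (z : ℝ) : (rl R t).pos z = rv R (t.pos z) := by
  funext i
  simp only [Ln4.pos, rl, rv, dt]
  ring

theorem rl_rT {R : Fin 3 → V3} (h : Ortho R) (t : Ln4) : rl (rT R) (rl R t) = t := by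
  cases t
  simp only [rl, rv_rT h]

/-- rotated frame -/
def rF (R : Fin 3 → V3) (e : Fin 3 → V3) : Fin 3 → V3 := fun i => rv R (e i)

/-- rotated quadratic function -/
def rQ (R : Fin 3 → V3) (q : ℝ → V3 → ℝ) : ℝ → V3 → ℝ := fun z y => q z (rv (rT R) y)

theorem rF_ortho {R e : Fin 3 → V3} (h : Ortho R) (he : Ortho e) : Ortho (rF R e) := by
  intro i j
  show dt (rv R (e i)) (rv R (e j)) = _
  rw [dt_rv h]; exact he i j

theorem inK_rot {R e : Fin 3 → V3} (h : Ortho R) {c : Ln4} {w : V3} {z : ℝ} {x : V3} :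
    InK (rF R e) (rl R c) w z (rv R x) ↔ InK e c w z x := by
  unfold InK
  refine forall_congr' fun i => ?_
  rw [rl_pos, ← rv_sub]
  show |dt (rv R (e i)) _| ≤ _ ↔ _
  rw [dt_rv h]

theorem inK_rot' {R e : Fin 3 → V3} (h : Ortho R) {c : Ln4} {w : V3} {z : ℝ} {y : V3} :
    InK (rF R e) (rl R c) w z y ↔ InK e c w z (rv (rT R) y) := by
  rw [← inK_rot h (x := rv (rT R) y), rv_rT' h]

theorem isQ_rot {R : Fin 3 → V3} {q : ℝ → V3 → ℝ} (hq : IsQ q) : IsQ (rQ R q) := by
  obtain ⟨c0, c1, c2, b, d, g, h⟩ := hq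
  refine ⟨c0, c1, c2, fun i => dt (R i) b, fun i => dt (R i) d,
    fun i j => ∑ k, ∑ l, g k l * (R i k * R j l), ?_⟩
  intro z y
  simp only [rQ, h, rv, rT, dt, Fin.sum_univ_three]
  ring

theorem inSheet_rot {R e : Fin 3 → V3} (h : Ortho R) {t c : Ln4} {w : V3} {q : ℝ → V3 → ℝ}
    {a z0 ρ : ℝ} : InSheet (rl R t) (rF R e) (rl R c) w (rQ R q) a z0 ρ ↔
      InSheet t e c w q a z0 ρ := by
  unfold InSheet
  refine forall_congr' fun z => ?_
  rw [rl_pos, inK_rot h]
  simp only [rQ, rv_rT h]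

theorem shN_rot {R e : Fin 3 → V3} (h : Ortho R) {c : Ln4} {w : V3} {q : ℝ → V3 → ℝ}
    {a z0 ρ r0 : ℝ} (hs : ShN e c w q a z0 ρ r0) :
    ShN (rF R e) (rl R c) w (rQ R q) a z0 ρ r0 where
  ortho := rF_ortho h hs.ortho
  isQ := isQ_rot hs.isQ
  a_le0 := hs.a_le0
  w0_le := hs.w0_le
  w_le := hs.w_le
  r0_le := hs.r0_le
  st0 := by
    intro z h0 h1 x τ hτ hx hx'
    have e1 : rv (rT R) (x + τ • rF R e 0) = rv (rT R) x + τ • e 0 := by
      rw [rv_add, rv_smul]; show _ + τ • rv (rT R) (rv R (e 0)) = _; rw [rv_rT h]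
    rw [inK_rot' h] at hx hx'
    rw [e1] at hx'
    have := hs.st0 z h0 h1 _ τ hτ hx hx'
    simp only [rQ, e1]
    exact this
  sl1 := by
    intro z h0 h1 x τ hτ hx hx'
    have e1 : rv (rT R) (x + τ • rF R e 1) = rv (rT R) x + τ • e 1 := by
      rw [rv_add, rv_smul]; show _ + τ • rv (rT R) (rv R (e 1)) = _; rw [rv_rT h]
    rw [inK_rot' h] at hx hx'
    rw [e1] at hx'
    have := hs.sl1 z h0 h1 _ τ hτ hx hx'
    simp only [rQ, e1]
    exact this
  sl2 := by
    intro z h0 h1 x τ hτ hx hx'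
    have e1 : rv (rT R) (x + τ • rF R e 2) = rv (rT R) x + τ • e 2 := by
      rw [rv_add, rv_smul]; show _ + τ • rv (rT R) (rv R (e 2)) = _; rw [rv_rT h]
    rw [inK_rot' h] at hx hx'
    rw [e1] at hx'
    have := hs.sl2 z h0 h1 _ τ hτ hx hx'
    simp only [rQ, e1]
    exact this

/-- rotated sheet -/
def rS (R : Fin 3 → V3) (s : Plk4) : Plk4 := { s with e := rF R s.e, c := rl R s.c, q := rQ R s.q }

/-! ### marked sequences -/

open Classical in
/-- **a marked sequence of sheets in rotated coordinates** -/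
theorem MkA.rot {B : Base} {I : ℕ → Finset (ℕ × ℝ)} {L : ℕ → ℕ → Ln4} {r0 : ℕ → ℝ}
    {wr cr : Fin 3 → ℕ → ℝ} {q : Fin 3 → ℝ}
    {lev : ℕ → ℚ → ℕ} {A : ℕ → ℝ} {c Λ : ℝ → ℝ} {τ : Fin 3 → ℝ → ℝ} {f : ℕ → ℚ → ℕ → ℤ → ℕ}
    {b : ℕ → ℚ → ℕ → Plk4} {vm : ℕ → ℚ → ℝ} {w : Fin 3 → ℕ → ℚ → ℝ}
    (h : MkA B I (geo4 L r0 wr cr q) lev A c Λ τ f b vm w) {R : ℕ → Fin 3 → V3} (hR : ∀ n, Ortho (R n)) :
    MkA B I (geo4 (fun n t => rl (R n) (L n t)) r0 wr cr q) lev A c Λ τ f
      (fun n v i => rS (R n) (b n v i)) vm w where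
  ne := h.ne
  card := h.card
  Apos := h.Apos
  c0 := h.c0
  lam0 := h.lam0
  lam := h.lam
  tau1 := h.tau1
  lev_mono := h.lev_mono
  lev_lim := h.lev_lim
  cell0 := h.cell0
  one := h.one
  own := h.own
  dmax := by
    intro v h0 h1 ε hε
    filter_upwards [h.dmax v h0 h1 ε hε] with n hn J s hs
    have hs' : (geo4 L r0 wr cr q).adm n (lev n v) J (rS (rT (R n)) s) :=
      ⟨shN_rot (ortho_rT (hR n)) hs.1, hs.2⟩
    refine le_trans (Nat.cast_le.2 (card_le_card fun t ht => ?_)) (hn J (rS (rT (R n)) s) hs')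
    rw [mem_filter] at ht ⊢
    refine ⟨ht.1, ?_⟩
    have h2 : InSheet (rl (R n) (L n t)) s.e s.c s.w s.q s.a (zl (lev n v) J) (rho (lev n v)) := ht.2
    have h3 := (inSheet_rot (ortho_rT (hR n))).2 h2
    rw [rl_rT (hR n)] at h3
    exact h3
  mark := by
    intro v h0 h1
    filter_upwards [h.mark v h0 h1] with n hn J t ht
    obtain ⟨m1, m2, m3, m4⟩ := hn J t ht
    refine ⟨(inSheet_rot (hR n)).2 m1, ⟨shN_rot (hR n) m2.1, m2.2⟩, m3, fun j => ?_⟩
    have := m4 j
    fin_cases j <;> exact this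
  near := h.near
  vpos := h.vpos
  wpos := h.wpos
  tau := h.tau

/-- flat marks in rotated coordinates -/
theorem flat_rot {R : Fin 3 → V3} (h : Ortho R) {s : Plk4}
    (hs : ∀ z x, s.q z x = dt (s.e 0) (x - s.c.pos z)) (z : ℝ) (x : V3) :
    (rS R s).q z x = dt ((rS R s).e 0) (x - (rS R s).c.pos z) := by
  show s.q z (rv (rT R) x) = dt (rv R (s.e 0)) (x - (rl R s.c).pos z)
  rw [hs, rl_pos]
  have e1 : x - rv R (s.c.pos z) = rv R (rv (rT R) x - s.c.pos z) := by
    rw [rv_sub, rv_rT' h]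
  rw [e1, dt_rv h]

/-! ### a finite net of frames -/

theorem exists_net {δ : ℝ} (hδ : 0 < δ) : ∃ (N : ℕ) (r : Fin N → Fin 3 → V3), (∀ k, Ortho (r k)) ∧
    ∀ F : Fin 3 → V3, Ortho F → ∃ k, ∀ i j, |F i j - r k i j| ≤ δ := by
  set K : Set (Fin 3 → V3) := {F | Ortho F} with hK
  have hsub : K ⊆ Metric.closedBall (0 : Fin 3 → V3) 1 := by
    intro F hF
    rw [mem_closedBall_zero_iff, pi_norm_le_iff_of_nonneg zero_le_one]
    intro i
    rw [pi_norm_le_iff_of_nonneg zero_le_one]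
    intro j
    exact abs_coord hF i j
  have htb : TotallyBounded K := (isCompact_closedBall (0 : Fin 3 → V3) 1).totallyBounded.subset hsub
  obtain ⟨t, htK, htf, hcov⟩ := Metric.finite_approx_of_totallyBounded htb δ hδ
  obtain ⟨N, e⟩ := htf.fin_embedding
  obtain ⟨r, hr⟩ := e
  refine ⟨N, r, fun k => htK (by rw [← hr]; exact Set.mem_range_self k), fun F hF => ?_⟩
  obtain ⟨y, hy, hFy⟩ := Set.mem_iUnion₂.1 (hcov hF)
  rw [← hr] at hy
  obtain ⟨k, rfl⟩ := hy
  refine ⟨k, fun i j => ?_⟩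
  have h1 : ‖F - r k‖ < δ := by rw [← dist_eq_norm]; exact hFy
  have h2 := (norm_le_pi_norm (F - r k) i)
  have h3 := (norm_le_pi_norm ((F - r k) i) j)
  have h4 : ‖(F - r k) i j‖ = |F i j - r k i j| := by rw [Real.norm_eq_abs]; rfl
  linarith

/-- frames close to `r` are near the standard one after rotation -/
theorem near_rot {r F : Fin 3 → V3} (hr : Ortho r) (hF : Ortho F) {δ : ℝ}
    (h : ∀ i j, |F i j - r i j| ≤ δ) {i j : Fin 3} (hij : i ≠ j) : |rF r F i j| ≤ 3 * δ := by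
  have e1 : rF r F i j = dt (r j) (r i) + dt (r j) (F i - r i) := by
    show dt (r j) (F i) = _
    rw [dt_sub]; ring
  rw [e1, hr j i, if_neg hij.symm, zero_add]
  have c := abs_coord hr j
  have k0 := m2 (c 0) (h i 0)
  have k1 := m2 (c 1) (h i 1)
  have k2 := m2 (c 2) (h i 2)
  have : dt (r j) (F i - r i) = r j 0 * (F i 0 - r i 0) + r j 1 * (F i 1 - r i 1) +
    r j 2 * (F i 2 - r i 2) := rfl
  rw [this]
  have := a2 (a2 k0 k1) k2
  linarith

open Classical in
/-- **a popular label is dense** -/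
theorem exists_pop {B : Base} {I : ℕ → Finset (ℕ × ℝ)} {N : ℕ} (cl : ℕ → ℕ × ℝ → Fin N)
    (hne : ∀ᶠ n in (U : Filter ℕ), (I n).Nonempty) (hN : 0 < N) :
    ∃ k : ℕ → Fin N, Dense B (fun n => (I n).filter fun x => cl n x = k n) I := by
  have hNe : Nonempty (Fin N) := ⟨⟨0, hN⟩⟩
  have key : ∀ n, ∃ k : Fin N, ((I n).card : ℝ) ≤
      N * (((I n).filter fun x => cl n x = k).card : ℝ) := by
    intro n
    by_contra hc
    push Not at hc
    have h1 : ((I n).card : ℝ) = ∑ k : Fin N, (((I n).filter fun x => cl n x = k).card : ℝ) := by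
      rw [card_eq_sum_card_fiberwise (f := cl n) (t := Finset.univ) (fun x _ => by simp)]
      push_cast; rfl
    have h2 : ∑ k : Fin N, (N : ℝ) * (((I n).filter fun x => cl n x = k).card : ℝ) <
        ∑ k : Fin N, ((I n).card : ℝ) :=
      sum_lt_sum_of_nonempty Finset.univ_nonempty fun k _ => hc k
    rw [← mul_sum, ← h1, sum_const, card_univ, Fintype.card_fin, nsmul_eq_mul] at h2
    exact lt_irrefl _ h2
  choose k hk using key
  refine ⟨k, Eventually.of_forall fun n => filter_subset _ _, fun η hη => ?_⟩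
  have hN' : (0 : ℝ) < N := by exact_mod_cast hN
  filter_upwards [Crest.Agent.R138.Ps926.dpow_small B hη (ε := 1 / (N : ℝ)) (by positivity)]
    with n hn
  have h1 := hk n
  have h2 : B.d n ^ η * ((I n).card : ℝ) ≤ 1 / N * (N *
      (((I n).filter fun x => cl n x = k n).card : ℝ)) :=
    mul_le_mul hn.le h1 (Nat.cast_nonneg _) (by positivity)
  refine h2.trans (le_of_eq ?_)
  field_simp

end Crest.Agent.R136.Ut262
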