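import Crest.Agent.R136.Ut3_262
import Crest.Agent.R136.Ut2_627
import Crest.Agent.R136.ZoomA_102

/-!
# R136 (S0187), U6 thick side (helper262), part 3: window, degenerate slots, rotation, chain

`MkF` : linear marked sequence with flat marks and tilt everywhere; `MkW` : all levels well inside,
slots `21`, `32` degenerate (`dE`, `dB`) or not; `exists_mkN` : after a rotation the relevant axes of
all marks of all levels are near the standard ones (`Nst`).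
-/

set_option autoImplicit false
set_option linter.unusedVariables false
set_option linter.unusedSectionVars false

open Finset Filter Topology

namespace Crest.Agent.R136.Ut262

open Crest.Agent.R138.Ex926 (Base U)
open Crest.Agent.R138.Dp76
open Crest.Agent.R138.Mk163 (zc zl rho alive own Negl)
open Crest.Agent.R138.NatTw76 (exists_avoid)
open Crest.Agent.R136.MkA627 Crest.Agent.R136.Sh605 Crest.Agent.R136.K4 Crest.Agent.R136.Top484
open Crest.Agent.R136.Ut627 (prF prF_zero prF_one prF_two prLinF wpos_all btF)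
open Crest.Agent.R136.ArgA163 (PrLin mq mq_zero mq_last mq_succ mq_ge mq_le le_of_log)

/-! ### tilt everywhere -/

/-- six entries of the transition matrix of two frames -/
def T6 (pE pB pA : ℝ) (F G : Fin 3 → V3) : Prop :=
  (|dt (F 1) (G 2)| ≤ pE ∧ |dt (F 2) (G 1)| ≤ pE) ∧
  (|dt (F 0) (G 2)| ≤ pB ∧ |dt (F 2) (G 0)| ≤ pB) ∧
  (|dt (F 0) (G 1)| ≤ pA ∧ |dt (F 1) (G 0)| ≤ pA)

theorem T6.mono {pE pB pA pE' pB' pA' : ℝ} {F G : Fin 3 → V3} (h : T6 pE pB pA F G)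
    (hE : pE ≤ pE') (hB : pB ≤ pB') (hA : pA ≤ pA') : T6 pE' pB' pA' F G :=
  ⟨⟨h.1.1.trans hE, h.1.2.trans hE⟩, ⟨h.2.1.1.trans hB, h.2.1.2.trans hB⟩,
    ⟨h.2.2.1.trans hA, h.2.2.2.trans hA⟩⟩

/-- bound of the slot `j` between the levels `u`, `v` -/
noncomputable def tb (D : Dat4) (C : ℝ) (u v : ℚ) (ε : ℝ) (n : ℕ) (j : Fin 3) : ℝ :=
  max (prF D.w j n u) (prF D.w j n v) * D.B.d n ^ (-(C * ((v : ℝ) - u)) - ε)

/-- tilt of the incidence `x` between the levels `u`, `v` -/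
def TiltP (D : Dat4) (C : ℝ) (u v : ℚ) (ε : ℝ) (n : ℕ) (x : ℕ × ℝ) : Prop :=
  T6 (tb D C u v ε n 0) (tb D C u v ε n 1) (tb D C u v ε n 2) (mkS D n u x).e (mkS D n v x).e

/-- **tilt everywhere** -/
def TiltA (D : Dat4) (C : ℝ) : Prop :=
  ∀ u v : ℚ, 0 ≤ u → u < v → v ≤ 1 → ∀ ε : ℝ, 0 < ε → ∀ᶠ n in (U : Filter ℕ),
    ∀ x ∈ D.I n, TiltP D C u v ε n x

/-- linear marked sequence with flat marks and tilt everywhere -/
structure MkF (p : Par4) (D : Dat4) (C : ℝ) : Prop where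
  mka : MkA D.B D.I (D.G p) D.lev D.A (fun v => p.g * v) (fun v => 0 * v)
    (fun j v => p.θ j * (1 - v)) D.f D.b D.vm D.w
  flat : FlatMk D
  tilt : TiltA D C
  wrs : Rng D.B D.wr D.cr D.w

theorem prF_pos {w : Fin 3 → ℕ → ℚ → ℝ} {n : ℕ} {v : ℚ} (h : ∀ k, 0 < w k n v) (j : Fin 3) :
    0 < prF w j n v := by
  fin_cases j
  · exact div_pos (h 2) (h 1)
  · exact div_pos (h 0) (h 2)
  · exact div_pos (h 0) (h 1)

open Classical in
/-- **tilt everywhere on a dense part** -/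
theorem exists_mkF {p : Par4} {D : Dat4}
    (hM : MkA D.B D.I (D.G p) D.lev D.A (fun v => p.g * v) (fun v => 0 * v)
      (fun j v => p.θ j * (1 - v)) D.f D.b D.vm D.w) (hF : FlatMk D) (hT : TiltF D)
    (hW : Rng D.B D.wr D.cr D.w) :
    ∃ (C : ℝ) (J : ℕ → Finset (ℕ × ℝ)), 0 ≤ C ∧ (∀ n, J n ⊆ D.I n) ∧ Dense D.B J D.I ∧
      MkF p { D with I := J } C := by
  obtain ⟨C, hC, hT⟩ := hT
  have : Nonempty ((ℚ × ℚ) × ℕ) := ⟨((0, 0), 0)⟩
  obtain ⟨en, hen⟩ := exists_surjective_nat ((ℚ × ℚ) × ℕ)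
  have hN : ∀ k, Negl D.B D.I fun n x =>
      (0 ≤ (en k).1.1 ∧ (en k).1.1 < (en k).1.2 ∧ (en k).1.2 ≤ 1) ∧
      ¬ TiltP D C (en k).1.1 (en k).1.2 (1 / (((en k).2 : ℝ) + 1)) n x := by
    intro k
    by_cases h : 0 ≤ (en k).1.1 ∧ (en k).1.1 < (en k).1.2 ∧ (en k).1.2 ≤ 1
    · exact (hT (en k).1.1 (en k).1.2 h.1 h.2.1 h.2.2 (1 / (((en k).2 : ℝ) + 1))
        (by positivity)).mono (Eventually.of_forall fun n x _ hx => hx.2)
    · exact Negl.false.mono (Eventually.of_forall fun n x _ hx => h hx.1)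
  obtain ⟨J0, hJ0I, hJ0d, hJ0⟩ := exists_avoid (B := D.B) (I := D.I) _ hN
  obtain ⟨J, hJs, hJd, -, hJ⟩ := MkA.refine' hM hJ0d
  refine ⟨C, J, hC, fun n => (hJs n).trans (hJ0I n), hJd.trans hJ0d, ⟨hJ, hF, ?_, hW⟩⟩
  intro u v h0 huv h1 ε hε
  obtain ⟨K, hK⟩ := exists_nat_one_div_lt hε
  obtain ⟨k, hk⟩ := hen ((u, v), K)
  have h2 := hJ0 k
  rw [hk] at h2
  filter_upwards [h2, wpos_all hM h0 (huv.le.trans h1)] with n a1 a2 x hx
  have a3 := a1 x (hJs n hx)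
  have a4 : TiltP D C u v (1 / ((K : ℝ) + 1)) n x := by
    by_contra hc
    exact a3 ⟨⟨h0, huv, h1⟩, hc⟩
  have hb : ∀ j, tb D C u v (1 / ((K : ℝ) + 1)) n j ≤ tb D C u v ε n j := fun j =>
    mul_le_mul_of_nonneg_left (dpow_le D.B n (by linarith))
      ((prF_pos a2 j).le.trans (le_max_left _ _))
  exact T6.mono a4 (hb 0) (hb 1) (hb 2)

/-! ### widths -/

section

variable {p : Par4} {D : Dat4}

/-- the marks are sheets with the common widths -/
theorem ord4 {c Λ : ℝ → ℝ} {τ : Fin 3 → ℝ → ℝ}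
    (h : MkA D.B D.I (D.G p) D.lev D.A c Λ τ D.f D.b D.vm D.w) {v : ℚ} (h0 : 0 ≤ v) (h1 : v ≤ 1) :
    ∀ᶠ n in (U : Filter ℕ), D.w 0 n v ≤ D.w 2 n v ∧ D.w 2 n v ≤ D.w 1 n v := by
  filter_upwards [h.ne, h.mark v h0 h1] with n hne hmk
  obtain ⟨x, hx⟩ := hne
  have hal : x.1 ∈ alive (D.I n) (D.lev n v) (zc (D.lev n v) x.2) :=
    Crest.Agent.R138.MkRef627.mem_alive.2 ⟨x, hx, rfl, rfl⟩
  obtain ⟨-, ⟨hs, hρ⟩, -, h4⟩ := hmk _ _ hal
  have e0 := h4 0
  have e1 := h4 1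
  have e2 := h4 2
  simp only [Dat4.G, geo4, Matrix.cons_val] at e0 e1 e2
  rw [← e0, ← e1, ← e2]
  exact ⟨hs.a_le, hs.w_le⟩

/-- the mark of an incidence is a sheet which contains the line -/
theorem mark4 {c Λ : ℝ → ℝ} {τ : Fin 3 → ℝ → ℝ}
    (h : MkA D.B D.I (D.G p) D.lev D.A c Λ τ D.f D.b D.vm D.w) {v : ℚ} (h0 : 0 ≤ v) (h1 : v ≤ 1) :
    ∀ᶠ n in (U : Filter ℕ), ∀ x ∈ D.I n,
      (InSheet (D.L n x.1) (mkS D n v x).e (mkS D n v x).c (mkS D n v x).w (mkS D n v x).q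
        (mkS D n v x).a (zl (D.lev n v) (zc (D.lev n v) x.2)) (rho (D.lev n v))) ∧
      Ortho (mkS D n v x).e ∧ (mkS D n v x).a = D.w 0 n v ∧ (mkS D n v x).w 1 = D.w 1 n v ∧
      (mkS D n v x).w 2 = D.w 2 n v := by
  filter_upwards [h.mark v h0 h1] with n hmk x hx
  have hal : x.1 ∈ alive (D.I n) (D.lev n v) (zc (D.lev n v) x.2) :=
    Crest.Agent.R138.MkRef627.mem_alive.2 ⟨x, hx, rfl, rfl⟩
  obtain ⟨hm, ⟨hs, hρ⟩, -, h4⟩ := hmk _ _ hal
  have e0 := h4 0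
  have e1 := h4 1
  have e2 := h4 2
  simp only [Dat4.G, geo4, Matrix.cons_val] at e0 e1 e2
  exact ⟨hm, hs.ortho, e0, e1, e2⟩

/-- precisions are at most one, and the slot `31` is the finest -/
theorem prF_ord {w : Fin 3 → ℕ → ℚ → ℝ} {n : ℕ} {v : ℚ} (h : ∀ k, 0 < w k n v)
    (h1 : w 0 n v ≤ w 2 n v) (h2 : w 2 n v ≤ w 1 n v) :
    prF w 0 n v ≤ 1 ∧ prF w 1 n v ≤ 1 ∧ prF w 2 n v ≤ prF w 0 n v ∧
      prF w 2 n v ≤ prF w 1 n v := by
  rw [prF_zero, prF_one, prF_two]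
  have p0 := h 0
  have p1 := h 1
  have p2 := h 2
  refine ⟨(div_le_one p1).2 h2, (div_le_one p2).2 h1, div_le_div_of_nonneg_right h1 p1.le, ?_⟩
  exact div_le_div_of_nonneg_left p0.le p2 h2

end

/-! ### dichotomy of a slot -/

/-- **a slot is degenerate at all levels or non-degenerate at all inner levels** -/
theorem dich {B : Base} {pr : Fin 3 → ℕ → ℚ → ℝ} {j : Fin 3} {β : ℝ} (h : PrLin B pr j β)
    (h1 : ∀ v : ℚ, 0 ≤ v → v ≤ 1 → ∀ᶠ n in (U : Filter ℕ), pr j n v ≤ 1) :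
    (∀ v : ℚ, 0 ≤ v → v ≤ 1 → ∀ ε : ℝ, 0 < ε → ∀ᶠ n in (U : Filter ℕ), B.d n ^ ε ≤ pr j n v) ∨
    ∃ c : ℝ, 0 < c ∧ ∀ v : ℚ, 1 / 4 ≤ v → v ≤ 3 / 4 → ∀ᶠ n in (U : Filter ℕ),
      pr j n v ≤ B.d n ^ c := by
  classical
  set X : ℕ → ℚ → ℝ := fun n v => -Real.log (pr j n v) / B.L n with hX
  have hL := B.L_pos
  have hd : ∀ n, B.d n = Real.exp (-(B.L n)) := by
    intro n
    have e1 : B.L n = -Real.log (B.d n) := by unfold Base.L; rfl
    rw [e1, neg_neg, Real.exp_log (B.pos n)]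
  have hpow : ∀ n (c : ℝ), B.d n ^ c = Real.exp (-(c * B.L n)) := by
    intro n c
    rw [hd, ← Real.exp_mul]; congr 1; ring
  -- translation
  have tr1 : ∀ n v (c : ℝ), 0 < pr j n v → X n v ≤ c → B.d n ^ c ≤ pr j n v := by
    intro n v c hp hc
    rw [hpow, ← Real.exp_log hp]
    rw [hX] at hc
    simp only at hc
    rw [div_le_iff₀ (hL n)] at hc
    exact Real.exp_le_exp.2 (by linarith)
  have tr2 : ∀ n v (c : ℝ), 0 < pr j n v → c ≤ X n v → pr j n v ≤ B.d n ^ c := by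
    intro n v c hp hc
    rw [hpow, ← Real.exp_log hp]
    rw [hX] at hc
    simp only at hc
    rw [le_div_iff₀ (hL n)] at hc
    exact Real.exp_le_exp.2 (by linarith)
  have X0 : ∀ v : ℚ, 0 ≤ v → v ≤ 1 → ∀ᶠ n in (U : Filter ℕ), 0 ≤ X n v := by
    intro v h0 hv
    filter_upwards [h1 v h0 hv, h.1 v h0 hv] with n a b
    exact div_nonneg (by have := Real.log_nonpos b.le a; linarith) (hL n).le
  -- differences
  have dif : ∀ u v : ℚ, 0 ≤ u → u ≤ 1 → 0 ≤ v → v ≤ 1 → ∀ δ : ℝ, 0 < δ →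
      ∀ᶠ n in (U : Filter ℕ), |X n v - X n u - β * ((v : ℝ) - u)| ≤ δ := by
    intro u v hu0 hu1 hv0 hv1 δ hδ
    have h2 := h.pair hu0 hu1 hv0 hv1
    filter_upwards [(Metric.tendsto_nhds.1 h2) δ hδ, h.1 u hu0 hu1, h.1 v hv0 hv1] with n a b c
    rw [Real.dist_eq] at a
    have e1 : X n v - X n u = Real.log (pr j n u / pr j n v) / B.L n := by
      rw [Real.log_div b.ne' c.ne', hX]; ring
    rw [e1]
    exact a.le
  by_cases hc : ∀ c : ℝ, 0 < c → ∀ᶠ n in (U : Filter ℕ), X n (1 / 2) ≤ c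
  · left
    have hβ : β = 0 := by
      by_contra hb
      have hb' : 0 < |β| := abs_pos.2 hb
      have z0 := X0 0 le_rfl zero_le_one
      have z1 := X0 1 zero_le_one le_rfl
      have d0 := dif (1 / 2) 0 (by norm_num) (by norm_num) le_rfl zero_le_one (|β| / 8)
        (by positivity)
      have d1 := dif (1 / 2) 1 (by norm_num) (by norm_num) zero_le_one le_rfl (|β| / 8)
        (by positivity)
      obtain ⟨n, a1, a2, a3, a4, a5⟩ :=
        (z0.and (z1.and (d0.and (d1.and (hc (|β| / 8) (by positivity)))))).exists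
      rw [abs_le] at a3 a4
      push_cast at a3 a4
      rcases abs_cases β with ⟨e, _⟩ | ⟨e, _⟩ <;> linarith [a3.1, a3.2, a4.1, a4.2]
    intro v h0 hv ε hε
    filter_upwards [dif (1 / 2) v (by norm_num) (by norm_num) h0 hv (ε / 2) (by positivity),
      hc (ε / 2) (by positivity), h.1 v h0 hv] with n a b c
    refine tr1 n v ε c ?_
    rw [hβ, abs_le] at a
    linarith [a.2]
  · right
    push Not at hc
    obtain ⟨c0, hc0, hc1⟩ := hc
    refine ⟨c0 / 4, by positivity, fun v hv0 hv1 => ?_⟩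
    have g0 : (0 : ℚ) ≤ v := by linarith
    have g1 : v ≤ 1 := by linarith
    have r0 : (1 / 4 : ℝ) ≤ v := by
      have := (Rat.cast_le (K := ℝ)).2 hv0
      push_cast at this; exact this
    have r1 : (v : ℝ) ≤ 3 / 4 := by
      have := (Rat.cast_le (K := ℝ)).2 hv1
      push_cast at this; exact this
    rcases le_total v (1 / 2) with hv | hv
    · have r2 : (v : ℝ) ≤ 1 / 2 := by
        have := (Rat.cast_le (K := ℝ)).2 hv
        push_cast at this; exact this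
      filter_upwards [dif 0 v le_rfl zero_le_one g0 g1 (c0 / 8) (by positivity),
        dif 0 (1 / 2) le_rfl zero_le_one (by norm_num) (by norm_num) (c0 / 8) (by positivity),
        X0 0 le_rfl zero_le_one, hc1, h.1 v g0 g1] with n a1 a2 a3 a4 a5
      refine tr2 n v _ a5 ?_
      rw [abs_le] at a1 a2
      push_cast at a1 a2
      have e1 : 2 * (v : ℝ) * X n (1 / 2) ≤ 2 * v * (X n 0 + β / 2 + c0 / 8) :=
        mul_le_mul_of_nonneg_left (by linarith [a2.2]) (by linarith)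
      have e2 : 2 * (v : ℝ) * X n 0 ≤ X n 0 := by nlinarith
      have e3 : 2 * (1 / 4 : ℝ) * c0 ≤ 2 * v * X n (1 / 2) := by nlinarith
      have e4 : 2 * (v : ℝ) * (c0 / 8) ≤ c0 / 8 := by nlinarith
      nlinarith [a1.1]
    · have r2 : (1 / 2 : ℝ) ≤ v := by
        have := (Rat.cast_le (K := ℝ)).2 hv
        push_cast at this; exact this
      filter_upwards [dif 1 v zero_le_one le_rfl g0 g1 (c0 / 8) (by positivity),
        dif 1 (1 / 2) zero_le_one le_rfl (by norm_num) (by norm_num) (c0 / 8) (by positivity),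
        X0 1 zero_le_one le_rfl, hc1, h.1 v g0 g1] with n a1 a2 a3 a4 a5
      refine tr2 n v _ a5 ?_
      rw [abs_le] at a1 a2
      push_cast at a1 a2
      have e1 : 2 * (1 - (v : ℝ)) * X n (1 / 2) ≤ 2 * (1 - v) * (X n 1 - β / 2 + c0 / 8) :=
        mul_le_mul_of_nonneg_left (by linarith [a2.2]) (by linarith)
      have e2 : 2 * (1 - (v : ℝ)) * X n 1 ≤ X n 1 := by nlinarith
      have e3 : 2 * (1 / 4 : ℝ) * c0 ≤ 2 * (1 - v) * X n (1 / 2) := by nlinarith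
      have e4 : 2 * (1 - (v : ℝ)) * (c0 / 8) ≤ c0 / 8 := by nlinarith
      nlinarith [a1.1]

/-! ### window -/

/-- level map of the window `[1/4, 3/4]` -/
def wm (x : ℚ) : ℚ := 1 / 4 + x / 2

theorem wm_mem {x : ℚ} (h0 : 0 ≤ x) (h1 : x ≤ 1) : 1 / 4 ≤ wm x ∧ wm x ≤ 3 / 4 := by
  unfold wm; constructor <;> linarith

theorem wm_cast (x : ℚ) : ((wm x : ℚ) : ℝ) = 1 / 4 + x / 2 := by unfold wm; push_cast; ring

/-- the data of the window -/
def winD (D : Dat4) (B' : Base) (I' : ℕ → Finset (ℕ × ℝ)) (A' : ℕ → ℝ) : Dat4 where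
  B := B'
  I := I'
  L := D.L
  r0 := D.r0
  wr := D.wr
  cr := D.cr
  lev := fun n x => D.lev n (wm x)
  A := A'
  f := fun n x => D.f n (wm x)
  b := fun n x => D.b n (wm x)
  vm := fun n x => D.vm n (wm x)
  w := fun j n x => D.w j n (wm x)

/-- the lateral range of the window -/
theorem rng_win {D : Dat4} (h : Rng D.B D.wr D.cr D.w) {B' : Base}
    (hB : ∀ n, B'.d n = D.B.d n ^ (1 / 2 : ℝ)) :
    Rng B' D.wr D.cr (fun j n x => D.w j n (wm x)) := by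
  intro C k v h0 h1
  have hm := wm_mem h0 h1
  filter_upwards [h (C / 2) k (wm v) (by linarith [hm.1]) (by linarith [hm.2])] with n hn
  have e : B'.d n ^ C = D.B.d n ^ (C / 2) := by
    rw [hB, ← Real.rpow_mul (D.B.pos n).le]; congr 1; ring
  rw [e]
  exact hn

/-- **window `[1/4, 3/4]`** -/
theorem exists_win {p : Par4} {D : Dat4} {C : ℝ} (h : MkF p D C) :
    ∃ (B' : Base) (I' : ℕ → Finset (ℕ × ℝ)) (A' : ℕ → ℝ), (∀ n, B'.d n = D.B.d n ^ (1 / 2 : ℝ)) ∧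
      (∀ n, I' n ⊆ D.I n) ∧ MkF p (winD D B' I' A') C := by
  have hlin : ∀ a b : ℝ, a / (1 / 2 : ℝ) = b ↔ a = b / 2 := fun a b => by
    constructor
    · intro h; linarith
    · intro h; rw [h]; ring
  obtain ⟨s0, hs0, hz⟩ := Crest.Agent.R136.ZoomA102.zoomA h.mka (fun _ => 1 / 2) (fun _ x => wm x) (fun v => p.g * v)
    (fun v => 0 * v) (fun j v => p.θ j * (1 - v)) (fun _ => by norm_num) (fun _ => by norm_num)
    (fun k x h0 h1 => by
      have := wm_mem h0 h1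
      constructor <;> linarith [this.1, this.2])
    (fun x y h0 hxy h1 => Eventually.of_forall fun k => by unfold wm; linarith)
    (fun x y h0 hxy h1 => tendsto_const_nhds.congr fun k => by
      simp only [wm_cast]; ring)
    (fun x h0 h1 => tendsto_const_nhds.congr fun k => by
      simp only [wm_cast]; push_cast; ring)
    (fun x h0 h1 => tendsto_const_nhds.congr fun k => by
      simp only [wm_cast]; push_cast; ring)
    (fun j x h0 h1 => tendsto_const_nhds.congr fun k => by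
      simp only [wm_cast]; push_cast; ring)
    (fun u v h0 huv h1 => by constructor <;> linarith)
    (by simp) (by simp) (fun j => by simp)
  obtain ⟨B', I', A', hB, hI, hM⟩ := hz s0 hs0 (Eventually.of_forall fun n => le_rfl)
  refine ⟨B', I', A', hB, hI, ⟨hM, fun n v i z x => h.flat n (wm v) i z x, ?_, rng_win h.wrs hB⟩⟩
  intro u v h0 huv h1 ε hε
  have a1 := wm_mem h0 (huv.le.trans h1)
  have a2 := wm_mem (h0.trans huv.le) h1
  filter_upwards [h.tilt (wm u) (wm v) (by linarith [a1.1]) (by unfold wm; linarith)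
    (by linarith [a2.2]) (ε / 2) (by positivity)] with n hn x hx
  have h2 := hn x (hI n hx)
  have e1 : ∀ j, tb (winD D B' I' A') C u v ε n j = tb D C (wm u) (wm v) (ε / 2) n j := by
    intro j
    show max (prF D.w j n (wm u)) (prF D.w j n (wm v)) * B'.d n ^ (-(C * ((v : ℝ) - u)) - ε) = _
    unfold tb
    rw [hB, ← Real.rpow_mul (D.B.pos n).le]
    congr 2
    simp only [wm_cast]
    ring
  show T6 _ _ _ _ _
  rw [e1, e1, e1]
  exact h2

/-- marked sequence with flat marks, tilt everywhere, slots `21` (`dE`) and `32` (`dB`) degenerate at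
all levels or with a positive exponent at all levels -/
structure MkW (p : Par4) (D : Dat4) (C c : ℝ) (dE dB : Prop) : Prop extends MkF p D C where
  c0 : 0 < c
  E1 : dE → ∀ v : ℚ, 0 ≤ v → v ≤ 1 → ∀ ε : ℝ, 0 < ε → ∀ᶠ n in (U : Filter ℕ),
    D.B.d n ^ ε ≤ prF D.w 0 n v
  E2 : ¬ dE → ∀ v : ℚ, 0 ≤ v → v ≤ 1 → ∀ᶠ n in (U : Filter ℕ), prF D.w 0 n v ≤ D.B.d n ^ c
  B1 : dB → ∀ v : ℚ, 0 ≤ v → v ≤ 1 → ∀ ε : ℝ, 0 < ε → ∀ᶠ n in (U : Filter ℕ),
    D.B.d n ^ ε ≤ prF D.w 1 n v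
  B2 : ¬ dB → ∀ v : ℚ, 0 ≤ v → v ≤ 1 → ∀ᶠ n in (U : Filter ℕ), prF D.w 1 n v ≤ D.B.d n ^ c

/-- the dichotomy in the window -/
theorem dich_win {p : Par4} {D : Dat4} {C : ℝ} (h : MkF p D C) {B' : Base}
    (hB : ∀ n, B'.d n = D.B.d n ^ (1 / 2 : ℝ)) (j : Fin 3) :
    (∀ v : ℚ, 0 ≤ v → v ≤ 1 → ∀ ε : ℝ, 0 < ε → ∀ᶠ n in (U : Filter ℕ),
      B'.d n ^ ε ≤ prF D.w j n (wm v)) ∨
    ∃ c : ℝ, 0 < c ∧ ∀ v : ℚ, 0 ≤ v → v ≤ 1 → ∀ᶠ n in (U : Filter ℕ),
      prF D.w j n (wm v) ≤ B'.d n ^ c := by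
  have hpow : ∀ n (c : ℝ), B'.d n ^ c = D.B.d n ^ (c / 2) := by
    intro n c
    rw [hB, ← Real.rpow_mul (D.B.pos n).le]; congr 1; ring
  rcases dich (prLinF h.mka j) (fun v h0 h1 => by
    filter_upwards [wpos_all h.mka h0 h1, ord4 h.mka h0 h1] with n a1 a2
    obtain ⟨b0, b1, b2, b3⟩ := prF_ord a1 a2.1 a2.2
    fin_cases j
    · exact b0
    · exact b1
    · exact b2.trans b0) with h1 | ⟨c, hc, h1⟩
  · left
    intro v h0 hv ε hε
    obtain ⟨m0, m1⟩ := wm_mem h0 hv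
    filter_upwards [h1 (wm v) (by linarith) (by linarith) (ε / 2) (by positivity)] with n hn
    rw [hpow]; exact hn
  · right
    refine ⟨2 * c, by positivity, fun v h0 hv => ?_⟩
    obtain ⟨m0, m1⟩ := wm_mem h0 hv
    filter_upwards [h1 (wm v) m0 m1] with n hn
    rw [hpow]
    convert hn using 2
    ring

/-- **window with degenerate and non-degenerate slots** -/
theorem exists_mkW {p : Par4} {D : Dat4} {C : ℝ} (h : MkF p D C) :
    ∃ (B' : Base) (I' : ℕ → Finset (ℕ × ℝ)) (A' : ℕ → ℝ) (c : ℝ) (dE dB : Prop),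
      (∀ n, B'.d n = D.B.d n ^ (1 / 2 : ℝ)) ∧ (∀ n, I' n ⊆ D.I n) ∧
        MkW p (winD D B' I' A') C c dE dB := by
  obtain ⟨B', I', A', hB, hI, hM⟩ := exists_win h
  obtain ⟨c1, hc1, h1⟩ : ∃ c : ℝ, 0 < c ∧ ((¬ ∀ v : ℚ, 0 ≤ v → v ≤ 1 → ∀ ε : ℝ, 0 < ε →
      ∀ᶠ n in (U : Filter ℕ), B'.d n ^ ε ≤ prF D.w 0 n (wm v)) →
      ∀ v : ℚ, 0 ≤ v → v ≤ 1 → ∀ᶠ n in (U : Filter ℕ), prF D.w 0 n (wm v) ≤ B'.d n ^ c) := by
    rcases dich_win h hB 0 with h1 | ⟨c, hc, h1⟩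
    · exact ⟨1, one_pos, fun hn => absurd h1 hn⟩
    · exact ⟨c, hc, fun _ => h1⟩
  obtain ⟨c2, hc2, h2⟩ : ∃ c : ℝ, 0 < c ∧ ((¬ ∀ v : ℚ, 0 ≤ v → v ≤ 1 → ∀ ε : ℝ, 0 < ε →
      ∀ᶠ n in (U : Filter ℕ), B'.d n ^ ε ≤ prF D.w 1 n (wm v)) →
      ∀ v : ℚ, 0 ≤ v → v ≤ 1 → ∀ᶠ n in (U : Filter ℕ), prF D.w 1 n (wm v) ≤ B'.d n ^ c) := by
    rcases dich_win h hB 1 with h1 | ⟨c, hc, h1⟩
    · exact ⟨1, one_pos, fun hn => absurd h1 hn⟩
    · exact ⟨c, hc, fun _ => h1⟩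
  refine ⟨B', I', A', min c1 c2, _, _, hB, hI, ⟨hM, lt_min hc1 hc2, fun hd => hd, fun hd v h0 hv => ?_,
    fun hd => hd, fun hd v h0 hv => ?_⟩⟩
  · filter_upwards [h1 hd v h0 hv] with n hn
    exact hn.trans (dpow_le B' n (min_le_left _ _))
  · filter_upwards [h2 hd v h0 hv] with n hn
    exact hn.trans (dpow_le B' n (min_le_right _ _))

/-! ### rotation -/

/-- rotated data -/
noncomputable def rotD (D : Dat4) (R : ℕ → Fin 3 → V3) : Dat4 :=
  { D with L := fun n t => rl (R n) (D.L n t), b := fun n v i => rS (R n) (D.b n v i) }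

theorem MkF.rot {p : Par4} {D : Dat4} {C : ℝ} (h : MkF p D C) {R : ℕ → Fin 3 → V3}
    (hR : ∀ n, Ortho (R n)) : MkF p (rotD D R) C where
  mka := MkA.rot h.mka hR
  flat := fun n v i z x => flat_rot (hR n) (fun z x => h.flat n v i z x) z x
  tilt := by
    intro u v h0 huv h1 ε hε
    filter_upwards [h.tilt u v h0 huv h1 ε hε] with n hn x hx
    have h2 := hn x hx
    have e1 : ∀ i j, dt ((mkS (rotD D R) n u x).e i) ((mkS (rotD D R) n v x).e j) =
        dt ((mkS D n u x).e i) ((mkS D n v x).e j) := fun i j => dt_rv (hR n) _ _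
    unfold TiltP T6 at h2 ⊢
    simp only [e1]
    exact h2
  wrs := h.wrs

theorem MkW.rot {p : Par4} {D : Dat4} {C c : ℝ} {dE dB : Prop} (h : MkW p D C c dE dB)
    {R : ℕ → Fin 3 → V3} (hR : ∀ n, Ortho (R n)) : MkW p (rotD D R) C c dE dB :=
  ⟨h.toMkF.rot hR, h.c0, h.E1, h.E2, h.B1, h.B2⟩

/-- dense parts -/
theorem MkW.sub {p : Par4} {D : Dat4} {C c : ℝ} {dE dB : Prop} (h : MkW p D C c dE dB)
    {J : ℕ → Finset (ℕ × ℝ)} (hJ : Dense D.B J D.I) (hJI : ∀ n, J n ⊆ D.I n) :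
    ∃ J' : ℕ → Finset (ℕ × ℝ), (∀ n, J' n ⊆ J n) ∧ Dense D.B J' D.I ∧
      MkW p { D with I := J' } C c dE dB := by
  obtain ⟨J', h1, h2, -, h3⟩ := MkA.refine' h.mka hJ
  refine ⟨J', h1, h2.trans hJ, ⟨⟨h3, h.flat, ?_, h.wrs⟩, h.c0, h.E1, h.E2, h.B1, h.B2⟩⟩
  intro u v h0 huv h4 ε hε
  filter_upwards [h.tilt u v h0 huv h4 ε hε] with n hn x hx using hn x (hJI n (h1 n hx))

open Classical in
/-- **rotation**: the axes of the marks of level `1` are near the standard ones -/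
theorem exists_rot {p : Par4} {D : Dat4} {C c : ℝ} {dE dB : Prop} (h : MkW p D C c dE dB) :
    ∃ (R : ℕ → Fin 3 → V3) (J : ℕ → Finset (ℕ × ℝ)), (∀ n, Ortho (R n)) ∧ (∀ n, J n ⊆ D.I n) ∧
      Dense D.B J D.I ∧ MkW p { rotD D R with I := J } C c dE dB ∧
      ∀ᶠ n in (U : Filter ℕ), ∀ x ∈ J n, Nst dE dB (1 / 20) (mkS (rotD D R) n 1 x).e := by
  obtain ⟨N, r, hr, hnet⟩ := exists_net (δ := 1 / 60) (by norm_num)
  have hN : 0 < N := by
    obtain ⟨k, -⟩ := hnet (fun i j => if i = j then 1 else 0) (by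
      intro i j
      simp only [dt]
      fin_cases i <;> fin_cases j <;> simp)
    exact lt_of_le_of_lt (Nat.zero_le _) k.2
  have : Nonempty (Fin N) := ⟨⟨0, hN⟩⟩
  choose! cl0 hcl0 using hnet
  obtain ⟨k, hk⟩ := exists_pop (B := D.B) (I := D.I) (fun n x => cl0 (mkS D n 1 x).e) h.mka.ne hN
  obtain ⟨J, hJ1, hJ2, hJ3⟩ := (h.rot (R := fun n => r (k n)) fun n => hr _).sub (J := fun n =>
    (D.I n).filter fun x => cl0 (mkS D n 1 x).e = k n) hk (fun n => filter_subset _ _)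
  refine ⟨fun n => r (k n), J, fun n => hr _, fun n => (hJ1 n).trans (filter_subset _ _), hJ2, hJ3, ?_⟩
  filter_upwards [mark4 h.mka zero_le_one le_rfl] with n hn x hx
  obtain ⟨x1, x2⟩ := mem_filter.1 (hJ1 n hx)
  obtain ⟨-, ho, -⟩ := hn x x1
  have h1 := hcl0 (mkS D n 1 x).e ho
  rw [x2] at h1
  have key : ∀ i j : Fin 3, i ≠ j → |(mkS (rotD D fun n => r (k n)) n 1 x).e i j| ≤ 1 / 20 := by
    intro i j hij
    have := near_rot (hr (k n)) ho h1 hij
    have e1 : (3 : ℝ) * (1 / 60) = 1 / 20 := by norm_num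
    rw [e1] at this
    exact this
  exact ⟨rF_ortho (hr _) ho, fun _ => key 0 1 (by decide), fun _ => key 0 2 (by decide),
    fun _ => key 1 0 (by decide), fun _ => key 1 2 (by decide)⟩

/-! ### chain -/

/-- the slot `31` is the finest -/
theorem tb_le {D : Dat4} {C : ℝ} {u v : ℚ} {ε : ℝ} {n : ℕ} (hu : ∀ k, 0 < D.w k n u)
    (hv : ∀ k, 0 < D.w k n v) (ou : D.w 0 n u ≤ D.w 2 n u ∧ D.w 2 n u ≤ D.w 1 n u)
    (ov : D.w 0 n v ≤ D.w 2 n v ∧ D.w 2 n v ≤ D.w 1 n v) :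
    0 < tb D C u v ε n 2 ∧ tb D C u v ε n 2 ≤ tb D C u v ε n 0 ∧
      tb D C u v ε n 2 ≤ tb D C u v ε n 1 := by
  obtain ⟨-, -, a1, a2⟩ := prF_ord hu ou.1 ou.2
  obtain ⟨-, -, b1, b2⟩ := prF_ord hv ov.1 ov.2
  exact ⟨mul_pos (lt_max_of_lt_left (prF_pos hu 2)) (dpow_pos D.B n _),
    mul_le_mul_of_nonneg_right (max_le_max a1 b1) (dpow_pos D.B n _).le,
    mul_le_mul_of_nonneg_right (max_le_max a2 b2) (dpow_pos D.B n _).le⟩

/-- **chain**: the relevant axes of the marks of all levels are near the standard ones -/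
theorem MkW.chain {p : Par4} {D : Dat4} {C c : ℝ} {dE dB : Prop} (h : MkW p D C c dE dB)
    (hC : 0 ≤ C) (h1 : ∀ᶠ n in (U : Filter ℕ), ∀ x ∈ D.I n, Nst dE dB (1 / 20) (mkS D n 1 x).e)
    {v : ℚ} (h0 : 0 ≤ v) (hv : v ≤ 1) :
    ∀ᶠ n in (U : Filter ℕ), ∀ x ∈ D.I n, Nst dE dB (1 / 5) (mkS D n v x).e := by
  rcases hv.eq_or_lt with rfl | hlt
  · filter_upwards [h1] with n hn x hx using (hn x hx).mono (by norm_num)
  have hc := h.c0
  obtain ⟨N, hN⟩ := exists_nat_gt (4 * C / c)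
  have hNpos : 0 < N := by
    have : (0 : ℝ) < N := lt_of_le_of_lt (by positivity) hN
    exact_mod_cast this
  have hN' : (0 : ℝ) < N := by exact_mod_cast hNpos
  have hNq : (0 : ℚ) < N := by exact_mod_cast hNpos
  have hCN : C / N ≤ c / 4 := by
    rw [div_lt_iff₀ hc] at hN
    rw [div_le_iff₀ hN']
    linarith
  set m : ℕ → ℚ := fun k => 1 - k * ((1 - v) / N) with hm
  have hs : 0 < (1 - v) / (N : ℚ) := div_pos (by linarith) hNq
  have m1 : ∀ k, m k ≤ 1 := fun k => by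
    have : (0 : ℚ) ≤ k * ((1 - v) / N) := by positivity
    simp only [hm]; linarith
  have mN : m N = v := by
    simp only [hm]
    field_simp
    ring
  have ms : ∀ k, m k - m (k + 1) = (1 - v) / N := fun k => by
    simp only [hm]; push_cast; ring
  have manti : ∀ k l, k ≤ l → m l ≤ m k := fun k l hkl => by
    have : (k : ℚ) ≤ l := by exact_mod_cast hkl
    simp only [hm]
    nlinarith
  have m0 : ∀ k, k ≤ N → v ≤ m k := fun k hk => by rw [← mN]; exact manti k N hk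
  have key : ∀ k, k ≤ N → ∀ᶠ n in (U : Filter ℕ), ∀ x ∈ D.I n,
      Nst dE dB (1 / 20 + k / (20 * N)) (mkS D n (m k) x).e := by
    intro k
    induction k with
    | zero =>
      intro _
      have e1 : m 0 = 1 := by simp [hm]
      filter_upwards [h1] with n hn x hx
      rw [e1]
      refine (hn x hx).mono ?_
      simp
    | succ k ih =>
      intro hk
      have g0 := h0.trans (m0 (k + 1) hk)
      have g1 := m1 k
      have glt : m (k + 1) < m k := by have := ms k; linarith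
      have gk := g0.trans glt.le
      have hstep : C * (((m k : ℚ) : ℝ) - (m (k + 1) : ℚ)) ≤ c / 4 := by
        rw [← Rat.cast_sub, ms]
        push_cast
        have hv' : (0 : ℝ) ≤ v := by exact_mod_cast h0
        calc C * ((1 - (v : ℝ)) / N) ≤ C * (1 / N) := by
              refine mul_le_mul_of_nonneg_left ?_ hC
              exact div_le_div_of_nonneg_right (by linarith) hN'.le
          _ = C / N := by ring
          _ ≤ c / 4 := hCN
      have hsl : ∀ j : Fin 3, (∀ᶠ n in (U : Filter ℕ), prF D.w j n (m (k + 1)) ≤ D.B.d n ^ c) →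
          (∀ᶠ n in (U : Filter ℕ), prF D.w j n (m k) ≤ D.B.d n ^ c) →
          ∀ᶠ n in (U : Filter ℕ), tb D C (m (k + 1)) (m k) (c / 4) n j ≤ 1 / (40 * N) := by
        intro j p1 p2
        filter_upwards [p1, p2, Crest.Agent.R138.Ps926.dpow_small D.B (show 0 < c / 2 by positivity)
          (ε := 1 / (40 * (N : ℝ))) (by positivity)] with n a1 a2 a3
        unfold tb
        calc max (prF D.w j n (m (k + 1))) (prF D.w j n (m k)) *
              D.B.d n ^ (-(C * (((m k : ℚ) : ℝ) - (m (k + 1) : ℚ))) - c / 4)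
            ≤ D.B.d n ^ c * D.B.d n ^ (-(c / 2)) :=
              mul_le_mul (max_le a1 a2) (dpow_le D.B n (by linarith)) (dpow_pos D.B n _).le
                (dpow_pos D.B n _).le
          _ = D.B.d n ^ (c / 2) := by rw [← dpow_add]; congr 1; ring
          _ ≤ _ := a3.le
      have hEs : ∀ᶠ n in (U : Filter ℕ), ¬ dE → tb D C (m (k + 1)) (m k) (c / 4) n 0 ≤
          1 / (40 * N) := by
        by_cases hd : dE
        · exact Eventually.of_forall fun n hn => absurd hd hn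
        · filter_upwards [hsl 0 (h.E2 hd _ g0 (m1 _)) (h.E2 hd _ gk g1)] with n hn _ using hn
      have hBs : ∀ᶠ n in (U : Filter ℕ), ¬ dB → tb D C (m (k + 1)) (m k) (c / 4) n 1 ≤
          1 / (40 * N) := by
        by_cases hd : dB
        · exact Eventually.of_forall fun n hn => absurd hd hn
        · filter_upwards [hsl 1 (h.B2 hd _ g0 (m1 _)) (h.B2 hd _ gk g1)] with n hn _ using hn
      filter_upwards [ih (by omega), h.tilt (m (k + 1)) (m k) g0 glt g1 (c / 4) (by positivity),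
        hEs, hBs, mark4 h.mka g0 (m1 _), wpos_all h.mka g0 (m1 _), wpos_all h.mka gk g1,
        ord4 h.mka g0 (m1 _), ord4 h.mka gk g1] with n a1 a2 a3 a4 a5 a6 a7 a8 a9 x hx
      obtain ⟨-, t20, t21⟩ := tb_le (C := C) (ε := c / 4) a6 a7 a8 a9
      obtain ⟨⟨b1, -⟩, ⟨b2, -⟩, ⟨b3, b4⟩⟩ := a2 x hx
      have h2 := (a1 x hx).trans (a5 x hx).2.1 (η := 1 / (40 * N))
        (fun hd => b3.trans (t21.trans (a4 hd))) (fun hd => b2.trans (a4 hd))
        (fun hd => b4.trans (t20.trans (a3 hd))) (fun hd => b1.trans (a3 hd))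
      refine h2.mono (le_of_eq ?_)
      push_cast
      field_simp
      ring
  have h2 := key N le_rfl
  rw [mN] at h2
  filter_upwards [h2] with n hn x hx
  refine (hn x hx).mono ?_
  have e1 : (N : ℝ) / (20 * N) = 1 / 20 := by field_simp
  rw [e1]; norm_num

end Crest.Agent.R136.Ut262
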