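import Mathlib
import Crest.Agent.R136.Ut1_262
import Crest.Agent.R136.Ut5_627

/-!
# R136, U6 thick side (helper627): tilt of the frames of the marks ⟹ tilt of the slots

`snM dE dB D n v x = (slE, slB, slA)` of the frame of the mark of level `v` at `x` (slopes of
`Ut1_262`); `tiltT_of_tiltF` : `TiltF` + frames near the standard one ⟹ the three slots are tilted.
-/

set_option autoImplicit false
set_option linter.unusedVariables false
set_option linter.unusedSectionVars false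

open Finset Filter Topology

namespace Crest.Agent.R136.Ut627

open Crest.Agent.R138.Ex926 (Base U)
open Crest.Agent.R138.Dp76
open Crest.Agent.R138.Mk163 (zc zl rho alive own Negl)
open Crest.Agent.R136.MkA627
open Crest.Agent.R136.TD627
open Crest.Agent.R136.Sh605 Crest.Agent.R136.Top484
open Crest.Agent.R136.Ut262

/-- level flags of the marks -/
noncomputable def snM (dE dB : Prop) (D : Dat4) (n : ℕ) (v : ℚ) (x : ℕ × ℝ) : Fin 3 → ℝ :=
  ![slE dE dB (mkS D n v x).e, slB dE dB (mkS D n v x).e, slA dE dB (mkS D n v x).e]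

theorem snM_cell (dE dB : Prop) (D : Dat4) : SnCell D.I D.lev (snM dE dB D) := by
  intro v h0 h1
  refine Eventually.of_forall fun n x hx y hy hyx hz => ?_
  have : mkS D n v y = mkS D n v x := by
    unfold mkS; rw [hyx, hz]
  simp only [snM, this]

theorem max_div_le {a b c d K : ℝ} (h : a ≤ K * c) (h' : b ≤ K * d) (hK : 0 ≤ K) :
    max a b ≤ K * max c d :=
  max_le (h.trans (mul_le_mul_of_nonneg_left (le_max_left _ _) hK))
    (h'.trans (mul_le_mul_of_nonneg_left (le_max_right _ _) hK))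

/-- **tilt of the frames ⟹ tilt of the slots.** -/
theorem tiltT_of_tiltF {dE dB : Prop} {D : Dat4} {δ : ℝ} (hδ : δ ≤ 3 / 5)
    (hw : ∀ v : ℚ, 0 ≤ v → v ≤ 1 → ∀ᶠ n in (U : Filter ℕ),
      0 < D.w 0 n v ∧ D.w 0 n v ≤ D.w 2 n v ∧ D.w 2 n v ≤ D.w 1 n v)
    (hE : dE → ∀ v : ℚ, 0 ≤ v → v ≤ 1 → ∀ ε : ℝ, 0 < ε → ∀ᶠ n in (U : Filter ℕ),
      D.w 1 n v ≤ D.w 2 n v * D.B.d n ^ (-ε))
    (hB : dB → ∀ v : ℚ, 0 ≤ v → v ≤ 1 → ∀ ε : ℝ, 0 < ε → ∀ᶠ n in (U : Filter ℕ),
      D.w 2 n v ≤ D.w 0 n v * D.B.d n ^ (-ε))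
    (hN : ∀ v : ℚ, 0 ≤ v → v ≤ 1 → ∀ᶠ n in (U : Filter ℕ), ∀ x ∈ D.I n,
      Nst dE dB δ (mkS D n v x).e)
    (hT : TiltF D) : ∃ C : ℝ, 0 ≤ C ∧ ∀ j, TiltT tdF D.B D.I (snM dE dB D) (prF D.w) j C := by
  obtain ⟨C, hC, hT⟩ := hT
  refine ⟨C, hC, fun j => ?_⟩
  intro u v h0 huv h1 ε hε
  have hu1 : u ≤ 1 := huv.le.trans h1
  have hv0 : 0 ≤ v := h0.trans huv.le
  have hEu : ∀ᶠ n in (U : Filter ℕ), dE → D.w 1 n u ≤ D.w 2 n u * D.B.d n ^ (-(ε / 4)) ∧
      D.w 1 n v ≤ D.w 2 n v * D.B.d n ^ (-(ε / 4)) := by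
    by_cases h : dE
    · filter_upwards [hE h u h0 hu1 (ε / 4) (by positivity), hE h v hv0 h1 (ε / 4) (by positivity)]
        with n a1 a2 _
      exact ⟨a1, a2⟩
    · exact Eventually.of_forall fun n h' => absurd h' h
  have hBu : ∀ᶠ n in (U : Filter ℕ), dB → D.w 2 n u ≤ D.w 0 n u * D.B.d n ^ (-(ε / 4)) ∧
      D.w 2 n v ≤ D.w 0 n v * D.B.d n ^ (-(ε / 4)) := by
    by_cases h : dB
    · filter_upwards [hB h u h0 hu1 (ε / 4) (by positivity), hB h v hv0 h1 (ε / 4) (by positivity)]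
        with n a1 a2 _
      exact ⟨a1, a2⟩
    · exact Eventually.of_forall fun n h' => absurd h' h
  refine (hT u v h0 huv h1 (ε / 4) (by positivity)).mono ?_
  filter_upwards [hw u h0 hu1, hw v hv0 h1, hN u h0 hu1, hN v hv0 h1, hEu, hBu,
    ev_const D.B (C := (16 : ℝ)) (ε := ε / 4) (by norm_num) (by positivity)]
    with n wu wv nu nv eu bu hc x hx hle hcon
  obtain ⟨⟨t12, t21⟩, ⟨t02, t20⟩, ⟨t01, t10⟩⟩ := hcon
  set DD : ℝ := D.B.d n ^ (-(C * ((v : ℝ) - u)) - ε / 4) with hDD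
  have hD0 : 0 < DD := dpow_pos D.B n _
  set K : ℝ := D.B.d n ^ (-(ε / 4)) with hKK
  have hK : 1 ≤ K := by
    have := dpow_le D.B n (show -(ε / 4) ≤ 0 by linarith)
    rwa [Real.rpow_zero] at this
  have hK0 : 0 ≤ K := by linarith
  obtain ⟨u0, u02, u21⟩ := wu
  obtain ⟨v0, v02, v21⟩ := wv
  have u2 : 0 < D.w 2 n u := u0.trans_le u02
  have u1 : 0 < D.w 1 n u := u2.trans_le u21
  have v2 : 0 < D.w 2 n v := v0.trans_le v02
  have v1 : 0 < D.w 1 n v := v2.trans_le v21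
  set pE : ℝ := max (D.w 2 n u / D.w 1 n u) (D.w 2 n v / D.w 1 n v) with hpE
  set pB : ℝ := max (D.w 0 n u / D.w 2 n u) (D.w 0 n v / D.w 2 n v) with hpB
  set pA : ℝ := max (D.w 0 n u / D.w 1 n u) (D.w 0 n v / D.w 1 n v) with hpA
  have hpA0 : 0 < pA := (div_pos u0 u1).trans_le (le_max_left _ _)
  have hAE : pA ≤ pE := max_le_max (div_le_div_of_nonneg_right u02 u1.le)
    (div_le_div_of_nonneg_right v02 v1.le)
  have hAB : pA ≤ pB := max_le_max (div_le_div_of_nonneg_left u0.le u2 u21)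
    (div_le_div_of_nonneg_left v0.le v2 v21)
  have kE : dE → pB ≤ K * pA := by
    intro h
    obtain ⟨e1, e2⟩ := eu h
    refine max_div_le ?_ ?_ hK0
    · rw [div_le_iff₀ u2, mul_assoc, div_mul_eq_mul_div, ← mul_div_assoc, le_div_iff₀ u1]
      calc D.w 0 n u * D.w 1 n u ≤ D.w 0 n u * (D.w 2 n u * K) :=
            mul_le_mul_of_nonneg_left e1 u0.le
        _ = _ := by ring
    · rw [div_le_iff₀ v2, mul_assoc, div_mul_eq_mul_div, ← mul_div_assoc, le_div_iff₀ v1]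
      calc D.w 0 n v * D.w 1 n v ≤ D.w 0 n v * (D.w 2 n v * K) :=
            mul_le_mul_of_nonneg_left e2 v0.le
        _ = _ := by ring
  have kB : dB → pE ≤ K * pA := by
    intro h
    obtain ⟨e1, e2⟩ := bu h
    refine max_div_le ?_ ?_ hK0
    · rw [← mul_div_assoc]
      exact div_le_div_of_nonneg_right (by linarith) u1.le
    · rw [← mul_div_assoc]
      exact div_le_div_of_nonneg_right (by linarith) v1.le
  have hs := slot_diff (nu x hx) (nv x hx) hδ (pE := pE * DD) (pB := pB * DD) (pA := pA * DD)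
    hK (mul_pos hpA0 hD0).le (mul_le_mul_of_nonneg_right hAE hD0.le)
    (mul_le_mul_of_nonneg_right hAB hD0.le)
    (fun h => by
      calc pB * DD ≤ (K * pA) * DD := mul_le_mul_of_nonneg_right (kE h) hD0.le
        _ = _ := by ring)
    (fun h => by
      calc pE * DD ≤ (K * pA) * DD := mul_le_mul_of_nonneg_right (kB h) hD0.le
        _ = _ := by ring)
    (by rw [dt_comm]; exact t21) (by rw [dt_comm]; exact t20) (by rw [dt_comm]; exact t10)
    (by rw [dt_comm]; exact t01)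
  obtain ⟨sE, sB, sA⟩ := hs
  -- absorb the constants
  have hDK : DD * K = D.B.d n ^ (-(C * ((v : ℝ) - u)) - ε / 2) := by
    rw [hDD, hKK, ← dpow_add]; congr 1; ring
  have hDle : DD ≤ D.B.d n ^ (-(C * ((v : ℝ) - u)) - ε / 2) := dpow_le D.B n (by linarith)
  have key : ∀ p X : ℝ, 0 < p → |X| ≤ 16 * (p * D.B.d n ^ (-(C * ((v : ℝ) - u)) - ε / 2)) →
      ¬ p * D.B.d n ^ (-(C * ((v : ℝ) - u)) - ε) ≤ |X| := by
    intro p X hp hX hcon
    have h2 := hc p (-(C * ((v : ℝ) - u)) - 3 * ε / 4) hp.le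
    have e1 : -(C * ((v : ℝ) - u)) - 3 * ε / 4 + ε / 4 = -(C * ((v : ℝ) - u)) - ε / 2 := by ring
    rw [e1] at h2
    have h4 : D.B.d n ^ (-(C * ((v : ℝ) - u)) - 3 * ε / 4) <
        D.B.d n ^ (-(C * ((v : ℝ) - u)) - ε) :=
      Real.rpow_lt_rpow_of_exponent_gt (D.B.pos n) (D.B.lt n) (by linarith)
    have h5 := mul_lt_mul_of_pos_left h4 hp
    linarith
  have hpE0 : 0 < pE := hpA0.trans_le hAE
  have hpB0 : 0 < pB := hpA0.trans_le hAB
  have hd : tdF.d j n (snM dE dB D n u x) (snM dE dB D n v x) =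
      |coF (snM dE dB D n u x) (snM dE dB D n v x) j| := rfl
  rw [hd] at hle
  fin_cases j
  · refine key pE _ hpE0 ?_ hle
    have := mul_le_mul_of_nonneg_left hDle hpE0.le
    exact sE.trans (by linarith)
  · refine key pB _ hpB0 ?_ hle
    have := mul_le_mul_of_nonneg_left hDle hpB0.le
    exact sB.trans (by linarith)
  · refine key pA _ hpA0 ?_ hle
    refine sA.trans (le_of_eq ?_)
    rw [← hDK]; ring

end Crest.Agent.R136.Ut627
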