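import Crest.Agent.R136.Val4_289
import Crest.Agent.R136.UB4_861
import Crest.Agent.R136.UB1_861

/-!
# R136 (V1) for the official class `LegN` (free `w 0`), unconditional (helper289)
-/

set_option autoImplicit false

namespace Crest.Agent.R136.Val289

open K4 UB289 Sh605

/-- the cigars -/
theorem ubOneN : UbOneG Sh605.ShN0 18 3 := by
  intro e c w q a z0 ρ r0 S hr hρ L lam Z0 hL hl hl' h0 h1 y hy
  exact UB861.ub_one S hr hρ hL hl hl' h0 h1 hy

/-- **(V1)** for `LegN`: the values are bounded -/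
theorem v1N (q : Fin 3 → ℝ) : ∃ C : ℝ, ∀ F : Cf6, Ok6 LegN q F → F.toCf4.val ≤ C :=
  v1_anyG legOf_N (by norm_num) UB861.ubOneC q

/-- nonnegative rewards -/
theorem v1N_pos {q : Fin 3 → ℝ} (hq : ∀ i, 0 ≤ q i) {F : Cf6} (h : Ok6 LegN q F) :
    F.toCf4.val ≤ (29 + 4 * q 0) * (1 + 3 / 2 * (F.h / F.M)) -
      (q 0 + q 1 + q 2) * (1 - F.h / F.M) := by
  have := v1_posG legOf_N (by norm_num) UB861.ubOneC hq h
  norm_num at this ⊢
  linarith

/-- end of the interval of rewards -/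
theorem v1N_end {Q : ℝ} (hQ : 0 ≤ Q) {F : Cf6} (h : Ok6 LegN ![0, Q, 0] F) :
    F.toCf4.val ≤ 87 / 2 * (1 + F.h / F.M) - Q * (1 - F.h / F.M) := by
  have := v1_endG legOf_N (by norm_num) UB861.ubOneC hQ h
  norm_num at this ⊢
  linarith

/-- hypothesis `hUB` of helper823's `ups_all` / `norm6` -/
theorem hUB_N (q : Fin 3 → ℝ) : ∀ G : Cf6, Ok6 LegN q G → ∀ S, LegN G.top G.r G.Λm S →
    ((objs4 G.top G.I S).card : ℝ) ≤
      (2:ℝ) ^ ((29 + 5 * qs q) * ((G.M : ℝ) + G.h + 10)) * G.D0 * cap5 q G.top S := by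
  have h := hUB_G legOf_N (ubgG legOf_N.pos (κ := 24) (p := 4) (by norm_num) UB861.ubOneC)
    (by norm_num) q
  intro G hG S hS
  have := h G hG S hS
  norm_num at this ⊢
  exact this

end Crest.Agent.R136.Val289
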