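import Crest.Agent.R136.Rk6_601

/-!
# R136 (S0187), PLAN 2 (AL), leaf V6: numbers (helper289)

* `v6_jets` : `v6_close` of helper601 with the four outputs of the move lemma `v6_move` (helper862),
  one number `x = l + m + δ + h + a / s` ⊢ `≤ g s`.
* `pow_num` : `(C B / k) ^ C y ≤ g ^ C ⊢ c (B / k) ^ n y ≤ g ^ 2`.
-/

set_option autoImplicit false

namespace Crest.Agent.R136.V6n289

open Crest.Agent.R136.Rk601
open Crest.Agent.R136.Chm862 (gm df)

/-- the last number -/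
theorem last_num {K1 x g A m1 : ℝ} (hK1 : 1 ≤ K1) (hx0 : 0 ≤ x) (g0 : 0 < g)
    (hA : A ≤ K1 * x) (hm1 : m1 = 12 * K1 ^ 8 * x)
    (hx : 2 * 10 ^ 8 * K1 ^ 36 * x ≤ g ^ 2) :
    1000 * K1 ^ 12 * (Real.sqrt (100 * K1 ^ 10 * A) + Real.sqrt m1) ≤ g := by
  have K0 : (0 : ℝ) < K1 := by linarith
  set r : ℝ := Real.sqrt x with hr
  have r0 : 0 ≤ r := Real.sqrt_nonneg x
  have r2 : r ^ 2 = x := Real.sq_sqrt hx0
  have e1 : Real.sqrt (100 * K1 ^ 10 * A) ≤ 10 * K1 ^ 6 * r := by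
    rw [Real.sqrt_le_iff]
    refine ⟨by positivity, ?_⟩
    have h1 : 100 * K1 ^ 10 * A ≤ 100 * K1 ^ 10 * (K1 * x) :=
      mul_le_mul_of_nonneg_left hA (by positivity)
    have h2 : K1 ^ 11 ≤ K1 ^ 12 := pow_le_pow_right₀ hK1 (by norm_num)
    have h3 : K1 ^ 11 * x ≤ K1 ^ 12 * x := mul_le_mul_of_nonneg_right h2 hx0
    calc 100 * K1 ^ 10 * A ≤ 100 * K1 ^ 10 * (K1 * x) := h1
      _ = 100 * (K1 ^ 11 * x) := by ring
      _ ≤ 100 * (K1 ^ 12 * x) := by linarith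
      _ = (10 * K1 ^ 6 * r) ^ 2 := by rw [← r2]; ring
  have e2 : Real.sqrt m1 ≤ 4 * K1 ^ 4 * r := by
    rw [Real.sqrt_le_iff]
    refine ⟨by positivity, ?_⟩
    have : 0 ≤ K1 ^ 8 * x := by positivity
    calc m1 = 12 * (K1 ^ 8 * x) := by rw [hm1]; ring
      _ ≤ 16 * (K1 ^ 8 * x) := by linarith
      _ = (4 * K1 ^ 4 * r) ^ 2 := by rw [← r2]; ring
  have e3 : K1 ^ 4 * r ≤ K1 ^ 6 * r :=
    mul_le_mul_of_nonneg_right (pow_le_pow_right₀ hK1 (by norm_num)) r0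
  have e4 : 1000 * K1 ^ 12 * (Real.sqrt (100 * K1 ^ 10 * A) + Real.sqrt m1) ≤
      14000 * K1 ^ 18 * r := by
    calc _ ≤ 1000 * K1 ^ 12 * (10 * K1 ^ 6 * r + 4 * K1 ^ 4 * r) := by gcongr
      _ ≤ 1000 * K1 ^ 12 * (14 * (K1 ^ 6 * r)) := by
          refine mul_le_mul_of_nonneg_left ?_ (by positivity)
          linarith
      _ = _ := by ring
  refine e4.trans ?_
  rw [← pow_le_pow_iff_left₀ (by positivity) g0.le two_ne_zero]
  refine le_trans ?_ hx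
  have h9 : (14000 * K1 ^ 18 * r) ^ 2 = 196000000 * (K1 ^ 36 * x) := by rw [← r2]; ring
  have h10 : 2 * 10 ^ 8 * K1 ^ 36 * x = 200000000 * (K1 ^ 36 * x) := by ring
  rw [h9, h10]
  have : 0 ≤ K1 ^ 36 * x := by positivity
  linarith

/-- derivative of the second sheet's function in the direction of `T'` -/
theorem dir_other {q1 q2 : Jt} {v : Fin 3 → ℝ} {y ω D τ M : ℝ} (ω0 : 0 < ω)
    (h2 : ω / 32 ≤ |q2.a0|) (h2' : |q2.a0| ≤ 4 * ω) (h1 : ω / 32 ≤ |q1.a0|)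
    (hv : ∀ i, |v i| ≤ M) (ht : ∀ i, |tg q2 q1 i| ≤ τ)
    (d1 : |q1.a0 * y + dp q1.a v| ≤ D) :
    |q2.a0 * y + dp q2.a v| ≤ 128 * (D + 3 * (τ * M)) := by
  have hq2 : q2.a0 ≠ 0 := by
    intro hc
    rw [hc, abs_zero] at h2
    have : 0 < ω / 32 := by positivity
    linarith
  have e : q1.a0 * y + dp q1.a v = q1.a0 / q2.a0 * (q2.a0 * y + dp q2.a v) +
      ∑ i, tg q2 q1 i * v i := by
    simp only [tg, dp, Fin.sum_univ_three]
    field_simp
    ring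
  have hτ0 : 0 ≤ τ := (abs_nonneg _).trans (ht 0)
  have hM0 : 0 ≤ M := (abs_nonneg _).trans (hv 0)
  have s3 : |∑ i, tg q2 q1 i * v i| ≤ 3 * (τ * M) := by
    refine (Finset.abs_sum_le_sum_abs _ _).trans ?_
    have : ∀ i ∈ Finset.univ, |tg q2 q1 i * v i| ≤ τ * M := fun i _ => by
      rw [abs_mul]
      exact mul_le_mul (ht i) (hv i) (abs_nonneg _) hτ0
    refine (Finset.sum_le_sum this).trans ?_
    simp
  have hμ : 1 / 128 ≤ |q1.a0 / q2.a0| := by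
    rw [abs_div, le_div_iff₀ (abs_pos.2 hq2)]
    linarith
  have e2 : |q1.a0 / q2.a0 * (q2.a0 * y + dp q2.a v)| ≤ D + 3 * (τ * M) := by
    have : q1.a0 / q2.a0 * (q2.a0 * y + dp q2.a v) = (q1.a0 * y + dp q1.a v) -
        ∑ i, tg q2 q1 i * v i := by rw [e]; ring
    rw [this]
    exact (abs_sub _ _).trans (add_le_add d1 s3)
  rw [abs_mul] at e2
  have h5 := mul_le_mul_of_nonneg_right hμ (abs_nonneg (q2.a0 * y + dp q2.a v))
  linarith

set_option maxHeartbeats 1600000 in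
/-- **V6 at one pair, pure jets** -/
theorem v6_jets {q0 q1 q2 : Jt} {v : Fin 3 → ℝ} {y K ω κ s l m δ h a k g : ℝ} (hK : 10 ^ 7 ≤ K)
    (k0 : 0 < k) (k1 : k ≤ 1) (g0 : 0 < g) (g1 : g ≤ 1) (ω0 : 0 < ω) (κ0 : 0 < κ) (s0 : 0 < s)
    (l0 : 0 ≤ l) (m0 : 0 ≤ m) (δ0 : 0 ≤ δ) (h0' : 0 ≤ h) (a0 : 0 ≤ a)
    (hs : s ≤ K * (κ * ω)) (ha : a ≤ K * (κ * ω)) (h0 : q0.a0 ≠ 0)
    (h2 : ω / 32 ≤ |q2.a0|) (h2' : |q2.a0| ≤ 4 * ω) (h1 : ω / 32 ≤ |q1.a0|)
    (h1' : |q1.a0| ≤ 4 * ω) (y0 : q0.Sym) (y1 : q1.Sym) (y2 : q2.Sym)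
    (n1 : ∀ i, κ * |gm q0 (df q0 q1) i| ≤ K * s) (n1' : κ ^ 2 * |(df q0 q1).h00| ≤ K * s)
    (b1 : ∀ i j, |th q0 q1 i j| ≤ K * s)
    (n2 : ∀ i, κ * |gm q0 (df q0 q2) i| ≤ K * s) (n2' : κ ^ 2 * |(df q0 q2).h00| ≤ K * s)
    (ht : ∀ i, |tg q0 q2 i| ≤ l * s) (l1 : ∃ i j, k * s < |th q0 q1 i j|)
    (m1 : ∀ i j k' l', |mn (th q0 q1) i j k' l'| ≤ m * s ^ 2)
    (m3 : ∀ i j k' l', |mn (th q0 q2) i j k' l'| ≤ m * s ^ 2)
    (mv : (∀ i i', |th q2 q1 i i'| ≤ K ^ 320 * s) ∧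
      (∃ i i', k * s ≤ K ^ 320 * |th q2 q1 i i'|) ∧
      (∀ i i' k k', |mn (th q2 q1) i i' k k'| ≤ K ^ 320 * ((l + m + δ) * s ^ 2)) ∧
      (∀ i, |tg q2 q1 i| ≤ K ^ 320 * ((l + δ) * s)))
    (hv : ∀ i, |v i| ≤ 14 * K) (dd2 : |d2 q2 y v| ≤ K * a) (dd1 : |d2 q1 y v| ≤ K * a)
    (d1 : |q1.a0 * y + dp q1.a v| ≤ K * (a + κ * ω * h))
    (hx : 2 * 10 ^ 8 * (K ^ 324 / k) ^ 36 * (l + m + δ + h + a / s) ≤ g ^ 2) (i : Fin 3) :
    |∑ j, th q0 q1 i j * v j| ≤ g * s := by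
  obtain ⟨b2, l2, m2, t2⟩ := mv
  have hK7 : (10000000 : ℝ) ≤ K := by
    have : (10 : ℝ) ^ 7 = 10000000 := by norm_num
    rwa [this] at hK
  have hK1 : (1 : ℝ) ≤ K := by linarith
  have K0 : (0 : ℝ) < K := by linarith
  have κω : 0 < κ * ω := by positivity
  obtain ⟨P, hP⟩ : ∃ P : ℝ, P = K ^ 320 := ⟨_, rfl⟩
  have P1 : 1 ≤ P := by rw [hP]; exact one_le_pow₀ hK1
  have eP : K ^ 324 = P * K ^ 4 := by rw [hP, ← pow_add]
  rw [← hP] at b2 l2 m2 t2
  rw [eP] at hx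
  obtain ⟨K1, hK1e⟩ : ∃ K1 : ℝ, K1 = P * K ^ 4 / k := ⟨_, rfl⟩
  rw [← hK1e] at hx
  obtain ⟨x, hxe⟩ : ∃ x : ℝ, x = l + m + δ + h + a / s := ⟨_, rfl⟩
  rw [← hxe] at hx
  have as0 : 0 ≤ a / s := by positivity
  have hx0 : 0 ≤ x := by rw [hxe]; positivity
  have hP4 : P * K ^ 4 ≤ K1 := by
    rw [hK1e, le_div_iff₀ k0]
    exact mul_le_of_le_one_right (by positivity) k1
  have K4 : K ≤ K ^ 4 := le_self_pow₀ hK1 (by norm_num)
  have PK3 : P * K ^ 3 ≤ P * K ^ 4 := mul_le_mul_of_nonneg_left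
    (pow_le_pow_right₀ hK1 (by norm_num)) (by linarith)
  have K3' : (1 : ℝ) ≤ K ^ 3 := one_le_pow₀ hK1
  have PP : P ≤ P * K ^ 3 := le_mul_of_one_le_right (by linarith) K3'
  have hPK1 : P ≤ K1 := PP.trans (PK3.trans hP4)
  have hKK : K ^ 4 ≤ P * K ^ 4 := le_mul_of_one_le_left (by positivity) P1
  have hK41 : K ^ 4 ≤ K1 := hKK.trans hP4
  have hKK1 : K ≤ K1 := K4.trans hK41
  have hK11 : 1 ≤ K1 := hK1.trans hKK1
  have K10 : 0 < K1 := by linarith
  have h14 : 14 * K ≤ K1 := by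
    refine le_trans ?_ hK41
    have : K ^ 4 = K ^ 3 * K := by ring
    rw [this]
    have h3 : K ≤ K ^ 3 := le_self_pow₀ hK1 (by norm_num)
    exact mul_le_mul_of_nonneg_right (by linarith) K0.le
  -- powers of K1
  have K18 : K1 ≤ K1 ^ 8 := le_self_pow₀ hK11 (by norm_num)
  have hg2 : g ^ 2 ≤ 1 := pow_le_one₀ g0.le g1
  have hX36 : x ≤ K1 ^ 36 * x := le_mul_of_one_le_left hx0 (one_le_pow₀ hK11)
  have hX1 : K1 ^ 36 * x ≤ 1 / (2 * 10 ^ 8) := by
    rw [le_div_iff₀ (by norm_num)]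
    calc K1 ^ 36 * x * (2 * 10 ^ 8) = 2 * 10 ^ 8 * K1 ^ 36 * x := by ring
      _ ≤ 1 := hx.trans hg2
  have hx1 : x ≤ 1 := by
    have : (1 : ℝ) / (2 * 10 ^ 8) ≤ 1 := by norm_num
    linarith
  have hlx : l ≤ x := by rw [hxe]; linarith
  have hmx : m ≤ x := by rw [hxe]; linarith
  have hlmd : l + m + δ ≤ x := by rw [hxe]; linarith
  have hhx : h + l + δ ≤ x := by rw [hxe]; linarith
  have s2 : 0 < s ^ 2 := by positivity
  have hm1x : x ≤ 12 * K1 ^ 8 * x := by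
    have : (1 : ℝ) ≤ 12 * K1 ^ 8 := by
      have := one_le_pow₀ hK11 (n := 8)
      linarith
    exact le_mul_of_one_le_left hx0 this
  -- the derivative of q2
  have hl : |q2.a0 * y + dp q2.a v| ≤ K1 * (a + κ * ω * (h + l + δ)) := by
    have h5 := dir_other ω0 h2 h2' h1 hv t2 d1
    refine h5.trans ?_
    have t1 : P * ((l + δ) * s) * (14 * K) ≤ 14 * (P * K ^ 2) * ((l + δ) * (κ * ω)) := by
      have : (l + δ) * s ≤ (l + δ) * (K * (κ * ω)) :=
        mul_le_mul_of_nonneg_left hs (by positivity)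
      calc P * ((l + δ) * s) * (14 * K) ≤ P * ((l + δ) * (K * (κ * ω))) * (14 * K) := by
            gcongr
        _ = _ := by ring
    have t3 : 128 * K ≤ K1 := by
      refine le_trans ?_ hK41
      have : K ^ 4 = K ^ 3 * K := by ring
      rw [this]
      have h3 : K ≤ K ^ 3 := le_self_pow₀ hK1 (by norm_num)
      exact mul_le_mul_of_nonneg_right (by linarith) K0.le
    have t4 : 5376 * (P * K ^ 2) ≤ K1 := by
      refine le_trans ?_ (PK3.trans hP4)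
      have : P * K ^ 3 = K * (P * K ^ 2) := by ring
      rw [this]
      exact mul_le_mul_of_nonneg_right (by linarith) (by positivity)
    have u1 := mul_le_mul_of_nonneg_right t3 (show 0 ≤ a + κ * ω * h by positivity)
    have u2 := mul_le_mul_of_nonneg_right t4 (show 0 ≤ (l + δ) * (κ * ω) by positivity)
    calc 128 * (K * (a + κ * ω * h) + 3 * (P * ((l + δ) * s) * (14 * K)))
        ≤ 128 * (K * (a + κ * ω * h) + 3 * (14 * (P * K ^ 2) * ((l + δ) * (κ * ω)))) := by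
          linarith
      _ = 128 * K * (a + κ * ω * h) + 5376 * (P * K ^ 2) * ((l + δ) * (κ * ω)) := by ring
      _ ≤ K1 * (a + κ * ω * h) + K1 * ((l + δ) * (κ * ω)) := add_le_add u1 u2
      _ = _ := by ring
  have key := v6_close (q0 := q0) (q1 := q1) (q2 := q2) (v := v) (y := y) (K := K1) (ω := ω)
    (κ := κ) (s := s) (l := l) (m := 12 * K1 ^ 8 * x) (a := a) (h := h + l + δ) hK11 ω0 κ0 s0 l0
    a0 (by positivity) (hs.trans (mul_le_mul_of_nonneg_right hKK1 κω.le)) (hhx.trans hx1)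
    (ha.trans (mul_le_mul_of_nonneg_right hKK1 κω.le)) h0
    (by
      refine le_trans ?_ h2
      exact div_le_div_of_nonneg_left ω0.le (by norm_num) (by linarith))
    (h1'.trans (mul_le_mul_of_nonneg_right (by linarith) ω0.le)) y0 y1 y2
    (fun i => (n1 i).trans (mul_le_mul_of_nonneg_right hKK1 s0.le))
    (n1'.trans (mul_le_mul_of_nonneg_right hKK1 s0.le))
    (fun i => (n2 i).trans (mul_le_mul_of_nonneg_right hKK1 s0.le))
    (n2'.trans (mul_le_mul_of_nonneg_right hKK1 s0.le)) ht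
    (fun i j => (b1 i j).trans (mul_le_mul_of_nonneg_right hKK1 s0.le))
    (fun i j => (b2 i j).trans (mul_le_mul_of_nonneg_right hPK1 s0.le))
    (by
      obtain ⟨i, j, h3⟩ := l1
      refine ⟨i, j, ?_⟩
      have h4 : s ≤ |th q0 q1 i j| / k := by
        rw [le_div_iff₀ k0]; linarith
      have h6 : 1 / k ≤ K1 := by
        rw [hK1e]
        exact div_le_div_of_nonneg_right (by
          have := one_le_pow₀ hK1 (n := 4)
          exact one_le_mul_of_one_le_of_one_le P1 this) k0.le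
      calc s ≤ 1 / k * |th q0 q1 i j| := by rw [div_mul_eq_mul_div, one_mul]; exact h4
        _ ≤ K1 * |th q0 q1 i j| := mul_le_mul_of_nonneg_right h6 (abs_nonneg _))
    (by
      obtain ⟨i, j, h3⟩ := l2
      refine ⟨i, j, ?_⟩
      have h4 : s ≤ P * |th q2 q1 i j| / k := by
        rw [le_div_iff₀ k0]; linarith
      have h6 : P / k ≤ K1 := by
        rw [hK1e]
        exact div_le_div_of_nonneg_right (PP.trans PK3) k0.le
      calc s ≤ P / k * |th q2 q1 i j| := by rw [div_mul_eq_mul_div]; exact h4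
        _ ≤ K1 * |th q2 q1 i j| := mul_le_mul_of_nonneg_right h6 (abs_nonneg _))
    (fun i j k' l' => (m1 i j k' l').trans
      (mul_le_mul_of_nonneg_right (hmx.trans hm1x) s2.le))
    (fun i j k' l' => (m2 i j k' l').trans (by
      have h7 : P * (l + m + δ) ≤ 12 * K1 ^ 8 * x := by
        have h8 : P * (l + m + δ) ≤ K1 ^ 8 * x :=
          mul_le_mul (hPK1.trans K18) hlmd (by positivity) (by positivity)
        have : 0 ≤ K1 ^ 8 * x := by positivity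
        linarith
      calc P * ((l + m + δ) * s ^ 2) = P * (l + m + δ) * s ^ 2 := by ring
        _ ≤ 12 * K1 ^ 8 * x * s ^ 2 := mul_le_mul_of_nonneg_right h7 s2.le))
    (fun i j k' l' => (m3 i j k' l').trans
      (mul_le_mul_of_nonneg_right (hmx.trans hm1x) s2.le))
    (mul_le_mul_of_nonneg_left hlx (by positivity))
    (by
      rw [le_div_iff₀ (by positivity)]
      have h7 : K1 ^ 16 * x ≤ K1 ^ 36 * x :=
        mul_le_mul_of_nonneg_right (pow_le_pow_right₀ hK11 (by norm_num)) hx0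
      have h8 : (1 : ℝ) / (2 * 10 ^ 8) ≤ 1 / 48 := by norm_num
      calc 12 * K1 ^ 8 * x * (4 * K1 ^ 8) = 48 * (K1 ^ 16 * x) := by ring
        _ ≤ 1 := by linarith)
    (fun i => (hv i).trans h14)
    (dd2.trans (mul_le_mul_of_nonneg_right hKK1 a0))
    (dd1.trans (mul_le_mul_of_nonneg_right hKK1 a0)) hl i
  refine key.trans ?_
  have hA : a / s + a / (κ * ω) + (h + l + δ) ≤ K1 * x := by
    have g5 : a / (κ * ω) ≤ K * (a / s) := by
      rw [← mul_div_assoc, div_le_div_iff₀ κω s0]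
      have := mul_le_mul_of_nonneg_left hs a0
      linarith
    have g6 : a / s + a / (κ * ω) + (h + l + δ) ≤ (1 + K) * x := by
      have e9 : h + l + δ ≤ (1 + K) * (h + l + δ) :=
        le_mul_of_one_le_left (by positivity) (by linarith)
      have e10 : (1 + K) * x = (1 + K) * (a / s) + (1 + K) * (h + l + δ) + (1 + K) * m := by
        rw [hxe]; ring
      have e11 : 0 ≤ (1 + K) * m := by positivity
      have e12 : (1 + K) * (a / s) = a / s + K * (a / s) := by ring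
      rw [e10]
      linarith
    refine g6.trans (mul_le_mul_of_nonneg_right (by linarith) hx0)
  have := last_num hK11 hx0 g0 hA rfl hx
  rw [mul_comm g s]
  exact mul_le_mul_of_nonneg_left this s0.le

/-- **the numeric step of V6** -/
theorem pow_num (c : ℝ) (n : ℕ) : ∃ C0 : ℝ, 1 ≤ C0 ∧ ∀ C : ℝ, C0 ≤ C → ∀ B k g y : ℝ, 1 ≤ B →
    0 < k → k ≤ 1 → 0 < g → g ≤ 1 → 0 ≤ y → (C * B / k) ^ C * y ≤ g ^ C →
    c * (B / k) ^ n * y ≤ g ^ 2 := by
  refine ⟨max 2 (max c (n + 1)), le_trans (by norm_num) (le_max_left _ _), ?_⟩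
  intro C hC B k g y hB k0 k1 g0 g1 hy h
  have C2 : (2 : ℝ) ≤ C := (le_max_left _ _).trans hC
  have Cc : c ≤ C := ((le_max_left _ _).trans (le_max_right _ _)).trans hC
  have Cn : (n : ℝ) + 1 ≤ C := ((le_max_right _ _).trans (le_max_right _ _)).trans hC
  have hBk : 1 ≤ B / k := by
    rw [le_div_iff₀ k0]; linarith
  have hCB : 1 ≤ C * B / k := by
    rw [mul_div_assoc]
    exact one_le_mul_of_one_le_of_one_le (by linarith) hBk
  have h1 : c * (B / k) ^ n ≤ (C * B / k) ^ C := by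
    have e1 : (C * B / k) ^ (((n + 1 : ℕ)) : ℝ) ≤ (C * B / k) ^ C :=
      Real.rpow_le_rpow_of_exponent_le hCB (by push_cast; exact Cn)
    rw [Real.rpow_natCast] at e1
    refine le_trans ?_ e1
    rw [mul_div_assoc, mul_pow, pow_succ C n]
    have e2 : c ≤ C ^ n * C := Cc.trans
      (le_mul_of_one_le_left (by linarith) (one_le_pow₀ (by linarith)))
    have e3 : (B / k) ^ n ≤ (B / k) ^ (n + 1) := pow_le_pow_right₀ hBk (Nat.le_succ n)
    exact mul_le_mul e2 e3 (by positivity) (by positivity)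
  have h2 : g ^ C ≤ g ^ 2 := by
    have := Real.rpow_le_rpow_of_exponent_ge g0 g1 C2
    rwa [Real.rpow_two] at this
  exact (mul_le_mul_of_nonneg_right h1 hy).trans (h.trans h2)

end Crest.Agent.R136.V6n289
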