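import Crest.Agent.R136.Rk7_601
import Crest.Agent.R136.Chm3_862
import Crest.Agent.R136.Sln_296
import Crest.Agent.R136.Dvb_296
import Crest.Agent.R136.Kpc_104
import Crest.Agent.R136.Hcp1_208

/-!
# R136 (S0187), PLAN 2 (AL), leaf V6 at one pair of lines (helper467, second of 601)

`U`, `V`, `R` : three sheets, `T ∈ U ∩ V`, `T' ∈ V ∩ R`; jets at the point of `T` in the chart of `U`.
-/

set_option autoImplicit false

namespace Crest.Agent.R136.V6p467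

open Crest.Agent.R136.Sh605 Crest.Agent.R136.Tl102
open Crest.Agent.R136.K4 (Plk4)
open Crest.Agent.R136.Tlt51 (Shp InP)
open Crest.Agent.R136.Deep51 (CloseC)
open Crest.Agent.R136.KapP335 (kapP kapP_eq)
open Crest.Agent.R136.Gbx862 (zj)
open Crest.Agent.R136.Rk601
open Crest.Agent.R136.AlD601
open Crest.Agent.R136.Hcp208 (Nr)
open Crest.Agent.R136.Chm862 (gm df Tr co vel_InP co_add co_smul)
open Crest.Agent.R136.Adj214 (KD KD_pos KD_one)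

theorem zj_eq (z0 ρ : ℝ) (H j : ℕ) : zj z0 ρ H j = z0 + ρ * ((j : ℝ) / H) := rfl

theorem ratio_mem {H j : ℕ} (hj : j ≤ H) : (0 : ℝ) ≤ (j : ℝ) / H ∧ (j : ℝ) / H ≤ 1 := by
  refine ⟨by positivity, ?_⟩
  rcases Nat.eq_zero_or_pos H with h | h
  · rw [h]; simp
  · rw [div_le_one (by exact_mod_cast h)]; exact_mod_cast hj

/-- velocity of a line of `V` in the chart of `U` -/
theorem vS_le {U V : Plk4} {T T' : Ln4} {z0 ρ K : ℝ} (H : Tr K V U) (hρ : 0 ≤ ρ)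
    (h1 : InP T U z0 ρ) (h2 : InP T V z0 ρ) (h3 : InP T' V z0 ρ) (i : Fin 3) :
    |vS U ρ T' i| ≤ 14 * K := by
  have hK := H.K1
  have key : ∀ k : Fin 3, k ≠ 0 → |co U.e U.w (ρ • (T'.v - U.c.v)) k| ≤ 14 * K := by
    intro k hk
    have e : co U.e U.w (ρ • (T'.v - U.c.v)) k = co U.e U.w (ρ • (T'.v - V.c.v)) k +
        -co U.e U.w (ρ • (T.v - V.c.v)) k + co U.e U.w (ρ • (T.v - U.c.v)) k := by
      simp only [co, dt, Pi.smul_apply, Pi.sub_apply, smul_eq_mul]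
      ring
    have b1 := H.box (vel_InP hρ h3) k hk
    have b2 := H.box (vel_InP hρ h2) k hk
    have b3 : |co U.e U.w (ρ • (T.v - U.c.v)) k| ≤ 2 := by
      have pk := H.pos' k
      unfold co
      rw [abs_div, abs_of_pos pk, div_le_iff₀ pk]
      exact vel_InP hρ h1 k
    rw [e]
    rw [abs_le] at *
    constructor <;> linarith [b1.1, b1.2, b2.1, b2.2, b3.1, b3.2]
  have e1 : ∀ k : Fin 3, ρ * dt (U.e k) (T'.v - U.c.v) / U.w k =
      co U.e U.w (ρ • (T'.v - U.c.v)) k := by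
    intro k
    simp only [co, dt, Pi.smul_apply, Pi.sub_apply, smul_eq_mul]
    ring
  fin_cases i
  · show |(1 : ℝ)| ≤ _
    rw [abs_one]; linarith
  · show |ρ * dt (U.e 1) (T'.v - U.c.v) / U.w 1| ≤ _
    rw [e1]; exact key 1 (by decide)
  · show |ρ * dt (U.e 2) (T'.v - U.c.v) / U.w 2| ≤ _
    rw [e1]; exact key 2 (by decide)

/-- second derivative of a sheet function along one of its lines, in any chart -/
theorem d2_le {U R : Plk4} {T T' : Ln4} {z0 ρ r : ℝ} {H j : ℕ} (hr : 0 < r) (hρ : 0 ≤ ρ)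
    (hU : Shp U z0 ρ r) (hR : Shp R z0 ρ r) (hT' : InP T' R z0 ρ) (hj : j ≤ H) :
    |d2 (jS U R.q z0 ρ H j T) (ρ * dt (U.e 0) (T'.v - U.c.v) / U.w 0) (vS U ρ T')| ≤
      16 * R.a := by
  have w0 : 0 < U.w 0 := hr.trans_le (hU.r0_le.trans hU.a_le0)
  have w0' : 0 < R.w 0 := hr.trans_le (hR.r0_le.trans hR.a_le0)
  have SP := StP.of_shN hU w0
  have SP' := StP.of_shN hR w0'
  obtain ⟨b0, b1, G, hE⟩ := exists_isExp hR.isQ R.e w0'.ne' T' z0 ρ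
  obtain ⟨z1, z2⟩ := ratio_mem hj
  have hJ := (jt_jet hR.isQ (fr U.e U.w) U.c.v (zj z0 ρ H j) (T.pos (zj z0 ρ H j)) ρ).1
  have h := along hR.isQ hR.ortho (fun k => (SP'.pos k).ne') hE z1 z2 (a := R.a)
    (fun ζ g0 g1 => (hT' _ (by nlinarith) (by nlinarith)).2) (T.pos (zj z0 ρ H j)) hJ
    (dir_vS SP.ortho (fun k => (SP.pos k).ne') ρ T')
  rw [vS_eq] at h
  exact h.1

/-- derivative of the middle sheet's function in the direction of `T'` at the point of `T` -/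
theorem d1_le {U V : Plk4} {T T' : Ln4} {z0 ρ r h : ℝ} {H j : ℕ} (hr : 0 < r) (hρ : 0 ≤ ρ)
    (hU : Shp U z0 ρ r) (hV : Shp V z0 ρ r) (hT : InP T V z0 ρ) (hT' : InP T' V z0 ρ)
    (hj : j ≤ H) (hh : h ≤ 1 / 8) (hn : Nr V h (zj z0 ρ H j) T T') :
    |(jS U V.q z0 ρ H j T).a0 * (ρ * dt (U.e 0) (T'.v - U.c.v) / U.w 0) +
      dp (jS U V.q z0 ρ H j T).a (vS U ρ T')| ≤ 16 * V.a + 10 * (h * kapP V z0 ρ T') := by
  have w0 : 0 < U.w 0 := hr.trans_le (hU.r0_le.trans hU.a_le0)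
  have w0' : 0 < V.w 0 := hr.trans_le (hV.r0_le.trans hV.a_le0)
  have SP := StP.of_shN hU w0
  have SP' := StP.of_shN hV w0'
  obtain ⟨b0, b1, G, hE⟩ := exists_isExp hV.isQ V.e w0'.ne' T' z0 ρ
  obtain ⟨z1, z2⟩ := ratio_mem hj
  have hJ := (jt_jet hV.isQ (fr U.e U.w) U.c.v (zj z0 ρ H j) (T.pos (zj z0 ρ H j)) ρ).1
  have zm1 : z0 ≤ zj z0 ρ H j := by rw [zj_eq]; nlinarith
  have zm2 : zj z0 ρ H j ≤ z0 + ρ := by rw [zj_eq]; nlinarith
  have hX := hT _ zm1 zm2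
  have p1 : |pc V.e V.w T' (z0 + ρ * ((j : ℝ) / H)) (T.pos (zj z0 ρ H j)) 1| ≤ h := by
    have p := SP'.pos 1
    show |dt (V.e 1) (T.pos (zj z0 ρ H j) - T'.pos (zj z0 ρ H j)) / V.w 1| ≤ h
    rw [abs_div, abs_of_pos p, div_le_iff₀ p]
    exact hn.1
  have p2 : |pc V.e V.w T' (z0 + ρ * ((j : ℝ) / H)) (T.pos (zj z0 ρ H j)) 2| ≤ h := by
    have p := SP'.pos 2
    show |dt (V.e 2) (T.pos (zj z0 ρ H j) - T'.pos (zj z0 ρ H j)) / V.w 2| ≤ h
    rw [abs_div, abs_of_pos p, div_le_iff₀ p]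
    exact hn.2
  have hk := along_near SP' hρ (fun z g0 g1 => (hT' z g0 g1).1) hE z1 z2 (a := V.a)
    (fun ζ g0 g1 => (hT' _ (by nlinarith) (by nlinarith)).2) (X := T.pos (zj z0 ρ H j))
    hX.1 hX.2 hh p1 p2 hJ (dir_vS SP.ortho (fun k => (SP.pos k).ne') ρ T')
  rw [vS_eq] at hk
  rw [kapP_eq w0'.ne' hE]
  exact hk

/-- data at the point of `T` for the pair `R`, `V` (moved from `T'`) -/
structure Mvd (U V R : Plk4) (z0 ρ : ℝ) (H j : ℕ) (T T' : Ln4) (K l m h s : ℝ) : Prop where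
  b2 : ∀ i i', |th (jS U R.q z0 ρ H j T) (jS U V.q z0 ρ H j T) i i'| ≤ K * s
  l2 : ∃ i i', s ≤ K * |th (jS U R.q z0 ρ H j T) (jS U V.q z0 ρ H j T) i i'|
  m2 : ∀ i i' k k', |mn (th (jS U R.q z0 ρ H j T) (jS U V.q z0 ρ H j T)) i i' k k'| ≤
    K * (l + m + h) * s ^ 2
  t2 : ∀ i, |tg (jS U R.q z0 ρ H j T) (jS U V.q z0 ρ H j T) i| ≤ K * (l + h) * s

end Crest.Agent.R136.V6p467
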