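import Crest.Agent.R136.Jet2_818
import Crest.Agent.R136.AlD_601
import Crest.Agent.R136.Hcp2_208
import Crest.Agent.R136.Lgt5_989

/-!
# R136, PLAN 2 (3), leaf V7 in the letters of record (helper818)

* `xj_of` : the jet of `AlD_601` in terms of the expansion along the line.
* `v7_false` : three separated heights of one line which are both `¬ Nd` and `Sm` contradict `far`.
* `v7_card` : counting form.
-/

set_option autoImplicit false
set_option linter.unusedVariables false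
set_option linter.unusedSimpArgs false

open Finset

namespace Crest.Agent.R136.V7818

open Crest.Agent.R136.Sh605 Crest.Agent.R136.Tl102 Crest.Agent.R136.Rk601
open Crest.Agent.R136.Jet818
open Crest.Agent.R136.K4 (Plk4)
open Crest.Agent.R136.Tlt51 (Shp InP CompC)
open Crest.Agent.R136.Deep51 (CloseC)
open Crest.Agent.R136.KapP335 (kapP DetP)
open Crest.Agent.R136.Hcp208 (Al compC_al)
open Crest.Agent.R136.AlD601 (jS jt jt_jet Nd Sm not_Nd)
open Crest.Agent.R136.Gbx862 (zj)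

/-- scaled jet -/
def sc (c : ℝ) (J : Jt) : Jt where
  a0 := c * J.a0
  a := fun i => c * J.a i
  h00 := c * J.h00
  h0 := fun i => c * J.h0 i
  h := fun i j => c * J.h i j

theorem sl_sc {c : ℝ} (hc : c ≠ 0) (J : Jt) : sl (sc c J) = sl J := by
  funext i
  simp only [sl, sc]
  rw [← mul_neg, mul_div_mul_left _ _ hc]

theorem tg_sc {c : ℝ} (hc : c ≠ 0) (J J' : Jt) (i : Fin 3) :
    Rk601.tg (sc c J) (sc c J') i = c * Rk601.tg J J' i := by
  simp only [Rk601.tg, sc]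
  rw [mul_div_mul_left _ _ hc]
  ring

theorem th_sc {c : ℝ} (hc : c ≠ 0) (J J' : Jt) (i j : Fin 3) :
    th (sc c J) (sc c J') i j = c * th J J' i j := by
  simp only [th, sl_sc hc]
  simp only [lf, sc]
  rw [mul_div_mul_left _ _ hc]
  ring

/-- the jet at a point of the line in terms of the expansion along the line -/
theorem xj_of {q : ℝ → V3 → ℝ} {e : Fin 3 → V3} {w : V3} {T : Ln4} {z0 ρ : ℝ} {b0 b1 : V3} {G : QF}
    (hE : IsExp q e w T z0 ρ b0 b1 G) (hw : w 0 ≠ 0) {V : V3} {ζ : ℝ} {J : Jt}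
    (hJ : JetAt q (fr e w) V (z0 + ρ * ζ) (T.pos (z0 + ρ * ζ)) ρ J) (hs : J.Sym) :
    XJ b0 b1 G ζ (sc (1 / w 0) J) := by
  have key : ∀ y u v : ℝ, w 0 * Fq b0 b1 G ζ ![y, u, v] =
      J.a0 * y + (J.a 1 * u + J.a 2 * v) +
        1 / 2 * (J.h00 * y ^ 2 + 2 * y * (J.h0 1 * u + J.h0 2 * v) +
          (J.h 1 1 * u ^ 2 + 2 * J.h 1 2 * (u * v) + J.h 2 2 * v ^ 2)) := by
    intro y u v
    have h1 := hJ y 0 u v
    have h2 := hE ζ ![y, u, v]
    have s := hs 2 1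
    simp only [mul_zero, add_zero, zero_smul] at h1
    rw [h1] at h2
    simp only [dp, qf, Fin.sum_univ_three, Matrix.cons_val] at h2
    rw [s] at h2
    linarith
  have k1 := key 1 0 0
  have k2 := key (-1) 0 0
  have k3 := key 0 1 0
  have k4 := key 0 (-1) 0
  have k5 := key 0 0 1
  have k6 := key 0 0 (-1)
  have k7 := key 1 1 0
  have k8 := key 1 0 1
  have k9 := key 0 1 1
  simp only [Fq, dt, bz, QF.ev, Matrix.cons_val] at k1 k2 k3 k4 k5 k6 k7 k8 k9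
  have fin : ∀ x y : ℝ, y = w 0 * x → 1 / w 0 * y = x := by
    intro x y h
    rw [h]; field_simp
  refine ⟨fin _ _ ?_, fin _ _ ?_, fin _ _ ?_, fin _ _ ?_, fin _ _ ?_, fin _ _ ?_, fin _ _ ?_,
    fin _ _ ?_, fin _ _ ?_⟩ <;> linarith

/-- constant -/
def cV : ℝ := 10 ^ 40

set_option maxHeartbeats 1000000 in
/-- **V7** -/
theorem v7_false {K E a w1 w2 z0 ρ r : ℝ} {S S' : Plk4} {T : Ln4}
    (A : Al K E a w1 w2 z0 ρ r S S' T) {H : ℕ} (hH : 0 < H) {h k : ℝ} (hh : 0 < h) (hh1 : h ≤ 1)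
    (hk : 0 ≤ k) {j : Fin 3 → ℕ} (hj : ∀ i, j i ≤ H)
    (hd : ∀ i i', i ≠ i' → h * (H : ℝ) ≤ |(j i : ℝ) - (j i' : ℝ)|)
    (ht : ∀ i m, |Rk601.tg (jS S S.q z0 ρ H (j i) T) (jS S S'.q z0 ρ H (j i) T) m| ≤ k * (E * a))
    (hsm : ∀ i, Sm S S'.q z0 ρ H (j i) T k (E * a))
    (hbig : 10 ^ 3 * K ^ 5 ≤ E) (hsmall : cV * K ^ 30 * k ≤ h ^ 4) : False := by
  have hK := A.K1
  have hK0 : 0 < K := by linarith
  have ha := A.a0
  have hr := A.r0
  have hρ := A.ρ0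
  have hw0 : 0 < S.w 0 := hr.trans_le (A.sh.r0_le.trans A.sh.a_le0)
  have hw2 : 0 < S.w 2 := hw0.trans_le A.sh.w0_le
  have hw0' : 0 < S'.w 0 := hr.trans_le (A.sh'.r0_le.trans A.sh'.a_le0)
  have hHr : (0:ℝ) < H := by exact_mod_cast hH
  have P := StP.of_shN A.sh hw0
  have P' := StP.of_shN A.sh' hw0'
  have hE0 : 0 < E := by
    have : 0 < 10 ^ 3 * K ^ 5 := by positivity
    linarith
  have hEa : 0 < E * a := mul_pos hE0 ha
  have hkp : 0 < kapP S z0 ρ T := by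
    by_contra hc
    push Not at hc
    have h1 := A.cur
    have := mul_nonpos_of_nonneg_of_nonpos hK0.le hc
    linarith
  obtain ⟨b0, b1, G, hE, hκ, htw, hkk⟩ := Lgt989.exp_of_detP A.sh hr hρ A.mem A.det hkp
  obtain ⟨b0', b1', G', hE'⟩ := exists_isExp P'.isQ S.e hw0.ne' T z0 ρ
  obtain ⟨d0, d1, HH, hH'⟩ := exists_isExp P'.isQ S'.e hw0'.ne' T z0 ρ
  have hC := compC_al A
  have D : Two S.e S.c S.w S.q S'.e S'.c S'.w S'.q T z0 ρ S.a S'.a b0 b1 G b0' b1' G' d0 d1 HH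
      (K ^ 2) (K ^ 3) :=
    { S := P
      S' := P'
      hρ := hρ.le
      hT := A.mem
      hT' := A.mem'
      hE := hE
      hE' := hE'
      hH := hH'
      w02 := A.sh.w0_le
      w21 := A.sh.w_le
      w02' := A.sh'.w0_le
      w21' := A.sh'.w_le
      B1 := one_le_pow₀ hK
      lam1 := one_le_pow₀ hK
      wB1 := (hC.w 1 (by decide)).2
      wB2 := (hC.w 2 (by decide)).2
      wB1' := (hC.w 1 (by decide)).1
      wB2' := (hC.w 2 (by decide)).1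
      tilt := hC.g' 2 (by decide)
      tilt' := by rw [dt_comm]; exact hC.g 2 (by decide) }
  have N := D.nrm
  have hκ13 : kap b0 b1 G ≤ 13 := Tl102.kap_le N
  set κ := kap b0 b1 G with hκd
  have hv0 : 0 < S.w 0 * κ := mul_pos hw0 hκ
  -- the turning
  set δ : ℝ := K⁻¹ / 2 with hδd
  have hKi : 0 < K⁻¹ := inv_pos.2 hK0
  have hKi1 : K⁻¹ ≤ 1 := inv_le_one_of_one_le₀ hK
  have hδ : 0 < δ := by positivity
  have hδ1 : δ ≤ 1 := by rw [hδd]; linarith
  have htw' : δ * κ ≤ |shB1 b0 b1 1| ∨ δ * κ ≤ |shB1 b0 b1 2| := by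
    by_contra hc
    push Not at hc
    obtain ⟨c1, c2⟩ := hc
    have e1 : shB1 b0 b1 1 ^ 2 < (δ * κ) ^ 2 := by
      rw [← sq_abs]; exact pow_lt_pow_left₀ c1 (abs_nonneg _) two_ne_zero
    have e2 : shB1 b0 b1 2 ^ 2 < (δ * κ) ^ 2 := by
      rw [← sq_abs]; exact pow_lt_pow_left₀ c2 (abs_nonneg _) two_ne_zero
    have e3 : (δ * κ) ^ 2 ≤ K⁻¹ / 4 * κ ^ 2 := by
      rw [hδd]
      have h1 : K⁻¹ * K⁻¹ ≤ K⁻¹ := mul_le_of_le_one_right hKi.le hKi1
      have h2 : (K⁻¹ / 2 * κ) ^ 2 = K⁻¹ * K⁻¹ / 4 * κ ^ 2 := by ring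
      rw [h2]
      exact mul_le_mul_of_nonneg_right (by linarith) (sq_nonneg κ)
    have h4 : 0 < K⁻¹ * κ ^ 2 := by positivity
    linarith
  -- heights
  set ζ : Fin 3 → ℝ := fun i => (j i : ℝ) / H with hζd
  have hζ : ∀ i, 0 ≤ ζ i ∧ ζ i ≤ 1 := by
    intro i
    refine ⟨by positivity, ?_⟩
    rw [hζd]; dsimp only
    rw [div_le_one hHr]; exact_mod_cast hj i
  have hζs : ∀ i i', i ≠ i' → h ≤ |ζ i - ζ i'| := by
    intro i i' hi
    have h1 := hd i i' hi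
    rw [hζd]; dsimp only
    rw [← sub_div, abs_div, abs_of_pos hHr, le_div_iff₀ hHr]
    exact h1
  -- the jets
  set s : ℝ := k * (E * a) with hsd
  have hs0 : 0 ≤ s := by positivity
  set ε : ℝ := s / (S.w 0 * κ) with hεd
  have hε : 0 ≤ ε := by positivity
  have hκε : κ * ε = 1 / S.w 0 * s := by
    rw [hεd]; field_simp
  have hc : 1 / S.w 0 ≠ 0 := by positivity
  have hc0 : 0 < 1 / S.w 0 := by positivity
  have hab : ∀ x : ℝ, |x| ≤ s → |1 / S.w 0 * x| ≤ κ * ε := by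
    intro x hx
    rw [hκε, abs_mul, abs_of_pos hc0]
    exact mul_le_mul_of_nonneg_left hx hc0.le
  have J1 : ∀ i, XJ b0 b1 G (ζ i) (sc (1 / S.w 0) (jS S S.q z0 ρ H (j i) T)) := fun i =>
    xj_of hE hw0.ne' (jt_jet P.isQ _ _ _ _ _).1 (jt_jet P.isQ _ _ _ _ _).2
  have J2 : ∀ i, XJ b0' b1' G' (ζ i) (sc (1 / S.w 0) (jS S S'.q z0 ρ H (j i) T)) := fun i =>
    xj_of hE' hw0.ne' (jt_jet P'.isQ _ _ _ _ _).1 (jt_jet P'.isQ _ _ _ _ _).2
  have O := omB3 N hκ hδ hδ1 hh hh1 hε htw' hζ hζs J1 J2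
    (fun i => by rw [tg_sc hc]; exact hab _ (ht i 1))
    (fun i => by rw [tg_sc hc]; exact hab _ (ht i 2))
    (fun i => by rw [th_sc hc]; exact hab _ (hsm i 1 1))
    (fun i => by rw [th_sc hc]; exact hab _ (hsm i 1 2))
    (fun i => by rw [th_sc hc]; exact hab _ (hsm i 2 2))
  set X : ℝ := 13 * 10 ^ 9 * ε / (h ^ 4 * δ ^ 3) with hX
  -- numbers
  have hXv : X * (S.w 0 * κ) = 104 * 10 ^ 9 * K ^ 3 * k / h ^ 4 * (E * a) := by
    have h1 : K⁻¹ * K = 1 := inv_mul_cancel₀ hK0.ne'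
    rw [hX, hεd, hsd, hδd]
    field_simp
    ring
  set Λ : ℝ := X * (S.w 0 * κ) with hΛ
  have hh4 : 0 < h ^ 4 := by positivity
  have hkh : k * K ^ 30 / h ^ 4 ≤ 1 / cV := by
    rw [div_le_div_iff₀ hh4 (by unfold cV; positivity)]
    linarith
  have hΛ0 : 0 ≤ Λ := by rw [hXv]; positivity
  have hΛle : ∀ n : ℕ, n ≤ 27 → K ^ n * Λ ≤ 1 / (9 * 10 ^ 28) * (E * a) := by
    intro n hn
    have h1 : K ^ n * K ^ 3 ≤ K ^ 30 := by
      rw [← pow_add]; exact pow_le_pow_right₀ hK (by omega)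
    have h2 : K ^ n * (104 * 10 ^ 9 * K ^ 3 * k / h ^ 4) ≤ 1 / (9 * 10 ^ 28) := by
      calc K ^ n * (104 * 10 ^ 9 * K ^ 3 * k / h ^ 4) =
            104 * 10 ^ 9 * (k * (K ^ n * K ^ 3) / h ^ 4) := by ring
        _ ≤ 104 * 10 ^ 9 * (k * K ^ 30 / h ^ 4) := by
            refine mul_le_mul_of_nonneg_left ?_ (by positivity)
            exact div_le_div_of_nonneg_right (mul_le_mul_of_nonneg_left h1 hk) hh4.le
        _ ≤ 104 * 10 ^ 9 * (1 / cV) := mul_le_mul_of_nonneg_left hkh (by positivity)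
        _ ≤ _ := by unfold cV; norm_num
    rw [hXv]
    calc K ^ n * (104 * 10 ^ 9 * K ^ 3 * k / h ^ 4 * (E * a)) =
          K ^ n * (104 * 10 ^ 9 * K ^ 3 * k / h ^ 4) * (E * a) := by ring
      _ ≤ _ := mul_le_mul_of_nonneg_right h2 hEa.le
  have L0 := hΛle 0 (by norm_num)
  have L1 := hΛle 1 (by norm_num)
  have L20 := hΛle 20 (by norm_num)
  rw [pow_zero, one_mul] at L0
  rw [pow_one] at L1
  have hKa : 10 ^ 3 * (K * (K * a)) ≤ E * a := by
    have h5 : K * K ≤ K ^ 5 := by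
      have : K ^ 5 = K * K * K ^ 3 := by ring
      rw [this]
      have h3 : 1 ≤ K ^ 3 := one_le_pow₀ hK
      exact le_mul_of_one_le_right (by positivity) h3
    have : 10 ^ 3 * (K * K) ≤ E := by linarith
    have := mul_le_mul_of_nonneg_right this ha.le
    linarith
  have hKa1 : 10 ^ 3 * (K * a) ≤ E * a := by
    have : K * a ≤ K * (K * a) := le_mul_of_one_le_left (by positivity) hK
    linarith
  have aS : S.a ≤ K * a := A.dim.1.2
  have aS' : S'.a ≤ K * a := A.dim'.1.2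
  have aS0 : 0 ≤ S.a := by have := A.sh.r0_le; linarith
  have cur : E * a ≤ K * (S.w 0 * κ) := by rw [← hkk]; exact A.cur
  have hva : 10 ^ 3 * (K * a) ≤ S.w 0 * κ := by
    have h1 : K * (10 ^ 3 * (K * a)) ≤ K * (S.w 0 * κ) := by linarith
    exact le_of_mul_le_mul_left h1 hK0
  have hX1 : X ≤ 1 := by
    have h1 : K * Λ ≤ 1 * (K * (S.w 0 * κ)) := by
      have : 1 / (9 * 10 ^ 28) * (E * a) ≤ 1 * (E * a) :=
        mul_le_mul_of_nonneg_right (by norm_num) hEa.le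
      linarith
    have h2 : K * (X * (S.w 0 * κ)) ≤ K * (1 * (S.w 0 * κ)) := by
      rw [← hΛ]; linarith
    exact le_of_mul_le_mul_right (le_of_mul_le_mul_left h2 hK0) hv0
  have hX8 : 8 * (X * (S.w 0 * κ)) ≤ S.w 2 := by
    rw [← hΛ]
    have h1 : S.w 0 * κ ≤ S.w 2 * 13 := mul_le_mul A.sh.w0_le hκ13 hκ.le hw2.le
    have h2 : K * (S.w 0 * κ) ≤ K * (S.w 2 * 13) := mul_le_mul_of_nonneg_left h1 hK0.le
    have h3 : K * (8 * Λ) ≤ K * S.w 2 := by
      have : 0 < K * S.w 2 := by positivity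
      have e : K * (S.w 2 * 13) = 13 * (K * S.w 2) := by ring
      rw [e] at h2
      have e4 : K * (8 * Λ) = 8 * (K * Λ) := by ring
      rw [e4]
      norm_num at L1
      linarith
    exact le_of_mul_le_mul_left h3 hK0
  refine A.far ⟨?_, ?_⟩
  · refine D.closeC hρ hκ le_rfl O (le_of_eq hΛ.symm) ?_ ?_
    · linarith
    · norm_num at L0
      linarith
  · refine D.closeC' hρ hκ le_rfl hκ13 O hX8 hX1 (le_of_eq hΛ.symm) ?_ ?_
    · linarith
    · have e : a + 16 * (2 * a + 11 * (10 ^ 11 * (K ^ 2 * K ^ 3) ^ 2) ^ 2 * Λ) =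
          33 * a + 176 * 10 ^ 22 * (K ^ 20 * Λ) := by ring
      have e' : S.a + 16 * (2 * S'.a + 11 * (10 ^ 11 * (K ^ 2 * K ^ 3) ^ 2) ^ 2 * Λ) =
          S.a + 32 * S'.a + 176 * 10 ^ 22 * (K ^ 20 * Λ) := by ring
      rw [e']
      norm_num at L20 ⊢
      linarith

end Crest.Agent.R136.V7818
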