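import Crest.Agent.R136.V7_818
import Crest.Agent.R136.AlK_500

/-!
# R136, PLAN 2 (AL), `LeafV7` (helper818)
-/

set_option autoImplicit false
set_option linter.unusedVariables false

open Finset

namespace Crest.Agent.R136.V7818

open Crest.Agent.R136.Sh605
open Crest.Agent.R136.K4 (Plk4)
open Crest.Agent.R136.Hcp208 (Al)
open Crest.Agent.R136.AlD601 (jS Nd Sm not_Nd)
open Crest.Agent.R136.Al500 (Cf LeafV7)

/-- the record `Al` from the configuration -/
theorem al_of_cf {qm qp : Fin 3 → ℝ} {L : ℕ → Ln4} {P : Finset ℕ} {cu cv : ℕ → ℕ}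
    {Uf Vf : ℕ → Plk4} {W B M a w1 w2 z0 ρ zL ρL r κ E : ℝ} {H : ℕ}
    (h : Cf qm qp L P cu cv Uf Vf W B M a w1 w2 z0 ρ zL ρL r κ E H) {t : ℕ} (ht : t ∈ P) :
    Al W E a w1 w2 z0 ρ r (Uf (cu t)) (Vf (cv t)) (L t) where
  K1 := h.W1
  r0 := h.two.to1.r0
  ρ0 := h.two.to1.ρ0
  a0 := h.two.to1.a0
  sh := h.two.to1.shU t ht
  sh' := h.two.to1.shV t ht
  mem := h.two.to1.inU t ht
  mem' := h.two.to1.inV t ht
  dim := h.dmU t ht
  dim' := h.dmV t ht
  ang := h.ang t ht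
  cur := h.kE t ht
  det := h.detU t ht
  far := h.lo t ht

/-- **V7** -/
theorem leafV7 : LeafV7 := by
  refine ⟨200, by norm_num, ?_⟩
  intro qm qp L P cu cv Uf Vf W B M a w1 w2 z0 ρ zL ρL r κ E H h _ hBH l m k hl hm hk hlk
    t ht i0 i1 i2 hi2 h01 h12 hall
  have hW := h.W1
  have hWB := h.WB
  have hB : 1 ≤ B := hW.trans hWB
  have hHr : (0:ℝ) < H := by
    have : 0 < H := by omega
    exact_mod_cast this
  have hH : 0 < H := by exact_mod_cast hHr
  have a0 := h.two.to1.a0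
  have hEa : 0 ≤ E * a := mul_nonneg (by linarith [h.E1]) a0.le
  have e200 : (200 * B) ^ (200:ℝ) = (200 * B) ^ 200 := by
    rw [show (200:ℝ) = ((200:ℕ) : ℝ) by norm_num, Real.rpow_natCast]
  rw [e200] at hBH hlk
  have hb1 : (1:ℝ) ≤ 200 * B := by linarith
  have hp : ∀ n : ℕ, n ≤ 200 → (200:ℝ) ^ n * W ^ n ≤ (200 * B) ^ 200 := by
    intro n hn
    calc (200:ℝ) ^ n * W ^ n = (200 * W) ^ n := by rw [mul_pow]
      _ ≤ (200 * B) ^ n := pow_le_pow_left₀ (by linarith) (by linarith) n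
      _ ≤ _ := pow_le_pow_right₀ hb1 hn
  have hW5 : 0 ≤ W ^ 5 := by positivity
  have hW30 : 0 ≤ W ^ 30 := by positivity
  have hbig : 10 ^ 3 * W ^ 5 ≤ E := by
    have h1 := hp 5 (by norm_num)
    have h2 := h.HE
    norm_num at h1
    linarith
  have hlk0 : 0 ≤ l + k := by linarith
  have hsmall : cV * W ^ 30 * (l + k) ≤ (1 / 256 : ℝ) ^ 4 := by
    have h1 := mul_le_mul_of_nonneg_right (hp 30 (by norm_num)) hlk0
    have h2 : 0 ≤ W ^ 30 * (l + k) := by positivity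
    have h3 : (200:ℝ) ^ 30 * (W ^ 30 * (l + k)) ≤ 1 := by
      calc (200:ℝ) ^ 30 * (W ^ 30 * (l + k)) = 200 ^ 30 * W ^ 30 * (l + k) := by ring
        _ ≤ _ := h1
        _ ≤ 1 := hlk
    unfold cV
    have h4 : (10:ℝ) ^ 40 * 256 ^ 4 * (W ^ 30 * (l + k)) ≤ 200 ^ 30 * (W ^ 30 * (l + k)) :=
      mul_le_mul_of_nonneg_right (by norm_num) h2
    have h5 : (1 / 256 : ℝ) ^ 4 * 256 ^ 4 = 1 := by norm_num
    have h6 : (0:ℝ) < 256 ^ 4 := by norm_num
    refine le_of_mul_le_mul_right ?_ h6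
    rw [h5]
    calc (10:ℝ) ^ 40 * W ^ 30 * (l + k) * 256 ^ 4 = 10 ^ 40 * 256 ^ 4 * (W ^ 30 * (l + k)) := by ring
      _ ≤ _ := h4
      _ ≤ 1 := h3
  have g01 : (i0 : ℝ) + 1 / 256 * H ≤ i1 := by
    have := mul_le_mul_of_nonneg_right h01 hHr.le
    rw [add_mul, div_mul_cancel₀ _ hHr.ne', div_mul_cancel₀ _ hHr.ne'] at this
    exact this
  have g12 : (i1 : ℝ) + 1 / 256 * H ≤ i2 := by
    have := mul_le_mul_of_nonneg_right h12 hHr.le
    rw [add_mul, div_mul_cancel₀ _ hHr.ne', div_mul_cancel₀ _ hHr.ne'] at this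
    exact this
  have l01 : i0 ≤ i1 := by
    have : (i0 : ℝ) ≤ i1 := by linarith
    exact_mod_cast this
  have l12 : i1 ≤ i2 := by
    have : (i1 : ℝ) ≤ i2 := by linarith
    exact_mod_cast this
  have d01 : 1 / 256 * (H : ℝ) ≤ |(i0 : ℝ) - i1| := by
    rw [abs_sub_comm]; exact le_trans (by linarith) (le_abs_self _)
  have d12 : 1 / 256 * (H : ℝ) ≤ |(i1 : ℝ) - i2| := by
    rw [abs_sub_comm]; exact le_trans (by linarith) (le_abs_self _)
  have d02 : 1 / 256 * (H : ℝ) ≤ |(i0 : ℝ) - i2| := by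
    rw [abs_sub_comm]; exact le_trans (by linarith) (le_abs_self _)
  have d10 := d01; rw [abs_sub_comm] at d10
  have d21 := d12; rw [abs_sub_comm] at d21
  have d20 := d02; rw [abs_sub_comm] at d20
  set j : Fin 3 → ℕ := ![i0, i1, i2] with hj
  have hja : ∀ i, j i = i0 ∨ j i = i1 ∨ j i = i2 := by
    intro i
    fin_cases i
    · exact Or.inl rfl
    · exact Or.inr (Or.inl rfl)
    · exact Or.inr (Or.inr rfl)
  refine v7_false (al_of_cf h ht) hH (h := 1 / 256) (by norm_num) (by norm_num) hlk0 (j := j)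
    ?_ ?_ ?_ ?_ hbig hsmall
  · intro i
    rcases hja i with h1 | h1 | h1 <;> rw [h1] <;> omega
  · intro i i' hi
    fin_cases i <;> fin_cases i'
    · exact absurd rfl hi
    · exact d01
    · exact d02
    · exact d10
    · exact absurd rfl hi
    · exact d12
    · exact d20
    · exact d21
    · exact absurd rfl hi
  · intro i m'
    have h1 := (not_Nd.1 (hall (j i) (hja i)).1).1 m'
    exact h1.trans (mul_le_mul_of_nonneg_right (by linarith) hEa)
  · intro i m' m''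
    have h1 := (hall (j i) (hja i)).2 m' m''
    exact h1.trans (mul_le_mul_of_nonneg_right (by linarith) hEa)

end Crest.Agent.R136.V7818
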