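import Crest.Agent.R136.KDef5_879

/-!
# R136 (V1), the side of the configurations (helper289)

* `zc4_div` : nesting of the dyadic cells;
* `own_alv` : a line with many own top cells is alive in many cells of level `m + h`;
* `cap_le` : comparison of the rewards of two levels;
* `CardTop` : the output needed from the one-sheet cover, `cls_le`, `val_le`.
-/

set_option autoImplicit false

open Finset

namespace Crest.Agent.R136.Val289

open Sh605 K4 KS879 En879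

noncomputable section

/-! ### cells -/

theorem zc4_div (m k : ℕ) (z : ℝ) : zc4 (m + k) z / 2 ^ k = zc4 m z := by
  unfold zc4
  have hk : (0:ℤ) < 2 ^ k := by positivity
  have hkr : (0:ℝ) < 2 ^ k := by positivity
  symm
  rw [Int.floor_eq_iff]
  have h1 := Int.floor_le ((2:ℝ) ^ (m + k) * z)
  have h2 := Int.lt_floor_add_one ((2:ℝ) ^ (m + k) * z)
  set n : ℤ := ⌊(2:ℝ) ^ (m + k) * z⌋ with hn
  have h3 := Int.ediv_mul_le n hk.ne'
  have h4 := Int.lt_ediv_add_one_mul_self n hk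
  have h3' : ((n / 2 ^ k : ℤ) : ℝ) * 2 ^ k ≤ n := by exact_mod_cast h3
  have h4' : (n : ℝ) + 1 ≤ (((n / 2 ^ k : ℤ) : ℝ) + 1) * 2 ^ k := by exact_mod_cast h4
  have e : (2:ℝ) ^ (m + k) * z = (2 ^ m * z) * 2 ^ k := by rw [pow_add]; ring
  rw [e] at h1 h2
  constructor
  · exact le_of_mul_le_mul_right (h3'.trans h1) hkr
  · exact lt_of_mul_lt_mul_right (h2.trans_le h4') hkr.le

/-- fibres of `j ↦ j / 2 ^ k` -/
theorem card_fib (k : ℕ) (S : Finset ℤ) : S.card ≤ 2 ^ k * (S.image fun j => j / 2 ^ k).card := by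
  classical
  have hk : (0:ℤ) < 2 ^ k := by positivity
  have h := card_le_mul_card_image (f := fun j : ℤ => j / 2 ^ k) S (2 ^ k) (fun c _ => ?_)
  · exact h
  · have : (S.filter fun j => j / 2 ^ k = c) ⊆ Ico (c * 2 ^ k) (c * 2 ^ k + 2 ^ k) := by
      intro j hj
      rw [mem_filter] at hj
      rw [mem_Ico]
      have h3 := Int.ediv_mul_le j hk.ne'
      have h4 := Int.lt_ediv_add_one_mul_self j hk
      rw [hj.2] at h3 h4
      constructor
      · exact h3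
      · linarith
    refine (card_le_card this).trans ?_
    rw [Int.card_Ico, add_sub_cancel_left]
    have : ((2:ℤ) ^ k).toNat = 2 ^ k := by
      rw [show (2:ℤ) ^ k = ((2 ^ k : ℕ) : ℤ) by push_cast; rfl, Int.toNat_natCast]
    rw [this]

/-- the line `t` is alive in the cell `j` of level `i` -/
def Alv (i : ℕ) (I : Finset (Ln4 × ℝ)) (t : Ln4) (j : ℤ) : Prop :=
  ∃ y ∈ I, y.1 = t ∧ zc4 i y.2 = j

open Classical in
/-- the cells of level `i` in which `t` is alive, in the cell `j0` of level `m` -/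
def alvs (m i : ℕ) (I : Finset (Ln4 × ℝ)) (t : Ln4) (j0 : ℤ) : Finset ℤ :=
  (I.filter fun y => y.1 = t ∧ zc4 m y.2 = j0).image fun y => zc4 i y.2

theorem alvs_alv {m i : ℕ} {I : Finset (Ln4 × ℝ)} {t : Ln4} {j0 j : ℤ}
    (h : j ∈ alvs m i I t j0) : Alv i I t j := by
  classical
  unfold alvs at h
  obtain ⟨y, hy, rfl⟩ := mem_image.1 h
  rw [mem_filter] at hy
  exact ⟨y, hy.1, hy.2.1, rfl⟩

theorem alvs_div {m k : ℕ} {I : Finset (Ln4 × ℝ)} {t : Ln4} {j0 j : ℤ}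
    (h : j ∈ alvs m (m + k) I t j0) : j / 2 ^ k = j0 := by
  classical
  unfold alvs at h
  obtain ⟨y, hy, rfl⟩ := mem_image.1 h
  rw [mem_filter] at hy
  rw [zc4_div]
  exact hy.2.2

/-- own top cells and alive cells of level `m + h` -/
theorem own_alv {m M h : ℕ} (hh : h ≤ M) {I : Finset (Ln4 × ℝ)} (x : Ln4 × ℝ) :
    ownc4 m (m + M) I x ≤ 2 ^ (M - h) * (alvs m (m + h) I x.1 (zc4 m x.2)).card := by
  classical
  have h1 : ownc4 m (m + M) I x ≤ (alvs m (m + M) I x.1 (zc4 m x.2)).card := by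
    unfold ownc4
    refine card_le_card_of_injOn (fun o => o.2) (fun o ho => ?_) (fun a ha b hb hab => ?_)
    · rw [Finset.mem_coe] at ho
      obtain ⟨y, hy, rfl⟩ := mem_image.1 ho
      rw [mem_filter] at hy
      have h2 : y.1 = x.1 ∧ zc4 m y.2 = zc4 m x.2 := by
        have := hy.2
        unfold ob4 at this
        exact Prod.ext_iff.1 this
      rw [Finset.mem_coe]
      exact mem_image.2 ⟨y, mem_filter.2 ⟨hy.1, h2⟩, rfl⟩
    · rw [Finset.mem_coe] at ha hb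
      obtain ⟨y, hy, rfl⟩ := mem_image.1 ha
      obtain ⟨y', hy', rfl⟩ := mem_image.1 hb
      rw [mem_filter] at hy hy'
      have h2 : y.1 = x.1 := by
        have := hy.2
        unfold ob4 at this
        exact (Prod.ext_iff.1 this).1
      have h2' : y'.1 = x.1 := by
        have := hy'.2
        unfold ob4 at this
        exact (Prod.ext_iff.1 this).1
      unfold ob4
      exact Prod.ext (h2.trans h2'.symm) hab
  refine h1.trans ((card_fib (M - h) _).trans (Nat.mul_le_mul_left _ (card_le_card ?_)))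
  intro j hj
  obtain ⟨j', hj', rfl⟩ := mem_image.1 hj
  unfold alvs at hj' ⊢
  obtain ⟨y, hy, rfl⟩ := mem_image.1 hj'
  refine mem_image.2 ⟨y, hy, ?_⟩
  have e : m + M = m + h + (M - h) := by omega
  show zc4 (m + h) y.2 = zc4 (m + M) y.2 / 2 ^ (M - h)
  rw [e, zc4_div]

/-- many alive cells -/
theorem alv_many {m M h k : ℕ} {δ : ℝ} (hh : h ≤ M) (hk : δ * M + k ≤ h)
    {I : Finset (Ln4 × ℝ)} {x : Ln4 × ℝ}
    (hown : (2:ℝ) ^ ((1 - δ) * M) ≤ (ownc4 m (m + M) I x : ℝ)) :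
    2 ^ k ≤ (alvs m (m + h) I x.1 (zc4 m x.2)).card := by
  have h1 : (ownc4 m (m + M) I x : ℝ) ≤
      2 ^ (M - h) * ((alvs m (m + h) I x.1 (zc4 m x.2)).card : ℝ) := by
    exact_mod_cast own_alv hh x
  have h2 : (2:ℝ) ^ ((M:ℝ) - h) * 2 ^ k ≤ 2 ^ ((1 - δ) * M) := by
    rw [← Real.rpow_natCast 2 k, ← Real.rpow_add (by norm_num)]
    exact Real.rpow_le_rpow_of_exponent_le (by norm_num) (by linarith)
  have h3 : (2:ℝ) ^ ((M:ℝ) - h) = 2 ^ (M - h) := by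
    rw [← Nat.cast_sub hh, Real.rpow_natCast]
  rw [h3] at h2
  have h4 : (2:ℝ) ^ (M - h) * 2 ^ k ≤
      2 ^ (M - h) * ((alvs m (m + h) I x.1 (zc4 m x.2)).card : ℝ) := h2.trans (hown.trans h1)
  have h5 := le_of_mul_le_mul_left h4 (by positivity)
  exact_mod_cast h5

/-! ### rewards -/

/-- reward of the level `i` -/
def rew (q : Fin 3 → ℝ) (i : ℕ) (a w2 w1 : ℝ) : ℝ :=
  (a * 2 ^ i) ^ q 0 * (w1 * 2 ^ i) ^ q 1 * (w2 * 2 ^ i) ^ q 2

theorem cap5_eq (q : Fin 3 → ℝ) (i : ℕ) (K : Plk4) :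
    cap5 q i K = K.a * K.w 2 * K.w 1 * rew q i K.a (K.w 2) (K.w 1) := rfl

/-- one factor: `w' ≤ 2^B w`, `w ≤ 2^B w'`, `w' > 0` -/
theorem rpow_comp {p w w' : ℝ} {B s : ℝ} (hw : 0 < w) (hw' : 0 < w')
    (h1 : w' ≤ 2 ^ B * w) (h2 : w ≤ 2 ^ B * w') (hs : 0 ≤ s) :
    w' ^ p ≤ (2:ℝ) ^ (|p| * (B + s)) * ((2:ℝ) ^ s * w) ^ p := by
  have h2s : (1:ℝ) ≤ 2 ^ s := Real.one_le_rpow (by norm_num) hs
  have hBs : (0:ℝ) < 2 ^ (B + s) := by positivity
  have e : (2:ℝ) ^ (|p| * (B + s)) = ((2:ℝ) ^ (B + s)) ^ |p| := by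
    rw [← Real.rpow_mul (by norm_num)]; congr 1; ring
  have hsw : 0 < (2:ℝ) ^ s * w := by positivity
  rw [e]
  rcases le_total 0 p with h0 | h0
  · rw [abs_of_nonneg h0, ← Real.mul_rpow hBs.le hsw.le]
    refine Real.rpow_le_rpow hw'.le ?_ h0
    rw [Real.rpow_add (by norm_num)]
    calc w' ≤ 2 ^ B * w := h1
      _ = 2 ^ B * 1 * (1 * w) := by ring
      _ ≤ 2 ^ B * 2 ^ s * (2 ^ s * w) := by gcongr
  · rw [abs_of_nonpos h0]
    have e1 : w' ^ p = (w'⁻¹) ^ (-p) := by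
      rw [Real.inv_rpow hw'.le, Real.rpow_neg hw'.le, inv_inv]
    have e2 : ((2:ℝ) ^ s * w) ^ p = ((2 ^ s * w)⁻¹) ^ (-p) := by
      rw [Real.inv_rpow hsw.le, Real.rpow_neg hsw.le, inv_inv]
    rw [e1, e2, ← Real.mul_rpow hBs.le (by positivity)]
    refine Real.rpow_le_rpow (by positivity) ?_ (by linarith)
    rw [Real.rpow_add (by norm_num), inv_eq_one_div, ← div_eq_mul_inv,
      div_le_div_iff₀ hw' hsw, one_mul]
    have : (0:ℝ) < 2 ^ s := by positivity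
    calc (2:ℝ) ^ s * w ≤ 2 ^ s * (2 ^ B * w') := by gcongr
      _ = 2 ^ B * 2 ^ s * w' := by ring

/-- **comparison of the rewards** of the levels `i` and `i + n` -/
theorem rew_le (q : Fin 3 → ℝ) (i n : ℕ) {a a' w2 w2' w1 w1' B : ℝ}
    (ha : 0 < a) (ha' : 0 < a') (h2 : 0 < w2) (h2' : 0 < w2') (h1 : 0 < w1) (h1' : 0 < w1')
    (b1 : a' ≤ 2 ^ B * a) (b2 : a ≤ 2 ^ B * a') (b3 : w2' ≤ 2 ^ B * w2) (b4 : w2 ≤ 2 ^ B * w2')
    (b5 : w1' ≤ 2 ^ B * w1) (b6 : w1 ≤ 2 ^ B * w1') :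
    rew q i a' w2' w1' ≤ (2:ℝ) ^ (qs q * (B + n)) * rew q (i + n) a w2 w1 := by
  have key : ∀ (p w w' : ℝ), 0 < w → 0 < w' → w' ≤ 2 ^ B * w → w ≤ 2 ^ B * w' →
      (w' * 2 ^ i) ^ p ≤ (2:ℝ) ^ (|p| * (B + n)) * (w * 2 ^ (i + n)) ^ p := by
    intro p w w' hw hw' c1 c2
    have hi : (0:ℝ) < 2 ^ i := by positivity
    have := rpow_comp (p := p) (w := w * 2 ^ i) (w' := w' * 2 ^ i) (B := B) (s := n)
      (by positivity) (by positivity)
      (by calc w' * 2 ^ i ≤ (2 ^ B * w) * 2 ^ i := by gcongr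
            _ = _ := by ring)
      (by calc w * 2 ^ i ≤ (2 ^ B * w') * 2 ^ i := by gcongr
            _ = _ := by ring) (Nat.cast_nonneg n)
    refine this.trans (le_of_eq ?_)
    congr 2
    rw [Real.rpow_natCast, pow_add]; ring
  have k0 := key (q 0) a a' ha ha' b1 b2
  have k1 := key (q 1) w1 w1' h1 h1' b5 b6
  have k2 := key (q 2) w2 w2' h2 h2' b3 b4
  have e : (2:ℝ) ^ (qs q * (B + n)) = 2 ^ (|q 0| * (B + n)) * 2 ^ (|q 1| * (B + n)) *
      2 ^ (|q 2| * (B + n)) := by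
    rw [← Real.rpow_add (by norm_num), ← Real.rpow_add (by norm_num)]
    congr 1; unfold qs; ring
  unfold rew
  rw [e]
  calc (a' * 2 ^ i) ^ q 0 * (w1' * 2 ^ i) ^ q 1 * (w2' * 2 ^ i) ^ q 2
      ≤ ((2:ℝ) ^ (|q 0| * (B + n)) * (a * 2 ^ (i + n)) ^ q 0) *
        ((2:ℝ) ^ (|q 1| * (B + n)) * (w1 * 2 ^ (i + n)) ^ q 1) *
        ((2:ℝ) ^ (|q 2| * (B + n)) * (w2 * 2 ^ (i + n)) ^ q 2) := by gcongr
    _ = _ := by ring

end

end Crest.Agent.R136.Val289
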