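import Crest.Agent.R136.Val0_289

/-!
# R136 (V1), the value of a configuration is bounded (helper289)

`UBf A k` = the finite statement (UB) for the class `C*` (683's `UBfin` with `20 ↦ A`,
`128 ↦ 2 ^ k`).  `card_le_of` : a legal sheet of the top level of a configuration contains at most
`2 ^ (...) D0 cap5` objects; `val_le_of` : the value is bounded.
-/

set_option autoImplicit false
set_option linter.unusedVariables false

open Finset

namespace Crest.Agent.R136.Val289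

open Sh605 K4 KS879 En879

noncomputable section

open Classical in
/-- **(UB)**, finite form with parameters `A` (exponent) and `k` (number of alive cells). -/
def UBf (A k : ℕ) : Prop :=
  ∀ (M h : ℕ), k ≤ h → 7 ≤ h → h ≤ M → ∀ {ι : Type} (L : ι → Ln4) (T : Finset ι)
    (al : ℕ → Finset ι) (z00 ρ ρ' r0 D : ℝ) (R R' : ℝ → ℝ → ℝ → ℝ), 0 < ρ → 0 < r0 → 0 ≤ D →
    ρ' * 2 ^ h = 2 ^ M * ρ →
    (∀ j < 2 ^ h, DMaxN (al j) L (z00 + j * ρ') ρ' D R' r0 ρ') →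
    ∀ (e : Fin 3 → V3) (c : Ln4) (w : V3) (q : ℝ → V3 → ℝ) (a z0 : ℝ), z00 ≤ z0 →
      z0 + ρ ≤ z00 + 2 ^ M * ρ → ShN e c w q a z0 ρ r0 → w 1 ≤ ρ →
      (∀ t ∈ T, InSheet (L t) e c w q a z0 ρ) →
      (∀ t ∈ T, 2 ^ k ≤ ((Finset.range (2 ^ h)).filter fun j => t ∈ al j).card) →
      (∀ a' w2' w1', (a' ≤ 2 ^ (4 * (M + h + 10)) * a ∧ a ≤ 2 ^ (4 * (M + h + 10)) * a') →
        (w2' ≤ 2 ^ (4 * (M + h + 10)) * w 2 ∧ w 2 ≤ 2 ^ (4 * (M + h + 10)) * w2') →
        (w1' ≤ 2 ^ (4 * (M + h + 10)) * w 1 ∧ w 1 ≤ 2 ^ (4 * (M + h + 10)) * w1') →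
        R' a' w2' w1' ≤ R a (w 2) (w 1)) →
      (T.card : ℝ) ≤ 2 ^ (A * (M + h + 10)) * D * (a * w 2 * w 1 * R a (w 2) (w 1))

theorem legN_pos {m : ℕ} {r Λ : ℝ} {K : Plk4} (hr : 0 < r) (h : LegN m r Λ K) :
    0 < K.a ∧ 0 < K.w 2 ∧ 0 < K.w 1 := by
  have h0 := shN_w2 hr h.1
  exact ⟨hr.trans_le h.1.r0_le, h0.1, h0.2.1⟩

theorem cap5_pos {q : Fin 3 → ℝ} {m : ℕ} {K : Plk4} (ha : 0 < K.a) (h2 : 0 < K.w 2)
    (h1 : 0 < K.w 1) : 0 < cap5 q m K := by
  unfold cap5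
  positivity

/-- `D0 ≥ 0` -/
theorem D0_nonneg {q : Fin 3 → ℝ} {i : ℕ} {r Λ D0 : ℝ} {I : Finset (Ln4 × ℝ)} (hr : 0 < r)
    (hΛ : 1 ≤ Λ) (hri : r ≤ 1 / 2 ^ i)
    (hup : ∀ K, LegN i r Λ K → ((objs4 i I K).card : ℝ) ≤ D0 * cap5 q i K) : 0 ≤ D0 := by
  have h1 : LegN i r Λ (cubeK r (⟨0, 0⟩, 0)) := clsOK_N.cube i r Λ _ hr hΛ hri
  have h2 := hup _ h1
  have h3 : 0 < cap5 q i (cubeK r (⟨0, 0⟩, 0)) := by
    obtain ⟨a1, a2, a3⟩ := legN_pos hr h1
    exact cap5_pos a1 a2 a3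
  by_contra h4
  rw [not_le] at h4
  have h5 := mul_neg_of_neg_of_pos h4 h3
  have h6 : (0:ℝ) ≤ ((objs4 i I (cubeK r (⟨0, 0⟩, 0))).card : ℝ) := Nat.cast_nonneg _
  linarith

open Classical in
/-- **(UB) for a configuration**: the objects of the top level in a legal sheet -/
theorem card_le_of {A k m M h : ℕ} (hU : UBf A k) (hkh : k ≤ h) (h7 : 7 ≤ h) (hhM : h ≤ M)
    {q : Fin 3 → ℝ} {r Λ D0 : ℝ} {I : Finset (Ln4 × ℝ)} (hr : 0 < r) (hΛ : 1 ≤ Λ)
    (hri : r ≤ 1 / 2 ^ (m + h))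
    (hup : ∀ K, LegN (m + h) r Λ K → ((objs4 (m + h) I K).card : ℝ) ≤ D0 * cap5 q (m + h) K)
    (hal : ∀ x ∈ I, 2 ^ k ≤ (alvs m (m + h) I x.1 (zc4 m x.2)).card)
    {K : Plk4} (hK : LegN (m + M) r Λ K) :
    ((objs4 (m + M) I K).card : ℝ) ≤
      2 ^ (A * (M + h + 10)) * (2:ℝ) ^ (qs q * (5 * (M + h + 10))) * D0 * cap5 q (m + M) K := by
  classical
  have hD := D0_nonneg hr hΛ hri hup
  obtain ⟨pa, p2, p1⟩ := legN_pos hr hK
  -- the data
  set j0 : ℤ := K.j / 2 ^ M with hj0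
  have h2M : (0:ℤ) < 2 ^ M := by positivity
  have hd1 : j0 * 2 ^ M ≤ K.j := Int.ediv_mul_le _ h2M.ne'
  have hd2 : K.j + 1 ≤ (j0 + 1) * 2 ^ M := Int.lt_ediv_add_one_mul_self K.j h2M
  have hd1' : (j0:ℝ) * 2 ^ M ≤ K.j := by exact_mod_cast hd1
  have hd2' : (K.j:ℝ) + 1 ≤ ((j0:ℝ) + 1) * 2 ^ M := by exact_mod_cast hd2
  set T : Finset Ln4 := (objs4 (m + M) I K).image Prod.fst with hT
  set al : ℕ → Finset Ln4 := fun j =>
    (I.filter fun y => zc4 (m + h) y.2 = j0 * 2 ^ h + j).image Prod.fst with hal'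
  have hTc : T.card = (objs4 (m + M) I K).card := by
    rw [hT]
    refine card_image_of_injOn fun o ho o' ho' hoo => ?_
    rw [Finset.mem_coe] at ho ho'
    unfold objs4 at ho ho'
    rw [mem_filter] at ho ho'
    exact Prod.ext hoo (ho.2.1.trans ho'.2.1.symm)
  have hTm : ∀ t ∈ T, ∃ x ∈ I, x.1 = t ∧ zc4 m x.2 = j0 ∧
      InSheet t K.e K.c K.w K.q K.a ((K.j : ℝ) / 2 ^ (m + M)) (1 / 2 ^ (m + M)) := by
    intro t ht
    obtain ⟨o, ho, rfl⟩ := mem_image.1 ht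
    unfold objs4 at ho
    rw [mem_filter] at ho
    obtain ⟨ho1, ho2, ho3⟩ := ho
    obtain ⟨x, hx, rfl⟩ := mem_image.1 ho1
    refine ⟨x, hx, rfl, ?_, ho3⟩
    have : zc4 (m + M) x.2 = K.j := ho2
    rw [hj0, ← this, zc4_div]
  have hmp : (0:ℝ) < 2 ^ m := by positivity
  have hMp : (0:ℝ) < 2 ^ M := by positivity
  have hhp : (0:ℝ) < 2 ^ h := by positivity
  have hmain := hU M h hkh h7 hhM (id : Ln4 → Ln4) T al ((j0:ℝ) / 2 ^ m) (1 / 2 ^ (m + M))
    (1 / 2 ^ (m + h)) r D0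
    (fun a w2 w1 => (2:ℝ) ^ (qs q * (5 * (M + h + 10))) * rew q (m + M) a w2 w1)
    (rew q (m + h)) (by positivity) hr hD
    (by rw [pow_add, pow_add]; field_simp)
    (by
      intro j hj e c w q' a hS hw
      have hz : (j0:ℝ) / 2 ^ m + j * (1 / 2 ^ (m + h)) =
          ((j0 * 2 ^ h + j : ℤ) : ℝ) / 2 ^ (m + h) := by
        push_cast
        rw [pow_add]
        field_simp
      rw [hz] at hS ⊢
      have h1 := hup ⟨j0 * 2 ^ h + j, e, c, w, q', a⟩ ⟨hS, hw⟩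
      have h2 : (((al j).filter fun t => InSheet (id t) e c w q' a
          (((j0 * 2 ^ h + j : ℤ) : ℝ) / 2 ^ (m + h)) (1 / 2 ^ (m + h))).card : ℝ) ≤
          ((objs4 (m + h) I ⟨j0 * 2 ^ h + j, e, c, w, q', a⟩).card : ℝ) := by
        refine Nat.cast_le.2 (card_le_card_of_injOn (fun t => (t, j0 * 2 ^ h + (j:ℤ)))
          (fun t ht => ?_) (fun t _ t' _ htt => (Prod.ext_iff.1 htt).1))
        rw [Finset.mem_coe, mem_filter] at ht
        obtain ⟨ht1, ht2⟩ := ht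
        rw [hal'] at ht1
        obtain ⟨y, hy, rfl⟩ := mem_image.1 ht1
        rw [mem_filter] at hy
        rw [Finset.mem_coe]
        unfold objs4
        rw [mem_filter]
        refine ⟨mem_image.2 ⟨y, hy.1, ?_⟩, rfl, ht2⟩
        unfold ob4
        rw [hy.2]
      refine h2.trans (h1.trans (le_of_eq ?_))
      rfl)
    K.e K.c K.w K.q K.a ((K.j : ℝ) / 2 ^ (m + M))
    (by
      rw [div_le_div_iff₀ hmp (by positivity), pow_add]
      nlinarith)
    (by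
      rw [pow_add]
      have e1 : (K.j:ℝ) / (2 ^ m * 2 ^ M) + 1 / (2 ^ m * 2 ^ M) =
          ((K.j:ℝ) + 1) / (2 ^ m * 2 ^ M) := by ring
      have e2 : (j0:ℝ) / 2 ^ m + 2 ^ M * (1 / (2 ^ m * 2 ^ M)) =
          (((j0:ℝ) + 1) * 2 ^ M) / (2 ^ m * 2 ^ M) := by field_simp
      rw [e1, e2]
      exact div_le_div_of_nonneg_right hd2' (by positivity))
    hK.1 hK.2
    (fun t ht => by obtain ⟨x, _, _, _, h4⟩ := hTm t ht; exact h4)
    (by
      intro t ht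
      obtain ⟨x, hx, hxt, hxj, _⟩ := hTm t ht
      have h1 := hal x hx
      rw [hxt, hxj] at h1
      refine h1.trans (card_le_card_of_injOn (fun j' => (j' - j0 * 2 ^ h).toNat)
        (fun j' hj' => ?_) (fun a ha b hb hab => ?_))
      · rw [Finset.mem_coe] at hj'
        have hdiv := alvs_div hj'
        have h2h : (0:ℤ) < 2 ^ h := by positivity
        have g1 : j0 * 2 ^ h ≤ j' := by rw [← hdiv]; exact Int.ediv_mul_le _ h2h.ne'
        have g2 : j' < (j0 + 1) * 2 ^ h := by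
          rw [← hdiv]; exact Int.lt_ediv_add_one_mul_self j' h2h
        obtain ⟨y, hy, hy1, hy2⟩ := alvs_alv hj'
        rw [Finset.mem_coe, mem_filter, mem_range]
        have g3 : (((j' - j0 * 2 ^ h).toNat : ℕ) : ℤ) = j' - j0 * 2 ^ h :=
          Int.toNat_of_nonneg (by linarith)
        refine ⟨?_, ?_⟩
        · have : (((j' - j0 * 2 ^ h).toNat : ℕ) : ℤ) < ((2 ^ h : ℕ) : ℤ) := by
            rw [g3]; push_cast; linarith
          exact_mod_cast this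
        · rw [hal']
          refine mem_image.2 ⟨y, mem_filter.2 ⟨hy, ?_⟩, hy1⟩
          rw [hy2, g3]; ring
      · rw [Finset.mem_coe] at ha hb
        have h2h : (0:ℤ) < 2 ^ h := by positivity
        have g1 : j0 * 2 ^ h ≤ a := by
          rw [← alvs_div ha]; exact Int.ediv_mul_le _ h2h.ne'
        have g2 : j0 * 2 ^ h ≤ b := by
          rw [← alvs_div hb]; exact Int.ediv_mul_le _ h2h.ne'
        have g3 : (((a - j0 * 2 ^ h).toNat : ℕ) : ℤ) = a - j0 * 2 ^ h :=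
          Int.toNat_of_nonneg (by linarith)
        have g4 : (((b - j0 * 2 ^ h).toNat : ℕ) : ℤ) = b - j0 * 2 ^ h :=
          Int.toNat_of_nonneg (by linarith)
        have hab' : (a - j0 * 2 ^ h).toNat = (b - j0 * 2 ^ h).toNat := hab
        rw [hab'] at g3
        linarith)
    (by
      intro a' w2' w1' ⟨b1, b2⟩ ⟨b3, b4⟩ ⟨b5, b6⟩
      have hp : (0:ℝ) < 2 ^ (4 * (M + h + 10)) := by positivity
      have ha' : 0 < a' := by
        by_contra hn; rw [not_lt] at hn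
        have := mul_nonpos_of_nonneg_of_nonpos hp.le hn
        linarith
      have h2' : 0 < w2' := by
        by_contra hn; rw [not_lt] at hn
        have := mul_nonpos_of_nonneg_of_nonpos hp.le hn
        linarith
      have h1' : 0 < w1' := by
        by_contra hn; rw [not_lt] at hn
        have := mul_nonpos_of_nonneg_of_nonpos hp.le hn
        linarith
      have e0 : (2:ℝ) ^ (4 * (M + h + 10)) = (2:ℝ) ^ (((4 * (M + h + 10) : ℕ) : ℝ)) :=
        (Real.rpow_natCast _ _).symm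
      rw [e0] at b1 b2 b3 b4 b5 b6
      have := rew_le q (m + h) (M - h) (B := ((4 * (M + h + 10) : ℕ) : ℝ)) pa ha' p2 h2' p1 h1'
        b1 b2 b3 b4 b5 b6
      have em : m + h + (M - h) = m + M := by omega
      rw [em] at this
      refine this.trans ?_
      show _ ≤ (2:ℝ) ^ (qs q * (5 * (M + h + 10))) * rew q (m + M) K.a (K.w 2) (K.w 1)
      have hrw : 0 ≤ rew q (m + M) K.a (K.w 2) (K.w 1) := by unfold rew; positivity
      refine mul_le_mul_of_nonneg_right ?_ hrw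
      refine Real.rpow_le_rpow_of_exponent_le (by norm_num) ?_
      have hqs : 0 ≤ qs q := by unfold qs; positivity
      refine mul_le_mul_of_nonneg_left ?_ hqs
      rw [Nat.cast_sub hhM]
      push_cast
      have : (0:ℝ) ≤ h := Nat.cast_nonneg h
      linarith)
  rw [← hTc]
  refine hmain.trans (le_of_eq ?_)
  rw [cap5_eq]
  ring

/-- objects of a class lie in its sheet -/
theorem cls_le {q : Fin 3 → ℝ} {F : Cf4} (h : Ok5 LegN q F) {x : Ln4 × ℝ} (hx : x ∈ F.I) :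
    ((F.cls x).card : ℝ) ≤ ((objs4 F.top F.I (F.K (F.cl (ob4 F.top x)))).card : ℝ) := by
  classical
  refine Nat.cast_le.2 (card_le_card fun o ho => ?_)
  unfold Cf4.cls at ho
  unfold objs4
  rw [mem_filter] at ho ⊢
  refine ⟨ho.1, ?_⟩
  obtain ⟨y, hy, rfl⟩ := mem_image.1 ho.1
  rw [← ho.2]
  exact h.mem y hy

/-- **the value is bounded** -/
theorem val_le_of {A k h : ℕ} (hU : UBf A k) (hkh : k ≤ h) (h7 : 7 ≤ h) {q : Fin 3 → ℝ}
    {F : Cf4} (hF : Ok5 LegN q F) (hhM : h ≤ F.M)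
    (hup : ∀ K, LegN (F.m + h) F.r F.Λm K →
      ((objs4 (F.m + h) F.I K).card : ℝ) ≤ F.D0 * cap5 q (F.m + h) K)
    (hal : ∀ x ∈ F.I, 2 ^ k ≤ (alvs F.m (F.m + h) F.I x.1 (zc4 F.m x.2)).card) :
    0 < F.D0 ∧ F.val ≤ 12 * (A + 5 * qs q) := by
  obtain ⟨x, hx⟩ := hF.ne
  have hM : (0:ℝ) < F.M := by
    have := hF.M1
    exact_mod_cast this
  have hM1 : (1:ℝ) ≤ F.M := by
    have := hF.M1
    exact_mod_cast this
  have hle : F.m + h ≤ F.top := by unfold Cf4.top; omega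
  have hri : F.r ≤ 1 / 2 ^ (F.m + h) := hF.rle.trans
    (one_div_le_one_div_of_le (by positivity) (pow_le_pow_right₀ one_le_two hle))
  have h1 := card_le_of hU hkh h7 hhM hF.r0 hF.Λ1 hri hup hal (hF.legal x hx)
  have h2 := hF.low x hx
  have h3 := cls_le hF hx
  have h1' : ((objs4 F.top F.I (F.K (F.cl (ob4 F.top x)))).card : ℝ) ≤ 2 ^ (A * (F.M + h + 10)) *
      (2:ℝ) ^ (qs q * (5 * (F.M + h + 10))) * F.D0 *
      cap5 q F.top (F.K (F.cl (ob4 F.top x))) := h1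
  have hcap : 0 < cap5 q F.top (F.K (F.cl (ob4 F.top x))) := by
    obtain ⟨a1, a2, a3⟩ := legN_pos hF.r0 (hF.legal x hx)
    exact cap5_pos a1 a2 a3
  have h4 : F.D1 * cap5 q F.top (F.K (F.cl (ob4 F.top x))) ≤
      (2 ^ (A * (F.M + h + 10)) * (2:ℝ) ^ (qs q * (5 * (F.M + h + 10))) * F.D0) *
      cap5 q F.top (F.K (F.cl (ob4 F.top x))) := h2.trans (h3.trans h1')
  have h5 := le_of_mul_le_mul_right h4 hcap
  have hX : (0:ℝ) < 2 ^ (A * (F.M + h + 10)) * (2:ℝ) ^ (qs q * (5 * (F.M + h + 10))) := by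
    positivity
  have hD0 : 0 < F.D0 := by
    by_contra hn
    rw [not_lt] at hn
    have := mul_nonpos_of_nonneg_of_nonpos hX.le hn
    have := hF.D1p
    linarith
  refine ⟨hD0, ?_⟩
  have hqs : 0 ≤ qs q := by unfold qs; positivity
  have h6 : F.D1 / F.D0 ≤ (2:ℝ) ^ (((A:ℝ) + 5 * qs q) * (F.M + h + 10)) := by
    rw [div_le_iff₀ hD0]
    refine h5.trans (le_of_eq ?_)
    congr 1
    rw [← Real.rpow_natCast, ← Real.rpow_add (by norm_num)]
    congr 1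
    push_cast
    ring
  have h7 : Real.logb 2 (F.D1 / F.D0) ≤ ((A:ℝ) + 5 * qs q) * (F.M + h + 10) := by
    have := Real.logb_le_logb_of_le one_lt_two (div_pos hF.D1p hD0) h6
    rwa [Real.logb_rpow (by norm_num) (by norm_num)] at this
  unfold Cf4.val
  rw [div_le_iff₀ hM]
  refine h7.trans ?_
  have hh : (h:ℝ) ≤ F.M := by exact_mod_cast hhM
  have hA : (0:ℝ) ≤ (A:ℝ) + 5 * qs q := by positivity
  calc ((A:ℝ) + 5 * qs q) * (F.M + h + 10) ≤ ((A:ℝ) + 5 * qs q) * (12 * F.M) := by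
        refine mul_le_mul_of_nonneg_left ?_ hA
        linarith
    _ = 12 * (A + 5 * qs q) * F.M := by ring

end

end Crest.Agent.R136.Val289
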