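import Crest.Agent.R136.Val1_289
import Crest.Agent.R136.KDef6_879

/-!
# R136 (V1) on `Ok6` (helper289)

`card_le6` : a legal C*-sheet of the top level contains at most `2^(...) D0 cap5` objects;
`val_le6` : `0 < D0` and `val ≤ 12 (A + 5 qs q)`.
-/

set_option autoImplicit false

open Finset

namespace Crest.Agent.R136.Val289

open Sh605 K4 KS879 En879

noncomputable section

variable {q : Fin 3 → ℝ} {F : Cf6}

/-- a line of an admissible configuration is alive in `2 ^ 20` cells of level `m + h` -/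
theorem ok6_alvs {Leg : ℕ → ℝ → ℝ → Plk4 → Prop} (h : Ok6 Leg q F) {x : Ln4 × ℝ}
    (hx : x ∈ F.I) : 2 ^ 20 ≤ (alvs F.m (F.m + F.h) F.I x.1 (zc4 F.m x.2)).card := by
  have h1 := h.own x hx
  have h2 : ownc4 F.m F.top F.I x ≤
      2 ^ (F.M - F.h) * (alvs F.m (F.m + F.h) F.I x.1 (zc4 F.m x.2)).card := own_alv h.hM x
  have h3 : 2 ^ (F.M + 20) ≤ 2 ^ F.M *
      (alvs F.m (F.m + F.h) F.I x.1 (zc4 F.m x.2)).card := by
    calc 2 ^ (F.M + 20) ≤ 2 ^ F.h * ownc4 F.m F.top F.I x := h1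
      _ ≤ 2 ^ F.h * (2 ^ (F.M - F.h) *
          (alvs F.m (F.m + F.h) F.I x.1 (zc4 F.m x.2)).card) := Nat.mul_le_mul_left _ h2
      _ = 2 ^ F.M * (alvs F.m (F.m + F.h) F.I x.1 (zc4 F.m x.2)).card := by
          rw [← mul_assoc, ← pow_add, Nat.add_sub_cancel' h.hM]
  rw [pow_add] at h3
  exact Nat.le_of_mul_le_mul_left h3 (by positivity)

variable {A k : ℕ}

/-- **(UB) for a configuration** -/
theorem card_le6 (hU : UBf A k) (hk : k ≤ 20) (h : Ok6 LegN q F) {K : Plk4}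
    (hK : LegN F.top F.r F.Λm K) :
    ((objs4 F.top F.I K).card : ℝ) ≤ 2 ^ (A * (F.M + F.h + 10)) *
      (2:ℝ) ^ (qs q * (5 * (F.M + F.h + 10))) * F.D0 * cap5 q F.top K := by
  have hle : F.m + F.h ≤ F.top := by unfold Cf4.top; have := h.hM; omega
  have hri : F.r ≤ 1 / 2 ^ (F.m + F.h) := h.rle.trans
    (one_div_le_one_div_of_le (by positivity) (pow_le_pow_right₀ one_le_two hle))
  refine card_le_of hU (hk.trans h.h20) (le_trans (by norm_num) h.h20) h.hM h.r0 h.Λ1 hri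
    (fun K hK => h.ups _ (Nat.le_add_right _ _) le_rfl K hK) (fun x hx => ?_) hK
  exact (pow_le_pow_right₀ (by norm_num) hk).trans (ok6_alvs h hx)

/-- **the value is bounded** -/
theorem val_le6 (hU : UBf A k) (hk : k ≤ 20) (h : Ok6 LegN q F) :
    0 < F.D0 ∧ F.toCf4.val ≤ 12 * (A + 5 * qs q) :=
  val_le_of hU (hk.trans h.h20) (le_trans (by norm_num) h.h20) h.toOk5 h.hM
    (fun K hK => h.ups _ (Nat.le_add_right _ _) le_rfl K hK)
    (fun _ hx => (pow_le_pow_right₀ (by norm_num) hk).trans (ok6_alvs h hx))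

end

end Crest.Agent.R136.Val289
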