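import Crest.Agent.R136.Val2_289
import Crest.Agent.R136.UB2_289

/-!
# R136 (V1), refined value bounds from the one-sided (UB) (helper289)

`card_core` : the objects of the top level in a legal sheet, general upper bound `X` for the
rewards of level `m + h`; `val_le7` : `val ≤ 12 (A + (B+1) qs q)`; `val_end` : for nonnegative rewards
`val ≤ 12 A + 12 B q0 - (q0 + q1 + q2) (1 - h/M)`.
-/

set_option autoImplicit false
set_option linter.unusedVariables false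

open Finset

namespace Crest.Agent.R136.Val289

open Sh605 K4 KS879 En879 UB289

noncomputable section

open Classical in
/-- **(UB) for a configuration**, general reward bound -/
theorem card_core {A B k m M h : ℕ} (hU : UBg A B k) (hkh : k ≤ h) (h7 : 7 ≤ h) (hhM : h ≤ M)
    {q : Fin 3 → ℝ} {r Λ D0 : ℝ} {I : Finset (Ln4 × ℝ)} (hr : 0 < r) (hΛ : 1 ≤ Λ)
    (hri : r ≤ 1 / 2 ^ (m + h))
    (hup : ∀ K, LegN (m + h) r Λ K → ((objs4 (m + h) I K).card : ℝ) ≤ D0 * cap5 q (m + h) K)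
    (hal : ∀ x ∈ I, 2 ^ k ≤ (alvs m (m + h) I x.1 (zc4 m x.2)).card)
    {K : Plk4} (hK : LegN (m + M) r Λ K) {X : ℝ} (hX : 0 ≤ X)
    (hR : ∀ a' w2' w1', (K.a ≤ a' ∧ a' ≤ 2 ^ (B * (M + h + 10)) * K.a) →
        (w2' ≤ K.w 2 ∧ K.w 2 ≤ 2 ^ (B * (M + h + 10)) * w2') →
        (w1' ≤ K.w 1 ∧ K.w 1 ≤ 2 ^ (B * (M + h + 10)) * w1') →
        rew q (m + h) a' w2' w1' ≤ X) :
    ((objs4 (m + M) I K).card : ℝ) ≤
      2 ^ (A * (M + h + 10)) * D0 * (K.a * K.w 2 * K.w 1 * X) := by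
  classical
  have hD := D0_nonneg hr hΛ hri hup
  obtain ⟨pa, p2, p1⟩ := legN_pos hr hK
  -- the data
  set j0 : ℤ := K.j / 2 ^ M with hj0
  have h2M : (0:ℤ) < 2 ^ M := by positivity
  have hd1 : j0 * 2 ^ M ≤ K.j := Int.ediv_mul_le _ h2M.ne'
  have hd2 : K.j + 1 ≤ (j0 + 1) * 2 ^ M := Int.lt_ediv_add_one_mul_self K.j h2M
  have hd1' : (j0:ℝ) * 2 ^ M ≤ K.j := by exact_mod_cast hd1
  have hd2' : (K.j:ℝ) + 1 ≤ ((j0:ℝ) + 1) * 2 ^ M := by exact_mod_cast hd2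
  set T : Finset Ln4 := (objs4 (m + M) I K).image Prod.fst with hT
  set al : ℕ → Finset Ln4 := fun j =>
    (I.filter fun y => zc4 (m + h) y.2 = j0 * 2 ^ h + j).image Prod.fst with hal'
  have hTc : T.card = (objs4 (m + M) I K).card := by
    rw [hT]
    refine card_image_of_injOn fun o ho o' ho' hoo => ?_
    rw [Finset.mem_coe] at ho ho'
    unfold objs4 at ho ho'
    rw [mem_filter] at ho ho'
    exact Prod.ext hoo (ho.2.1.trans ho'.2.1.symm)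
  have hTm : ∀ t ∈ T, ∃ x ∈ I, x.1 = t ∧ zc4 m x.2 = j0 ∧
      InSheet t K.e K.c K.w K.q K.a ((K.j : ℝ) / 2 ^ (m + M)) (1 / 2 ^ (m + M)) := by
    intro t ht
    obtain ⟨o, ho, rfl⟩ := mem_image.1 ht
    unfold objs4 at ho
    rw [mem_filter] at ho
    obtain ⟨ho1, ho2, ho3⟩ := ho
    obtain ⟨x, hx, rfl⟩ := mem_image.1 ho1
    refine ⟨x, hx, rfl, ?_, ho3⟩
    have : zc4 (m + M) x.2 = K.j := ho2
    rw [hj0, ← this, zc4_div]
  have hmp : (0:ℝ) < 2 ^ m := by positivity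
  have hMp : (0:ℝ) < 2 ^ M := by positivity
  have hhp : (0:ℝ) < 2 ^ h := by positivity
  have hmain := hU M h hkh h7 hhM (id : Ln4 → Ln4) T al ((j0:ℝ) / 2 ^ m) (1 / 2 ^ (m + M))
    (1 / 2 ^ (m + h)) r D0
    (fun _ _ _ => X)
    (rew q (m + h)) (by positivity) hr hD
    (by rw [pow_add, pow_add]; field_simp)
    (by
      intro j hj e c w q' a hS hw
      have hz : (j0:ℝ) / 2 ^ m + j * (1 / 2 ^ (m + h)) =
          ((j0 * 2 ^ h + j : ℤ) : ℝ) / 2 ^ (m + h) := by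
        push_cast
        rw [pow_add]
        field_simp
      rw [hz] at hS ⊢
      have h1 := hup ⟨j0 * 2 ^ h + j, e, c, w, q', a⟩ ⟨hS, hw⟩
      have h2 : (((al j).filter fun t => InSheet (id t) e c w q' a
          (((j0 * 2 ^ h + j : ℤ) : ℝ) / 2 ^ (m + h)) (1 / 2 ^ (m + h))).card : ℝ) ≤
          ((objs4 (m + h) I ⟨j0 * 2 ^ h + j, e, c, w, q', a⟩).card : ℝ) := by
        refine Nat.cast_le.2 (card_le_card_of_injOn (fun t => (t, j0 * 2 ^ h + (j:ℤ)))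
          (fun t ht => ?_) (fun t _ t' _ htt => (Prod.ext_iff.1 htt).1))
        rw [Finset.mem_coe, mem_filter] at ht
        obtain ⟨ht1, ht2⟩ := ht
        rw [hal'] at ht1
        obtain ⟨y, hy, rfl⟩ := mem_image.1 ht1
        rw [mem_filter] at hy
        rw [Finset.mem_coe]
        unfold objs4
        rw [mem_filter]
        refine ⟨mem_image.2 ⟨y, hy.1, ?_⟩, rfl, ht2⟩
        unfold ob4
        rw [hy.2]
      refine h2.trans (h1.trans (le_of_eq ?_))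
      rfl)
    K.e K.c K.w K.q K.a ((K.j : ℝ) / 2 ^ (m + M))
    (by
      rw [div_le_div_iff₀ hmp (by positivity), pow_add]
      nlinarith)
    (by
      rw [pow_add]
      have e1 : (K.j:ℝ) / (2 ^ m * 2 ^ M) + 1 / (2 ^ m * 2 ^ M) =
          ((K.j:ℝ) + 1) / (2 ^ m * 2 ^ M) := by ring
      have e2 : (j0:ℝ) / 2 ^ m + 2 ^ M * (1 / (2 ^ m * 2 ^ M)) =
          (((j0:ℝ) + 1) * 2 ^ M) / (2 ^ m * 2 ^ M) := by field_simp
      rw [e1, e2]
      exact div_le_div_of_nonneg_right hd2' (by positivity))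
    hK.1 hK.2
    (fun t ht => by obtain ⟨x, _, _, _, h4⟩ := hTm t ht; exact h4)
    (by
      intro t ht
      obtain ⟨x, hx, hxt, hxj, _⟩ := hTm t ht
      have h1 := hal x hx
      rw [hxt, hxj] at h1
      refine h1.trans (card_le_card_of_injOn (fun j' => (j' - j0 * 2 ^ h).toNat)
        (fun j' hj' => ?_) (fun a ha b hb hab => ?_))
      · rw [Finset.mem_coe] at hj'
        have hdiv := alvs_div hj'
        have h2h : (0:ℤ) < 2 ^ h := by positivity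
        have g1 : j0 * 2 ^ h ≤ j' := by rw [← hdiv]; exact Int.ediv_mul_le _ h2h.ne'
        have g2 : j' < (j0 + 1) * 2 ^ h := by
          rw [← hdiv]; exact Int.lt_ediv_add_one_mul_self j' h2h
        obtain ⟨y, hy, hy1, hy2⟩ := alvs_alv hj'
        rw [Finset.mem_coe, mem_filter, mem_range]
        have g3 : (((j' - j0 * 2 ^ h).toNat : ℕ) : ℤ) = j' - j0 * 2 ^ h :=
          Int.toNat_of_nonneg (by linarith)
        refine ⟨?_, ?_⟩
        · have : (((j' - j0 * 2 ^ h).toNat : ℕ) : ℤ) < ((2 ^ h : ℕ) : ℤ) := by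
            rw [g3]; push_cast; linarith
          exact_mod_cast this
        · rw [hal']
          refine mem_image.2 ⟨y, mem_filter.2 ⟨hy, ?_⟩, hy1⟩
          rw [hy2, g3]; ring
      · rw [Finset.mem_coe] at ha hb
        have h2h : (0:ℤ) < 2 ^ h := by positivity
        have g1 : j0 * 2 ^ h ≤ a := by
          rw [← alvs_div ha]; exact Int.ediv_mul_le _ h2h.ne'
        have g2 : j0 * 2 ^ h ≤ b := by
          rw [← alvs_div hb]; exact Int.ediv_mul_le _ h2h.ne'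
        have g3 : (((a - j0 * 2 ^ h).toNat : ℕ) : ℤ) = a - j0 * 2 ^ h :=
          Int.toNat_of_nonneg (by linarith)
        have g4 : (((b - j0 * 2 ^ h).toNat : ℕ) : ℤ) = b - j0 * 2 ^ h :=
          Int.toNat_of_nonneg (by linarith)
        have hab' : (a - j0 * 2 ^ h).toNat = (b - j0 * 2 ^ h).toNat := hab
        rw [hab'] at g3
        linarith)
    hX hR
  rw [← hTc]
  exact hmain

theorem pos_of_ratio {Y x w : ℝ} (hY : 0 < Y) (hw : 0 < w) (h : w ≤ Y * x) : 0 < x := by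
  by_contra hn
  rw [not_lt] at hn
  have := mul_nonpos_of_nonneg_of_nonpos hY.le hn
  linarith

/-- rewards of any sign -/
theorem rew_any {q : Fin 3 → ℝ} {B m M h : ℕ} (hhM : h ≤ M) {a w2 w1 : ℝ} (pa : 0 < a)
    (p2 : 0 < w2) (p1 : 0 < w1) (a' w2' w1' : ℝ)
    (h1 : a ≤ a' ∧ a' ≤ 2 ^ (B * (M + h + 10)) * a)
    (h2 : w2' ≤ w2 ∧ w2 ≤ 2 ^ (B * (M + h + 10)) * w2')
    (h3 : w1' ≤ w1 ∧ w1 ≤ 2 ^ (B * (M + h + 10)) * w1') :
    rew q (m + h) a' w2' w1' ≤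
      (2:ℝ) ^ (qs q * ((B + 1) * (M + h + 10))) * rew q (m + M) a w2 w1 := by
  have hY : (0:ℝ) < 2 ^ (B * (M + h + 10)) := by positivity
  have hY1 : (1:ℝ) ≤ 2 ^ (B * (M + h + 10)) := one_le_pow₀ (by norm_num)
  have qa : 0 < a' := pa.trans_le h1.1
  have q2 : 0 < w2' := pos_of_ratio hY p2 h2.2
  have q1 : 0 < w1' := pos_of_ratio hY p1 h3.2
  have e0 : (2:ℝ) ^ (B * (M + h + 10)) = (2:ℝ) ^ (((B * (M + h + 10) : ℕ) : ℝ)) :=
    (Real.rpow_natCast _ _).symm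
  have b2 : a ≤ 2 ^ (B * (M + h + 10)) * a' := h1.1.trans (le_mul_of_one_le_left qa.le hY1)
  have b3 : w2' ≤ 2 ^ (B * (M + h + 10)) * w2 := h2.1.trans (le_mul_of_one_le_left p2.le hY1)
  have b5 : w1' ≤ 2 ^ (B * (M + h + 10)) * w1 := h3.1.trans (le_mul_of_one_le_left p1.le hY1)
  have b1 := h1.2
  have b4 := h2.2
  have b6 := h3.2
  rw [e0] at b1 b2 b3 b4 b5 b6
  have := rew_le q (m + h) (M - h) (B := ((B * (M + h + 10) : ℕ) : ℝ)) pa qa p2 q2 p1 q1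
    b1 b2 b3 b4 b5 b6
  have em : m + h + (M - h) = m + M := by omega
  rw [em] at this
  refine this.trans ?_
  have hrw : 0 ≤ rew q (m + M) a w2 w1 := by unfold rew; positivity
  refine mul_le_mul_of_nonneg_right ?_ hrw
  refine Real.rpow_le_rpow_of_exponent_le (by norm_num) ?_
  have hqs : 0 ≤ qs q := by unfold qs; positivity
  refine mul_le_mul_of_nonneg_left ?_ hqs
  rw [Nat.cast_sub hhM]
  push_cast
  have : (0:ℝ) ≤ h := Nat.cast_nonneg h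
  linarith

/-- nonnegative rewards -/
theorem rew_pos {q : Fin 3 → ℝ} (hq : ∀ i, 0 ≤ q i) {B m M h : ℕ} (hhM : h ≤ M) {a w2 w1 : ℝ}
    (pa : 0 < a) (p2 : 0 < w2) (p1 : 0 < w1) (a' w2' w1' : ℝ)
    (h1 : a ≤ a' ∧ a' ≤ 2 ^ (B * (M + h + 10)) * a)
    (h2 : w2' ≤ w2 ∧ w2 ≤ 2 ^ (B * (M + h + 10)) * w2')
    (h3 : w1' ≤ w1 ∧ w1 ≤ 2 ^ (B * (M + h + 10)) * w1') :
    rew q (m + h) a' w2' w1' ≤
      (2:ℝ) ^ (q 0 * (B * (M + h + 10)) - (q 0 + q 1 + q 2) * (M - h)) *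
        rew q (m + M) a w2 w1 := by
  have hY : (0:ℝ) < 2 ^ (B * (M + h + 10)) := by positivity
  have qa : 0 < a' := pa.trans_le h1.1
  have q2 : 0 < w2' := pos_of_ratio hY p2 h2.2
  have q1 : 0 < w1' := pos_of_ratio hY p1 h3.2
  have hp : (0:ℝ) < 2 ^ (m + h) := by positivity
  have hpt : (0:ℝ) < 2 ^ (m + M) := by positivity
  have k0 : (a' * 2 ^ (m + h)) ^ q 0 ≤ (2 ^ (B * (M + h + 10)) * a * 2 ^ (m + h)) ^ q 0 :=
    Real.rpow_le_rpow (by positivity) (mul_le_mul_of_nonneg_right h1.2 hp.le) (hq 0)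
  have k1 : (w1' * 2 ^ (m + h)) ^ q 1 ≤ (w1 * 2 ^ (m + h)) ^ q 1 :=
    Real.rpow_le_rpow (by positivity) (mul_le_mul_of_nonneg_right h3.1 hp.le) (hq 1)
  have k2 : (w2' * 2 ^ (m + h)) ^ q 2 ≤ (w2 * 2 ^ (m + h)) ^ q 2 :=
    Real.rpow_le_rpow (by positivity) (mul_le_mul_of_nonneg_right h2.1 hp.le) (hq 2)
  have hs : ∀ (u p : ℝ), 0 < u → (u * 2 ^ (m + h)) ^ p =
      (2:ℝ) ^ (-(p * ((M:ℝ) - h))) * (u * 2 ^ (m + M)) ^ p := by
    intro u p hu
    have e1 : u * 2 ^ (m + h) = (2:ℝ) ^ (-((M:ℝ) - h)) * (u * 2 ^ (m + M)) := by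
      have e2 : (2:ℝ) ^ (m + M) = 2 ^ (m + h) * (2:ℝ) ^ ((M:ℝ) - h) := by
        rw [← Nat.cast_sub hhM, Real.rpow_natCast, ← pow_add]; congr 1; omega
      have e3 : (2:ℝ) ^ (-((M:ℝ) - h)) * (2:ℝ) ^ ((M:ℝ) - h) = 1 := by
        rw [← Real.rpow_add (by norm_num)]; simp
      rw [e2]
      calc u * 2 ^ (m + h) = (u * 2 ^ (m + h)) * 1 := by ring
        _ = (u * 2 ^ (m + h)) * ((2:ℝ) ^ (-((M:ℝ) - h)) * (2:ℝ) ^ ((M:ℝ) - h)) := by rw [e3]
        _ = _ := by ring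
    rw [e1, Real.mul_rpow (by positivity) (by positivity), ← Real.rpow_mul (by norm_num)]
    congr 2
    ring
  have hY' : (2 ^ (B * (M + h + 10)) * a * 2 ^ (m + h)) ^ q 0 =
      (2:ℝ) ^ (q 0 * (B * (M + h + 10))) * (a * 2 ^ (m + h)) ^ q 0 := by
    rw [mul_assoc, Real.mul_rpow (by positivity) (by positivity)]
    congr 1
    rw [← Real.rpow_natCast 2 (B * (M + h + 10)), ← Real.rpow_mul (by norm_num)]
    congr 1
    push_cast
    ring
  unfold rew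
  calc (a' * 2 ^ (m + h)) ^ q 0 * (w1' * 2 ^ (m + h)) ^ q 1 * (w2' * 2 ^ (m + h)) ^ q 2
      ≤ (2 ^ (B * (M + h + 10)) * a * 2 ^ (m + h)) ^ q 0 * (w1 * 2 ^ (m + h)) ^ q 1 *
        (w2 * 2 ^ (m + h)) ^ q 2 := by gcongr
    _ = ((2:ℝ) ^ (q 0 * (B * (M + h + 10))) * (2:ℝ) ^ (-(q 0 * ((M:ℝ) - h))) *
          (2:ℝ) ^ (-(q 1 * ((M:ℝ) - h))) * (2:ℝ) ^ (-(q 2 * ((M:ℝ) - h)))) *
        ((a * 2 ^ (m + M)) ^ q 0 * (w1 * 2 ^ (m + M)) ^ q 1 * (w2 * 2 ^ (m + M)) ^ q 2) := by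
        rw [hY', hs a (q 0) pa, hs w1 (q 1) p1, hs w2 (q 2) p2]; ring
    _ = _ := by
        rw [← Real.rpow_add (by norm_num), ← Real.rpow_add (by norm_num),
          ← Real.rpow_add (by norm_num)]
        congr 2
        ring

variable {q : Fin 3 → ℝ} {F : Cf6} {A B k : ℕ}

/-- value from a bound of the rewards: `rew_{m+h} ≤ 2^E rew_top` for the top sheet -/
theorem val_core (hU : UBg A B k) (hk : k ≤ 20) (h : Ok6 LegN q F) {E : ℝ}
    (hE : ∀ a w2 w1 : ℝ, 0 < a → 0 < w2 → 0 < w1 → ∀ a' w2' w1' : ℝ,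
      (a ≤ a' ∧ a' ≤ 2 ^ (B * (F.M + F.h + 10)) * a) →
      (w2' ≤ w2 ∧ w2 ≤ 2 ^ (B * (F.M + F.h + 10)) * w2') →
      (w1' ≤ w1 ∧ w1 ≤ 2 ^ (B * (F.M + F.h + 10)) * w1') →
      rew q (F.m + F.h) a' w2' w1' ≤ (2:ℝ) ^ E * rew q (F.m + F.M) a w2 w1) :
    0 < F.D0 ∧ (∀ K, LegN F.top F.r F.Λm K → ((objs4 F.top F.I K).card : ℝ) ≤
      2 ^ (A * (F.M + F.h + 10)) * (2:ℝ) ^ E * F.D0 * cap5 q F.top K) ∧
    F.toCf4.val * F.M ≤ A * (F.M + F.h + 10) + E := by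
  have hle : F.m + F.h ≤ F.top := by unfold Cf4.top; have := h.hM; omega
  have hri : F.r ≤ 1 / 2 ^ (F.m + F.h) := h.rle.trans
    (one_div_le_one_div_of_le (by positivity) (pow_le_pow_right₀ one_le_two hle))
  have hup : ∀ K, LegN (F.m + F.h) F.r F.Λm K →
      ((objs4 (F.m + F.h) F.I K).card : ℝ) ≤ F.D0 * cap5 q (F.m + F.h) K :=
    fun K hK => h.ups _ (Nat.le_add_right _ _) le_rfl K hK
  have hcard : ∀ K, LegN F.top F.r F.Λm K → ((objs4 F.top F.I K).card : ℝ) ≤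
      2 ^ (A * (F.M + F.h + 10)) * (2:ℝ) ^ E * F.D0 * cap5 q F.top K := by
    intro K hK
    obtain ⟨pa, p2, p1⟩ := legN_pos h.r0 hK
    have h1 := card_core hU (hk.trans h.h20) (le_trans (by norm_num) h.h20) h.hM h.r0 h.Λ1 hri
      hup (fun x hx => (pow_le_pow_right₀ (by norm_num) hk).trans (ok6_alvs h hx)) hK
      (X := (2:ℝ) ^ E * rew q (F.m + F.M) K.a (K.w 2) (K.w 1))
      (by unfold rew; positivity) (hE _ _ _ pa p2 p1)
    refine h1.trans (le_of_eq ?_)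
    rw [cap5_eq]
    show _ = 2 ^ (A * (F.M + F.h + 10)) * (2:ℝ) ^ E * F.D0 *
      (K.a * K.w 2 * K.w 1 * rew q (F.m + F.M) K.a (K.w 2) (K.w 1))
    ring
  obtain ⟨x, hx⟩ := h.ne
  have hM : (0:ℝ) < F.M := by
    have := h.M1
    exact_mod_cast this
  have h1 := hcard _ (h.legal x hx)
  have h2 := h.low x hx
  have h3 := cls_le h.toOk5 hx
  have hcap : 0 < cap5 q F.top (F.K (F.cl (ob4 F.top x))) := by
    obtain ⟨a1, a2, a3⟩ := legN_pos h.r0 (h.legal x hx)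
    exact cap5_pos a1 a2 a3
  have h5 := le_of_mul_le_mul_right (h2.trans (h3.trans h1)) hcap
  have hX : (0:ℝ) < 2 ^ (A * (F.M + F.h + 10)) * (2:ℝ) ^ E := by positivity
  have hD0 : 0 < F.D0 := by
    by_contra hn
    rw [not_lt] at hn
    have := mul_nonpos_of_nonneg_of_nonpos hX.le hn
    have := h.D1p
    linarith
  refine ⟨hD0, hcard, ?_⟩
  have h6 : F.D1 / F.D0 ≤ (2:ℝ) ^ ((A:ℝ) * (F.M + F.h + 10) + E) := by
    rw [div_le_iff₀ hD0]
    refine h5.trans (le_of_eq ?_)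
    congr 1
    rw [← Real.rpow_natCast, ← Real.rpow_add (by norm_num)]
    congr 1
    push_cast
    ring
  have h7 : Real.logb 2 (F.D1 / F.D0) ≤ (A:ℝ) * (F.M + F.h + 10) + E := by
    have := Real.logb_le_logb_of_le one_lt_two (div_pos h.D1p hD0) h6
    rwa [Real.logb_rpow (by norm_num) (by norm_num)] at this
  unfold Cf4.val
  rw [div_mul_cancel₀ _ hM.ne']
  exact h7

/-- **the value is bounded**, rewards of any sign -/
theorem val_le7 (hU : UBg A B k) (hk : k ≤ 20) (h : Ok6 LegN q F) :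
    F.toCf4.val ≤ 12 * (A + (B + 1) * qs q) := by
  have hM1 : (1:ℝ) ≤ F.M := by
    have := h.M1
    exact_mod_cast this
  have hh : (F.h:ℝ) ≤ F.M := by exact_mod_cast h.hM
  have hqs : 0 ≤ qs q := by unfold qs; positivity
  obtain ⟨_, _, h3⟩ := val_core hU hk h (E := qs q * ((B + 1) * (F.M + F.h + 10)))
    (fun a w2 w1 pa p2 p1 a' w2' w1' => rew_any h.hM pa p2 p1 a' w2' w1')
  have h4 : F.toCf4.val * F.M ≤ 12 * (A + (B + 1) * qs q) * F.M := by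
    refine h3.trans ?_
    have e : (A:ℝ) * (F.M + F.h + 10) + qs q * ((B + 1) * (F.M + F.h + 10)) =
        (A + (B + 1) * qs q) * (F.M + F.h + 10) := by ring
    rw [e]
    have h5 : (0:ℝ) ≤ A + (B + 1) * qs q := by positivity
    have h6 : (F.M:ℝ) + F.h + 10 ≤ 12 * F.M := by linarith
    calc (A + (B + 1) * qs q) * (F.M + F.h + 10) ≤ (A + (B + 1) * qs q) * (12 * F.M) :=
          mul_le_mul_of_nonneg_left h6 h5
      _ = _ := by ring
  exact le_of_mul_le_mul_right h4 (by linarith)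

/-- **the value for nonnegative rewards** -/
theorem val_end (hU : UBg A B k) (hk : k ≤ 20) (h : Ok6 LegN q F) (hq : ∀ i, 0 ≤ q i) :
    F.toCf4.val ≤ (A + B * q 0) * (1 + 3 / 2 * (F.h / F.M)) -
      (q 0 + q 1 + q 2) * (1 - F.h / F.M) := by
  have hM1 : (1:ℝ) ≤ F.M := by
    have := h.M1
    exact_mod_cast this
  have hh : (20:ℝ) ≤ F.h := by exact_mod_cast h.h20
  obtain ⟨_, _, h3⟩ := val_core hU hk h
    (E := q 0 * (B * (F.M + F.h + 10)) - (q 0 + q 1 + q 2) * (F.M - F.h))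
    (fun a w2 w1 pa p2 p1 a' w2' w1' => rew_pos hq h.hM pa p2 p1 a' w2' w1')
  have h4 : F.toCf4.val * F.M ≤
      ((A + B * q 0) * (1 + 3 / 2 * (F.h / F.M)) - (q 0 + q 1 + q 2) * (1 - F.h / F.M)) *
        F.M := by
    refine h3.trans ?_
    have e1 : (((A:ℝ) + B * q 0) * (1 + 3 / 2 * (F.h / F.M)) -
        (q 0 + q 1 + q 2) * (1 - F.h / F.M)) * F.M =
        (A + B * q 0) * (F.M + 3 / 2 * F.h) - (q 0 + q 1 + q 2) * (F.M - F.h) := by
      have : (F.M:ℝ) ≠ 0 := by linarith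
      field_simp
    have e2 : (A:ℝ) * (F.M + F.h + 10) +
        (q 0 * (B * (F.M + F.h + 10)) - (q 0 + q 1 + q 2) * (F.M - F.h)) =
        (A + B * q 0) * (F.M + F.h + 10) - (q 0 + q 1 + q 2) * (F.M - F.h) := by ring
    rw [e1, e2]
    have h5 : (0:ℝ) ≤ A + B * q 0 := by have := hq 0; positivity
    have h6 : (F.M:ℝ) + F.h + 10 ≤ F.M + 3 / 2 * F.h := by linarith
    have := mul_le_mul_of_nonneg_left h6 h5
    linarith
  exact le_of_mul_le_mul_right h4 (by linarith)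

/-- the end point of the interval of rewards: the hypothesis `hw` of `Bet_879` -/
theorem val_hw (hU : UBg A B k) (hk : k ≤ 20) {Q : ℝ} (hQ : 0 ≤ Q) {F : Cf6}
    (h : Ok6 LegN ![0, Q, 0] F) :
    F.toCf4.val ≤ 3 / 2 * A * (1 + F.h / F.M) - Q * (1 - F.h / F.M) := by
  have hM1 : (1:ℝ) ≤ F.M := by
    have := h.M1
    exact_mod_cast this
  have h1 := val_end hU hk h (by
    intro i
    fin_cases i
    · exact le_rfl
    · exact hQ
    · exact le_rfl)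
  have e0 : (![0, Q, 0] : Fin 3 → ℝ) 0 = 0 := rfl
  have e1 : (![0, Q, 0] : Fin 3 → ℝ) 1 = Q := rfl
  have e2 : (![0, Q, 0] : Fin 3 → ℝ) 2 = 0 := rfl
  rw [e0, e1, e2] at h1
  have h2 : (0:ℝ) ≤ F.h / F.M := by positivity
  have h3 : (0:ℝ) ≤ A := Nat.cast_nonneg A
  calc F.toCf4.val ≤ (A + B * 0) * (1 + 3 / 2 * (F.h / F.M)) - (0 + Q + 0) * (1 - F.h / F.M) := h1
    _ ≤ _ := by linarith

/-! ### from the one-sheet lemma -/

/-- **(V1)** all rewards -/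
theorem v1_any (hone : UbOne) (q : Fin 3 → ℝ) : ∃ C : ℝ, ∀ F : Cf6, Ok6 LegN q F →
    F.toCf4.val ≤ C :=
  ⟨12 * ((22:ℕ) + ((3:ℕ) + 1) * qs q), fun F h => val_le7 (ubg hone) (by norm_num) h⟩

/-- **(V1)** nonnegative rewards -/
theorem v1_pos (hone : UbOne) {q : Fin 3 → ℝ} (hq : ∀ i, 0 ≤ q i) {F : Cf6}
    (h : Ok6 LegN q F) :
    F.toCf4.val ≤ (22 + 3 * q 0) * (1 + 3 / 2 * (F.h / F.M)) -
      (q 0 + q 1 + q 2) * (1 - F.h / F.M) := by
  have := val_end (ubg hone) (by norm_num) h hq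
  push_cast at this
  exact this

/-- **(V1)** end point -/
theorem v1_end (hone : UbOne) {Q : ℝ} (hQ : 33 ≤ Q) {F : Cf6} (h : Ok6 LegN ![0, Q, 0] F) :
    F.toCf4.val ≤ 33 * (1 + F.h / F.M) - Q * (1 - F.h / F.M) := by
  have h1 := val_hw (ubg hone) (by norm_num) (by linarith : (0:ℝ) ≤ Q) h
  have e : (3:ℝ) / 2 * ((22:ℕ) : ℝ) = 33 := by norm_num
  rwa [e] at h1

end

end Crest.Agent.R136.Val289
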