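import Crest.Agent.R136.Val3_289
import Crest.Agent.R136.UB4_289

/-!
# R136 (V1) for a general class of sheets (helper289)

`LegOf Cl Leg` : `Leg m r Λ K` iff `K` is a `Cl`-sheet over its cell with `w 1 ≤ 2^-m`.
`card_coreG`, `val_coreG`, `val_le7G`, `val_endG`, `val_hwG`, `hUB_G` (form of `Win823.ups_all`).
-/

set_option autoImplicit false
set_option linter.unusedVariables false

open Finset

namespace Crest.Agent.R136.Val289

open Sh605 K4 KS879 En879 UB289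

noncomputable section

/-- the legality predicate of a class -/
structure LegOf (Cl : Cls) (Leg : ℕ → ℝ → ℝ → Plk4 → Prop) : Prop where
  iff : ∀ (m : ℕ) (r Λ : ℝ) (K : Plk4), Leg m r Λ K ↔
    Cl K.e K.c K.w K.q K.a ((K.j : ℝ) / 2 ^ m) (1 / 2 ^ m) r ∧ K.w 1 ≤ 1 / 2 ^ m
  cube : ∀ (m : ℕ) (r Λ : ℝ) (o : Ln4 × ℤ), 0 < r → 1 ≤ Λ → r ≤ 1 / 2 ^ m →
    Leg m r Λ (cubeK r o)
  pos : Pos Cl

theorem legOf_N : LegOf ShN LegN where
  iff := fun _ _ _ _ => Iff.rfl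
  cube := fun m r Λ o hr hΛ hri => clsOK_N.cube m r Λ o hr hΛ hri
  pos := pos_shN

variable {Cl : Cls} {Leg : ℕ → ℝ → ℝ → Plk4 → Prop}

theorem leg_posG (hL : LegOf Cl Leg) {m : ℕ} {r Λ : ℝ} {K : Plk4} (hr : 0 < r)
    (h : Leg m r Λ K) : 0 < K.a ∧ 0 < K.w 2 ∧ 0 < K.w 1 := by
  have h0 := (hL.iff m r Λ K).1 h
  have h1 := hL.pos.wpos h0.1 hr
  exact ⟨hr.trans_le (hL.pos.r0_le h0.1), h1 2, h1 1⟩

theorem D0_nonnegG (hL : LegOf Cl Leg) {q : Fin 3 → ℝ} {i : ℕ} {r Λ D0 : ℝ}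
    {I : Finset (Ln4 × ℝ)} (hr : 0 < r) (hΛ : 1 ≤ Λ) (hri : r ≤ 1 / 2 ^ i)
    (hup : ∀ K, Leg i r Λ K → ((objs4 i I K).card : ℝ) ≤ D0 * cap5 q i K) : 0 ≤ D0 := by
  have h1 : Leg i r Λ (cubeK r (⟨0, 0⟩, 0)) := hL.cube i r Λ _ hr hΛ hri
  have h2 := hup _ h1
  have h3 : 0 < cap5 q i (cubeK r (⟨0, 0⟩, 0)) := by
    obtain ⟨a1, a2, a3⟩ := leg_posG hL hr h1
    exact cap5_pos a1 a2 a3
  by_contra h4
  rw [not_le] at h4
  have h5 := mul_neg_of_neg_of_pos h4 h3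
  have h6 : (0:ℝ) ≤ ((objs4 i I (cubeK r (⟨0, 0⟩, 0))).card : ℝ) := Nat.cast_nonneg _
  linarith

open Classical in
/-- **(UB) for a configuration**, general reward bound -/
theorem card_coreG (hL : LegOf Cl Leg) {A B k m M h : ℕ} (hU : UBgG Cl A B k) (hkh : k ≤ h) (h7 : 7 ≤ h) (hhM : h ≤ M)
    {q : Fin 3 → ℝ} {r Λ D0 : ℝ} {I : Finset (Ln4 × ℝ)} (hr : 0 < r) (hΛ : 1 ≤ Λ)
    (hri : r ≤ 1 / 2 ^ (m + h))
    (hup : ∀ K, Leg (m + h) r Λ K → ((objs4 (m + h) I K).card : ℝ) ≤ D0 * cap5 q (m + h) K)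
    (hal : ∀ x ∈ I, 2 ^ k ≤ (alvs m (m + h) I x.1 (zc4 m x.2)).card)
    {K : Plk4} (hK : Leg (m + M) r Λ K) {X : ℝ} (hX : 0 ≤ X)
    (hR : ∀ a' w2' w1', (K.a ≤ a' ∧ a' ≤ 2 ^ (B * (M + h + 10)) * K.a) →
        (w2' ≤ K.w 2 ∧ K.w 2 ≤ 2 ^ (B * (M + h + 10)) * w2') →
        (w1' ≤ K.w 1 ∧ K.w 1 ≤ 2 ^ (B * (M + h + 10)) * w1') →
        rew q (m + h) a' w2' w1' ≤ X) :
    ((objs4 (m + M) I K).card : ℝ) ≤
      2 ^ (A * (M + h + 10)) * D0 * (K.a * K.w 2 * K.w 1 * X) := by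
  classical
  have hD := D0_nonnegG hL hr hΛ hri hup
  obtain ⟨pa, p2, p1⟩ := leg_posG hL hr hK
  -- the data
  set j0 : ℤ := K.j / 2 ^ M with hj0
  have h2M : (0:ℤ) < 2 ^ M := by positivity
  have hd1 : j0 * 2 ^ M ≤ K.j := Int.ediv_mul_le _ h2M.ne'
  have hd2 : K.j + 1 ≤ (j0 + 1) * 2 ^ M := Int.lt_ediv_add_one_mul_self K.j h2M
  have hd1' : (j0:ℝ) * 2 ^ M ≤ K.j := by exact_mod_cast hd1
  have hd2' : (K.j:ℝ) + 1 ≤ ((j0:ℝ) + 1) * 2 ^ M := by exact_mod_cast hd2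
  set T : Finset Ln4 := (objs4 (m + M) I K).image Prod.fst with hT
  set al : ℕ → Finset Ln4 := fun j =>
    (I.filter fun y => zc4 (m + h) y.2 = j0 * 2 ^ h + j).image Prod.fst with hal'
  have hTc : T.card = (objs4 (m + M) I K).card := by
    rw [hT]
    refine card_image_of_injOn fun o ho o' ho' hoo => ?_
    rw [Finset.mem_coe] at ho ho'
    unfold objs4 at ho ho'
    rw [mem_filter] at ho ho'
    exact Prod.ext hoo (ho.2.1.trans ho'.2.1.symm)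
  have hTm : ∀ t ∈ T, ∃ x ∈ I, x.1 = t ∧ zc4 m x.2 = j0 ∧
      InSheet t K.e K.c K.w K.q K.a ((K.j : ℝ) / 2 ^ (m + M)) (1 / 2 ^ (m + M)) := by
    intro t ht
    obtain ⟨o, ho, rfl⟩ := mem_image.1 ht
    unfold objs4 at ho
    rw [mem_filter] at ho
    obtain ⟨ho1, ho2, ho3⟩ := ho
    obtain ⟨x, hx, rfl⟩ := mem_image.1 ho1
    refine ⟨x, hx, rfl, ?_, ho3⟩
    have : zc4 (m + M) x.2 = K.j := ho2
    rw [hj0, ← this, zc4_div]
  have hmp : (0:ℝ) < 2 ^ m := by positivity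
  have hMp : (0:ℝ) < 2 ^ M := by positivity
  have hhp : (0:ℝ) < 2 ^ h := by positivity
  have hmain := hU M h hkh h7 hhM (id : Ln4 → Ln4) T al ((j0:ℝ) / 2 ^ m) (1 / 2 ^ (m + M))
    (1 / 2 ^ (m + h)) r D0
    (fun _ _ _ => X)
    (rew q (m + h)) (by positivity) hr hD
    (by rw [pow_add, pow_add]; field_simp)
    (by
      intro j hj e c w q' a hS hw
      have hz : (j0:ℝ) / 2 ^ m + j * (1 / 2 ^ (m + h)) =
          ((j0 * 2 ^ h + j : ℤ) : ℝ) / 2 ^ (m + h) := by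
        push_cast
        rw [pow_add]
        field_simp
      rw [hz] at hS ⊢
      have h1 := hup ⟨j0 * 2 ^ h + j, e, c, w, q', a⟩ ((hL.iff _ _ _ _).2 ⟨hS, hw⟩)
      have h2 : (((al j).filter fun t => InSheet (id t) e c w q' a
          (((j0 * 2 ^ h + j : ℤ) : ℝ) / 2 ^ (m + h)) (1 / 2 ^ (m + h))).card : ℝ) ≤
          ((objs4 (m + h) I ⟨j0 * 2 ^ h + j, e, c, w, q', a⟩).card : ℝ) := by
        refine Nat.cast_le.2 (card_le_card_of_injOn (fun t => (t, j0 * 2 ^ h + (j:ℤ)))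
          (fun t ht => ?_) (fun t _ t' _ htt => (Prod.ext_iff.1 htt).1))
        rw [Finset.mem_coe, mem_filter] at ht
        obtain ⟨ht1, ht2⟩ := ht
        rw [hal'] at ht1
        obtain ⟨y, hy, rfl⟩ := mem_image.1 ht1
        rw [mem_filter] at hy
        rw [Finset.mem_coe]
        unfold objs4
        rw [mem_filter]
        refine ⟨mem_image.2 ⟨y, hy.1, ?_⟩, rfl, ht2⟩
        unfold ob4
        rw [hy.2]
      refine h2.trans (h1.trans (le_of_eq ?_))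
      rfl)
    K.e K.c K.w K.q K.a ((K.j : ℝ) / 2 ^ (m + M))
    (by
      rw [div_le_div_iff₀ hmp (by positivity), pow_add]
      nlinarith)
    (by
      rw [pow_add]
      have e1 : (K.j:ℝ) / (2 ^ m * 2 ^ M) + 1 / (2 ^ m * 2 ^ M) =
          ((K.j:ℝ) + 1) / (2 ^ m * 2 ^ M) := by ring
      have e2 : (j0:ℝ) / 2 ^ m + 2 ^ M * (1 / (2 ^ m * 2 ^ M)) =
          (((j0:ℝ) + 1) * 2 ^ M) / (2 ^ m * 2 ^ M) := by field_simp
      rw [e1, e2]
      exact div_le_div_of_nonneg_right hd2' (by positivity))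
    ((hL.iff _ _ _ _).1 hK).1 ((hL.iff _ _ _ _).1 hK).2
    (fun t ht => by obtain ⟨x, _, _, _, h4⟩ := hTm t ht; exact h4)
    (by
      intro t ht
      obtain ⟨x, hx, hxt, hxj, _⟩ := hTm t ht
      have h1 := hal x hx
      rw [hxt, hxj] at h1
      refine h1.trans (card_le_card_of_injOn (fun j' => (j' - j0 * 2 ^ h).toNat)
        (fun j' hj' => ?_) (fun a ha b hb hab => ?_))
      · rw [Finset.mem_coe] at hj'
        have hdiv := alvs_div hj'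
        have h2h : (0:ℤ) < 2 ^ h := by positivity
        have g1 : j0 * 2 ^ h ≤ j' := by rw [← hdiv]; exact Int.ediv_mul_le _ h2h.ne'
        have g2 : j' < (j0 + 1) * 2 ^ h := by
          rw [← hdiv]; exact Int.lt_ediv_add_one_mul_self j' h2h
        obtain ⟨y, hy, hy1, hy2⟩ := alvs_alv hj'
        rw [Finset.mem_coe, mem_filter, mem_range]
        have g3 : (((j' - j0 * 2 ^ h).toNat : ℕ) : ℤ) = j' - j0 * 2 ^ h :=
          Int.toNat_of_nonneg (by linarith)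
        refine ⟨?_, ?_⟩
        · have : (((j' - j0 * 2 ^ h).toNat : ℕ) : ℤ) < ((2 ^ h : ℕ) : ℤ) := by
            rw [g3]; push_cast; linarith
          exact_mod_cast this
        · rw [hal']
          refine mem_image.2 ⟨y, mem_filter.2 ⟨hy, ?_⟩, hy1⟩
          rw [hy2, g3]; ring
      · rw [Finset.mem_coe] at ha hb
        have h2h : (0:ℤ) < 2 ^ h := by positivity
        have g1 : j0 * 2 ^ h ≤ a := by
          rw [← alvs_div ha]; exact Int.ediv_mul_le _ h2h.ne'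
        have g2 : j0 * 2 ^ h ≤ b := by
          rw [← alvs_div hb]; exact Int.ediv_mul_le _ h2h.ne'
        have g3 : (((a - j0 * 2 ^ h).toNat : ℕ) : ℤ) = a - j0 * 2 ^ h :=
          Int.toNat_of_nonneg (by linarith)
        have g4 : (((b - j0 * 2 ^ h).toNat : ℕ) : ℤ) = b - j0 * 2 ^ h :=
          Int.toNat_of_nonneg (by linarith)
        have hab' : (a - j0 * 2 ^ h).toNat = (b - j0 * 2 ^ h).toNat := hab
        rw [hab'] at g3
        linarith)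
    hX hR
  rw [← hTc]
  exact hmain

variable {q : Fin 3 → ℝ} {F : Cf6} {A B k : ℕ}

/-- value from a bound of the rewards: `rew_{m+h} ≤ 2^E rew_top` for the top sheet -/
theorem val_coreG (hL : LegOf Cl Leg) (hU : UBgG Cl A B k) (hk : k ≤ 20) (h : Ok6 Leg q F) {E : ℝ}
    (hE : ∀ a w2 w1 : ℝ, 0 < a → 0 < w2 → 0 < w1 → ∀ a' w2' w1' : ℝ,
      (a ≤ a' ∧ a' ≤ 2 ^ (B * (F.M + F.h + 10)) * a) →
      (w2' ≤ w2 ∧ w2 ≤ 2 ^ (B * (F.M + F.h + 10)) * w2') →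
      (w1' ≤ w1 ∧ w1 ≤ 2 ^ (B * (F.M + F.h + 10)) * w1') →
      rew q (F.m + F.h) a' w2' w1' ≤ (2:ℝ) ^ E * rew q (F.m + F.M) a w2 w1) :
    0 < F.D0 ∧ (∀ K, Leg F.top F.r F.Λm K → ((objs4 F.top F.I K).card : ℝ) ≤
      2 ^ (A * (F.M + F.h + 10)) * (2:ℝ) ^ E * F.D0 * cap5 q F.top K) ∧
    F.toCf4.val * F.M ≤ A * (F.M + F.h + 10) + E := by
  have hle : F.m + F.h ≤ F.top := by unfold Cf4.top; have := h.hM; omega
  have hri : F.r ≤ 1 / 2 ^ (F.m + F.h) := h.rle.trans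
    (one_div_le_one_div_of_le (by positivity) (pow_le_pow_right₀ one_le_two hle))
  have hup : ∀ K, Leg (F.m + F.h) F.r F.Λm K →
      ((objs4 (F.m + F.h) F.I K).card : ℝ) ≤ F.D0 * cap5 q (F.m + F.h) K :=
    fun K hK => h.ups _ (Nat.le_add_right _ _) le_rfl K hK
  have hcard : ∀ K, Leg F.top F.r F.Λm K → ((objs4 F.top F.I K).card : ℝ) ≤
      2 ^ (A * (F.M + F.h + 10)) * (2:ℝ) ^ E * F.D0 * cap5 q F.top K := by
    intro K hK
    obtain ⟨pa, p2, p1⟩ := leg_posG hL h.r0 hK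
    have h1 := card_coreG hL hU (hk.trans h.h20) (le_trans (by norm_num) h.h20) h.hM h.r0 h.Λ1 hri
      hup (fun x hx => (pow_le_pow_right₀ (by norm_num) hk).trans (ok6_alvs h hx)) hK
      (X := (2:ℝ) ^ E * rew q (F.m + F.M) K.a (K.w 2) (K.w 1))
      (by unfold rew; positivity) (hE _ _ _ pa p2 p1)
    refine h1.trans (le_of_eq ?_)
    rw [cap5_eq]
    show _ = 2 ^ (A * (F.M + F.h + 10)) * (2:ℝ) ^ E * F.D0 *
      (K.a * K.w 2 * K.w 1 * rew q (F.m + F.M) K.a (K.w 2) (K.w 1))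
    ring
  obtain ⟨x, hx⟩ := h.ne
  have hM : (0:ℝ) < F.M := by
    have := h.M1
    exact_mod_cast this
  have h1 := hcard _ (h.legal x hx)
  have h2 := h.low x hx
  have h3 : ((F.cls x).card : ℝ) ≤
      ((objs4 F.top F.I (F.K (F.cl (ob4 F.top x)))).card : ℝ) := by
    classical
    refine Nat.cast_le.2 (card_le_card fun o ho => ?_)
    unfold Cf4.cls at ho
    unfold objs4
    rw [mem_filter] at ho ⊢
    refine ⟨ho.1, ?_⟩
    obtain ⟨y, hy, rfl⟩ := mem_image.1 ho.1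
    rw [← ho.2]
    exact h.mem y hy
  have hcap : 0 < cap5 q F.top (F.K (F.cl (ob4 F.top x))) := by
    obtain ⟨a1, a2, a3⟩ := leg_posG hL h.r0 (h.legal x hx)
    exact cap5_pos a1 a2 a3
  have h5 := le_of_mul_le_mul_right (h2.trans (h3.trans h1)) hcap
  have hX : (0:ℝ) < 2 ^ (A * (F.M + F.h + 10)) * (2:ℝ) ^ E := by positivity
  have hD0 : 0 < F.D0 := by
    by_contra hn
    rw [not_lt] at hn
    have := mul_nonpos_of_nonneg_of_nonpos hX.le hn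
    have := h.D1p
    linarith
  refine ⟨hD0, hcard, ?_⟩
  have h6 : F.D1 / F.D0 ≤ (2:ℝ) ^ ((A:ℝ) * (F.M + F.h + 10) + E) := by
    rw [div_le_iff₀ hD0]
    refine h5.trans (le_of_eq ?_)
    congr 1
    rw [← Real.rpow_natCast, ← Real.rpow_add (by norm_num)]
    congr 1
    push_cast
    ring
  have h7 : Real.logb 2 (F.D1 / F.D0) ≤ (A:ℝ) * (F.M + F.h + 10) + E := by
    have := Real.logb_le_logb_of_le one_lt_two (div_pos h.D1p hD0) h6
    rwa [Real.logb_rpow (by norm_num) (by norm_num)] at this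
  unfold Cf4.val
  rw [div_mul_cancel₀ _ hM.ne']
  exact h7

/-- **the value is bounded**, rewards of any sign -/
theorem val_le7G (hL : LegOf Cl Leg) (hU : UBgG Cl A B k) (hk : k ≤ 20) (h : Ok6 Leg q F) :
    F.toCf4.val ≤ 12 * (A + (B + 1) * qs q) := by
  have hM1 : (1:ℝ) ≤ F.M := by
    have := h.M1
    exact_mod_cast this
  have hh : (F.h:ℝ) ≤ F.M := by exact_mod_cast h.hM
  have hqs : 0 ≤ qs q := by unfold qs; positivity
  obtain ⟨_, _, h3⟩ := val_coreG hL hU hk h (E := qs q * ((B + 1) * (F.M + F.h + 10)))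
    (fun a w2 w1 pa p2 p1 a' w2' w1' => rew_any h.hM pa p2 p1 a' w2' w1')
  have h4 : F.toCf4.val * F.M ≤ 12 * (A + (B + 1) * qs q) * F.M := by
    refine h3.trans ?_
    have e : (A:ℝ) * (F.M + F.h + 10) + qs q * ((B + 1) * (F.M + F.h + 10)) =
        (A + (B + 1) * qs q) * (F.M + F.h + 10) := by ring
    rw [e]
    have h5 : (0:ℝ) ≤ A + (B + 1) * qs q := by positivity
    have h6 : (F.M:ℝ) + F.h + 10 ≤ 12 * F.M := by linarith
    calc (A + (B + 1) * qs q) * (F.M + F.h + 10) ≤ (A + (B + 1) * qs q) * (12 * F.M) :=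
          mul_le_mul_of_nonneg_left h6 h5
      _ = _ := by ring
  exact le_of_mul_le_mul_right h4 (by linarith)

/-- **the value for nonnegative rewards** -/
theorem val_endG (hL : LegOf Cl Leg) (hU : UBgG Cl A B k) (hk : k ≤ 20) (h : Ok6 Leg q F) (hq : ∀ i, 0 ≤ q i) :
    F.toCf4.val ≤ (A + B * q 0) * (1 + 3 / 2 * (F.h / F.M)) -
      (q 0 + q 1 + q 2) * (1 - F.h / F.M) := by
  have hM1 : (1:ℝ) ≤ F.M := by
    have := h.M1
    exact_mod_cast this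
  have hh : (20:ℝ) ≤ F.h := by exact_mod_cast h.h20
  obtain ⟨_, _, h3⟩ := val_coreG hL hU hk h
    (E := q 0 * (B * (F.M + F.h + 10)) - (q 0 + q 1 + q 2) * (F.M - F.h))
    (fun a w2 w1 pa p2 p1 a' w2' w1' => rew_pos hq h.hM pa p2 p1 a' w2' w1')
  have h4 : F.toCf4.val * F.M ≤
      ((A + B * q 0) * (1 + 3 / 2 * (F.h / F.M)) - (q 0 + q 1 + q 2) * (1 - F.h / F.M)) *
        F.M := by
    refine h3.trans ?_
    have e1 : (((A:ℝ) + B * q 0) * (1 + 3 / 2 * (F.h / F.M)) -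
        (q 0 + q 1 + q 2) * (1 - F.h / F.M)) * F.M =
        (A + B * q 0) * (F.M + 3 / 2 * F.h) - (q 0 + q 1 + q 2) * (F.M - F.h) := by
      have : (F.M:ℝ) ≠ 0 := by linarith
      field_simp
    have e2 : (A:ℝ) * (F.M + F.h + 10) +
        (q 0 * (B * (F.M + F.h + 10)) - (q 0 + q 1 + q 2) * (F.M - F.h)) =
        (A + B * q 0) * (F.M + F.h + 10) - (q 0 + q 1 + q 2) * (F.M - F.h) := by ring
    rw [e1, e2]
    have h5 : (0:ℝ) ≤ A + B * q 0 := by have := hq 0; positivity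
    have h6 : (F.M:ℝ) + F.h + 10 ≤ F.M + 3 / 2 * F.h := by linarith
    have := mul_le_mul_of_nonneg_left h6 h5
    linarith
  exact le_of_mul_le_mul_right h4 (by linarith)

/-- the end point of the interval of rewards: the hypothesis `hw` of `Bet_879` -/
theorem val_hwG (hL : LegOf Cl Leg) (hU : UBgG Cl A B k) (hk : k ≤ 20) {Q : ℝ} (hQ : 0 ≤ Q) {F : Cf6}
    (h : Ok6 Leg ![0, Q, 0] F) :
    F.toCf4.val ≤ 3 / 2 * A * (1 + F.h / F.M) - Q * (1 - F.h / F.M) := by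
  have hM1 : (1:ℝ) ≤ F.M := by
    have := h.M1
    exact_mod_cast this
  have h1 := val_endG hL hU hk h (by
    intro i
    fin_cases i
    · exact le_rfl
    · exact hQ
    · exact le_rfl)
  have e0 : (![0, Q, 0] : Fin 3 → ℝ) 0 = 0 := rfl
  have e1 : (![0, Q, 0] : Fin 3 → ℝ) 1 = Q := rfl
  have e2 : (![0, Q, 0] : Fin 3 → ℝ) 2 = 0 := rfl
  rw [e0, e1, e2] at h1
  have h2 : (0:ℝ) ≤ F.h / F.M := by positivity
  have h3 : (0:ℝ) ≤ A := Nat.cast_nonneg A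
  calc F.toCf4.val ≤ (A + B * 0) * (1 + 3 / 2 * (F.h / F.M)) - (0 + Q + 0) * (1 - F.h / F.M) := h1
    _ ≤ _ := by linarith

/-- **(UB)** in the form of `Win823.ups_all` -/
theorem hUB_G (hL : LegOf Cl Leg) (hU : UBgG Cl A B k) (hk : k ≤ 20) (q : Fin 3 → ℝ) :
    ∀ G : Cf6, Ok6 Leg q G → ∀ S, Leg G.top G.r G.Λm S →
      ((objs4 G.top G.I S).card : ℝ) ≤
        (2:ℝ) ^ ((A + (B + 1) * qs q) * (G.M + G.h + 10)) * G.D0 * cap5 q G.top S := by
  intro G h S hS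
  obtain ⟨_, h2, _⟩ := val_coreG hL hU hk h (E := qs q * ((B + 1) * (G.M + G.h + 10)))
    (fun a w2 w1 pa p2 p1 a' w2' w1' => rew_any h.hM pa p2 p1 a' w2' w1')
  refine (h2 S hS).trans (le_of_eq ?_)
  congr 2
  rw [← Real.rpow_natCast, ← Real.rpow_add (by norm_num)]
  congr 1
  push_cast
  ring

/-! ### from the one-sheet lemma -/

/-- all rewards (`hUB` of `K4.exists_beta`) -/
theorem v1_anyG (hL : LegOf Cl Leg) {κ p : ℕ} (hκ : κ ≤ 17 * p) (hone : UbOneG Cl κ p)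
    (q : Fin 3 → ℝ) : ∃ C : ℝ, ∀ F : Cf6, Ok6 Leg q F → F.toCf4.val ≤ C :=
  ⟨_, fun F h => val_le7G hL (ubgG hL.pos hκ hone) (by norm_num) h⟩

/-- nonnegative rewards -/
theorem v1_posG (hL : LegOf Cl Leg) {κ p : ℕ} (hκ : κ ≤ 17 * p) (hone : UbOneG Cl κ p)
    {q : Fin 3 → ℝ} (hq : ∀ i, 0 ≤ q i) {F : Cf6} (h : Ok6 Leg q F) :
    F.toCf4.val ≤ (7 * p + 1 + p * q 0) * (1 + 3 / 2 * (F.h / F.M)) -
      (q 0 + q 1 + q 2) * (1 - F.h / F.M) := by
  have := val_endG hL (ubgG hL.pos hκ hone) (by norm_num) h hq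
  push_cast at this
  exact this

/-- end point (`hw` of `K4.beta_end`) -/
theorem v1_endG (hL : LegOf Cl Leg) {κ p : ℕ} (hκ : κ ≤ 17 * p) (hone : UbOneG Cl κ p)
    {Q : ℝ} (hQ : 0 ≤ Q) {F : Cf6} (h : Ok6 Leg ![0, Q, 0] F) :
    F.toCf4.val ≤ (3 / 2 * (7 * p + 1)) * (1 + F.h / F.M) - Q * (1 - F.h / F.M) := by
  have h1 := val_hwG hL (ubgG hL.pos hκ hone) (by norm_num) hQ h
  push_cast at h1
  exact h1

end

end Crest.Agent.R136.Val289
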