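import Crest.Agent.R136.Val4_289
import Crest.Agent.R136.Bet7_879

/-!
# R136: (UB) for the configurations with container and resolution (helper879)

`card_coreR` : helper289's `card_coreG` for an arbitrary reward function `R'`.
`card7` : if `D0` bounds the sheets of level `m + h` in the range `[wr, c]`, then the sheets of the
top level with margins (`Mrg`) contain at most `2^(A (M + h + 10)) 2^E D0 cap` objects.
`val7`, `ubC`, `endC` : the hypotheses `UBC` and `hw` of `Bet7_879`.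
-/

set_option autoImplicit false
set_option linter.unusedVariables false

open Finset

namespace Crest.Agent.R136.Val7

open Sh605 K4 KS879 En879 UB289 Val289

noncomputable section

variable {Cl : Cls} {Leg : ℕ → ℝ → ℝ → Plk4 → Prop}

open Classical in
/-- **(UB) for a configuration**, general reward bound -/
theorem card_coreR (hL : LegOf Cl Leg) {A B k m M h : ℕ} (hU : UBgG Cl A B k) (hkh : k ≤ h) (h7 : 7 ≤ h) (hhM : h ≤ M)
    {r Λ D0 : ℝ} {I : Finset (Ln4 × ℝ)} (hr : 0 < r)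
    (hD : 0 ≤ D0) {R' : ℝ → ℝ → ℝ → ℝ}
    (hup : ∀ K, Leg (m + h) r Λ K → ((objs4 (m + h) I K).card : ℝ) ≤
      D0 * (K.a * K.w 2 * K.w 1 * R' K.a (K.w 2) (K.w 1)))
    (hal : ∀ x ∈ I, 2 ^ k ≤ (alvs m (m + h) I x.1 (zc4 m x.2)).card)
    {K : Plk4} (hK : Leg (m + M) r Λ K) {X : ℝ} (hX : 0 ≤ X)
    (hR : ∀ a' w2' w1', (K.a ≤ a' ∧ a' ≤ 2 ^ (B * (M + h + 10)) * K.a) →
        (w2' ≤ K.w 2 ∧ K.w 2 ≤ 2 ^ (B * (M + h + 10)) * w2') →
        (w1' ≤ K.w 1 ∧ K.w 1 ≤ 2 ^ (B * (M + h + 10)) * w1') →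
        R' a' w2' w1' ≤ X) :
    ((objs4 (m + M) I K).card : ℝ) ≤
      2 ^ (A * (M + h + 10)) * D0 * (K.a * K.w 2 * K.w 1 * X) := by
  classical
  obtain ⟨pa, p2, p1⟩ := leg_posG hL hr hK
  -- the data
  set j0 : ℤ := K.j / 2 ^ M with hj0
  have h2M : (0:ℤ) < 2 ^ M := by positivity
  have hd1 : j0 * 2 ^ M ≤ K.j := Int.ediv_mul_le _ h2M.ne'
  have hd2 : K.j + 1 ≤ (j0 + 1) * 2 ^ M := Int.lt_ediv_add_one_mul_self K.j h2M
  have hd1' : (j0:ℝ) * 2 ^ M ≤ K.j := by exact_mod_cast hd1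
  have hd2' : (K.j:ℝ) + 1 ≤ ((j0:ℝ) + 1) * 2 ^ M := by exact_mod_cast hd2
  set T : Finset Ln4 := (objs4 (m + M) I K).image Prod.fst with hT
  set al : ℕ → Finset Ln4 := fun j =>
    (I.filter fun y => zc4 (m + h) y.2 = j0 * 2 ^ h + j).image Prod.fst with hal'
  have hTc : T.card = (objs4 (m + M) I K).card := by
    rw [hT]
    refine card_image_of_injOn fun o ho o' ho' hoo => ?_
    rw [Finset.mem_coe] at ho ho'
    unfold objs4 at ho ho'
    rw [mem_filter] at ho ho'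
    exact Prod.ext hoo (ho.2.1.trans ho'.2.1.symm)
  have hTm : ∀ t ∈ T, ∃ x ∈ I, x.1 = t ∧ zc4 m x.2 = j0 ∧
      InSheet t K.e K.c K.w K.q K.a ((K.j : ℝ) / 2 ^ (m + M)) (1 / 2 ^ (m + M)) := by
    intro t ht
    obtain ⟨o, ho, rfl⟩ := mem_image.1 ht
    unfold objs4 at ho
    rw [mem_filter] at ho
    obtain ⟨ho1, ho2, ho3⟩ := ho
    obtain ⟨x, hx, rfl⟩ := mem_image.1 ho1
    refine ⟨x, hx, rfl, ?_, ho3⟩
    have : zc4 (m + M) x.2 = K.j := ho2
    rw [hj0, ← this, zc4_div]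
  have hmp : (0:ℝ) < 2 ^ m := by positivity
  have hMp : (0:ℝ) < 2 ^ M := by positivity
  have hhp : (0:ℝ) < 2 ^ h := by positivity
  have hmain := hU M h hkh h7 hhM (id : Ln4 → Ln4) T al ((j0:ℝ) / 2 ^ m) (1 / 2 ^ (m + M))
    (1 / 2 ^ (m + h)) r D0
    (fun _ _ _ => X)
    R' (by positivity) hr hD
    (by rw [pow_add, pow_add]; field_simp)
    (by
      intro j hj e c w q' a hS hw
      have hz : (j0:ℝ) / 2 ^ m + j * (1 / 2 ^ (m + h)) =
          ((j0 * 2 ^ h + j : ℤ) : ℝ) / 2 ^ (m + h) := by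
        push_cast
        rw [pow_add]
        field_simp
      rw [hz] at hS ⊢
      have h1 := hup ⟨j0 * 2 ^ h + j, e, c, w, q', a⟩ ((hL.iff _ _ _ _).2 ⟨hS, hw⟩)
      have h2 : (((al j).filter fun t => InSheet (id t) e c w q' a
          (((j0 * 2 ^ h + j : ℤ) : ℝ) / 2 ^ (m + h)) (1 / 2 ^ (m + h))).card : ℝ) ≤
          ((objs4 (m + h) I ⟨j0 * 2 ^ h + j, e, c, w, q', a⟩).card : ℝ) := by
        refine Nat.cast_le.2 (card_le_card_of_injOn (fun t => (t, j0 * 2 ^ h + (j:ℤ)))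
          (fun t ht => ?_) (fun t _ t' _ htt => (Prod.ext_iff.1 htt).1))
        rw [Finset.mem_coe, mem_filter] at ht
        obtain ⟨ht1, ht2⟩ := ht
        rw [hal'] at ht1
        obtain ⟨y, hy, rfl⟩ := mem_image.1 ht1
        rw [mem_filter] at hy
        rw [Finset.mem_coe]
        unfold objs4
        rw [mem_filter]
        refine ⟨mem_image.2 ⟨y, hy.1, ?_⟩, rfl, ht2⟩
        unfold ob4
        rw [hy.2]
      refine h2.trans (h1.trans (le_of_eq ?_))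
      rfl)
    K.e K.c K.w K.q K.a ((K.j : ℝ) / 2 ^ (m + M))
    (by
      rw [div_le_div_iff₀ hmp (by positivity), pow_add]
      nlinarith)
    (by
      rw [pow_add]
      have e1 : (K.j:ℝ) / (2 ^ m * 2 ^ M) + 1 / (2 ^ m * 2 ^ M) =
          ((K.j:ℝ) + 1) / (2 ^ m * 2 ^ M) := by ring
      have e2 : (j0:ℝ) / 2 ^ m + 2 ^ M * (1 / (2 ^ m * 2 ^ M)) =
          (((j0:ℝ) + 1) * 2 ^ M) / (2 ^ m * 2 ^ M) := by field_simp
      rw [e1, e2]
      exact div_le_div_of_nonneg_right hd2' (by positivity))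
    ((hL.iff _ _ _ _).1 hK).1 ((hL.iff _ _ _ _).1 hK).2
    (fun t ht => by obtain ⟨x, _, _, _, h4⟩ := hTm t ht; exact h4)
    (by
      intro t ht
      obtain ⟨x, hx, hxt, hxj, _⟩ := hTm t ht
      have h1 := hal x hx
      rw [hxt, hxj] at h1
      refine h1.trans (card_le_card_of_injOn (fun j' => (j' - j0 * 2 ^ h).toNat)
        (fun j' hj' => ?_) (fun a ha b hb hab => ?_))
      · rw [Finset.mem_coe] at hj'
        have hdiv := alvs_div hj'
        have h2h : (0:ℤ) < 2 ^ h := by positivity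
        have g1 : j0 * 2 ^ h ≤ j' := by rw [← hdiv]; exact Int.ediv_mul_le _ h2h.ne'
        have g2 : j' < (j0 + 1) * 2 ^ h := by
          rw [← hdiv]; exact Int.lt_ediv_add_one_mul_self j' h2h
        obtain ⟨y, hy, hy1, hy2⟩ := alvs_alv hj'
        rw [Finset.mem_coe, mem_filter, mem_range]
        have g3 : (((j' - j0 * 2 ^ h).toNat : ℕ) : ℤ) = j' - j0 * 2 ^ h :=
          Int.toNat_of_nonneg (by linarith)
        refine ⟨?_, ?_⟩
        · have : (((j' - j0 * 2 ^ h).toNat : ℕ) : ℤ) < ((2 ^ h : ℕ) : ℤ) := by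
            rw [g3]; push_cast; linarith
          exact_mod_cast this
        · rw [hal']
          refine mem_image.2 ⟨y, mem_filter.2 ⟨hy, ?_⟩, hy1⟩
          rw [hy2, g3]; ring
      · rw [Finset.mem_coe] at ha hb
        have h2h : (0:ℤ) < 2 ^ h := by positivity
        have g1 : j0 * 2 ^ h ≤ a := by
          rw [← alvs_div ha]; exact Int.ediv_mul_le _ h2h.ne'
        have g2 : j0 * 2 ^ h ≤ b := by
          rw [← alvs_div hb]; exact Int.ediv_mul_le _ h2h.ne'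
        have g3 : (((a - j0 * 2 ^ h).toNat : ℕ) : ℤ) = a - j0 * 2 ^ h :=
          Int.toNat_of_nonneg (by linarith)
        have g4 : (((b - j0 * 2 ^ h).toNat : ℕ) : ℤ) = b - j0 * 2 ^ h :=
          Int.toNat_of_nonneg (by linarith)
        have hab' : (a - j0 * 2 ^ h).toNat = (b - j0 * 2 ^ h).toNat := hab
        rw [hab'] at g3
        linarith)
    hX hR
  rw [← hTc]
  exact hmain


/-- the margins of a sheet of the top level -/
structure Mrg (F : Cf7) (K : Plk4) : Prop where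
  rng : ∀ k, F.wr k ≤ wd K k ∧ wd K k ≤ wd F.KC k
  low : ∀ k, k ≠ 0 → F.wr k * (2:ℝ) ^ (7 * (F.M : ℝ)) ≤ wd K k
  thk : K.a * (2:ℝ) ^ (7 * (F.M : ℝ)) ≤ wd F.KC 0 ∨ wd F.KC 2 ≤ wd F.KC 0

theorem mrg_of {q : Fin 3 → ℝ} {F : Cf7} (h : Ok7 Leg q F) {κ C : ℝ} (hI : InC κ C F)
    (hκC : 7 ≤ κ * C) {x : Ln4 × ℝ} (hx : x ∈ F.I) : Mrg F (F.K (F.cl (ob4 F.top x))) := by
  refine ⟨(h.ok.legal x hx).2, fun k hk => ?_, hI.thk x hx⟩
  refine le_trans ?_ (hI.mar x hx k hk)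
  refine mul_le_mul_of_nonneg_left ?_ (h.wrp k).le
  refine Real.rpow_le_rpow_of_exponent_le (by norm_num) ?_
  exact mul_le_mul_of_nonneg_right hκC (Nat.cast_nonneg _)

variable {q : Fin 3 → ℝ} {A B k : ℕ}

open Classical in
/-- **(UB) with range** -/
theorem card7 (hL : LegOf Cl Leg) (hA2 : ∀ m r Λ K, Leg m r Λ K → K.a ≤ K.w 2)
    (hU : UBgG Cl A B k) (hk : k ≤ 20) (hB : B ≤ 4) {F : Cf7} (h : Ok7 Leg q F)
    (hh : 2 * F.h ≤ F.M) {E : ℝ}
    (hE : ∀ a w2 w1 : ℝ, 0 < a → 0 < w2 → 0 < w1 → ∀ a' w2' w1' : ℝ,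
      (a ≤ a' ∧ a' ≤ 2 ^ (B * (F.M + F.h + 10)) * a) →
      (w2' ≤ w2 ∧ w2 ≤ 2 ^ (B * (F.M + F.h + 10)) * w2') →
      (w1' ≤ w1 ∧ w1 ≤ 2 ^ (B * (F.M + F.h + 10)) * w1') →
      rew q (F.m + F.h) a' w2' w1' ≤ (2:ℝ) ^ E * rew q (F.m + F.M) a w2 w1)
    {K : Plk4} (hK : Leg F.top F.r F.Λm K) (hM : Mrg F K) {D : ℝ} (hD : 0 < D)
    (hDD : F.D0 ≤ D) :
    ((objs4 F.top F.I K).card : ℝ) ≤
      2 ^ (A * (F.M + F.h + 10)) * (2:ℝ) ^ E * D * cap5 q F.top K := by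
  have h20 := h.ok.h20
  obtain ⟨pa, p2, p1⟩ := leg_posG hL h.ok.r0 hK
  set N : ℝ := ((F.I.image (ob4 (F.m + F.h))).card : ℝ) with hN
  have hN0 : 0 ≤ N := Nat.cast_nonneg _
  -- the range
  let Rg : ℝ → ℝ → ℝ → Prop := fun a w2 w1 =>
    (F.wr 0 ≤ a ∧ a ≤ wd F.KC 0) ∧ (F.wr 1 ≤ w1 ∧ w1 ≤ wd F.KC 1) ∧
      (F.wr 2 ≤ w2 ∧ w2 ≤ wd F.KC 2)
  let R' : ℝ → ℝ → ℝ → ℝ := fun a w2 w1 => if a ≤ w2 then
    (if Rg a w2 w1 then rew q (F.m + F.h) a w2 w1 else N / (D * (a * w2 * w1))) else 0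
  -- constants
  have hY : (2:ℝ) ^ (B * (F.M + F.h + 10)) ≤ (2:ℝ) ^ (7 * (F.M : ℝ)) := by
    have e : (2:ℝ) ^ (7 * (F.M : ℝ)) = 2 ^ (7 * F.M) := by
      rw [← Real.rpow_natCast]; congr 1; push_cast; ring
    rw [e]
    refine pow_le_pow_right₀ (by norm_num) ?_
    calc B * (F.M + F.h + 10) ≤ 4 * (F.M + F.h + 10) := Nat.mul_le_mul_right _ hB
      _ ≤ 7 * F.M := by omega
  have hY0 : (0:ℝ) < 2 ^ (B * (F.M + F.h + 10)) := by positivity
  have h1 := card_coreR hL hU (hk.trans h20) (le_trans (by norm_num) h20) h.ok.hM h.ok.r0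
    hD.le (R' := R') (I := F.I) (m := F.m) (M := F.M) (h := F.h) (Λ := F.Λm)
    (by
      intro S hS
      obtain ⟨sa, s2, s1⟩ := leg_posG hL h.ok.r0 hS
      have hcap : 0 < S.a * S.w 2 * S.w 1 := by positivity
      have hR' : R' S.a (S.w 2) (S.w 1) = if Rg S.a (S.w 2) (S.w 1) then
          rew q (F.m + F.h) S.a (S.w 2) (S.w 1) else N / (D * (S.a * S.w 2 * S.w 1)) :=
        if_pos (hA2 _ _ _ _ hS)
      rw [hR']
      by_cases hr : Rg S.a (S.w 2) (S.w 1)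
      · rw [if_pos hr]
        have h2 := h.ok.ups (F.m + F.h) (Nat.le_add_right _ _) le_rfl S ⟨hS, fun k => by
          fin_cases k
          · exact hr.1
          · exact hr.2.1
          · exact hr.2.2⟩
        rw [cap5_eq] at h2
        refine h2.trans (mul_le_mul_of_nonneg_right hDD ?_)
        have : 0 < rew q (F.m + F.h) S.a (S.w 2) (S.w 1) := by unfold rew; positivity
        positivity
      · rw [if_neg hr]
        have e : D * (S.a * S.w 2 * S.w 1 * (N / (D * (S.a * S.w 2 * S.w 1)))) = N := by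
          field_simp
        rw [e, hN]
        refine Nat.cast_le.2 (card_le_card ?_)
        unfold objs4
        exact filter_subset _ _)
    (fun x hx => (pow_le_pow_right₀ (by norm_num) hk).trans (ok6_alvs h.ok hx))
    (K := K) hK (X := (2:ℝ) ^ E * rew q (F.m + F.M) K.a (K.w 2) (K.w 1))
    (by unfold rew; positivity)
    (by
      intro a' w2' w1' ha h2 h1
      show R' a' w2' w1' ≤ _
      have hX : 0 ≤ (2:ℝ) ^ E * rew q (F.m + F.M) K.a (K.w 2) (K.w 1) := by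
        unfold rew; positivity
      by_cases haw : a' ≤ w2'
      · have hr : Rg a' w2' w1' := by
          refine ⟨⟨(hM.rng 0).1.trans ha.1, ?_⟩, ⟨?_, h1.1.trans (hM.rng 1).2⟩,
            ⟨?_, h2.1.trans (hM.rng 2).2⟩⟩
          · rcases hM.thk with ht | ht
            · calc a' ≤ 2 ^ (B * (F.M + F.h + 10)) * K.a := ha.2
                _ ≤ (2:ℝ) ^ (7 * (F.M : ℝ)) * K.a := mul_le_mul_of_nonneg_right hY pa.le
                _ = K.a * (2:ℝ) ^ (7 * (F.M : ℝ)) := mul_comm _ _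
                _ ≤ _ := ht
            · exact haw.trans (h2.1.trans ((hM.rng 2).2.trans ht))
          · have h3 := (hM.low 1 (by decide)).trans h1.2
            have h4 : F.wr 1 * 2 ^ (B * (F.M + F.h + 10)) ≤
                F.wr 1 * (2:ℝ) ^ (7 * (F.M : ℝ)) := mul_le_mul_of_nonneg_left hY (h.wrp 1).le
            have h5 := h4.trans h3
            rw [mul_comm] at h5
            exact le_of_mul_le_mul_left h5 hY0
          · have h3 := (hM.low 2 (by decide)).trans h2.2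
            have h4 : F.wr 2 * 2 ^ (B * (F.M + F.h + 10)) ≤
                F.wr 2 * (2:ℝ) ^ (7 * (F.M : ℝ)) := mul_le_mul_of_nonneg_left hY (h.wrp 2).le
            have h5 := h4.trans h3
            rw [mul_comm] at h5
            exact le_of_mul_le_mul_left h5 hY0
        have e : R' a' w2' w1' = rew q (F.m + F.h) a' w2' w1' := by
          show (if a' ≤ w2' then _ else _) = _
          rw [if_pos haw, if_pos hr]
        rw [e]
        exact hE _ _ _ pa p2 p1 a' w2' w1' ha h2 h1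
      · have e : R' a' w2' w1' = 0 := if_neg haw
        rw [e]; exact hX)
  refine h1.trans (le_of_eq ?_)
  rw [cap5_eq]
  show _ = 2 ^ (A * (F.M + F.h + 10)) * (2:ℝ) ^ E * D *
    (K.a * K.w 2 * K.w 1 * rew q (F.m + F.M) K.a (K.w 2) (K.w 1))
  ring

open Classical in
theorem cls_leR {Leg' : ℕ → ℝ → ℝ → Plk4 → Prop} {F : Cf4} (h : Ok5 Leg' q F) {x : Ln4 × ℝ}
    (hx : x ∈ F.I) :
    ((F.cls x).card : ℝ) ≤ ((objs4 F.top F.I (F.K (F.cl (ob4 F.top x)))).card : ℝ) := by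
  refine Nat.cast_le.2 (card_le_card fun o ho => ?_)
  unfold Cf4.cls at ho
  unfold objs4
  rw [mem_filter] at ho ⊢
  refine ⟨ho.1, ?_⟩
  obtain ⟨y, hy, rfl⟩ := mem_image.1 ho.1
  rw [← ho.2]
  exact h.mem y hy

/-- **value bound with range** -/
theorem val7 (hL : LegOf Cl Leg) (hA2 : ∀ m r Λ K, Leg m r Λ K → K.a ≤ K.w 2)
    (hU : UBgG Cl A B k) (hk : k ≤ 20) (hB : B ≤ 4) {F : Cf7} (h : Ok7 Leg q F)
    {κ C : ℝ} (hI : InC κ C F) (hκC : 7 ≤ κ * C) (hh : 2 * F.h ≤ F.M) {E : ℝ}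
    (hE : ∀ a w2 w1 : ℝ, 0 < a → 0 < w2 → 0 < w1 → ∀ a' w2' w1' : ℝ,
      (a ≤ a' ∧ a' ≤ 2 ^ (B * (F.M + F.h + 10)) * a) →
      (w2' ≤ w2 ∧ w2 ≤ 2 ^ (B * (F.M + F.h + 10)) * w2') →
      (w1' ≤ w1 ∧ w1 ≤ 2 ^ (B * (F.M + F.h + 10)) * w1') →
      rew q (F.m + F.h) a' w2' w1' ≤ (2:ℝ) ^ E * rew q (F.m + F.M) a w2 w1) :
    0 < F.D0 ∧ F.toCf4.val * F.M ≤ A * (F.M + F.h + 10) + E := by
  obtain ⟨x, hx⟩ := h.ok.ne
  have hM : (0:ℝ) < F.M := by
    have := h.ok.M1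
    exact_mod_cast this
  have hleg := h.ok.legal x hx
  have hcap : 0 < cap5 q F.top (F.K (F.cl (ob4 F.top x))) := by
    obtain ⟨a1, a2, a3⟩ := leg_posG hL h.ok.r0 hleg.1
    exact cap5_pos a1 a2 a3
  set X : ℝ := 2 ^ (A * (F.M + F.h + 10)) * (2:ℝ) ^ E with hX
  have hXp : 0 < X := by positivity
  have key : ∀ D : ℝ, 0 < D → F.D0 ≤ D → F.D1 ≤ X * D := by
    intro D hD hDD
    have h1 := card7 hL hA2 hU hk hB h hh hE hleg.1 (mrg_of h hI hκC hx) hD hDD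
    have h2 := h.ok.low x hx
    have h3 := cls_leR h.ok.toOk5 hx
    exact le_of_mul_le_mul_right (h2.trans (h3.trans h1)) hcap
  have hD0 : 0 < F.D0 := by
    by_contra hn
    rw [not_lt] at hn
    have hD1 := h.ok.D1p
    have h4 := key (F.D1 / (2 * X)) (by positivity) (hn.trans (by positivity))
    have e : X * (F.D1 / (2 * X)) = F.D1 / 2 := by field_simp
    rw [e] at h4
    linarith
  refine ⟨hD0, ?_⟩
  have h5 := key F.D0 hD0 le_rfl
  have h6 : F.D1 / F.D0 ≤ (2:ℝ) ^ ((A:ℝ) * (F.M + F.h + 10) + E) := by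
    rw [div_le_iff₀ hD0]
    refine h5.trans (le_of_eq ?_)
    congr 1
    rw [hX, ← Real.rpow_natCast, ← Real.rpow_add (by norm_num)]
    congr 1
    push_cast
    ring
  have h7 : Real.logb 2 (F.D1 / F.D0) ≤ (A:ℝ) * (F.M + F.h + 10) + E := by
    have := Real.logb_le_logb_of_le one_lt_two (div_pos h.ok.D1p hD0) h6
    rwa [Real.logb_rpow (by norm_num) (by norm_num)] at this
  unfold Cf4.val
  rw [div_mul_cancel₀ _ hM.ne']
  exact h7

/-- **the value is bounded**, rewards of any sign -/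
theorem val_le7C (hL : LegOf Cl Leg) (hA2 : ∀ m r Λ K, Leg m r Λ K → K.a ≤ K.w 2)
    (hU : UBgG Cl A B k) (hk : k ≤ 20) (hB : B ≤ 4) {F : Cf7} (h : Ok7 Leg q F)
    {κ C : ℝ} (hI : InC κ C F) (hκC : 7 ≤ κ * C) (hh : 2 * F.h ≤ F.M) :
    0 < F.D0 ∧ F.toCf4.val ≤ 12 * (A + (B + 1) * qs q) := by
  have hM1 : (1:ℝ) ≤ F.M := by
    have := h.ok.M1
    exact_mod_cast this
  have hhr : (F.h:ℝ) ≤ F.M := by exact_mod_cast h.ok.hM
  have hqs : 0 ≤ qs q := by unfold qs; positivity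
  obtain ⟨h0, h3⟩ := val7 hL hA2 hU hk hB h hI hκC hh (E := qs q * ((B + 1) * (F.M + F.h + 10)))
    (fun a w2 w1 pa p2 p1 a' w2' w1' => rew_any h.ok.hM pa p2 p1 a' w2' w1')
  refine ⟨h0, ?_⟩
  have h4 : F.toCf4.val * F.M ≤ 12 * (A + (B + 1) * qs q) * F.M := by
    refine h3.trans ?_
    have e : (A:ℝ) * (F.M + F.h + 10) + qs q * ((B + 1) * (F.M + F.h + 10)) =
        (A + (B + 1) * qs q) * (F.M + F.h + 10) := by ring
    rw [e]
    have h5 : (0:ℝ) ≤ A + (B + 1) * qs q := by positivity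
    have h6 : (F.M:ℝ) + F.h + 10 ≤ 12 * F.M := by linarith
    calc (A + (B + 1) * qs q) * (F.M + F.h + 10) ≤ (A + (B + 1) * qs q) * (12 * F.M) :=
          mul_le_mul_of_nonneg_left h6 h5
      _ = _ := by ring
  exact le_of_mul_le_mul_right h4 (by linarith)

/-- **the value for nonnegative rewards** -/
theorem val_end7 (hL : LegOf Cl Leg) (hA2 : ∀ m r Λ K, Leg m r Λ K → K.a ≤ K.w 2)
    (hU : UBgG Cl A B k) (hk : k ≤ 20) (hB : B ≤ 4) {F : Cf7} (h : Ok7 Leg q F)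
    {κ C : ℝ} (hI : InC κ C F) (hκC : 7 ≤ κ * C) (hh : 2 * F.h ≤ F.M) (hq : ∀ i, 0 ≤ q i) :
    F.toCf4.val ≤ (A + B * q 0) * (1 + 3 / 2 * (F.h / F.M)) -
      (q 0 + q 1 + q 2) * (1 - F.h / F.M) := by
  have hM1 : (1:ℝ) ≤ F.M := by
    have := h.ok.M1
    exact_mod_cast this
  have h20 : (20:ℝ) ≤ F.h := by exact_mod_cast h.ok.h20
  obtain ⟨_, h3⟩ := val7 hL hA2 hU hk hB h hI hκC hh
    (E := q 0 * (B * (F.M + F.h + 10)) - (q 0 + q 1 + q 2) * (F.M - F.h))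
    (fun a w2 w1 pa p2 p1 a' w2' w1' => rew_pos hq h.ok.hM pa p2 p1 a' w2' w1')
  have h4 : F.toCf4.val * F.M ≤
      ((A + B * q 0) * (1 + 3 / 2 * (F.h / F.M)) - (q 0 + q 1 + q 2) * (1 - F.h / F.M)) *
        F.M := by
    refine h3.trans ?_
    have e1 : (((A:ℝ) + B * q 0) * (1 + 3 / 2 * (F.h / F.M)) -
        (q 0 + q 1 + q 2) * (1 - F.h / F.M)) * F.M =
        (A + B * q 0) * (F.M + 3 / 2 * F.h) - (q 0 + q 1 + q 2) * (F.M - F.h) := by
      have : (F.M:ℝ) ≠ 0 := by linarith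
      field_simp
    have e2 : (A:ℝ) * (F.M + F.h + 10) +
        (q 0 * (B * (F.M + F.h + 10)) - (q 0 + q 1 + q 2) * (F.M - F.h)) =
        (A + B * q 0) * (F.M + F.h + 10) - (q 0 + q 1 + q 2) * (F.M - F.h) := by ring
    rw [e1, e2]
    have h5 : (0:ℝ) ≤ A + B * q 0 := by have := hq 0; positivity
    have h6 : (F.M:ℝ) + F.h + 10 ≤ F.M + 3 / 2 * F.h := by linarith
    have := mul_le_mul_of_nonneg_left h6 h5
    linarith
  exact le_of_mul_le_mul_right h4 (by linarith)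

end

end Crest.Agent.R136.Val7
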