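import Mathlib

/-!
# R136 (S0187), PLAN 2, B4: the numbers at the end of the share of a pair, one letter `W ≥ 2`
(helper639)

`num_share` : precut factor x `Vlk639.share_lnk` x `Plk511.cap_of ≤ W^C M / (J^(1+s1) E^(1+s2))`.
-/

set_option autoImplicit false
set_option linter.unusedVariables false

namespace Crest.Agent.R136.Vfin2639

/-- **number of dyadic classes** : `X ≤ 2^N`, `N + 1 ≤ W^c'` when `X ≤ W^c x`, `log x ≤ W` -/
theorem exN {W c x X : ℝ} (hW : 2 ≤ W) (hc : 0 ≤ c) (hx : 0 < x) (hlog : Real.log x ≤ W)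
    (hX : X ≤ W ^ c * x) : ∃ N : ℕ, X ≤ 2 ^ N ∧ (N : ℝ) + 1 ≤ W ^ (2 * c + 4) := by
  have hW0 : 0 < W := by linarith
  set Y : ℝ := W ^ c * x with hY
  have hYp : 0 < Y := mul_pos (Real.rpow_pos_of_pos hW0 c) hx
  have hlY : Real.log Y ≤ (c + 1) * W := by
    rw [hY, Real.log_mul (Real.rpow_pos_of_pos hW0 c).ne' hx.ne', Real.log_rpow hW0]
    have h1 : Real.log W ≤ W := (Real.log_le_sub_one_of_pos hW0).trans (by linarith)
    nlinarith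
  have hl2 : 0 < Real.log 2 := Real.log_pos (by norm_num)
  have hl2' : 1 / 2 < Real.log 2 := by have := Real.log_two_gt_d9; linarith
  have key : ∃ N : ℕ, Y ≤ 2 ^ N ∧ (N : ℝ) + 1 ≤ 2 * ((c + 1) * W) + 2 := by
    refine ⟨⌈Real.log Y / Real.log 2⌉₊, ?_, ?_⟩
    · have h1 : Real.log Y / Real.log 2 ≤ (⌈Real.log Y / Real.log 2⌉₊ : ℝ) := Nat.le_ceil _
      rw [div_le_iff₀ hl2] at h1
      have h2 : Real.log Y ≤ Real.log ((2:ℝ) ^ ⌈Real.log Y / Real.log 2⌉₊) := by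
        rw [Real.log_pow]; exact h1
      exact (Real.log_le_log_iff hYp (by positivity)).1 h2
    · have h0 : 0 ≤ (c + 1) * W := by positivity
      have h1 : Real.log Y / Real.log 2 ≤ 2 * ((c + 1) * W) := by
        rw [div_le_iff₀ hl2]
        nlinarith
      rcases le_or_gt (Real.log Y / Real.log 2) 0 with h2 | h2
      · have : ⌈Real.log Y / Real.log 2⌉₊ = 0 := Nat.ceil_eq_zero.2 h2
        rw [this]
        push_cast
        nlinarith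
      · have := Nat.ceil_lt_add_one h2.le
        nlinarith
  obtain ⟨N, hN1, hN2⟩ := key
  refine ⟨N, hX.trans hN1, hN2.trans ?_⟩
  -- `2 (c+1) W + 2 ≤ W^(2c+4)`
  have h1 : 1 + (2 * c) * Real.log 2 ≤ W ^ (2 * c) := by
    have e : (2:ℝ) ^ (2 * c) ≤ W ^ (2 * c) := Real.rpow_le_rpow (by norm_num) hW (by positivity)
    have e2 : (2 * c) * Real.log 2 + 1 ≤ (2:ℝ) ^ (2 * c) := by
      rw [Real.rpow_def_of_pos (by norm_num)]
      have := Real.add_one_le_exp (Real.log 2 * (2 * c))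
      linarith
    linarith
  have h2 : 1 + c ≤ W ^ (2 * c) := by nlinarith
  have h3 : W ^ (2 * c + 4) = W ^ (2 * c) * W ^ 4 := by
    rw [Real.rpow_add hW0, show (4:ℝ) = ((4:ℕ):ℝ) by norm_num, Real.rpow_natCast]
  rw [h3]
  have h4 : 2 * W + 2 ≤ W ^ 4 := by nlinarith [sq_nonneg (W ^ 2), sq_nonneg (W - 2)]
  calc 2 * ((c + 1) * W) + 2 ≤ (1 + c) * (2 * W + 2) := by nlinarith
    _ ≤ W ^ (2 * c) * W ^ 4 := mul_le_mul h2 h4 (by positivity) (by positivity)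

theorem mono8 {a b c d e f g x M j a' b' c' d' e' f' g' x' : ℝ} (a0 : 0 ≤ a) (b0 : 0 ≤ b)
    (c0 : 0 ≤ c) (d0 : 0 ≤ d) (e0 : 0 ≤ e) (f0 : 0 ≤ f) (g0 : 0 ≤ g) (x0 : 0 ≤ x) (M0 : 0 ≤ M)
    (j0 : 0 ≤ j) (ha : a ≤ a') (hb : b ≤ b') (hc : c ≤ c') (hd : d ≤ d') (he : e ≤ e')
    (hf : f ≤ f') (hg : g ≤ g') (hx : x ≤ x') :
    a * (x * b * c * d * e * (f * M * (j * g))) ≤
      a' * (x' * b' * c' * d' * e' * (f' * M * (j * g'))) := by
  have a0' := a0.trans ha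
  have b0' := b0.trans hb
  have c0' := c0.trans hc
  have d0' := d0.trans hd
  have e0' := e0.trans he
  have f0' := f0.trans hf
  have g0' := g0.trans hg
  have x0' := x0.trans hx
  gcongr

set_option maxHeartbeats 2000000 in
/-- **the numbers**, capacity constant `Kc ≤ W^C2` -/
theorem num_share (n : ℕ) {c s1 s2 C2 : ℝ} (hc : 0 ≤ c) (hs1 : 0 ≤ s1) (hs2 : 0 ≤ s2)
    (hC2 : 0 ≤ C2) :
    ∃ C : ℝ, 0 ≤ C ∧ ∀ (W M J E M0 A R m V K Kc : ℝ) (N : ℕ), 2 ≤ W → 0 ≤ M → 0 < J → 0 < E →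
      E ≤ W ^ c * M0 → 0 ≤ A → A ≤ W ^ c → (N : ℝ) + 1 ≤ W ^ c → 0 ≤ R → R ≤ W ^ c → 0 < m →
      m⁻¹ ≤ W ^ c → 0 ≤ V → V ≤ W ^ c → 0 ≤ K → K ≤ W ^ c → 0 ≤ Kc → Kc ≤ W ^ C2 →
      A ^ n * (2 * 10 ^ 8 * (N + 1) * (R / (m / 2) + 1) ^ 4 *
        ((200 * V ^ 2 * K ^ 3) ^ 2 * V) ^ 2 * (200 * V ^ 2 * K ^ 3) *
        (Kc * M *
          (J⁻¹ ^ (1 + s1) * (1 / M0) ^ (1 + s2)))) ≤
          W ^ C * M / (J ^ (1 + s1) * E ^ (1 + s2)) := by
  refine ⟨28 + c * n + c + 4 * (2 * c + 2) + (34 + 22 * c) + (8 + 5 * c) +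
    C2 + c * (1 + s2), by positivity, ?_⟩
  intro W M J E M0 A R m V K Kc N hW hM hJ hE hEM hA hA' hN' hR hR' hm hm' hV0 hV' hK hK' hL hL'
  have hW0 : 0 < W := by linarith
  have hW1 : 1 ≤ W := by linarith
  set U : ℝ := W ^ c with hU
  have hUp : 0 < U := Real.rpow_pos_of_pos hW0 c
  have hU1 : 1 ≤ U := Real.one_le_rpow hW1 hc
  have hM0 : 0 < M0 := by
    by_contra h
    push Not at h
    have := mul_nonpos_of_nonneg_of_nonpos hUp.le h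
    linarith
  have hJp : 0 < J ^ (1 + s1) := Real.rpow_pos_of_pos hJ _
  have hEp : 0 < E ^ (1 + s2) := Real.rpow_pos_of_pos hE _
  have e1 : J⁻¹ ^ (1 + s1) = (J ^ (1 + s1))⁻¹ := Real.inv_rpow hJ.le _
  have e2 : (1 / M0) ^ (1 + s2) ≤ U ^ (1 + s2) * (E ^ (1 + s2))⁻¹ := by
    have h1 : 1 / M0 ≤ U / E := by
      rw [div_le_div_iff₀ hM0 hE]; linarith
    calc (1 / M0) ^ (1 + s2) ≤ (U / E) ^ (1 + s2) :=
          Real.rpow_le_rpow (by positivity) h1 (by linarith)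
      _ = U ^ (1 + s2) * (E ^ (1 + s2))⁻¹ := by
          rw [Real.div_rpow hUp.le hE.le, div_eq_mul_inv]
  -- numerals
  have num : ∀ (k : ℕ) (x : ℝ), x ≤ 2 ^ k → x ≤ W ^ (k : ℝ) := by
    intro k x hx
    rw [Real.rpow_natCast]
    exact hx.trans (pow_le_pow_left₀ (by norm_num) hW k)
  have e3 : (2:ℝ) * 10 ^ 8 ≤ W ^ ((28:ℕ):ℝ) := num 28 _ (by norm_num)
  have n8 : (200:ℝ) ≤ W ^ ((8:ℕ):ℝ) := num 8 _ (by norm_num)
  have pw : ∀ k : ℕ, U ^ k = W ^ (c * k) := by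
    intro k
    rw [hU, Real.rpow_mul hW0.le, Real.rpow_natCast]
  have e4 : A ^ n ≤ W ^ (c * n) := by
    rw [← pw]; exact pow_le_pow_left₀ hA hA' n
  have r1 : R / (m / 2) + 1 ≤ W ^ (2 * c + 2) := by
    have h1 : R / (m / 2) = 2 * (R * m⁻¹) := by field_simp
    have h2 : R * m⁻¹ ≤ U * U := mul_le_mul hR' hm' (inv_pos.2 hm).le hUp.le
    have h3 : W ^ (2 * c + 2) = (U * U) * (W * W) := by
      rw [hU, ← Real.rpow_add hW0, Real.rpow_add hW0, Real.rpow_two]; ring_nf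
    rw [h1, h3]
    have h4 : 1 ≤ U * U := by nlinarith
    have h5 : 4 ≤ W * W := by nlinarith
    nlinarith
  have r4 : (R / (m / 2) + 1) ^ 4 ≤ W ^ (4 * (2 * c + 2)) := by
    have h0 : 0 ≤ R / (m / 2) + 1 := by positivity
    calc (R / (m / 2) + 1) ^ 4 ≤ (W ^ (2 * c + 2)) ^ 4 := pow_le_pow_left₀ h0 r1 4
      _ = W ^ (4 * (2 * c + 2)) := by
          rw [← Real.rpow_natCast, ← Real.rpow_mul hW0.le]; congr 1; push_cast; ring
  have k1 : 200 * V ^ 2 * K ^ 3 ≤ W ^ (8 + 5 * c) := by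
    have h1 : V ^ 2 ≤ U ^ 2 := pow_le_pow_left₀ hV0 hV' 2
    have h2 : K ^ 3 ≤ U ^ 3 := pow_le_pow_left₀ hK hK' 3
    have h3 : W ^ (8 + 5 * c) = W ^ ((8:ℕ):ℝ) * (U ^ 2 * U ^ 3) := by
      rw [← pow_add, pw, ← Real.rpow_add hW0]; congr 1; push_cast; ring
    rw [h3, mul_assoc]
    exact mul_le_mul n8 (mul_le_mul h1 h2 (by positivity) (by positivity)) (by positivity)
      (by positivity)
  have k10 : 0 ≤ 200 * V ^ 2 * K ^ 3 := by positivity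
  have k2 : ((200 * V ^ 2 * K ^ 3) ^ 2 * V) ^ 2 ≤ W ^ (34 + 22 * c) := by
    have h1 : (200 * V ^ 2 * K ^ 3) ^ 2 * V ≤ (W ^ (8 + 5 * c)) ^ 2 * U :=
      mul_le_mul (pow_le_pow_left₀ k10 k1 2) hV' hV0 (by positivity)
    calc ((200 * V ^ 2 * K ^ 3) ^ 2 * V) ^ 2 ≤ ((W ^ (8 + 5 * c)) ^ 2 * U) ^ 2 :=
          pow_le_pow_left₀ (by positivity) h1 2
      _ = W ^ (32 + 22 * c) := by
          rw [hU, ← Real.rpow_natCast, ← Real.rpow_natCast, ← Real.rpow_mul hW0.le,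
            ← Real.rpow_add hW0, ← Real.rpow_mul hW0.le]; congr 1; push_cast; ring
      _ ≤ W ^ (34 + 22 * c) := Real.rpow_le_rpow_of_exponent_le hW1 (by linarith)
  have hUs : U ^ (1 + s2) = W ^ (c * (1 + s2)) := by
    rw [hU, ← Real.rpow_mul hW0.le]
  have big : A ^ n * (2 * 10 ^ 8 * (N + 1) * (R / (m / 2) + 1) ^ 4 *
        ((200 * V ^ 2 * K ^ 3) ^ 2 * V) ^ 2 * (200 * V ^ 2 * K ^ 3) *
        (Kc * M *
          (J⁻¹ ^ (1 + s1) * (1 / M0) ^ (1 + s2)))) ≤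
      W ^ (c * n) * (W ^ ((28:ℕ):ℝ) * U * W ^ (4 * (2 * c + 2)) * W ^ (34 + 22 * c) *
        W ^ (8 + 5 * c) * (W ^ C2 * M *
          ((J ^ (1 + s1))⁻¹ * (U ^ (1 + s2) * (E ^ (1 + s2))⁻¹)))) := by
    rw [e1]
    exact mono8 (by positivity) (by positivity) (by positivity) (by positivity) k10
      hL (by positivity) (by norm_num) hM (by positivity) e4 hN' r4 k2 k1 hL' e2 e3
  refine big.trans (le_of_eq ?_)
  rw [hUs]
  have expand : W ^ (28 + c * n + c + 4 * (2 * c + 2) + (34 + 22 * c) + (8 + 5 * c) +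
      C2 + c * (1 + s2)) =
      W ^ ((28:ℕ):ℝ) * W ^ (c * n) * U * W ^ (4 * (2 * c + 2)) * W ^ (34 + 22 * c) *
        W ^ (8 + 5 * c) * W ^ C2 * W ^ (c * (1 + s2)) := by
    rw [hU, ← Real.rpow_add hW0, ← Real.rpow_add hW0, ← Real.rpow_add hW0, ← Real.rpow_add hW0,
      ← Real.rpow_add hW0, ← Real.rpow_add hW0, ← Real.rpow_add hW0]
    congr 1
  rw [expand, div_eq_mul_inv, mul_inv]
  ring

end Crest.Agent.R136.Vfin2639
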