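import Crest.Agent.R136.Plk6_511
import Crest.Agent.R136.Vlk_639
import Crest.Agent.R136.Cut_639
import Crest.Agent.R136.Vfin2_639

/-!
# R136 (S0187), PLAN 2, B4: `LnkP ⊢ ShareR` (helper639)

`LnkP` : on every piece `F` of the class (8 labels of cells of side `W^-c`) the data `Vlk639.Lnk`.
`shareR_of` : precut + `Plk511.cap_shd` + `Vlk639.share_lnk` + `Vfin2639.num_share`.
-/

set_option autoImplicit false
set_option linter.unusedVariables false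

open Finset

namespace Crest.Agent.R136.Vas639

open Crest.Agent.R136.Sh605 Crest.Agent.R136.Fl808
open Crest.Agent.R136.K4 (Plk4)
open Crest.Agent.R136.Tlt51 (Shp InP)
open Crest.Agent.R136.Pl2
open Crest.Agent.R136.Pl2W102 (Near Ex2 Two1)
open Crest.Agent.R136.Shd410 Crest.Agent.R136.Plk511 Crest.Agent.R136.Vlk639
open Crest.Agent.R136.Grp639 Crest.Agent.R136.Lnk989

/-- the 8 closeness labels of a piece -/
def Close8 (μ : ℝ) (S S' : Plk4) (L : ℕ → Ln4) (z0 ρ : ℝ) (F : Finset ℕ) : Prop :=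
  ∀ T ∈ F, ∀ T' ∈ F, ∀ z, z = z0 ∨ z = z0 + ρ →
    |dt (S.e 1) (dis (L T) (L T') z)| ≤ μ * S.w 1 ∧
    |dt (S.e 2) (dis (L T) (L T') z)| ≤ μ * S.w 2 ∧
    |dt (S'.e 1) (dis (L T) (L T') z)| ≤ μ * S'.w 1 ∧
    |dt (S'.e 2) (dis (L T) (L T') z)| ≤ μ * S'.w 2

/-- **TARGET** : the data of the groups on every piece -/
def LnkP : Prop := ∀ (η : ℝ) (qm qp : Fin 3 → ℝ), Ex2 η qm qp → ∃ K c : ℝ, 0 ≤ K ∧ 0 ≤ c ∧
  ∀ (L : ℕ → Ln4) (Z : Finset ℕ) (S S' : Plk4) (f g : Fin 3 → V3)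
    (W M a Y w1 w2 z0 ρ r : ℝ) (j k' : ℕ),
    ShD K qm qp L Z S S' f g W M a Y w1 w2 z0 ρ r j k' →
    ∀ t0 ∈ Z, ∀ F ⊆ Z, F.Nonempty → Close8 (W ^ c)⁻¹ S S' L z0 ρ F →
    ∃ (N : ℕ → V3) (b : ℕ → ℝ) (gg : ℕ → Fin 2 → ℝ) (Mf : ℕ → ℝ) (G G' : ℕ → ℝ × ℝ)
      (H H' : ℕ → ℝ × ℝ × ℝ) (R m V Kc d M0 Mx : ℝ),
      Lnk F (stp S.e (2 ^ j) w1 w2 z0 (L t0) L) (stc S.e (2 ^ j) w1 w2 ρ (L t0) L) b gg
        (ny0 S.e S.w S.a z0 ρ N b L) (ny1 S.e S.w S.a z0 ρ N L) Mf G G' H H' R m V Kc d M0 Mx ∧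
      (∀ T ∈ F, |N T 1 / N T 0| ≤ 2 ∧ |N T 2 / N T 0| ≤ 2) ∧
      R ≤ W ^ c ∧ m⁻¹ ≤ W ^ c ∧ V ≤ W ^ c ∧ Kc ≤ W ^ c ∧ 1 ≤ M0 ∧
      (2:ℝ) ^ k' * (Y / a) ≤ W ^ c * M0 ∧ Mx * a ≤ W ^ c * w2

theorem k1_le {W c V K : ℝ} (hW : 2 ≤ W) (hc : 0 ≤ c) (hV : 0 ≤ V) (hV' : V ≤ W ^ c) (hK : 0 ≤ K)
    (hK' : K ≤ W ^ c) : 200 * V ^ 2 * K ^ 3 ≤ W ^ (8 + 5 * c) := by
  have hW0 : 0 < W := by linarith
  have hU : 0 < W ^ c := Real.rpow_pos_of_pos hW0 c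
  have n8 : (200:ℝ) ≤ W ^ (8:ℕ) := le_trans (by norm_num) (pow_le_pow_left₀ (by norm_num) hW 8)
  have h1 : V ^ 2 ≤ (W ^ c) ^ 2 := pow_le_pow_left₀ hV hV' 2
  have h2 : K ^ 3 ≤ (W ^ c) ^ 3 := pow_le_pow_left₀ hK hK' 3
  have h3 : W ^ (8 + 5 * c) = W ^ (8:ℕ) * ((W ^ c) ^ 2 * (W ^ c) ^ 3) := by
    rw [← pow_add, ← Real.rpow_natCast (W ^ c), ← Real.rpow_mul hW0.le, ← Real.rpow_natCast W,
      ← Real.rpow_add hW0]
    congr 1; push_cast; ring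
  rw [h3, mul_assoc]
  exact mul_le_mul n8 (mul_le_mul h1 h2 (by positivity) (by positivity)) (by positivity)
    (by positivity)

theorem inP_le {t t0 : Ln4} {S : Plk4} {z0 ρ : ℝ} (h : InP t S z0 ρ) (h0 : InP t0 S z0 ρ) {z : ℝ}
    (hz : z0 ≤ z) (hz' : z ≤ z0 + ρ) (i : Fin 3) (hw : 0 < S.w i) :
    |dt (S.e i) (t.pos z - t0.pos z) / S.w i| ≤ 2 := by
  have a1 := (h z hz hz').1 i
  have a2 := (h0 z hz hz').1 i
  have e : dt (S.e i) (t.pos z - t0.pos z) =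
      dt (S.e i) (t.pos z - S.c.pos z) - dt (S.e i) (t0.pos z - S.c.pos z) := by
    simp only [dt, Pi.sub_apply]; ring
  rw [abs_div, abs_of_pos hw, div_le_iff₀ hw, e]
  refine (abs_sub _ _).trans ?_
  linarith

/-- the eight labels -/
noncomputable def lab (S S' : Plk4) (L : ℕ → Ln4) (t0 : Ln4) (z0 ρ : ℝ) (k : Fin 8) (T : ℕ) : ℝ :=
  if k = 0 then dt (S.e 1) ((L T).pos z0 - t0.pos z0) / S.w 1
  else if k = 1 then dt (S.e 2) ((L T).pos z0 - t0.pos z0) / S.w 2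
  else if k = 2 then dt (S'.e 1) ((L T).pos z0 - t0.pos z0) / S'.w 1
  else if k = 3 then dt (S'.e 2) ((L T).pos z0 - t0.pos z0) / S'.w 2
  else if k = 4 then dt (S.e 1) ((L T).pos (z0 + ρ) - t0.pos (z0 + ρ)) / S.w 1
  else if k = 5 then dt (S.e 2) ((L T).pos (z0 + ρ) - t0.pos (z0 + ρ)) / S.w 2
  else if k = 6 then dt (S'.e 1) ((L T).pos (z0 + ρ) - t0.pos (z0 + ρ)) / S'.w 1
  else dt (S'.e 2) ((L T).pos (z0 + ρ) - t0.pos (z0 + ρ)) / S'.w 2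

theorem lab_close {e : V3} {w μ : ℝ} (hw : 0 < w) (T T' t0 : Ln4) (z : ℝ)
    (h : |dt e (T'.pos z - t0.pos z) / w - dt e (T.pos z - t0.pos z) / w| ≤ μ) :
    |dt e (dis T T' z)| ≤ μ * w := by
  have e1 : dt e (T'.pos z - t0.pos z) / w - dt e (T.pos z - t0.pos z) / w =
      dt e (dis T T' z) / w := by
    rw [← sub_div]; congr 1
    simp only [dt, dis, Pi.sub_apply]; ring
  rw [e1, abs_div, abs_of_pos hw, div_le_iff₀ hw] at h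
  exact h

set_option maxHeartbeats 1000000 in
/-- **`LnkP ⊢ ShareR`** -/
theorem shareR_of (h : LnkP) : ShareR := by
  intro η qm qp hE
  obtain ⟨K, c, hK, hc, hl⟩ := h η qm qp hE
  obtain ⟨c1, hc1⟩ : ∃ c1 : ℝ, c1 = 8 + 5 * c := ⟨_, rfl⟩
  have hc10 : 0 ≤ c1 := by rw [hc1]; positivity
  obtain ⟨C2, hC2, hcap⟩ := cap_shd hE hc10
  obtain ⟨C, hC, hnum⟩ := Vfin2639.num_share 8 hc10 (hE.le 1).1 (hE.le 2).1 hC2
  refine ⟨K, C, hK, hC, ?_⟩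
  intro L Z S S' f g W M a Y w1 w2 z0 ρ r j k' D
  have hW := D.W2
  have W0 : 0 < W := by linarith
  have W1 : 1 ≤ W := by linarith
  have ha := D.a0
  have hY : 0 < Y := ha.trans_le D.aY
  have hw2 : 0 < w2 := hY.trans_le D.Yw
  have hw1 : 0 < w1 := hw2.trans_le D.ww
  have hJ : 0 < (2:ℝ) ^ j := by positivity
  have hE0 : 0 < (2:ℝ) ^ k' * (Y / a) := by positivity
  have hM := D.M0
  have hX : 0 ≤ W ^ C * M / (((2:ℝ) ^ j) ^ (1 + qm 1) * ((2:ℝ) ^ k' * (Y / a)) ^ (1 + qm 2)) := by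
    positivity
  rcases Z.eq_empty_or_nonempty with hZ | ⟨t0, ht0⟩
  · rw [hZ, Finset.card_empty, Nat.cast_zero]; exact hX
  obtain ⟨X, hXe⟩ : ∃ X, X = W ^ C * M /
      (((2:ℝ) ^ j) ^ (1 + qm 1) * ((2:ℝ) ^ k' * (Y / a)) ^ (1 + qm 2)) := ⟨_, rfl⟩
  rw [← hXe] at hX ⊢
  have hWc : 0 < W ^ c := Real.rpow_pos_of_pos W0 c
  have hWc1 : 1 ≤ W ^ c := Real.one_le_rpow W1 hc
  have hmono : ∀ x y : ℝ, x ≤ y → W ^ x ≤ W ^ y := fun x y h =>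
    Real.rpow_le_rpow_of_exponent_le W1 h
  -- number of cells of one label
  obtain ⟨A, hA⟩ : ∃ A : ℝ, A = 2 * 2 / (W ^ c)⁻¹ + 1 := ⟨_, rfl⟩
  have hA1 : A = 4 * W ^ c + 1 := by rw [hA, div_inv_eq_mul]; ring
  have hA0 : 0 < A := by rw [hA1]; positivity
  have hAc : A ≤ W ^ c1 := by
    have h1 : W ^ (c + 3) ≤ W ^ c1 := hmono _ _ (by rw [hc1]; linarith)
    refine le_trans ?_ h1
    rw [hA1, Real.rpow_add W0, show (3:ℝ) = ((3:ℕ):ℝ) by norm_num, Real.rpow_natCast]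
    have h8 : (8:ℝ) ≤ W ^ 3 := le_trans (by norm_num) (pow_le_pow_left₀ (by norm_num) hW 3)
    nlinarith
  have hS := D.shS
  have hS' := D.shS'
  have p0 : 0 < S.w 0 := (D.r0.trans_le hS.r0_le).trans_le hS.a_le0
  have p2 : 0 < S.w 2 := p0.trans_le hS.w0_le
  have p1 : 0 < S.w 1 := p2.trans_le hS.w_le
  have p0' : 0 < S'.w 0 := (D.r0.trans_le hS'.r0_le).trans_le hS'.a_le0
  have p2' : 0 < S'.w 2 := p0'.trans_le hS'.w0_le
  have p1' : 0 < S'.w 1 := p2'.trans_le hS'.w_le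
  have pa : 0 < S.a := D.r0.trans_le hS.r0_le
  have hρ := D.ρ0
  -- labels
  have hlab : ∀ k : Fin 8, ∀ T ∈ Z, |lab S S' L (L t0) z0 ρ k T| ≤ 2 := by
    intro k T hT
    have i1 := D.inS T hT
    have i2 := D.inS' T hT
    have i3 := D.inS t0 ht0
    have i4 := D.inS' t0 ht0
    have z1 : z0 ≤ z0 := le_rfl
    have z2 : z0 ≤ z0 + ρ := by linarith
    have z3 : z0 + ρ ≤ z0 + ρ := le_rfl
    unfold lab
    split_ifs
    · exact inP_le i1 i3 z1 z2 1 p1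
    · exact inP_le i1 i3 z1 z2 2 p2
    · exact inP_le i2 i4 z1 z2 1 p1'
    · exact inP_le i2 i4 z1 z2 2 p2'
    · exact inP_le i1 i3 z2 z3 1 p1
    · exact inP_le i1 i3 z2 z3 2 p2
    · exact inP_le i2 i4 z2 z3 1 p1'
    · exact inP_le i2 i4 z2 z3 2 p2'
  have hcut := Cut639.precutF (n := 8) (Z := Z) (lab S S' L (L t0) z0 ρ) (A := 2)
    (d := (W ^ c)⁻¹) (B := X / A ^ 8) (by norm_num) (inv_pos.2 hWc) (by positivity) hlab ?_
  · rw [← hA] at hcut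
    refine hcut.trans (le_of_eq ?_)
    field_simp
  intro F hF hFl
  rw [le_div_iff₀ (by positivity)]
  rcases F.eq_empty_or_nonempty with hFe | hFn
  · rw [hFe, Finset.card_empty, Nat.cast_zero, zero_mul]; exact hX
  have hcl : Close8 (W ^ c)⁻¹ S S' L z0 ρ F := by
    intro T hT T' hT' z hz
    have q0 := hFl 0 T' hT' T hT
    have q1 := hFl 1 T' hT' T hT
    have q2 := hFl 2 T' hT' T hT
    have q3 := hFl 3 T' hT' T hT
    have q4 := hFl 4 T' hT' T hT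
    have q5 := hFl 5 T' hT' T hT
    have q6 := hFl 6 T' hT' T hT
    have q7 := hFl 7 T' hT' T hT
    simp only [lab] at q0 q1 q2 q3 q4 q5 q6 q7
    norm_num [Fin.ext_iff] at q0 q1 q2 q3 q4 q5 q6 q7
    rcases hz with rfl | rfl
    · exact ⟨lab_close p1 _ _ (L t0) _ q0, lab_close p2 _ _ (L t0) _ q1,
        lab_close p1' _ _ (L t0) _ q2, lab_close p2' _ _ (L t0) _ q3⟩
    · exact ⟨lab_close p1 _ _ (L t0) _ q4, lab_close p2 _ _ (L t0) _ q5,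
        lab_close p1' _ _ (L t0) _ q6, lab_close p2' _ _ (L t0) _ q7⟩
  obtain ⟨Nf, b, gg, Mf, G, G', H, H', R, m, V, Kc, d, M0, Mx, hL, hN, hR, hm, hV, hKc, hM0, hEM,
    hMx⟩ := hl L Z S S' f g W M a Y w1 w2 z0 ρ r j k' D t0 ht0 F hF hFn hcl
  obtain ⟨T1, hT1⟩ := hFn
  have hV1 := hL.hW
  have hK1 := hL.hK
  have V0 : 0 < V := by linarith
  have K0 : 0 < Kc := by linarith
  have hM0x : M0 ≤ Mx := (hL.MM T1 hT1).trans (hL.Mx T1 hT1)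
  have Mx0 : 0 < Mx := by linarith
  have hcc : W ^ c ≤ W ^ c1 := hmono _ _ (by rw [hc1]; linarith)
  have k1 : 200 * V ^ 2 * Kc ^ 3 ≤ W ^ c1 := by
    rw [hc1]; exact k1_le hW hc V0.le hV K0.le hKc
  have k11 : 1 ≤ 200 * V ^ 2 * Kc ^ 3 := by
    have h1 : 1 ≤ V ^ 2 := one_le_pow₀ hV1
    have h2 : 1 ≤ Kc ^ 3 := one_le_pow₀ hK1
    nlinarith
  -- number of dyadic classes
  have hVM : V * Mx ≤ W ^ (2 * c) * (w1 / a) := by
    have h1 : Mx ≤ W ^ c * (w1 / a) := by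
      rw [mul_div_assoc', le_div_iff₀ ha]
      exact hMx.trans (mul_le_mul_of_nonneg_left D.ww hWc.le)
    have h2 : W ^ (2 * c) = W ^ c * W ^ c := by rw [← Real.rpow_add W0]; congr 1; ring
    rw [h2, mul_assoc]
    exact mul_le_mul hV h1 Mx0.le hWc.le
  obtain ⟨N, hN1, hN2⟩ := Vfin2639.exN hW (by positivity : 0 ≤ 2 * c) (div_pos hw1 ha) D.lg hVM
  have hN3 : (N : ℝ) + 1 ≤ W ^ c1 := hN2.trans (hmono _ _ (by rw [hc1]; linarith))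
  have hl0 : 0 ≤ (V * Mx)⁻¹ := by positivity
  have hal : a ≤ W ^ c1 * ((V * Mx)⁻¹ * w2) := by
    have h1 : a * (V * Mx) ≤ W ^ c1 * w2 := by
      have h2 : W ^ (2 * c) ≤ W ^ c1 := hmono _ _ (by rw [hc1]; linarith)
      have h3 : W ^ (2 * c) = W ^ c * W ^ c := by rw [← Real.rpow_add W0]; congr 1; ring
      calc a * (V * Mx) = V * (Mx * a) := by ring
        _ ≤ W ^ c * (W ^ c * w2) := mul_le_mul hV hMx (by positivity) hWc.le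
        _ = W ^ (2 * c) * w2 := by rw [h3]; ring
        _ ≤ W ^ c1 * w2 := mul_le_mul_of_nonneg_right h2 hw2.le
    have h4 : W ^ c1 * ((V * Mx)⁻¹ * w2) = (W ^ c1 * w2) / (V * Mx) := by
      field_simp
    rw [h4, le_div_iff₀ (by positivity)]
    exact h1
  have haM : a * M0 ≤ W ^ c1 * w2 := by
    calc a * M0 ≤ a * Mx := mul_le_mul_of_nonneg_left hM0x ha.le
      _ = Mx * a := by ring
      _ ≤ W ^ c * w2 := hMx
      _ ≤ W ^ c1 * w2 := mul_le_mul_of_nonneg_right hcc hw2.le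
  have hau : S.a ≤ W ^ c1 * a := by
    have h1 : W ^ (1:ℝ) ≤ W ^ c1 := hmono _ _ (by rw [hc1]; linarith)
    rw [Real.rpow_one] at h1
    exact D.da.2.trans (mul_le_mul_of_nonneg_right h1 ha.le)
  have CAP := hcap (b := b) D (L t0) hF pa hau k11 k1 hN hL.gn hM0 haM hl0 hal
  have hQ0 : 0 ≤ W ^ C2 * M * ((1 / 2 ^ j) ^ (1 + qm 1) * (1 / M0) ^ (1 + qm 2)) := by
    have : 0 < M0 := by linarith
    positivity
  have cnt := share_lnk hL hN1 (hE.le 2).1 hQ0 CAP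
  have fin := hnum W M ((2:ℝ) ^ j) ((2:ℝ) ^ k' * (Y / a)) M0 A R m V Kc (W ^ C2) N hW hM.le hJ hE0
    (hEM.trans (mul_le_mul_of_nonneg_right hcc (by linarith))) hA0.le hAc hN3 hL.hR
    (hR.trans hcc) hL.hm (hm.trans hcc) V0.le (hV.trans hcc) K0.le (hKc.trans hcc)
    (Real.rpow_pos_of_pos W0 _).le le_rfl
  rw [← hXe] at fin
  refine le_trans ?_ fin
  rw [mul_comm]
  refine mul_le_mul_of_nonneg_left ?_ (by positivity)
  rw [one_div] at cnt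
  exact cnt

end Crest.Agent.R136.Vas639
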