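import Crest.Agent.R136.Shl_410
import Crest.Agent.R136.Cut_639
import Crest.Agent.R136.Vfin2_639
import Crest.Agent.R136.Shv2_410

/-!
# R136 (S0187), PLAN 2, leaf (B4) share: final assembly (helper410)

`shareR_of : LnkS → ShareR`.
-/

set_option autoImplicit false
set_option linter.unusedVariables false

open Finset

namespace Crest.Agent.R136.Shv410

open Crest.Agent.R136.Sh605 Crest.Agent.R136.Fl808
open Crest.Agent.R136.K4 (Plk4)
open Crest.Agent.R136.Tlt51 (Shp InP)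
open Crest.Agent.R136.Pl2
open Crest.Agent.R136.Pl2W102 (Near Ex2 Two1)
open Crest.Agent.R136.Shd410
open Crest.Agent.R136.Lnk989 (dis)
open Crest.Agent.R136.Plk511 (stp stc ny0 ny1 cap_shd)
open Crest.Agent.R136.Vlk639 (Lnk share_lnk)

theorem bx_le {S : Plk4} {z0 ρ : ℝ} {T T0 : Ln4} (hT : InP T S z0 ρ) (hT0 : InP T0 S z0 ρ)
    {k : Fin 3} (hw : 0 < S.w k) {z : ℝ} (hz : z0 ≤ z) (hz' : z ≤ z0 + ρ) :
    |dt (S.e k) (T.pos z - T0.pos z) / S.w k| ≤ 2 := by
  have a1 := (hT z hz hz').1 k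
  have a2 := (hT0 z hz hz').1 k
  have e1 : dt (S.e k) (T.pos z - T0.pos z) =
      dt (S.e k) (T.pos z - S.c.pos z) - dt (S.e k) (T0.pos z - S.c.pos z) := by
    simp only [dt, Pi.sub_apply]; ring
  rw [abs_div, abs_of_pos hw, div_le_iff₀ hw, e1]
  exact (abs_sub _ _).trans ((add_le_add a1 a2).trans (by linarith))

theorem dl_le {e : V3} {T T' T0 : Ln4} {z w d : ℝ} (hw : 0 < w)
    (h : |dt e (T'.pos z - T0.pos z) / w - dt e (T.pos z - T0.pos z) / w| ≤ d) :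
    |dt e (dis T T' z)| ≤ d * w := by
  have e1 : dt e (T'.pos z - T0.pos z) / w - dt e (T.pos z - T0.pos z) / w =
      dt e (dis T T' z) / w := by
    rw [← sub_div]
    congr 1
    simp only [dis, dt, Pi.sub_apply]; ring
  rw [e1, abs_div, abs_of_pos hw, div_le_iff₀ hw] at h
  exact h

set_option maxHeartbeats 1000000 in
open Classical in
/-- **final assembly** -/
theorem shareR_of (h : LnkS) : ShareR := by
  intro η qm qp hx
  obtain ⟨K, c, hK, hc, main⟩ := h η qm qp hx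
  have hm : ∀ k, 0 ≤ qm k := fun k => (hx.le k).1
  obtain ⟨c1, hc1⟩ : ∃ c1, c1 = 8 + 6 * c := ⟨_, rfl⟩
  have c10 : 0 ≤ c1 := by linarith
  obtain ⟨C2, hC2, hcap⟩ := cap_shd hx c10
  obtain ⟨C, hC, hnum⟩ := Vfin2639.num_share 8 (c := c1) (s1 := qm 1) (s2 := qm 2) (C2 := C2) c10
    (hm 1) (hm 2) hC2
  refine ⟨K, C, hK, hC, ?_⟩
  intro L Z S S' f g W M a Y w1 w2 z0 ρ r j k' H
  have W2 := H.W2
  have W1 : 1 ≤ W := by linarith
  have W0 : 0 < W := by linarith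
  have M0 := H.M0
  have a0 := H.a0
  have ρ0 := H.ρ0
  have hY : 0 < Y := a0.trans_le H.aY
  have hw2 : 0 < w2 := hY.trans_le H.Yw
  have hw1 : 0 < w1 := hw2.trans_le H.ww
  have hE : 0 < (2:ℝ) ^ k' * (Y / a) := by positivity
  obtain ⟨-, -, p2, p1⟩ := Btm781.shp_pos H.r0 H.shS
  obtain ⟨-, -, q2, q1⟩ := Btm781.shp_pos H.r0 H.shS'
  set RHS : ℝ := W ^ C * M / (((2:ℝ) ^ j) ^ (1 + qm 1) * ((2:ℝ) ^ k' * (Y / a)) ^ (1 + qm 2))
    with hRHS
  have R0 : 0 ≤ RHS := by positivity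
  rcases Z.eq_empty_or_nonempty with hZ | ⟨t0, ht0⟩
  · rw [hZ, card_empty, Nat.cast_zero]; exact R0
  have Wc : 1 ≤ W ^ c := Real.one_le_rpow W1 hc
  have Wcp : 0 < W ^ c := by positivity
  have mono : ∀ {x y : ℝ}, x ≤ y → W ^ x ≤ W ^ y := fun h =>
    Real.rpow_le_rpow_of_exponent_le W1 h
  have two_pow : ∀ n : ℕ, (2:ℝ) ^ n ≤ W ^ (n:ℝ) := fun n => by
    rw [Real.rpow_natCast]; exact pow_le_pow_left₀ (by norm_num) W2 n
  have hcc1 : W ^ c ≤ W ^ c1 := mono (by linarith)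
  set d : ℝ := 1 / W ^ c with hd
  have d0 : 0 < d := by positivity
  set A : ℝ := 2 * 2 / d + 1 with hA
  have eA : A = 4 * W ^ c + 1 := by rw [hA, hd]; field_simp; ring
  have A0 : 0 < A := by positivity
  have A1 : A ≤ W ^ c1 := by
    have h3 := two_pow 3
    have h4 : W ^ ((3:ℕ):ℝ) * W ^ c ≤ W ^ c1 := by
      rw [← Real.rpow_add W0]; exact mono (by push_cast; linarith)
    have h5 : 8 * W ^ c ≤ W ^ ((3:ℕ):ℝ) * W ^ c :=
      mul_le_mul_of_nonneg_right (by norm_num at h3 ⊢; linarith) Wcp.le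
    rw [eA]; linarith
  -- one part
  have part : ∀ F ⊆ Z, Small d L F S S' z0 ρ → (F.card : ℝ) ≤ RHS / A ^ 8 := by
    intro F hF hs
    rcases F.eq_empty_or_nonempty with hFe | hFn
    · rw [hFe, card_empty, Nat.cast_zero]; positivity
    obtain ⟨b, gv, N, au, Mf, G, G', Hh, Hh', R, m, V, K1, dd, M00, Mx, hL, hR, hm', hV, hK1,
      hME, hM1, hMx, hau, hau', hN⟩ := main L Z S S' f g W M a Y w1 w2 z0 ρ r j k' H t0 ht0 F hF
        hFn hs
    obtain ⟨T1, hT1⟩ := hFn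
    have hMM : M00 ≤ Mx := (hL.MM T1 hT1).trans (hL.Mx T1 hT1)
    have hM00 := hL.hM
    have hMxp : 0 < Mx := hM00.trans_le hMM
    have V1 := hL.hW
    have V0 : 0 < V := by linarith
    have K11 := hL.hK
    have K10 : 0 < K1 := by linarith
    have mp := hL.hm
    -- N
    have hX : V * Mx ≤ W ^ (2 * c) * (w1 / a) := by
      have e1 : Mx ≤ W ^ c * (w2 / a) := by
        rw [← mul_div_assoc, le_div_iff₀ a0]; linarith
      have e2 : w2 / a ≤ w1 / a := div_le_div_of_nonneg_right H.ww a0.le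
      have e3 : W ^ (2 * c) = W ^ c * W ^ c := by rw [← Real.rpow_add W0]; congr 1; ring
      rw [e3]
      calc V * Mx ≤ W ^ c * (W ^ c * (w2 / a)) := mul_le_mul hV e1 hMxp.le Wcp.le
        _ ≤ W ^ c * (W ^ c * (w1 / a)) := by gcongr
        _ = _ := by ring
    obtain ⟨n, hn1, hn2⟩ := Vfin2639.exN W2 (by positivity : 0 ≤ 2 * c) (div_pos hw1 a0) H.lg hX
    have hn3 : (n:ℝ) + 1 ≤ W ^ c1 := hn2.trans (mono (by linarith))
    -- Kc
    have hKc1 : 1 ≤ 200 * V ^ 2 * K1 ^ 3 := by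
      have x1 : 1 ≤ V ^ 2 := one_le_pow₀ V1
      have x2 : 1 ≤ K1 ^ 3 := one_le_pow₀ K11
      nlinarith
    have hKc : 200 * V ^ 2 * K1 ^ 3 ≤ W ^ c1 := by
      have h8 := two_pow 8
      have e8 : (200:ℝ) ≤ W ^ ((8:ℕ):ℝ) := by norm_num at h8 ⊢; linarith
      have eV : V ^ 2 ≤ (W ^ c) ^ 2 := by gcongr
      have eK : K1 ^ 3 ≤ (W ^ c) ^ 3 := by gcongr
      calc 200 * V ^ 2 * K1 ^ 3 ≤ W ^ ((8:ℕ):ℝ) * (W ^ c) ^ 2 * (W ^ c) ^ 3 := by gcongr
        _ = W ^ (8 + 5 * c) := by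
            rw [← Real.rpow_natCast (W ^ c) 2, ← Real.rpow_natCast (W ^ c) 3,
              ← Real.rpow_mul W0.le, ← Real.rpow_mul W0.le, ← Real.rpow_add W0,
              ← Real.rpow_add W0]
            congr 1; push_cast; ring
        _ ≤ W ^ c1 := mono (by linarith)
    have haM : a * M00 ≤ W ^ c1 * w2 := by
      calc a * M00 ≤ a * Mx := by gcongr
        _ ≤ W ^ c * w2 := hMx
        _ ≤ W ^ c1 * w2 := by gcongr
    have hal : a ≤ W ^ c1 * ((V * Mx)⁻¹ * w2) := by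
      have e3 : W ^ c * W ^ c ≤ W ^ c1 := by rw [← Real.rpow_add W0]; exact mono (by linarith)
      have e4 : W ^ c1 * ((V * Mx)⁻¹ * w2) = W ^ c1 * w2 / (V * Mx) := by
        rw [div_eq_mul_inv]; ring
      rw [e4, le_div_iff₀ (by positivity)]
      calc a * (V * Mx) = V * (a * Mx) := by ring
        _ ≤ W ^ c * (W ^ c * w2) := by
            refine mul_le_mul hV hMx (by positivity) Wcp.le
        _ = W ^ c * W ^ c * w2 := by ring
        _ ≤ W ^ c1 * w2 := by gcongr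
    have hCap := hcap H (L t0) hF (Kc := 200 * V ^ 2 * K1 ^ 3) (M0 := M00)
      (lam0 := (V * Mx)⁻¹) (au := au) (N := N) (g := gv) (b := b) hau
      (hau'.trans (by gcongr)) hKc1 hKc hN hL.gn hM1 haM (by positivity) hal
    have hcard := share_lnk hL hn1 (hm 2) (by positivity) hCap
    have hfin := hnum W M ((2:ℝ) ^ j) ((2:ℝ) ^ k' * (Y / a)) M00 A R m V K1 (W ^ C2) n W2 M0.le
      (by positivity) hE (hME.trans (by gcongr)) A0.le A1 hn3 hL.hR (hR.trans hcc1) mp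
      (by
        refine le_trans ?_ hcc1
        rw [inv_le_iff_one_le_mul₀ mp]; exact hm')
      V0.le (hV.trans hcc1) K10.le (hK1.trans hcc1) (by positivity) le_rfl
    rw [le_div_iff₀ (by positivity)]
    rw [one_div] at hcard
    calc (F.card : ℝ) * A ^ 8 = A ^ 8 * F.card := by ring
      _ ≤ _ := mul_le_mul_of_nonneg_left hcard (by positivity)
      _ ≤ RHS := hfin
  -- the labels
  have zz0 : z0 ≤ z0 + ρ := by linarith
  have key : (Z.card : ℝ) ≤ A ^ 8 * (RHS / A ^ 8) := by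
    refine Cut639.precutF (n := 8)
      (fun i T => dt ((![S.e 1, S.e 2, S'.e 1, S'.e 2, S.e 1, S.e 2, S'.e 1, S'.e 2] : Fin 8 → V3) i)
        ((L T).pos ((![z0, z0, z0, z0, z0 + ρ, z0 + ρ, z0 + ρ, z0 + ρ] : Fin 8 → ℝ) i) -
          (L t0).pos ((![z0, z0, z0, z0, z0 + ρ, z0 + ρ, z0 + ρ, z0 + ρ] : Fin 8 → ℝ) i)) /
        (![S.w 1, S.w 2, S'.w 1, S'.w 2, S.w 1, S.w 2, S'.w 1, S'.w 2] : Fin 8 → ℝ) i)
      (by norm_num) d0 (by positivity) ?_ ?_
    · intro i T hT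
      fin_cases i
      · exact bx_le (H.inS T hT) (H.inS t0 ht0) p1 le_rfl zz0
      · exact bx_le (H.inS T hT) (H.inS t0 ht0) p2 le_rfl zz0
      · exact bx_le (H.inS' T hT) (H.inS' t0 ht0) q1 le_rfl zz0
      · exact bx_le (H.inS' T hT) (H.inS' t0 ht0) q2 le_rfl zz0
      · exact bx_le (H.inS T hT) (H.inS t0 ht0) p1 zz0 le_rfl
      · exact bx_le (H.inS T hT) (H.inS t0 ht0) p2 zz0 le_rfl
      · exact bx_le (H.inS' T hT) (H.inS' t0 ht0) q1 zz0 le_rfl
      · exact bx_le (H.inS' T hT) (H.inS' t0 ht0) q2 zz0 le_rfl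
    · intro F hF hu
      refine part F hF ?_
      intro T hT T' hT' z hz k hk
      have b0 := dl_le (T := L T) (T' := L T') (T0 := L t0) (z := z0) p1 (hu 0 T' hT' T hT)
      have b1 := dl_le (T := L T) (T' := L T') (T0 := L t0) (z := z0) p2 (hu 1 T' hT' T hT)
      have b2 := dl_le (T := L T) (T' := L T') (T0 := L t0) (z := z0) q1 (hu 2 T' hT' T hT)
      have b3 := dl_le (T := L T) (T' := L T') (T0 := L t0) (z := z0) q2 (hu 3 T' hT' T hT)
      have b4 := dl_le (T := L T) (T' := L T') (T0 := L t0) (z := z0 + ρ) p1 (hu 4 T' hT' T hT)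
      have b5 := dl_le (T := L T) (T' := L T') (T0 := L t0) (z := z0 + ρ) p2 (hu 5 T' hT' T hT)
      have b6 := dl_le (T := L T) (T' := L T') (T0 := L t0) (z := z0 + ρ) q1 (hu 6 T' hT' T hT)
      have b7 := dl_le (T := L T) (T' := L T') (T0 := L t0) (z := z0 + ρ) q2 (hu 7 T' hT' T hT)
      rcases hz with rfl | rfl
      · fin_cases k
        · exact absurd rfl hk
        · exact ⟨b0, b2⟩
        · exact ⟨b1, b3⟩
      · fin_cases k
        · exact absurd rfl hk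
        · exact ⟨b4, b6⟩
        · exact ⟨b5, b7⟩
  refine key.trans (le_of_eq ?_)
  field_simp

end Crest.Agent.R136.Shv410
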