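import Mathlib

/-!
# R136 (S0187), PLAN 2, B4: the numbers at the end of the share of a pair (helper639)

`exN` : number of dyadic classes.  `fin_exp` : all the factors are `≤ (2 W)^C`.
-/

set_option autoImplicit false
set_option linter.unusedVariables false

namespace Crest.Agent.R136.Vfin639

/-- **number of dyadic classes** -/
theorem exN {X W c : ℝ} (hX : 0 < X) (hlog : Real.log X ≤ c * W) (hW : 1 ≤ W) (hc : 0 ≤ c) :
    ∃ N : ℕ, X ≤ 2 ^ N ∧ (N : ℝ) + 1 ≤ (2 * c + 2) * W := by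
  have hl2 : 0 < Real.log 2 := Real.log_pos (by norm_num)
  have hl2' : 1 / 2 < Real.log 2 := by have := Real.log_two_gt_d9; linarith
  refine ⟨⌈Real.log X / Real.log 2⌉₊, ?_, ?_⟩
  · have h1 : Real.log X / Real.log 2 ≤ (⌈Real.log X / Real.log 2⌉₊ : ℝ) := Nat.le_ceil _
    rw [div_le_iff₀ hl2] at h1
    have h2 : Real.log X ≤ Real.log ((2:ℝ) ^ ⌈Real.log X / Real.log 2⌉₊) := by
      rw [Real.log_pow]; exact h1
    exact (Real.log_le_log_iff hX (by positivity)).1 h2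
  · have h0 : 0 ≤ c * W := by positivity
    have h1 : Real.log X / Real.log 2 ≤ 2 * (c * W) := by
      rw [div_le_iff₀ hl2]
      nlinarith
    rcases le_or_gt (Real.log X / Real.log 2) 0 with h2 | h2
    · have : ⌈Real.log X / Real.log 2⌉₊ = 0 := Nat.ceil_eq_zero.2 h2
      rw [this]
      push_cast
      nlinarith
    · have := Nat.ceil_lt_add_one h2.le
      nlinarith

/-- `log ((2W)^c x) ≤ ..` -/
theorem log_le {W c x : ℝ} (hW : 1 ≤ W) (hc : 0 ≤ c) (hx : 0 < x) (hlog : Real.log x ≤ W) :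
    Real.log ((2 * W) ^ c * x) ≤ (2 * c + 1) * W := by
  have h0 : 0 < 2 * W := by linarith
  rw [Real.log_mul (Real.rpow_pos_of_pos h0 c).ne' hx.ne', Real.log_rpow h0]
  have h1 : Real.log (2 * W) ≤ 2 * W := (Real.log_le_sub_one_of_pos h0).trans (by linarith)
  nlinarith

/-- **the numbers** : `A` = number of cells of one label (`n` labels), `N1 = N + 1`, `R1 = R/(m/2)+1`,
`K1` = constant of the bundles, `W1` = 108's `W`, `Kc` = constant of the planks. -/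
theorem fin_exp (n : ℕ) {c s1 s2 : ℝ} (hc : 0 ≤ c) (hs1 : 0 ≤ s1) (hs2 : 0 ≤ s2) :
    ∃ C : ℝ, 0 ≤ C ∧ ∀ W M J E M0 A N1 R1 K1 W1 Kc : ℝ, 1 ≤ W → 0 ≤ M → 0 < J → 0 < E →
      E ≤ (2 * W) ^ c * M0 → 0 ≤ A → A ≤ (2 * W) ^ c → 0 ≤ N1 → N1 ≤ (2 * W) ^ c → 0 ≤ R1 →
      R1 ≤ (2 * W) ^ c → 0 ≤ K1 → K1 ≤ (2 * W) ^ c → 0 ≤ W1 → W1 ≤ (2 * W) ^ c → 0 ≤ Kc →
      Kc ≤ (2 * W) ^ c →
      A ^ n * (2 * 10 ^ 8 * N1 * R1 ^ 4 * (K1 ^ 2 * W1) ^ 2 * K1 *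
        (Kc * M * (J⁻¹ ^ (1 + s1) * (1 / M0) ^ (1 + s2)))) ≤
          (2 * W) ^ C * M / (J ^ (1 + s1) * E ^ (1 + s2)) := by
  refine ⟨28 + c * n + c + 4 * c + 6 * c + c + c + c * (1 + s2), by positivity, ?_⟩
  intro W M J E M0 A N1 R1 K1 W1 Kc hW hM hJ hE hEM hA hA' hN hN' hR hR' hK hK' hW1 hW1' hKc hKc'
  have h2W : 0 < 2 * W := by linarith
  have h2W1 : 1 ≤ 2 * W := by linarith
  set V : ℝ := (2 * W) ^ c with hV
  have hVp : 0 < V := Real.rpow_pos_of_pos h2W c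
  have hV1 : 1 ≤ V := Real.one_le_rpow h2W1 hc
  have hM0 : 0 < M0 := by
    by_contra h
    push Not at h
    have := mul_nonpos_of_nonneg_of_nonpos hVp.le h
    linarith
  have hJp : 0 < J ^ (1 + s1) := Real.rpow_pos_of_pos hJ _
  have hEp : 0 < E ^ (1 + s2) := Real.rpow_pos_of_pos hE _
  have e1 : J⁻¹ ^ (1 + s1) = (J ^ (1 + s1))⁻¹ := Real.inv_rpow hJ.le _
  have e2 : (1 / M0) ^ (1 + s2) ≤ V ^ (1 + s2) * (E ^ (1 + s2))⁻¹ := by
    have h1 : 1 / M0 ≤ V / E := by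
      rw [div_le_div_iff₀ hM0 hE]; linarith
    calc (1 / M0) ^ (1 + s2) ≤ (V / E) ^ (1 + s2) :=
          Real.rpow_le_rpow (by positivity) h1 (by linarith)
      _ = V ^ (1 + s2) * (E ^ (1 + s2))⁻¹ := by
          rw [Real.div_rpow hVp.le hE.le, div_eq_mul_inv]
  have e3 : (2:ℝ) * 10 ^ 8 ≤ (2 * W) ^ (28:ℝ) := by
    have : (2:ℝ) ^ (28:ℝ) ≤ (2 * W) ^ (28:ℝ) :=
      Real.rpow_le_rpow (by norm_num) (by linarith) (by norm_num)
    refine le_trans ?_ this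
    rw [show (28:ℝ) = ((28:ℕ):ℝ) by norm_num, Real.rpow_natCast]
    norm_num
  have e4 : A ^ n ≤ V ^ n := pow_le_pow_left₀ hA hA' n
  have e5 : R1 ^ 4 ≤ V ^ 4 := pow_le_pow_left₀ hR hR' 4
  have e6 : (K1 ^ 2 * W1) ^ 2 ≤ V ^ 6 := by
    have : K1 ^ 2 * W1 ≤ V ^ 2 * V :=
      mul_le_mul (pow_le_pow_left₀ hK hK' 2) hW1' hW1 (by positivity)
    calc (K1 ^ 2 * W1) ^ 2 ≤ (V ^ 2 * V) ^ 2 := pow_le_pow_left₀ (by positivity) this 2
      _ = V ^ 6 := by ring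
  have hVn : V ^ n = (2 * W) ^ (c * n) := by
    rw [hV, Real.rpow_mul h2W.le, Real.rpow_natCast]
  have hV4 : V ^ 4 = (2 * W) ^ (4 * c) := by
    rw [hV, ← Real.rpow_natCast, ← Real.rpow_mul h2W.le]; congr 1; push_cast; ring
  have hV6 : V ^ 6 = (2 * W) ^ (6 * c) := by
    rw [hV, ← Real.rpow_natCast, ← Real.rpow_mul h2W.le]; congr 1; push_cast; ring
  have hVs : V ^ (1 + s2) = (2 * W) ^ (c * (1 + s2)) := by
    rw [hV, ← Real.rpow_mul h2W.le]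
  have big : A ^ n * (2 * 10 ^ 8 * N1 * R1 ^ 4 * (K1 ^ 2 * W1) ^ 2 * K1 *
        (Kc * M * (J⁻¹ ^ (1 + s1) * (1 / M0) ^ (1 + s2)))) ≤
      V ^ n * ((2 * W) ^ (28:ℝ) * V * V ^ 4 * V ^ 6 * V *
        (V * M * ((J ^ (1 + s1))⁻¹ * (V ^ (1 + s2) * (E ^ (1 + s2))⁻¹)))) := by
    rw [e1]
    have p1 : 0 ≤ (1 / M0) ^ (1 + s2) := by positivity
    gcongr
  refine big.trans (le_of_eq ?_)
  rw [hVn, hV4, hV6, hVs]
  have expand : (2 * W) ^ (28 + c * n + c + 4 * c + 6 * c + c + c + c * (1 + s2)) =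
      (2 * W) ^ (28:ℝ) * (2 * W) ^ (c * n) * V * (2 * W) ^ (4 * c) * (2 * W) ^ (6 * c) * V * V *
        (2 * W) ^ (c * (1 + s2)) := by
    rw [hV, ← Real.rpow_add h2W, ← Real.rpow_add h2W, ← Real.rpow_add h2W, ← Real.rpow_add h2W,
      ← Real.rpow_add h2W, ← Real.rpow_add h2W, ← Real.rpow_add h2W]
  rw [expand, div_eq_mul_inv, mul_inv]
  ring

end Crest.Agent.R136.Vfin639
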