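import Crest.Agent.R136.Slb1_480

/-!
# R136, PLAN 2 (3), volume form: multiplicity bounds inside velocity balls (helper571)

`bad_small` : a family of lines all of whose planks have density at most `D` cannot have a proportion
`θ` of incidences of multiplicity `≥ m` when `m θ² > C H^ε D` (`Slb480.km3_mult` + pruning).
`typ_cell` : the same over a partition of the lines into cells.
`kmb` : for lines with plank counts `≤ W s₀ s₁ (max s₀ s₁)^q M`, outside a proportion `θ` of the
incidences, the lines through the box of the incidence whose velocity is within `β` of the velocity of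
the line are at most `C H^ε θ^-2 W β^q M / H²`.
-/

set_option autoImplicit false
set_option linter.unusedVariables false

open Finset

namespace Crest.Agent.R136.Vq571

open Crest.Agent.R138.Defs (E2)
open Crest.Agent.R136.Slb480 (ps km3_mult)
open Crest.Agent.R138.Tub70 (InPl KM32)

/-- remove poor fibres of two maps -/
theorem prune2 {α β γ : Type*} [DecidableEq α] [DecidableEq β] [DecidableEq γ]
    (f : α → β) (g : α → γ) (a b : ℝ) :
    ∀ (N : ℕ) (I : Finset α), I.card = N → ∃ J ⊆ I,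
      (∀ x ∈ J, a ≤ ((J.filter fun y => f y = f x).card : ℝ)) ∧
      (∀ x ∈ J, b ≤ ((J.filter fun y => g y = g x).card : ℝ)) ∧
      (I.card : ℝ) ≤ J.card + max a 0 * (I.image f).card + max b 0 * (I.image g).card := by
  intro N
  induction N using Nat.strong_induction_on with
  | _ N IH =>
    intro I hN
    by_cases h1 : ∃ x ∈ I, ((I.filter fun y => f y = f x).card : ℝ) < a
    · obtain ⟨x, hx, hlt⟩ := h1
      set I1 := I.filter fun y => ¬ f y = f x with hI1
      have hsplit : (I.filter fun y => f y = f x).card + I1.card = I.card :=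
        Finset.card_filter_add_card_filter_not (s := I) (fun y => f y = f x)
      have hxm : x ∈ I.filter fun y => f y = f x := Finset.mem_filter.mpr ⟨hx, rfl⟩
      have hpos : 0 < (I.filter fun y => f y = f x).card := Finset.card_pos.mpr ⟨x, hxm⟩
      obtain ⟨J, hJ, j1, j2, j3⟩ := IH I1.card (by omega) I1 rfl
      refine ⟨J, hJ.trans (Finset.filter_subset _ _), j1, j2, ?_⟩
      have him : (I1.image f).card + 1 ≤ (I.image f).card := by
        have hsub : I1.image f ⊆ (I.image f).erase (f x) := by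
          intro y hy
          obtain ⟨i, hi, rfl⟩ := Finset.mem_image.mp hy
          rw [Finset.mem_filter] at hi
          exact Finset.mem_erase.mpr ⟨hi.2, Finset.mem_image_of_mem f hi.1⟩
        have h2 := Finset.card_le_card hsub
        rw [Finset.card_erase_of_mem (Finset.mem_image_of_mem f hx)] at h2
        have h3 : 0 < (I.image f).card := Finset.card_pos.mpr ⟨f x, Finset.mem_image_of_mem f hx⟩
        omega
      have hig : (I1.image g).card ≤ (I.image g).card :=
        Finset.card_le_card (Finset.image_subset_image (Finset.filter_subset _ _))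
      have e1 : (I.card : ℝ) = ((I.filter fun y => f y = f x).card : ℝ) + I1.card := by
        exact_mod_cast hsplit.symm
      have e2 : ((I1.image f).card : ℝ) + 1 ≤ (I.image f).card := by exact_mod_cast him
      have e3 : ((I1.image g).card : ℝ) ≤ (I.image g).card := by exact_mod_cast hig
      have e4 : max a 0 * ((I1.image f).card + 1 : ℝ) ≤ max a 0 * (I.image f).card :=
        mul_le_mul_of_nonneg_left e2 (le_max_right _ _)
      have e5 : max b 0 * ((I1.image g).card : ℝ) ≤ max b 0 * (I.image g).card :=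
        mul_le_mul_of_nonneg_left e3 (le_max_right _ _)
      have e6 : a ≤ max a 0 := le_max_left _ _
      linarith
    · by_cases h2 : ∃ x ∈ I, ((I.filter fun y => g y = g x).card : ℝ) < b
      · obtain ⟨x, hx, hlt⟩ := h2
        set I1 := I.filter fun y => ¬ g y = g x with hI1
        have hsplit : (I.filter fun y => g y = g x).card + I1.card = I.card :=
          Finset.card_filter_add_card_filter_not (s := I) (fun y => g y = g x)
        have hxm : x ∈ I.filter fun y => g y = g x := Finset.mem_filter.mpr ⟨hx, rfl⟩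
        have hpos : 0 < (I.filter fun y => g y = g x).card := Finset.card_pos.mpr ⟨x, hxm⟩
        obtain ⟨J, hJ, j1, j2, j3⟩ := IH I1.card (by omega) I1 rfl
        refine ⟨J, hJ.trans (Finset.filter_subset _ _), j1, j2, ?_⟩
        have him : (I1.image g).card + 1 ≤ (I.image g).card := by
          have hsub : I1.image g ⊆ (I.image g).erase (g x) := by
            intro y hy
            obtain ⟨i, hi, rfl⟩ := Finset.mem_image.mp hy
            rw [Finset.mem_filter] at hi
            exact Finset.mem_erase.mpr ⟨hi.2, Finset.mem_image_of_mem g hi.1⟩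
          have h2 := Finset.card_le_card hsub
          rw [Finset.card_erase_of_mem (Finset.mem_image_of_mem g hx)] at h2
          have h3 : 0 < (I.image g).card := Finset.card_pos.mpr ⟨g x, Finset.mem_image_of_mem g hx⟩
          omega
        have hig : (I1.image f).card ≤ (I.image f).card :=
          Finset.card_le_card (Finset.image_subset_image (Finset.filter_subset _ _))
        have e1 : (I.card : ℝ) = ((I.filter fun y => g y = g x).card : ℝ) + I1.card := by
          exact_mod_cast hsplit.symm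
        have e2 : ((I1.image g).card : ℝ) + 1 ≤ (I.image g).card := by exact_mod_cast him
        have e3 : ((I1.image f).card : ℝ) ≤ (I.image f).card := by exact_mod_cast hig
        have e4 : max b 0 * ((I1.image g).card + 1 : ℝ) ≤ max b 0 * (I.image g).card :=
          mul_le_mul_of_nonneg_left e2 (le_max_right _ _)
        have e5 : max a 0 * ((I1.image f).card : ℝ) ≤ max a 0 * (I.image f).card :=
          mul_le_mul_of_nonneg_left e3 (le_max_right _ _)
        have e6 : b ≤ max b 0 := le_max_left _ _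
        linarith
      · push Not at h1 h2
        refine ⟨I, subset_rfl, h1, h2, ?_⟩
        have := mul_nonneg (le_max_right a 0) (Nat.cast_nonneg (α := ℝ) (I.image f).card)
        have := mul_nonneg (le_max_right b 0) (Nat.cast_nonneg (α := ℝ) (I.image g).card)
        linarith

/-- fibres of size at least `m`: at most `#I / m` of them -/
theorem image_card_le {α γ : Type*} [DecidableEq α] [DecidableEq γ] (I : Finset α) (g : α → γ)
    {m : ℝ} (h : ∀ x ∈ I, m ≤ ((I.filter fun y => g y = g x).card : ℝ)) :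
    m * ((I.image g).card : ℝ) ≤ I.card := by
  have h1 : (I.card : ℝ) = ∑ c ∈ I.image g, ((I.filter fun y => g y = c).card : ℝ) := by
    exact_mod_cast card_eq_sum_card_image g I
  rw [h1, mul_comm, ← nsmul_eq_mul, ← sum_const]
  refine sum_le_sum fun c hc => ?_
  obtain ⟨x, hx, rfl⟩ := mem_image.1 hc
  exact h x hx

open Classical in
/-- no proportion `θ` of incidences of multiplicity `≥ m` if all planks have density `≤ D`. -/
theorem bad_small (hKM : ∀ V : ℝ, KM32 V) (V : ℝ) (hV : 0 ≤ V) (ε : ℝ) (hε : 0 < ε) :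
    ∃ C : ℝ, 0 < C ∧ ∀ H : ℕ, 1 ≤ H → V + 2 ≤ (H : ℝ) → ∀ (ι κ : Type) (S : Finset ι)
      (p v : ι → E2) (key : ι × ℤ → κ) (I : Finset (ι × ℤ)) (m θ D : ℝ), 0 < m → 0 < θ → 0 ≤ D →
      (∀ i ∈ S, ‖p i‖ ≤ V ∧ ‖v i‖ ≤ V) → (∀ x ∈ I, x.1 ∈ S ∧ |x.2| ≤ (H : ℤ)) →
      (∀ x ∈ I, ∀ y ∈ I, key y = key x → y.2 = x.2 ∧
        ‖ps p v y.1 (x.2 / H) - ps p v x.1 (x.2 / H)‖ ≤ 1 / H) →
      (∀ (b : OrthonormalBasis (Fin 2) ℝ E2) (s : Fin 2 → ℝ) (p0 v0 : E2),
        (∀ j, 1 / (H : ℝ) ≤ s j ∧ s j ≤ 1) →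
        ((S.filter fun i => InPl b s p0 v0 (p i) (v i)).card : ℝ) ≤
          D * (s 0 * s 1) * (H : ℝ) ^ 2) →
      (∀ x ∈ I, m ≤ ((I.filter fun y => key y = key x).card : ℝ)) → I.Nonempty →
      θ * H * S.card ≤ (I.card : ℝ) → m * θ ^ 2 ≤ C * (H : ℝ) ^ ε * D := by
  obtain ⟨C, hC, key0⟩ := km3_mult hKM V hV ε hε
  refine ⟨32 * C, by positivity, ?_⟩
  intro H hH hHV ι κ S p v key I m θ D hm hθ hD hpv hI hkey hpl hmult hne hbig
  have hH0 : (0 : ℝ) < H := by exact_mod_cast hH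
  obtain ⟨J, hJI, j1, j2, j3⟩ := prune2 (Prod.fst : ι × ℤ → ι) key (θ / 4 * H) (m / 2) I.card I rfl
  have hIpos : (0 : ℝ) < I.card := by exact_mod_cast card_pos.2 hne
  have c1 : ((I.image Prod.fst).card : ℝ) ≤ S.card := by
    exact_mod_cast card_le_card fun i hi => by
      obtain ⟨x, hx, rfl⟩ := mem_image.1 hi
      exact (hI x hx).1
  have c2 := image_card_le I key hmult
  have e1 : max (θ / 4 * (H : ℝ)) 0 = θ / 4 * H := max_eq_left (by positivity)
  have e2 : max (m / 2) 0 = m / 2 := max_eq_left (by positivity)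
  rw [e1, e2] at j3
  have c3 : θ / 4 * H * ((I.image Prod.fst).card : ℝ) ≤ I.card / 4 := by
    calc θ / 4 * H * ((I.image Prod.fst).card : ℝ) ≤ θ / 4 * H * S.card := by gcongr
      _ = θ * H * S.card / 4 := by ring
      _ ≤ _ := by linarith
  have hJpos : (0 : ℝ) < J.card := by
    have : m / 2 * ((I.image key).card : ℝ) ≤ I.card / 2 := by linarith
    linarith
  have hJne : J.Nonempty := card_pos.1 (by exact_mod_cast hJpos)
  -- restrict to the lines of `J`
  set T : Finset ι := J.image Prod.fst with hT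
  let e : {i // i ∈ T} × ℤ → ι × ℤ := fun y => (y.1.1, y.2)
  have he : Function.Injective e := by
    rintro ⟨⟨a, ha⟩, z⟩ ⟨⟨b, hb⟩, w⟩ h
    simp only [e, Prod.mk.injEq] at h
    obtain ⟨rfl, rfl⟩ := h
    rfl
  set J' : Finset ({i // i ∈ T} × ℤ) := J.preimage e he.injOn with hJ'
  have hmem : ∀ y, y ∈ J' ↔ e y ∈ J := fun y => by rw [hJ', mem_preimage]
  have hcard : ∀ P : ι × ℤ → Prop, ((J'.filter fun y => P (e y)).card) = (J.filter P).card := by
    intro P
    refine card_bij (fun y _ => e y) ?_ (fun a _ b _ h => he h) ?_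
    · intro y hy
      rw [mem_filter] at hy ⊢
      exact ⟨(hmem y).1 hy.1, hy.2⟩
    · intro x hx
      rw [mem_filter] at hx
      refine ⟨(⟨x.1, mem_image_of_mem _ hx.1⟩, x.2), ?_, rfl⟩
      rw [mem_filter]
      exact ⟨(hmem _).2 hx.1, hx.2⟩
  obtain ⟨x0, hx0⟩ := hJne
  have : Nonempty {i // i ∈ T} := ⟨⟨x0.1, mem_image_of_mem _ hx0⟩⟩
  have hTS : ∀ i ∈ T, i ∈ S := by
    intro i hi
    obtain ⟨x, hx, rfl⟩ := mem_image.1 hi
    exact (hI x (hJI hx)).1
  have h := key0 H hH hHV {i // i ∈ T} (fun i => p i.1) (fun i => v i.1) J' (m / 2) (θ / 4) D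
    (by positivity) (by positivity) hD (fun i => hpv i.1 (hTS i.1 i.2))
    (fun x hx => (hI _ (hJI ((hmem x).1 hx))).2)
    (fun i => by
      obtain ⟨x, hx, hxi⟩ := mem_image.1 i.2
      have h1 := j1 x hx
      refine h1.trans (le_of_eq ?_)
      have h2 := hcard fun y => y.1 = x.1
      rw [← h2]
      congr 2
      ext y
      simp only [mem_filter, e, hxi]
      constructor
      · rintro ⟨a, b⟩; exact ⟨a, Subtype.ext b⟩
      · rintro ⟨a, b⟩; exact ⟨a, by rw [b]⟩)
    (fun x hx => by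
      have hx' := (hmem x).1 hx
      refine (j2 _ hx').trans ?_
      rw [← hcard fun y => key y = key (e x)]
      refine Nat.cast_le.2 (card_le_card ?_)
      intro y hy
      rw [mem_filter] at hy ⊢
      obtain ⟨a, b⟩ := hkey _ (hJI hx') _ (hJI ((hmem y).1 hy.1)) hy.2
      exact ⟨hy.1, a, b⟩)
    (fun b s p0 v0 hs => by
      refine le_trans ?_ (hpl b s p0 v0 hs)
      norm_cast
      refine card_le_card_of_injOn (fun i => i.1) ?_ (fun a _ b _ h => Subtype.ext h)
      intro i hi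
      simp only [coe_filter, mem_univ, true_and, Set.mem_ofPred_eq] at hi ⊢
      exact ⟨hTS i.1 i.2, hi⟩)
  have h3 : m / 2 * (θ / 4) ^ 2 = m * θ ^ 2 / 32 := by ring
  rw [h3] at h
  linarith

open Classical in
/-- typical multiplicity over a partition into cells. -/
theorem typ_cell (hKM : ∀ V : ℝ, KM32 V) (V : ℝ) (hV : 0 ≤ V) (ε : ℝ) (hε : 0 < ε) :
    ∃ C : ℝ, 0 < C ∧ ∀ H : ℕ, 1 ≤ H → V + 2 ≤ (H : ℝ) → ∀ (ι κ γ : Type) (S : Finset ι)
      (p v : ι → E2) (c : ι → γ) (key : ι × ℤ → κ) (I : Finset (ι × ℤ)) (m θ D : ℝ), 0 < m →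
      0 < θ → 0 ≤ D →
      (∀ i ∈ S, ‖p i‖ ≤ V ∧ ‖v i‖ ≤ V) → (∀ x ∈ I, x.1 ∈ S ∧ |x.2| ≤ (H : ℤ)) →
      (∀ x ∈ I, ∀ y ∈ I, key y = key x → c y.1 = c x.1 ∧ y.2 = x.2 ∧
        ‖ps p v y.1 (x.2 / H) - ps p v x.1 (x.2 / H)‖ ≤ 1 / H) →
      (∀ k : γ, ∀ (b : OrthonormalBasis (Fin 2) ℝ E2) (s : Fin 2 → ℝ) (p0 v0 : E2),
        (∀ j, 1 / (H : ℝ) ≤ s j ∧ s j ≤ 1) →
        ((S.filter fun i => c i = k ∧ InPl b s p0 v0 (p i) (v i)).card : ℝ) ≤
          D * (s 0 * s 1) * (H : ℝ) ^ 2) →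
      C * (H : ℝ) ^ ε * D < m * θ ^ 2 →
      ((I.filter fun x => m ≤ ((I.filter fun y => key y = key x).card : ℝ)).card : ℝ) ≤
        θ * H * S.card := by
  obtain ⟨C, hC, key0⟩ := bad_small hKM V hV ε hε
  refine ⟨C, hC, ?_⟩
  intro H hH hHV ι κ γ S p v c key I m θ D hm hθ hD hpv hI hkey hpl hlt
  have hH0 : (0 : ℝ) < H := by exact_mod_cast hH
  set B := I.filter fun x => m ≤ ((I.filter fun y => key y = key x).card : ℝ) with hB
  have hBI : B ⊆ I := filter_subset _ _
  have hcell : ∀ k ∈ S.image c, ((B.filter fun x => c x.1 = k).card : ℝ) ≤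
      θ * H * ((S.filter fun i => c i = k).card : ℝ) := by
    intro k hk
    by_contra hcon
    push Not at hcon
    set Bk := B.filter fun x => c x.1 = k with hBk
    have hne : Bk.Nonempty := by
      rw [← card_pos]
      have h1 : (0 : ℝ) ≤ θ * H * ((S.filter fun i => c i = k).card : ℝ) := by positivity
      exact_mod_cast lt_of_le_of_lt h1 hcon
    have h := key0 H hH hHV ι κ (S.filter fun i => c i = k) p v key Bk m θ D hm hθ hD
      (fun i hi => hpv i (mem_filter.1 hi).1)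
      (fun x hx => by
        rw [hBk, mem_filter] at hx
        have := hI x (hBI hx.1)
        exact ⟨mem_filter.2 ⟨this.1, hx.2⟩, this.2⟩)
      (fun x hx y hy hxy => by
        rw [hBk, mem_filter] at hx hy
        exact (hkey x (hBI hx.1) y (hBI hy.1) hxy).2)
      (fun b s p0 v0 hs => by
        rw [filter_filter]
        exact hpl k b s p0 v0 hs)
      (fun x hx => by
        rw [hBk, mem_filter] at hx
        have hxB := mem_filter.1 hx.1
        refine hxB.2.trans ?_
        refine Nat.cast_le.2 (card_le_card ?_)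
        intro y hy
        rw [mem_filter] at hy
        rw [mem_filter, hBk, mem_filter, hB, mem_filter]
        refine ⟨⟨⟨hy.1, ?_⟩, ?_⟩, hy.2⟩
        · rw [hy.2]; exact hxB.2
        · rw [(hkey x hxB.1 y hy.1 hy.2).1]; exact hx.2)
      hne hcon.le
    linarith
  have h1 : (B.card : ℝ) = ∑ k ∈ S.image c, ((B.filter fun x => c x.1 = k).card : ℝ) := by
    exact_mod_cast card_eq_sum_card_fiberwise (f := fun x : ι × ℤ => c x.1) (t := S.image c)
      (fun x hx => mem_image_of_mem _ (hI x (hBI hx)).1)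
  have h2 : (S.card : ℝ) = ∑ k ∈ S.image c, ((S.filter fun i => c i = k).card : ℝ) := by
    exact_mod_cast card_eq_sum_card_image c S
  rw [h1, h2, mul_sum]
  exact sum_le_sum hcell


theorem coord_le (x : E2) (j : Fin 2) : |x j| ≤ ‖x‖ := by
  have := PiLp.norm_apply_le x j
  simpa using this

theorem norm_le_coord (x : E2) (r : ℝ) (hr : 0 ≤ r) (h0 : |x 0| ≤ r) (h1 : |x 1| ≤ r) :
    ‖x‖ ≤ 3 / 2 * r := by
  rw [EuclideanSpace.norm_eq]
  refine Real.sqrt_le_iff.2 ⟨by positivity, ?_⟩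
  rw [Fin.sum_univ_two]
  simp only [Real.norm_eq_abs, sq_abs]
  have a0 := sq_le_sq' (by linarith [abs_le.1 h0]) (abs_le.1 h0).2
  have a1 := sq_le_sq' (by linarith [abs_le.1 h1]) (abs_le.1 h1).2
  nlinarith [sq_nonneg r]

theorem inner_le (x : E2) (b : OrthonormalBasis (Fin 2) ℝ E2) (j : Fin 2) :
    |inner ℝ x (b j)| ≤ ‖x‖ := by
  have h := abs_real_inner_le_norm x (b j)
  rw [b.norm_eq_one, mul_one] at h
  exact h

theorem floor_close {a c : ℝ} (h : ⌊a⌋ = ⌊c⌋) : |a - c| ≤ 1 := by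
  have h1 := Int.floor_le a
  have h2 := Int.lt_floor_add_one a
  have h3 := Int.floor_le c
  have h4 := Int.lt_floor_add_one c
  rw [h] at h1 h2
  rw [abs_le]
  constructor <;> linarith

theorem floor_far {a c : ℝ} {K : ℕ} (h : |a - c| ≤ K) :
    ⌊a⌋ ∈ Icc (⌊c⌋ - (K : ℤ)) (⌊c⌋ + K) := by
  have h1 := Int.floor_le a
  have h2 := Int.lt_floor_add_one a
  have h3 := Int.floor_le c
  have h4 := Int.lt_floor_add_one c
  obtain ⟨h5, h6⟩ := abs_le.1 h
  rw [mem_Icc]
  constructor
  · have : (⌊c⌋ : ℝ) - K - 1 < ⌊a⌋ := by linarith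
    have h7 : (⌊c⌋ - (K : ℤ) - 1 : ℤ) < ⌊a⌋ := by exact_mod_cast this
    omega
  · have : (⌊a⌋ : ℝ) < ⌊c⌋ + K + 1 := by linarith
    have h7 : (⌊a⌋ : ℤ) < ⌊c⌋ + (K : ℤ) + 1 := by exact_mod_cast this
    omega

/-- velocity and position cell of side `β` -/
noncomputable def cel {ι : Type} (p v : ι → E2) (β : ℝ) (i : ι) : (ℤ × ℤ) × (ℤ × ℤ) :=
  ((⌊v i 0 / β⌋, ⌊v i 1 / β⌋), (⌊p i 0 / β⌋, ⌊p i 1 / β⌋))

/-- box of side `1 / (2H)` of an incidence -/
noncomputable def bxx {ι : Type} (p v : ι → E2) (H : ℕ) (x : ι × ℤ) : ℤ × (ℤ × ℤ) :=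
  (x.2, (⌊2 * H * ps p v x.1 (x.2 / H) 0⌋, ⌊2 * H * ps p v x.1 (x.2 / H) 1⌋))

theorem cel_close {ι : Type} (p v : ι → E2) {β : ℝ} (hβ : 0 < β) {i k : ι}
    (h : cel p v β i = cel p v β k) :
    ‖p i - p k‖ ≤ 3 / 2 * β ∧ ‖v i - v k‖ ≤ 3 / 2 * β := by
  unfold cel at h
  simp only [Prod.mk.injEq] at h
  obtain ⟨⟨h1, h2⟩, h3, h4⟩ := h
  have key : ∀ a c : ℝ, ⌊a / β⌋ = ⌊c / β⌋ → |a - c| ≤ β := by
    intro a c hac
    have := floor_close hac
    rw [← sub_div, abs_div, abs_of_pos hβ, div_le_one hβ] at this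
    exact this
  exact ⟨norm_le_coord _ _ hβ.le (by simpa using key _ _ h3) (by simpa using key _ _ h4),
    norm_le_coord _ _ hβ.le (by simpa using key _ _ h1) (by simpa using key _ _ h2)⟩

open Classical in
/-- **(KMb)** lines with plank counts `≤ W s₀ s₁ (max s₀ s₁)^q M`: outside `θ H #S` incidences, the
lines through the box of the incidence with velocity within `K b` of the velocity of the line are at
most `K⁶ m`, `m = C H^ε θ⁻² W b^q M / H²`. -/
theorem kmb (hKM : ∀ V : ℝ, KM32 V) (V : ℝ) (hV : 0 ≤ V) (ε : ℝ) (hε : 0 < ε) :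
    ∃ C : ℝ, 0 < C ∧ ∀ H : ℕ, 1 ≤ H → V + 2 ≤ (H : ℝ) → ∀ (ι : Type) (S : Finset ι)
      (p v : ι → E2) (I : Finset (ι × ℤ)) (m θ W M q b : ℝ), 0 < m → 0 < θ → 0 ≤ W → 0 ≤ M →
      0 ≤ q → 3 / (H : ℝ) ≤ b → b ≤ 1 →
      (∀ i ∈ S, ‖p i‖ ≤ V ∧ ‖v i‖ ≤ V) → (∀ x ∈ I, x.1 ∈ S ∧ |x.2| ≤ (H : ℤ)) →
      (∀ (e : OrthonormalBasis (Fin 2) ℝ E2) (s : Fin 2 → ℝ) (p0 v0 : E2),
        (∀ j, 1 / (H : ℝ) ≤ s j ∧ s j ≤ 1) →
        ((S.filter fun i => InPl e s p0 v0 (p i) (v i)).card : ℝ) ≤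
          W * (s 0 * s 1) * (max (s 0) (s 1)) ^ q * M) →
      C * (H : ℝ) ^ ε * W * b ^ q * M ≤ m * θ ^ 2 * (H : ℝ) ^ 2 →
      ∃ B ⊆ I, (B.card : ℝ) ≤ θ * H * S.card ∧ ∀ K : ℕ, 1 ≤ K → ∀ x ∈ I \ B,
        (((I \ B).filter fun y => y.2 = x.2 ∧
          ‖ps p v y.1 (x.2 / H) - ps p v x.1 (x.2 / H)‖ ≤ K / H ∧
          ‖v y.1 - v x.1‖ ≤ K * b).card : ℝ) ≤ K ^ 6 * m := by
  obtain ⟨C, hC, key0⟩ := typ_cell hKM V hV ε hε
  refine ⟨800000 * C, by positivity, ?_⟩
  intro H hH hHV ι S p v I m θ W M q b hm hθ hW hM hq hb3 hb1 hpv hI hpl hlt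
  have hH0 : (0 : ℝ) < H := by exact_mod_cast hH
  have hb : 0 < b := lt_of_lt_of_le (by positivity) hb3
  set β : ℝ := b / 3 with hβd
  have hβ : 0 < β := by positivity
  have hβH : 1 / (H : ℝ) ≤ β := by
    rw [hβd, le_div_iff₀ (by norm_num)]
    calc 1 / (H : ℝ) * 3 = 3 / H := by ring
      _ ≤ b := hb3
  set D : ℝ := 4 * b ^ q * W * M / (H : ℝ) ^ 2 with hD
  have hbq : 0 < b ^ q := Real.rpow_pos_of_pos hb q
  have hD0 : 0 ≤ D := by positivity
  set m0 : ℝ := m / 99225 with hm0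
  have hm0p : 0 < m0 := by positivity
  -- strictness
  by_cases hS0 : W * M = 0
  · -- no lines at all in any plank: S is empty
    have hIe : I = ∅ := by
      rw [eq_empty_iff_forall_notMem]
      intro x hx
      have hxS := (hI x hx).1
      have h1H : 1 / (H : ℝ) ≤ 1 := by
        rw [div_le_one hH0]; exact_mod_cast hH
      have h1 := hpl (EuclideanSpace.basisFun (Fin 2) ℝ) (fun _ => 1 / (H : ℝ)) (p x.1) (v x.1)
        (fun j => ⟨le_rfl, h1H⟩)
      have e1 : W * (1 / (H : ℝ) * (1 / H)) * (max (1 / (H : ℝ)) (1 / H)) ^ q * M =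
          (W * M) * (1 / (H : ℝ) * (1 / H)) * (max (1 / (H : ℝ)) (1 / H)) ^ q := by ring
      rw [e1, hS0, zero_mul, zero_mul] at h1
      have h2 : 0 < (S.filter fun i => InPl (EuclideanSpace.basisFun (Fin 2) ℝ)
          (fun _ => 1 / (H : ℝ)) (p x.1) (v x.1) (p i) (v i)).card := by
        refine card_pos.2 ⟨x.1, mem_filter.2 ⟨hxS, fun z hz j => ?_⟩⟩
        rw [sub_self, sub_self, smul_zero, add_zero, inner_zero_left, abs_zero]
        positivity
      have h3 : (0 : ℝ) < ((S.filter fun i => InPl (EuclideanSpace.basisFun (Fin 2) ℝ)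
          (fun _ => 1 / (H : ℝ)) (p x.1) (v x.1) (p i) (v i)).card : ℝ) := by exact_mod_cast h2
      linarith
    refine ⟨∅, empty_subset _, by simp only [card_empty, Nat.cast_zero]; positivity, ?_⟩
    intro K hK x hx
    rw [hIe] at hx
    simp at hx
  have hWM : 0 < W * M := lt_of_le_of_ne (mul_nonneg hW hM) (Ne.symm hS0)
  have hlt' : C * (H : ℝ) ^ ε * D < m0 * θ ^ 2 := by
    have hHe : 0 < (H : ℝ) ^ ε := Real.rpow_pos_of_pos hH0 ε
    rw [hD, hm0]
    have e1 : C * (H : ℝ) ^ ε * (4 * b ^ q * W * M / (H : ℝ) ^ 2) =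
        (4 * (C * (H : ℝ) ^ ε * b ^ q * (W * M))) / (H : ℝ) ^ 2 := by ring
    rw [e1, div_lt_iff₀ (by positivity)]
    have e2 : 0 < C * (H : ℝ) ^ ε * b ^ q * (W * M) := by positivity
    have e3 : m / 99225 * θ ^ 2 * (H : ℝ) ^ 2 = (m * θ ^ 2 * (H : ℝ) ^ 2) / 99225 := by ring
    rw [e3]
    have e4 : 800000 * C * (H : ℝ) ^ ε * W * b ^ q * M =
        800000 * (C * (H : ℝ) ^ ε * b ^ q * (W * M)) := by ring
    rw [e4] at hlt
    linarith
  set key : ι × ℤ → (ℤ × (ℤ × ℤ)) × ((ℤ × ℤ) × (ℤ × ℤ)) :=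
    fun x => (bxx p v H x, cel p v β x.1) with hkey
  have h := key0 H hH hHV ι _ _ S p v (cel p v β) key I m0 θ D hm0p hθ hD0 hpv hI
    (fun x hx y hy hxy => by
      simp only [hkey, Prod.mk.injEq, bxx] at hxy
      obtain ⟨⟨h1, h2, h3⟩, h4⟩ := hxy
      refine ⟨h4, h1, ?_⟩
      rw [h1] at h2 h3
      have kk : ∀ a c : ℝ, ⌊2 * H * a⌋ = ⌊2 * H * c⌋ → |a - c| ≤ 1 / (2 * H) := by
        intro a c hac
        have h5 := floor_close hac
        rw [← mul_sub, abs_mul, abs_of_pos (by positivity : (0 : ℝ) < 2 * H)] at h5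
        rw [le_div_iff₀ (by positivity)]
        linarith
      refine (norm_le_coord _ (1 / (2 * H)) (by positivity) (by simpa using kk _ _ h2)
        (by simpa using kk _ _ h3)).trans ?_
      rw [mul_one_div, div_div, div_le_div_iff₀ (by positivity) hH0]
      linarith)
    (fun k e s p0 v0 hs => by
      have goal : ((S.filter fun i => cel p v β i = k ∧ InPl e s p0 v0 (p i) (v i)).card : ℝ) ≤
          D * (s 0 * s 1) * (H : ℝ) ^ 2 := ?_
      · convert goal
      rcases (S.filter fun i => cel p v β i = k ∧ InPl e s p0 v0 (p i) (v i)).eq_empty_or_nonempty with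
        h0 | ⟨i1, hi1⟩
      · rw [h0]
        simp only [card_empty, Nat.cast_zero]
        have := (hs 0).1
        have := (hs 1).1
        have h1 : (0 : ℝ) < 1 / H := by positivity
        have : 0 < s 0 := by linarith
        have : 0 < s 1 := by linarith
        positivity
      rw [mem_filter] at hi1
      obtain ⟨hi1S, hi1c, hi1P⟩ := hi1
      have h1 : (0 : ℝ) < 1 / H := by positivity
      have hs0 : 0 < s 0 := by linarith [(hs 0).1]
      have hs1 : 0 < s 1 := by linarith [(hs 1).1]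
      set s' : Fin 2 → ℝ := fun j => min (2 * s j) b with hs'
      have hs'j : ∀ j, 1 / (H : ℝ) ≤ s' j ∧ s' j ≤ 1 := by
        intro j
        refine ⟨le_min ?_ ?_, (min_le_right _ _).trans hb1⟩
        · have := (hs j).1
          linarith
        · exact hβH.trans (by rw [hβd]; linarith)
      have hP := hpl e s' (p i1) (v i1) hs'j
      have hsub : ((S.filter fun i => cel p v β i = k ∧ InPl e s p0 v0 (p i) (v i)).card : ℝ) ≤
          ((S.filter fun i => InPl e s' (p i1) (v i1) (p i) (v i)).card : ℝ) := by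
        refine Nat.cast_le.2 (card_le_card ?_)
        intro i hi
        rw [mem_filter] at hi ⊢
        obtain ⟨hiS, hic, hiP⟩ := hi
        refine ⟨hiS, fun z hz j => le_min ?_ ?_⟩
        · have a1 := hiP z hz j
          have a2 := hi1P z hz j
          have e1 : p i - p i1 + z • (v i - v i1) =
              (p i - p0 + z • (v i - v0)) - (p i1 - p0 + z • (v i1 - v0)) := by module
          rw [e1, inner_sub_left]
          rw [abs_le] at a1 a2 ⊢
          constructor <;> linarith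
        · obtain ⟨c1, c2⟩ := cel_close p v hβ (hic.trans hi1c.symm)
          refine (inner_le _ e j).trans ?_
          calc ‖p i - p i1 + z • (v i - v i1)‖ ≤ ‖p i - p i1‖ + ‖z • (v i - v i1)‖ :=
                norm_add_le _ _
            _ ≤ 3 / 2 * β + 1 * (3 / 2 * β) := by
                rw [norm_smul, Real.norm_eq_abs]
                gcongr
            _ = b := by rw [hβd]; ring
      refine hsub.trans (hP.trans ?_)
      have m1 : s' 0 ≤ 2 * s 0 := min_le_left _ _
      have m2 : s' 1 ≤ 2 * s 1 := min_le_left _ _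
      have m3 : max (s' 0) (s' 1) ≤ b := max_le (min_le_right _ _) (min_le_right _ _)
      have n1 : 0 ≤ s' 0 := h1.le.trans (hs'j 0).1
      have n2 : 0 ≤ s' 1 := h1.le.trans (hs'j 1).1
      have n3 : 0 ≤ max (s' 0) (s' 1) := n1.trans (le_max_left _ _)
      have m4 : (max (s' 0) (s' 1)) ^ q ≤ b ^ q := Real.rpow_le_rpow n3 m3 hq
      calc W * (s' 0 * s' 1) * (max (s' 0) (s' 1)) ^ q * M
          ≤ W * ((2 * s 0) * (2 * s 1)) * b ^ q * M := by gcongr
        _ = D * (s 0 * s 1) * (H : ℝ) ^ 2 := by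
            rw [hD]; field_simp; ring)
    hlt'
  refine ⟨I.filter fun x => m0 ≤ ((I.filter fun y => key y = key x).card : ℝ),
    filter_subset _ _, by convert h, ?_⟩
  intro K hK x hx
  set B := I.filter fun x => m0 ≤ ((I.filter fun y => key y = key x).card : ℝ) with hB
  set F := (I \ B).filter fun y => y.2 = x.2 ∧
          ‖ps p v y.1 (x.2 / H) - ps p v x.1 (x.2 / H)‖ ≤ K / H ∧
          ‖v y.1 - v x.1‖ ≤ K * b with hF
  have hKr : (1 : ℝ) ≤ K := by exact_mod_cast hK
  -- count over keys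
  have h1 : (F.card : ℝ) = ∑ c ∈ F.image key, ((F.filter fun y => key y = c).card : ℝ) := by
    exact_mod_cast card_eq_sum_card_image key F
  have h2 : ∀ c ∈ F.image key, ((F.filter fun y => key y = c).card : ℝ) ≤ m0 := by
    intro c hc
    obtain ⟨y, hy, rfl⟩ := mem_image.1 hc
    have hyI : y ∈ I \ B := (mem_filter.1 hy).1
    rw [mem_sdiff, hB, mem_filter, not_and, not_le] at hyI
    refine le_trans (Nat.cast_le.2 (card_le_card ?_)) (hyI.2 hyI.1).le
    exact filter_subset_filter _ ((filter_subset _ _).trans sdiff_subset)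
  have h3 : (F.card : ℝ) ≤ (F.image key).card * m0 := by
    rw [h1]
    refine (sum_le_sum h2).trans (le_of_eq ?_)
    rw [sum_const, nsmul_eq_mul]
  have h4 : F.image key ⊆
      (({x.2} : Finset ℤ) ×ˢ
        (Icc (⌊2 * H * ps p v x.1 (x.2 / H) 0⌋ - ((2 * K : ℕ) : ℤ))
            (⌊2 * H * ps p v x.1 (x.2 / H) 0⌋ + ((2 * K : ℕ) : ℤ)) ×ˢ
          Icc (⌊2 * H * ps p v x.1 (x.2 / H) 1⌋ - ((2 * K : ℕ) : ℤ))
            (⌊2 * H * ps p v x.1 (x.2 / H) 1⌋ + ((2 * K : ℕ) : ℤ)))) ×ˢ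
      ((Icc (⌊v x.1 0 / β⌋ - ((3 * K : ℕ) : ℤ)) (⌊v x.1 0 / β⌋ + ((3 * K : ℕ) : ℤ)) ×ˢ
          Icc (⌊v x.1 1 / β⌋ - ((3 * K : ℕ) : ℤ)) (⌊v x.1 1 / β⌋ + ((3 * K : ℕ) : ℤ))) ×ˢ
        (Icc (⌊p x.1 0 / β⌋ - ((4 * K : ℕ) : ℤ)) (⌊p x.1 0 / β⌋ + ((4 * K : ℕ) : ℤ)) ×ˢ
          Icc (⌊p x.1 1 / β⌋ - ((4 * K : ℕ) : ℤ)) (⌊p x.1 1 / β⌋ + ((4 * K : ℕ) : ℤ)))) := by
    intro c hc
    obtain ⟨y, hy, rfl⟩ := mem_image.1 hc
    rw [hF, mem_filter] at hy
    obtain ⟨hyI, y1, y2, y3⟩ := hy
    have hyI' : y ∈ I := (mem_sdiff.1 hyI).1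
    have hz : |(x.2 : ℝ) / H| ≤ 1 := by
      have hxI : x ∈ I := (mem_sdiff.1 hx).1
      have := (hI x hxI).2
      rw [abs_div, abs_of_pos hH0, div_le_one hH0]
      exact_mod_cast this
    have bd : ∀ j, |ps p v y.1 (x.2 / H) j - ps p v x.1 (x.2 / H) j| ≤ K / H := by
      intro j
      have := coord_le (ps p v y.1 (x.2 / H) - ps p v x.1 (x.2 / H)) j
      simp only [PiLp.sub_apply] at this
      exact this.trans y2
    have bv : ∀ j, |v y.1 j - v x.1 j| ≤ K * b := by
      intro j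
      have := coord_le (v y.1 - v x.1) j
      simp only [PiLp.sub_apply] at this
      exact this.trans y3
    have bp : ∀ j, |p y.1 j - p x.1 j| ≤ K / H + K * b := by
      intro j
      have e1 : p y.1 j - p x.1 j = (ps p v y.1 (x.2 / H) j - ps p v x.1 (x.2 / H) j) -
          (x.2 / H) * (v y.1 j - v x.1 j) := by
        simp only [ps, PiLp.add_apply, PiLp.smul_apply, smul_eq_mul]; ring
      rw [e1]
      refine (abs_sub _ _).trans ?_
      rw [abs_mul]
      have := bd j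
      have := bv j
      have : |(x.2 : ℝ) / H| * |v y.1 j - v x.1 j| ≤ 1 * (K * b) := by gcongr
      linarith
    simp only [hkey, bxx, cel, mem_product, mem_singleton]
    rw [y1]
    have d1 : ∀ j, |2 * H * ps p v y.1 (x.2 / H) j - 2 * H * ps p v x.1 (x.2 / H) j| ≤
        ((2 * K : ℕ) : ℝ) := by
      intro j
      rw [← mul_sub, abs_mul, abs_of_pos (by positivity : (0 : ℝ) < 2 * H)]
      push_cast
      have := mul_le_mul_of_nonneg_left (bd j) (by positivity : (0 : ℝ) ≤ 2 * H)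
      refine this.trans (le_of_eq ?_)
      field_simp
    have d2 : ∀ j, |v y.1 j / β - v x.1 j / β| ≤ ((3 * K : ℕ) : ℝ) := by
      intro j
      rw [← sub_div, abs_div, abs_of_pos hβ, div_le_iff₀ hβ]
      push_cast
      refine (bv j).trans (le_of_eq ?_)
      rw [hβd]; ring
    have d3 : ∀ j, |p y.1 j / β - p x.1 j / β| ≤ ((4 * K : ℕ) : ℝ) := by
      intro j
      rw [← sub_div, abs_div, abs_of_pos hβ, div_le_iff₀ hβ]
      push_cast
      refine (bp j).trans ?_
      have : (K : ℝ) / H ≤ K * β := by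
        rw [div_eq_mul_one_div]
        gcongr
      have e : (K : ℝ) * b = 3 * K * β := by rw [hβd]; ring
      rw [e]
      linarith
    exact ⟨⟨rfl, floor_far (d1 0), floor_far (d1 1)⟩, ⟨floor_far (d2 0), floor_far (d2 1)⟩,
      floor_far (d3 0), floor_far (d3 1)⟩
  have h5 := card_le_card h4
  simp only [card_product, card_singleton, Int.card_Icc] at h5
  have g1 : ∀ (a : ℤ) (n : ℕ), (a + (n : ℤ) + 1 - (a - (n : ℤ))).toNat = 2 * n + 1 := by
    intro a n; omega
  simp only [g1] at h5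
  have h6 : ((F.image key).card : ℝ) ≤ 99225 * (K : ℝ) ^ 6 := by
    have h7 : ((F.image key).card : ℝ) ≤ (1 * ((2 * (2 * K) + 1) * (2 * (2 * K) + 1))) *
        (((2 * (3 * K) + 1) * (2 * (3 * K) + 1)) * ((2 * (4 * K) + 1) * (2 * (4 * K) + 1))) := by
      exact_mod_cast h5
    refine h7.trans ?_
    calc (1 * ((2 * (2 * (K : ℝ)) + 1) * (2 * (2 * K) + 1))) *
        (((2 * (3 * K) + 1) * (2 * (3 * K) + 1)) * ((2 * (4 * K) + 1) * (2 * (4 * K) + 1)))
        ≤ (1 * ((5 * (K : ℝ)) * (5 * K))) * (((7 * K) * (7 * K)) * ((9 * K) * (9 * K))) := by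
          gcongr <;> linarith
      _ = 99225 * (K : ℝ) ^ 6 := by ring
  calc (F.card : ℝ) ≤ (F.image key).card * m0 := h3
    _ ≤ 99225 * (K : ℝ) ^ 6 * m0 := by gcongr
    _ = K ^ 6 * m := by rw [hm0]; ring

end Crest.Agent.R136.Vq571
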