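import Crest.Agent.R136.Vq2_571

/-!
# R136, PLAN 2 (3), volume form: (KMb) for a system of classes (helper571)

`kmb_sys` : `Vq571.kmb` for all classes of a labelling at once, heights labelled by natural numbers;
outside `θ H #P` incidences, every set `G` of good incidences of the class, height and box of a good
incidence with velocities within `K b` has at most `K⁶ m` elements.
-/

set_option autoImplicit false
set_option linter.unusedVariables false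

open Finset

namespace Crest.Agent.R136.Vq571

open Crest.Agent.R138.Defs (E2)
open Crest.Agent.R136.Slb480 (ps km3_mult)
open Crest.Agent.R138.Tub70 (InPl KM32)

open Classical in
/-- **(KMb) for a system of classes.** -/
theorem kmb_sys (hKM : ∀ V : ℝ, KM32 V) (V : ℝ) (hV : 0 ≤ V) (ε : ℝ) (hε : 0 < ε) :
    ∃ C : ℝ, 0 < C ∧ ∀ H : ℕ, 1 ≤ H → V + 2 ≤ (H : ℝ) → ∀ (ι κ : Type) (P : Finset ι) (u : ι → κ)
      (p v : ι → E2) (J : Finset ℕ) (hz : ℕ → ℤ) (m θ W M q b : ℝ), Function.Injective hz →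
      0 < m → 0 < θ → 0 ≤ W → 0 ≤ M → 0 ≤ q → 3 / (H : ℝ) ≤ b → b ≤ 1 →
      (∀ t ∈ P, ‖p t‖ ≤ V ∧ ‖v t‖ ≤ V) → (∀ j ∈ J, |hz j| ≤ (H : ℤ)) →
      (∀ (c : κ) (e : OrthonormalBasis (Fin 2) ℝ E2) (s : Fin 2 → ℝ) (p0 v0 : E2),
        (∀ j, 1 / (H : ℝ) ≤ s j ∧ s j ≤ 1) →
        ((P.filter fun t => u t = c ∧ InPl e s p0 v0 (p t) (v t)).card : ℝ) ≤
          W * (s 0 * s 1) * (max (s 0) (s 1)) ^ q * M) →
      C * (H : ℝ) ^ ε * W * b ^ q * M ≤ m * θ ^ 2 * (H : ℝ) ^ 2 →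
      ∃ B ⊆ P ×ˢ J, (B.card : ℝ) ≤ θ * H * P.card ∧ ∀ K : ℕ, 1 ≤ K → ∀ x ∈ P ×ˢ J, x ∉ B →
        ∀ G : Finset (ι × ℕ), (∀ y ∈ G, y ∈ P ×ˢ J ∧ y ∉ B ∧ y.2 = x.2 ∧ u y.1 = u x.1 ∧
          ‖ps p v y.1 (hz x.2 / H) - ps p v x.1 (hz x.2 / H)‖ ≤ K / H ∧
          ‖v y.1 - v x.1‖ ≤ K * b) → (G.card : ℝ) ≤ K ^ 6 * m := by
  obtain ⟨C, hC, key⟩ := kmb hKM V hV ε hε
  refine ⟨C, hC, ?_⟩
  intro H hH hHV ι κ P u p v J hz m θ W M q b hinj hm hθ hW hM hq hb3 hb1 hpv hJ hpl hlt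
  set f : ι × ℕ → ι × ℤ := fun x => (x.1, hz x.2) with hf
  have hfi : Function.Injective f := by
    rintro ⟨a, i⟩ ⟨b, j⟩ h
    simp only [hf, Prod.mk.injEq] at h
    exact Prod.ext h.1 (hinj h.2)
  have hcl : ∀ c : κ, ∃ B ⊆ ((P.filter fun t => u t = c) ×ˢ J).image f,
      (B.card : ℝ) ≤ θ * H * (P.filter fun t => u t = c).card ∧ ∀ K : ℕ, 1 ≤ K →
        ∀ x ∈ ((P.filter fun t => u t = c) ×ˢ J).image f \ B,
        ((((((P.filter fun t => u t = c) ×ˢ J).image f) \ B).filter fun y => y.2 = x.2 ∧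
          ‖ps p v y.1 (x.2 / H) - ps p v x.1 (x.2 / H)‖ ≤ K / H ∧
          ‖v y.1 - v x.1‖ ≤ K * b).card : ℝ) ≤ K ^ 6 * m := by
    intro c
    refine key H hH hHV ι (P.filter fun t => u t = c) p v _ m θ W M q b hm hθ hW hM hq hb3 hb1
      (fun i hi => hpv i (mem_filter.1 hi).1) ?_ ?_ hlt
    · intro x hx
      obtain ⟨y, hy, rfl⟩ := mem_image.1 hx
      rw [mem_product] at hy
      exact ⟨hy.1, hJ _ hy.2⟩
    · intro e s p0 v0 hs
      rw [filter_filter]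
      exact hpl c e s p0 v0 hs
  choose Bc hBc hcard hgood using hcl
  set B := (P ×ˢ J).filter fun x => f x ∈ Bc (u x.1) with hB
  refine ⟨B, filter_subset _ _, ?_, ?_⟩
  · have h1 : (B.card : ℝ) = ∑ c ∈ P.image u, ((B.filter fun x => u x.1 = c).card : ℝ) := by
      exact_mod_cast card_eq_sum_card_fiberwise (f := fun x : ι × ℕ => u x.1) (t := P.image u)
        (fun x hx => mem_image_of_mem _ (mem_product.1 (mem_filter.1 hx).1).1)
    have h2 : (P.card : ℝ) = ∑ c ∈ P.image u, ((P.filter fun t => u t = c).card : ℝ) := by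
      exact_mod_cast card_eq_sum_card_image u P
    rw [h1, h2, mul_sum]
    refine sum_le_sum fun c _ => le_trans ?_ (hcard c)
    refine Nat.cast_le.2 (card_le_card_of_injOn f ?_ (hfi.injOn))
    intro x hx
    simp only [coe_filter, Set.mem_ofPred_eq] at hx
    obtain ⟨hx1, hx2⟩ := hx
    rw [hB, mem_filter] at hx1
    rw [hx2] at hx1
    exact hx1.2
  · intro K hK x hx hxB G hG
    have hmem : ∀ y ∈ P ×ˢ J, y ∉ B → u y.1 = u x.1 →
        f y ∈ ((P.filter fun t => u t = u x.1) ×ˢ J).image f \ Bc (u x.1) := by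
      intro y hy hyB hyx
      rw [mem_sdiff]
      refine ⟨mem_image_of_mem _ ?_, fun h => hyB ?_⟩
      · rw [mem_product] at hy ⊢
        exact ⟨mem_filter.2 ⟨hy.1, hyx⟩, hy.2⟩
      · rw [hB, mem_filter, hyx]
        exact ⟨hy, h⟩
    have hg := hgood (u x.1) K hK (f x) (hmem x hx hxB rfl)
    refine le_trans (Nat.cast_le.2 ?_) hg
    rw [← card_image_of_injective G hfi]
    refine card_le_card ?_
    intro y' hy'
    obtain ⟨y, hy, rfl⟩ := mem_image.1 hy'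
    obtain ⟨g1, g2, g3, g4, g5, g6⟩ := hG y hy
    rw [mem_filter]
    refine ⟨hmem y g1 g2 g4, ?_, g5, g6⟩
    simp only [hf, g3]

end Crest.Agent.R136.Vq571
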