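import Crest.Agent.R136.Gr2_356

/-!
# R136: visible shift in ONE slot (helper848)

`vis_slot_R`: if, between two typical heights `k, k'`, the slot `s` of a line `i'` seen from `i`
moves by `γ(k,k')` times the slot `j` (up to errors), then `loss of j ≤ loss of s`:
`ν p - ν p' ≤ ν pT - ν r`, with `p' = (p, j : x)` and `r = (pT, s : x)`.
Only the raw twist of `γ` is used.
-/

set_option autoImplicit false
set_option linter.unusedVariables false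

open Filter Topology Finset

namespace Crest.Agent.R136.Vw848

open Crest.Agent.R138.Ex926 (Base U)
open Crest.Agent.R136.Gf356

variable {κ : Type} {B : Base} {G : ℕ → RCfg κ} {Leg : Set (κ → ℝ)} {ν : (κ → ℝ) → ℝ}
  {σ R D : ℝ}

/-- both lines are alive at both heights -/
def Al4 (G : RCfg κ) (k k' i i' : ℕ) : Prop :=
  (i, k) ∈ G.I ∧ (i, k') ∈ G.I ∧ (i', k) ∈ G.I ∧ (i', k') ∈ G.I

/-- **visible shift in one slot** -/
theorem vis_slot_R (H : RModel B G σ R Leg ν D) (p p' pT r : κ → ℝ)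
    (hp : p ∈ Leg) (hp' : p' ∈ Leg) (hpT : pT ∈ Leg) (hr : r ∈ Leg) (hTr : ∀ j, pT j ≤ r j)
    (s j : κ) {x : ℝ} (h1 : ∀ i, i ≠ j → p' i ≤ p i) (h2 : p' j ≤ x) (h3 : x ≤ r s)
    (γ : ℕ → ℕ → ℕ → ℝ)
    (tw : ∀ ε : ℝ, 0 < ε → ∀ᶠ n in (U : Filter ℕ), ∀ i ∈ (G n).L,
      ∀ T ⊆ ((G n).hts i) ×ˢ ((G n).hts i), (∀ q ∈ T, |γ n q.1 q.2| ≤ B.d n ^ ε) →
      2 * (T.card : ℝ) ≤ (((G n).hts i).card : ℝ) ^ 2)
    (inT : ∀ C0 : ℝ, 0 < C0 → ∃ C1 : ℝ, 0 < C1 ∧ ∀ ε : ℝ, 0 < ε → ∀ᶠ n in (U : Filter ℕ),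
      ∀ k k' i i', Al4 (G n) k k' i i' → (G n).loose p (C0 * ε) k i i' →
      (G n).loose pT (C1 * ε) k' i i')
    (see : ∀ C0 : ℝ, 0 < C0 → ∃ C1 : ℝ, 0 < C1 ∧ ∀ ε : ℝ, 0 < ε → ∀ᶠ n in (U : Filter ℕ),
      ∀ k k' i i', Al4 (G n) k k' i i' → (G n).loose p (C0 * ε) k i i' →
      |γ n k k'| * |(G n).rel k i i' j| ≤ |(G n).rel k' i i' s| + B.d n ^ (x - C1 * ε)) :
    ν p - ν p' ≤ ν pT - ν r := by
  refine transfer_R H p p' pT r hp hp' hpT hr hTr (fun n ε k k' => |γ n k k'| ≤ B.d n ^ ε) tw ?_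
  intro C0 hC0
  obtain ⟨C1, hC1, e1⟩ := inT C0 hC0
  obtain ⟨C1', hC1', e2⟩ := see C0 hC0
  refine ⟨C1, hC1, fun C2 hC2 => ⟨C0 + C1' + C2 + 2, by linarith, fun ε hε => ?_⟩⟩
  filter_upwards [e1 ε hε, e2 ε hε, ev_const_le B hε 2] with n a1 a2 a3 k hk k' hk' hnb i i' i1 i2
    i3 i4 hl
  have hal : Al4 (G n) k k' i i' := ⟨i1, i2, i3, i4⟩
  refine ⟨a1 k k' i i' hal hl, fun hr' m => ?_⟩
  have hρ := H.base n
  have hpow : ∀ t : ℝ, 0 < B.d n ^ t := fun t => rpos B n t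
  by_cases hm : m = j
  · subst hm
    have b1 := a2 k k' i i' hal hl
    have b2 := hr' s
    rw [hρ] at b2 ⊢
    have hγ : B.d n ^ ε < |γ n k k'| := lt_of_not_ge hnb
    have c1 : B.d n ^ (r s - C2 * ε) ≤ B.d n ^ (x - (C1' + C2) * ε) :=
      rpow_anti B n (by nlinarith [mul_pos hC1' hε])
    have c2 : B.d n ^ (x - C1' * ε) ≤ B.d n ^ (x - (C1' + C2) * ε) :=
      rpow_anti B n (by nlinarith [mul_pos hC2 hε])
    have c3 : B.d n ^ ε * |(G n).rel k i i' m| ≤ 2 * B.d n ^ (x - (C1' + C2) * ε) := by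
      have := mul_le_mul_of_nonneg_right hγ.le (abs_nonneg ((G n).rel k i i' m))
      linarith
    have c4 : B.d n ^ ε * |(G n).rel k i i' m| ≤ B.d n ^ (x - (C1' + C2) * ε - ε) := by
      have e : B.d n ^ (x - (C1' + C2) * ε - ε) =
          B.d n ^ (x - (C1' + C2) * ε) * B.d n ^ (-ε) := by
        rw [← rpow_add']; congr 1
      rw [e]
      have := mul_le_mul_of_nonneg_left a3 (hpow (x - (C1' + C2) * ε)).le
      linarith
    have c5 : B.d n ^ (x - (C1' + C2) * ε - ε) =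
        B.d n ^ ε * B.d n ^ (x - (C1' + C2 + 2) * ε) := by
      rw [← rpow_add']; congr 1; ring
    rw [c5] at c4
    have c6 := le_of_mul_le_mul_left c4 (hpow ε)
    refine c6.trans (rpow_anti B n ?_)
    nlinarith [mul_pos hC0 hε]
  · have b1 := hl m
    rw [hρ] at b1 ⊢
    refine b1.trans (rpow_anti B n ?_)
    have := h1 m hm
    nlinarith [mul_pos hC1' hε, mul_pos hC2 hε, mul_pos hC0 hε]

end Crest.Agent.R136.Vw848
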