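import Crest.Agent.R136.W1_938

/-!
# R136: row (ii) of 5b (weights 2, 3, 4), part a: raw algebra of the c-shift (helper848)

All line slots of the pair narrow (`η`) except `c`; own rotation of weight `w`.  Then every flag
slot `q` at the new height is `- tr κ (0, c, u c, - κ u c²) v_w q` up to `η`; this vanishes for line
slots of weight `≥ w` and is linear in `c` for weight `w - 1`.
-/

set_option autoImplicit false
set_option linter.unusedSectionVars false
set_option linter.unusedVariables false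

open Filter Topology

namespace Crest.Agent.R136.Vw848

open Finset Crest.Agent.R136.NetW191 Crest.Agent.R136.Net191 Crest.Agent.R136.Qg926
open Crest.Agent.R136.EvW938
open Crest.Agent.R138.Ex926 (Base U)

/-- weight of a flag slot (14-index) -/
def wq : Fin 14 → ℕ := ![4, 4, 3, 4, 2, 3, 2, 2, 1, 0, 2, 1, 0, 0]

/-- the part of weight `w` -/
def prj (w : ℕ) (v : Fin 14 → ℝ) : Fin 14 → ℝ := fun q => if wq q = w then v q else 0

/-- frame at the new height when everything but `c` is narrow -/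
def frC (κ u c : ℝ) : Fin 4 → ℝ := ![0, c, u * c, -κ * u * c ^ 2]

section rows

variable {κ u c : ℝ} {v : Fin 14 → ℝ}

lemma frC0 : frC κ u c 0 = 0 := rfl
lemma frC1 : frC κ u c 1 = c := rfl
lemma frC2 : frC κ u c 2 = u * c := rfl
lemma frC3 : frC κ u c 3 = -κ * u * c ^ 2 := rfl

lemma wq_le (q : Fin 14) : wq q ≤ 4 := by revert q; decide

/-- line slots of weight `≥ w` do not see the rotation of weight `w` -/
lemma tr_line (w : ℕ) (hw : 1 ≤ w) {q : Fin 14} (hq : w ≤ wq q) :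
    tr κ (frC κ u c) (prj w v) q = prj w v q := by
  have hw4 : w ≤ 4 := hq.trans (wq_le q)
  fin_cases q <;> simp only [wq, Fin.zero_eta, Fin.mk_one, Fin.reduceFinMk, Matrix.cons_val] at hq ⊢ <;>
    (first
      | omega
      | (interval_cases w <;>
          simp only [tr0, tr1, tr2, tr3, tr4, tr5, tr6, tr7, tr8, tr10, tr11, prj,
            wq, Matrix.cons_val, frC0, frC1, frC2, frC3] <;> simp))

/-- slots of weight `w - 1` see `c` linearly -/
lemma tr_lin (w : ℕ) {q : Fin 14} (hq : wq q + 1 = w) :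
    tr κ (frC κ u c) (prj w v) q = c * tr κ (frC κ u 1) (prj w v) q := by
  subst hq
  fin_cases q <;>
    simp only [tr0, tr1, tr2, tr3, tr4, tr5, tr6, tr7, tr8, tr9, tr10, tr11, tr12, tr13, prj,
      wq, Matrix.cons_val, frC0, frC1, frC2, frC3, Fin.zero_eta, Fin.mk_one, Fin.reduceFinMk] <;>
    simp <;> ring

/-- weight 2: slot `zA` -/
lemma row2z : tr κ (frC κ u 1) (prj 2 v) 8 =
    2 * v 6 - 2 * κ * v 7 + 2 * κ * u * v 4 := by
  simp only [tr8, prj, wq, Matrix.cons_val, frC0, frC1, frC2, frC3]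
  simp
  ring

/-- weight 2: slot `A` -/
lemma row2a : tr κ (frC κ u 1) (prj 2 v) 11 = 2 * u * v 6 - 2 * κ * v 10 := by
  simp only [tr11, prj, wq, Matrix.cons_val, frC0, frC1, frC2, frC3]
  simp

/-- weight 3: slot `B` -/
lemma row3b : tr κ (frC κ u 1) (prj 3 v) 10 = u * v 5 := by
  simp only [tr10, prj, wq, Matrix.cons_val, frC0, frC2, frC3]
  simp

/-- weight 4: slot `AB` -/
lemma row4b : tr κ (frC κ u 1) (prj 4 v) 5 = 2 * κ * u * v 1 - 4 * κ * v 3 := by
  simp only [tr5, prj, wq, Matrix.cons_val, frC0, frC1, frC2]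
  simp

/-- weight 4: slot `AY` -/
lemma row4y : tr κ (frC κ u 1) (prj 4 v) 2 = 4 * κ * u * v 0 - 2 * κ * v 1 := by
  simp only [tr2, prj, wq, Matrix.cons_val, frC0, frC1, frC2]
  simp

end rows

section raw

variable {κ : ℝ} {S : Finset (Fin 18)} {X : Fin 18 → ℝ} {K η : ℝ} {a b : Fin 18 → ℝ}

/-- **all flag slots after a motion, everything but `c` narrow**, raw form -/
theorem rowC_raw (w : ℕ) (hκ : |κ| ≤ 1) (hX : SidesW X) (hK : 1 ≤ K) (hη : 0 ≤ η)
    (ha : ∀ s, |a s| ≤ K * X s)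
    (ha' : ∀ q : Fin 14, Fin.natAdd 4 q ∈ S → wq q ≠ w →
      |a (Fin.natAdd 4 q)| ≤ K * η * X (Fin.natAdd 4 q))
    (ha'' : ∀ q : Fin 14, Fin.natAdd 4 q ∉ S → |a (Fin.natAdd 4 q)| ≤ K * η * X (Fin.natAdd 4 q))
    (hb : ∀ s, |b s| ≤ K * X s) (n2 : (2 : Fin 18) ∉ S) (n3 : (3 : Fin 18) ∉ S)
    (hb' : ∀ s, s ∉ S → s ≠ 1 → |b s| ≤ K * η * X s) (q : Fin 14) :
    |evoW κ S a b (Fin.natAdd 4 q) + tr κ (frC κ (a 0) (b 1)) (prj w (flg a)) q| ≤
      940 * (2 * K ^ 3) ^ 7 * η * X (Fin.natAdd 4 q) := by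
  have K0 : 0 ≤ K := by linarith
  have hKK : K ≤ K ^ 3 := by nlinarith [mul_nonneg K0 K0]
  have hK3 : 1 ≤ K ^ 3 := one_le_pow₀ hK
  obtain ⟨w2, w3, w4⟩ := walls_frame hX
  set L := 2 * K ^ 3 with hL
  have hL1 : 1 ≤ L := by linarith
  have hKL : K ≤ L := by linarith
  have hL0 : 0 ≤ L := by linarith
  have L1 : ∀ {x D : ℝ}, 0 ≤ D → |x| ≤ K * D → |x| ≤ L * D := fun hD h =>
    h.trans (mul_le_mul_of_nonneg_right hKL hD)
  have L2 : ∀ {x D : ℝ}, 0 ≤ D → |x| ≤ K * η * D → |x| ≤ L * η * D := fun hD h =>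
    h.trans (mul_le_mul_of_nonneg_right (mul_le_mul_of_nonneg_right hKL hη) hD)
  have hfr := frE_le hκ hX hK (ha 0) hb
  have hsh : ∀ i : Fin 4, |sh (a 0) i| ≤ L * X (Fin.castAdd 14 i) := by
    intro i
    fin_cases i
    · exact L1 (hX.pos _) (ha 0)
    · change |(0 : ℝ)| ≤ L * X 1
      rw [abs_zero]; exact mul_nonneg hL0 (hX.pos _)
    · change |(0 : ℝ)| ≤ L * X 2
      rw [abs_zero]; exact mul_nonneg hL0 (hX.pos _)
    · change |(0 : ℝ)| ≤ L * X 3
      rw [abs_zero]; exact mul_nonneg hL0 (hX.pos _)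
  have hsame : ∀ (h : Fin 4 → ℝ) (i : Fin 4), |h i - h i| ≤ L * η * X (Fin.castAdd 14 i) := by
    intro h i
    rw [sub_self, abs_zero]
    exact mul_nonneg (mul_nonneg hL0 hη) (hX.pos _)
  -- the b-part
  have g1 : |tr κ (sh (a 0)) (offS S (flg b)) q| ≤
      470 * L ^ 7 * η * X (Fin.natAdd 4 q) := by
    have := tr_lip (h' := sh (a 0)) (w' := 0) hκ hX hL1 hη hsh hsh (hsame _)
      (w := offS S (flg b)) (fun q => by
        unfold offS flg
        split_ifs with hq
        · rw [abs_zero]; exact mul_nonneg hL0 (hX.pos _)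
        · exact L1 (hX.pos _) (hb _))
      (fun q => by
        rw [Pi.zero_apply, sub_zero]
        unfold offS flg
        split_ifs with hq
        · rw [abs_zero]; exact mul_nonneg (mul_nonneg hL0 hη) (hX.pos _)
        · refine L2 (hX.pos _) (hb' _ hq ?_)
          intro he
          have := congrArg Fin.val he
          simp at this
          omega) q
    rwa [tr_zero, Pi.zero_apply, sub_zero] at this
  -- the new frame
  have hfC : ∀ i : Fin 4, |frC κ (a 0) (b 1) i| ≤ L * X (Fin.castAdd 14 i) := by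
    have hz := frE_le (b := fun s => if s = 1 then b 1 else 0) hκ hX hK (ha 0) (fun s => by
      split_ifs with h
      · rw [h]; exact hb 1
      · rw [abs_zero]; exact mul_nonneg K0 (hX.pos _))
    intro i
    have e : frE κ (a 0) (fun s => if s = 1 then b 1 else 0) i = frC κ (a 0) (b 1) i := by
      fin_cases i <;> simp [frE, frC]
    rw [← e]
    exact hz i
  have hfd : ∀ i : Fin 4, |frE κ (a 0) b i - frC κ (a 0) (b 1) i| ≤
      L * η * X (Fin.castAdd 14 i) := by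
    intro i
    fin_cases i
    · change |(0 : ℝ) - 0| ≤ L * η * X 0
      rw [sub_self, abs_zero]; exact mul_nonneg (mul_nonneg hL0 hη) (hX.pos _)
    · change |b 1 - b 1| ≤ L * η * X 1
      rw [sub_self, abs_zero]; exact mul_nonneg (mul_nonneg hL0 hη) (hX.pos _)
    · change |b 2 + a 0 * b 1 - a 0 * b 1| ≤ L * η * X 2
      rw [add_sub_cancel_right]
      exact L2 (hX.pos _) (hb' 2 n2 (by decide))
    · change |b 3 - κ * a 0 * b 1 ^ 2 - -κ * a 0 * b 1 ^ 2| ≤ L * η * X 3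
      have : b 3 - κ * a 0 * b 1 ^ 2 - -κ * a 0 * b 1 ^ 2 = b 3 := by ring
      rw [this]
      exact L2 (hX.pos _) (hb' 3 n3 (by decide))
  -- the a-part
  have g2 : |tr κ (frE κ (a 0) b) (onS S (flg a)) q -
      tr κ (frC κ (a 0) (b 1)) (prj w (flg a)) q| ≤
      470 * L ^ 7 * η * X (Fin.natAdd 4 q) := by
    refine tr_lip hκ hX hL1 hη hfr hfC hfd (fun q => ?_) (fun q => ?_) q
    · unfold onS flg
      split_ifs with hq
      · exact L1 (hX.pos _) (ha _)
      · rw [abs_zero]; exact mul_nonneg hL0 (hX.pos _)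
    · unfold prj onS
      by_cases hqS : Fin.natAdd 4 q ∈ S <;> by_cases hq : wq q = w
      · rw [if_pos hqS, if_pos hq, sub_self, abs_zero]
        exact mul_nonneg (mul_nonneg hL0 hη) (hX.pos _)
      · rw [if_pos hqS, if_neg hq, sub_zero]
        exact L2 (hX.pos _) (ha' q hqS hq)
      · rw [if_neg hqS, if_pos hq, zero_sub, abs_neg]
        exact L2 (hX.pos _) (ha'' q hqS)
      · rw [if_neg hqS, if_neg hq, sub_self, abs_zero]
        exact mul_nonneg (mul_nonneg hL0 hη) (hX.pos _)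
  have e1 : evoW κ S a b (Fin.natAdd 4 q) = tr κ (sh (a 0)) (offS S (flg b)) q -
      tr κ (frE κ (a 0) b) (onS S (flg a)) q := Fin.append_right _ _ _
  have e2 : evoW κ S a b (Fin.natAdd 4 q) + tr κ (frC κ (a 0) (b 1)) (prj w (flg a)) q =
      tr κ (sh (a 0)) (offS S (flg b)) q - (tr κ (frE κ (a 0) b) (onS S (flg a)) q -
        tr κ (frC κ (a 0) (b 1)) (prj w (flg a)) q) := by
    rw [e1]; ring
  rw [e2]
  refine (abs_sub _ _).trans ?_
  have h3 : 0 ≤ L ^ 7 * η * X (Fin.natAdd 4 q) :=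
    mul_nonneg (mul_nonneg (by positivity) hη) (hX.pos _)
  nlinarith

/-- own motion of the reversed pair, all slots -/
theorem rev_gen {τ : ℝ} {a' : Fin 18 → ℝ} (hκ : |κ| ≤ 1) (hX : SidesW X) (hK : 1 ≤ K)
    (hτ : 0 ≤ τ) (hrev : flg a' = -tr κ (frm a') (flg a)) (h0 : a' 0 = -a 0)
    (ha : ∀ s, |a s| ≤ K * X s) (ha' : ∀ s, |a' s| ≤ K * X s)
    (f1 : |a' 1| ≤ K * τ * X 1) (f2 : |a' 2| ≤ K * τ * X 2) (f3 : |a' 3| ≤ K * τ * X 3)
    (q : Fin 14) : |a' (Fin.natAdd 4 q) + tr κ (sh (-a 0)) (flg a) q| ≤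
      470 * K ^ 7 * τ * X (Fin.natAdd 4 q) := by
  have K0 : 0 ≤ K := by linarith
  have hsh : ∀ i : Fin 4, |sh (-a 0) i| ≤ K * X (Fin.castAdd 14 i) := by
    intro i
    fin_cases i
    · change |(-a 0)| ≤ K * X 0
      rw [← h0]; exact ha' 0
    · change |(0 : ℝ)| ≤ K * X 1
      rw [abs_zero]; exact mul_nonneg K0 (hX.pos _)
    · change |(0 : ℝ)| ≤ K * X 2
      rw [abs_zero]; exact mul_nonneg K0 (hX.pos _)
    · change |(0 : ℝ)| ≤ K * X 3
      rw [abs_zero]; exact mul_nonneg K0 (hX.pos _)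
  have hd : ∀ i : Fin 4, |frm a' i - sh (-a 0) i| ≤ K * τ * X (Fin.castAdd 14 i) := by
    intro i
    fin_cases i
    · change |a' 0 - (-a 0)| ≤ K * τ * X 0
      rw [h0, sub_self, abs_zero]
      exact mul_nonneg (mul_nonneg K0 hτ) (hX.pos _)
    · change |a' 1 - 0| ≤ K * τ * X 1
      rwa [sub_zero]
    · change |a' 2 - 0| ≤ K * τ * X 2
      rwa [sub_zero]
    · change |a' 3 - 0| ≤ K * τ * X 3
      rwa [sub_zero]
  have key := tr_lip (h := frm a') (h' := sh (-a 0)) (w := flg a) (w' := flg a) hκ hX hK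
    hτ (fun i => ha' _) hsh hd (fun q => ha _) (fun q => by
      rw [sub_self, abs_zero]
      exact mul_nonneg (mul_nonneg K0 hτ) (hX.pos _)) q
  have e1 : a' (Fin.natAdd 4 q) = -tr κ (frm a') (flg a) q := congrFun hrev q
  have e2 : a' (Fin.natAdd 4 q) + tr κ (sh (-a 0)) (flg a) q =
      -(tr κ (frm a') (flg a) q - tr κ (sh (-a 0)) (flg a) q) := by
    rw [e1]; ring
  rw [e2, abs_neg]
  exact key

end raw

end Crest.Agent.R136.Vw848
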