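import Crest.Agent.R136.Vw3_848

/-!
# R136: row (ii) of 5b (weights 2, 3, 4), part c: the two orders of a pair of heights (helper848)

`det2, det3, det4` : the multipliers of `c` in the seen slots for the two orders `(k,k')`, `(k',k)`
control the own slots of weight `w`.  `Gen w s α hd` : the table.  `det_cfg` : configuration form.
-/

set_option autoImplicit false
set_option linter.unusedSectionVars false
set_option linter.unusedVariables false

open Filter Topology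

namespace Crest.Agent.R136.Vw848

open Finset Crest.Agent.R136.NetW191 Crest.Agent.R136.Net191 Crest.Agent.R136.Qg926
open Crest.Agent.R136.EvW938
open Crest.Agent.R138.Ex926 (Base U)
open Crest.Agent.R136.Gf356
open Crest.Agent.R136.TrI938

section real

variable {κ u R k E a : ℝ} {v v' : Fin 14 → ℝ}

lemma rv4 : tr κ (sh (-u)) v 4 = v 4 := by simp only [tr4, sh]; simp
lemma rv6 : tr κ (sh (-u)) v 6 = v 6 - κ * u * v 4 := by simp only [tr6, sh]; simp; ring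
lemma rv7 : tr κ (sh (-u)) v 7 = v 7 - 2 * u * v 4 := by simp only [tr7, sh]; simp; ring
lemma rv10 : tr κ (sh (-u)) v 10 = v 10 + u ^ 2 * v 4 - u * v 7 := by
  simp only [tr10, sh]; simp; ring
lemma rv5 : tr κ (sh (-u)) v 5 = v 5 - u * v 2 := by simp only [tr5, sh]; simp; ring
lemma rv0 : tr κ (sh (-u)) v 0 = v 0 := by simp only [tr0]
lemma rv1 : tr κ (sh (-u)) v 1 = v 1 - 2 * u * v 0 := by simp only [tr1, sh]; simp; ring

lemma prod_le {x y A B C : ℝ} (hy : 0 ≤ y) (hx : x ≤ A) (hyB : y ≤ B) (hA : 0 ≤ A)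
    (h : A * B ≤ C) : x * y ≤ C :=
  (mul_le_mul hx hyB hy hA).trans h

set_option maxHeartbeats 1000000 in
/-- weight 2 -/
theorem det2 {d0 d1 d8 d10 d11 d12 d14 d15 : ℝ} (hκ : |κ| ≤ 1) (hk : 1 ≤ k) (hE : 0 ≤ E)
    (ha : 0 ≤ a) (hR : 0 ≤ R) (p0 : 0 ≤ d0) (p1 : 0 ≤ d1) (p8 : 0 ≤ d8) (p10 : 0 ≤ d10)
    (p11 : 0 ≤ d11) (p12 : 0 ≤ d12) (p14 : 0 ≤ d14) (p15 : 0 ≤ d15)
    (hR1 : R ≤ k * d1) (hu : |u| ≤ k * d0)
    (r4 : |v' 4 + tr κ (sh (-u)) v 4| ≤ E * d8) (r6 : |v' 6 + tr κ (sh (-u)) v 6| ≤ E * d10)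
    (r7 : |v' 7 + tr κ (sh (-u)) v 7| ≤ E * d11) (r10 : |v' 10 + tr κ (sh (-u)) v 10| ≤ E * d14)
    (f1 : R * |tr κ (frC κ u 1) (prj 2 v) 8| ≤ a * d12)
    (f1' : R * |tr κ (frC κ (-u) 1) (prj 2 v') 8| ≤ a * d12)
    (f2 : R * |tr κ (frC κ u 1) (prj 2 v) 11| ≤ a * d15)
    (f2' : R * |tr κ (frC κ (-u) 1) (prj 2 v') 11| ≤ a * d15)
    (w1 : d1 * d10 ≤ d12) (w2 : d1 * d11 ≤ d12) (w3 : d1 * (d0 * d8) ≤ d12)
    (w4 : d0 * d12 ≤ d15) (w5 : d1 * d14 ≤ d15) :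
    R * |κ * (u * v 4)| ≤ 8 * k ^ 3 * (a + E) * d12 ∧
    R * |κ * v 10| ≤ 8 * k ^ 3 * (a + E) * d15 ∧
    R * |u * v 6| ≤ 8 * k ^ 3 * (a + E) * d15 ∧
    R * |κ * (u * v 7)| ≤ 8 * k ^ 3 * (a + E) * d15 := by
  rw [rv4] at r4
  rw [rv6] at r6
  rw [rv7] at r7
  rw [rv10] at r10
  rw [row2z] at f1 f1'
  rw [row2a] at f2 f2'
  have k0 : 0 ≤ k := by linarith
  have k2 : k ≤ k ^ 2 := by nlinarith
  have k3 : k ^ 2 ≤ k ^ 3 := by nlinarith [sq_nonneg k]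
  set s4 := v' 4 + v 4 with hs4
  set s6 := v' 6 + (v 6 - κ * u * v 4) with hs6
  set s7 := v' 7 + (v 7 - 2 * u * v 4) with hs7
  set s10 := v' 10 + (v 10 + u ^ 2 * v 4 - u * v 7) with hs10
  set F1 := 2 * v 6 - 2 * κ * v 7 + 2 * κ * u * v 4 with hF1
  set F1' := 2 * v' 6 - 2 * κ * v' 7 + 2 * κ * -u * v' 4 with hF1'
  set F2 := 2 * u * v 6 - 2 * κ * v 10 with hF2
  set F2' := 2 * -u * v' 6 - 2 * κ * v' 10 with hF2'
  have ak : |κ| * 1 ≤ 1 := by linarith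
  -- error products
  have h6 : R * |s6| ≤ k * E * d12 := prod_le (abs_nonneg _) hR1 r6 (by positivity) (by
    calc k * d1 * (E * d10) = k * E * (d1 * d10) := by ring
      _ ≤ _ := mul_le_mul_of_nonneg_left w1 (by positivity))
  have h7 : R * |s7| ≤ k * E * d12 := prod_le (abs_nonneg _) hR1 r7 (by positivity) (by
    calc k * d1 * (E * d11) = k * E * (d1 * d11) := by ring
      _ ≤ _ := mul_le_mul_of_nonneg_left w2 (by positivity))
  have h4' : R * |s4| ≤ k * d1 * (E * d8) :=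
    mul_le_mul hR1 r4 (abs_nonneg _) (by positivity)
  have h4 : |u| * (R * |s4|) ≤ k ^ 2 * E * d12 := prod_le (by positivity) hu h4' (by positivity) (by
    calc k * d0 * (k * d1 * (E * d8)) = k ^ 2 * E * (d1 * (d0 * d8)) := by ring
      _ ≤ _ := mul_le_mul_of_nonneg_left w3 (by positivity))
  have h10 : R * |s10| ≤ k * E * d15 := prod_le (abs_nonneg _) hR1 r10 (by positivity) (by
    calc k * d1 * (E * d14) = k * E * (d1 * d14) := by ring
      _ ≤ _ := mul_le_mul_of_nonneg_left w5 (by positivity))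
  have up : ∀ {x D : ℝ}, 0 ≤ x → 0 ≤ D → x ≤ D * d12 → |u| * x ≤ k * D * d15 := by
    intro x D hx hD hxD
    refine prod_le hx hu hxD (by positivity) ?_
    calc k * d0 * (D * d12) = k * D * (d0 * d12) := by ring
      _ ≤ _ := mul_le_mul_of_nonneg_left w4 (by positivity)
  have h6' : |u| * (R * |s6|) ≤ k * (k * E) * d15 := up (by positivity) (by positivity) h6
  have hRR1 : |R * (2 * s6 - 2 * κ * s7 - 2 * κ * u * s4)| ≤ 6 * k ^ 2 * E * d12 := by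
    rw [abs_mul, abs_of_nonneg hR]
    have e1 : |2 * s6 - 2 * κ * s7 - 2 * κ * u * s4| ≤ 2 * |s6| + 2 * |s7| + 2 * (|u| * |s4|) := by
      refine (abs_sub _ _).trans (add_le_add ((abs_sub _ _).trans (add_le_add ?_ ?_)) ?_)
      · rw [abs_mul, abs_two]
      · rw [abs_mul, abs_mul, abs_two]
        have := mul_le_mul_of_nonneg_right hκ (abs_nonneg s7)
        linarith
      · rw [abs_mul, abs_mul, abs_mul, abs_two]
        have := mul_le_mul_of_nonneg_right hκ (show 0 ≤ |u| * |s4| by positivity)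
        linarith
    have e2 := mul_le_mul_of_nonneg_left e1 hR
    have e3 : k * E * d12 ≤ k ^ 2 * E * d12 :=
      mul_le_mul_of_nonneg_right (mul_le_mul_of_nonneg_right k2 hE) p12
    have e4 : R * (2 * |s6| + 2 * |s7| + 2 * (|u| * |s4|)) =
        2 * (R * |s6|) + 2 * (R * |s7|) + 2 * (|u| * (R * |s4|)) := by ring
    rw [e4] at e2
    linarith
  have hu1 : |u * (R * F1')| ≤ k * a * d15 := by
    rw [abs_mul, abs_mul R, abs_of_nonneg hR]
    exact up (by positivity) ha f1'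
  have huRR1 : |u * (R * (2 * s6 - 2 * κ * s7 - 2 * κ * u * s4))| ≤
      k * (6 * k ^ 2 * E) * d15 := by
    rw [abs_mul]
    exact up (abs_nonneg _) (by positivity) hRR1
  have hRR2 : |R * (-2 * u * s6 - 2 * κ * s10)| ≤ 4 * k ^ 2 * E * d15 := by
    rw [abs_mul, abs_of_nonneg hR]
    have e1 : |(-2) * u * s6 - 2 * κ * s10| ≤ 2 * (|u| * |s6|) + 2 * |s10| := by
      refine (abs_sub _ _).trans (add_le_add ?_ ?_)
      · rw [abs_mul, abs_mul, abs_neg, abs_two, mul_assoc]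
      · rw [abs_mul, abs_mul, abs_two]
        have := mul_le_mul_of_nonneg_right hκ (abs_nonneg s10)
        linarith
    have e2 := mul_le_mul_of_nonneg_left e1 hR
    have e3 : k * E * d15 ≤ k ^ 2 * E * d15 :=
      mul_le_mul_of_nonneg_right (mul_le_mul_of_nonneg_right k2 hE) p15
    have e4 : R * (2 * (|u| * |s6|) + 2 * |s10|) =
        2 * (|u| * (R * |s6|)) + 2 * (R * |s10|) := by ring
    rw [e4] at e2
    have e5 : k * (k * E) * d15 = k ^ 2 * E * d15 := by ring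
    rw [e5] at h6'
    linarith
  have F1b : |R * F1| ≤ a * d12 := by rw [abs_mul, abs_of_nonneg hR]; exact f1
  have F1b' : |R * F1'| ≤ a * d12 := by rw [abs_mul, abs_of_nonneg hR]; exact f1'
  have F2b : |R * F2| ≤ a * d15 := by rw [abs_mul, abs_of_nonneg hR]; exact f2
  have F2b' : |R * F2'| ≤ a * d15 := by rw [abs_mul, abs_of_nonneg hR]; exact f2'
  -- identities
  have i1 : 2 * (R * (κ * (u * v 4))) = R * F1 + R * F1' -
      R * (2 * s6 - 2 * κ * s7 - 2 * κ * u * s4) := by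
    rw [hF1, hF1', hs6, hs7, hs4]; ring
  have i2 : 2 * (R * (κ * v 10)) = R * F2' + u * (R * F1') - R * (-2 * u * s6 - 2 * κ * s10) -
      u * (R * (2 * s6 - 2 * κ * s7 - 2 * κ * u * s4)) := by
    rw [hF2', hF1', hs6, hs7, hs4, hs10]; ring
  have i3 : 2 * (R * (u * v 6)) = R * F2 + 2 * (R * (κ * v 10)) := by
    rw [hF2]; ring
  have i4 : 2 * (R * (κ * (u * v 7))) = 2 * (R * (u * v 6)) + u * (R * F1') -
      u * (R * (2 * s6 - 2 * κ * s7 - 2 * κ * u * s4)) := by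
    rw [hF1', hs6, hs7, hs4]; ring
  have q12 := mul_nonneg ha p12
  have q15 := mul_nonneg ha p15
  have z12 := mul_nonneg hE p12
  have z15 := mul_nonneg hE p15
  have K1 : a * d12 ≤ k ^ 3 * (a * d12) := le_mul_of_one_le_left q12 (one_le_pow₀ hk)
  have K2 : k ^ 2 * (E * d12) ≤ k ^ 3 * (E * d12) := mul_le_mul_of_nonneg_right k3 z12
  have K3 : a * d15 ≤ k ^ 3 * (a * d15) := le_mul_of_one_le_left q15 (one_le_pow₀ hk)
  have K4 : k * (a * d15) ≤ k ^ 3 * (a * d15) := mul_le_mul_of_nonneg_right (k2.trans k3) q15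
  have K5 : k ^ 2 * (E * d15) ≤ k ^ 3 * (E * d15) := mul_le_mul_of_nonneg_right k3 z15
  have K6 : 0 ≤ k ^ 3 * (E * d12) := by positivity
  have K7 : 0 ≤ k ^ 3 * (E * d15) := by positivity
  have K8 : 0 ≤ k ^ 3 * (a * d12) := by positivity
  have K9 : 0 ≤ k ^ 3 * (a * d15) := by positivity
  have b1 := abs_le.1 F1b
  have b1' := abs_le.1 F1b'
  have b2 := abs_le.1 F2b
  have b2' := abs_le.1 F2b'
  have b3 := abs_le.1 hRR1
  have b4 := abs_le.1 hRR2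
  have b5 := abs_le.1 hu1
  have b6 := abs_le.1 huRR1
  have fin : ∀ {x D : ℝ}, -D ≤ R * x → R * x ≤ D → R * |x| ≤ D := by
    intro x D h1 h2
    have : R * |x| = |R * x| := by rw [abs_mul, abs_of_nonneg hR]
    rw [this, abs_le]
    exact ⟨h1, h2⟩
  have j2 : |2 * (R * (κ * v 10))| ≤ 2 * (k ^ 3 * (a * d15)) + 10 * (k ^ 3 * (E * d15)) := by
    rw [abs_le, i2]; constructor <;> linarith
  have c2 := abs_le.1 j2
  have j3 : |2 * (R * (u * v 6))| ≤ 3 * (k ^ 3 * (a * d15)) + 10 * (k ^ 3 * (E * d15)) := by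
    rw [abs_le, i3]; constructor <;> linarith
  have c3 := abs_le.1 j3
  refine ⟨fin ?_ ?_, fin ?_ ?_, fin ?_ ?_, fin ?_ ?_⟩ <;> linarith

/-- weight 3 -/
theorem det3 {d0 d9 d14 : ℝ} (hk : 1 ≤ k) (hE : 0 ≤ E) (ha : 0 ≤ a) (hR : 0 ≤ R)
    (p0 : 0 ≤ d0) (p9 : 0 ≤ d9) (p14 : 0 ≤ d14) {d1 : ℝ} (p1 : 0 ≤ d1)
    (hR1 : R ≤ k * d1) (hu : |u| ≤ k * d0)
    (r5 : |v' 5 + tr κ (sh (-u)) v 5| ≤ E * d9)
    (f1 : R * |tr κ (frC κ u 1) (prj 3 v) 10| ≤ a * d14)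
    (f1' : R * |tr κ (frC κ (-u) 1) (prj 3 v') 10| ≤ a * d14)
    (w1 : d1 * (d0 * d9) ≤ d14) :
    R * |u * v 5| ≤ 8 * k ^ 3 * (a + E) * d14 ∧
    R * |u ^ 2 * v 2| ≤ 8 * k ^ 3 * (a + E) * d14 := by
  rw [rv5] at r5
  rw [row3b] at f1 f1'
  have k0 : 0 ≤ k := by linarith
  have k2 : k ≤ k ^ 2 := by nlinarith
  have k3 : k ^ 2 ≤ k ^ 3 := by nlinarith [sq_nonneg k]
  set s5 := v' 5 + (v 5 - u * v 2) with hs5
  have h5' : R * |s5| ≤ k * d1 * (E * d9) := mul_le_mul hR1 r5 (abs_nonneg _) (by positivity)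
  have h5 : |u| * (R * |s5|) ≤ k ^ 2 * E * d14 := prod_le (by positivity) hu h5' (by positivity) (by
    calc k * d0 * (k * d1 * (E * d9)) = k ^ 2 * E * (d1 * (d0 * d9)) := by ring
      _ ≤ _ := mul_le_mul_of_nonneg_left w1 (by positivity))
  have F1b : |R * (u * v 5)| ≤ a * d14 := by rw [abs_mul, abs_of_nonneg hR]; exact f1
  have F1b' : |R * (-u * v' 5)| ≤ a * d14 := by rw [abs_mul, abs_of_nonneg hR]; exact f1'
  have i1 : R * (u ^ 2 * v 2) = R * (u * v 5) - R * (-u * v' 5) - u * (R * s5) := by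
    rw [hs5]; ring
  have h6 : |u * (R * s5)| ≤ k ^ 2 * E * d14 := by
    rw [abs_mul, abs_mul, abs_of_nonneg hR]; exact h5
  have q14 := mul_nonneg ha p14
  have z14 := mul_nonneg hE p14
  have K1 : a * d14 ≤ k ^ 3 * (a * d14) := le_mul_of_one_le_left q14 (one_le_pow₀ hk)
  have K2 : k ^ 2 * (E * d14) ≤ k ^ 3 * (E * d14) := mul_le_mul_of_nonneg_right k3 z14
  have K6 : 0 ≤ k ^ 3 * (E * d14) := by positivity
  have K8 : 0 ≤ k ^ 3 * (a * d14) := by positivity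
  have b1 := abs_le.1 F1b
  have b1' := abs_le.1 F1b'
  have b3 := abs_le.1 h6
  have fin : ∀ {x D : ℝ}, -D ≤ R * x → R * x ≤ D → R * |x| ≤ D := by
    intro x D h1 h2
    have : R * |x| = |R * x| := by rw [abs_mul, abs_of_nonneg hR]
    rw [this, abs_le]
    exact ⟨h1, h2⟩
  refine ⟨fin ?_ ?_, fin ?_ ?_⟩ <;> linarith

set_option maxHeartbeats 1000000 in
/-- weight 4 -/
theorem det4 {d0 d1 d4 d5 d6 d9 : ℝ} (hκ : |κ| ≤ 1) (hk : 1 ≤ k) (hE : 0 ≤ E) (ha : 0 ≤ a)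
    (hR : 0 ≤ R) (p0 : 0 ≤ d0) (p1 : 0 ≤ d1) (p4 : 0 ≤ d4) (p5 : 0 ≤ d5) (p6 : 0 ≤ d6)
    (p9 : 0 ≤ d9) (hR1 : R ≤ k * d1) (hu : |u| ≤ k * d0)
    (r0 : |v' 0 + tr κ (sh (-u)) v 0| ≤ E * d4) (r1 : |v' 1 + tr κ (sh (-u)) v 1| ≤ E * d5)
    (f1 : R * |tr κ (frC κ u 1) (prj 4 v) 5| ≤ a * d9)
    (f2 : R * |tr κ (frC κ u 1) (prj 4 v) 2| ≤ a * d6)
    (f2' : R * |tr κ (frC κ (-u) 1) (prj 4 v') 2| ≤ a * d6)
    (w1 : d1 * d5 ≤ d6) (w2 : d1 * (d0 * d4) ≤ d6) (w3 : d0 * d6 ≤ d9) :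
    R * |κ * v 1| ≤ 8 * k ^ 3 * (a + E) * d6 ∧
    R * |κ * (u * v 0)| ≤ 8 * k ^ 3 * (a + E) * d6 ∧
    R * |κ * v 3| ≤ 8 * k ^ 3 * (a + E) * d9 := by
  rw [rv0] at r0
  rw [rv1] at r1
  rw [row4b] at f1
  rw [row4y] at f2 f2'
  have k0 : 0 ≤ k := by linarith
  have k2 : k ≤ k ^ 2 := by nlinarith
  have k3 : k ^ 2 ≤ k ^ 3 := by nlinarith [sq_nonneg k]
  set s0 := v' 0 + v 0 with hs0
  set s1 := v' 1 + (v 1 - 2 * u * v 0) with hs1
  set F1 := 2 * κ * u * v 1 - 4 * κ * v 3 with hF1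
  set F2 := 4 * κ * u * v 0 - 2 * κ * v 1 with hF2
  set F2' := 4 * κ * -u * v' 0 - 2 * κ * v' 1 with hF2'
  have h1 : R * |s1| ≤ k * E * d6 := prod_le (abs_nonneg _) hR1 r1 (by positivity) (by
    calc k * d1 * (E * d5) = k * E * (d1 * d5) := by ring
      _ ≤ _ := mul_le_mul_of_nonneg_left w1 (by positivity))
  have h0' : R * |s0| ≤ k * d1 * (E * d4) := mul_le_mul hR1 r0 (abs_nonneg _) (by positivity)
  have h0 : |u| * (R * |s0|) ≤ k ^ 2 * E * d6 := prod_le (by positivity) hu h0' (by positivity) (by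
    calc k * d0 * (k * d1 * (E * d4)) = k ^ 2 * E * (d1 * (d0 * d4)) := by ring
      _ ≤ _ := mul_le_mul_of_nonneg_left w2 (by positivity))
  have hRR : |R * (4 * κ * u * s0 + 2 * κ * s1)| ≤ 6 * k ^ 2 * E * d6 := by
    rw [abs_mul, abs_of_nonneg hR]
    have e1 : |4 * κ * u * s0 + 2 * κ * s1| ≤ 4 * (|u| * |s0|) + 2 * |s1| := by
      refine (abs_add_le _ _).trans (add_le_add ?_ ?_)
      · rw [abs_mul, abs_mul, abs_mul, abs_of_pos (by norm_num : (0:ℝ) < 4)]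
        have := mul_le_mul_of_nonneg_right hκ (show 0 ≤ |u| * |s0| by positivity)
        linarith
      · rw [abs_mul, abs_mul, abs_two]
        have := mul_le_mul_of_nonneg_right hκ (abs_nonneg s1)
        linarith
    have e2 := mul_le_mul_of_nonneg_left e1 hR
    have e3 : k * E * d6 ≤ k ^ 2 * E * d6 :=
      mul_le_mul_of_nonneg_right (mul_le_mul_of_nonneg_right k2 hE) p6
    have e4 : R * (4 * (|u| * |s0|) + 2 * |s1|) =
        4 * (|u| * (R * |s0|)) + 2 * (R * |s1|) := by ring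
    rw [e4] at e2
    linarith
  have up : ∀ {x D : ℝ}, 0 ≤ x → 0 ≤ D → x ≤ D * d6 → |u| * x ≤ k * D * d9 := by
    intro x D hx hD hxD
    refine prod_le hx hu hxD (by positivity) ?_
    calc k * d0 * (D * d6) = k * D * (d0 * d6) := by ring
      _ ≤ _ := mul_le_mul_of_nonneg_left w3 (by positivity)
  have F1b : |R * F1| ≤ a * d9 := by rw [abs_mul, abs_of_nonneg hR]; exact f1
  have F2b : |R * F2| ≤ a * d6 := by rw [abs_mul, abs_of_nonneg hR]; exact f2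
  have F2b' : |R * F2'| ≤ a * d6 := by rw [abs_mul, abs_of_nonneg hR]; exact f2'
  have hu2 : |u * (R * F2')| ≤ k * a * d9 := by
    rw [abs_mul]; exact up (abs_nonneg _) ha F2b'
  have huRR : |u * (R * (4 * κ * u * s0 + 2 * κ * s1))| ≤ k * (6 * k ^ 2 * E) * d9 := by
    rw [abs_mul]; exact up (abs_nonneg _) (by positivity) hRR
  have i1 : 2 * (R * (κ * v 1)) = R * F2' + R * (4 * κ * u * s0 + 2 * κ * s1) := by
    rw [hF2', hs0, hs1]; ring
  have i2 : 4 * (R * (κ * (u * v 0))) = R * F2 + 2 * (R * (κ * v 1)) := by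
    rw [hF2]; ring
  have i3 : 4 * (R * (κ * v 3)) = u * (R * F2') + u * (R * (4 * κ * u * s0 + 2 * κ * s1)) -
      R * F1 := by
    rw [hF1, hF2', hs0, hs1]; ring
  have q6 := mul_nonneg ha p6
  have q9 := mul_nonneg ha p9
  have z6 := mul_nonneg hE p6
  have z9 := mul_nonneg hE p9
  have K1 : a * d6 ≤ k ^ 3 * (a * d6) := le_mul_of_one_le_left q6 (one_le_pow₀ hk)
  have K2 : k ^ 2 * (E * d6) ≤ k ^ 3 * (E * d6) := mul_le_mul_of_nonneg_right k3 z6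
  have K3 : a * d9 ≤ k ^ 3 * (a * d9) := le_mul_of_one_le_left q9 (one_le_pow₀ hk)
  have K4 : k * (a * d9) ≤ k ^ 3 * (a * d9) := mul_le_mul_of_nonneg_right (k2.trans k3) q9
  have K6 : 0 ≤ k ^ 3 * (E * d6) := by positivity
  have K7 : 0 ≤ k ^ 3 * (E * d9) := by positivity
  have K8 : 0 ≤ k ^ 3 * (a * d6) := by positivity
  have K9 : 0 ≤ k ^ 3 * (a * d9) := by positivity
  have b1 := abs_le.1 F1b
  have b2 := abs_le.1 F2b
  have b2' := abs_le.1 F2b'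
  have b3 := abs_le.1 hRR
  have b4 := abs_le.1 hu2
  have b5 := abs_le.1 huRR
  have fin : ∀ {x D : ℝ}, -D ≤ R * x → R * x ≤ D → R * |x| ≤ D := by
    intro x D h1 h2
    have : R * |x| = |R * x| := by rw [abs_mul, abs_of_nonneg hR]
    rw [this, abs_le]
    exact ⟨h1, h2⟩
  refine ⟨fin ?_ ?_, fin ?_ ?_, fin ?_ ?_⟩ <;> linarith

end real

end Crest.Agent.R136.Vw848
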