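import Crest.Agent.R136.Vw4_848

/-!
# R136: row (ii) of 5b (weights 2, 3, 4), part d: the twist (helper848)

* `own_revG` : own motion of the reversed pair, raw form, all slots.
* `Gen w s α hd` : the table: own slot `s` of weight `w`, seen in the slot `hd` with `u ^ α`.
* `seenA w, seenB w` : the two seen slots; `phiM` : the larger multiplier.
* `det_cfg` : one of the two orders of a pair of heights is good.
* `twC` : raw twist of `phiM` from the visibility of one own slot of weight `w`.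
-/

set_option autoImplicit false
set_option linter.unusedSectionVars false
set_option linter.unusedVariables false

open Filter Topology

namespace Crest.Agent.R136.Vw848

open Finset Crest.Agent.R136.NetW191 Crest.Agent.R136.Net191 Crest.Agent.R136.Qg926
open Crest.Agent.R136.EvW938
open Crest.Agent.R138.Ex926 (Base U)
open Crest.Agent.R136.Gf356
open Crest.Agent.R136.TrI938

variable {ι : ℕ → Type*} [∀ n, DecidableEq (ι n)] {W : Wnd 18 ι} {κ : ℕ → ℝ}
  {lam : ℕ → Fin 18 → ℝ} {f : ∀ n, ι n → FW}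

/-- seen slots (14-index) -/
def seenA (w : ℕ) : Fin 14 := if w = 2 then 8 else if w = 3 then 10 else 5
/-- seen slots (14-index) -/
def seenB (w : ℕ) : Fin 14 := if w = 2 then 11 else if w = 3 then 10 else 2

/-- **the table**: own slot `s` of weight `w`, power `α` of `u`, seen in the slot `hd` -/
def Gen (w : ℕ) (s : Fin 14) (α : ℕ) (hd : Fin 14) : Prop :=
  (w, s, α, hd) ∈ ([(2, 4, 1, 8), (2, 10, 0, 11), (2, 6, 1, 11), (2, 7, 1, 11), (3, 5, 1, 10),
    (3, 2, 2, 10), (4, 1, 0, 2), (4, 0, 1, 2), (4, 3, 0, 5)] : List (ℕ × Fin 14 × ℕ × Fin 14))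

instance (w : ℕ) (s : Fin 14) (α : ℕ) (hd : Fin 14) : Decidable (Gen w s α hd) := by
  unfold Gen; infer_instance

/-- the larger of the two multipliers -/
noncomputable def phiM (W : Wnd 18 ι) (κ : ℕ → ℝ) (lam : ℕ → Fin 18 → ℝ) (w n i k k' : ℕ) : ℝ :=
  max |phiC W κ lam w n i k k' (seenA w)| |phiC W κ lam w n i k k' (seenB w)|

/-- own motion of the reversed pair, raw form -/
theorem own_revG (h : WWnd W κ lam f) {n : ℕ} (g : W.Good n) {E : Finset (ι n)}
    (hE : E ⊆ W.Cl n) {i k k' : ℕ}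
    (hi : (i, k) ∈ (W.cfg0 n E).I) (hi' : (i, k') ∈ (W.cfg0 n E).I) {t : ℝ}
    (ht : ∀ s, t ≤ W.top s) :
    (un W lam n 0 * ownC W n i k' k 0 = -(un W lam n 0 * ownC W n i k k' 0)) ∧
    ∀ q, |ownR W lam n i k' k q +
      tr (κ n) (sh (-(un W lam n 0 * ownC W n i k k' 0))) (ownR W lam n i k k') q| ≤
      470 * W.K0 ^ 7 * W.B'.d n ^ t * sd W lam n (Fin.natAdd 4 q) := by
  obtain ⟨a1, a2, a3⟩ := Wnd.rep_of_mem hE hi
  obtain ⟨b1, b2, b3⟩ := Wnd.rep_of_mem hE hi'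
  have hlc := a2.trans b2.symm
  have e : ∀ s, un W lam n s * ownC W n i k k' s =
      coW (κ n) (f n (W.rep n i k)) (f n (W.rep n i k')) s := fun s => (h.crd_eq g a1 b1 s).symm
  have e' : ∀ s, un W lam n s * ownC W n i k' k s =
      coW (κ n) (f n (W.rep n i k')) (f n (W.rep n i k)) s := fun s => (h.crd_eq g b1 a1 s).symm
  have h0 : coW (κ n) (f n (W.rep n i k')) (f n (W.rep n i k)) 0 =
      -coW (κ n) (f n (W.rep n i k)) (f n (W.rep n i k')) 0 := by
    have c1 : ∀ x y : FW, coW (κ n) x y 0 = y.g 0 - x.g 0 := fun x y => rfl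
    rw [c1, c1]; ring
  have hs := fun s hs => h.own_small g b1 a1 hlc.symm (s := s) hs (ht s)
  refine ⟨by rw [e, e', h0], fun q => ?_⟩
  have r := rev_gen (h.hκ n) (h.sides g) h.ok.K0_one
    (Real.rpow_nonneg (W.B'.pos n).le t)
    (flag_rev (κ n) (f n (W.rep n i k)) (f n (W.rep n i k'))) h0 (h.bnd g a1 b1) (h.bnd g b1 a1)
    (hs 1 h.n1) (hs 2 h.n2) (hs 3 h.n3) q
  have e1 : ownR W lam n i k' k q =
      coW (κ n) (f n (W.rep n i k')) (f n (W.rep n i k)) (Fin.natAdd 4 q) := e' _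
  have e2 : ownR W lam n i k k' =
      flg (coW (κ n) (f n (W.rep n i k)) (f n (W.rep n i k'))) := by
    funext q; exact e _
  rw [e1, e2, e 0]
  exact r

/-- constant of `det_cfg` -/
noncomputable def CG (W : Wnd 18 ι) : ℝ := 8 * W.K2 ^ 3 * (W.K2 + 470 * W.K0 ^ 7)

theorem CG_pos (h : WWnd W κ lam f) : 0 < CG W := by
  have := h.ok.K0_one
  have := Wnd.K2_one h.ok
  unfold CG; positivity

/-- **one of the two orders of a pair of heights is good** -/
theorem det_cfg (h : WWnd W κ lam f) {n : ℕ} (g : W.Good n) {E : Finset (ι n)}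
    (hE : E ⊆ W.Cl n) {i k k' : ℕ}
    (hi : (i, k) ∈ (W.cfg0 n E).I) (hi' : (i, k') ∈ (W.cfg0 n E).I) {t : ℝ}
    (ht : ∀ s, t ≤ W.top s) {w : ℕ} {s : Fin 14} {α : ℕ} {hd : Fin 14} (hg : Gen w s α hd) :
    un W lam n 1 * (|κ n| * (|un W lam n 0 * ownC W n i k k' 0| ^ α *
      |un W lam n (Fin.natAdd 4 s) * ownC W n i k k' (Fin.natAdd 4 s)|)) ≤
      CG W * (max (phiM W κ lam w n i k k') (phiM W κ lam w n i k' k) + W.B'.d n ^ t) *
        sd W lam n (Fin.natAdd 4 hd) := by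
  obtain ⟨e0, rv⟩ := own_revG h g hE hi hi' ht
  have hK0 := h.ok.K0_one
  have hK2 := Wnd.K2_one h.ok
  have hK20 : 0 ≤ W.K2 := by linarith
  have hκ := h.hκ n
  have hX := h.sides g
  set u := un W lam n 0 * ownC W n i k k' 0 with hu
  set v := ownR W lam n i k k' with hv
  set v' := ownR W lam n i k' k with hv'
  set M := max (phiM W κ lam w n i k k') (phiM W κ lam w n i k' k) with hM
  set τ := W.B'.d n ^ t with hτ
  have τ0 : 0 ≤ τ := (Real.rpow_pos_of_pos (W.B'.pos n) _).le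
  have M0 : 0 ≤ M := ((abs_nonneg _).trans (le_max_left _ _)).trans (le_max_left _ _)
  have sp : ∀ s, 0 ≤ sd W lam n s := fun s => (h.sd_pos n s).le
  have hR : 0 ≤ un W lam n 1 := (h.un_pos n 1).le
  have hR1 : un W lam n 1 ≤ W.K2 * sd W lam n 1 :=
    mul_le_mul_of_nonneg_right (Wnd.kap_le_K2 h.ok 1) (sp 1)
  have hu0 : |u| ≤ W.K2 * sd W lam n 0 := h.raw_K0 (h.own_le g hE hi hi' 0)
  have E0 : 0 ≤ 470 * W.K0 ^ 7 * τ := by positivity
  have a0 : 0 ≤ W.K2 * M := mul_nonneg hK20 M0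
  -- the seen slots
  have seen : ∀ q : Fin 14, (q = seenA w ∨ q = seenB w) →
      un W lam n 1 * |tr (κ n) (frC (κ n) u 1) (prj w v) q| ≤
        W.K2 * M * sd W lam n (Fin.natAdd 4 q) ∧
      un W lam n 1 * |tr (κ n) (frC (κ n) (-u) 1) (prj w v') q| ≤
        W.K2 * M * sd W lam n (Fin.natAdd 4 q) := by
    intro q hq
    have key : ∀ (a b : ℕ) (uu : ℝ) (vv : Fin 14 → ℝ), un W lam n 0 * ownC W n i a b 0 = uu →
        ownR W lam n i a b = vv → |phiC W κ lam w n i a b q| ≤ M →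
        un W lam n 1 * |tr (κ n) (frC (κ n) uu 1) (prj w vv) q| ≤
          W.K2 * M * sd W lam n (Fin.natAdd 4 q) := by
      intro a b uu vv h1 h2 h3
      unfold phiC at h3
      rw [h1, h2, abs_div, abs_neg, abs_mul, abs_of_nonneg hR,
        abs_of_pos (h.un_pos n (Fin.natAdd 4 q)), div_le_iff₀ (h.un_pos n _)] at h3
      refine h3.trans ?_
      have h5 : un W lam n (Fin.natAdd 4 q) ≤ W.K2 * sd W lam n (Fin.natAdd 4 q) :=
        mul_le_mul_of_nonneg_right (Wnd.kap_le_K2 h.ok _) (sp _)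
      calc M * un W lam n (Fin.natAdd 4 q) ≤ M * (W.K2 * sd W lam n (Fin.natAdd 4 q)) :=
            mul_le_mul_of_nonneg_left h5 M0
        _ = _ := by ring
    have hle : ∀ a b : ℕ, |phiC W κ lam w n i a b q| ≤ phiM W κ lam w n i a b := by
      intro a b
      rcases hq with rfl | rfl
      · exact le_max_left _ _
      · exact le_max_right _ _
    exact ⟨key k k' u v rfl rfl ((hle k k').trans (le_max_left _ _)),
      key k' k (-u) v' e0 rfl ((hle k' k).trans (le_max_right _ _))⟩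
  have wl : ∀ {q : Fin 18} {l : List (Fin 18)}, l ∈ mlW q →
      (l.map (sd W lam n)).prod ≤ sd W lam n q := fun {q l} hl => hX.wall q l hl
  have fin : ∀ {x D : ℝ}, 8 * W.K2 ^ 3 * (W.K2 * M + 470 * W.K0 ^ 7 * τ) * D = x → 0 ≤ D →
      x ≤ CG W * (M + τ) * D := by
    rintro x D rfl hD
    refine mul_le_mul_of_nonneg_right ?_ hD
    unfold CG
    rw [mul_assoc (8 * W.K2 ^ 3)]
    refine mul_le_mul_of_nonneg_left ?_ (by positivity)
    have := mul_nonneg (show 0 ≤ 470 * W.K0 ^ 7 by positivity) M0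
    have := mul_nonneg hK20 τ0
    nlinarith
  have rr : ∀ q : Fin 14, |v' q + tr (κ n) (sh (-u)) v q| ≤
      470 * W.K0 ^ 7 * τ * sd W lam n (Fin.natAdd 4 q) := rv
  unfold Gen at hg
  simp only [List.mem_cons, Prod.mk.injEq, List.not_mem_nil, or_false] at hg
  -- weight 2
  have D2 : w = 2 → _ := fun hw => by
    subst hw
    obtain ⟨f1, f1'⟩ := seen 8 (Or.inl rfl)
    obtain ⟨f2, f2'⟩ := seen 11 (Or.inr rfl)
    have w1 := wl (q := 12) (l := [1, 10]) (by decide)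
    have w2 := wl (q := 12) (l := [1, 11]) (by decide)
    have w3 := wl (q := 12) (l := [2, 8]) (by decide)
    have w3' := wl (q := 2) (l := [1, 0]) (by decide)
    have w4 := wl (q := 15) (l := [0, 12]) (by decide)
    have w5 := wl (q := 15) (l := [1, 14]) (by decide)
    simp only [List.map_cons, List.map_nil, List.prod_cons, List.prod_nil, mul_one] at w1 w2 w3 w3' w4 w5
    have w3'' : sd W lam n 1 * (sd W lam n 0 * sd W lam n 8) ≤ sd W lam n 12 := by
      calc _ = sd W lam n 1 * sd W lam n 0 * sd W lam n 8 := by ring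
        _ ≤ sd W lam n 2 * sd W lam n 8 := mul_le_mul_of_nonneg_right w3' (sp 8)
        _ ≤ _ := w3
    exact det2 (v := v) (v' := v') hκ hK2 E0 a0 hR (sp 0) (sp 1) (sp 8) (sp 10) (sp 11) (sp 12)
      (sp 14) (sp 15) hR1 hu0 (rr 4) (rr 6) (rr 7) (rr 10) f1 f1' f2 f2' w1 w2 w3'' w4 w5
  have D3 : w = 3 → _ := fun hw => by
    subst hw
    obtain ⟨f1, f1'⟩ := seen 10 (Or.inl rfl)
    have w3 := wl (q := 14) (l := [2, 9]) (by decide)
    have w3' := wl (q := 2) (l := [1, 0]) (by decide)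
    simp only [List.map_cons, List.map_nil, List.prod_cons, List.prod_nil, mul_one] at w3 w3'
    have w3'' : sd W lam n 1 * (sd W lam n 0 * sd W lam n 9) ≤ sd W lam n 14 := by
      calc _ = sd W lam n 1 * sd W lam n 0 * sd W lam n 9 := by ring
        _ ≤ sd W lam n 2 * sd W lam n 9 := mul_le_mul_of_nonneg_right w3' (sp 9)
        _ ≤ _ := w3
    exact det3 (v := v) (v' := v') (d0 := sd W lam n 0) hK2 E0 a0 hR (sp 0) (sp 9) (sp 14) (sp 1)
      hR1 hu0 (rr 5) f1 f1' w3''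
  have D4 : w = 4 → _ := fun hw => by
    subst hw
    obtain ⟨f1, f1'⟩ := seen 5 (Or.inl rfl)
    obtain ⟨f2, f2'⟩ := seen 2 (Or.inr rfl)
    have w1 := wl (q := 6) (l := [1, 5]) (by decide)
    have w2 := wl (q := 6) (l := [2, 4]) (by decide)
    have w2' := wl (q := 2) (l := [1, 0]) (by decide)
    have w3 := wl (q := 9) (l := [0, 6]) (by decide)
    simp only [List.map_cons, List.map_nil, List.prod_cons, List.prod_nil, mul_one] at w1 w2 w2' w3
    have w2'' : sd W lam n 1 * (sd W lam n 0 * sd W lam n 4) ≤ sd W lam n 6 := by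
      calc _ = sd W lam n 1 * sd W lam n 0 * sd W lam n 4 := by ring
        _ ≤ sd W lam n 2 * sd W lam n 4 := mul_le_mul_of_nonneg_right w2' (sp 4)
        _ ≤ _ := w2
    exact det4 (v := v) (v' := v') hκ hK2 E0 a0 hR (sp 0) (sp 1) (sp 4) (sp 5) (sp 6) (sp 9)
      hR1 hu0 (rr 0) (rr 1) f1 f2 f2' w1 w2'' w3
  have eqv : ∀ q : Fin 14, un W lam n (Fin.natAdd 4 q) * ownC W n i k k' (Fin.natAdd 4 q) = v q :=
    fun q => rfl
  rcases hg with ⟨rfl, rfl, rfl, rfl⟩ | ⟨rfl, rfl, rfl, rfl⟩ | ⟨rfl, rfl, rfl, rfl⟩ |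
    ⟨rfl, rfl, rfl, rfl⟩ | ⟨rfl, rfl, rfl, rfl⟩ | ⟨rfl, rfl, rfl, rfl⟩ | ⟨rfl, rfl, rfl, rfl⟩ |
    ⟨rfl, rfl, rfl, rfl⟩ | ⟨rfl, rfl, rfl, rfl⟩
  · have := (D2 rfl).1
    rw [abs_mul, abs_mul] at this
    rw [pow_one, eqv]
    exact this.trans (fin rfl (sp _))
  · have := (D2 rfl).2.1
    rw [abs_mul] at this
    rw [pow_zero, one_mul, eqv]
    exact this.trans (fin rfl (sp _))
  · have h1 := (D2 rfl).2.2.1
    rw [abs_mul] at h1
    rw [pow_one, eqv]
    refine le_trans ?_ (h1.trans (fin rfl (sp _)))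
    refine mul_le_mul_of_nonneg_left ?_ hR
    exact mul_le_of_le_one_left (by positivity) hκ
  · have := (D2 rfl).2.2.2
    rw [abs_mul, abs_mul] at this
    rw [pow_one, eqv]
    exact this.trans (fin rfl (sp _))
  · have h1 := (D3 rfl).1
    rw [abs_mul] at h1
    rw [pow_one, eqv]
    refine le_trans ?_ (h1.trans (fin rfl (sp _)))
    refine mul_le_mul_of_nonneg_left ?_ hR
    exact mul_le_of_le_one_left (by positivity) hκ
  · have h1 := (D3 rfl).2
    rw [abs_mul, abs_pow] at h1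
    rw [eqv]
    refine le_trans ?_ (h1.trans (fin rfl (sp _)))
    refine mul_le_mul_of_nonneg_left ?_ hR
    exact mul_le_of_le_one_left (by positivity) hκ
  · have := (D4 rfl).1
    rw [abs_mul] at this
    rw [pow_zero, one_mul, eqv]
    exact this.trans (fin rfl (sp _))
  · have := (D4 rfl).2.1
    rw [abs_mul, abs_mul] at this
    rw [pow_one, eqv]
    exact this.trans (fin rfl (sp _))
  · have := (D4 rfl).2.2
    rw [abs_mul] at this
    rw [pow_zero, one_mul, eqv]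
    exact this.trans (fin rfl (sp _))

/-- **raw twist of `phiM`** from the visibility of one own slot `s` of weight `w` -/
theorem twC (h : WWnd W κ lam f) {E : ∀ n, Finset (ι n)} (hE : EvG W E)
    {t : ℝ} (ht0 : 0 < t) (ht : ∀ s, t ≤ W.top s) {w : ℕ} {s : Fin 14} {α : ℕ} {hd : Fin 14}
    (hg : Gen w s α hd)
    (hkp : ∀ ε : ℝ, 0 < ε → ∀ᶠ n in (U : Filter ℕ), W.B'.d n ^ ε ≤ |κ n|)
    {c : ℝ} (hc : 0 < c) (hcf : ∀ᶠ n in (U : Filter ℕ), c * sd W lam n (Fin.natAdd 4 hd) ≤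
      un W lam n 1 * (un W lam n 0 ^ α * un W lam n (Fin.natAdd 4 s)))
    (hvis : ∀ ε : ℝ, 0 < ε → ∀ᶠ n in (U : Filter ℕ), ∀ i ∈ (W.cfg E n).L,
      ∃ T ⊆ ((W.cfg E n).hts i) ×ˢ ((W.cfg E n).hts i), (∀ q ∈ T,
        W.B'.d n ^ ε < |ownC W n i q.1 q.2 0| ∧
        W.B'.d n ^ ε < |ownC W n i q.1 q.2 (Fin.natAdd 4 s)|) ∧
      W.B'.d n ^ ε * (((W.cfg E n).hts i).card : ℝ) ^ 2 ≤ (T.card : ℝ)) :
    RawTwI W.B' (W.cfg E) (fun n i k k' =>
      max |phiC W κ lam w n i k k' (seenA w)| |phiC W κ lam w n i k k' (seenB w)|) := by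
  classical
  intro ε' hε'
  set N : ℝ := (α : ℝ) + 5 with hN
  have hN5 : 5 ≤ N := by rw [hN]; have : (0 : ℝ) ≤ α := Nat.cast_nonneg _; linarith
  have hN0 : 0 < N := by linarith
  set ε := min ε' (t / 2) / N with hεdef
  have hmin : 0 < min ε' (t / 2) := lt_min hε' (by linarith)
  have hε : 0 < ε := by positivity
  have hNε : N * ε = min ε' (t / 2) := by rw [hεdef]; field_simp
  have hε1 : N * ε ≤ ε' := by rw [hNε]; exact min_le_left _ _
  have hε2 : N * ε ≤ t / 2 := by rw [hNε]; exact min_le_right _ _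
  have hCG := CG_pos h
  filter_upwards [hE, hvis ε hε, hkp ε hε, hcf, ev_const_le W.B' hε (2 * (CG W / c) + 2)]
    with n hn hvn hkn hcn h2n
  obtain ⟨g, hsub, heq⟩ := hn
  rw [heq] at hvn ⊢
  intro i hi
  obtain ⟨T, hT1, hT2, hT3⟩ := hvn i hi
  have hpos : ∀ t : ℝ, 0 < W.B'.d n ^ t := fun t => Real.rpow_pos_of_pos (W.B'.pos n) _
  have anti : ∀ {s t : ℝ}, s ≤ t → W.B'.d n ^ t ≤ W.B'.d n ^ s := fun hst =>
    Real.rpow_le_rpow_of_exponent_ge (W.B'.pos n) (W.B'.lt n).le hst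
  have radd : ∀ s t : ℝ, W.B'.d n ^ s * W.B'.d n ^ t = W.B'.d n ^ (s + t) := fun s t =>
    (Real.rpow_add (W.B'.pos n) s t).symm
  have hCc : 0 < CG W / c := div_pos hCG hc
  have hc1 : (2 * (CG W / c) + 2) * W.B'.d n ^ ε ≤ 1 := by
    have := mul_le_mul_of_nonneg_right h2n (hpos ε).le
    rwa [radd, neg_add_cancel, Real.rpow_zero] at this
  have hρε : W.B'.d n ^ ε ≤ 1 / 2 := by nlinarith [hpos ε, mul_nonneg hCc.le (hpos ε).le]
  have hcρ : 2 * (CG W * W.B'.d n ^ ε) ≤ c := by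
    have h1 : 2 * (CG W / c) * W.B'.d n ^ ε ≤ 1 := by nlinarith [hpos ε]
    have h2 := mul_le_mul_of_nonneg_left h1 hc.le
    have e : c * (2 * (CG W / c) * W.B'.d n ^ ε) = 2 * (CG W * W.B'.d n ^ ε) := by
      field_simp
    rw [e] at h2
    linarith
  have half : ∀ x : ℝ, 2 * W.B'.d n ^ (x + ε) ≤ W.B'.d n ^ x := by
    intro x
    rw [← radd]
    have := mul_le_mul_of_nonneg_left hρε (hpos x).le
    linarith
  have key : ∀ q ∈ T, W.B'.d n ^ ε' < |phiM W κ lam w n i q.1 q.2| ∨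
      W.B'.d n ^ ε' < |phiM W κ lam w n i q.swap.1 q.swap.2| := by
    intro q hq
    have hqm := Finset.mem_product.1 (hT1 hq)
    have hI1 : (i, q.1) ∈ (W.cfg0 n (E n)).I := (RCfg.mem_hts.1 hqm.1).2
    have hI2 : (i, q.2) ∈ (W.cfg0 n (E n)).I := (RCfg.mem_hts.1 hqm.2).2
    have hd' := det_cfg h g hsub hI1 hI2 ht hg
    obtain ⟨v1, v2⟩ := hT2 q hq
    set M := max (phiM W κ lam w n i q.1 q.2) (phiM W κ lam w n i q.2 q.1) with hM
    have hsd := h.sd_pos n (Fin.natAdd 4 hd)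
    have e1 : un W lam n 1 * (|κ n| * (|un W lam n 0 * ownC W n i q.1 q.2 0| ^ α *
        |un W lam n (Fin.natAdd 4 s) * ownC W n i q.1 q.2 (Fin.natAdd 4 s)|)) =
        (un W lam n 1 * (un W lam n 0 ^ α * un W lam n (Fin.natAdd 4 s))) *
        (|κ n| * (|ownC W n i q.1 q.2 0| ^ α * |ownC W n i q.1 q.2 (Fin.natAdd 4 s)|)) := by
      rw [abs_mul, abs_mul, abs_of_pos (h.un_pos n 0), abs_of_pos (h.un_pos n _), mul_pow]
      ring
    rw [e1] at hd'
    have hlow : W.B'.d n ^ (((α : ℝ) + 2) * ε) ≤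
        |κ n| * (|ownC W n i q.1 q.2 0| ^ α * |ownC W n i q.1 q.2 (Fin.natAdd 4 s)|) := by
      have e2 : W.B'.d n ^ (((α : ℝ) + 2) * ε) =
          W.B'.d n ^ ε * ((W.B'.d n ^ ε) ^ α * W.B'.d n ^ ε) := by
        rw [← Real.rpow_natCast, ← Real.rpow_mul (W.B'.pos n).le, radd, radd]
        congr 1; ring
      rw [e2]
      refine mul_le_mul hkn ?_ (by have := hpos ε; positivity) (abs_nonneg _)
      exact mul_le_mul (pow_le_pow_left₀ (hpos ε).le v1.le α) v2.le (hpos ε).le (by positivity)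
    have h3 : c * W.B'.d n ^ (((α : ℝ) + 2) * ε) * sd W lam n (Fin.natAdd 4 hd) ≤
        CG W * (M + W.B'.d n ^ t) * sd W lam n (Fin.natAdd 4 hd) := by
      calc c * W.B'.d n ^ (((α : ℝ) + 2) * ε) * sd W lam n (Fin.natAdd 4 hd) =
          (c * sd W lam n (Fin.natAdd 4 hd)) * W.B'.d n ^ (((α : ℝ) + 2) * ε) := by ring
        _ ≤ _ := mul_le_mul hcn hlow (hpos _).le (le_trans (by positivity) hcn)
        _ ≤ _ := hd'
    have h4 : c * W.B'.d n ^ (((α : ℝ) + 2) * ε) ≤ CG W * (M + W.B'.d n ^ t) :=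
      le_of_mul_le_mul_right h3 hsd
    have h5 : 2 * W.B'.d n ^ (((α : ℝ) + 3) * ε) ≤ M + W.B'.d n ^ t := by
      have h6 : CG W * (2 * W.B'.d n ^ (((α : ℝ) + 3) * ε)) ≤
          c * W.B'.d n ^ (((α : ℝ) + 2) * ε) := by
        have e3 : W.B'.d n ^ (((α : ℝ) + 3) * ε) =
            W.B'.d n ^ ε * W.B'.d n ^ (((α : ℝ) + 2) * ε) := by rw [radd]; congr 1; ring
        rw [e3]
        calc CG W * (2 * (W.B'.d n ^ ε * W.B'.d n ^ (((α : ℝ) + 2) * ε))) =
            (2 * (CG W * W.B'.d n ^ ε)) * W.B'.d n ^ (((α : ℝ) + 2) * ε) := by ring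
          _ ≤ _ := mul_le_mul_of_nonneg_right hcρ (hpos _).le
      exact le_of_mul_le_mul_left (h6.trans h4) hCG
    have hα : (0 : ℝ) ≤ α := Nat.cast_nonneg _
    have h6 : 2 * W.B'.d n ^ t ≤ W.B'.d n ^ (((α : ℝ) + 3) * ε) :=
      (mul_le_mul_of_nonneg_left (anti (by rw [hN] at hε2; nlinarith)) (by norm_num)).trans
        (half _)
    have h7 : 2 * W.B'.d n ^ ε' ≤ W.B'.d n ^ (((α : ℝ) + 3) * ε) :=
      (mul_le_mul_of_nonneg_left (anti (by rw [hN] at hε1; nlinarith)) (by norm_num)).trans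
        (half _)
    have h8 : W.B'.d n ^ ε' < M := by
      have := hpos ε'
      have := hpos t
      linarith
    rcases lt_max_iff.1 h8 with h9 | h9
    · exact Or.inl (h9.trans_le (le_abs_self _))
    · exact Or.inr (h9.trans_le (le_abs_self _))
  have hbig : 2 * (W.B'.d n ^ ε' * (((W.cfg0 n (E n)).hts i).card : ℝ) ^ 2) ≤ (T.card : ℝ) := by
    have e1 : 2 * W.B'.d n ^ ε' ≤ W.B'.d n ^ ε :=
      (mul_le_mul_of_nonneg_left (anti (by nlinarith)) (by norm_num)).trans (half _)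
    have e2 := mul_le_mul_of_nonneg_right e1
      (sq_nonneg (((W.cfg0 n (E n)).hts i).card : ℝ))
    linarith
  exact swap_part hT1 (fun q => W.B'.d n ^ ε' < |phiM W κ lam w n i q.1 q.2|) key hbig

end Crest.Agent.R136.Vw848
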