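import Crest.Agent.R136.Vw5_848
import Crest.Agent.R136.RowI3_938

/-!
# R136 (helper848): row (ii) of 5b, part e: the data of the windows of the row `deadhi2`

* `FL w` : flags of weight `≥ w`, `ZW w` : of weight `w`, `bW` : offset, `eW` : direction of the
  offset, `mT, mR` : boxes
* `hcf_of` : the scale condition of `twC` from the tight walls
* `tied_max` : a tied slot of maximal `z`-weight
* groups on the rung `s = 1 - θ 0 + w θ 1`
-/

set_option autoImplicit false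
set_option linter.unusedSectionVars false
set_option linter.unusedVariables false

open Filter Topology

namespace Crest.Agent.R136.Vw848

open Finset Crest.Agent.R136.NetW191 Crest.Agent.R136.Net191 Crest.Agent.R136.Qg926
open Crest.Agent.R136.EvW938 Crest.Agent.R136.RowW619 Crest.Agent.R136.Lf400
open Crest.Agent.R136.TrI938 Crest.Agent.R136.Bas938
open Crest.Agent.R136.LadW697 Crest.Agent.R136.NatW697 Crest.Agent.R136.PrW464
open Crest.Agent.R136.Dg219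
open Crest.Agent.R136.AwJ774
open Crest.Agent.R136.ThB830 (PtC)
open Crest.Agent.R136.P0830 (ptB_of basG_of)
open Crest.Agent.R136.Aw413
open Crest.Agent.R138.Ex926 (Base U)
open Crest.Agent.R136.Gf356
open Crest.Agent.R136.RowI938 (n1 nP okV_lin wdat_lin mem_lin sum_lin)

/-- flags of weight `≥ w` -/
def FL (w : ℕ) : Finset (Fin 18) :=
  if w = 2 then {4, 5, 6, 7, 8, 9, 10, 11, 14} else if w = 3 then {4, 5, 6, 7, 9} else {4, 5, 7}

/-- flags of weight `w` -/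
def ZW (w : ℕ) : Finset (Fin 18) :=
  if w = 2 then {8, 10, 11, 14} else if w = 3 then {6, 9} else {4, 5, 7}

/-- flags of the weight of `v` above `v` -/
def upF (v : Fin 18) : Finset (Fin 18) :=
  if v = 10 ∨ v = 11 then {8} else if v = 14 then {8, 11} else if v = 9 then {6} else
    if v = 5 then {4} else if v = 7 then {4, 5} else ∅

/-- offset -/
def bW (w : ℕ) (v : Fin 18) : Fin 18 → ℕ := fun k =>
  if k ∈ FL w \ ZW w then 2 else if k ∈ upF v then 1 else 0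

/-- low slots which are shifted with `c` -/
def lowE (w : ℕ) : Finset (Fin 18) :=
  if w = 2 then {1, 2, 3, 12, 15} else if w = 3 then {1, 2, 3, 8, 11, 14} else {1, 2, 3, 6, 9}

/-- direction of the offset -/
def eW (w : ℕ) : Fin 18 → ℕ := fun k => if k ∈ lowE w then 1 else 0

/-- the flags of weight `≥ w` narrow -/
def mT (w : ℕ) : Fin 18 → ℕ := fun k => if k ∈ FL w then 1 else 0
/-- the flags of weight `≥ w` and the seen slots narrow -/
def mR (w : ℕ) : Fin 18 → ℕ := fun k => if k ∈ FL w ∨ k = Fin.natAdd 4 (seenA w) ∨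
  k = Fin.natAdd 4 (seenB w) then 1 else 0
/-- `z` narrow -/
def wz1 (n : Fin 18 → ℕ) : Fin 18 → ℕ := fun k => if k = 0 then 1 else n k

/-- the cases: weight, dropped slots of weight `w`, own slot (14-index), power, seen slot -/
def Cas (w : ℕ) (D : Finset (Fin 18)) (v : Fin 14) (α : ℕ) (hd : Fin 14) : Prop :=
  Gen w v α hd ∧ Fin.natAdd 4 v ∉ D ∧ ((w = 2 ∧ (D = ∅ ∨ D = {8})) ∨ (w = 3 ∧ (D = ∅ ∨ D = {6})) ∨
    (w = 4 ∧ (D = ∅ ∨ D = {4} ∨ D = {4, 5})))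

theorem eW_nat2 : ∀ k, ∀ l ∈ mlW k, eW 2 k ≤ (l.map (eW 2)).sum := by decide
theorem eW_nat3 : ∀ k, ∀ l ∈ mlW k, eW 3 k ≤ (l.map (eW 3)).sum := by decide
theorem eW_nat4 : ∀ k, ∀ l ∈ mlW k, eW 4 k ≤ (l.map (eW 4)).sum := by decide

/-- static facts about an offset -/
structure BOk (w : ℕ) (v : Fin 18) : Prop where
  p : OkV (bW w v) 1 nP
  t : OkV (bW w v) 1 (wz1 (mT w))
  r : OkV (bW w v) 1 (wz1 (mR w))

instance (w : ℕ) (v : Fin 18) : Decidable (BOk w v) :=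
  decidable_of_iff (OkV (bW w v) 1 nP ∧ OkV (bW w v) 1 (wz1 (mT w)) ∧ OkV (bW w v) 1 (wz1 (mR w)))
    ⟨fun ⟨a, b, c⟩ => ⟨a, b, c⟩, fun ⟨a, b, c⟩ => ⟨a, b, c⟩⟩

theorem bok2 : ∀ v ∈ ({8, 10, 11, 14} : Finset (Fin 18)), BOk 2 v := by decide
theorem bok3 : ∀ v ∈ ({6, 9} : Finset (Fin 18)), BOk 3 v := by decide
theorem bok4 : ∀ v ∈ ({4, 5, 7} : Finset (Fin 18)), BOk 4 v := by decide

/-- level slots -/
def SW (w : ℕ) (D : Finset (Fin 18)) : Finset (Fin 18) := insert 0 (ZW w \ D)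

theorem wd2 : ∀ v ∈ ({10, 11, 14} : Finset (Fin 18)), WDat (bW 2 v) n1 1 (SW 2 {8}) := by decide
theorem wd2' : ∀ v ∈ ({8, 10, 11, 14} : Finset (Fin 18)), WDat (bW 2 v) n1 1 (SW 2 ∅) := by decide
theorem wd3 : ∀ v ∈ ({9} : Finset (Fin 18)), WDat (bW 3 v) n1 1 (SW 3 {6}) := by decide
theorem wd3' : ∀ v ∈ ({6, 9} : Finset (Fin 18)), WDat (bW 3 v) n1 1 (SW 3 ∅) := by decide
theorem wd4 : ∀ v ∈ ({7} : Finset (Fin 18)), WDat (bW 4 v) n1 1 (SW 4 {4, 5}) := by decide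
theorem wd4a : ∀ v ∈ ({5, 7} : Finset (Fin 18)), WDat (bW 4 v) n1 1 (SW 4 {4}) := by decide
theorem wd4b : ∀ v ∈ ({4, 5, 7} : Finset (Fin 18)), WDat (bW 4 v) n1 1 (SW 4 ∅) := by decide


/-- offset + tops + the level slot `v` -/
def bvW (w : ℕ) (D : Finset (Fin 18)) (v : Fin 18) : Fin 18 → ℕ := fun k =>
  if k ∈ SW w D then (if k = v then bW w v k + 1 else bW w v k) else bW w v k + 1

def NatV (b : Fin 18 → ℕ) : Prop := ∀ k, ∀ l ∈ mlW k, b k ≤ (l.map b).sum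
instance (b : Fin 18 → ℕ) : Decidable (NatV b) := by unfold NatV; infer_instance

theorem bv2 : ∀ v ∈ ({10, 11, 14} : Finset (Fin 18)), NatV (bvW 2 {8} v) := by decide
theorem bv2' : ∀ v ∈ ({8, 10, 11, 14} : Finset (Fin 18)), NatV (bvW 2 ∅ v) := by decide
theorem bv3 : ∀ v ∈ ({9} : Finset (Fin 18)), NatV (bvW 3 {6} v) := by decide
theorem bv3' : ∀ v ∈ ({6, 9} : Finset (Fin 18)), NatV (bvW 3 ∅ v) := by decide
theorem bv4 : ∀ v ∈ ({7} : Finset (Fin 18)), NatV (bvW 4 {4, 5} v) := by decide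
theorem bv4a : ∀ v ∈ ({5, 7} : Finset (Fin 18)), NatV (bvW 4 {4} v) := by decide
theorem bv4b : ∀ v ∈ ({4, 5, 7} : Finset (Fin 18)), NatV (bvW 4 ∅ v) := by decide

theorem bvW_eq (w : ℕ) (D : Finset (Fin 18)) (N : ℕ) {v : Fin 18} (hv : v ∈ SW w D) :
    scV 1 (fun k => bW w v k + N * eW w k) + cut (SW w D) (scV 1 n1) (Pi.single v 1) =
      scV 1 (fun k => bvW w D v k + N * eW w k) := by
  funext k
  rw [Pi.add_apply]
  by_cases hk : k ∈ SW w D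
  · rw [cut_of_mem hk]
    by_cases hkv : k = v
    · subst hkv
      simp only [scV, bvW, if_pos hk, if_true, Pi.single_eq_same]
      push_cast; ring
    · rw [Pi.single_eq_of_ne hkv]
      simp only [scV, bvW, if_pos hk, if_neg hkv]
      push_cast; ring
  · rw [cut_of_notMem hk]
    simp only [scV, bvW, if_neg hk, n1]
    push_cast; ring

/-! ### the scale condition -/

section scale

variable {ι : ℕ → Type*} [∀ n, DecidableEq (ι n)] {W : Wnd 18 ι} {κ : ℕ → ℝ}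
  {lam : ℕ → Fin 18 → ℝ} {f : ∀ n, ι n → FW}

/-- product of the units on a tight wall, `kap = 1` -/
theorem un_tight (h : WWnd W κ lam f) (hk : W.kap = fun _ => 1) {n : ℕ} {l : List (Fin 18)}
    {s : Fin 18} (hl : l ∈ mlW s) (ht : W.X n s = (l.map (W.X n)).sum) :
    (l.map (un W lam n)).prod = un W lam n s := by
  have h1 := h.cfl_eq hl ht
  have h2 : (l.map W.kap).prod = 1 := by
    rw [hk]
    clear h1 ht hl
    induction l with
    | nil => simp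
    | cons a l ih => simp
  rw [h2, hk] at h1
  unfold cfl at h1
  have h3 : un W lam n s ≠ 0 := (h.un_pos n s).ne'
  rw [div_eq_iff h3] at h1
  rw [h1]; norm_num

end scale

/-- walls used for the scale condition: `hd = [1, 0^α, v]` or `hd = [2, 0^(α-1), v]`, `2 = [1, 0]` -/
def WallC (v : Fin 14) (α : ℕ) (hd : Fin 14) : Prop :=
  (1 :: (List.replicate α 0 ++ [Fin.natAdd 4 v]) : List (Fin 18)) ∈ mlW (Fin.natAdd 4 hd) ∨
  (1 ≤ α ∧ (2 :: (List.replicate (α - 1) 0 ++ [Fin.natAdd 4 v]) : List (Fin 18)) ∈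
    mlW (Fin.natAdd 4 hd))

instance (v : Fin 14) (α : ℕ) (hd : Fin 14) : Decidable (WallC v α hd) := by
  unfold WallC; infer_instance

theorem wallC : ∀ x ∈ ([(2, 4, 1, 8), (2, 10, 0, 11), (2, 6, 1, 11), (2, 7, 1, 11), (3, 5, 1, 10),
    (3, 2, 2, 10), (4, 1, 0, 2), (4, 0, 1, 2), (4, 3, 0, 5)] : List (ℕ × Fin 14 × ℕ × Fin 14)),
    WallC x.2.1 x.2.2.1 x.2.2.2 := by decide

theorem offC : ∀ x ∈ ([(2, 4, 1, 8), (2, 10, 0, 11), (2, 6, 1, 11), (2, 7, 1, 11), (3, 5, 1, 10),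
    (3, 2, 2, 10), (4, 1, 0, 2), (4, 0, 1, 2), (4, 3, 0, 5)] : List (ℕ × Fin 14 × ℕ × Fin 14)),
    (bW x.1 (Fin.natAdd 4 x.2.1) (Fin.natAdd 4 x.2.2.2) = 0 ∧ eW x.1 (Fin.natAdd 4 x.2.2.2) = 1) ∧
    (bW x.1 (Fin.natAdd 4 x.2.1) (Fin.natAdd 4 x.2.1) = 0 ∧ eW x.1 (Fin.natAdd 4 x.2.1) = 0) ∧
    (bW x.1 (Fin.natAdd 4 x.2.1) 1 = 0 ∧ eW x.1 1 = 1) ∧
    (bW x.1 (Fin.natAdd 4 x.2.1) 2 = 0 ∧ eW x.1 2 = 1) ∧
    (bW x.1 (Fin.natAdd 4 x.2.1) 0 = 0 ∧ eW x.1 0 = 0) := by decide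

section pt

variable {B Bo : Base} {I J : ∀ n : ℕ, Finset (ℕ × ℝ)}
  {co : ∀ n : ℕ, ℕ × ℝ → ℕ × ℝ → Fin 18 → ℝ} {κ : ℕ → ℝ} {u : ℕ → Fin 18 → ℝ}
  {f : ∀ n : ℕ, ℕ × ℝ → FW} {C : ℝ}
  {lam : (Fin 18 → ℝ) → ℝ} {A : ℝ × ℝ} {φ : ℕ → (Fin 18 → ℝ) → ℝ}
  {r : ℕ → ℝ} {K : ℝ} {θ q : Fin 3 → ℝ} {V T : Set (Fin 18)} {s : ℝ} {lo : (Fin 18 → ℝ) → ℝ}

/-- **the scale condition of the twist** -/
theorem hcf_of {Ma : Mons 18} {Dr : Set (Fin 18)} {Tw : Fin 18 → Prop}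
    {W : Wnd 18 fun _ => ℕ × ℝ} {E : ∀ n : ℕ, Finset (ℕ × ℝ)} {w N : ℕ} {v : Fin 14} {α : ℕ}
    {hd : Fin 14} (hg : Gen w v α hd) {nt : Fin 18 → ℕ} {rr : ℕ} {S : Finset (Fin 18)} {y : ℝ}
    (g : WinB Ma Dr κ u f lam Tw (fun k => bW w (Fin.natAdd 4 v) k + N * eW w k) nt rr S y W E)
    (d0 : (0 : Fin 18) ∉ Dr) (d1 : (1 : Fin 18) ∉ Dr) (d2 : (2 : Fin 18) ∉ Dr)
    (dv : Fin.natAdd 4 v ∉ Dr) (dh : Fin.natAdd 4 hd ∉ Dr) (n : ℕ) :
    1 * sd W u n (Fin.natAdd 4 hd) ≤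
      un W u n 1 * (un W u n 0 ^ α * un W u n (Fin.natAdd 4 v)) := by
  have hw := wallC _ hg
  obtain ⟨⟨oh, oh'⟩, ⟨ov, ov'⟩, ⟨o1, o1'⟩, ⟨o2, o2'⟩, ⟨o0, o0'⟩⟩ := offC _ hg
  simp only at hw oh oh' ov ov' o1 o1' o2 o2' o0 o0'
  have hrep : ∀ (g' : Fin 18 → ℝ) (m : ℕ),
      ((List.replicate m (0 : Fin 18) ++ [Fin.natAdd 4 v]).map g').prod =
        g' 0 ^ m * g' (Fin.natAdd 4 v) := by
    intro g' m
    simp
  have hrepN : ∀ (g' : Fin 18 → ℕ) (m : ℕ),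
      ((List.replicate m (0 : Fin 18) ++ [Fin.natAdd 4 v]).map g').sum =
        m * g' 0 + g' (Fin.natAdd 4 v) := by
    intro g' m
    simp
  have hl0 : ∀ (x : Fin 18) (m : ℕ), x ∉ Dr →
      ∀ a ∈ (x :: (List.replicate m (0 : Fin 18) ++ [Fin.natAdd 4 v])), a ∉ Dr := by
    intro x m hx a ha
    rcases List.mem_cons.1 ha with h1 | h1
    · rw [h1]; exact hx
    rcases List.mem_append.1 h1 with h2 | h2
    · rw [(List.mem_replicate.1 h2).2]; exact d0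
    · rw [List.mem_singleton.1 h2]; exact dv
  have hun : sd W u n (Fin.natAdd 4 hd) = un W u n (Fin.natAdd 4 hd) := by
    unfold un; rw [g.ekap]; ring
  rw [one_mul, hun]
  rcases hw with hw | ⟨hα, hw⟩
  · have ht := g.tight _ dh _ hw (hl0 1 α d1) (by
      rw [List.map_cons, List.sum_cons, hrepN]
      simp only [oh, oh', ov, ov', o1, o1', o0, o0']
      ring) n
    have := un_tight g.ww g.ekap hw ht
    rw [List.map_cons, List.prod_cons, hrep] at this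
    exact this.ge
  · obtain ⟨m, rfl⟩ : ∃ m, α = m + 1 := ⟨α - 1, by omega⟩
    simp only [Nat.add_sub_cancel] at hw
    have ht := g.tight _ dh _ hw (hl0 2 m d2) (by
      rw [List.map_cons, List.sum_cons, hrepN]
      simp only [oh, oh', ov, ov', o2, o2', o0, o0']
      ring) n
    have h1 := un_tight g.ww g.ekap hw ht
    rw [List.map_cons, List.prod_cons, hrep] at h1
    have w2 : ([1, 0] : List (Fin 18)) ∈ mlW 2 := by decide
    have ht2 := g.tight _ d2 _ w2 (fun a ha => by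
      rcases List.mem_cons.1 ha with h3 | h3
      · rw [h3]; exact d1
      · rw [List.mem_singleton.1 h3]; exact d0) (by
      simp only [List.map_cons, List.map_nil, List.sum_cons, List.sum_nil, o2, o2', o1, o1', o0,
        o0']
      ring) n
    have h2 := un_tight g.ww g.ekap w2 ht2
    simp only [List.map_cons, List.map_nil, List.prod_cons, List.prod_nil, mul_one] at h2
    rw [← h1, ← h2, pow_succ]
    exact le_of_eq (by ring)

/-! ### the tied slot -/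

theorem capMax : ∀ v : Fin 18, 4 ≤ v → ∀ l ∈ mlW v, (∃ a ∈ l, a = 1 ∨ a = 2 ∨ a = 3) ∨
    ∃ a ∈ l, 4 ≤ a ∧ wc a = wc v ∧ alW v < alW a := by decide

/-- **a tied slot of maximal `z`-weight** -/
theorem tied_max (hS : SlotOkW θ (fun k => k ∈ V) (fun k => k ∈ T))
    (hV : ∃ k, k ∈ V ∧ KW θ k = s) : ∃ v, v ∈ V ∧ KW θ v = s ∧ v ∈ T ∧
      ∀ k ∈ V, KW θ k = s → alW k ≤ alW v := by
  classical
  obtain ⟨v, hv, hmax⟩ := Finset.exists_max_image (Finset.univ.filter fun k => k ∈ V ∧ KW θ k = s)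
    alW (by
      obtain ⟨k, hk⟩ := hV
      exact ⟨k, Finset.mem_filter.2 ⟨Finset.mem_univ _, hk⟩⟩)
  obtain ⟨hvV, hvK⟩ := (Finset.mem_filter.1 hv).2
  refine ⟨v, hvV, hvK, ?_, fun k hk hkK => hmax k (Finset.mem_filter.2
    ⟨Finset.mem_univ _, hk, hkK⟩)⟩
  by_contra hT
  obtain ⟨l, hl, hl2⟩ := hS.cap v hvV hT
  rcases capMax v (hS.vis v hvV).1.1 l hl with ⟨a, ha, h1⟩ | ⟨a, ha, h4, hc, hal⟩
  · rcases hl2 a ha with h0 | h0
    · rcases h1 with rfl | rfl | rfl <;> exact absurd h0 (by decide)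
    · have := (hS.vis a h0).1.1
      rcases h1 with rfl | rfl | rfl <;> exact absurd this (by decide)
  · rcases hl2 a ha with h0 | h0
    · rw [h0] at h4; exact absurd h4 (by decide)
    · have hK : KW θ a = s := by
        rw [KW_flag θ h4, hc, ← KW_flag θ (hS.vis v hvV).1.1, hvK]
      have := hmax a (Finset.mem_filter.2 ⟨Finset.mem_univ _, h0, hK⟩)
      omega

/-! ### groups on the rung `s = 1 - θ 0 + w θ 1` -/

/-- second slopes -/
theorem btW_tau {w : ℕ} (hs : s = 1 - θ 0 + w * θ 1) {k : Fin 18} (hD : k ∉ DrW s) :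
    TW s k = wz k + s * wn k ∧ btW θ k = TW s k - θ 1 * (wc k + w * wn k) := by
  have h1 : TW s k = wz k + s * wn k := by
    rw [TW_of_not hD]; simp only [saW]
  refine ⟨h1, ?_⟩
  rw [btW_val, h1, hs]
  ring

/-- **parallel slots** -/
theorem par_tau {w : ℕ} (hθ : 0 < θ 1) (hs : s = 1 - θ 0 + w * θ 1) {i j : Fin 18}
    (hi : i ∉ DrW s) (hj : j ∉ DrW s) (h0 : TW s i ≠ 0)
    (e : gC (TW s) (btW θ) j = gC (TW s) (btW θ) i) :
    TW s j ≠ 0 ∧ TW s i * ((wc j : ℝ) + w * wn j) = TW s j * ((wc i : ℝ) + w * wn i) := by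
  have h0j : TW s j ≠ 0 := by
    intro h
    rw [gC_zero.2 h] at e
    exact h0 (gC_zero.1 e.symm)
  refine ⟨h0j, ?_⟩
  rw [gC_eq h0j h0, div_eq_div_iff h0j h0, (btW_tau hs hi).2, (btW_tau hs hj).2] at e
  have h3 : θ 1 * (TW s i * ((wc j : ℝ) + w * wn j)) = θ 1 * (TW s j * ((wc i : ℝ) + w * wn i)) := by
    linear_combination -e
  exact mul_left_cancel₀ hθ.ne' h3

theorem tau0 : ∀ w ∈ ({2, 3, 4} : Finset ℕ), ∀ j : Fin 18, wc j + (w : ℤ) * wn j = 0 →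
    j = 0 ∨ j ∈ ZW w := by decide

theorem zw_tau : ∀ w ∈ ({2, 3, 4} : Finset ℕ), ∀ j ∈ ZW w,
    4 ≤ j ∧ wc j + (w : ℤ) * wn j = 0 := by decide

/-- the flags of weight `w` have wall slope `s` -/
theorem KW_zw {w : ℕ} (hw : w ∈ ({2, 3, 4} : Finset ℕ)) (hs : s = 1 - θ 0 + w * θ 1)
    {k : Fin 18} (hk : k ∈ ZW w) : KW θ k = s := by
  obtain ⟨h4, h1⟩ := zw_tau w hw k hk
  have hn : wn k = 1 := by
    have : ∀ k : Fin 18, 4 ≤ k → wn k = 1 := by decide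
    exact this k h4
  rw [hn] at h1
  have h2 : ((wc k : ℤ) : ℝ) = -(w : ℝ) := by
    have : wc k = -(w : ℤ) := by linarith
    rw [this]; push_cast; ring
  rw [KW_flag θ h4, h2, hs]; ring

/-- slopes of the level slots are not `0` -/
theorem TW_S {w : ℕ} (hw : w ∈ ({2, 3, 4} : Finset ℕ)) (hs : s = 1 - θ 0 + w * θ 1)
    (hres : ¬ LadT830.Reso θ s) {k : Fin 18} (hk : k ∈ ZW w) (hD : k ∉ DrW s) : TW s k ≠ 0 := by
  obtain ⟨h4, h1⟩ := zw_tau w hw k hk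
  intro h0
  refine hres ⟨k, h4, KW_zw hw hs hk, ?_⟩
  rw [(btW_tau hs hD).2, h0]
  have h2 : ((wc k : ℤ) : ℝ) + w * ((wn k : ℤ) : ℝ) = 0 := by exact_mod_cast h1
  rw [h2]; ring

/-- **the group of `z`** -/
theorem grS2 {w : ℕ} (hw : w ∈ ({2, 3, 4} : Finset ℕ)) (hθ : 0 < θ 1)
    (hs : s = 1 - θ 0 + w * θ 1) (hres : ¬ LadT830.Reso θ s) {D : Finset (Fin 18)}
    (hD : ∀ k ∈ ZW w, k ∈ D ↔ k ∈ DrW s) (i j : Fin 18)
    (e : gC (TW s) (btW θ) i = gC (TW s) (btW θ) j) (hi : i ∈ SW w D) :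
    j ∈ SW w D ∨ j ∈ DrW s := by
  by_cases hjD : j ∈ DrW s
  · exact Or.inr hjD
  left
  have hi0 : i ∉ DrW s ∧ TW s i ≠ 0 ∧ ((wc i : ℝ) + w * wn i) = 0 := by
    rcases Finset.mem_insert.1 hi with h1 | h1
    · subst h1
      refine ⟨fun hm => absurd hm.1 (by decide), by rw [TW_z]; exact one_ne_zero, ?_⟩
      have : wc 0 = 0 ∧ wn 0 = 0 := by decide
      rw [this.1, this.2]; push_cast; ring
    · obtain ⟨h2, h3⟩ := Finset.mem_sdiff.1 h1
      have h4 : i ∉ DrW s := fun h => h3 ((hD i h2).2 h)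
      refine ⟨h4, TW_S hw hs hres h2 h4, ?_⟩
      have := (zw_tau w hw i h2).2
      exact_mod_cast this
  obtain ⟨h1, h2, h3⟩ := hi0
  obtain ⟨h4, h5⟩ := par_tau hθ hs h1 hjD h2 e.symm
  rw [h3, mul_zero] at h5
  have h6 : wc j + (w : ℤ) * wn j = 0 := by
    have := (mul_eq_zero.1 h5).resolve_left h2
    exact_mod_cast this
  rcases tau0 w hw j h6 with h7 | h7
  · rw [h7]; exact Finset.mem_insert_self _ _
  · exact Finset.mem_insert_of_mem (Finset.mem_sdiff.2 ⟨h7, fun h => hjD ((hD j h7).1 h)⟩)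

/-- seen slots -/
def Seen (w : ℕ) (i : Fin 18) : Prop := i = Fin.natAdd 4 (seenA w) ∨ i = Fin.natAdd 4 (seenB w)
instance (w : ℕ) (i : Fin 18) : Decidable (Seen w i) := by unfold Seen; infer_instance

theorem seen_tau : ∀ w ∈ ({2, 3, 4} : Finset ℕ), ∀ i : Fin 18, Seen w i →
    wc i + (w : ℤ) * wn i = 1 ∧ 4 ≤ i ∧ alW i ≤ 3 ∧ i ∉ insert 0 (FL w) ∧ wn i = 1 ∧
    wz i = - alW i := by decide

theorem fl_tau : ∀ w ∈ ({2, 3, 4} : Finset ℕ), ∀ j ∈ insert 0 (FL w),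
    wc j + (w : ℤ) * wn j ≤ 0 := by decide

theorem low4 : ∀ w ∈ ({2, 3} : Finset ℕ), ∀ i : Fin 18, Seen w i → ∀ j ∈ lowE w, j ≠ 1 → j ≠ i →
    (wz i + 4 * wn i) * (wc j + (w : ℤ) * wn j) ≠ (wz j + 4 * wn j) * (wc i + (w : ℤ) * wn i) := by
  decide

theorem TW_pos' (hs2 : 2 < s) {i : Fin 18} (h0 : TW s i ≠ 0) : 0 < TW s i :=
  lt_of_le_of_ne (TW_nonneg (by linarith) i) (Ne.symm h0)

/-- slope of a seen slot -/
theorem TW_seen {w : ℕ} (hw : w ∈ ({2, 3, 4} : Finset ℕ)) (hs : s = 1 - θ 0 + w * θ 1)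
    (hs2 : 2 < s) (hs3 : s ≠ 3) {i : Fin 18} (hi : Seen w i) (hD : i ∉ DrW s) : TW s i ≠ 0 := by
  obtain ⟨-, h4, hal, -, hn, hz⟩ := seen_tau w hw i hi
  rw [(btW_tau hs hD).1, hn, hz]
  intro h0
  push_cast at h0
  have h1 : s = alW i := by linarith
  have h2 : (alW i : ℝ) ≤ 3 := by exact_mod_cast hal
  have h3 : (2 : ℝ) < alW i := by linarith
  have h5 : (2 : ℤ) < alW i := by exact_mod_cast h3
  have h6 : alW i = 3 := by omega
  rw [h6] at h1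
  exact hs3 (by rw [h1]; norm_num)

/-- **the group of a seen slot** -/
theorem seen_grp {w : ℕ} (hw : w ∈ ({2, 3, 4} : Finset ℕ)) (hθ : 0 < θ 1)
    (hs : s = 1 - θ 0 + w * θ 1) (hs2 : 2 < s) (hs3 : s ≠ 3) {i j : Fin 18} (hi : Seen w i)
    (hiD : i ∉ DrW s) (hjD : j ∉ DrW s) (e : gC (TW s) (btW θ) j = gC (TW s) (btW θ) i)
    (hji : j ≠ i) : j ∉ insert 0 (FL w) ∧ j ≠ 1 ∧ (s = 4 → w ≠ 4 → j ∉ lowE w) := by
  have hi0 := TW_seen hw hs hs2 hs3 hi hiD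
  obtain ⟨ht, h4, hal, -, -, -⟩ := seen_tau w hw i hi
  obtain ⟨hj0, hp⟩ := par_tau hθ hs hiD hjD hi0 e
  have ht' : ((wc i : ℝ) + w * wn i) = 1 := by exact_mod_cast ht
  have pi := TW_pos' hs2 hi0
  have pj := TW_pos' hs2 hj0
  rw [ht', mul_one] at hp
  refine ⟨fun hj => ?_, fun hj => ?_, fun h4' hw4 hj => ?_⟩
  · have := fl_tau w hw j hj
    have h5 : ((wc j : ℝ) + w * wn j) ≤ 0 := by exact_mod_cast this
    nlinarith
  · rw [hj, TW_c] at hj0; exact hj0 rfl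
  · have hw' : w ∈ ({2, 3} : Finset ℕ) := by
      simp only [Finset.mem_insert, Finset.mem_singleton] at hw ⊢
      omega
    have hj1 : j ≠ 1 := fun hj => by rw [hj, TW_c] at hj0; exact hj0 rfl
    refine low4 w hw' i hi j hj hj1 hji ?_
    have h6 := (btW_tau hs hiD).1
    have h7 := (btW_tau hs hjD).1
    rw [h6, h7, h4'] at hp
    have h8 : (((wz i + 4 * wn i) * (wc j + (w : ℤ) * wn j) : ℤ) : ℝ) =
        ((wz j + 4 * wn j) * (wc i + (w : ℤ) * wn i) : ℤ) := by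
      push_cast
      rw [ht']
      linarith
    exact_mod_cast h8

theorem al4 : ∀ j : Fin 18, 4 ≤ j → wn j = 1 ∧ wz j = - alW j ∧ alW j ≤ 4 ∧
    (alW j = 4 → j = 4) := by decide

/-- **the group of `c`** -/
theorem grC (hs2 : 2 < s) (hs3 : s ≠ 3) {j : Fin 18} (h0 : TW s j = 0) (hj : j ≠ 1) :
    s = 4 ∧ j = 4 := by
  have hD : j ∉ DrW s := by
    intro hD
    rw [TW, if_pos hD] at h0
    exact one_ne_zero h0
  rcases (cases4 (P := fun j => TW s j = 0 → 4 ≤ j ∨ j = 1) (fun e => absurd e (by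
    rw [TW_z]; exact one_ne_zero)) (fun _ => Or.inr rfl) (fun e => absurd e (by
    rw [TW_A]; exact one_ne_zero)) (fun e => absurd e (by rw [TW_B]; exact one_ne_zero))
    (fun k hk _ => Or.inl hk) j) h0 with h4 | h4
  · obtain ⟨hn, hz, hal, h44⟩ := al4 j h4
    rw [TW_of_not hD] at h0
    simp only [saW, hn, hz] at h0
    push_cast at h0
    have h1 : s = alW j := by linarith
    have h3 : (2 : ℝ) < alW j := by linarith
    have h5 : (2 : ℤ) < alW j := by exact_mod_cast h3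
    have h6 : alW j ≠ 3 := by
      intro h; rw [h] at h1; exact hs3 (by rw [h1]; norm_num)
    have h7 : alW j = 4 := by omega
    rw [h7] at h1
    exact ⟨by rw [h1]; norm_num, h44 h7⟩
  · exact absurd h4 hj

end pt

end Crest.Agent.R136.Vw848
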