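import Crest.Agent.R136.W1a_938

/-!
# R136: row (i) of 5b (weight 1), part b: configuration form (helper938)

`phiP` : multiplier of `c` in the slot `P`.  `rowP_cfg` : the geometry.  `own_rev` : own motion of
the reversed pair of heights.  `rowP_shift` : `loss of c ≤ loss of P`.
-/

set_option autoImplicit false
set_option linter.unusedSectionVars false
set_option linter.unusedVariables false

open Filter Topology

namespace Crest.Agent.R136.EvW938

open Finset Crest.Agent.R136.NetW191 Crest.Agent.R136.Net191 Crest.Agent.R136.Qg926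
open Crest.Agent.R136.PqG464 (wtW wtW_list)
open Crest.Agent.R138.Ex926 (Base U)
open Crest.Agent.R136.Gf356
open Crest.Agent.R136.TrI938

/-! ### reversed own motion -/

/-- relation of the flags of the reversed pair -/
lemma flag_rev (κ : ℝ) (x x' : FW) :
    flg (coW κ x' x) = -tr κ (frm (coW κ x' x)) (flg (coW κ x x')) := by
  rw [flg_coW, flg_coW, frm_coW, ← tr_mul, mul_rel]
  have : x.G - x'.G = -(x'.G - x.G) := by abel
  rw [this]
  have h0 := tr_sub κ x.g 0 (x'.G - x.G)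
  rw [zero_sub, tr_zero, zero_sub] at h0
  exact h0

section raw

variable {κ : ℝ} {S : Finset (Fin 18)} {X : Fin 18 → ℝ} {K τ : ℝ} {a a' : Fin 18 → ℝ}

/-- own motion of the reversed pair, raw form: `a` forward, `a'` backward -/
theorem rev_raw (hκ : |κ| ≤ 1) (hX : SidesW X) (hK : 1 ≤ K) (hτ : 0 ≤ τ)
    (hrev : flg a' = -tr κ (frm a') (flg a)) (h0 : a' 0 = -a 0)
    (ha : ∀ s, |a s| ≤ K * X s) (ha' : ∀ s, |a' s| ≤ K * X s)
    (f1 : |a' 1| ≤ K * τ * X 1) (f2 : |a' 2| ≤ K * τ * X 2) (f3 : |a' 3| ≤ K * τ * X 3) :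
    |a' 15 + (a 15 - a 0 * a 12)| ≤ 470 * K ^ 7 * τ * X 15 ∧
    |a' 12 + a 12| ≤ 470 * K ^ 7 * τ * X 12 := by
  have K0 : 0 ≤ K := by linarith
  have hsh : ∀ i : Fin 4, |sh (-a 0) i| ≤ K * X (Fin.castAdd 14 i) := by
    intro i
    fin_cases i
    · change |(-a 0)| ≤ K * X 0
      rw [← h0]; exact ha' 0
    · change |(0 : ℝ)| ≤ K * X 1
      rw [abs_zero]; exact mul_nonneg K0 (hX.pos _)
    · change |(0 : ℝ)| ≤ K * X 2
      rw [abs_zero]; exact mul_nonneg K0 (hX.pos _)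
    · change |(0 : ℝ)| ≤ K * X 3
      rw [abs_zero]; exact mul_nonneg K0 (hX.pos _)
  have hd : ∀ i : Fin 4, |frm a' i - sh (-a 0) i| ≤ K * τ * X (Fin.castAdd 14 i) := by
    intro i
    fin_cases i
    · change |a' 0 - (-a 0)| ≤ K * τ * X 0
      rw [h0, sub_self, abs_zero]
      exact mul_nonneg (mul_nonneg K0 hτ) (hX.pos _)
    · change |a' 1 - 0| ≤ K * τ * X 1
      rwa [sub_zero]
    · change |a' 2 - 0| ≤ K * τ * X 2
      rwa [sub_zero]
    · change |a' 3 - 0| ≤ K * τ * X 3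
      rwa [sub_zero]
  have key := fun q => tr_lip (h := frm a') (h' := sh (-a 0)) (w := flg a) (w' := flg a) hκ hX hK
    hτ (fun i => ha' _) hsh hd (fun q => ha _) (fun q => by
      rw [sub_self, abs_zero]
      exact mul_nonneg (mul_nonneg K0 hτ) (hX.pos _)) q
  constructor
  · have h1 := key 11
    have e1 : a' 15 = -tr κ (frm a') (flg a) 11 := congrFun hrev 11
    rw [tr_sh11] at h1
    have e2 : a' 15 + (a 15 - a 0 * a 12) =
        -(tr κ (frm a') (flg a) 11 - (flg a 11 + -a 0 * flg a 8)) := by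
      rw [e1]
      change _ = -(tr κ (frm a') (flg a) 11 - (a 15 + -a 0 * a 12))
      ring
    rw [e2, abs_neg]
    exact h1
  · have h1 := key 8
    have e1 : a' 12 = -tr κ (frm a') (flg a) 8 := congrFun hrev 8
    rw [tr_sh8] at h1
    have e2 : a' 12 + a 12 = -(tr κ (frm a') (flg a) 8 - flg a 8) := by
      rw [e1]
      change _ = -(tr κ (frm a') (flg a) 8 - a 12)
      ring
    rw [e2, abs_neg]
    exact h1

/-- the two multipliers of `c` in `P` control both weight-1 slots -/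
theorem det_raw {A15 A12 A0 B15 B12 e15 e12 : ℝ} (h1 : |B15 + (A15 - A0 * A12)| ≤ e15)
    (h2 : |B12 + A12| ≤ e12) :
    |A15| ≤ max |A15 + A0 * A12| |B15 + -A0 * B12| + (e15 + |A0| * e12) ∧
    |A0 * A12| ≤ max |A15 + A0 * A12| |B15 + -A0 * B12| + (e15 + |A0| * e12) := by
  set F := A15 + A0 * A12 with hF
  set F' := B15 + -A0 * B12 with hF'
  set r := B15 + (A15 - A0 * A12) with hr
  set s := A0 * (B12 + A12) with hs
  have e1 : F' = -(A15 - 2 * (A0 * A12)) + r - s := by rw [hF', hr, hs]; ring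
  have m1 : |F| ≤ max |F| |F'| := le_max_left _ _
  have m2 : |F'| ≤ max |F| |F'| := le_max_right _ _
  have hs' : |s| ≤ |A0| * e12 := by
    rw [hs, abs_mul]; exact mul_le_mul_of_nonneg_left h2 (abs_nonneg _)
  have a1 := abs_le.1 m1
  have a2 := abs_le.1 m2
  have a3 := abs_le.1 h1
  have a4 := abs_le.1 hs'
  constructor
  · rw [abs_le]
    constructor <;> nlinarith
  · rw [abs_le]
    constructor <;> nlinarith

end raw

variable {ι : ℕ → Type*} [∀ n, DecidableEq (ι n)] {W : Wnd 18 ι} {κ : ℕ → ℝ}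
  {lam : ℕ → Fin 18 → ℝ}
  {f : ∀ n, ι n → FW}

/-- **multiplier of `c` in the slot `P`** -/
noncomputable def phiP (W : Wnd 18 ι) (lam : ℕ → Fin 18 → ℝ) (n i k k' : ℕ) : ℝ :=
  -(cfl W lam n [1, 15] 16 * ownC W n i k k' 15 +
    cfl W lam n [1, 0, 12] 16 * (ownC W n i k k' 0 * ownC W n i k k' 12))

/-- constant of `rowP_cfg` -/
noncomputable def CP (W : Wnd 18 ι) (s : Fin 18) : ℝ :=
  (CW W.K0 + 942 * (2 * W.K2 ^ 3) ^ 7 + 2 * W.K2 ^ 3) / W.kap s

namespace WWnd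

variable (h : WWnd W κ lam f)

include h

theorem raw_K2 {n : ℕ} {s : Fin 18} {x D : ℝ} (hx : |x| ≤ D) (hD : 0 ≤ D) :
    |un W lam n s * x| ≤ W.K2 * D * sd W lam n s := by
  refine (h.raw_le hx).trans ?_
  exact mul_le_mul_of_nonneg_right (mul_le_mul_of_nonneg_right (Wnd.kap_le_K2 h.ok s) hD)
    (h.sd_pos n s).le

theorem raw_K0 {n : ℕ} {s : Fin 18} {x : ℝ} (hx : |x| ≤ W.K0 / W.kap s) :
    |un W lam n s * x| ≤ W.K2 * sd W lam n s := by
  refine (h.raw_le hx).trans ?_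
  have hk := h.ok.kap s
  have e : W.kap s * (W.K0 / W.kap s) = W.K0 := by field_simp
  rw [e]
  exact mul_le_mul_of_nonneg_right (Wnd.K0_le_K2 W) (h.sd_pos n s).le

/-- walls used for the slot `P` -/
theorem wallsP {n : ℕ} (g : W.Good n) : sd W lam n 1 * sd W lam n 15 ≤ sd W lam n 16 ∧
    sd W lam n 0 * sd W lam n 12 ≤ sd W lam n 15 := by
  have h1 := (h.sides g).wall 16 [1, 15] (by decide)
  have h2 := (h.sides g).wall 15 [0, 12] (by decide)
  simp only [List.map_cons, List.map_nil, List.prod_cons, List.prod_nil, mul_one] at h1 h2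
  exact ⟨h1, h2⟩

/-- **the slot `P` sees `c`**, configuration form -/
theorem rowP_cfg {n : ℕ} (g : W.Good n) {E : Finset (ι n)} (hE : E ⊆ W.Cl n) {i l k k' : ℕ}
    (hi : (i, k) ∈ (W.cfg0 n E).I) (hi' : (i, k') ∈ (W.cfg0 n E).I)
    (hl : (l, k) ∈ (W.cfg0 n E).I) (hl' : (l, k') ∈ (W.cfg0 n E).I) {t η : ℝ}
    (ht : ∀ s, t ≤ W.top s) (hη : W.B'.d n ^ t ≤ η)
    (hinv : ∀ s ∈ W.S, s ≠ 0 → s ≠ 12 → s ≠ 15 → |ownC W n i k k' s| ≤ η)
    (hb : ∀ s, s ∉ W.S → s ≠ 1 → |(W.cfg0 n E).rel k i l s| ≤ η) :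
    (∀ s, s ∉ W.S → s ≠ 1 → s ≠ 2 → s ≠ 3 → s ≠ 13 → s ≠ 16 → s ≠ 17 →
      |(W.cfg0 n E).rel k' i l s| ≤ CP W s * η) ∧
    |(W.cfg0 n E).rel k' i l 16 - phiP W lam n i k k' * (W.cfg0 n E).rel k i l 1| ≤
      CP W 16 * η := by
  have hρ0 : 0 ≤ W.B'.d n ^ t := Real.rpow_nonneg (W.B'.pos n).le _
  have hη0 : 0 ≤ η := hρ0.trans hη
  have hK2 := Wnd.K2_one h.ok
  have hK20 : 0 ≤ W.K2 := by linarith
  set a := ownC W n i k k' with ha
  set b := (W.cfg0 n E).rel k i l with hb0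
  have ha1 : ∀ s, |a s| ≤ W.K0 / W.kap s := h.own_le g hE hi hi'
  have hb1 : ∀ s, |b s| ≤ W.K0 / W.kap s := h.rel_le g hE hi hl
  set A : Fin 18 → ℝ := fun s => un W lam n s * a s with hA
  set Bv : Fin 18 → ℝ := fun s => un W lam n s * b s with hBv
  obtain ⟨r1, r2⟩ := rowP_raw (S := W.S) (h.hκ n) (h.sides g) hK2 hη0 h.n13 h.n16 h.n17
    (a := A) (b := Bv) (fun s => h.raw_K0 (ha1 s))
    (fun s hs h0 h12 h15 => h.raw_K2 (hinv s hs h0 h12 h15) hη0) (fun s => h.raw_K0 (hb1 s)) h.n2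
    (fun s hs h1 => h.raw_K2 (hb s hs h1) hη0)
  have hCW : 0 ≤ CW W.K0 := (CW_pos h.ok.K0_one).le
  have hev := fun s hs => h.evo_cfg g hE hi hi' hl hl' ht s hs
  have hstep : ∀ s, s ∉ W.S → ∀ x : ℝ, |evoW (κ n) W.S A Bv s - x * un W lam n s| ≤
      (942 * (2 * W.K2 ^ 3) ^ 7 * η + 2 * W.K2 ^ 3 * η) * sd W lam n s →
      |(W.cfg0 n E).rel k' i l s - x| ≤ CP W s * η := by
    intro s hs x hx
    have h1 := hev s hs
    have h2 := h.norm_le hx
    have hu := (h.un_pos n s).ne'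
    rw [sub_div, mul_div_cancel_right₀ _ hu] at h2
    have h3 : evoC W κ lam n a b s = evoW (κ n) W.S A Bv s / un W lam n s := rfl
    rw [← h3] at h2
    have h4 := abs_sub_le ((W.cfg0 n E).rel k' i l s) (evoC W κ lam n a b s) x
    have hk := h.ok.kap s
    have h5 : CW W.K0 * W.B'.d n ^ t / W.kap s ≤ CW W.K0 * η / W.kap s :=
      div_le_div_of_nonneg_right (mul_le_mul_of_nonneg_left hη hCW) hk.le
    have e : CP W s * η = CW W.K0 * η / W.kap s +
        (942 * (2 * W.K2 ^ 3) ^ 7 * η + 2 * W.K2 ^ 3 * η) / W.kap s := by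
      unfold CP; ring
    linarith
  refine ⟨?_, ?_⟩
  · intro s hs h1 h2 h3 h13 h16 h17
    have hs0 : s ≠ 0 := fun he => hs (he ▸ h.h0)
    obtain ⟨q, rfl⟩ : ∃ q : Fin 14, s = Fin.natAdd 4 q := by
      have h4 : 4 ≤ (s : ℕ) := by
        have a0 : (s : ℕ) ≠ 0 := fun he => hs0 (Fin.ext he)
        have a1 : (s : ℕ) ≠ 1 := fun he => h1 (Fin.ext he)
        have a2 : (s : ℕ) ≠ 2 := fun he => h2 (Fin.ext he)
        have a3 : (s : ℕ) ≠ 3 := fun he => h3 (Fin.ext he)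
        omega
      refine ⟨⟨(s : ℕ) - 4, by omega⟩, Fin.ext ?_⟩
      simp only [Fin.val_natAdd]
      omega
    have h5 := r1 q hs (by rintro rfl; exact h13 rfl) (by rintro rfl; exact h16 rfl)
      (by rintro rfl; exact h17 rfl)
    have h6 := hstep _ hs 0 (by
      rw [zero_mul, sub_zero]
      refine h5.trans ?_
      have : 0 ≤ 2 * W.K2 ^ 3 * η * sd W lam n (Fin.natAdd 4 q) :=
        mul_nonneg (by positivity) (h.sd_pos n _).le
      linarith)
    rwa [sub_zero] at h6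
  · refine hstep 16 h.n16 _ ?_
    have hu1 := (h.un_pos n 1).ne'
    have hu16 := (h.un_pos n 16).ne'
    have e1 : phiP W lam n i k k' * b 1 * un W lam n 16 =
        -(Bv 1 * (A 15 + A 0 * A 12)) := by
      unfold phiP cfl
      simp only [List.map_cons, List.map_nil, List.prod_cons, List.prod_nil, mul_one, hA, hBv,
        ← ha]
      field_simp
    rw [e1]
    obtain ⟨w1, w2⟩ := h.wallsP g
    -- masked and unmasked own slots
    have hm : ∀ q : Fin 14, ∀ s : Fin 18, Fin.natAdd 4 q = s →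
        |onS W.S (flg A) q - A s| ≤ W.K2 * η * sd W lam n s := by
      rintro q s rfl
      by_cases hq : Fin.natAdd 4 q ∈ W.S
      · rw [onS_mem hq]
        change |A (Fin.natAdd 4 q) - A (Fin.natAdd 4 q)| ≤ _
        rw [sub_self, abs_zero]
        exact mul_nonneg (mul_nonneg hK20 hη0) (h.sd_pos n _).le
      · rw [onS_not hq, zero_sub, abs_neg]
        obtain ⟨a1, a2, a3⟩ := Wnd.rep_of_mem hE hi
        obtain ⟨b1, b2, b3⟩ := Wnd.rep_of_mem hE hi'
        have h7 := h.own_small g a1 b1 (a2.trans b2.symm) hq (ht _)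
        rw [h.crd_eq g a1 b1] at h7
        refine h7.trans (mul_le_mul_of_nonneg_right ?_ (h.sd_pos n _).le)
        exact mul_le_mul (Wnd.K0_le_K2 W) hη hρ0 hK20
    have m15 := hm 11 15 rfl
    have m12 := hm 8 12 rfl
    have b1 := h.raw_K0 (n := n) (hb1 1)
    have a0 := h.raw_K0 (n := n) (ha1 0)
    have p1 : |Bv 1 * (onS W.S (flg A) 11 - A 15)| ≤ (W.K2 * (W.K2 * η)) * sd W lam n 16 :=
      bm b1 m15 hK20 (mul_nonneg hK20 hη0) (h.sd_pos n _).le w1
    have p2 : |A 0 * (onS W.S (flg A) 8 - A 12)| ≤ (W.K2 * (W.K2 * η)) * sd W lam n 15 :=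
      bm a0 m12 hK20 (mul_nonneg hK20 hη0) (h.sd_pos n _).le w2
    have p3 : |Bv 1 * (A 0 * (onS W.S (flg A) 8 - A 12))| ≤
        (W.K2 * (W.K2 * (W.K2 * η))) * sd W lam n 16 :=
      bm b1 p2 hK20 (mul_nonneg hK20 (mul_nonneg hK20 hη0)) (h.sd_pos n _).le w1
    have e2 : evoW (κ n) W.S A Bv 16 - -(Bv 1 * (A 15 + A 0 * A 12)) =
        (evoW (κ n) W.S A Bv 16 + Bv 1 * (onS W.S (flg A) 11 + A 0 * onS W.S (flg A) 8)) -
        Bv 1 * (onS W.S (flg A) 11 - A 15) - Bv 1 * (A 0 * (onS W.S (flg A) 8 - A 12)) := by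
      ring
    rw [e2]
    have q1 := abs_sub ((evoW (κ n) W.S A Bv 16 +
      Bv 1 * (onS W.S (flg A) 11 + A 0 * onS W.S (flg A) 8)) -
        Bv 1 * (onS W.S (flg A) 11 - A 15)) (Bv 1 * (A 0 * (onS W.S (flg A) 8 - A 12)))
    have q2 := abs_sub (evoW (κ n) W.S A Bv 16 +
      Bv 1 * (onS W.S (flg A) 11 + A 0 * onS W.S (flg A) 8))
        (Bv 1 * (onS W.S (flg A) 11 - A 15))
    have hs16 := (h.sd_pos n 16).le
    have k23 : W.K2 * (W.K2 * η) ≤ W.K2 ^ 3 * η := by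
      have : W.K2 * W.K2 ≤ W.K2 ^ 3 := by nlinarith [mul_nonneg hK20 hK20]
      nlinarith
    have k33 : W.K2 * (W.K2 * (W.K2 * η)) = W.K2 ^ 3 * η := by ring
    rw [k33] at p3
    have p1' := p1.trans (mul_le_mul_of_nonneg_right k23 hs16)
    have e3 : (942 * (2 * W.K2 ^ 3) ^ 7 * η + 2 * W.K2 ^ 3 * η) * sd W lam n 16 =
        942 * (2 * W.K2 ^ 3) ^ 7 * η * sd W lam n 16 + W.K2 ^ 3 * η * sd W lam n 16 +
          W.K2 ^ 3 * η * sd W lam n 16 := by ring
    rw [e3]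
    linarith

/-- own motion of the reversed pair, raw form -/
theorem own_rev {n : ℕ} (g : W.Good n) {E : Finset (ι n)} (hE : E ⊆ W.Cl n) {i k k' : ℕ}
    (hi : (i, k) ∈ (W.cfg0 n E).I) (hi' : (i, k') ∈ (W.cfg0 n E).I) {t : ℝ}
    (ht : ∀ s, t ≤ W.top s) :
    (un W lam n 0 * ownC W n i k' k 0 = -(un W lam n 0 * ownC W n i k k' 0)) ∧
    |un W lam n 15 * ownC W n i k' k 15 + (un W lam n 15 * ownC W n i k k' 15 -
      un W lam n 0 * ownC W n i k k' 0 * (un W lam n 12 * ownC W n i k k' 12))| ≤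
      470 * W.K0 ^ 7 * W.B'.d n ^ t * sd W lam n 15 ∧
    |un W lam n 12 * ownC W n i k' k 12 + un W lam n 12 * ownC W n i k k' 12| ≤
      470 * W.K0 ^ 7 * W.B'.d n ^ t * sd W lam n 12 := by
  obtain ⟨a1, a2, a3⟩ := Wnd.rep_of_mem hE hi
  obtain ⟨b1, b2, b3⟩ := Wnd.rep_of_mem hE hi'
  have hlc := a2.trans b2.symm
  have e : ∀ s, un W lam n s * ownC W n i k k' s =
      coW (κ n) (f n (W.rep n i k)) (f n (W.rep n i k')) s := fun s => (h.crd_eq g a1 b1 s).symm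
  have e' : ∀ s, un W lam n s * ownC W n i k' k s =
      coW (κ n) (f n (W.rep n i k')) (f n (W.rep n i k)) s := fun s => (h.crd_eq g b1 a1 s).symm
  have h0 : coW (κ n) (f n (W.rep n i k')) (f n (W.rep n i k)) 0 =
      -coW (κ n) (f n (W.rep n i k)) (f n (W.rep n i k')) 0 := by
    have c1 : ∀ x y : FW, coW (κ n) x y 0 = y.g 0 - x.g 0 := fun x y => rfl
    rw [c1, c1]; ring
  have hs := fun s hs => h.own_small g b1 a1 hlc.symm (s := s) hs (ht s)
  obtain ⟨r1, r2⟩ := rev_raw (h.hκ n) (h.sides g) h.ok.K0_one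
    (Real.rpow_nonneg (W.B'.pos n).le t)
    (flag_rev (κ n) (f n (W.rep n i k)) (f n (W.rep n i k'))) h0 (h.bnd g a1 b1) (h.bnd g b1 a1)
    (hs 1 h.n1) (hs 2 h.n2) (hs 3 h.n3)
  refine ⟨by rw [e, e', h0], ?_, ?_⟩
  · rw [e, e, e, e']
    exact r1
  · rw [e, e']
    exact r2

end WWnd

end Crest.Agent.R136.EvW938
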