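import Crest.Agent.R136.Wit3_321
import Crest.Agent.R136.GDW3_778
import Crest.Agent.R136.Fw4_650

/-!
# R136 (S0187), thin branch (helper464): 778's `WCon` and `Qw` from 321's straightening, part 1

* `wcon_of` : small projective maps `P n`, `L n i = P.line (ul u (rl f c (L0 n i)))` ⊢ `WCon` with
  `Q n x = pullQ P (qSd κ σ (F n x))`;
* `qw_of` : `Qw` from the exponents of the widths, `wA = w 1 / WA`, `a = w 0 n v / w 0 n 0`.
-/

set_option autoImplicit false
set_option linter.unusedVariables false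

open Finset Filter Topology

namespace Crest.Agent.R136.Wcn464

open Crest.Agent.R138
open Crest.Agent.R138.Ex926 (Base U)
open Crest.Agent.R138.Dp76 (dpow_pos dpow_add dpow_le dpow_le_one)
open Crest.Agent.R138.ArgM163 (ev_const)
open Crest.Agent.R138.Mk163 (zc zl rho alive)
open Crest.Agent.R136.MkA627
open Crest.Agent.R136.NetW191
open Crest.Agent.R136.Sh605
open Crest.Agent.R136.PrW464 (WData)
open Crest.Agent.R136.GeoN778
open Crest.Agent.R136.Wit321
open Crest.Agent.R136.GeoW778 (qS TrueW)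

section con

variable {B0 : Base} {I : ℕ → Finset (ℕ × ℝ)} {kp sg hz zs : ℕ → ℝ} {F : ℕ → ℕ × ℝ → FW}
  {L0 L : ℕ → ℕ → Ln4} {f : ℕ → Fin 3 → V3} {c : ℕ → Ln4} {u : ℕ → Un} {P : ℕ → Pj}

/-- a constant times a power is a smaller power -/
theorem ev_le (B : Base) (K : ℝ) {a b : ℝ} (hab : b < a) :
    ∀ᶠ n in (U : Filter ℕ), K * B.d n ^ a ≤ B.d n ^ b := by
  rcases le_or_gt K 0 with hK | hK
  · refine Eventually.of_forall fun n => ?_
    have h1 := dpow_pos B n a
    have h2 := dpow_pos B n b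
    nlinarith
  · filter_upwards [ev_const B hK (sub_pos.2 hab)] with n h
    have e : B.d n ^ b = B.d n ^ (-(a - b)) * B.d n ^ a := by
      rw [← dpow_add]; congr 1; ring
    rw [e]
    exact mul_le_mul_of_nonneg_right h (dpow_pos B n _).le

/-- **778's container from 321's straightening** -/
theorem wcon_of (wd : WData B0 I kp sg hz zs L F)
    (hf : ∀ᶠ n in (U : Filter ℕ), Ortho (f n)) (hu : ∀ᶠ n in (U : Filter ℕ), (u n).Ok)
    (hz' : ∀ᶠ n in (U : Filter ℕ), ∀ z, (u n).zh z = hz n * z - zs n)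
    (hP : ∀ M : ℝ, ∀ᶠ n in (U : Filter ℕ), (P n).Sm (B0.d n ^ M))
    (hL : ∀ᶠ n in (U : Filter ℕ), ∀ x ∈ I n,
      L n x.1 = (P n).line (ul (u n) (rl (f n) (c n) (L0 n x.1))))
    (hb : ∃ C : ℝ, ∀ᶠ n in (U : Filter ℕ), ∀ x ∈ I n, ∀ k,
      |(ul (u n) (rl (f n) (c n) (L0 n x.1))).p k| ≤ B0.d n ^ (-C) ∧
        |(ul (u n) (rl (f n) (c n) (L0 n x.1))).v k| ≤ B0.d n ^ (-C)) :
    WCon B0 I kp sg hz zs F L0 L f c u fun n x => pullQ (P n) (qSd (kp n) (sg n) (F n x)) where
  ortho := hf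
  ok := hu
  zh := hz'
  near := by
    intro C M
    obtain ⟨C1, hC1, hG⟩ := wd.bd
    set D : ℝ := max (max C C1) 1 with hD
    have d1 : C ≤ D := (le_max_left _ _).trans (le_max_left _ _)
    have d2 : C1 ≤ D := (le_max_right _ _).trans (le_max_left _ _)
    have d3 : 1 ≤ D := le_max_right _ _
    set M1 : ℝ := max M 0 with hM1
    have m1 : M ≤ M1 := le_max_left _ _
    have m0 : 0 ≤ M1 := le_max_right _ _
    filter_upwards [hG, hP (M1 + D + 1), wd.sgs (M1 + 2 * D + 1),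
      ev_le B0 375 (show M1 < M1 + 1 by linarith)] with n h1 h2 h3 h4 x hx z hz y hy
    set X : ℝ := B0.d n ^ (-D) with hX
    have X1 : 1 ≤ X := Real.one_le_rpow_of_pos_of_le_one_of_nonpos (B0.pos n) (B0.lt n).le
      (by linarith)
    have hE1 : B0.d n ^ (M1 + D + 1) ≤ 1 := dpow_le_one B0 n (by linarith)
    have hΓ : ∀ k, |(F n x).G k| ≤ X := fun k =>
      ((h1 x hx).1 k).trans (dpow_le B0 n (by linarith))
    have hσΓ : sg n * X ≤ B0.d n ^ (M1 + D + 1) := by
      calc sg n * X ≤ B0.d n ^ (M1 + 2 * D + 1) * B0.d n ^ (-D) :=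
            mul_le_mul_of_nonneg_right h3 (by linarith)
        _ = B0.d n ^ (M1 + D + 1) := by rw [← dpow_add]; congr 1; ring
    have hcl := pull_cl (κ := kp n) h2 hE1 (wd.kp1 n) (wd.sg0 n).le hΓ (hσΓ.trans hE1)
    refine hcl.nearG (R := 2 * X) (hz.trans (by linarith))
      (fun k => (hy k).trans ((dpow_le B0 n (by linarith)).trans (by linarith : X ≤ 2 * X))) ?_
    have hE0 := dpow_pos B0 n (M1 + D + 1)
    have e1 : B0.d n ^ (M1 + D + 1) * X = B0.d n ^ (M1 + 1) := by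
      rw [hX, ← dpow_add]; congr 1; ring
    calc (24 * B0.d n ^ (M1 + D + 1) + sg n * X) * (1 + 7 * (2 * X))
        ≤ (25 * B0.d n ^ (M1 + D + 1)) * (15 * X) :=
          mul_le_mul (by linarith) (by linarith) (by linarith) (by positivity)
      _ = 375 * B0.d n ^ (M1 + 1) := by rw [← e1]; ring
      _ ≤ B0.d n ^ M1 := h4
      _ ≤ B0.d n ^ M := dpow_le B0 n m1
  bent := by
    intro M
    obtain ⟨C, hC⟩ := hb
    set D : ℝ := max C 1 with hD
    have d1 : C ≤ D := le_max_left _ _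
    have d3 : 1 ≤ D := le_max_right _ _
    set M1 : ℝ := max M 0 with hM1
    have m1 : M ≤ M1 := le_max_left _ _
    have m0 : 0 ≤ M1 := le_max_right _ _
    filter_upwards [hC, hP (M1 + 2 * D + 1), hu, hL, hz', ev_le B0 90 (show M1 < M1 + 1 by linarith),
      ev_le B0 60 (show (0 : ℝ) < M1 + D + 1 by linarith)] with n h1 h2 hok h4 hzh h5 h6 x hx y hy
      z hz
    set X : ℝ := B0.d n ^ (-D) with hX
    have X1 : 1 ≤ X := Real.one_le_rpow_of_pos_of_le_one_of_nonpos (B0.pos n) (B0.lt n).le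
      (by linarith)
    have hXC : B0.d n ^ (-C) ≤ X := dpow_le B0 n (by linarith)
    set η : ℝ := B0.d n ^ (M1 + 2 * D + 1) with hη
    have η0 : 0 < η := dpow_pos B0 n _
    have e1 : η * X ^ 2 = B0.d n ^ (M1 + 1) := by
      rw [hη, hX, sq, ← dpow_add, ← dpow_add]; congr 1; ring
    have e2 : η * X = B0.d n ^ (M1 + D + 1) := by
      rw [hη, hX, ← dpow_add]; congr 1; ring
    set T : Ln4 := rl (f n) (c n) (L0 n y.1) with hT
    have hp : ∀ k, |(ul (u n) T).p k| ≤ 3 * X := fun k =>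
      ((h1 y hy k).1.trans hXC).trans (by linarith)
    have hv : ∀ k, |(ul (u n) T).v k| ≤ 3 * X := fun k =>
      ((h1 y hy k).2.trans hXC).trans (by linarith)
    have hx' : ∀ k, |(u n).xh (T.pos z) k| ≤ 3 * X := by
      intro k
      rw [← ul_pos hok]
      have a1 := (h1 y hy k).1.trans hXC
      have a3 := (h1 y hy k).2.trans hXC
      have a4 := a2 a1 (m2 hz a3)
      show |(ul (u n) T).p k + (u n).zh z * (ul (u n) T).v k| ≤ 3 * X
      linarith
    have hR2 : 20 * (η * (3 * X)) ≤ 1 := by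
      rw [Real.rpow_zero] at h6
      have : 20 * (η * (3 * X)) = 60 * (η * X) := by ring
      rw [this, e2]; exact h6
    obtain ⟨z', b1, b2, b3⟩ := Wit321.bent (κ := kp n) (σ := sg n) (i := F n x) hok h2
      (by linarith : (1 : ℝ) ≤ 3 * X) hR2 (hz.trans (by linarith)) hp hv hx'
    have hfin : 10 * (η * (3 * X) ^ 2) ≤ B0.d n ^ M := by
      have : 10 * (η * (3 * X) ^ 2) = 90 * (η * X ^ 2) := by ring
      rw [this, e1]
      exact h5.trans (dpow_le B0 n m1)
    rw [← h4 y hy] at b2 b3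
    exact ⟨z', b1.trans hfin, fun k => (b2 k).trans hfin, b3⟩

end con

end Crest.Agent.R136.Wcn464
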