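import Crest.Agent.R136.Wcn3_464
import Crest.Agent.R136.TwL3_327
import Crest.Agent.R136.PrW8_464

/-!
# R136 (S0187), thin branch (helper464): `ThinC` from stage C, part 4

* `StgC` : the sequences of 321's straightening on the ball (units, projective maps, model lines,
  flags of the level-`0` marks, 768's `Frm`);
* `thinC_of` : `StgC` + `ThinG` (650) + `ClW` (327) ⊢ `PrW464.ThinC`;
* `thinPre_of_stgC` : ⊢ `NatW697.ThinPre`.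
-/

set_option autoImplicit false
set_option linter.unusedVariables false

open Finset Filter Topology

namespace Crest.Agent.R136.Wcn464

open Crest.Agent.R138
open Crest.Agent.R138.Ex926 (Base U)
open Crest.Agent.R138.Dp76 (dpow_pos dpow_add dpow_le dpow_le_one)
open Crest.Agent.R138.ArgM163 (ev_const log_dpow)
open Crest.Agent.R138.Mk163 (zc zl rho alive)
open Crest.Agent.R138.MkRef627 (lc kc)
open Crest.Agent.R136.MkA627 Crest.Agent.R136.K4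
open Crest.Agent.R136.NetW191
open Crest.Agent.R136.Sh605
open Crest.Agent.R136.ArgA163 (tau_zero)
open Crest.Agent.R136.PrW464 (WData ThinC thinPre_of_ok)
open Crest.Agent.R136.GeoN778
open Crest.Agent.R136.Wit321
open Crest.Agent.R136.GeoW778 (qS TrueW)
open Crest.Agent.R136.Thn768 (Frm)
open Crest.Agent.R136.Top484 (Par4 Dat4 Rng)
open Crest.Agent.R136.Tlt51 (mk4 zx rh)
open Crest.Agent.R136.NatT550 (ParOk)
open Crest.Agent.R136.NatW697 (ThinPre)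
open Crest.Agent.R136.Fw650 (ThinG TiltG zhN rhN flW flW_g hW)
open Crest.Agent.R136.GW650 (prG Lin)
open Crest.Agent.R136.Tn327 (ClW zmN tiltG_of_clW)

/-- **the sequences of the straightened container** -/
structure StgC (D : Dat4) (kp sg hz zs : ℕ → ℝ) (L : ℕ → ℕ → Ln4) (wA a : ℕ → ℚ → ℝ)
    (Mk : ℚ → ℕ → ℕ × ℤ → Fin 14 → ℝ) (f : ℕ → Fin 3 → V3) (c : ℕ → Ln4) (u : ℕ → Un)
    (P : ℕ → Pj) : Prop where
  ortho : ∀ᶠ n in (U : Filter ℕ), Ortho (f n)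
  ok : ∀ᶠ n in (U : Filter ℕ), (u n).Ok
  zh : ∀ᶠ n in (U : Filter ℕ), ∀ z, (u n).zh z = hz n * z - zs n
  /-- `u.H = 2 ρ(0)` -/
  r0 : ∀ᶠ n in (U : Filter ℕ), hz n * rho (D.lev n 0) = 1 / 2
  /-- the conic is not degenerate -/
  kap : ∃ k0 : ℝ, 0 < k0 ∧ ∀ᶠ n in (U : Filter ℕ), k0 ≤ |kp n|
  sm : ∀ M : ℝ, ∀ᶠ n in (U : Filter ℕ), (P n).Sm (D.B.d n ^ M)
  line : ∀ᶠ n in (U : Filter ℕ), ∀ x ∈ D.I n,
    L n x.1 = (P n).line (ul (u n) (rl (f n) (c n) (D.L n x.1)))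
  bd : ∃ C : ℝ, ∀ᶠ n in (U : Filter ℕ), ∀ x ∈ D.I n, ∀ k,
    |(ul (u n) (rl (f n) (c n) (D.L n x.1))).p k| ≤ D.B.d n ^ (-C) ∧
      |(ul (u n) (rl (f n) (c n) (D.L n x.1))).v k| ≤ D.B.d n ^ (-C)
  frm : ∀ᶠ n in (U : Filter ℕ), ∀ x ∈ D.I n, Frm (mk4 D n 0 x) (D.L n x.1) x.2 (f n)
  /-- flags of the level-`0` marks -/
  mk0 : ∀ᶠ n in (U : Filter ℕ), ∀ x ∈ D.I n, ∃ Q : Qd, (mk4 D n 0 x).q = Q.ev ∧
    (pullQ (P n).inv (hatQ (f n) (c n) (u n) Q)).b 0 ≠ 0 ∧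
    Mk 0 n (kc (D.lev n 0) (D.f n 0) x) =
      flg (kp n) (sg n) (pullQ (P n).inv (hatQ (f n) (c n) (u n) Q))
  wA : ∀ v : ℚ, 0 ≤ v → v ≤ 1 → ∀ᶠ n in (U : Filter ℕ), (u n).WA * wA n v = D.w 1 n v
  a : ∀ v : ℚ, 0 ≤ v → v ≤ 1 → ∀ᶠ n in (U : Filter ℕ), (u n).WY * (sg n * a n v) = D.w 0 n v
  s0 : ∀ᶠ n in (U : Filter ℕ), (u n).WY * sg n = D.w 0 n 0
  wid : ∀ ε : ℝ, 0 < ε → ∀ᶠ n in (U : Filter ℕ),
    D.B.d n ^ ε * (u n).WA ≤ D.w 1 n 0 ∧ D.w 1 n 0 ≤ D.B.d n ^ (-ε) * (u n).WA ∧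
    D.B.d n ^ ε * (u n).WB ≤ D.w 2 n 0 ∧ D.w 2 n 0 ≤ D.B.d n ^ (-ε) * (u n).WB

section

variable {η : ℝ} {p : Par4} {D : Dat4} {kp sg hz zs : ℕ → ℝ} {L : ℕ → ℕ → Ln4}
  {wA wB a : ℕ → ℚ → ℝ} {Mk : ℚ → ℕ → ℕ × ℤ → Fin 14 → ℝ} {E : ℚ → ℕ → ℕ × ℤ → ℝ}
  {f : ℕ → Fin 3 → V3} {c : ℕ → Ln4} {u : ℕ → Un} {P : ℕ → Pj}

/-- widths up to a factor have linear exponents -/
theorem lin_of_wid {σ' : Type*} {G : Geo σ' (Fin 3)} {B : Base} {I : ℕ → Finset (ℕ × ℝ)}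
    {lev : ℕ → ℚ → ℕ} {A : ℕ → ℝ} {cc Λ : ℝ → ℝ} {θ : Fin 3 → ℝ} {ff : ℕ → ℚ → ℕ → ℤ → ℕ}
    {b : ℕ → ℚ → ℕ → σ'} {vm : ℕ → ℚ → ℝ} {w : Fin 3 → ℕ → ℚ → ℝ}
    (h : MkA B I G lev A cc Λ (fun j v => θ j * (1 - v)) ff b vm w) (k : Fin 3) {W : ℕ → ℝ}
    {x : ℕ → ℚ → ℝ} (hW : ∀ᶠ n in (U : Filter ℕ), 0 < W n)
    (hx : ∀ v : ℚ, 0 ≤ v → v ≤ 1 → ∀ᶠ n in (U : Filter ℕ), W n * x n v = w k n v) :
    Lin B x (1 - θ k) := by
  have hp : ∀ v : ℚ, 0 ≤ v → v ≤ 1 → ∀ᶠ n in (U : Filter ℕ), 0 < x n v := fun v h0 h1 => by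
    filter_upwards [hW, hx v h0 h1, h.wpos k v h0 h1] with n a1 a2 a3
    rw [← a2] at a3
    exact (mul_pos_iff_of_pos_left a1).1 a3
  refine ⟨hp, fun v h0 h1 => (tau_zero h k h0 h1).congr' ?_⟩
  filter_upwards [hW, hx v h0 h1, hx 0 le_rfl zero_le_one, hp v h0 h1, hp 0 le_rfl zero_le_one]
    with n a1 a2 a3 a4 a5
  rw [← a2, ← a3, Real.log_mul a1.ne' a4.ne', Real.log_mul a1.ne' a5.ne']
  ring

theorem StgC.linA (S : StgC D kp sg hz zs L wA a Mk f c u P)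
    (mka : MkA D.B D.I (D.G p) D.lev D.A (fun v => p.g * v) (fun v => 0 * v)
      (fun j v => p.θ j * (1 - v)) D.f D.b D.vm D.w) : Lin D.B wA (1 + -p.θ 1) := by
  have := lin_of_wid mka 1 (W := fun n => (u n).WA) (S.ok.mono fun n h => h.A0) S.wA
  rwa [sub_eq_add_neg] at this

theorem StgC.lina (S : StgC D kp sg hz zs L wA a Mk f c u P) (sg0 : ∀ n, 0 < sg n)
    (mka : MkA D.B D.I (D.G p) D.lev D.A (fun v => p.g * v) (fun v => 0 * v)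
      (fun j v => p.θ j * (1 - v)) D.f D.b D.vm D.w) : Lin D.B a (1 - p.θ 0) :=
  lin_of_wid mka 0 (W := fun n => (u n).WY * sg n)
    (S.ok.mono fun n h => mul_pos h.Y0 (sg0 n))
    fun v h0 h1 => (S.a v h0 h1).mono fun n h => by rw [mul_assoc]; exact h

/-- **stage C ⊢ `ThinC`** -/
theorem thinC_of
    (mka : MkA D.B D.I (D.G p) D.lev D.A (fun v => p.g * v) (fun v => 0 * v)
      (fun j v => p.θ j * (1 - v)) D.f D.b D.vm D.w) (θ2 : p.θ 2 = 2 * p.θ 1)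
    (hT : ThinG D.B D.I D.lev D.f kp sg hz zs L wA wB a Mk E)
    (tilt : ∃ C : ℝ, 0 ≤ C ∧
      TiltG D.B D.I (hW kp hz zs L D.lev D.f Mk) (prG (rhN D.lev hz) wA a) C)
    (S : StgC D kp sg hz zs L wA a Mk f c u P) (wrs : Rng D.B D.wr D.cr D.w) :
    ThinC p D kp sg hz zs L wA wB a Mk E f c u fun n x => pullQ (P n) (qSd (kp n) (sg n)
      (flW kp sg hz zs L D.lev D.f Mk (-p.θ 1) (1 - p.θ 0) n x)) where
  mka := mka
  thin := hT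
  linA := S.linA mka
  lina := S.lina hT.σ0 mka
  tilt := tilt
  con := wcon_of (hT.wdata mka _ _) S.ortho S.ok S.zh S.sm S.line S.bd
  qw := qw_of mka θ2 S.ok hT.hz0 S.wA S.a S.s0 S.r0 S.wid fun δ hδ =>
    slopes hT.kp1 hT.σ0 hT.σs hT.zb S.ortho S.ok S.zh S.sm S.line S.bd S.frm S.mk0
      (hT.Mb 0 le_rfl zero_le_one) δ hδ
  wrs := wrs
  conG := fun J hJ F2 wd2 => ⟨_, wcon_of wd2 S.ortho S.ok S.zh S.sm (by
    filter_upwards [S.line, hJ] with n h1 h2 x hx using h1 x (h2 hx)) (by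
    obtain ⟨C, hC⟩ := S.bd
    refine ⟨C, ?_⟩
    filter_upwards [hC, hJ] with n h1 h2 x hx using h1 x (h2 hx))⟩
  kp0 := fun ε hε => by
    obtain ⟨k0, hk, h0⟩ := S.kap
    filter_upwards [h0, ev_const D.B (C := 1 / k0) (by positivity) hε] with n h1 h2
    refine le_trans ?_ h1
    have dp := dpow_pos D.B n ε
    rw [Real.rpow_neg (D.B.pos n).le, one_div, inv_le_inv₀ hk dp] at h2
    exact h2

/-- **stage C ⊢ `ThinPre`** -/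
theorem thinPre_of_stgC (ok : ParOk η p)
    (mka : MkA D.B D.I (D.G p) D.lev D.A (fun v => p.g * v) (fun v => 0 * v)
      (fun j v => p.θ j * (1 - v)) D.f D.b D.vm D.w) (θ2 : p.θ 2 = 2 * p.θ 1)
    (hT : ThinG D.B D.I D.lev D.f kp sg hz zs L wA wB a Mk E)
    (S : StgC D kp sg hz zs L wA a Mk f c u P) (wrs : Rng D.B D.wr D.cr D.w)
    (hcl : ClW D.B D.I D.lev D.f kp L (zmN D.lev hz zs) (rhN D.lev hz) wA a Mk) :
    ∃ (D' : Dat4) (π : Equiv.Perm (Fin 3)) (kp uz uc un : ℕ → ℝ) (F : ℕ → ℕ × ℝ → FW)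
      (V T : Fin 18 → Prop) (w0 R T0 : ℝ) (PD : Set (Fin 18 → ℝ)),
      ThinPre η p D' π kp uz uc un F V T w0 R T0 PD :=
  thinPre_of_ok ok θ2 (thinC_of mka θ2 hT
    (tiltG_of_clW hT mka (S.linA mka) (S.lina hT.σ0 mka) hcl) S wrs)

end

end Crest.Agent.R136.Wcn464
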