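import Crest.Agent.R136.Wcn4_464
import Crest.Agent.R136.Stk1_464

/-!
# R136 (S0187), thin branch (helper464): `ThinPre` from stage C, part 5

`stgC_of` : 321's `StcA` restricted to a part of good incidences ⊢ `StgC`; `thinPre_of_stcA` :
`StcA` + the output of 650's `exists_thinG` ⊢ `ThinPre`.
-/

set_option autoImplicit false
set_option linter.unusedVariables false

open Finset Filter Topology

namespace Crest.Agent.R136.Wcn464

open Crest.Agent.R138
open Crest.Agent.R138.Ex926 (Base U)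
open Crest.Agent.R138.Dp76 (dpow_pos dpow_add dpow_le dpow_le_one)
open Crest.Agent.R138.Mk163 (zc zl rho alive)
open Crest.Agent.R138.MkRef627 (lc kc mem_alive)
open Crest.Agent.R136.MkA627 Crest.Agent.R136.K4
open Crest.Agent.R136.NetW191
open Crest.Agent.R136.Sh605
open Crest.Agent.R136.GeoN778
open Crest.Agent.R136.Wit321
open Crest.Agent.R136.Thn768 (Frm)
open Crest.Agent.R136.Top484 (Par4 Dat4 Rng)
open Crest.Agent.R136.Tlt51 (mk4 zx rh)
open Crest.Agent.R136.NatT550 (ParOk)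
open Crest.Agent.R136.NatW697 (ThinPre)
open Crest.Agent.R136.Fw650 (ThinG TiltG zhN rhN)
open Crest.Agent.R136.GW650 (prG Lin)
open Crest.Agent.R136.Tn327 (ClW zmN)
open Crest.Agent.R136.Stc321 (CtD StcA Gd hzS zsS LS wAS wBS aS MkS qdOf)
open Crest.Agent.R136.Stk464 (qdOf_spec)

section

variable {η : ℝ} {p : Par4} {D : Dat4} {K : ℕ → CtD} {x0 : ℕ → ℕ × ℝ} {I' : ℕ → Finset (ℕ × ℝ)}

/-- **`StgC` from `StcA`** -/
theorem stgC_of (hs : StcA p D K x0)
    (mka : MkA D.B I' (D.G p) D.lev D.A (fun v => p.g * v) (fun v => 0 * v)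
      (fun j v => p.θ j * (1 - v)) D.f D.b D.vm D.w) (hI : ∀ n, I' n ⊆ D.I n) {C : ℝ}
    (hgd : ∀ᶠ n in (U : Filter ℕ), ∀ x ∈ I' n, Gd D K C n x) :
    StgC { D with I := I' } (fun n => (K n).κ) (fun n => (K n).σ) (hzS K) (zsS K) (LS D K)
      (wAS D K) (aS D) (MkS D K) (fun n => (K n).f) (fun n => (K n).c) (fun n => (K n).u)
      (fun n => (K n).P) where
  ortho := Eventually.of_forall hs.ortho
  ok := Eventually.of_forall hs.ok
  zh := Eventually.of_forall fun n z => by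
    have := (hs.ok n).H0.ne'
    show (z - (K n).u.zc) / (K n).u.H = 1 / (K n).u.H * z - (K n).u.zc / (K n).u.H
    field_simp
  r0 := by
    filter_upwards [hs.H] with n h
    show 1 / (K n).u.H * rho (D.lev n 0) = 1 / 2
    have : (0 : ℝ) < rho (D.lev n 0) := by unfold rho; positivity
    rw [h]
    field_simp
  kap := ⟨1 / 5, by norm_num, hs.kp0⟩
  sm := hs.sm
  line := Eventually.of_forall fun n x hx => rfl
  bd := ⟨C, hgd.mono fun n h x hx => (h x hx).1⟩
  frm := hs.frm.mono fun n h x hx => h x (hI n hx)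
  mk0 := by
    filter_upwards [hgd, mka.mark 0 le_rfl zero_le_one] with n h1 h2 x hx
    obtain ⟨m1, m2, m3, m4⟩ := h2 (zc (D.lev n 0) x.2) x.1 (mem_alive.2 ⟨x, hx, rfl, rfl⟩)
    exact ⟨qdOf (mk4 D n 0 x).q, (qdOf_spec m2.1.isQ).1, (h1 x hx).2.1, rfl⟩
  wA := fun v _ _ => Eventually.of_forall fun n => by
    have := (hs.ok n).A0.ne'
    show (K n).u.WA * (D.w 1 n v / (K n).u.WA) = D.w 1 n v
    field_simp
  a := fun v _ _ => by
    filter_upwards [hs.σw, mka.wpos 0 0 le_rfl zero_le_one] with n a1 a2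
    show (K n).u.WY * ((K n).σ * (D.w 0 n v / D.w 0 n 0)) = D.w 0 n v
    rw [← mul_assoc, a1]
    have := a2.ne'
    field_simp
  s0 := hs.σw
  wid := hs.wid

/-- **`ThinPre` from `StcA` and the assembly** -/
theorem thinPre_of_stcA (ok : ParOk η p) (θ2 : p.θ 2 = 2 * p.θ 1) (hs : StcA p D K x0)
    {E : ℚ → ℕ → ℕ × ℤ → ℝ} {C : ℝ} (hI : ∀ n, I' n ⊆ D.I n)
    (mka : MkA D.B I' (D.G p) D.lev D.A (fun v => p.g * v) (fun v => 0 * v)
      (fun j v => p.θ j * (1 - v)) D.f D.b D.vm D.w) (wrs : Rng D.B D.wr D.cr D.w)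
    (hgd : ∀ᶠ n in (U : Filter ℕ), ∀ x ∈ I' n, Gd D K C n x)
    (hT : ThinG D.B I' D.lev D.f (fun n => (K n).κ) (fun n => (K n).σ) (hzS K) (zsS K)
      (LS D K) (wAS D K) (wBS D K) (aS D) (MkS D K) E)
    (hcl : ClW D.B I' D.lev D.f (fun n => (K n).κ) (LS D K) (zmN D.lev (hzS K) (zsS K))
      (rhN D.lev (hzS K)) (wAS D K) (aS D) (MkS D K)) :
    ∃ (D' : Dat4) (π : Equiv.Perm (Fin 3)) (kp uz uc un : ℕ → ℝ) (F : ℕ → ℕ × ℝ → FW)
      (V T : Fin 18 → Prop) (w0 R T0 : ℝ) (PD : Set (Fin 18 → ℝ)),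
      ThinPre η p D' π kp uz uc un F V T w0 R T0 PD :=
  thinPre_of_stgC (D := { D with I := I' }) ok mka θ2 hT (stgC_of hs mka hI hgd) wrs hcl

end

end Crest.Agent.R136.Wcn464
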