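import Crest.Agent.R136.Arc1_880

/-!
# R136 (S0187): wedge = strip of a line ∩ nondegenerate conic lies in two balls (helper262)

`f` = symmetric form on `ℝ³` (upper entries are used), points `(1, x, y)`, `|x|, |y| ≤ K`,
`δ ≤ |det f|`, `|f i j| ≤ K`, `n` = a linear form with a coefficient `≥ 1 / K`.

* `core` : three points of `{|f| ≤ σ} ∩ {|n| ≤ σ}` with ordered second coordinates, gaps `g1, g2`:
  `|det f| g1 g2 ≤ 900 K⁸ σ` (needs `|n 1| ≥ 1 / (4 K²)`; `core'` = the same with the coordinates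
  exchanged);
* `three` : among three points of `{|f| ≤ σ} ∩ {|n| ≤ σ}` two are at distance
  `≤ 100 K⁴ √(σ / δ)`;
* `wedgeq`, `wedge` : hence the set lies in two balls of this radius.
-/

set_option autoImplicit false
set_option linter.unusedVariables false

namespace Crest.Agent.R136.Wdg262

open Crest.Agent.R136.Arc880

theorem amgm (p q : ℝ) : p * q ≤ (p + q) ^ 2 / 4 := by nlinarith [sq_nonneg (p - q)]

set_option maxHeartbeats 1000000 in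
/-- **core**: three points of the strip on the conic, middle point `z`. Scalars: `a = f00`,
`b = f01`, `c = f02`, `d = f11`, `e = f12`, `h = f22`. -/
theorem core {a b c d e h K σ n0 n1 n2 x1 x2 y1 y2 z1 z2 : ℝ} (hK : 1 ≤ K)
    (ha : |a| ≤ K) (hb : |b| ≤ K) (hc : |c| ≤ K) (hd : |d| ≤ K) (he : |e| ≤ K) (hh : |h| ≤ K)
    (hx1 : |x1| ≤ K) (hx2 : |x2| ≤ K) (hy1 : |y1| ≤ K) (hy2 : |y2| ≤ K)
    (hz1 : |z1| ≤ K) (hz2 : |z2| ≤ K) (hσ : 0 ≤ σ) (hn : 1 ≤ 4 * K ^ 2 * |n1|)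
    (qx : |a + 2 * b * x1 + 2 * c * x2 + d * x1 ^ 2 + 2 * e * x1 * x2 + h * x2 ^ 2| ≤ σ)
    (qy : |a + 2 * b * y1 + 2 * c * y2 + d * y1 ^ 2 + 2 * e * y1 * y2 + h * y2 ^ 2| ≤ σ)
    (qz : |a + 2 * b * z1 + 2 * c * z2 + d * z1 ^ 2 + 2 * e * z1 * z2 + h * z2 ^ 2| ≤ σ)
    (sx : |n0 + n1 * x1 + n2 * x2| ≤ σ) (sy : |n0 + n1 * y1 + n2 * y2| ≤ σ)
    (sz : |n0 + n1 * z1 + n2 * z2| ≤ σ) (h1 : 0 < z2 - x2) (h2 : 0 < y2 - z2) :
    |a * d * h + 2 * b * e * c - a * e ^ 2 - b ^ 2 * h - c ^ 2 * d| * ((z2 - x2) * (y2 - z2)) ≤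
      900 * K ^ 8 * σ := by
  obtain ⟨g1, hg1⟩ : ∃ g1, g1 = z2 - x2 := ⟨_, rfl⟩
  obtain ⟨g2, hg2⟩ : ∃ g2, g2 = y2 - z2 := ⟨_, rfl⟩
  rw [← hg1] at h1
  rw [← hg2] at h2
  rw [← hg1, ← hg2]
  obtain ⟨L, hL⟩ : ∃ L, L = g1 + g2 := ⟨_, rfl⟩
  have hL0 : 0 < L := by rw [hL]; linarith
  have hK0 : 0 < K := by linarith
  have k12 : K ≤ K ^ 2 := by nlinarith
  have k23 : K ^ 2 ≤ K ^ 3 := pow_le_pow_right₀ hK (by norm_num)
  -- the error of `z` against the chord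
  obtain ⟨E, hE⟩ : ∃ E, E = L * z1 - (g2 * x1 + g1 * y1) := ⟨_, rfl⟩
  have hnE : n1 * E = L * (n0 + n1 * z1 + n2 * z2) -
      (g2 * (n0 + n1 * x1 + n2 * x2) + g1 * (n0 + n1 * y1 + n2 * y2)) := by
    rw [hE, hL, hg1, hg2]; ring
  have hg1a : |g1| = g1 := abs_of_pos h1
  have hg2a : |g2| = g2 := abs_of_pos h2
  have hLa : |L| = L := abs_of_pos hL0
  have hnE' : |n1 * E| ≤ 2 * L * σ := by
    rw [hnE]
    have u1 : |L * (n0 + n1 * z1 + n2 * z2)| ≤ L * σ := abs_mul_le hLa.le sz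
    have u2 : |g2 * (n0 + n1 * x1 + n2 * x2)| ≤ g2 * σ := abs_mul_le hg2a.le sx
    have u3 : |g1 * (n0 + n1 * y1 + n2 * y2)| ≤ g1 * σ := abs_mul_le hg1a.le sy
    have u4 := abs_sub2 u1 (abs_add2 u2 u3)
    have : g2 * σ + g1 * σ = L * σ := by rw [hL]; ring
    linarith
  have hE1 : |E| ≤ 8 * K ^ 2 * L * σ := by
    have u1 : |E| * 1 ≤ |E| * (4 * K ^ 2 * |n1|) :=
      mul_le_mul_of_nonneg_left hn (abs_nonneg _)
    have u2 : |E| * (4 * K ^ 2 * |n1|) = 4 * K ^ 2 * |n1 * E| := by rw [abs_mul]; ring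
    have u3 : 4 * K ^ 2 * |n1 * E| ≤ 4 * K ^ 2 * (2 * L * σ) :=
      mul_le_mul_of_nonneg_left hnE' (by positivity)
    rw [u2] at u1
    have u4 : 4 * K ^ 2 * (2 * L * σ) = 8 * K ^ 2 * L * σ := by ring
    linarith
  have hE2 : |E| ≤ 2 * K * L := by
    rw [hE]
    have u1 : |L * z1| ≤ L * K := abs_mul_le hLa.le hz1
    have u2 : |g2 * x1| ≤ g2 * K := abs_mul_le hg2a.le hx1
    have u3 : |g1 * y1| ≤ g1 * K := abs_mul_le hg1a.le hy1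
    have u4 := abs_sub2 u1 (abs_add2 u2 u3)
    have : g2 * K + g1 * K = L * K := by rw [hL]; ring
    linarith
  -- polar values
  obtain ⟨X, hX⟩ : ∃ X, X = a + 2 * b * x1 + 2 * c * x2 + d * x1 ^ 2 + 2 * e * x1 * x2 +
    h * x2 ^ 2 := ⟨_, rfl⟩
  obtain ⟨Y, hY⟩ : ∃ Y, Y = a + 2 * b * y1 + 2 * c * y2 + d * y1 ^ 2 + 2 * e * y1 * y2 +
    h * y2 ^ 2 := ⟨_, rfl⟩
  obtain ⟨Z, hZ⟩ : ∃ Z, Z = a + 2 * b * z1 + 2 * c * z2 + d * z1 ^ 2 + 2 * e * z1 * z2 +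
    h * z2 ^ 2 := ⟨_, rfl⟩
  obtain ⟨B, hB⟩ : ∃ B, B = a + b * (x1 + y1) + c * (x2 + y2) + d * x1 * y1 +
    e * (x1 * y2 + y1 * x2) + h * x2 * y2 := ⟨_, rfl⟩
  obtain ⟨P, hP⟩ : ∃ P, P = b + d * x1 + e * x2 := ⟨_, rfl⟩
  obtain ⟨R, hR⟩ : ∃ R, R = b + d * y1 + e * y2 := ⟨_, rfl⟩
  rw [← hX] at qx
  rw [← hY] at qy
  rw [← hZ] at qz
  have hP' : |P| ≤ 3 * K ^ 2 := by
    rw [hP]
    have u := abs_add2 (abs_add2 hb (abs_mul_le hd hx1)) (abs_mul_le he hx2)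
    have e2 : K + K * K + K * K = K + 2 * K ^ 2 := by ring
    rw [e2] at u
    linarith
  have hR' : |R| ≤ 3 * K ^ 2 := by
    rw [hR]
    have u := abs_add2 (abs_add2 hb (abs_mul_le hd hy1)) (abs_mul_le he hy2)
    have e2 : K + K * K + K * K = K + 2 * K ^ 2 := by ring
    rw [e2] at u
    linarith
  have hY' : |Y| ≤ 9 * K ^ 3 := by
    have e1 : Y = (a + b * y1 + c * y2) + y1 * R + y2 * (c + e * y1 + h * y2) := by
      rw [hY, hR]; ring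
    have u1 := abs_add2 (abs_add2 ha (abs_mul_le hb hy1)) (abs_mul_le hc hy2)
    have u2 := abs_add2 (abs_add2 hc (abs_mul_le he hy1)) (abs_mul_le hh hy2)
    have u3 := abs_mul_le hy1 hR'
    have u4 := abs_mul_le hy2 u2
    have u5 := abs_add2 (abs_add2 u1 u3) u4
    rw [e1]
    refine u5.trans ?_
    have e2 : K + K * K + K * K + K * (3 * K ^ 2) + K * (K + K * K + K * K) =
      K + 3 * K ^ 2 + 5 * K ^ 3 := by ring
    rw [e2]
    linarith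
  have hB' : |B| ≤ 9 * K ^ 3 := by
    have e1 : B = (a + b * y1 + c * y2) + x1 * R + x2 * (c + e * y1 + h * y2) := by
      rw [hB, hR]; ring
    have u1 := abs_add2 (abs_add2 ha (abs_mul_le hb hy1)) (abs_mul_le hc hy2)
    have u2 := abs_add2 (abs_add2 hc (abs_mul_le he hy1)) (abs_mul_le hh hy2)
    have u3 := abs_mul_le hx1 hR'
    have u4 := abs_mul_le hx2 u2
    have u5 := abs_add2 (abs_add2 u1 u3) u4
    rw [e1]
    refine u5.trans ?_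
    have e2 : K + K * K + K * K + K * (3 * K ^ 2) + K * (K + K * K + K * K) =
      K + 3 * K ^ 2 + 5 * K ^ 3 := by ring
    rw [e2]
    linarith
  -- the polar value of `x, y` is small
  have hid1 : 2 * (g1 * g2) * B = L ^ 2 * Z - g2 ^ 2 * X - g1 ^ 2 * Y -
      2 * E * (g2 * P + g1 * R) - E ^ 2 * d := by
    have hz2' : L * z2 = g2 * x2 + g1 * y2 := by rw [hL, hg1, hg2]; ring
    have e1 : L ^ 2 * Z = L ^ 2 * a + 2 * b * L * (L * z1) + 2 * c * L * (L * z2) +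
        d * (L * z1) ^ 2 + 2 * e * (L * z1) * (L * z2) + h * (L * z2) ^ 2 := by
      rw [hZ]; ring
    have e2 : L * z1 = g2 * x1 + g1 * y1 + E := by rw [hE]; ring
    rw [e1, hz2', e2, hX, hY, hB, hP, hR, hL]
    ring
  have hs : g1 * g2 * |B| ≤ 33 * K ^ 4 * L ^ 2 * σ := by
    have v1 : |L ^ 2 * Z| ≤ L ^ 2 * σ := abs_mul_le (abs_of_nonneg (sq_nonneg L)).le qz
    have v2 : |g2 ^ 2 * X| ≤ g2 ^ 2 * σ := abs_mul_le (abs_of_nonneg (sq_nonneg g2)).le qx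
    have v3 : |g1 ^ 2 * Y| ≤ g1 ^ 2 * σ := abs_mul_le (abs_of_nonneg (sq_nonneg g1)).le qy
    have v4 : |g2 * P + g1 * R| ≤ L * (3 * K ^ 2) := by
      have := abs_add2 (abs_mul_le hg2a.le hP') (abs_mul_le hg1a.le hR')
      have e : g2 * (3 * K ^ 2) + g1 * (3 * K ^ 2) = L * (3 * K ^ 2) := by rw [hL]; ring
      linarith
    have v5 : |2 * E * (g2 * P + g1 * R)| ≤ 2 * (8 * K ^ 2 * L * σ) * (L * (3 * K ^ 2)) := by
      refine abs_mul_le ?_ v4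
      rw [abs_mul, abs_of_pos (by norm_num : (0:ℝ) < 2)]
      linarith
    have v6 : |E ^ 2 * d| ≤ (2 * K * L) * (8 * K ^ 2 * L * σ) * K := by
      refine abs_mul_le ?_ hd
      rw [sq, abs_mul]
      exact mul_le_mul hE2 hE1 (abs_nonneg _) (by positivity)
    have v7 := abs_sub2 (abs_sub2 (abs_sub2 (abs_sub2 v1 v2) v3) v5) v6
    rw [← hid1] at v7
    have e1 : |2 * (g1 * g2) * B| = 2 * (g1 * g2 * |B|) := by
      rw [abs_mul, abs_of_pos (by positivity : (0:ℝ) < 2 * (g1 * g2))]; ring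
    rw [e1] at v7
    have e2 : g2 ^ 2 * σ + g1 ^ 2 * σ ≤ L ^ 2 * σ := by
      have h5 : g2 ^ 2 + g1 ^ 2 ≤ L ^ 2 := by
        have : L ^ 2 = g2 ^ 2 + g1 ^ 2 + 2 * (g1 * g2) := by rw [hL]; ring
        have : 0 < g1 * g2 := mul_pos h1 h2
        linarith
      have h6 := mul_le_mul_of_nonneg_right h5 hσ
      linarith [h6, add_mul (g2 ^ 2) (g1 ^ 2) σ]
    have e3 : L ^ 2 * σ ≤ K ^ 4 * L ^ 2 * σ := by
      have h4 : (1:ℝ) ≤ K ^ 4 := one_le_pow₀ hK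
      have h5 : 0 ≤ L ^ 2 * σ := by positivity
      have h6 := mul_le_mul_of_nonneg_right h4 h5
      linarith [mul_assoc (K ^ 4) (L ^ 2) σ]
    have e4 : 2 * (8 * K ^ 2 * L * σ) * (L * (3 * K ^ 2)) = 48 * (K ^ 4 * L ^ 2 * σ) := by ring
    have e5 : (2 * K * L) * (8 * K ^ 2 * L * σ) * K = 16 * (K ^ 4 * L ^ 2 * σ) := by ring
    have e6 : 33 * K ^ 4 * L ^ 2 * σ = 33 * (K ^ 4 * L ^ 2 * σ) := by ring
    rw [e4, e5] at v7
    rw [e6]
    linarith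
  -- the Gram determinant
  have hid2 : (a * d * h + 2 * b * e * c - a * e ^ 2 - b ^ 2 * h - c ^ 2 * d) * L ^ 2 =
      X * (Y * d - R * R) - B * (B * d - R * P) + P * (B * R - Y * P) := by
    have hL' : L = y2 - x2 := by rw [hL, hg1, hg2]; ring
    rw [hX, hY, hB, hP, hR, hL']
    ring
  obtain ⟨D, hD⟩ : ∃ D, D = a * d * h + 2 * b * e * c - a * e ^ 2 - b ^ 2 * h - c ^ 2 * d :=
    ⟨_, rfl⟩
  rw [← hD] at hid2 ⊢
  have hB0 : |B| ≤ |B| := le_rfl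
  have w1 : |X * (Y * d - R * R)| ≤ σ * (9 * K ^ 3 * K + 3 * K ^ 2 * (3 * K ^ 2)) :=
    abs_mul_le qx (abs_sub2 (abs_mul_le hY' hd) (abs_mul_le hR' hR'))
  have w2 : |B * (B * d - R * P)| ≤ |B| * (9 * K ^ 3 * K + 3 * K ^ 2 * (3 * K ^ 2)) :=
    abs_mul_le hB0 (abs_sub2 (abs_mul_le hB' hd) (abs_mul_le hR' hP'))
  have w3 : |P * (B * R - Y * P)| ≤ 3 * K ^ 2 * (|B| * (3 * K ^ 2) + σ * (3 * K ^ 2)) :=
    abs_mul_le hP' (abs_sub2 (abs_mul_le hB0 hR') (abs_mul_le qy hP'))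
  have w4 := abs_add2 (abs_sub2 w1 w2) w3
  rw [← hid2, abs_mul, abs_of_nonneg (sq_nonneg L)] at w4
  have w5 : |D| * L ^ 2 ≤ 27 * K ^ 4 * (σ + |B|) := by
    refine w4.trans (le_of_eq ?_)
    ring
  have w6 : |D| * L ^ 2 * (g1 * g2) ≤ 27 * K ^ 4 * (σ + |B|) * (g1 * g2) :=
    mul_le_mul_of_nonneg_right w5 (mul_pos h1 h2).le
  have w7 : g1 * g2 * σ ≤ L ^ 2 / 4 * σ := by
    refine mul_le_mul_of_nonneg_right ?_ hσ
    rw [hL]; exact amgm g1 g2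
  have w8 : 27 * K ^ 4 * (σ + |B|) * (g1 * g2) ≤
      27 * K ^ 4 * (L ^ 2 / 4 * σ + 33 * K ^ 4 * L ^ 2 * σ) := by
    have : 27 * K ^ 4 * (σ + |B|) * (g1 * g2) =
      27 * K ^ 4 * (g1 * g2 * σ + g1 * g2 * |B|) := by ring
    rw [this]
    exact mul_le_mul_of_nonneg_left (add_le_add w7 hs) (by positivity)
  have w9 : 27 * K ^ 4 * (L ^ 2 / 4 * σ + 33 * K ^ 4 * L ^ 2 * σ) ≤
      900 * K ^ 8 * σ * L ^ 2 := by
    have h4 : K ^ 4 ≤ K ^ 8 := pow_le_pow_right₀ hK (by norm_num)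
    have h5 : 0 ≤ L ^ 2 * σ := by positivity
    have h6 : K ^ 4 * (L ^ 2 * σ) ≤ K ^ 8 * (L ^ 2 * σ) := mul_le_mul_of_nonneg_right h4 h5
    have h7 : 27 * K ^ 4 * (L ^ 2 / 4 * σ + 33 * K ^ 4 * L ^ 2 * σ) =
      27 / 4 * (K ^ 4 * (L ^ 2 * σ)) + 891 * (K ^ 8 * (L ^ 2 * σ)) := by ring
    have h8 : 0 ≤ K ^ 8 * (L ^ 2 * σ) := by positivity
    have h9 : 900 * K ^ 8 * σ * L ^ 2 = 900 * (K ^ 8 * (L ^ 2 * σ)) := by ring
    rw [h7, h9]
    linarith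
  have w10 : (|D| * (g1 * g2)) * L ^ 2 ≤ 900 * K ^ 8 * σ * L ^ 2 := by
    have : (|D| * (g1 * g2)) * L ^ 2 = |D| * L ^ 2 * (g1 * g2) := by ring
    rw [this]
    exact (w6.trans w8).trans w9
  exact le_of_mul_le_mul_right w10 (pow_pos hL0 2)

/-- three points with pairwise gaps `≥ s > 0` of the second coordinate, any order -/
theorem gap {K σ s : ℝ} (hK : 1 ≤ K) (hs : 0 < s)
    {a b c d e h n0 n1 n2 : ℝ}
    (ha : |a| ≤ K) (hb : |b| ≤ K) (hc : |c| ≤ K) (hd : |d| ≤ K) (he : |e| ≤ K) (hh : |h| ≤ K)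
    (hσ : 0 ≤ σ) (hn : 1 ≤ 4 * K ^ 2 * |n1|) (u v : Fin 3 → ℝ)
    (hu : ∀ i, |u i| ≤ K) (hv : ∀ i, |v i| ≤ K)
    (q : ∀ i, |a + 2 * b * u i + 2 * c * v i + d * u i ^ 2 + 2 * e * u i * v i + h * v i ^ 2| ≤ σ)
    (sl : ∀ i, |n0 + n1 * u i + n2 * v i| ≤ σ)
    (h01 : s ≤ |v 0 - v 1|) (h02 : s ≤ |v 0 - v 2|) (h12 : s ≤ |v 1 - v 2|) :
    |a * d * h + 2 * b * e * c - a * e ^ 2 - b ^ 2 * h - c ^ 2 * d| * s ^ 2 ≤
      900 * K ^ 8 * σ := by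
  -- an ordered triple
  have key : ∀ i j k : Fin 3, s ≤ v k - v i → s ≤ v j - v k →
      |a * d * h + 2 * b * e * c - a * e ^ 2 - b ^ 2 * h - c ^ 2 * d| * s ^ 2 ≤
      900 * K ^ 8 * σ := by
    intro i j k h1 h2
    have := core hK ha hb hc hd he hh (hu i) (hv i) (hu j) (hv j) (hu k) (hv k) hσ hn
      (q i) (q j) (q k) (sl i) (sl j) (sl k) (by linarith) (by linarith)
    refine le_trans (mul_le_mul_of_nonneg_left ?_ (abs_nonneg _)) this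
    nlinarith
  rcases le_total (v 0) (v 1) with a1 | a1 <;> rcases le_total (v 1) (v 2) with a2 | a2 <;>
    rcases le_total (v 0) (v 2) with a3 | a3 <;>
    simp only [abs_of_nonneg, abs_of_nonpos, sub_nonneg, sub_nonpos, a1, a2, a3] at h01 h02 h12
  · exact key 0 2 1 (by linarith) (by linarith)
  · linarith
  · exact key 0 1 2 (by linarith) (by linarith)
  · exact key 2 1 0 (by linarith) (by linarith)
  · exact key 1 2 0 (by linarith) (by linarith)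
  · exact key 1 0 2 (by linarith) (by linarith)
  · linarith
  · exact key 2 0 1 (by linarith) (by linarith)

theorem det3_leK {f : Fin 3 → Fin 3 → ℝ} {K : ℝ} (hf : ∀ i j, |f i j| ≤ K) :
    |det3 f| ≤ 6 * K ^ 3 := by
  unfold det3
  have h1 := abs_mul_le (abs_mul_le (hf 0 0) (hf 1 1)) (hf 2 2)
  have h2 : |2 * f 0 1 * f 1 2 * f 0 2| ≤ 2 * K * K * K :=
    abs_mul_le (abs_mul_le (abs_mul_le (by rw [abs_of_pos (by norm_num : (0:ℝ) < 2)])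
      (hf 0 1)) (hf 1 2)) (hf 0 2)
  have sq' : ∀ i j, |f i j ^ 2| ≤ K * K := by
    intro i j; rw [sq]; exact abs_mul_le (hf i j) (hf i j)
  have h3 := abs_mul_le (hf 0 0) (sq' 1 2)
  have h4 := abs_mul_le (sq' 0 1) (hf 2 2)
  have h5 := abs_mul_le (sq' 0 2) (hf 1 1)
  have := abs_sub2 (abs_sub2 (abs_sub2 (abs_add2 h1 h2) h3) h4) h5
  refine this.trans (le_of_eq (by ring))

/-- the numbers of the radius `r = 100 K⁴ √(σ / δ)` -/
theorem rad {K σ δ : ℝ} (hK : 1 ≤ K) (hσ : 0 ≤ σ) (hδ : 0 < δ) (hδ' : δ ≤ 6 * K ^ 3) :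
    0 ≤ 100 * K ^ 4 * √(σ / δ) ∧
    (100 * K ^ 4 * √(σ / δ)) ^ 2 * δ = 10 ^ 4 * K ^ 8 * σ ∧
    1666 * K ^ 5 * σ ≤ (100 * K ^ 4 * √(σ / δ)) ^ 2 := by
  have h0 : 0 ≤ σ / δ := div_nonneg hσ hδ.le
  have h1 : (100 * K ^ 4 * √(σ / δ)) ^ 2 = 10 ^ 4 * K ^ 8 * (σ / δ) := by
    rw [mul_pow, Real.sq_sqrt h0]; ring
  have h2 : (100 * K ^ 4 * √(σ / δ)) ^ 2 * δ = 10 ^ 4 * K ^ 8 * σ := by
    rw [h1]; field_simp
  refine ⟨by positivity, h2, ?_⟩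
  have hK0 : 0 < K := by linarith
  have h3 : 1666 * K ^ 5 * σ * δ ≤ 1666 * K ^ 5 * σ * (6 * K ^ 3) :=
    mul_le_mul_of_nonneg_left hδ' (by positivity)
  have h4 : 1666 * K ^ 5 * σ * (6 * K ^ 3) ≤ 10 ^ 4 * K ^ 8 * σ := by
    have : 1666 * K ^ 5 * σ * (6 * K ^ 3) = 9996 * (K ^ 8 * σ) := by ring
    have h5 : 0 ≤ K ^ 8 * σ := by positivity
    rw [this]
    nlinarith
  rw [← h2] at h4
  exact le_of_mul_le_mul_right (h3.trans h4) hδ

/-- **far pairs are far in the second coordinate** (`|n 2| ≤ |n 1|`) -/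
theorem far2 {K σ r n1 n2 p1 p2 : ℝ} (hK : 1 ≤ K) (hσ : 0 ≤ σ) (hσ1 : σ ≤ 1) (hr : 0 ≤ r)
    (hr2 : 1666 * K ^ 5 * σ ≤ r ^ 2) (hn : 1 ≤ 4 * K ^ 2 * |n1|) (h21 : |n2| ≤ |n1|)
    (hp : |n1 * p1 + n2 * p2| ≤ 2 * σ) (hf : r < |p1| ∨ r < |p2|) : r / 2 < |p2| := by
  by_contra hcon
  push Not at hcon
  have h1 : r < |p1| := by
    rcases hf with h | h
    · exact h
    · linarith
  have e1 : n1 * p1 = (n1 * p1 + n2 * p2) - n2 * p2 := by ring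
  have h2 : |n1| * |p1| ≤ 2 * σ + |n1| * (r / 2) := by
    rw [← abs_mul, e1]
    exact abs_sub2 hp (abs_mul_le h21 hcon)
  have hn0 : 0 < |n1| := by
    by_contra h
    have : |n1| = 0 := le_antisymm (not_lt.1 h) (abs_nonneg _)
    rw [this] at hn; norm_num at hn
  have h3 : |n1| * r < |n1| * |p1| := mul_lt_mul_of_pos_left h1 hn0
  have h4 : |n1| * r < 4 * σ := by linarith
  have h5 : r ≤ 4 * K ^ 2 * |n1| * r := le_mul_of_one_le_left hr hn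
  have h6 : 4 * K ^ 2 * |n1| * r < 16 * K ^ 2 * σ := by
    have : 4 * K ^ 2 * (|n1| * r) < 4 * K ^ 2 * (4 * σ) :=
      mul_lt_mul_of_pos_left h4 (by positivity)
    calc 4 * K ^ 2 * |n1| * r = 4 * K ^ 2 * (|n1| * r) := by ring
      _ < 4 * K ^ 2 * (4 * σ) := this
      _ = 16 * K ^ 2 * σ := by ring
  have h7 : r < 16 * K ^ 2 * σ := lt_of_le_of_lt h5 h6
  have h8 : r ^ 2 < (16 * K ^ 2 * σ) ^ 2 := pow_lt_pow_left₀ h7 hr (by norm_num)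
  have h9 : (16 * K ^ 2 * σ) ^ 2 ≤ 1666 * K ^ 5 * σ := by
    have a1 : σ ^ 2 ≤ σ := by nlinarith
    have a2 : K ^ 4 ≤ K ^ 5 := pow_le_pow_right₀ hK (by norm_num)
    have a3 : K ^ 4 * σ ^ 2 ≤ K ^ 5 * σ :=
      mul_le_mul a2 a1 (by positivity) (by positivity)
    have a4 : 0 ≤ K ^ 5 * σ := by positivity
    have a5 : (16 * K ^ 2 * σ) ^ 2 = 256 * (K ^ 4 * σ ^ 2) := by ring
    rw [a5]; linarith
  linarith

/-- **no three separated points**: among three points of the strip on the conic two are close. -/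
theorem three {f : Fin 3 → Fin 3 → ℝ} {K δ σ : ℝ} (hK : 1 ≤ K) (hf : ∀ i j, |f i j| ≤ K)
    (hδ : 0 < δ) (hdet : δ ≤ |det3 f|) {n : Fin 3 → ℝ} (hn1 : ∃ i, 1 / K ≤ |n i|) (hσ : 0 ≤ σ)
    (u v : Fin 3 → ℝ) (hu : ∀ i, |u i| ≤ K) (hv : ∀ i, |v i| ≤ K)
    (q : ∀ i, |qf f (u i) (v i)| ≤ σ) (sl : ∀ i, |n 0 + n 1 * u i + n 2 * v i| ≤ σ) :
    ∃ i j : Fin 3, i ≠ j ∧ |u i - u j| ≤ 100 * K ^ 4 * √(σ / δ) ∧
      |v i - v j| ≤ 100 * K ^ 4 * √(σ / δ) := by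
  have hK0 : 0 < K := by linarith
  have hδ' : δ ≤ 6 * K ^ 3 := hdet.trans (det3_leK hf)
  obtain ⟨hr0, hr1, hr2⟩ := rad hK hσ hδ hδ'
  obtain ⟨r, hr⟩ : ∃ r, r = 100 * K ^ 4 * √(σ / δ) := ⟨_, rfl⟩
  rw [← hr] at hr0 hr1 hr2 ⊢
  by_contra hcon
  push Not at hcon
  have far : ∀ i j : Fin 3, i ≠ j → r < |u i - u j| ∨ r < |v i - v j| := by
    intro i j hij
    by_cases h : |u i - u j| ≤ r
    · exact Or.inr (hcon i j hij h)
    · exact Or.inl (not_le.1 h)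
  have h2K : r < 2 * K := by
    rcases far 0 1 (by decide) with h | h
    · have := abs_sub2 (hu 0) (hu 1); linarith
    · have := abs_sub2 (hv 0) (hv 1); linarith
  have h2K' : r ^ 2 < 4 * K ^ 2 := by nlinarith
  have small : 1666 * K ^ 5 * σ < 4 * K ^ 2 := lt_of_le_of_lt hr2 h2K'
  have hk25 : K ^ 2 ≤ K ^ 5 := pow_le_pow_right₀ hK (by norm_num)
  have hk24 : K ^ 2 ≤ K ^ 4 := pow_le_pow_right₀ hK (by norm_num)
  have hσ1 : σ ≤ 1 := by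
    by_contra h
    have h' := not_le.1 h
    have : K ^ 5 * 1 ≤ K ^ 5 * σ := mul_le_mul_of_nonneg_left h'.le (by positivity)
    have h2 : 0 < K ^ 2 := by positivity
    linarith
  have hσK : σ < 1 / (2 * K) := by
    rw [lt_div_iff₀ (by positivity)]
    by_contra h
    have h' := not_lt.1 h
    have h3 : K ^ 4 * 1 ≤ K ^ 4 * (σ * (2 * K)) :=
      mul_le_mul_of_nonneg_left h' (by positivity)
    have h4 : K ^ 4 * (σ * (2 * K)) = 2 * (K ^ 5 * σ) := by ring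
    have h2 : 0 < K ^ 2 := by positivity
    linarith
  have hdiff : ∀ i j, |n 1 * (u i - u j) + n 2 * (v i - v j)| ≤ 2 * σ := by
    intro i j
    have e : n 1 * (u i - u j) + n 2 * (v i - v j) =
      (n 0 + n 1 * u i + n 2 * v i) - (n 0 + n 1 * u j + n 2 * v j) := by ring
    rw [e]
    have := abs_sub2 (sl i) (sl j)
    linarith
  -- one of the velocity coefficients is large
  have hbig : 1 ≤ 4 * K ^ 2 * |n 1| ∨ 1 ≤ 4 * K ^ 2 * |n 2| := by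
    by_contra h
    push Not at h
    obtain ⟨h1, h2⟩ := h
    have c1 : |n 1| < 1 / (4 * K ^ 2) := by
      rw [lt_div_iff₀ (by positivity)]; linarith
    have c2 : |n 2| < 1 / (4 * K ^ 2) := by
      rw [lt_div_iff₀ (by positivity)]; linarith
    have c3 : 1 / (4 * K ^ 2) ≤ 1 / (4 * K) := by
      apply one_div_le_one_div_of_le (by positivity); nlinarith
    have c4 : (1:ℝ) / (4 * K) < 1 / K := by
      apply one_div_lt_one_div_of_lt hK0; linarith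
    obtain ⟨i, hi⟩ := hn1
    have h0 : 1 / K ≤ |n 0| := by
      fin_cases i
      · exact hi
      · exact absurd hi (not_le.2 (by simpa using (c1.trans_le c3).trans c4))
      · exact absurd hi (not_le.2 (by simpa using (c2.trans_le c3).trans c4))
    have e : n 0 = (n 0 + n 1 * u 0 + n 2 * v 0) - (n 1 * u 0 + n 2 * v 0) := by ring
    have d1 : |n 0| ≤ σ + (1 / (4 * K ^ 2) * K + 1 / (4 * K ^ 2) * K) := by
      rw [e]
      exact abs_sub2 (sl 0) (abs_add2 (abs_mul_le c1.le (hu 0)) (abs_mul_le c2.le (hv 0)))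
    have d2 : 1 / (4 * K ^ 2) * K + 1 / (4 * K ^ 2) * K = 1 / (2 * K) := by field_simp; ring
    have d3 : 1 / (2 * K) + 1 / (2 * K) = 1 / K := by field_simp; ring
    rw [d2] at d1
    linarith
  unfold qf at q
  -- conclusion from gaps
  have fin : ∀ (w z : Fin 3 → ℝ) (a b c d e h n0 n1 n2 : ℝ), |a| ≤ K → |b| ≤ K → |c| ≤ K →
      |d| ≤ K → |e| ≤ K → |h| ≤ K → 1 ≤ 4 * K ^ 2 * |n1| → (∀ i, |w i| ≤ K) → (∀ i, |z i| ≤ K) →
      (∀ i, |a + 2 * b * w i + 2 * c * z i + d * w i ^ 2 + 2 * e * w i * z i + h * z i ^ 2| ≤ σ) →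
      (∀ i, |n0 + n1 * w i + n2 * z i| ≤ σ) →
      δ ≤ |a * d * h + 2 * b * e * c - a * e ^ 2 - b ^ 2 * h - c ^ 2 * d| →
      (∀ i j : Fin 3, i ≠ j → r / 2 < |z i - z j|) → False := by
    intro w z a b c d e h n0 n1 n2 ha hb hc hd he hh hn hw hz hq hsl hdt hg
    obtain ⟨s, hs⟩ : ∃ s, s = min |z 0 - z 1| (min |z 0 - z 2| |z 1 - z 2|) := ⟨_, rfl⟩
    have hs1 : r / 2 < s := by
      rw [hs]
      exact lt_min (hg 0 1 (by decide)) (lt_min (hg 0 2 (by decide)) (hg 1 2 (by decide)))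
    have hs0 : 0 < s := by linarith
    have := gap hK hs0 ha hb hc hd he hh hσ hn w z hw hz hq hsl
      (by rw [hs]; exact min_le_left _ _)
      (by rw [hs]; exact (min_le_right _ _).trans (min_le_left _ _))
      (by rw [hs]; exact (min_le_right _ _).trans (min_le_right _ _))
    have h1 : δ * s ^ 2 ≤ 900 * K ^ 8 * σ :=
      le_trans (mul_le_mul_of_nonneg_right hdt (sq_nonneg s)) this
    have h2 : (r / 2) ^ 2 < s ^ 2 := pow_lt_pow_left₀ hs1 (by linarith) (by norm_num)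
    have h3 : δ * (r / 2) ^ 2 < δ * s ^ 2 := mul_lt_mul_of_pos_left h2 hδ
    have h4 : δ * (r / 2) ^ 2 = 2500 * (K ^ 8 * σ) := by
      have : δ * (r / 2) ^ 2 = (r ^ 2 * δ) / 4 := by ring
      rw [this, hr1]; ring
    have h5 : 0 ≤ K ^ 8 * σ := by positivity
    linarith
  unfold det3 at hdet
  rcases le_total |n 2| |n 1| with h21 | h12
  · have hn : 1 ≤ 4 * K ^ 2 * |n 1| := by
      rcases hbig with h | h
      · exact h
      · exact h.trans (mul_le_mul_of_nonneg_left h21 (by positivity))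
    refine fin u v _ _ _ _ _ _ (n 0) (n 1) (n 2) (hf 0 0) (hf 0 1) (hf 0 2) (hf 1 1) (hf 1 2)
      (hf 2 2) hn hu hv q sl hdet ?_
    intro i j hij
    exact far2 hK hσ hσ1 hr0 hr2 hn h21 (hdiff i j) (far i j hij)
  · have hn : 1 ≤ 4 * K ^ 2 * |n 2| := by
      rcases hbig with h | h
      · exact h.trans (mul_le_mul_of_nonneg_left h12 (by positivity))
      · exact h
    refine fin v u (f 0 0) (f 0 2) (f 0 1) (f 2 2) (f 1 2) (f 1 1) (n 0) (n 2) (n 1) (hf 0 0)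
      (hf 0 2) (hf 0 1) (hf 2 2) (hf 1 2) (hf 1 1) hn hv hu ?_ ?_ ?_ ?_
    · intro i
      have e : f 0 0 + 2 * f 0 2 * v i + 2 * f 0 1 * u i + f 2 2 * v i ^ 2 +
        2 * f 1 2 * v i * u i + f 1 1 * u i ^ 2 = f 0 0 + 2 * f 0 1 * u i + 2 * f 0 2 * v i +
        f 1 1 * u i ^ 2 + 2 * f 1 2 * u i * v i + f 2 2 * v i ^ 2 := by ring
      rw [e]; exact q i
    · intro i
      have e : n 0 + n 2 * v i + n 1 * u i = n 0 + n 1 * u i + n 2 * v i := by ring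
      rw [e]; exact sl i
    · have e : f 0 0 * f 2 2 * f 1 1 + 2 * f 0 2 * f 1 2 * f 0 1 - f 0 0 * f 1 2 ^ 2 -
        f 0 2 ^ 2 * f 1 1 - f 0 1 ^ 2 * f 2 2 = f 0 0 * f 1 1 * f 2 2 +
        2 * f 0 1 * f 1 2 * f 0 2 - f 0 0 * f 1 2 ^ 2 - f 0 1 ^ 2 * f 2 2 -
        f 0 2 ^ 2 * f 1 1 := by ring
      rw [e]; exact hdet
    · intro i j hij
      refine far2 hK hσ hσ1 hr0 hr2 hn h12 ?_ (far i j hij).symm
      have := hdiff i j
      rw [add_comm] at this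
      exact this

/-- **two balls** from "no three separated" (any distance on pairs) -/
theorem cover2 {α : Type*} (A : α → Prop) (R : α → α → Prop) (hne : Nonempty α)
    (hrefl : ∀ x, R x x)
    (h3 : ∀ x : Fin 3 → α, (∀ i, A (x i)) → ∃ i j, i ≠ j ∧ R (x i) (x j))
    (hsymm : ∀ x y, R x y → R y x) : ∃ c : Fin 2 → α, ∀ x, A x → ∃ l, R x (c l) := by
  classical
  by_cases h1 : ∃ x, A x
  · obtain ⟨x, hx⟩ := h1
    by_cases h2 : ∃ y, A y ∧ ¬ R x y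
    · obtain ⟨y, hy, hxy⟩ := h2
      refine ⟨![x, y], fun z hz => ?_⟩
      obtain ⟨i, j, hij, hR⟩ := h3 ![x, y, z] (by
        intro i; fin_cases i
        · exact hx
        · exact hy
        · exact hz)
      have hyx : ¬ R y x := fun h => hxy (hsymm _ _ h)
      fin_cases i <;> fin_cases j <;> simp at hij hR
      · exact absurd hR hxy
      · exact ⟨0, by simpa using hsymm _ _ hR⟩
      · exact absurd hR hyx
      · exact ⟨1, by simpa using hsymm _ _ hR⟩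
      · exact ⟨0, by simpa using hR⟩
      · exact ⟨1, by simpa using hR⟩
    · push Not at h2
      exact ⟨fun _ => x, fun z hz => ⟨0, hsymm _ _ (h2 z hz)⟩⟩
  · push Not at h1
    obtain ⟨x⟩ := hne
    exact ⟨fun _ => x, fun z hz => absurd hz (h1 z)⟩

/-- **the wedge, form of `Arc1_880.qf`** -/
theorem wedgeq {f : Fin 3 → Fin 3 → ℝ} {K δ σ : ℝ} (hK : 1 ≤ K) (hf : ∀ i j, |f i j| ≤ K)
    (hδ : 0 < δ) (hdet : δ ≤ |det3 f|) {n : Fin 3 → ℝ} (hn1 : ∃ i, 1 / K ≤ |n i|)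
    (hσ : 0 ≤ σ) :
    ∃ c : Fin 2 → ℝ × ℝ, ∀ x y : ℝ, |x| ≤ K → |y| ≤ K → |qf f x y| ≤ σ →
      |n 0 + n 1 * x + n 2 * y| ≤ σ →
      ∃ l, |x - (c l).1| ≤ 100 * K ^ 4 * √(σ / δ) ∧ |y - (c l).2| ≤ 100 * K ^ 4 * √(σ / δ) := by
  obtain ⟨c, hc⟩ := cover2
    (A := fun p : ℝ × ℝ => |p.1| ≤ K ∧ |p.2| ≤ K ∧ |qf f p.1 p.2| ≤ σ ∧
      |n 0 + n 1 * p.1 + n 2 * p.2| ≤ σ)
    (R := fun p p' => |p.1 - p'.1| ≤ 100 * K ^ 4 * √(σ / δ) ∧
      |p.2 - p'.2| ≤ 100 * K ^ 4 * √(σ / δ)) ⟨(0, 0)⟩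
    (by intro x; simp only [sub_self, abs_zero]; exact ⟨by positivity, by positivity⟩)
    (by
      intro x hx
      exact three hK hf hδ hdet hn1 hσ (fun i => (x i).1) (fun i => (x i).2)
        (fun i => (hx i).1) (fun i => (hx i).2.1) (fun i => (hx i).2.2.1)
        (fun i => (hx i).2.2.2))
    (by
      intro x y h
      exact ⟨by rw [abs_sub_comm]; exact h.1, by rw [abs_sub_comm]; exact h.2⟩)
  exact ⟨c, fun x y hx hy hq hs => hc (x, y) ⟨hx, hy, hq, hs⟩⟩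

/-- **THE WEDGE** (literal of the U4 channel, 05:06Z; the radius is `100 K⁴ √(σ / δ)`). -/
theorem wedge {M : Fin 3 → Fin 3 → ℝ} (hs : ∀ i j, M i j = M j i) {K δ σ : ℝ} (hK : 1 ≤ K)
    (hM : ∀ i j, |M i j| ≤ K) (hδ : 0 < δ) (hdet : δ ≤ |det3 M|) {n : Fin 3 → ℝ}
    (hn1 : ∃ i, 1 / K ≤ |n i|) (hσ : 0 ≤ σ) :
    ∃ V : Fin 2 → Fin 3 → ℝ, (∀ l, V l 0 = 1) ∧ ∀ x : Fin 3 → ℝ, x 0 = 1 → (∀ i, |x i| ≤ K) →
      |∑ i, ∑ j, M i j * (x i * x j)| ≤ σ → |∑ i, n i * x i| ≤ σ →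
      ∃ l, ∀ i, |x i - V l i| ≤ 100 * K ^ 4 * √(σ / δ) := by
  obtain ⟨c, hc⟩ := wedgeq hK hM hδ hdet hn1 hσ
  refine ⟨fun l => ![1, (c l).1, (c l).2], fun l => rfl, fun x h0 hx hq hsl => ?_⟩
  have e1 : ∑ i, ∑ j, M i j * (x i * x j) = qf M (x 1) (x 2) := by
    unfold qf
    simp only [Fin.sum_univ_three]
    rw [h0, hs 1 0, hs 2 0, hs 2 1]
    ring
  have e2 : ∑ i, n i * x i = n 0 + n 1 * x 1 + n 2 * x 2 := by
    simp only [Fin.sum_univ_three]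
    rw [h0]; ring
  rw [e1] at hq
  rw [e2] at hsl
  obtain ⟨l, h1, h2⟩ := hc (x 1) (x 2) (hx 1) (hx 2) hq hsl
  refine ⟨l, fun i => ?_⟩
  fin_cases i
  · simp only [Fin.zero_eta, Fin.isValue, Matrix.cons_val_zero]
    rw [h0, sub_self, abs_zero]
    positivity
  · simpa using h1
  · simpa using h2

end Crest.Agent.R136.Wdg262
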