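import Crest.Agent.R136.Cap3_102

/-!
# R136 (S0187), PLAN 2, (AL): the wedge (helper296)

Lines of a non-degenerate curved sheet which pass near the point `T(ζ)` of a line `T` of the sheet and
whose direction lies in a strip `|n₀ + n₁ v₁ + n₂ v₂| ≤ t` have their velocities in two small balls.
-/

set_option autoImplicit false

namespace Crest.Agent.R136.Wdg296

open Crest.Agent.R136.Sh605 Crest.Agent.R136.Arc880 Crest.Agent.R136.Tl102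

/-- a non-degenerate conic and a strip: two balls -/
theorem strip_ball {f : Fin 3 → Fin 3 → ℝ} (hf : ∀ i j, |f i j| ≤ 1) {κ δ β t : ℝ}
    (hκ : κ ≤ |det3 f|) (hκ0 : 0 ≤ κ) (hκ1 : κ ≤ 1) (hβ0 : 0 < β) (hβ1 : β ≤ 1)
    (hδ : 244 * δ ≤ (κ * β ^ 2 / 216) ^ 3) (ht : t < (κ * β ^ 2 / 216) ^ 3 / 768)
    {e1 e2 c0 : ℝ} (he : 1 ≤ |e1| + |e2|) {X : Set (ℝ × ℝ)}
    (hX : ∀ p ∈ X, |p.1| ≤ 1 ∧ |p.2| ≤ 1 ∧ |qf f p.1 p.2| ≤ δ)
    (hst : ∀ p ∈ X, |e1 * p.1 + e2 * p.2 - c0| ≤ t) :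
    ∃ c : Fin 2 → ℝ × ℝ, ∀ p ∈ X, ∃ i, dist p (c i) < β := by
  have sep : ∀ p p' : ℝ × ℝ, β ≤ dist p p' → β ^ 2 ≤ (p'.1 - p.1) ^ 2 + (p'.2 - p.2) ^ 2 := by
    intro p p' h
    rw [Prod.dist_eq, Real.dist_eq, Real.dist_eq] at h
    rcases le_max_iff.1 h with h | h
    · exact sep_fst hβ0.le h
    · have := sep_fst (y := p.1) (y' := p'.1) hβ0.le h
      linarith
  apply coverN 2
  rintro ⟨p, hp, hsep⟩
  have hβ2 : β ^ 2 ≤ 1 := pow_le_one₀ hβ0.le hβ1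
  obtain ⟨a1, a2, a3⟩ := hX _ (hp 0)
  obtain ⟨b1, b2, b3⟩ := hX _ (hp 1)
  obtain ⟨d1, d2, d3⟩ := hX _ (hp 2)
  have := strip hf hκ hκ0 hκ1 hβ2 a1 a2 b1 b2 d1 d2 a3 b3 d3
    (sep _ _ (hsep 0 1 (by decide))) (sep _ _ (hsep 0 2 (by decide)))
    (sep _ _ (hsep 1 2 (by decide))) hδ he (hst _ (hp 0)) (hst _ (hp 1)) (hst _ (hp 2))
  linarith

/-- lateral velocities are bounded, and lie on the conic of the fan -/
theorem fan_near {e : Fin 3 → V3} {c : Ln4} {w : V3} {q : ℝ → V3 → ℝ} {z0 ρ a : ℝ}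
    (S : StP e c w q z0 ρ) (hρ : 0 ≤ ρ) {T : Ln4} (hT : InSheet T e c w q a z0 ρ)
    {b0 b1 : V3} {G : QF} (hE : IsExp q e w T z0 ρ b0 b1 G) (hκ : 0 < kap b0 b1 G)
    {r ζ : ℝ} (hr : 0 ≤ r) (hsm : 400000 * (r + a / (w 0 * kap b0 b1 G)) ≤ 1)
    (hζ : 0 ≤ ζ) (hζ' : ζ ≤ 1) {L : Ln4} (hL : InSheet L e c w q a z0 ρ)
    (k1 : |rp e w z0 ρ T L ζ 1| ≤ r) (k2 : |rp e w z0 ρ T L ζ 2| ≤ r) :
    |vel e w ρ T L 1 / 4| ≤ 1 ∧ |vel e w ρ T L 2 / 4| ≤ 1 ∧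
      |qf (fan (shB0 b0) (scB1 (kap b0 b1 G) b0 b1) (scG (kap b0 b1 G) b0 G) ζ)
        (vel e w ρ T L 1 / 4) (vel e w ρ T L 2 / 4)| ≤
        5000000 * (r + a / (w 0 * kap b0 b1 G)) := by
  have hTK : ∀ z, z0 ≤ z → z ≤ z0 + ρ → InK e c w z (T.pos z) := fun z h1 h2 => (hT z h1 h2).1
  have N := hE.nrmC S hρ hTK
  obtain ⟨g1, g2, g3, g4, g5, -, -, -, -⟩ := N.b1_le
  have hb0 : b0 0 ≠ 0 := by linarith
  have hw0 := S.pos 0
  have hwne : ∀ i, w i ≠ 0 := fun i => (S.pos i).ne'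
  have hz : ∀ ζ, 0 ≤ ζ → ζ ≤ 1 → z0 ≤ z0 + ρ * ζ ∧ z0 + ρ * ζ ≤ z0 + ρ := by
    intro ζ h1 h2
    constructor
    · nlinarith
    · nlinarith
  have ha : 0 ≤ a := (abs_nonneg _).trans (hT z0 le_rfl (by linarith)).2
  set κ := kap b0 b1 G with hκdef
  have hwk : 0 < w 0 * κ := mul_pos hw0 hκ
  set A := a / (w 0 * κ) with hAd
  have hA0 : 0 ≤ A := by positivity
  have hr40 : r ≤ 1 / 40 := by linarith
  have hA2 : A ≤ 1 / 2 := by linarith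
  obtain ⟨d1, d2⟩ := captured S hρ hT hL hE hκ hA2 hζ hζ' hr40 k1 k2
  have hx : ∀ ζ, 0 ≤ ζ → ζ ≤ 1 → ∀ k, |rp e w z0 ρ T L ζ k| ≤ 2 := by
    intro ζ hζ hζ' k
    obtain ⟨z1, z2⟩ := hz ζ hζ hζ'
    have k1 := (hL _ z1 z2).1 k
    have k2 := (hT _ z1 z2).1 k
    have hwk := S.pos k
    have e1 : dt (e k) (L.pos (z0 + ρ * ζ) - T.pos (z0 + ρ * ζ)) =
        dt (e k) (L.pos (z0 + ρ * ζ) - c.pos (z0 + ρ * ζ)) -
          dt (e k) (T.pos (z0 + ρ * ζ) - c.pos (z0 + ρ * ζ)) := by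
      rw [dt_sub, dt_sub, dt_sub]; ring
    change |dt (e k) (L.pos (z0 + ρ * ζ) - T.pos (z0 + ρ * ζ)) / w k| ≤ 2
    rw [abs_div, abs_of_pos hwk, div_le_iff₀ hwk, e1]
    exact (abs_sub _ _).trans (by linarith)
  have hv : ∀ k, |vel e w ρ T L k / 4| ≤ 1 := by
    intro k
    have e1 := rp_affine e w z0 ρ T L 0 1 k
    have e2 : vel e w ρ T L k = rp e w z0 ρ T L 1 k - rp e w z0 ρ T L 0 k := by
      rw [e1]; ring
    rw [abs_div, abs_of_pos (by norm_num : (0 : ℝ) < 4), div_le_one (by norm_num), e2]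
    refine (abs_sub _ _).trans ?_
    have := hx 1 zero_le_one le_rfl k
    have := hx 0 le_rfl zero_le_one k
    linarith
  refine ⟨hv 1, hv 2, ?_⟩
  exact qf_captured (D := sD κ b0 (rp e w z0 ρ T L ζ))
    (t := sD κ b0 (vel e w ρ T L)) N hκ hζ hζ' hr hA0 (by linarith) d1 d2 (by
      intro ζ hζ hζ'
      obtain ⟨z1, z2⟩ := hz ζ hζ hζ'
      rw [sD_pos]
      have h1 := hE.at S.ortho hwne hκ.ne' b0 ζ (L.pos (z0 + ρ * ζ))
      rw [gl_own hb0, gl_own1, gM_own] at h1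
      have q1 := (hL _ z1 z2).2
      have q2 := (hT _ z1 z2).2
      have h2 : w 0 * κ * |Fq (shB0 b0) (scB1 κ b0 b1) (scG κ b0 G) ζ
          (sD κ b0 (rp e w z0 ρ T L ζ))| ≤ 2 * a := by
        rw [← abs_of_pos hwk, ← abs_mul, mul_assoc]
        have e1 : w 0 * (κ * Fq (shB0 b0) (scB1 κ b0 b1) (scG κ b0 G) ζ
            (sD κ b0 (rp e w z0 ρ T L ζ))) =
            q (z0 + ρ * ζ) (L.pos (z0 + ρ * ζ)) - q (z0 + ρ * ζ) (T.pos (z0 + ρ * ζ)) := by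
          rw [h1]; unfold rp; ring
        rw [e1]
        exact (abs_sub _ _).trans (by linarith)
      have h3 : 2 * A * (w 0 * κ) = 2 * a := by rw [hAd]; field_simp
      exact le_of_mul_le_mul_left (by linarith) hwk)

/-- **the wedge**: two balls of radius `4 β` -/
theorem wedge {e : Fin 3 → V3} {c : Ln4} {w : V3} {q : ℝ → V3 → ℝ} {z0 ρ a : ℝ}
    (S : StP e c w q z0 ρ) (hρ : 0 ≤ ρ) {T : Ln4} (hT : InSheet T e c w q a z0 ρ)
    {b0 b1 : V3} {G : QF} (hE : IsExp q e w T z0 ρ b0 b1 G) (hκ : 0 < kap b0 b1 G)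
    {κd β r t K ζ : ℝ} (hκd : 0 < κd) (hκd1 : κd ≤ 1) (hβ : 0 < β) (hβ1 : β ≤ 1)
    (hζ : 0 ≤ ζ) (hζ' : ζ ≤ 1)
    (hnd : κd ≤ |det3 (fan (shB0 b0) (scB1 (kap b0 b1 G) b0 b1) (scG (kap b0 b1 G) b0 G) ζ)|)
    (hr : 0 ≤ r) (hK : 1 ≤ K)
    (hsm : 2 * 10 ^ 9 * (r + a / (w 0 * kap b0 b1 G)) ≤ (κd * β ^ 2 / 216) ^ 3)
    (ht : 4096 * (K * t) ≤ (κd * β ^ 2 / 216) ^ 3)
    {n : Fin 3 → ℝ} (hn : ∃ i, 1 / K ≤ |n i|) :
    ∃ p : Fin 2 → ℝ × ℝ, ∀ L : Ln4, InSheet L e c w q a z0 ρ →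
      |rp e w z0 ρ T L ζ 1| ≤ r → |rp e w z0 ρ T L ζ 2| ≤ r →
      |n 0 + n 1 * vel e w ρ T L 1 + n 2 * vel e w ρ T L 2| ≤ t →
        ∃ i, dist (vel e w ρ T L 1, vel e w ρ T L 2) (p i) < 4 * β := by
  have ha : 0 ≤ a := (abs_nonneg _).trans (hT z0 le_rfl (by linarith)).2
  have hTK : ∀ z, z0 ≤ z → z ≤ z0 + ρ → InK e c w z (T.pos z) := fun z h1 h2 => (hT z h1 h2).1
  have N := hE.nrmC S hρ hTK
  have hw0 := S.pos 0
  set κ := kap b0 b1 G with hκdef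
  have hwk : 0 < w 0 * κ := mul_pos hw0 hκ
  set A := a / (w 0 * κ) with hAd
  have hA0 : 0 ≤ A := by positivity
  have hβ2 : β ^ 2 ≤ 1 := pow_le_one₀ hβ.le hβ1
  set θ := κd * β ^ 2 / 216 with hθ
  have hθ0 : 0 < θ := by rw [hθ]; positivity
  have hθ1 : θ ≤ 1 / 216 := by
    have : κd * β ^ 2 ≤ 1 * 1 := mul_le_mul hκd1 hβ2 (by positivity) (by norm_num)
    rw [hθ]; linarith
  have hθ31 : θ ^ 3 ≤ 1 := pow_le_one₀ hθ0.le (by linarith)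
  have hθ3 : 0 < θ ^ 3 := by positivity
  have hKpos : 0 < K := by linarith
  by_cases hs : |n 1| + |n 2| < 1 / (16 * K)
  · -- the strip is empty
    refine ⟨fun _ => (0, 0), fun L hL k1 k2 k3 => ?_⟩
    exfalso
    obtain ⟨v1, v2, -⟩ := fan_near S hρ hT hE hκ hr (by linarith) hζ hζ' hL k1 k2
    have h16 : 1 / (16 * K) ≤ 1 / K := by
      apply one_div_le_one_div_of_le hKpos; linarith
    have n0 : 1 / K ≤ |n 0| := by
      obtain ⟨i, hi⟩ := hn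
      fin_cases i
      · exact hi
      · exfalso
        have h1 : 1 / K ≤ |n 1| := hi
        have := abs_nonneg (n 2)
        linarith
      · exfalso
        have h1 : 1 / K ≤ |n 2| := hi
        have := abs_nonneg (n 1)
        linarith
    rw [abs_div, abs_of_pos (by norm_num : (0 : ℝ) < 4), div_le_one (by norm_num)] at v1 v2
    have m1 : |n 1 * vel e w ρ T L 1| ≤ |n 1| * 4 := by
      rw [abs_mul]; exact mul_le_mul_of_nonneg_left v1 (abs_nonneg _)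
    have m2 : |n 2 * vel e w ρ T L 2| ≤ |n 2| * 4 := by
      rw [abs_mul]; exact mul_le_mul_of_nonneg_left v2 (abs_nonneg _)
    have e0 : n 0 = (n 0 + n 1 * vel e w ρ T L 1 + n 2 * vel e w ρ T L 2) -
        n 1 * vel e w ρ T L 1 - n 2 * vel e w ρ T L 2 := by ring
    have m0 : |n 0| ≤ t + |n 1| * 4 + |n 2| * 4 := by
      rw [e0]
      exact abs_sub2 (abs_sub2 k3 m1) m2
    have e16 : 1 / (16 * K) = 1 / K / 16 := by
      rw [div_div, mul_comm]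
    rw [e16] at hs
    have h1 : 3 / 4 * (1 / K) ≤ t := by linarith
    have h2 : 3 / 4 ≤ K * t := by
      calc (3 : ℝ) / 4 = K * (3 / 4 * (1 / K)) := by field_simp
        _ ≤ K * t := mul_le_mul_of_nonneg_left h1 hKpos.le
    linarith
  · push Not at hs
    set s := |n 1| + |n 2| with hsd
    have hspos : 0 < s := lt_of_lt_of_le (by positivity) hs
    set X : Set (ℝ × ℝ) := {p | ∃ L : Ln4, InSheet L e c w q a z0 ρ ∧ |rp e w z0 ρ T L ζ 1| ≤ r ∧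
      |rp e w z0 ρ T L ζ 2| ≤ r ∧ |n 0 + n 1 * vel e w ρ T L 1 + n 2 * vel e w ρ T L 2| ≤ t ∧
      p = (vel e w ρ T L 1 / 4, vel e w ρ T L 2 / 4)} with hXd
    have hsK : 1 ≤ 16 * K * s := by
      have := mul_le_mul_of_nonneg_left hs (by positivity : 0 ≤ 16 * K)
      rwa [mul_one_div, div_self (by positivity : 16 * K ≠ 0)] at this
    obtain ⟨p, hp⟩ := strip_ball (κ := κd) (δ := 5000000 * (r + A)) (β := β) (t := 4 * (K * t))
      (e1 := n 1 / s) (e2 := n 2 / s) (c0 := -n 0 / (4 * s)) (X := X) (fan_le N hκ hζ hζ').1 hnd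
      hκd.le hκd1 hβ hβ1 (by rw [← hθ]; linarith) (by rw [← hθ]; linarith)
      (by
        rw [abs_div, abs_div, abs_of_pos hspos, ← add_div, ← hsd, div_self hspos.ne'])
      (by
        rintro p ⟨L, hL, k1, k2, -, rfl⟩
        exact fan_near S hρ hT hE hκ hr (by linarith) hζ hζ' hL k1 k2)
      (by
        rintro p ⟨L, hL, k1, k2, k3, rfl⟩
        have e1 : n 1 / s * (vel e w ρ T L 1 / 4) + n 2 / s * (vel e w ρ T L 2 / 4) -
            -n 0 / (4 * s) = (n 0 + n 1 * vel e w ρ T L 1 + n 2 * vel e w ρ T L 2) / (4 * s) := by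
          field_simp
          ring
        change |n 1 / s * (vel e w ρ T L 1 / 4) + n 2 / s * (vel e w ρ T L 2 / 4) -
            -n 0 / (4 * s)| ≤ _
        rw [e1, abs_div, abs_of_pos (by positivity : 0 < 4 * s), div_le_iff₀ (by positivity)]
        refine k3.trans ?_
        have ht0 : 0 ≤ t := (abs_nonneg _).trans k3
        calc t = t * 1 := (mul_one t).symm
          _ ≤ t * (16 * K * s) := mul_le_mul_of_nonneg_left hsK ht0
          _ = 4 * (K * t) * (4 * s) := by ring)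
    refine ⟨fun i => (4 * (p i).1, 4 * (p i).2), fun L hL k1 k2 k3 => ?_⟩
    obtain ⟨i, hi⟩ := hp _ ⟨L, hL, k1, k2, k3, rfl⟩
    refine ⟨i, ?_⟩
    rw [Prod.dist_eq, max_lt_iff, Real.dist_eq, Real.dist_eq] at hi ⊢
    obtain ⟨i1, i2⟩ := hi
    have f1 : ∀ x y : ℝ, |x / 4 - y| < β → |x - 4 * y| < 4 * β := by
      intro x y h
      have : x - 4 * y = 4 * (x / 4 - y) := by ring
      rw [this, abs_mul, abs_of_pos (by norm_num : (0 : ℝ) < 4)]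
      linarith
    exact ⟨f1 _ _ i1, f1 _ _ i2⟩

end Crest.Agent.R136.Wdg296
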