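import Crest.Agent.R136.Fl3_808

/-!
# R136 (S0187): D-max for flat boxes, wider boxes (helper413)

`dmaxB_wide` : D-max for the flat boxes of wide half-width `≤ ρ` gives D-max for those of wide
half-width `≤ K ρ`, with the constant `(2 K + 1) ^ 6`: the lines of a big box are sorted by the
cells of their two end positions, the lines of one cell lie in one small box.
-/

set_option autoImplicit false
set_option linter.unusedVariables false

namespace Crest.Agent.R136.Wid413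

open Finset Crest.Agent.R136.Sh605 Crest.Agent.R136.Fl808

noncomputable section

theorem capB_mono {q0 q1 q2 a w1 w2 a' w1' w2' : ℝ} (h0 : 0 ≤ q0) (h1 : 0 ≤ q1) (h2 : 0 ≤ q2)
    (ha : 0 < a) (hw1 : 0 < w1) (hw2 : 0 < w2) (ha' : a ≤ a') (hw1' : w1 ≤ w1') (hw2' : w2 ≤ w2') :
    capB q0 q1 q2 a w1 w2 ≤ capB q0 q1 q2 a' w1' w2' := by
  unfold capB
  have e0 : a ^ (1 + q0) ≤ a' ^ (1 + q0) := Real.rpow_le_rpow ha.le ha' (by linarith)
  have e1 : w1 ^ (1 + q1) ≤ w1' ^ (1 + q1) := Real.rpow_le_rpow hw1.le hw1' (by linarith)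
  have e2 : w2 ^ (1 + q2) ≤ w2' ^ (1 + q2) := Real.rpow_le_rpow hw2.le hw2' (by linarith)
  have p1 : 0 ≤ w1 ^ (1 + q1) := Real.rpow_nonneg hw1.le _
  have p2 : 0 ≤ w2 ^ (1 + q2) := Real.rpow_nonneg hw2.le _
  have p0' : 0 ≤ a' ^ (1 + q0) := Real.rpow_nonneg (ha.le.trans ha') _
  have p2' : 0 ≤ w2' ^ (1 + q2) := Real.rpow_nonneg (hw2.le.trans hw2') _
  exact mul_le_mul (mul_le_mul e0 e2 p2 p0') e1 p1 (mul_nonneg p0' p2')

/-- an affine function bounded at the two ends of an interval is bounded on it -/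
theorem aff_le {A B z0 ρ s z : ℝ} (hρ : 0 < ρ) (h0 : |A + z0 * B| ≤ s)
    (h1 : |A + (z0 + ρ) * B| ≤ s) (hz0 : z0 ≤ z) (hz1 : z ≤ z0 + ρ) : |A + z * B| ≤ s := by
  rw [abs_le] at h0 h1 ⊢
  have h2 : 0 ≤ z - z0 := by linarith
  have h3 : 0 ≤ z0 + ρ - z := by linarith
  have e : ρ * (A + z * B) = (z0 + ρ - z) * (A + z0 * B) + (z - z0) * (A + (z0 + ρ) * B) := by
    ring
  have h4 := mul_le_mul_of_nonneg_left h0.1 h3
  have h5 := mul_le_mul_of_nonneg_left h0.2 h3
  have h6 := mul_le_mul_of_nonneg_left h1.1 h2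
  have h7 := mul_le_mul_of_nonneg_left h1.2 h2
  constructor
  · have : ρ * (-s) ≤ ρ * (A + z * B) := by rw [e]; linarith
    exact le_of_mul_le_mul_left this hρ
  · have : ρ * (A + z * B) ≤ ρ * s := by rw [e]; linarith
    exact le_of_mul_le_mul_left this hρ

/-- the same for the displacement of two lines -/
theorem pos_aff (e : V3) (t l : Ln4) (z : ℝ) :
    dt e (t.pos z - l.pos z) = dt e (t.p - l.p) + z * dt e (t.v - l.v) := by
  simp only [dt, Ln4.pos, Pi.sub_apply]; ring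

theorem inB_of_ends {t l : Ln4} {e : Fin 3 → V3} {s : V3} {z0 ρ : ℝ} (hρ : 0 < ρ)
    (h0 : ∀ i, |dt (e i) (t.pos z0 - l.pos z0)| ≤ s i)
    (h1 : ∀ i, |dt (e i) (t.pos (z0 + ρ) - l.pos (z0 + ρ))| ≤ s i) : InB t l e s z0 ρ := by
  intro z hz0 hz1 i
  have k0 := h0 i
  have k1 := h1 i
  rw [pos_aff] at k0 k1 ⊢
  exact aff_le hρ k0 k1 hz0 hz1

/-- the cell of a number of `[-s, s]` in the mesh `s'` -/
def cel (s s' u : ℝ) : ℕ := ⌊(u + s) / s'⌋₊

theorem cel_lt {s s' u K : ℝ} (hs' : 0 < s') (hs : s ≤ K * s') (hu : |u| ≤ s) :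
    cel s s' u < ⌊2 * K⌋₊ + 1 := by
  unfold cel
  rw [Nat.lt_add_one_iff]
  apply Nat.floor_le_floor
  rw [div_le_iff₀ hs']
  have := (abs_le.1 hu).2
  linarith

theorem cel_eq {s s' u v : ℝ} (hs' : 0 < s') (hu : |u| ≤ s) (hv : |v| ≤ s)
    (h : cel s s' u = cel s s' v) : |u - v| ≤ s' := by
  unfold cel at h
  have h1 : 0 ≤ (u + s) / s' := div_nonneg (by linarith [(abs_le.1 hu).1]) hs'.le
  have h2 : 0 ≤ (v + s) / s' := div_nonneg (by linarith [(abs_le.1 hv).1]) hs'.le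
  have a1 := Nat.floor_le h1
  have a2 := Nat.lt_floor_add_one ((u + s) / s')
  have b1 := Nat.floor_le h2
  have b2 := Nat.lt_floor_add_one ((v + s) / s')
  rw [h] at a1 a2
  set m : ℝ := (⌊(v + s) / s'⌋₊ : ℝ) with hm
  rw [le_div_iff₀ hs'] at a1 b1
  rw [div_lt_iff₀ hs'] at a2 b2
  rw [abs_le]
  constructor <;> nlinarith

open Classical in
/-- **wider boxes** -/
theorem dmaxB_wide {ι : Type*} {T : Finset ι} {L : ι → Ln4} {z0 ρ D q0 q1 q2 r0 K : ℝ}
    (H : DMaxB T L z0 ρ D q0 q1 q2 r0 ρ) (h0 : 0 ≤ q0) (h1 : 0 ≤ q1) (h2 : 0 ≤ q2)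
    (hr0 : 0 < r0) (hr : r0 ≤ ρ) (hK : 1 ≤ K) :
    DMaxB T L z0 ρ ((2 * K + 1) ^ 6 * D) q0 q1 q2 r0 (K * ρ) := by
  have hρ : 0 < ρ := hr0.trans_le hr
  -- `0 ≤ D`
  have hD : 0 ≤ D := by
    have hO : Ortho (fun i j => if i = j then (1 : ℝ) else 0) := by
      intro i j
      fin_cases i <;> fin_cases j <;> simp [dt]
    have := H _ ⟨0, 0⟩ ρ ρ ρ hO hr le_rfl le_rfl le_rfl
    by_contra hcon
    push Not at hcon
    have h3 := mul_neg_of_neg_of_pos hcon (capB_pos (q0 := q0) (q1 := q1) (q2 := q2) hρ hρ hρ)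
    have h4 : (0:ℝ) ≤ ((T.filter fun t => InB (L t) ⟨0, 0⟩
      (fun i j => if i = j then (1 : ℝ) else 0) ![ρ, ρ, ρ] z0 ρ).card : ℝ) := Nat.cast_nonneg _
    linarith
  intro n l a w1 w2 hn ha haw hw hwK
  have pa : 0 < a := hr0.trans_le ha
  have pw2 : 0 < w2 := pa.trans_le haw
  have pw1 : 0 < w1 := pw2.trans_le hw
  set S := T.filter fun t => InB (L t) l n ![a, w1, w2] z0 ρ with hS
  -- the small box
  set s : V3 := ![a, w1, w2] with hs
  set s' : V3 := ![min a ρ, min w1 ρ, min w2 ρ] with hs'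
  have hsp : ∀ i, 0 < s' i := by
    intro i
    fin_cases i
    · exact lt_min pa hρ
    · exact lt_min pw1 hρ
    · exact lt_min pw2 hρ
  have hmin : ∀ w : ℝ, 0 < w → w ≤ K * ρ → w ≤ K * min w ρ := by
    intro w hw0 hwk
    rcases le_total w ρ with h | h
    · rw [min_eq_left h]; nlinarith
    · rw [min_eq_right h]; exact hwk
  have hsK : ∀ i, s i ≤ K * s' i := by
    intro i
    fin_cases i
    · exact hmin a pa (by linarith)
    · exact hmin w1 pw1 hwK
    · exact hmin w2 pw2 (by linarith)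
  -- the codes
  set cd : ι → Fin 3 → ℕ × ℕ := fun t i =>
    (cel (s i) (s' i) (dt (n i) ((L t).pos z0 - l.pos z0)),
      cel (s i) (s' i) (dt (n i) ((L t).pos (z0 + ρ) - l.pos (z0 + ρ)))) with hcd
  set N := ⌊2 * K⌋₊ + 1 with hN
  set C : Finset (Fin 3 → ℕ × ℕ) := Fintype.piFinset fun _ => range N ×ˢ range N with hC
  have hcard : (C.card : ℝ) ≤ (2 * K + 1) ^ 6 := by
    have e1 : C.card = (N * N) ^ 3 := by
      rw [hC, Fintype.card_piFinset]
      simp
    have e2 : (N : ℝ) ≤ 2 * K + 1 := by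
      rw [hN]; push_cast
      linarith [Nat.floor_le (show (0:ℝ) ≤ 2 * K by linarith)]
    rw [e1]
    push_cast
    calc ((N : ℝ) * N) ^ 3 = (N : ℝ) ^ 6 := by ring
      _ ≤ (2 * K + 1) ^ 6 := pow_le_pow_left₀ (Nat.cast_nonneg _) e2 6
  have hmap : ∀ t ∈ S, cd t ∈ C := by
    intro t ht
    rw [hS, mem_filter] at ht
    rw [hC, Fintype.mem_piFinset]
    intro i
    rw [mem_product, mem_range, mem_range]
    exact ⟨cel_lt (hsp i) (hsK i) (ht.2 z0 le_rfl (by linarith) i),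
      cel_lt (hsp i) (hsK i) (ht.2 (z0 + ρ) (by linarith) le_rfl i)⟩
  have hfib : ∀ c ∈ C, ((S.filter fun t => cd t = c).card : ℝ) ≤ D * capB q0 q1 q2 a w1 w2 := by
    intro c hc
    rcases (S.filter fun t => cd t = c).eq_empty_or_nonempty with hE | ⟨t0, ht0⟩
    · rw [hE]
      simp only [card_empty, Nat.cast_zero]
      exact mul_nonneg hD (capB_pos pa pw1 pw2).le
    · have ht0' := ht0
      rw [mem_filter] at ht0'
      obtain ⟨hS0, hc0⟩ := ht0'
      have hb0 := (mem_filter.1 hS0).2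
      have key : ∀ t ∈ S.filter fun t => cd t = c, InB (L t) (L t0) n s' z0 ρ := by
        intro t ht
        rw [mem_filter] at ht
        obtain ⟨hSt, hct⟩ := ht
        have hbt := (mem_filter.1 hSt).2
        have hcc : cd t = cd t0 := by rw [hct, hc0]
        have hdiff : ∀ (i : Fin 3) (z : ℝ), dt (n i) ((L t).pos z - (L t0).pos z) =
            dt (n i) ((L t).pos z - l.pos z) - dt (n i) ((L t0).pos z - l.pos z) := by
          intro i z
          simp only [dt, Pi.sub_apply]; ring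
        apply inB_of_ends hρ
        · intro i
          rw [hdiff]
          have := congrArg Prod.fst (congrFun hcc i)
          exact cel_eq (hsp i) (hbt z0 le_rfl (by linarith) i) (hb0 z0 le_rfl (by linarith) i) this
        · intro i
          rw [hdiff]
          have := congrArg Prod.snd (congrFun hcc i)
          exact cel_eq (hsp i) (hbt (z0 + ρ) (by linarith) le_rfl i)
            (hb0 (z0 + ρ) (by linarith) le_rfl i) this
      have h3 : ((S.filter fun t => cd t = c).card : ℝ) ≤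
          ((T.filter fun t => InB (L t) (L t0) n s' z0 ρ).card : ℝ) := by
        refine Nat.cast_le.2 (card_le_card fun t ht => ?_)
        have hk := key t ht
        rw [mem_filter] at ht ⊢
        exact ⟨(mem_filter.1 ht.1).1, hk⟩
      have h4 := H n (L t0) (min a ρ) (min w1 ρ) (min w2 ρ) hn (le_min ha hr)
        (min_le_min_right _ haw) (min_le_min_right _ hw) (min_le_right _ _)
      refine h3.trans (h4.trans (mul_le_mul_of_nonneg_left ?_ hD))
      exact capB_mono h0 h1 h2 (lt_min pa hρ) (lt_min pw1 hρ) (lt_min pw2 hρ) (min_le_left _ _)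
        (min_le_left _ _) (min_le_left _ _)
  have e1 : (S.card : ℝ) = ∑ c ∈ C, ((S.filter fun t => cd t = c).card : ℝ) := by
    rw [card_eq_sum_card_fiberwise (f := cd) (t := C) hmap]
    push_cast
    rfl
  rw [e1]
  calc ∑ c ∈ C, ((S.filter fun t => cd t = c).card : ℝ)
      ≤ ∑ c ∈ C, D * capB q0 q1 q2 a w1 w2 := sum_le_sum hfib
    _ = C.card * (D * capB q0 q1 q2 a w1 w2) := by rw [sum_const, nsmul_eq_mul]
    _ ≤ (2 * K + 1) ^ 6 * (D * capB q0 q1 q2 a w1 w2) :=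
        mul_le_mul_of_nonneg_right hcard (mul_nonneg hD (capB_pos pa pw1 pw2).le)
    _ = (2 * K + 1) ^ 6 * D * capB q0 q1 q2 a w1 w2 := by ring

end

end Crest.Agent.R136.Wid413
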