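import Crest.Agent.R136.Bas3_938

/-!
# R136 (helper887): windows with `S = {0}` need no condition on the groups

At the resonances a flag slot can be parallel to `z`, and then the density condition of
`PtB.win` fails for `S = {0}` with everything resolved.  It is not needed: by the own loss of the
height `lam (c0 + top) ≤ lam (c0 + lin) - top 0`, by sharpness
`lam c0 - top 0 ≤ lam (c0 + lev)`.

* `PtB.dens0` : density and Frostman conditions for `S = {0}`
* `PtB.win_of_dens` : window, pruned set, model, raw twist from the density condition (any `S`)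
* **`PtB.win0`** : the case `S = {0}`, visible slots of the surface unresolved
-/

set_option autoImplicit false
set_option linter.unusedSectionVars false
set_option linter.unusedVariables false

open Filter Topology

namespace Crest.Agent.R136.Win887

open Finset Crest.Agent.R138.Ex926 Crest.Agent.R136.Net191 Crest.Agent.R136.Gf356
open Crest.Agent.R136.Qg926 Crest.Agent.R136.Dg219 Crest.Agent.R136.Aw413
open Crest.Agent.R136.NetW191 Crest.Agent.R136.EvW938 Crest.Agent.R136.PrW464
open Crest.Agent.R136.LadW697 Crest.Agent.R136.AwJ774 Crest.Agent.R136.Bas938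
open Crest.Agent.R136.K2S774 (cn)

section pt

variable {B Bo : Base} {I J : ∀ n : ℕ, Finset (ℕ × ℝ)}
  {co : ∀ n : ℕ, ℕ × ℝ → ℕ × ℝ → Fin 18 → ℝ} {kp : ℕ → ℝ} {u : ℕ → Fin 18 → ℝ}
  {F : ∀ n : ℕ, ℕ × ℝ → FW} {Ma : Mons 18} {Dr : Set (Fin 18)} {C : ℝ}
  {lam : (Fin 18 → ℝ) → ℝ} {a b : Fin 18 → ℝ} {A : ℝ × ℝ} {φ : ℕ → (Fin 18 → ℝ) → ℝ}
  {r : ℕ → ℝ} {κ : Fin 18 → ℝ} {V Tw : Fin 18 → Prop}

/-- the offset `y * n0` is natural and single heights may be added -/
theorem off_mem (hA : ActM Ma Dr) {n0 nt : Fin 18 → ℕ} {rr : ℕ} {S : Finset (Fin 18)}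
    (hd : WDat n0 nt rr S) {y : ℝ} (hy : 0 ≤ y) :
    scV y n0 ∈ coneM Ma ∧ ∀ t : ℝ, 0 ≤ t → scV y n0 + Pi.single (0 : Fin 18) t ∈ coneM Ma := by
  constructor
  · rw [hA.cone]
    intro k _ l hl _
    rw [sum_scV]
    exact mul_le_mul_of_nonneg_left (by exact_mod_cast hd.off k l hl) hy
  · intro t ht
    rw [hA.cone]
    intro k _ l hl _
    rw [sum_add', sum_scV]
    have h1 : (0:ℝ) ≤ (l.map (Pi.single (0 : Fin 18) t : Fin 18 → ℝ)).sum := by
      refine List.sum_nonneg fun x hx => ?_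
      obtain ⟨i, _, rfl⟩ := List.mem_map.1 hx
      by_cases hi : i = 0
      · subst hi; simpa using ht
      · rw [Pi.single_eq_of_ne hi]
    have h2 : y * (n0 k : ℝ) ≤ y * ((l.map n0).sum : ℕ) :=
      mul_le_mul_of_nonneg_left (by exact_mod_cast hd.off k l hl) hy
    have h3 : k ≠ 0 := by
      rintro rfl
      have : mlW 0 = [] := by decide
      rw [this] at hl
      exact absurd hl (List.not_mem_nil)
    rw [Pi.add_apply, Pi.single_eq_of_ne h3, add_zero]
    unfold scV
    linarith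

/-- **density and Frostman conditions for `S = {0}`**, no condition on the groups -/
theorem PtB.dens0 (h : PtB B Bo I J co kp u F Ma Dr C lam a b A φ r κ V Tw)
    {n0 nt : Fin 18 → ℕ} {rr : ℕ} (hd : WDat n0 nt rr {0}) {y : ℝ} (hy : 0 < y)
    (hV : ∀ k, V k → n0 k + nt k = 0) :
    (wst Ma n0 nt rr {0} y).Dens (fun p => lam (scV y n0 + p) - lam (scV y n0)) 1 y where
  dens := by
    have hst := wst_ok h.act hd hy.le
    have h0 := (off_mem h.act hd hy.le).1
    have m1 : scV y n0 + scV y nt ∈ coneM Ma := hst.leg hst.top_leg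
    have m2 : scV y n0 + cut {0} (scV y nt) 0 ∈ coneM Ma := hst.leg hst.lin_leg
    have m3 : scV y n0 + cut {0} 0 (scV y nt) ∈ coneM Ma := hst.leg hst.lev_leg
    have hz0 : scV y n0 0 = 0 := by simp [scV, hd.z0]
    have hnt : ∀ k, 0 ≤ scV y nt k := fun k => by unfold scV; positivity
    have e1 := h.aew.own _ m2 _ m1 (fun k => by
      simp only [Pi.add_apply]
      by_cases hk : k ∈ ({0} : Finset (Fin 18))
      · rw [cut_of_mem hk, Pi.zero_apply, add_zero]; have := hnt k; linarith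
      · rw [cut_of_notMem hk]) (fun k hk => by
      have h1 := hV k hk
      have h2 : n0 k = 0 := by omega
      have h3 : nt k = 0 := by omega
      rw [Pi.add_apply, Pi.add_apply, hz0, cut_of_mem (mem_singleton_self 0)]
      by_cases hk0 : k ∈ ({0} : Finset (Fin 18))
      · rw [cut_of_mem hk0]; simp [scV, h2]
      · rw [cut_of_notMem hk0]; simp [scV, h2, h3])
    have e2 := h.aew.sharp _ h0 _ m3 (fun k => by
      rw [Pi.add_apply]
      by_cases hk : k ∈ ({0} : Finset (Fin 18))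
      · rw [cut_of_mem hk]; have := hnt k; linarith
      · rw [cut_of_notMem hk, Pi.zero_apply, add_zero])
    have e3 : ∑ s, ((scV y n0 + cut {0} 0 (scV y nt)) s - scV y n0 s) = scV y nt 0 := by
      rw [sum_eq_single_of_mem (0 : Fin 18) (mem_univ _)]
      · rw [Pi.add_apply, cut_of_mem (mem_singleton_self 0)]; ring
      · intro j _ hj
        rw [Pi.add_apply, cut_of_notMem (by rw [mem_singleton]; exact hj), Pi.zero_apply]; ring
    rw [e3] at e2
    rw [Pi.add_apply, Pi.add_apply, cut_of_mem (mem_singleton_self 0), Pi.zero_apply, add_zero,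
      one_mul] at e1
    show lam (scV y n0 + scV y nt) - lam (scV y n0) ≤
      (lam (scV y n0 + cut {0} (scV y nt) 0) - lam (scV y n0)) +
      (lam (scV y n0 + cut {0} 0 (scV y nt)) - lam (scV y n0))
    linarith
  σ0 := zero_le_one
  σ1 := le_rfl
  hR := by
    show y ≤ scV y nt 0
    have : (1 : ℝ) ≤ nt 0 := by exact_mod_cast hd.zt
    simp only [scV]; nlinarith
  frost := fun t ht _ => by
    have hz0 : scV y n0 0 = 0 := by simp [scV, hd.z0]
    obtain ⟨h0, h1⟩ := off_mem h.act hd hy.le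
    exact h.aew.frostO h0 (fun k hk => by
      have h1 := hV k hk
      have h2 : n0 k = 0 := by omega
      rw [hz0, mul_zero]; simp [scV, h2]) ht (h1 t ht)

/-- **window, pruned set, model, raw twist from the density condition** -/
theorem PtB.win_of_dens (h : PtB B Bo I J co kp u F Ma Dr C lam a b A φ r κ V Tw)
    {n0 nt : Fin 18 → ℕ} {rr : ℕ} {S : Finset (Fin 18)} (hd : WDat n0 nt rr S) {y : ℝ}
    (hy : 0 < y)
    (hden : (wst Ma n0 nt rr S y).Dens (fun p => lam (scV y n0 + p) - lam (scV y n0)) 1 y)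
    (hV0 : ∀ k, V k → n0 k = 0) (hVS : ∀ k, V k → k ∈ S ∨ nt k = 0) :
    ∃ (W : Wnd 18 fun _ => ℕ × ℝ) (E : ∀ n : ℕ, Finset (ℕ × ℝ)),
      WinB Ma Dr kp u F lam Tw n0 nt rr S y W E := by
  have hA := h.act
  have hst := wst_ok hA hd hy.le
  have hz0 : scV y n0 0 = 0 := by simp [scV, hd.z0]
  have h0 : scV y n0 ∈ coneM Ma := (off_mem hA hd hy.le).1
  have hc0 : ∀ k, V k → scV y n0 k ≤ κ k * scV y n0 0 := fun k hk => by
    rw [hz0, mul_zero]; simp [scV, hV0 k hk]
  obtain ⟨W, g1, g2, g3⟩ := h.aew.wndO (scV y n0) h0 (wst Ma n0 nt rr S y) rfl hst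
    (fun _ n => |kp n|⁻¹) (fun _ => h.ch.ks) J (fun _ => 1)
    (Eventually.of_forall fun n => Subset.refl _) h.ch.ne (Base.Sub.const one_pos)
    (Eventually.of_forall fun n => by rw [one_mul])
  obtain ⟨E, g, q1, q2, q3, q4⟩ := g1.model hden (fun _ _ _ => 0) (g₀ := fun n => 1 + W.B'.L n)
    (tendsto_atTop.2 fun b => (W.B'.ev_L_ge b).mono fun n hn => by linarith) hc0
    (fun k hk => (hVS k hk).imp id fun h2 => by
      show scV y nt k = 0
      simp [scV, h2])
  refine ⟨W, E, ⟨?_, ?_, q3, g1.eS, g1.etop, g1.ekap, g1.elam, g1.eMw, g1.eR, ?_, ?_, ?_⟩⟩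
  · exact
      { ok := g1.ok
        hκ := h.ch.k1
        hl := h.ch.gr
        hM := g1.eM
        hco := fun n i hi j hj s => by
          rw [g1.eI] at hi hj
          rw [g1.eco]
          exact h.ch.co n i hi j hj s
        kz := g1.ekz
        h0 := by rw [g1.eS]; exact hd.zS
        hS := by rw [g1.eS]; exact hd.hS }
  · filter_upwards [Wnd.ev_cfg g1.ok g1.ok.eok_section q1] with n hn
    exact ⟨hn.1, (q1.sub n).trans hn.2.1, hn.2.2.2⟩
  · intro ε hε
    filter_upwards [(g2 0).ev_le hε, (g2 0).1.pos] with n hn hpos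
    have h3 : 0 < |kp n| := inv_pos.1 hpos
    have h4 : 0 < W.B'.d n ^ ε := Real.rpow_pos_of_pos (W.B'.pos n) _
    have h5 := hn.2
    rw [Real.log_inv] at h5
    rw [Real.rpow_def_of_pos (W.B'.pos n), ← Real.exp_log h3]
    refine Real.exp_le_exp.2 ?_
    unfold Base.L at h5
    linarith
  · intro k hk l hl hls hn0 n
    have h1 := g1.off k _ ((hA.iff k _).2 ⟨hk, l, hl, hls, rfl⟩) n
    rw [← sum_count, ← sum_count, sum_scV] at h1
    have h2 : y * (((l.map n0).sum : ℕ) : ℝ) - scV y n0 k = 0 := by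
      rw [← hn0]; simp [scV]
    rw [h2, zero_mul, add_zero] at h1
    exact h1
  · intro s hs hT hnt hn0 he
    refine q4 s hs hT ?_ ?_ he
    · show 0 < scV y nt s
      have : (0:ℝ) < nt s := by exact_mod_cast Nat.pos_of_ne_zero hnt
      simp only [scV]; positivity
    · show scV y n0 s = κ s * scV y n0 0
      rw [hz0, mul_zero]; simp [scV, hn0]

/-- **window with `S = {0}`**, no condition on the groups -/
theorem PtB.win0 (h : PtB B Bo I J co kp u F Ma Dr C lam a b A φ r κ V Tw)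
    {n0 nt : Fin 18 → ℕ} {rr : ℕ} (hd : WDat n0 nt rr {0}) {y : ℝ} (hy : 0 < y)
    (hV : ∀ k, V k → n0 k + nt k = 0) :
    ∃ (W : Wnd 18 fun _ => ℕ × ℝ) (E : ∀ n : ℕ, Finset (ℕ × ℝ)),
      WinB Ma Dr kp u F lam Tw n0 nt rr {0} y W E :=
  PtB.win_of_dens h hd hy (PtB.dens0 h hd hy hV) (fun k hk => by have := hV k hk; omega)
    fun k hk => Or.inr (by have := hV k hk; omega)

end pt

end Crest.Agent.R136.Win887
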