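import Crest.Agent.R136.Win1_823

/-!
# R136: windows of configurations, part 2 (helper823)

* `sub6`, `sub6_ok`, `sub6_adm` : a part of a configuration over the levels `[i, j]` as a configuration.
* `ups_all` : (UB) on all windows `[m, i]` bounds the sheets of every level `i ≤ top`.
-/

set_option autoImplicit false

open Finset

namespace Crest.Agent.R136.Win823

open Crest.Agent.R136.K4 Crest.Agent.R136.Sh605 Crest.Agent.R136.KS879 Crest.Agent.R136.En879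

noncomputable section

/-- labels for a finite set -/
theorem exists_label {α : Type*} [Inhabited α] (O : Finset α) :
    ∃ (cl : α → ℕ) (g : ℕ → α), ∀ o ∈ O, g (cl o) = o := by
  classical
  refine ⟨fun o => if h : o ∈ O then (O.equivFin ⟨o, h⟩).val else 0,
    fun n => if h : n < O.card then (O.equivFin.symm ⟨n, h⟩).val else default, ?_⟩
  intro o ho
  simp only [ho, dif_pos, Fin.is_lt, Fin.eta, Equiv.symm_apply_apply]

/-- the part `A` of the configuration `F` over the levels `[i, j]` -/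
def sub6 (F : Cf6) (i j : ℕ) (A : Finset (Ln4 × ℝ)) (cl : Ln4 × ℤ → ℕ) (K : ℕ → Plk4)
    (D0 D1 : ℝ) (h : ℕ) : Cf6 :=
  ⟨⟨i, j - i, F.r, F.Λm, A, cl, K, D0, D1⟩, h⟩

variable {Leg : ℕ → ℝ → ℝ → Plk4 → Prop} {q q' : Fin 3 → ℝ} {F : Cf6}

theorem sub6_top {i j : ℕ} (hij : i ≤ j) {A : Finset (Ln4 × ℝ)} {cl : Ln4 × ℤ → ℕ}
    {K : ℕ → Plk4} {D0 D1 : ℝ} {h : ℕ} : (sub6 F i j A cl K D0 D1 h).top = j := by
  show i + (j - i) = j
  omega

open Classical in
theorem sub6_ok (hr0 : 0 < F.r) (hrle : F.r ≤ 1 / 2 ^ F.top) (hΛ : 1 ≤ F.Λm) {i j : ℕ}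
    (hij : i < j) (hj : j ≤ F.top)
    {A : Finset (Ln4 × ℝ)} (hne : A.Nonempty)
    (hcell : ∀ x ∈ A, ∀ y ∈ A, zc4 i x.2 = zc4 i y.2) {cl : Ln4 × ℤ → ℕ} {K : ℕ → Plk4}
    {D0 D1 : ℝ} (hD1 : 0 < D1) {h : ℕ}
    (legal : ∀ x ∈ A, Leg j F.r F.Λm (K (cl (ob4 j x))))
    (mem : ∀ x ∈ A, In4 j (K (cl (ob4 j x))) (ob4 j x))
    (low : ∀ x ∈ A, D1 * cap5 q j (K (cl (ob4 j x))) ≤
      (((A.image (ob4 j)).filter fun o => cl o = cl (ob4 j x)).card : ℝ))
    (h20 : 20 ≤ h) (hM : h ≤ j - i)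
    (ups : ∀ l, i ≤ l → l ≤ i + h → ∀ S, Leg l F.r F.Λm S →
      ((objs4 l A S).card : ℝ) ≤ D0 * cap5 q l S)
    (own : ∀ x ∈ A, 2 ^ (j - i + 20) ≤ 2 ^ h * ownc4 i j A x) :
    Ok6 Leg q (sub6 F i j A cl K D0 D1 h) := by
  have et : (sub6 F i j A cl K D0 D1 h).top = j := sub6_top hij.le
  refine ⟨⟨?_, hr0, ?_, hΛ, hne, hcell, hD1, ?_, ?_, ?_, ?_⟩, h20, hM, ups, ?_⟩
  · show 1 ≤ j - i; omega
  · rw [et]
    refine hrle.trans (one_div_le_one_div_of_le (by positivity) ?_)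
    exact pow_le_pow_right₀ one_le_two hj
  · intro x hx; rw [et]; exact legal x hx
  · intro x hx; rw [et]; exact mem x hx
  · intro x hx
    unfold Cf4.cls
    rw [et]
    exact low x hx
  · intro S hS
    exact ups i le_rfl (by omega) S hS
  · intro x hx
    rw [et]
    exact own x hx

theorem sub6_adm {δ δ' η : ℝ} (hA6 : Adm6 δ F) (hδ' : 0 ≤ δ') {i j : ℕ} (hm : F.m ≤ i)
    (hij : i ≤ j) (hη : η * F.M ≤ (j : ℝ) - i) (hδ : δ ≤ δ' * η)
    {A : Finset (Ln4 × ℝ)} (hsub : A ⊆ F.I) (hne : A.Nonempty) (hr0 : 0 < F.r)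
    {cl : Ln4 × ℤ → ℕ} {K : ℕ → Plk4} {D0 D1 : ℝ} {h : ℕ} (hh : (h : ℝ) ≤ δ' * ((j : ℝ) - i)) :
    Adm6 δ' (sub6 F i j A cl K D0 D1 h) := by
  have eM : (((sub6 F i j A cl K D0 D1 h).M : ℕ) : ℝ) = (j : ℝ) - i := by
    show (((j - i : ℕ)) : ℝ) = _
    rw [Nat.cast_sub hij]
  have hM0 : (0:ℝ) ≤ F.M := Nat.cast_nonneg _
  have hexp : δ * F.M ≤ δ' * ((j : ℝ) - i) := by
    calc δ * F.M ≤ (δ' * η) * F.M := mul_le_mul_of_nonneg_right hδ hM0
      _ = δ' * (η * F.M) := by ring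
      _ ≤ δ' * ((j : ℝ) - i) := mul_le_mul_of_nonneg_left hη hδ'
  have hpow : (2:ℝ) ^ (δ * F.M) ≤ (2:ℝ) ^ (δ' * ((j : ℝ) - i)) :=
    Real.rpow_le_rpow_of_exponent_le (by norm_num) hexp
  refine ⟨?_, ?_, ?_, ?_, ?_⟩
  · rw [eM]; exact hh
  · rw [eM]
    refine le_trans ?_ (hA6.size.trans hpow)
    show Real.logb 2 (A.card : ℝ) ≤ _
    refine Real.logb_le_logb_of_le one_lt_two ?_ ?_
    · exact_mod_cast card_pos.2 hne
    · exact_mod_cast card_le_card hsub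
  · rw [eM]
    refine le_trans ?_ (hA6.res.trans hpow)
    show Real.logb 2 (1 / (F.r * 2 ^ i)) ≤ _
    refine Real.logb_le_logb_of_le one_lt_two (by positivity) ?_
    refine one_div_le_one_div_of_le (by positivity) ?_
    exact mul_le_mul_of_nonneg_left (pow_le_pow_right₀ one_le_two hm) hr0.le
  · rw [eM]
    exact hA6.slope.trans hpow
  · intro x hx
    exact hA6.vel x (hsub hx)

/-- cubes contain their centre -/
theorem cube_mem {m : ℕ} {r : ℝ} (hr : 0 < r) (o : Ln4 × ℤ) : In4 m (cubeK r o) o := by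
  refine ⟨rfl, fun z _ _ => ⟨fun i => ?_, ?_⟩⟩
  · show |dt (stdE i) (o.1.pos z - o.1.pos z)| ≤ (![r, r, r] : V3) i
    rw [sub_self, dt_std]
    have : (0 : V3) i = 0 := rfl
    rw [this, abs_zero]
    fin_cases i <;> exact hr.le
  · show |o.1.pos z 0 - o.1.pos z 0| ≤ r
    rw [sub_self, abs_zero]
    exact hr.le

open Classical in
/-- **(UB) on the windows `[m, i]` bounds the sheets of all levels** -/
theorem ups_all {κ : ℕ} (hL : ClsOK6 Leg κ) {CU : ℝ} (hCU : 0 ≤ CU)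
    (hUB : ∀ G : Cf6, Ok6 Leg q G → ∀ S, Leg G.top G.r G.Λm S →
      ((objs4 G.top G.I S).card : ℝ) ≤ (2:ℝ) ^ (CU * (G.M + G.h + 10)) * G.D0 * cap5 q G.top S)
    (hF : Ok6 Leg q F) (hD0 : 0 ≤ F.D0) {i : ℕ} (him : F.m ≤ i) (hit : i ≤ F.top) {S : Plk4}
    (hS : Leg i F.r F.Λm S) :
    ((objs4 i F.I S).card : ℝ) ≤
      (2:ℝ) ^ (CU * ((i : ℝ) - F.m + F.h + 10)) * F.D0 * cap5 q i S := by
  have him' : (F.m : ℝ) ≤ i := by exact_mod_cast him
  by_cases hi : i ≤ F.m + F.h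
  · have h1 := hF.ups i him hi S hS
    have h2 : (1:ℝ) ≤ (2:ℝ) ^ (CU * ((i : ℝ) - F.m + F.h + 10)) := by
      refine Real.one_le_rpow (by norm_num) (mul_nonneg hCU ?_)
      have : (0:ℝ) ≤ F.h := Nat.cast_nonneg _
      linarith
    have h0 : (0:ℝ) ≤ F.D0 * cap5 q i S := le_trans (Nat.cast_nonneg _) h1
    calc ((objs4 i F.I S).card : ℝ) ≤ 1 * (F.D0 * cap5 q i S) := by rw [one_mul]; exact h1
      _ ≤ (2:ℝ) ^ (CU * ((i : ℝ) - F.m + F.h + 10)) * (F.D0 * cap5 q i S) :=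
          mul_le_mul_of_nonneg_right h2 h0
      _ = _ := by ring
  · push Not at hi
    have hmi : F.m < i := by omega
    have h20 := hF.h20
    haveI : Inhabited (Ln4 × ℤ) := ⟨(⟨0, 0⟩, 0)⟩
    obtain ⟨cl, g, hg⟩ := exists_label (F.I.image (ob4 i))
    have hri : F.r ≤ 1 / 2 ^ i := hF.rle.trans
      (one_div_le_one_div_of_le (by positivity) (pow_le_pow_right₀ one_le_two hit))
    -- a lower bound for the classes made of one cube
    set c0 : ℝ := cap5 q i (cubeK F.r (⟨0, 0⟩, 0)) with hc0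
    have hcube : ∀ o, cap5 q i (cubeK F.r o) = c0 := fun o => rfl
    have hc0p : 0 < c0 := by
      have hr := hF.r0
      have p2 : (0:ℝ) < 2 ^ i := by positivity
      show 0 < F.r * F.r * F.r * ((F.r * 2 ^ i) ^ q 0 * (F.r * 2 ^ i) ^ q 1 *
        (F.r * 2 ^ i) ^ q 2)
      positivity
    set G : Cf6 := sub6 F F.m i F.I cl (fun n => cubeK F.r (g n)) F.D0 (1 / c0) F.h with hG
    have hGok : Ok6 Leg q G := by
      refine sub6_ok hF.r0 hF.rle hF.Λ1 hmi hit hF.ne hF.cell (by positivity) ?_ ?_ ?_ h20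
        (by omega) (fun l h1 h2 S hS => hF.ups l h1 h2 S hS) ?_
      · intro x _
        exact hL.cube _ _ _ _ hF.r0 hF.Λ1 hri
      · intro x hx
        rw [hg _ (mem_image_of_mem _ hx)]
        exact cube_mem hF.r0 _
      · intro x hx
        rw [hcube, one_div, inv_mul_cancel₀ hc0p.ne']
        have : ob4 i x ∈ (F.I.image (ob4 i)).filter fun o => cl o = cl (ob4 i x) :=
          mem_filter.2 ⟨mem_image_of_mem _ hx, rfl⟩
        exact_mod_cast card_pos.2 ⟨_, this⟩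
      · intro x hx
        have h1 := hF.own x hx
        have h2 := ownc4_mul (m := F.m) hit F.I x
        have h3 : 2 ^ (i - F.m + 20) * 2 ^ (F.top - i) ≤
            (2 ^ F.h * ownc4 F.m i F.I x) * 2 ^ (F.top - i) := by
          have e : 2 ^ (i - F.m + 20) * 2 ^ (F.top - i) = 2 ^ (F.M + 20) := by
            rw [← pow_add]; congr 1
            have : F.top = F.m + F.M := rfl
            omega
          rw [e]
          calc 2 ^ (F.M + 20) ≤ 2 ^ F.h * ownc4 F.m F.top F.I x := h1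
            _ ≤ 2 ^ F.h * (ownc4 F.m i F.I x * 2 ^ (F.top - i)) := Nat.mul_le_mul_left _ h2
            _ = _ := by ring
        exact Nat.le_of_mul_le_mul_right h3 (by positivity)
    have h1 := hUB G hGok S (by
      have : G.top = i := sub6_top hmi.le
      rw [this]; exact hS)
    have et : G.top = i := sub6_top hmi.le
    rw [et] at h1
    have eM : ((G.M : ℕ) : ℝ) = (i : ℝ) - F.m := by
      show (((i - F.m : ℕ)) : ℝ) = _
      rw [Nat.cast_sub him]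
    rw [eM] at h1
    exact h1

end

end Crest.Agent.R136.Win823
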