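import Crest.Agent.R136.WkE_344
import Crest.Agent.R136.WkH4_626

/-!
# R136 (S0187), row E: a window with level slots `{0, 2, 3, 4}` in absolute coordinates (helper323)

As `WkH2_626` (level slots `{0, 3}`), but ALL flags are level slots: `AbsE` of `WkE_344`.

* `line_closeE` : two incidences of one fat line (flags not compared)
* `EWin`, `EWin.absE` : the window as an `AbsE`
* `EWin.profE` : the profile numbers as a `ProfE`
-/

set_option autoImplicit false
set_option linter.unusedSectionVars false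
set_option linter.unusedVariables false

open Filter Topology

namespace Crest.Agent.R136.WinE323

open Finset
open Crest.Agent.R136.Sh605
open Crest.Agent.R136.Net186
open Crest.Agent.R136.NetQ186
open Crest.Agent.R136.Qg926
open Crest.Agent.R136.Net191
open Crest.Agent.R138.Ex926 (Base U)
open Crest.Agent.R136.Gf356
open Crest.Agent.R136.RgE344
open Crest.Agent.R136.Wk323 (tq s4 s4_tq tq_ne tq_s4 uu nI st coQ_st co4_nrm lrep lrep_spec Tight nrm
  Unit4 Near4 co4_lip coA coA_eq abs_mul_le fAll)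
open Crest.Agent.R136.Wk323.LWin (lT lfb mem_rep mem_lrep mem_zrep)

/-- **two incidences of one fat line**, the flags are not compared -/
theorem line_closeE {i j : Fl4} {η : ℝ} (hi : Unit4 i)
    (h : ∀ s : Fin 10, 4 ≤ s → |co4 i j s| ≤ η) :
    (∀ m, |j.t.v m - i.t.v m| ≤ 4 * η) ∧ ∀ m, |j.t.p m - i.t.p m| ≤ 8 * η := by
  have v1 : |j.t.v 1 - i.t.v 1| ≤ η := h 4 (by decide)
  have h5 : |(j.t.v 2 - i.t.v 2) - i.e * (j.t.v 1 - i.t.v 1)| ≤ η := h 5 (by decide)
  have h6 : |(j.t.v 0 - i.t.v 0) - i.fa * (j.t.v 1 - i.t.v 1) - i.fb * (j.t.v 2 - i.t.v 2)| ≤ η :=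
    h 6 (by decide)
  have x1 : |j.t.pos i.z 1 - i.t.pos i.z 1| ≤ η := h 7 (by decide)
  have h8 : |(j.t.pos i.z 2 - i.t.pos i.z 2) - i.e * (j.t.pos i.z 1 - i.t.pos i.z 1)| ≤ η :=
    h 8 (by decide)
  have h9 : |(j.t.pos i.z 0 - i.t.pos i.z 0) - i.fa * (j.t.pos i.z 1 - i.t.pos i.z 1) -
      i.fb * (j.t.pos i.z 2 - i.t.pos i.z 2)| ≤ η := h 9 (by decide)
  have hη : 0 ≤ η := (abs_nonneg _).trans v1
  have two : ∀ {x y : ℝ}, |x - i.e * y| ≤ η → |y| ≤ η → |x| ≤ 2 * η := by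
    intro x y hx hy
    have a1 := abs_mul_le hi.e hy
    have e : x = (x - i.e * y) + i.e * y := by ring
    rw [e]
    exact (abs_add_le _ _).trans (by linarith)
  have four : ∀ {x y w : ℝ}, |x - i.fa * y - i.fb * w| ≤ η → |y| ≤ η → |w| ≤ 2 * η →
      |x| ≤ 4 * η := by
    intro x y w hx hy hw
    have a1 := abs_mul_le hi.fa hy
    have a2 := abs_mul_le hi.fb hw
    have e : x = (x - i.fa * y - i.fb * w) + i.fa * y + i.fb * w := by ring
    rw [e]
    exact (abs_add_three _ _ _).trans (by linarith)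
  have v2 : |j.t.v 2 - i.t.v 2| ≤ 2 * η := two h5 v1
  have v0 : |j.t.v 0 - i.t.v 0| ≤ 4 * η := four h6 v1 v2
  have x2 : |j.t.pos i.z 2 - i.t.pos i.z 2| ≤ 2 * η := two h8 x1
  have x0 : |j.t.pos i.z 0 - i.t.pos i.z 0| ≤ 4 * η := four h9 x1 x2
  have hv : ∀ m, |j.t.v m - i.t.v m| ≤ 4 * η := by
    intro m
    fin_cases m
    · exact v0
    · exact v1.trans (by linarith)
    · exact v2.trans (by linarith)
  refine ⟨hv, ?_⟩
  have hx : ∀ m, |j.t.pos i.z m - i.t.pos i.z m| ≤ 4 * η := by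
    intro m
    fin_cases m
    · exact x0
    · exact x1.trans (by linarith)
    · exact x2.trans (by linarith)
  intro m
  have a1 := abs_mul_le hi.z (hv m)
  have e : j.t.p m - i.t.p m = (j.t.pos i.z m - i.t.pos i.z m) - i.z * (j.t.v m - i.t.v m) := by
    simp only [Ln4.pos]; ring
  rw [e]
  refine (abs_sub _ _).trans ?_
  have := hx m
  linarith

variable {ι : ℕ → Type*} [∀ n, DecidableEq (ι n)]

/-- hypotheses on the window for the absolute form -/
structure EWin (W : Wnd 11 ι) (F : ∀ n, ι n → Fq4) (x : ℝ) : Prop where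
  ok : W.Ok
  co : ∀ n i j, W.co n i j = coQ (F n i) (F n j)
  str : ∀ n i, (F n i).y2 = 0
  S : W.S = {0, 2, 3, 4}
  kz : W.kz = 0
  tight : ∀ᶠ n in (U : Filter ℕ), Tight (uu W n)
  kap : ∀ s, 2 * W.K0 ≤ W.kap s
  x0 : 0 ≤ x
  top : ∀ s, W.top s = x

/-- the flags at the level cell `k` -/
noncomputable def eW (W : Wnd 11 ι) (F : ∀ n, ι n → Fq4) (n k : ℕ) : ℝ := (nI W F n (W.zrep n k)).e

/-- `F_a` at the level cell `k` -/
noncomputable def faW (W : Wnd 11 ι) (F : ∀ n, ι n → Fq4) (n k : ℕ) : ℝ :=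
  (nI W F n (W.zrep n k)).fa

namespace EWin

variable {W : Wnd 11 ι} {F : ∀ n, ι n → Fq4} {x : ℝ} (H : EWin W F x)

include H

/-- coordinates of normalised incidences = normalised coordinates -/
theorem co4_nI {n : ℕ} (hu : Tight (uu W n)) (i j : ι n) (s : Fin 10) :
    co4 (nI W F n i) (nI W F n j) s = W.crd n i j (tq s) := by
  unfold nI
  rw [co4_nrm hu]
  unfold Wnd.crd
  rw [H.co, coQ_st (H.str n i) (H.str n j) (tq_ne s), s4_tq]
  rfl

/-- a box in normalised coordinates -/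
theorem crd_le {n : ℕ} {c : Fin 11 → ℝ} {i j : ι n} (h : W.bx n c W.K0 i j) (s : Fin 11) :
    |W.crd n i j s| ≤ W.B'.d n ^ c s / 2 := by
  have hX : 0 < W.B.d n ^ W.X n s := Real.rpow_pos_of_pos (W.B.pos n) _
  have hc : 0 < W.B'.d n ^ c s := Real.rpow_pos_of_pos (W.B'.pos n) _
  have hk := H.ok.kap s
  have hpos : 0 < W.kap s * W.B.d n ^ W.X n s := mul_pos hk hX
  unfold Wnd.crd
  rw [abs_div, abs_of_pos hpos, div_le_iff₀ hpos]
  refine (h s).trans ?_
  have h1 := H.kap s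
  have h2 : 0 ≤ W.B.d n ^ W.X n s * W.B'.d n ^ c s := (mul_pos hX hc).le
  have h3 := mul_le_mul_of_nonneg_right h1 h2
  linarith

/-- all incidences of the class are in half of the unit box -/
theorem half {n : ℕ} (g : W.Good n) (hu : Tight (uu W n)) {i : ι n} (hi : i ∈ W.Cl n) :
    (∀ m, |(nI W F n i).t.v m| ≤ 1 / 2) ∧ (∀ m, |(nI W F n i).t.p m| ≤ 1 / 2) ∧
      |(nI W F n i).z| ≤ 1 / 2 ∧ |(nI W F n i).e| ≤ 1 / 2 ∧ |(nI W F n i).fa| ≤ 1 / 2 ∧
      |(nI W F n i).fb| ≤ 1 / 2 := by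
  have h0 : ∀ s : Fin 10, |co4 (st (F n (W.s₀ n))) (st (F n i)) s / uu W n s| ≤ 1 / 2 := by
    intro s
    have h1 := H.crd_le (H.ok.near0 g g.s0 hi) (tq s)
    rw [Pi.zero_apply, Real.rpow_zero] at h1
    have e : co4 (st (F n (W.s₀ n))) (st (F n i)) s / uu W n s = W.crd n (W.s₀ n) i (tq s) := by
      unfold Wnd.crd
      rw [H.co, coQ_st (H.str n _) (H.str n i) (tq_ne s), s4_tq]
      rfl
    rw [e]
    exact h1
  refine ⟨?_, ?_, h0 0, h0 1, h0 3, h0 2⟩
  · intro m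
    fin_cases m
    · exact h0 6
    · exact h0 4
    · exact h0 5
  · intro m
    fin_cases m
    · exact h0 9
    · exact h0 7
    · exact h0 8

theorem unit {n : ℕ} (g : W.Good n) (hu : Tight (uu W n)) {i : ι n} (hi : i ∈ W.Cl n) :
    Unit4 (nI W F n i) := by
  obtain ⟨h1, h2, h3, h4, h5, h6⟩ := H.half g hu hi
  exact ⟨fun m => (h1 m).trans (by norm_num), fun m => (h2 m).trans (by norm_num),
    h3.trans (by norm_num), h4.trans (by norm_num), h5.trans (by norm_num),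
    h6.trans (by norm_num)⟩

/-- same fat line -/
theorem lineC {n : ℕ} (g : W.Good n) (hu : Tight (uu W n)) {i j : ι n} (hi : i ∈ W.Cl n)
    (hj : j ∈ W.Cl n) (hl : W.lc n i = W.lc n j) (s : Fin 10) (h0 : 4 ≤ s) :
    |co4 (nI W F n i) (nI W F n j) s| ≤ W.B'.d n ^ x := by
  rw [H.co4_nI hu]
  refine (H.crd_le (H.ok.near_lc g hi hj hl) (tq s)).trans ?_
  have hS : tq s ∉ W.S := by
    rw [H.S]
    revert h0
    fin_cases s <;> decide
  rw [cut_of_notMem hS, H.top]
  have h4 : 0 < W.B'.d n ^ x := Real.rpow_pos_of_pos (W.B'.pos n) _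
  linarith

/-- same level cell -/
theorem levC {n : ℕ} (g : W.Good n) (hu : Tight (uu W n)) {i j : ι n} (hi : i ∈ W.Cl n)
    (hj : j ∈ W.Cl n) (hl : W.zc n i = W.zc n j) :
    |(nI W F n j).z - (nI W F n i).z| ≤ W.B'.d n ^ x ∧
      |(nI W F n j).e - (nI W F n i).e| ≤ W.B'.d n ^ x ∧
      |(nI W F n j).fb - (nI W F n i).fb| ≤ W.B'.d n ^ x ∧
      |(nI W F n j).fa - (nI W F n i).fa| ≤ 2 * W.B'.d n ^ x := by
  have key : ∀ s : Fin 10, tq s ∈ W.S → |co4 (nI W F n i) (nI W F n j) s| ≤ W.B'.d n ^ x := by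
    intro s hS
    rw [H.co4_nI hu]
    refine (H.crd_le (H.ok.near_zc g hi hj hl) (tq s)).trans ?_
    rw [cut_of_mem hS, H.top]
    have h4 : 0 < W.B'.d n ^ x := Real.rpow_pos_of_pos (W.B'.pos n) _
    linarith
  have k0 := key 0 (by rw [H.S]; decide)
  have k1 := key 1 (by rw [H.S]; decide)
  have k2 := key 2 (by rw [H.S]; decide)
  have k3 := key 3 (by rw [H.S]; decide)
  refine ⟨k0, k1, k2, ?_⟩
  change |((nI W F n j).fa - (nI W F n i).fa) + (nI W F n i).e *
    ((nI W F n j).fb - (nI W F n i).fb)| ≤ _ at k3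
  change |(nI W F n j).fb - (nI W F n i).fb| ≤ _ at k2
  have c := abs_mul_le (H.unit g hu hi).e k2
  have e : (nI W F n j).fa - (nI W F n i).fa = (((nI W F n j).fa - (nI W F n i).fa) +
      (nI W F n i).e * ((nI W F n j).fb - (nI W F n i).fb)) - (nI W F n i).e *
      ((nI W F n j).fb - (nI W F n i).fb) := by ring
  rw [e]
  refine (abs_sub _ _).trans ?_
  linarith

/-- the heights of the configuration are the normalised heights of `zrep` -/
theorem z_eq {n : ℕ} (k : ℕ) : W.crd n (W.s₀ n) (W.zrep n k) W.kz = (nI W F n (W.zrep n k)).z := by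
  rw [H.kz]
  unfold Wnd.crd
  rw [H.co, coQ_st (H.str n _) (H.str n _) (by decide)]
  rfl

/-- the absolute incidence of `(l, k)` is in the unit box and close to the representative -/
theorem abs_near {n : ℕ} (g : W.Good n) (hu : Tight (uu W n)) {l k : ℕ}
    (h : W.rep n l k ∈ W.Cl n ∧ W.lc n (W.rep n l k) = l ∧ W.zc n (W.rep n l k) = k) :
    Unit4 ⟨lT W F n l, W.crd n (W.s₀ n) (W.zrep n k) W.kz, eW W F n k, faW W F n k,
        lfb W F n k⟩ ∧
      Near4 (nI W F n (W.rep n l k)) ⟨lT W F n l, W.crd n (W.s₀ n) (W.zrep n k) W.kz, eW W F n k,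
        faW W F n k, lfb W F n k⟩ (8 * W.B'.d n ^ x) := by
  obtain ⟨h1, h2, h3⟩ := h
  obtain ⟨a1, a2⟩ := mem_lrep h1 h2
  obtain ⟨b1, b2⟩ := mem_zrep h1 h3
  have hη : 0 < W.B'.d n ^ x := Real.rpow_pos_of_pos (W.B'.pos n) _
  have ul := H.unit g hu a1
  have uz := H.unit g hu b1
  have ur := H.unit g hu h1
  rw [H.z_eq]
  obtain ⟨c2, c3⟩ := line_closeE ur (fun s hs => H.lineC g hu h1 a1 (h2.trans a2.symm) s hs)
  obtain ⟨d1, d2, d3, d4⟩ := H.levC g hu h1 b1 (h3.trans b2.symm)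
  refine ⟨⟨ul.v, ul.p, uz.z, uz.e, uz.fa, uz.fb⟩, ⟨fun m => (c2 m).trans (by linarith), c3,
    d1.trans (by linarith), d2.trans (by linarith), d4.trans (by linarith),
    d3.trans (by linarith)⟩⟩

/-- **a window of case E in absolute coordinates** -/
theorem absE {E : ∀ n, Finset (ι n)}
    (hE : ∀ᶠ n in (U : Filter ℕ), E n ⊆ W.Cl n ∧ W.cfg E n = W.cfg0 n (E n)) :
    AbsE W.B' (W.cfg E) x (lT W F) (eW W F) (faW W F) (lfb W F) where
  bd := by
    filter_upwards [hE, H.ok.ev_good, H.tight] with n ⟨h1, h2⟩ g hu l k hI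
    rw [h2] at hI ⊢
    have hr := mem_rep h1 hI
    obtain ⟨a1, a2⟩ := mem_lrep hr.1 hr.2.1
    obtain ⟨b1, b2⟩ := mem_zrep hr.1 hr.2.2
    obtain ⟨v, p, -, -, -, -⟩ := H.half g hu a1
    obtain ⟨-, -, z, e, fa, fb⟩ := H.half g hu b1
    have hz : (W.cfg0 n (E n)).z k = (nI W F n (W.zrep n k)).z := H.z_eq k
    rw [hz]
    refine ⟨z.trans (by norm_num), fun j => ?_, fun j => (v j).trans (by norm_num),
      e.trans (by norm_num), fa.trans (by norm_num), fb.trans (by norm_num)⟩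
    show |(nI W F n (lrep W n l)).t.p j +
      (nI W F n (W.zrep n k)).z * (nI W F n (lrep W n l)).t.v j| ≤ 1
    refine (abs_add_le _ _).trans ?_
    have := abs_mul_le z (v j)
    have := p j
    linarith
  bdr := by
    filter_upwards [hE, H.ok.ev_good] with n ⟨h1, h2⟩ g k i l hi hl s
    rw [h2] at hi hl ⊢
    have ri := mem_rep h1 hi
    have rl := mem_rep h1 hl
    show |if s ∈ W.S then (0 : ℝ) else W.crd n (W.rep n i k) (W.rep n l k) s| ≤ 1
    split_ifs
    · simp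
    · have := H.crd_le (H.ok.near0 g ri.1 rl.1) s
      rw [Pi.zero_apply, Real.rpow_zero] at this
      linarith
  rel := by
    intro ε hε
    filter_upwards [hE, H.ok.ev_good, H.tight, ev_const_le W.B' hε 240] with n ⟨h1, h2⟩ g hu hc
      k i l hi hl s hs
    rw [h2] at hi hl ⊢
    have ri := mem_rep h1 hi
    have rl := mem_rep h1 hl
    obtain ⟨ui, ni⟩ := H.abs_near g hu ri
    obtain ⟨ul, nl⟩ := H.abs_near g hu rl
    have hs2 : s ∈ fAll := by
      revert hs
      fin_cases s <;> decide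
    have hS : s ∉ W.S := by
      rw [H.S]
      revert hs
      fin_cases s <;> decide
    have e1 : (W.cfg0 n (E n)).rel k i l s = co4 (nI W F n (W.rep n i k)) (nI W F n (W.rep n l k))
        (s4 s) := by
      rw [H.co4_nI hu, tq_s4 hs2]
      show (if s ∈ W.S then (0 : ℝ) else W.crd n (W.rep n i k) (W.rep n l k) s) = _
      rw [if_neg hS]
    rw [e1, coA_eq _ _ _ _ _ _ _ _ hs2, abs_sub_comm]
    refine (co4_lip (H.unit g hu ri.1) ui (H.unit g hu rl.1) ul ni nl (s4 s)).trans ?_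
    have e2 : W.B'.d n ^ (x - ε) = W.B'.d n ^ x * W.B'.d n ^ (-ε) := by
      rw [← Real.rpow_add (W.B'.pos n)]
      rfl
    rw [e2]
    have hη : 0 < W.B'.d n ^ x := Real.rpow_pos_of_pos (W.B'.pos n) _
    have := mul_le_mul_of_nonneg_left hc hη.le
    linarith

end EWin

end Crest.Agent.R136.WinE323
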