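import Crest.Agent.R136.WinE1_323
import Crest.Agent.R136.WkE2_344

/-!
# R136 (S0187), row E: the relation of RIG_E on incidences of a window (helper323)

* `pairs_pull` : a `ρ^ε`-part of the pairs gives a `ρ^(6ε)`-part of the incidences.
* `RelE` : the relation in the coordinates of the base incidence.
* `EWin.rig_inc` : **conclusion of `RigE'` on incidences of any dense part of the class**.
-/

set_option autoImplicit false
set_option linter.unusedSectionVars false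
set_option linter.unusedVariables false

open Filter Topology

namespace Crest.Agent.R136.WinE323

open Finset
open Crest.Agent.R136.Sh605
open Crest.Agent.R136.Net186
open Crest.Agent.R136.NetQ186
open Crest.Agent.R136.Qg926
open Crest.Agent.R136.Net191
open Crest.Agent.R138.Ex926 (Base U cls mem_cls le_count_mul)
open Crest.Agent.R136.Gf356
open Crest.Agent.R136.RgE344
open Crest.Agent.R136.Wk323 (tq s4 uu nI lrep Tight Unit4 Near4 abs_mul_le sub_lip)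
open Crest.Agent.R136.Wk323.LWin (lT lfb mem_rep mem_lrep mem_zrep)

section pull

open Wnd

variable {ι : ℕ → Type*} [∀ n, DecidableEq (ι n)] {m : ℕ} {W : Wnd m ι}
  {E E' : ∀ n, Finset (ι n)} {Mu g : ℕ → ℝ}

/-- code of the pair (fat line, level cell) -/
noncomputable def pcode (W : Wnd m ι) (n : ℕ) (i : ι n) : ℕ := Nat.pair (W.lc n i) (W.zc n i)

/-- **popular pairs carry many incidences** -/
theorem pairs_pull (h : W.Ok) (hE : EOk W E Mu) (hP : Pruned W E E' g fun _ => pcode W)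
    (hdens : W.lam W.top ≤ W.lam (cut W.S W.top 0) + W.lam (cut W.S 0 W.top)) {ε : ℝ}
    (hε : 0 < ε) : ∀ᶠ n in (U : Filter ℕ), ∀ I' ⊆ (W.cfg E' n).I,
      W.B'.d n ^ ε * ((W.cfg E' n).I.card : ℝ) ≤ (I'.card : ℝ) →
      W.B'.d n ^ (7 * ε) * ((E n).card : ℝ) ≤
        (((E' n).filter fun i => (W.lc n i, W.zc n i) ∈ I').card : ℝ) := by
  classical
  filter_upwards [ev_cfg h hE hP, h.card_lc_le hε, h.card_zc_le hε, hP.gsub ε hε, hP.extra 0,
    hE.mult ε hε, hE.big ε hε, Crest.Agent.R136.Gf356.ev_const_le W.B' hε 2] with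
    n ⟨g1, h1, h2, h3⟩ h4 h5 h6 h7 h8 h9 h10 I' hI' hcard
  rw [h3] at hI' hcard
  have hpos : ∀ t : ℝ, 0 < W.B'.d n ^ t := fun t => Real.rpow_pos_of_pos (W.B'.pos n) t
  have hadd : ∀ s t : ℝ, W.B'.d n ^ s * W.B'.d n ^ t = W.B'.d n ^ (s + t) := fun s t =>
    (Real.rpow_add (W.B'.pos n) s t).symm
  have hMu := hE.pos n
  set a := W.lam (cut W.S W.top 0) with ha
  set b := W.lam (cut W.S 0 W.top) with hb
  set t := W.lam W.top with ht
  have hE0 : (0 : ℝ) ≤ (E n).card := Nat.cast_nonneg _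
  -- number of pairs of `E`
  have c1 : (((E n).image (pcode W n)).card : ℝ) ≤ W.B'.d n ^ (t - 2 * ε) := by
    have e1 : ((E n).image (pcode W n)).card ≤
        ((E n).image (W.lc n)).card * ((E n).image (W.zc n)).card := by
      rw [← card_product]
      refine card_le_card_of_surjOn (fun p : ℕ × ℕ => Nat.pair p.1 p.2) ?_
      intro c hc
      obtain ⟨i, hi, rfl⟩ := mem_image.1 (Finset.mem_coe.1 hc)
      exact ⟨(W.lc n i, W.zc n i), by
        rw [Finset.mem_coe, mem_product]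
        exact ⟨mem_image_of_mem _ hi, mem_image_of_mem _ hi⟩, rfl⟩
    have e2 : (((E n).image (pcode W n)).card : ℝ) ≤
        (((E n).image (W.lc n)).card : ℝ) * (((E n).image (W.zc n)).card : ℝ) := by
      exact_mod_cast e1
    refine e2.trans ((mul_le_mul (h4 _ h1) (h5 _ h1) (Nat.cast_nonneg _) (hpos _).le).trans ?_)
    rw [hadd]
    exact Real.rpow_le_rpow_of_exponent_ge (W.B'.pos n) (W.B'.lt n).le (by linarith)
  -- multiplicity of a surviving pair, from below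
  have c2 : ∀ i ∈ E' n, ((E n).card : ℝ) * W.B'.d n ^ (3 * ε - t) ≤
      ((cls (E' n) (W.pc n) i).card : ℝ) := by
    intro i hi
    have d1 := h7 i hi
    have e : cls (E' n) (pcode W n) i = cls (E' n) (W.pc n) i := by
      ext j
      rw [mem_cls, mem_cls]
      unfold pcode pc
      rw [Nat.pair_eq_pair, Prod.mk.injEq]
    rw [e] at d1
    set H : ℝ := ((cls (E' n) (W.pc n) i).card : ℝ) with hH
    have hH0 : 0 ≤ H := Nat.cast_nonneg _
    have d3 : ((E n).card : ℝ) ≤ W.B'.d n ^ (t - 3 * ε) * H := by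
      refine d1.trans ?_
      have e1 : W.B'.d n ^ (t - 3 * ε) = W.B'.d n ^ (-ε) * W.B'.d n ^ (t - 2 * ε) := by
        rw [hadd]; congr 1; ring
      rw [e1]
      refine mul_le_mul_of_nonneg_right ?_ hH0
      exact mul_le_mul h6 c1 (Nat.cast_nonneg _) (hpos _).le
    calc ((E n).card : ℝ) * W.B'.d n ^ (3 * ε - t)
        ≤ (W.B'.d n ^ (t - 3 * ε) * H) * W.B'.d n ^ (3 * ε - t) :=
          mul_le_mul_of_nonneg_right d3 (hpos _).le
      _ = (W.B'.d n ^ (t - 3 * ε) * W.B'.d n ^ (3 * ε - t)) * H := by ring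
      _ = H := by rw [hadd]; simp
  -- number of pairs of `E'`, from below
  have c3 : ((E n).card : ℝ) * W.B'.d n ^ (2 * ε) ≤ Mu n * ((W.cfg0 n (E' n)).I.card : ℝ) := by
    have d1 : ((E' n).card : ℝ) ≤ Mu n * W.B'.d n ^ (-ε) * ((E' n).image (W.pc n)).card := by
      have := le_count_mul (E' n) (fun _ => (1 : ℝ)) (W.pc n) (m := Mu n * W.B'.d n ^ (-ε))
        (fun i hi => by
          rw [sum_const, nsmul_eq_mul, mul_one]
          refine le_trans ?_ (h8 i (hP.sub n hi))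
          refine Nat.cast_le.2 (card_le_card fun j hj => ?_)
          obtain ⟨k1, k2⟩ := mem_cls.1 hj
          exact mem_cls.2 ⟨hP.sub n k1, k2⟩)
      rwa [sum_const, nsmul_eq_mul, mul_one] at this
    have d2 : ((W.cfg0 n (E' n)).I.card : ℝ) = ((E' n).image (W.pc n)).card := by
      congr 1
    rw [d2]
    have d3 := hP.half n
    set N := (((E' n).image (W.pc n)).card : ℝ) with hN
    have hN0 : 0 ≤ N := Nat.cast_nonneg _
    have d4 : ((E n).card : ℝ) ≤ W.B'.d n ^ (-ε) * (Mu n * W.B'.d n ^ (-ε) * N) := by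
      have e1 : (0:ℝ) ≤ Mu n * W.B'.d n ^ (-ε) * N := mul_nonneg (mul_pos hMu (hpos _)).le hN0
      have e2 := mul_le_mul_of_nonneg_right h10 e1
      linarith
    calc ((E n).card : ℝ) * W.B'.d n ^ (2 * ε)
        ≤ (W.B'.d n ^ (-ε) * (Mu n * W.B'.d n ^ (-ε) * N)) * W.B'.d n ^ (2 * ε) :=
          mul_le_mul_of_nonneg_right d4 (hpos _).le
      _ = (W.B'.d n ^ (-ε) * W.B'.d n ^ (-ε) * W.B'.d n ^ (2 * ε)) * (Mu n * N) := by ring
      _ = Mu n * N := by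
          rw [hadd, hadd, show -ε + -ε + 2 * ε = 0 by ring, Real.rpow_zero, one_mul]
  -- total
  have c4 : (I'.card : ℝ) * (((E n).card : ℝ) * W.B'.d n ^ (3 * ε - t)) ≤
      (((E' n).filter fun i => (W.lc n i, W.zc n i) ∈ I').card : ℝ) := by
    have d1 : ((E' n).filter fun i => (W.lc n i, W.zc n i) ∈ I').card =
        ∑ p ∈ I', (((E' n).filter fun i => (W.lc n i, W.zc n i) ∈ I').filter
          fun i => (W.lc n i, W.zc n i) = p).card :=
      card_eq_sum_card_fiberwise fun i hi => (mem_filter.1 hi).2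
    rw [d1, Nat.cast_sum, ← nsmul_eq_mul, ← sum_const]
    refine sum_le_sum fun p hp => ?_
    obtain ⟨l, k⟩ := p
    obtain ⟨y, hy, rfl, rfl⟩ := mem_I.1 (hI' hp)
    refine (c2 y hy).trans (Nat.cast_le.2 (card_le_card fun j hj => ?_))
    obtain ⟨k1, k2⟩ := mem_cls.1 hj
    have k3 : (W.lc n j, W.zc n j) = (W.lc n y, W.zc n y) := k2
    exact mem_filter.2 ⟨mem_filter.2 ⟨k1, by rw [k3]; exact hp⟩, k3⟩
  refine le_trans ?_ c4
  have c5 : W.B'.d n ^ (3 * ε) * ((E n).card : ℝ) ≤ Mu n * (I'.card : ℝ) := by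
    have e1 : W.B'.d n ^ (3 * ε) = W.B'.d n ^ ε * W.B'.d n ^ (2 * ε) := by
      rw [hadd]; congr 1; ring
    calc W.B'.d n ^ (3 * ε) * ((E n).card : ℝ)
        = W.B'.d n ^ ε * (((E n).card : ℝ) * W.B'.d n ^ (2 * ε)) := by rw [e1]; ring
      _ ≤ W.B'.d n ^ ε * (Mu n * ((W.cfg0 n (E' n)).I.card : ℝ)) :=
          mul_le_mul_of_nonneg_left c3 (hpos _).le
      _ = Mu n * (W.B'.d n ^ ε * ((W.cfg0 n (E' n)).I.card : ℝ)) := by ring
      _ ≤ Mu n * (I'.card : ℝ) := mul_le_mul_of_nonneg_left hcard hMu.le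
  have c6 : W.B'.d n ^ (7 * ε) * ((E n).card : ℝ) * Mu n ≤
      ((I'.card : ℝ) * (((E n).card : ℝ) * W.B'.d n ^ (3 * ε - t))) * Mu n := by
    have e1 : W.B'.d n ^ (7 * ε) = W.B'.d n ^ (3 * ε) * W.B'.d n ^ (3 * ε - t) *
        W.B'.d n ^ (t + ε) := by
      rw [hadd, hadd]; congr 1; ring
    calc W.B'.d n ^ (7 * ε) * ((E n).card : ℝ) * Mu n
        = (W.B'.d n ^ (3 * ε) * ((E n).card : ℝ)) * W.B'.d n ^ (3 * ε - t) *
          (Mu n * W.B'.d n ^ (t + ε)) := by rw [e1]; ring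
      _ ≤ (Mu n * (I'.card : ℝ)) * W.B'.d n ^ (3 * ε - t) * ((E n).card : ℝ) := by
          have k1 := hpos (3 * ε - t)
          have k2 : (0 : ℝ) ≤ Mu n * (I'.card : ℝ) := mul_nonneg hMu.le (Nat.cast_nonneg _)
          have k3 : (0 : ℝ) ≤ Mu n * W.B'.d n ^ (t + ε) := (mul_pos hMu (hpos _)).le
          exact mul_le_mul (mul_le_mul_of_nonneg_right c5 k1.le) h9 k3 (mul_nonneg k2 k1.le)
      _ = _ := by ring
  exact le_of_mul_le_mul_right c6 hMu

end pull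

section

open Wnd

variable {ι : ℕ → Type*} [∀ n, DecidableEq (ι n)]

/-- **the relation** in the coordinates of the base incidence: flags (slots `2, 3, 4`) and lines
(slots `5, 6, 7`), up to `δ` -/
def RelE (W : Wnd 11 ι) (n : ℕ) (δ : ℝ) (G' : Finset (ι n)) : Prop :=
  ∃ a b e c : ℝ, a ^ 2 + b ^ 2 = 1 ∧ ∀ y ∈ G',
    |a * W.crd n (W.s₀ n) y 2 + b * (W.crd n (W.s₀ n) y 4 +
      W.crd n (W.s₀ n) y 3 * W.crd n (W.s₀ n) y 2) - e| ≤ δ ∧
    |a * W.crd n (W.s₀ n) y 6 + b * W.crd n (W.s₀ n) y 7 - e * W.crd n (W.s₀ n) y 5 - c| ≤ δ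

/-- `RigE'` at fixed numbers -/
def RigAt (x y m β θ : ℝ) : Prop :=
  ∀ (B : Base) (G : ℕ → RCfg (Fin 11)) (Leg : Set (Fin 11 → ℝ)) (ν : (Fin 11 → ℝ) → ℝ)
    (D R : ℝ) (T : ℕ → ℕ → Ln4) (E fa fb : ℕ → ℕ → ℝ),
    RModel B G 1 R Leg ν D → x ≤ R → AbsE B G x T E fa fb → ProfE Leg ν x y m β →
    ∀ ε : ℝ, 0 < ε → ∀ᶠ n in (U : Filter ℕ), ∃ (u : Fin 2 → ℝ) (e0 c0 : ℝ),
      u 0 ^ 2 + u 1 ^ 2 = 1 ∧ ∃ I' ⊆ (G n).I, B.d n ^ ε * ((G n).I.card : ℝ) ≤ (I'.card : ℝ) ∧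
        ∀ l k, (l, k) ∈ I' →
          |u 0 * eE E fa fb n k 0 + u 1 * eE E fa fb n k 1 - e0| ≤ B.d n ^ θ ∧
          |u 0 * wE T n l 0 + u 1 * wE T n l 1 - e0 * (T n l).v 1 - c0| ≤ B.d n ^ θ

namespace EWin

variable {W : Wnd 11 ι} {F : ∀ n, ι n → Fq4} {x : ℝ} (H : EWin W F x)

include H

/-- coordinates in the frame of the base incidence -/
theorem crd_eq {n : ℕ} (y : ι n) (s : Fin 10) :
    W.crd n (W.s₀ n) y (tq s) = co4 (Wk323.st (F n (W.s₀ n))) (Wk323.st (F n y)) s / uu W n s := by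
  unfold Wnd.crd
  rw [H.co, Wk323.coQ_st (H.str n _) (H.str n y) (Wk323.tq_ne s), Wk323.s4_tq]
  rfl

theorem nI_e {n : ℕ} (y : ι n) : (nI W F n y).e = W.crd n (W.s₀ n) y 2 := (H.crd_eq y 1).symm
theorem nI_fb {n : ℕ} (y : ι n) : (nI W F n y).fb = W.crd n (W.s₀ n) y 3 := (H.crd_eq y 2).symm
theorem nI_fa {n : ℕ} (y : ι n) : (nI W F n y).fa = W.crd n (W.s₀ n) y 4 := (H.crd_eq y 3).symm
theorem nI_v1 {n : ℕ} (y : ι n) : (nI W F n y).t.v 1 = W.crd n (W.s₀ n) y 5 :=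
  (H.crd_eq y 4).symm
theorem nI_v2 {n : ℕ} (y : ι n) : (nI W F n y).t.v 2 = W.crd n (W.s₀ n) y 6 :=
  (H.crd_eq y 5).symm
theorem nI_v0 {n : ℕ} (y : ι n) : (nI W F n y).t.v 0 = W.crd n (W.s₀ n) y 7 :=
  (H.crd_eq y 6).symm

omit H in
theorem unit_le {a b : ℝ} (h : a ^ 2 + b ^ 2 = 1) : |a| ≤ 1 ∧ |b| ≤ 1 := by
  constructor <;> rw [← sq_le_one_iff_abs_le_one] <;> nlinarith [sq_nonneg a, sq_nonneg b]

/-- **RIG_E on incidences** -/
theorem rig_inc {y m β θ θ' : ℝ} (hθ0 : 0 < θ') (hθ' : θ' < θ) (hθx : θ' < x) (hRig : RigAt x y m β θ)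
    (P : ProfE W.legW W.nu x y m β)
    (hdens : W.lam W.top ≤ W.lam (cut W.S W.top 0) + W.lam (cut W.S 0 W.top))
    (hfrost : ∀ y, 0 ≤ y → y ≤ x → W.lam (Pi.single W.kz y) ≤ -y)
    {E : ∀ n, Finset (ι n)} {Mu : ℕ → ℝ} (hE : EOk W E Mu) :
    ∀ ε : ℝ, 0 < ε → ∀ᶠ n in (U : Filter ℕ), ∃ G' ⊆ E n,
      W.B'.d n ^ ε * ((E n).card : ℝ) ≤ (G'.card : ℝ) ∧ RelE W n (W.B'.d n ^ θ') G' := by
  obtain ⟨E', g, hP, -, hM⟩ := hE.exists_model H.ok (fun _ => pcode W) (g₀ := fun n => (n : ℝ))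
    (tendsto_natCast_atTop_atTop.mono_left Crest.Agent.R138.Ex926.U_le_atTop) hdens (σ := 1)
    (R := x) zero_le_one le_rfl (by rw [H.top]) (fun y hy hyx => by rw [one_mul]; exact hfrost y hy hyx)
  have hcfg := ev_cfg H.ok hE hP
  have hE2 : ∀ᶠ n in (U : Filter ℕ), E' n ⊆ W.Cl n ∧ W.cfg E' n = W.cfg0 n (E' n) := by
    filter_upwards [hcfg] with n ⟨g1, h1, h2, h3⟩
    exact ⟨(hP.sub n).trans h1, h3⟩
  have hA := H.absE hE2
  have hR := hRig W.B' (W.cfg E') W.legW W.nu W.Dc x _ _ _ _ hM le_rfl hA P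
  intro ε hε
  have hε7 : 0 < ε / 7 := by positivity
  set κ := min (θ - θ') (x - θ') with hκ
  have hκ0 : 0 < κ := lt_min (sub_pos.2 hθ') (sub_pos.2 hθx)
  filter_upwards [hR _ hε7, pairs_pull H.ok hE hP hdens hε7, hE2, H.ok.ev_good, H.tight,
    Crest.Agent.R136.Gf356.ev_const_le W.B' hκ0 100] with n ⟨u, e0, c0, hu1, I', hI', hcard, hrel⟩
    h1 ⟨h2, h3⟩ gd hu hc
  refine ⟨(E' n).filter fun i => (W.lc n i, W.zc n i) ∈ I', (filter_subset _ _).trans (hP.sub n),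
    ?_, u 0, u 1, e0, c0, hu1, fun y hy => ?_⟩
  · have := h1 I' hI' hcard
    rwa [show 7 * (ε / 7) = ε by ring] at this
  have hpos : ∀ t : ℝ, 0 < W.B'.d n ^ t := fun t => Real.rpow_pos_of_pos (W.B'.pos n) t
  obtain ⟨hy1, hy2⟩ := mem_filter.1 hy
  have hyc := h2 hy1
  obtain ⟨a1', a2'⟩ := mem_lrep hyc rfl
  obtain ⟨b1', b2'⟩ := mem_zrep hyc rfl
  have uy := H.unit gd hu hyc
  have ul := H.unit gd hu a1'
  have uz := H.unit gd hu b1'
  obtain ⟨k2, -⟩ := line_closeE uy fun s q0 => H.lineC gd hu hyc a1' a2'.symm s q0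
  obtain ⟨-, d2, d3, d4⟩ := H.levC gd hu hyc b1' b2'.symm
  obtain ⟨r1, r2⟩ := hrel _ _ hy2
  rw [← H.nI_e, ← H.nI_fa, ← H.nI_fb, ← H.nI_v1, ← H.nI_v2, ← H.nI_v0]
  obtain ⟨q0, q1⟩ := unit_le hu1
  set δ := W.B'.d n ^ x with hδ
  have e1 : 100 * W.B'.d n ^ θ ≤ W.B'.d n ^ θ' := by
    have := mul_le_mul_of_nonneg_right hc (hpos θ).le
    refine this.trans ?_
    rw [← Real.rpow_add (W.B'.pos n)]
    exact Real.rpow_le_rpow_of_exponent_ge (W.B'.pos n) (W.B'.lt n).le (by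
      have := min_le_left (θ - θ') (x - θ'); linarith)
  have e2 : 100 * δ ≤ W.B'.d n ^ θ' := by
    have := mul_le_mul_of_nonneg_right hc (hpos x).le
    refine this.trans ?_
    rw [← Real.rpow_add (W.B'.pos n)]
    exact Real.rpow_le_rpow_of_exponent_ge (W.B'.pos n) (W.B'.lt n).le (by
      have := min_le_right (θ - θ') (x - θ'); linarith)
  have hδ0 : 0 < δ := hpos x
  -- flags
  set e := (nI W F n y).e
  set fa := (nI W F n y).fa
  set fb := (nI W F n y).fb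
  set ez := (nI W F n (W.zrep n (W.zc n y))).e
  set faz := (nI W F n (W.zrep n (W.zc n y))).fa
  set fbz := (nI W F n (W.zrep n (W.zc n y))).fb
  change |u 0 * ez + u 1 * (faz + fbz * ez) - e0| ≤ _ at r1
  have f1 : |fbz * ez - fb * e| ≤ 1 * δ + δ * 1 :=
    Wk323.prod_lip uy.fb uz.e d3 d2
  have g1 : |u 0 * (ez - e)| ≤ 1 * δ := abs_mul_le q0 d2
  have g2 : |u 1 * ((faz - fa) + (fbz * ez - fb * e))| ≤ 1 * (2 * δ + (1 * δ + δ * 1)) :=
    abs_mul_le q1 ((abs_add_le _ _).trans (add_le_add d4 f1))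
  -- absolute constants
  have z3 : W.B'.d n ^ θ ≤ 1 := Real.rpow_le_one (W.B'.pos n).le (W.B'.lt n).le (hθ0.trans hθ').le
  have ee : |e0| ≤ 5 := by
    have z1 := abs_mul_le q0 uz.e
    have z2 : |u 1 * (faz + fbz * ez)| ≤ 1 * (1 + 1 * 1) :=
      abs_mul_le q1 ((abs_add_le _ _).trans (add_le_add uz.fa (abs_mul_le uz.fb uz.e)))
    have z4 : e0 = (u 0 * ez + u 1 * (faz + fbz * ez)) - (u 0 * ez + u 1 * (faz + fbz * ez) - e0) := by
      ring
    rw [z4]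
    refine (abs_sub _ _).trans ?_
    have := abs_add_le (u 0 * ez) (u 1 * (faz + fbz * ez))
    linarith
  constructor
  · have z4 : u 0 * e + u 1 * (fa + fb * e) - e0 = (u 0 * ez + u 1 * (faz + fbz * ez) - e0) -
        u 0 * (ez - e) - u 1 * ((faz - fa) + (fbz * ez - fb * e)) := by ring
    rw [z4]
    have t1 := abs_sub ((u 0 * ez + u 1 * (faz + fbz * ez) - e0) - u 0 * (ez - e))
      (u 1 * ((faz - fa) + (fbz * ez - fb * e)))
    have t2 := abs_sub (u 0 * ez + u 1 * (faz + fbz * ez) - e0) (u 0 * (ez - e))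
    linarith
  · set v1 := (nI W F n y).t.v 1
    set v2 := (nI W F n y).t.v 2
    set v0 := (nI W F n y).t.v 0
    have k1 := k2 1
    have k3 := k2 2
    have k0 := k2 0
    change |(lT W F n (W.lc n y)).v 1 - v1| ≤ _ at k1
    change |(lT W F n (W.lc n y)).v 2 - v2| ≤ _ at k3
    change |(lT W F n (W.lc n y)).v 0 - v0| ≤ _ at k0
    change |u 0 * (lT W F n (W.lc n y)).v 2 + u 1 * (lT W F n (W.lc n y)).v 0 -
      e0 * (lT W F n (W.lc n y)).v 1 - c0| ≤ _ at r2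
    have t0 := abs_mul_le q0 k3
    have t1 := abs_mul_le q1 k0
    have t2 := abs_mul_le ee k1
    have z4 : u 0 * v2 + u 1 * v0 - e0 * v1 - c0 = (u 0 * (lT W F n (W.lc n y)).v 2 +
        u 1 * (lT W F n (W.lc n y)).v 0 - e0 * (lT W F n (W.lc n y)).v 1 - c0) -
        u 0 * ((lT W F n (W.lc n y)).v 2 - v2) - u 1 * ((lT W F n (W.lc n y)).v 0 - v0) +
        e0 * ((lT W F n (W.lc n y)).v 1 - v1) := by ring
    rw [z4]
    have s1 := abs_add_le ((u 0 * (lT W F n (W.lc n y)).v 2 +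
        u 1 * (lT W F n (W.lc n y)).v 0 - e0 * (lT W F n (W.lc n y)).v 1 - c0) -
        u 0 * ((lT W F n (W.lc n y)).v 2 - v2) - u 1 * ((lT W F n (W.lc n y)).v 0 - v0))
        (e0 * ((lT W F n (W.lc n y)).v 1 - v1))
    have s2 := abs_sub ((u 0 * (lT W F n (W.lc n y)).v 2 +
        u 1 * (lT W F n (W.lc n y)).v 0 - e0 * (lT W F n (W.lc n y)).v 1 - c0) -
        u 0 * ((lT W F n (W.lc n y)).v 2 - v2)) (u 1 * ((lT W F n (W.lc n y)).v 0 - v0))
    have s3 := abs_sub (u 0 * (lT W F n (W.lc n y)).v 2 +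
        u 1 * (lT W F n (W.lc n y)).v 0 - e0 * (lT W F n (W.lc n y)).v 1 - c0)
        (u 0 * ((lT W F n (W.lc n y)).v 2 - v2))
    linarith

end EWin

end

end Crest.Agent.R136.WinE323
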