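import Crest.Agent.R136.Sh1_605

/-!
# R136: projective straightening of a quadric (helper321)

Points `(z, x)`, `x = (Y, A, B)`.  `Pj` : unipotent projective maps
`(z, Y, A, B) ↦ (z + a A + b B + y Y, Y, A, B + g Y + h A) / (1 + s A + r Y)`.

* `Pj.inv`, `Pj.line` (image of a line), `line_pos`;
* `pull` : `T² · q ∘ ψ`, again a polynomial of degree at most `2` (`pull_isQ`);
* `Wq` : the general quadratic polynomial which vanishes on the `z`-axis, with
  gradient `(1 + γ z) dY - z dB - ζ z dA` there; `Wq.witt` : it is `T² ·` model `∘ ψ` **exactly**,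
  model `= Y - z B - κ' A²`.
-/

set_option autoImplicit false
set_option linter.unusedVariables false

namespace Crest.Agent.R136.Wit321

open Crest.Agent.R136.Sh605

/-- a unipotent projective map: `T = 1 + s A + r Y`, `z' = z + a A + b B + y Y`,
`B' = B + g Y + h A` -/
structure Pj where
  g : ℝ
  h : ℝ
  a : ℝ
  b : ℝ
  y : ℝ
  s : ℝ
  r : ℝ

namespace Pj

/-- the inverse map -/
def inv (P : Pj) : Pj := ⟨-P.g, -P.h, -(P.a - P.b * P.h), -P.b, -(P.y - P.b * P.g), -P.s, -P.r⟩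

theorem inv_inv (P : Pj) : P.inv.inv = P := by
  cases P
  simp only [inv, Pj.mk.injEq]
  refine ⟨by ring, by ring, by ring, by ring, by ring, by ring, by ring⟩

/-- denominator -/
def T (P : Pj) (x : V3) : ℝ := 1 + P.s * x 1 + P.r * x 0

/-- homogeneous height -/
def Z (P : Pj) (z : ℝ) (x : V3) : ℝ := z + P.a * x 1 + P.b * x 2 + P.y * x 0

/-- homogeneous position -/
def X (P : Pj) (x : V3) : V3 := ![x 0, x 1, x 2 + P.g * x 0 + P.h * x 1]

/-- new height -/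
noncomputable def ht (P : Pj) (z : ℝ) (x : V3) : ℝ := P.Z z x / P.T x

/-- new position -/
noncomputable def pt (P : Pj) (x : V3) : V3 := fun i => P.X x i / P.T x

@[simp] theorem X_0 (P : Pj) (x : V3) : P.X x 0 = x 0 := rfl
@[simp] theorem X_1 (P : Pj) (x : V3) : P.X x 1 = x 1 := rfl
@[simp] theorem X_2 (P : Pj) (x : V3) : P.X x 2 = x 2 + P.g * x 0 + P.h * x 1 := rfl

theorem inv_T (P : Pj) {x : V3} (h : P.T x ≠ 0) : P.inv.T (P.pt x) = 1 / P.T x := by
  simp only [T, inv, pt, X_0, X_1] at h ⊢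
  field_simp
  ring

theorem inv_ht (P : Pj) {z : ℝ} {x : V3} (h : P.T x ≠ 0) : P.inv.ht (P.ht z x) (P.pt x) = z := by
  have h1 := P.inv_T h
  have h2 : P.inv.Z (P.ht z x) (P.pt x) = z / P.T x := by
    simp only [Z, inv, pt, ht, X_0, X_1, X_2]
    field_simp
    ring
  unfold ht at h2 ⊢
  rw [h2, h1]
  field_simp

theorem inv_pt (P : Pj) {x : V3} (h : P.T x ≠ 0) : P.inv.pt (P.pt x) = x := by
  have h1 := P.inv_T h
  funext i
  change P.inv.X (P.pt x) i / P.inv.T (P.pt x) = x i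
  rw [h1]
  have h3 : P.inv.X (P.pt x) i = x i / P.T x := by
    fin_cases i <;> simp only [Fin.zero_eta, Fin.mk_one, Fin.reduceFinMk, X_0, X_1, X_2, pt]
    simp only [inv]
    ring
  rw [h3]
  field_simp

/-! ### lines -/

/-- `T` along the line: value at height `0` -/
def T0 (P : Pj) (t : Ln4) : ℝ := 1 + P.s * t.p 1 + P.r * t.p 0
/-- `T` along the line: slope -/
def T1 (P : Pj) (t : Ln4) : ℝ := P.s * t.v 1 + P.r * t.v 0
/-- `z'` along the line: value at height `0` -/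
def Z0 (P : Pj) (t : Ln4) : ℝ := P.a * t.p 1 + P.b * t.p 2 + P.y * t.p 0
/-- `z'` along the line: slope -/
def Z1 (P : Pj) (t : Ln4) : ℝ := 1 + P.a * t.v 1 + P.b * t.v 2 + P.y * t.v 0
/-- the determinant -/
def D (P : Pj) (t : Ln4) : ℝ := P.T0 t * P.Z1 t - P.T1 t * P.Z0 t

theorem T_pos (P : Pj) (t : Ln4) (z : ℝ) : P.T (t.pos z) = P.T0 t + z * P.T1 t := by
  simp only [T, T0, T1, Ln4.pos]; ring

theorem Z_pos (P : Pj) (t : Ln4) (z : ℝ) : P.Z z (t.pos z) = P.Z0 t + z * P.Z1 t := by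
  simp only [Z, Z0, Z1, Ln4.pos]; ring

theorem X_pos (P : Pj) (t : Ln4) (z : ℝ) (i : Fin 3) :
    P.X (t.pos z) i = P.X t.p i + z * P.X t.v i := by
  fin_cases i <;> simp only [Fin.zero_eta, Fin.mk_one, Fin.reduceFinMk, X_0, X_1, X_2, Ln4.pos]
  ring

/-- the image line -/
noncomputable def line (P : Pj) (t : Ln4) : Ln4 where
  p := fun i => (P.X t.p i * P.Z1 t - P.X t.v i * P.Z0 t) / P.D t
  v := fun i => (P.X t.v i * P.T0 t - P.X t.p i * P.T1 t) / P.D t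

/-- the image line passes through the image points -/
theorem line_pos (P : Pj) {t : Ln4} {z : ℝ} (hD : P.D t ≠ 0) (hT : P.T (t.pos z) ≠ 0) :
    (P.line t).pos (P.ht z (t.pos z)) = P.pt (t.pos z) := by
  funext i
  have e1 : P.ht z (t.pos z) = (P.Z0 t + z * P.Z1 t) / P.T (t.pos z) := by
    rw [ht, Z_pos]
  change (P.line t).p i + P.ht z (t.pos z) * (P.line t).v i = P.X (t.pos z) i / P.T (t.pos z)
  rw [e1, X_pos]
  simp only [line]
  rw [div_add' _ _ _ hD, div_eq_div_iff hD hT]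
  have hT' := P.T_pos t z
  have hT2 : P.T0 t + z * P.T1 t ≠ 0 := by rw [← hT']; exact hT
  rw [hT']
  field_simp
  unfold D
  ring

end Pj

/-! ### quadratic polynomials -/

/-- affine functions -/
def IsA (f : ℝ → V3 → ℝ) : Prop :=
  ∃ (c0 c1 : ℝ) (b : V3), ∀ z x, f z x = c0 + c1 * z + ∑ i, b i * x i

theorem IsA.mul {f h : ℝ → V3 → ℝ} (hf : IsA f) (hh : IsA h) : IsQ fun z x => f z x * h z x := by
  obtain ⟨c0, c1, b, hf⟩ := hf
  obtain ⟨k0, k1, d, hh⟩ := hh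
  refine ⟨c0 * k0, c0 * k1 + c1 * k0, c1 * k1, fun i => c0 * d i + k0 * b i,
    fun i => c1 * d i + k1 * b i, fun i j => b i * d j, fun z x => ?_⟩
  simp only [hf, hh, Fin.sum_univ_three]
  ring

theorem isQ_add {f h : ℝ → V3 → ℝ} (hf : IsQ f) (hh : IsQ h) : IsQ fun z x => f z x + h z x := by
  obtain ⟨c0, c1, c2, b, d, g, hf⟩ := hf
  obtain ⟨k0, k1, k2, b', d', g', hh⟩ := hh
  refine ⟨c0 + k0, c1 + k1, c2 + k2, b + b', d + d', g + g', fun z x => ?_⟩
  simp only [hf, hh, Fin.sum_univ_three, Pi.add_apply]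
  ring

theorem isQ_smul {f : ℝ → V3 → ℝ} (k : ℝ) (hf : IsQ f) : IsQ fun z x => k * f z x := by
  obtain ⟨c0, c1, c2, b, d, g, hf⟩ := hf
  refine ⟨k * c0, k * c1, k * c2, fun i => k * b i, fun i => k * d i, fun i j => k * g i j,
    fun z x => ?_⟩
  simp only [hf, Fin.sum_univ_three]
  ring

theorem isQ_sum {ι : Type*} (s : Finset ι) {f : ι → ℝ → V3 → ℝ} (hf : ∀ i ∈ s, IsQ (f i)) :
    IsQ fun z x => ∑ i ∈ s, f i z x := by
  classical
  induction s using Finset.induction_on with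
  | empty => exact ⟨0, 0, 0, 0, 0, 0, fun z x => by simp⟩
  | insert a s ha ih =>
    have h1 := isQ_add (hf a (Finset.mem_insert_self a s))
      (ih fun i hi => hf i (Finset.mem_insert_of_mem hi))
    refine (congrArg IsQ ?_).mp h1
    funext z x
    rw [Finset.sum_insert ha]

theorem isA_T (P : Pj) : IsA fun _ x => P.T x :=
  ⟨1, 0, ![P.r, P.s, 0], fun z x => by
    simp only [Pj.T, Fin.sum_univ_three, Matrix.cons_val]; ring⟩

theorem isA_Z (P : Pj) : IsA P.Z :=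
  ⟨0, 1, ![P.y, P.a, P.b], fun z x => by
    simp only [Pj.Z, Fin.sum_univ_three, Matrix.cons_val]; ring⟩

theorem isA_X (P : Pj) (i : Fin 3) : IsA fun _ x => P.X x i := by
  fin_cases i
  · exact ⟨0, 0, ![1, 0, 0], fun z x => by simp [Fin.sum_univ_three]⟩
  · exact ⟨0, 0, ![0, 1, 0], fun z x => by simp [Fin.sum_univ_three]⟩
  · exact ⟨0, 0, ![P.g, P.h, 1], fun z x => by simp [Fin.sum_univ_three]; ring⟩

/-- pull back of a quadratic polynomial -/
noncomputable def pull (P : Pj) (q : ℝ → V3 → ℝ) (z : ℝ) (x : V3) : ℝ :=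
  P.T x ^ 2 * q (P.ht z x) (P.pt x)

/-- the pull back is (off the polar hyperplane) a polynomial of degree at most `2` -/
theorem pull_isQ (P : Pj) {q : ℝ → V3 → ℝ} (hq : IsQ q) :
    ∃ q' : ℝ → V3 → ℝ, IsQ q' ∧ ∀ z x, P.T x ≠ 0 → q' z x = P.T x ^ 2 * q (P.ht z x) (P.pt x) := by
  obtain ⟨c0, c1, c2, b, d, g, hq⟩ := hq
  refine ⟨fun z x => c0 * (P.T x * P.T x) + (c1 * (P.Z z x * P.T x) + (c2 * (P.Z z x * P.Z z x) +
      (∑ i, (b i * (P.T x * P.X x i) + d i * (P.Z z x * P.X x i)) +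
        ∑ i, ∑ j, g i j * (P.X x i * P.X x j)))), ?_, ?_⟩
  · refine isQ_add (isQ_smul _ ((isA_T P).mul (isA_T P))) (isQ_add (isQ_smul _
      ((isA_Z P).mul (isA_T P))) (isQ_add (isQ_smul _ ((isA_Z P).mul (isA_Z P))) (isQ_add
        (isQ_sum _ fun i _ => isQ_add (isQ_smul _ ((isA_T P).mul (isA_X P i)))
          (isQ_smul _ ((isA_Z P).mul (isA_X P i))))
        (isQ_sum _ fun i _ => isQ_sum _ fun j _ =>
          isQ_smul _ ((isA_X P i).mul (isA_X P j))))))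
  · intro z x hT
    rw [hq]
    simp only [Pj.ht, Pj.pt, Fin.sum_univ_three]
    field_simp
    ring

/-! ### straightening -/

/-- quadratic polynomials vanishing on the `z`-axis with gradient
`(1 + γ z) dY - z dB - ζ z dA` there -/
structure Wq where
  γ : ℝ
  ζ : ℝ
  κ : ℝ
  c1 : ℝ
  c2 : ℝ
  c3 : ℝ
  c4 : ℝ
  c5 : ℝ

/-- the polynomial, `x = (Y, A, B)` -/
def Wq.q (w : Wq) (z : ℝ) (x : V3) : ℝ :=
  x 0 + w.γ * (z * x 0) - z * x 2 - w.ζ * (z * x 1) - w.κ * x 1 ^ 2 + w.c1 * (x 1 * x 2) +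
    w.c2 * x 2 ^ 2 + w.c3 * (x 1 * x 0) + w.c4 * (x 2 * x 0) + w.c5 * x 0 ^ 2

/-- curvature of the straightened quadric -/
def Wq.κ' (w : Wq) : ℝ := w.κ + w.c1 * w.ζ - w.c2 * w.ζ ^ 2

/-- the model quadric -/
def model (κ : ℝ) (z : ℝ) (x : V3) : ℝ := x 0 - z * x 2 - κ * x 1 ^ 2

/-- the straightening map -/
def Wq.pj (w : Wq) : Pj where
  g := -w.γ
  h := w.ζ
  a := -w.c1 + w.c2 * w.ζ
  b := -w.c2
  y := -(w.c4 + w.γ * w.c2)
  s := w.c3 + w.γ * w.c1 - 2 * w.c2 * w.ζ * w.γ - w.c4 * w.ζ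
  r := w.c5 + w.γ * w.c4 + w.γ ^ 2 * w.c2

/-- **Witt straightening** -/
theorem Wq.witt (w : Wq) (z : ℝ) (x : V3) :
    w.q z x = w.pj.T x * w.pj.X x 0 - w.pj.Z z x * w.pj.X x 2 - w.κ' * w.pj.X x 1 ^ 2 := by
  simp only [Wq.q, Wq.κ', Wq.pj, Pj.T, Pj.Z, Pj.X_0, Pj.X_1, Pj.X_2]
  ring

/-- **Witt straightening**, projective form -/
theorem Wq.witt' (w : Wq) {z : ℝ} {x : V3} (hT : w.pj.T x ≠ 0) :
    w.q z x = w.pj.T x ^ 2 * model w.κ' (w.pj.ht z x) (w.pj.pt x) := by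
  rw [w.witt]
  simp only [model, Pj.ht, Pj.pt]
  field_simp

end Crest.Agent.R136.Wit321
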