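import Crest.Agent.R136.Wit1_321
import Crest.Agent.R136.GeoN4_778

/-!
# R136: estimates for the straightening map (helper321)

`Pj.Sm P η` : all coefficients of the projective map are at most `η`.

* `ht_near`, `pt_near`, `T_le` : the map is close to the identity; `D_near`, `line_near`.
* `pullQ` : pull back of a quadratic polynomial given by its coefficients; `pullQ_ev`;
  `pullQ_cl` : it is close to the polynomial; `nearG_pull` : gradient close to the model.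
* `ul` : a line in anisotropic units; `bent` : 778's `Bent` for the image line.
* `mkF`, `mkF_true` : the flag of a line, three coefficients adjusted.
-/

set_option autoImplicit false
set_option linter.unusedVariables false

namespace Crest.Agent.R136.Wit321

open Crest.Agent.R136.Sh605
open Crest.Agent.R136.NetW191
open Crest.Agent.R136.GeoN778
open Crest.Agent.R136.GeoW778 (qS TrueW evW_eq)

/-- all coefficients are at most `η` -/
structure Pj.Sm (P : Pj) (η : ℝ) : Prop where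
  g : |P.g| ≤ η
  h : |P.h| ≤ η
  a : |P.a| ≤ η
  b : |P.b| ≤ η
  y : |P.y| ≤ η
  s : |P.s| ≤ η
  r : |P.r| ≤ η

namespace Pj

variable {P : Pj} {η R : ℝ}

theorem Sm.nn (h : P.Sm η) : 0 ≤ η := (abs_nonneg _).trans h.g

theorem T_near (h : P.Sm η) {x : V3} (hx : ∀ k, |x k| ≤ R) : |P.T x - 1| ≤ 2 * (η * R) := by
  have e : P.T x - 1 = P.s * x 1 + P.r * x 0 := by simp only [T]; ring
  rw [e]
  exact (a2 (m2 h.s (hx 1)) (m2 h.r (hx 0))).trans (le_of_eq (by ring))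

theorem T_half (h : P.Sm η) {x : V3} (hx : ∀ k, |x k| ≤ R) (hη : 4 * (η * R) ≤ 1) :
    1 / 2 ≤ P.T x ∧ P.T x ≤ 3 / 2 := by
  have := abs_le.1 (T_near h hx)
  constructor <;> linarith [this.1, this.2]

theorem Z_near (h : P.Sm η) {z : ℝ} {x : V3} (hx : ∀ k, |x k| ≤ R) :
    |P.Z z x - z| ≤ 3 * (η * R) := by
  have e : P.Z z x - z = P.a * x 1 + P.b * x 2 + P.y * x 0 := by simp only [Z]; ring
  rw [e]
  exact (a2 (a2 (m2 h.a (hx 1)) (m2 h.b (hx 2))) (m2 h.y (hx 0))).trans (le_of_eq (by ring))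

theorem X_near (h : P.Sm η) {x : V3} (hx : ∀ k, |x k| ≤ R) (k : Fin 3) :
    |P.X x k - x k| ≤ 2 * (η * R) := by
  have hR : 0 ≤ η * R := mul_nonneg h.nn ((abs_nonneg _).trans (hx 0))
  fin_cases k
  · show |P.X x 0 - x 0| ≤ 2 * (η * R)
    rw [X_0, sub_self, abs_zero]; linarith
  · show |P.X x 1 - x 1| ≤ 2 * (η * R)
    rw [X_1, sub_self, abs_zero]; linarith
  · show |P.X x 2 - x 2| ≤ 2 * (η * R)
    rw [X_2]
    have e : x 2 + P.g * x 0 + P.h * x 1 - x 2 = P.g * x 0 + P.h * x 1 := by ring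
    rw [e]
    exact (a2 (m2 h.g (hx 0)) (m2 h.h (hx 1))).trans (le_of_eq (by ring))

/-- a quotient close to its numerator -/
theorem quot_near {N T u δ ε M : ℝ} (hN : |N - u| ≤ δ) (hT : |T - 1| ≤ ε) (hT' : 1 / 2 ≤ T)
    (hu : |u| ≤ M) : |N / T - u| ≤ 2 * (δ + M * ε) := by
  have hp : 0 < T := by linarith
  have e : N / T - u = ((N - u) - u * (T - 1)) / T := by field_simp; ring
  rw [e, abs_div, abs_of_pos hp, div_le_iff₀ hp]
  have := s2 hN (m2 hu hT)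
  have h0 := abs_nonneg ((N - u) - u * (T - 1))
  nlinarith

theorem ht_near (h : P.Sm η) {z : ℝ} {x : V3} (hx : ∀ k, |x k| ≤ R) (hz : |z| ≤ R) (hR : 1 ≤ R)
    (hη : 4 * (η * R) ≤ 1) : |P.ht z x - z| ≤ 10 * (η * R ^ 2) := by
  have := quot_near (Z_near h hx) (T_near h hx) (T_half h hx hη).1 hz
  refine this.trans ?_
  have := h.nn
  nlinarith [mul_nonneg this (sub_nonneg.2 hR), mul_nonneg (mul_nonneg this (sub_nonneg.2 hR))
    (by linarith : (0:ℝ) ≤ R)]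

theorem pt_near (h : P.Sm η) {x : V3} (hx : ∀ k, |x k| ≤ R) (hR : 1 ≤ R)
    (hη : 4 * (η * R) ≤ 1) (k : Fin 3) : |P.pt x k - x k| ≤ 8 * (η * R ^ 2) := by
  have := quot_near (X_near h hx k) (T_near h hx) (T_half h hx hη).1 (hx k)
  refine this.trans ?_
  have := h.nn
  nlinarith [mul_nonneg this (sub_nonneg.2 hR), mul_nonneg (mul_nonneg this (sub_nonneg.2 hR))
    (by linarith : (0:ℝ) ≤ R)]

/-! ### lines -/

variable {t : Ln4}

theorem lc (h : P.Sm η) (hp : ∀ k, |t.p k| ≤ R) (hv : ∀ k, |t.v k| ≤ R) :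
    |P.T0 t - 1| ≤ 2 * (η * R) ∧ |P.T1 t| ≤ 2 * (η * R) ∧ |P.Z0 t| ≤ 3 * (η * R) ∧
      |P.Z1 t - 1| ≤ 3 * (η * R) := by
  refine ⟨?_, ?_, ?_, ?_⟩
  · have e : P.T0 t - 1 = P.s * t.p 1 + P.r * t.p 0 := by simp only [T0]; ring
    rw [e]
    exact (a2 (m2 h.s (hp 1)) (m2 h.r (hp 0))).trans (le_of_eq (by ring))
  · exact (a2 (m2 h.s (hv 1)) (m2 h.r (hv 0))).trans (le_of_eq (by ring))
  · exact (a2 (a2 (m2 h.a (hp 1)) (m2 h.b (hp 2))) (m2 h.y (hp 0))).trans (le_of_eq (by ring))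
  · have e : P.Z1 t - 1 = P.a * t.v 1 + P.b * t.v 2 + P.y * t.v 0 := by simp only [Z1]; ring
    rw [e]
    exact (a2 (a2 (m2 h.a (hv 1)) (m2 h.b (hv 2))) (m2 h.y (hv 0))).trans (le_of_eq (by ring))

theorem D_near (h : P.Sm η) (hp : ∀ k, |t.p k| ≤ R) (hv : ∀ k, |t.v k| ≤ R)
    (hη : 20 * (η * R) ≤ 1) : |P.D t - 1| ≤ 6 * (η * R) := by
  obtain ⟨h0, h1, h2, h3⟩ := lc h hp hv
  have e : P.D t - 1 = (P.T0 t - 1) * (P.Z1 t - 1) + (P.T0 t - 1) + (P.Z1 t - 1) -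
      P.T1 t * P.Z0 t := by simp only [D]; ring
  rw [e]
  refine (s2 (a2 (a2 (m2 h0 h3) h0) h3) (m2 h1 h2)).trans ?_
  have hn : 0 ≤ η * R := by
    have := (abs_nonneg _).trans h1; linarith
  nlinarith

theorem D_half (h : P.Sm η) (hp : ∀ k, |t.p k| ≤ R) (hv : ∀ k, |t.v k| ≤ R)
    (hη : 20 * (η * R) ≤ 1) : 1 / 2 ≤ P.D t := by
  have := abs_le.1 (D_near h hp hv hη)
  have hn : 0 ≤ η * R := by
    have := (abs_nonneg _).trans (lc h hp hv).2.1; linarith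
  linarith [this.1]

theorem line_p (h : P.Sm η) (hp : ∀ k, |t.p k| ≤ R) (hv : ∀ k, |t.v k| ≤ R) (hR : 1 ≤ R)
    (hη : 20 * (η * R) ≤ 1) (k : Fin 3) : |(P.line t).p k - t.p k| ≤ 40 * (η * R ^ 2) := by
  obtain ⟨h0, h1, h2, h3⟩ := lc h hp hv
  have hn : 0 ≤ η * R := by
    have := (abs_nonneg _).trans h1; linarith
  have x1 := X_near h hp k
  have x2 := X_near h hv k
  have x2' : |P.X t.v k| ≤ 2 * R := by
    have e : P.X t.v k = (P.X t.v k - t.v k) + t.v k := by ring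
    rw [e]
    refine (a2 x2 (hv k)).trans ?_
    nlinarith
  have e : P.X t.p k * P.Z1 t - P.X t.v k * P.Z0 t - t.p k =
      (P.X t.p k - t.p k) * (P.Z1 t - 1) + (P.X t.p k - t.p k) + t.p k * (P.Z1 t - 1) -
        P.X t.v k * P.Z0 t := by ring
  have hN : |P.X t.p k * P.Z1 t - P.X t.v k * P.Z0 t - t.p k| ≤
      2 * (η * R) * (3 * (η * R)) + 2 * (η * R) + R * (3 * (η * R)) + 2 * R * (3 * (η * R)) := by
    rw [e]
    exact s2 (a2 (a2 (m2 x1 h3) x1) (m2 (hp k) h3)) (m2 x2' h2)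
  have := quot_near hN (D_near h hp hv hη) (D_half h hp hv hη) (hp k)
  refine this.trans ?_
  have e1 : 2 * (η * R) * (3 * (η * R)) ≤ η * R := by nlinarith
  have e2 : η * R ≤ η * R ^ 2 := by
    have := mul_le_mul_of_nonneg_left hR hn
    nlinarith
  have e3 : R * (3 * (η * R)) = 3 * (η * R ^ 2) := by ring
  have e4 : 2 * R * (3 * (η * R)) = 6 * (η * R ^ 2) := by ring
  have e5 : R * (6 * (η * R)) = 6 * (η * R ^ 2) := by ring
  rw [e3, e4, e5]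
  nlinarith

theorem line_v (h : P.Sm η) (hp : ∀ k, |t.p k| ≤ R) (hv : ∀ k, |t.v k| ≤ R) (hR : 1 ≤ R)
    (hη : 20 * (η * R) ≤ 1) (k : Fin 3) : |(P.line t).v k - t.v k| ≤ 40 * (η * R ^ 2) := by
  obtain ⟨h0, h1, h2, h3⟩ := lc h hp hv
  have hn : 0 ≤ η * R := by
    have := (abs_nonneg _).trans h1; linarith
  have x1 := X_near h hp k
  have x2 := X_near h hv k
  have x1' : |P.X t.p k| ≤ 2 * R := by
    have e : P.X t.p k = (P.X t.p k - t.p k) + t.p k := by ring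
    rw [e]
    refine (a2 x1 (hp k)).trans ?_
    nlinarith
  have e : P.X t.v k * P.T0 t - P.X t.p k * P.T1 t - t.v k =
      (P.X t.v k - t.v k) * (P.T0 t - 1) + (P.X t.v k - t.v k) + t.v k * (P.T0 t - 1) -
        P.X t.p k * P.T1 t := by ring
  have hN : |P.X t.v k * P.T0 t - P.X t.p k * P.T1 t - t.v k| ≤
      2 * (η * R) * (2 * (η * R)) + 2 * (η * R) + R * (2 * (η * R)) + 2 * R * (2 * (η * R)) := by
    rw [e]
    exact s2 (a2 (a2 (m2 x2 h0) x2) (m2 (hv k) h0)) (m2 x1' h1)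
  have := quot_near hN (D_near h hp hv hη) (D_half h hp hv hη) (hv k)
  refine this.trans ?_
  have e1 : 2 * (η * R) * (2 * (η * R)) ≤ η * R := by nlinarith
  have e2 : η * R ≤ η * R ^ 2 := by
    have := mul_le_mul_of_nonneg_left hR hn
    nlinarith
  have e3 : R * (2 * (η * R)) = 2 * (η * R ^ 2) := by ring
  have e4 : 2 * R * (2 * (η * R)) = 4 * (η * R ^ 2) := by ring
  have e5 : R * (6 * (η * R)) = 6 * (η * R ^ 2) := by ring
  rw [e3, e4, e5]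
  nlinarith

/-- the inverse map is small -/
theorem Sm.inv (h : P.Sm η) (hη : η ≤ 1) : P.inv.Sm (2 * η) := by
  have h0 := h.nn
  refine ⟨?_, ?_, ?_, ?_, ?_, ?_, ?_⟩
  · show |-P.g| ≤ 2 * η
    rw [abs_neg]; linarith [h.g]
  · show |-P.h| ≤ 2 * η
    rw [abs_neg]; linarith [h.h]
  · show |-(P.a - P.b * P.h)| ≤ 2 * η
    rw [abs_neg]
    refine (s2 h.a (m2 h.b h.h)).trans ?_
    nlinarith
  · show |-P.b| ≤ 2 * η
    rw [abs_neg]; linarith [h.b]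
  · show |-(P.y - P.b * P.g)| ≤ 2 * η
    rw [abs_neg]
    refine (s2 h.y (m2 h.b h.g)).trans ?_
    nlinarith
  · show |-P.s| ≤ 2 * η
    rw [abs_neg]; linarith [h.s]
  · show |-P.r| ≤ 2 * η
    rw [abs_neg]; linarith [h.r]

end Pj

/-! ### pull back, coefficients -/

/-- linear part of the denominator -/
def Pj.τ (P : Pj) : V3 := ![P.r, P.s, 0]
/-- linear part of the new height -/
def Pj.ζ (P : Pj) : V3 := ![P.y, P.a, P.b]
/-- matrix of the new position -/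
def Pj.ξ (P : Pj) : Fin 3 → V3 := ![![1, 0, 0], ![0, 1, 0], ![P.g, P.h, 1]]

/-- `ξ 2` off the diagonal -/
def Pj.χ (P : Pj) : V3 := ![P.g, P.h, 0]

/-- coefficients of `T² · Q ∘ ψ` -/
def pullQ (P : Pj) (Q : Qd) : Qd where
  c0 := Q.c0
  c1 := Q.c1
  c2 := Q.c2
  b := fun i => 2 * Q.c0 * P.τ i + Q.c1 * P.ζ i + ∑ k, Q.b k * P.ξ k i
  d := fun i => Q.c1 * P.τ i + 2 * Q.c2 * P.ζ i + ∑ k, Q.d k * P.ξ k i
  g := fun i j => Q.c0 * (P.τ i * P.τ j) + Q.c1 * (P.ζ i * P.τ j) + Q.c2 * (P.ζ i * P.ζ j) +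
    ∑ k, (Q.b k * (P.ξ k i * P.τ j) + Q.d k * (P.ζ i * P.ξ k j)) +
    ∑ k, ∑ l, Q.g k l * (P.ξ k i * P.ξ l j)

theorem pullQ_ev (P : Pj) (Q : Qd) {z : ℝ} {x : V3} (hT : P.T x ≠ 0) :
    (pullQ P Q).ev z x = P.T x ^ 2 * Q.ev (P.ht z x) (P.pt x) := by
  have e1 : P.T x ^ 2 * Q.ev (P.ht z x) (P.pt x) =
      Q.c0 * P.T x ^ 2 + Q.c1 * (P.Z z x * P.T x) + Q.c2 * P.Z z x ^ 2 +
        ∑ i, (Q.b i * P.T x + Q.d i * P.Z z x) * P.X x i +
        ∑ i, ∑ j, Q.g i j * (P.X x i * P.X x j) := by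
    simp only [Qd.ev, Pj.ht, Pj.pt, Fin.sum_univ_three]
    field_simp
  rw [e1]
  simp only [Qd.ev, pullQ, Pj.τ, Pj.ζ, Pj.ξ, Pj.T, Pj.Z, Pj.X_0, Pj.X_1, Pj.X_2,
    Fin.sum_univ_three, Matrix.cons_val]
  ring

/-- the coefficients of `Q` and `Q'` differ by at most `δ` -/
structure Cl (Q Q' : Qd) (δ : ℝ) : Prop where
  c0 : |Q.c0 - Q'.c0| ≤ δ
  c1 : |Q.c1 - Q'.c1| ≤ δ
  c2 : |Q.c2 - Q'.c2| ≤ δ
  b : ∀ i, |Q.b i - Q'.b i| ≤ δ
  d : ∀ i, |Q.d i - Q'.d i| ≤ δ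
  g : ∀ i j, |Q.g i j - Q'.g i j| ≤ δ

/-- the coefficients of `Q` are at most `K` -/
structure Sz (Q : Qd) (K : ℝ) : Prop where
  c0 : |Q.c0| ≤ K
  c1 : |Q.c1| ≤ K
  c2 : |Q.c2| ≤ K
  b : ∀ i, |Q.b i| ≤ K
  d : ∀ i, |Q.d i| ≤ K
  g : ∀ i j, |Q.g i j| ≤ K

theorem Cl.trans {Q Q' Q'' : Qd} {δ δ' : ℝ} (h : Cl Q Q' δ) (h' : Cl Q' Q'' δ') :
    Cl Q Q'' (δ + δ') where
  c0 := by have := a2 h.c0 h'.c0; rwa [sub_add_sub_cancel] at this
  c1 := by have := a2 h.c1 h'.c1; rwa [sub_add_sub_cancel] at this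
  c2 := by have := a2 h.c2 h'.c2; rwa [sub_add_sub_cancel] at this
  b := fun i => by have := a2 (h.b i) (h'.b i); rwa [sub_add_sub_cancel] at this
  d := fun i => by have := a2 (h.d i) (h'.d i); rwa [sub_add_sub_cancel] at this
  g := fun i j => by have := a2 (h.g i j) (h'.g i j); rwa [sub_add_sub_cancel] at this

theorem Cl.gr {Q Q' : Qd} {δ : ℝ} (h : Cl Q Q' δ) {z R : ℝ} {x : V3} (hz : |z| ≤ R)
    (hx : ∀ k, |x k| ≤ R) (k : Fin 3) : |Q.gr z x k - Q'.gr z x k| ≤ δ * (1 + 7 * R) := by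
  have e : Q.gr z x k - Q'.gr z x k = (Q.b k - Q'.b k) + (Q.d k - Q'.d k) * z +
      (((Q.g k 0 - Q'.g k 0) + (Q.g 0 k - Q'.g 0 k)) * x 0 +
      ((Q.g k 1 - Q'.g k 1) + (Q.g 1 k - Q'.g 1 k)) * x 1 +
      ((Q.g k 2 - Q'.g k 2) + (Q.g 2 k - Q'.g 2 k)) * x 2) := by
    simp only [Qd.gr, Fin.sum_univ_three]; ring
  rw [e]
  refine (a2 (a2 (h.b k) (m2 (h.d k) hz)) (a2 (a2 (m2 (a2 (h.g k 0) (h.g 0 k)) (hx 0))
    (m2 (a2 (h.g k 1) (h.g 1 k)) (hx 1))) (m2 (a2 (h.g k 2) (h.g 2 k)) (hx 2)))).trans ?_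
  exact le_of_eq (by ring)

section pull

variable {P : Pj} {η K : ℝ} {Q : Qd}

theorem tau_le (h : P.Sm η) (i : Fin 3) : |P.τ i| ≤ η := by
  fin_cases i
  · exact h.r
  · exact h.s
  · show |(0 : ℝ)| ≤ η
    rw [abs_zero]; exact h.nn

theorem zeta_le (h : P.Sm η) (i : Fin 3) : |P.ζ i| ≤ η := by
  fin_cases i
  · exact h.y
  · exact h.a
  · exact h.b

theorem xi_le (h : P.Sm η) (hη : η ≤ 1) (k i : Fin 3) : |P.ξ k i| ≤ 1 := by
  have := h.g
  have := h.h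
  fin_cases k <;> fin_cases i <;> simp [Pj.ξ] <;> linarith

theorem chi_le (h : P.Sm η) (i : Fin 3) : |P.χ i| ≤ η := by
  fin_cases i
  · exact h.g
  · exact h.h
  · show |(0 : ℝ)| ≤ η
    rw [abs_zero]; exact h.nn

/-- **the pull back is close to the polynomial** -/
theorem pullQ_cl (h : P.Sm η) (hη : η ≤ 1) (hQ : Sz Q K) : Cl (pullQ P Q) Q (12 * (η * K)) := by
  have χ := chi_le h
  have h0 := h.nn
  have hK : 0 ≤ K := (abs_nonneg _).trans hQ.c0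
  have hηK : 0 ≤ η * K := mul_nonneg h0 hK
  have hg := h.g
  have t := tau_le h
  have s := zeta_le h
  have x := xi_le h hη
  -- products
  have two : |(2 : ℝ)| ≤ 2 := by norm_num
  refine ⟨?_, ?_, ?_, ?_, ?_, ?_⟩
  · show |Q.c0 - Q.c0| ≤ _
    rw [sub_self, abs_zero]; positivity
  · show |Q.c1 - Q.c1| ≤ _
    rw [sub_self, abs_zero]; positivity
  · show |Q.c2 - Q.c2| ≤ _
    rw [sub_self, abs_zero]; positivity
  · intro i
    have e : (pullQ P Q).b i - Q.b i = 2 * Q.c0 * P.τ i + Q.c1 * P.ζ i + Q.b 2 * P.χ i := by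
      fin_cases i <;> simp [pullQ, Pj.ξ, Pj.χ, Fin.sum_univ_three] <;> ring
    rw [e]
    refine (a2 (a2 (m2 (m2 two hQ.c0) (t i)) (m2 hQ.c1 (s i))) (m2 (hQ.b 2) (χ i))).trans ?_
    nlinarith
  · intro i
    have e : (pullQ P Q).d i - Q.d i = Q.c1 * P.τ i + 2 * Q.c2 * P.ζ i + Q.d 2 * P.χ i := by
      fin_cases i <;> simp [pullQ, Pj.ξ, Pj.χ, Fin.sum_univ_three] <;> ring
    rw [e]
    refine (a2 (a2 (m2 hQ.c1 (t i)) (m2 (m2 two hQ.c2) (s i))) (m2 (hQ.d 2) (χ i))).trans ?_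
    nlinarith
  · intro i j
    have e : (pullQ P Q).g i j - Q.g i j = Q.c0 * (P.τ i * P.τ j) + Q.c1 * (P.ζ i * P.τ j) +
        Q.c2 * (P.ζ i * P.ζ j) + (Q.b 0 * (P.ξ 0 i * P.τ j) + Q.b 1 * (P.ξ 1 i * P.τ j) +
        Q.b 2 * (P.ξ 2 i * P.τ j)) + (Q.d 0 * (P.ζ i * P.ξ 0 j) + Q.d 1 * (P.ζ i * P.ξ 1 j) +
        Q.d 2 * (P.ζ i * P.ξ 2 j)) + (Q.g 2 j * P.χ i + Q.g i 2 * P.χ j +
        Q.g 2 2 * (P.χ i * P.χ j)) := by
      fin_cases i <;> fin_cases j <;>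
        simp [pullQ, Pj.ξ, Pj.χ, Fin.sum_univ_three] <;> ring
    have e3 := m2 (hQ.g 2 j) (χ i)
    have e4 := m2 (hQ.g i 2) (χ j)
    have e5 := m2 (hQ.g 2 2) (m2 (χ i) (χ j))
    rw [e]
    refine (a2 (a2 (a2 (a2 (a2 (m2 hQ.c0 (m2 (t i) (t j))) (m2 hQ.c1 (m2 (s i) (t j))))
      (m2 hQ.c2 (m2 (s i) (s j))))
      (a2 (a2 (m2 (hQ.b 0) (m2 (x 0 i) (t j))) (m2 (hQ.b 1) (m2 (x 1 i) (t j))))
        (m2 (hQ.b 2) (m2 (x 2 i) (t j)))))
      (a2 (a2 (m2 (hQ.d 0) (m2 (s i) (x 0 j))) (m2 (hQ.d 1) (m2 (s i) (x 1 j))))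
        (m2 (hQ.d 2) (m2 (s i) (x 2 j)))))
      (a2 (a2 e3 e4) e5)).trans ?_
    have : K * (η * η) ≤ K * η := by
      refine mul_le_mul_of_nonneg_left ?_ hK
      nlinarith
    nlinarith

end pull

/-! ### the model -/

/-- coefficients of `qS` -/
def qSd (κ σ : ℝ) (f : FW) : Qd where
  c0 := -(σ * f.G 13)
  c1 := -(σ * f.G 12)
  c2 := -(σ * f.G 9)
  b := ![1, -(σ * f.G 11), -(σ * f.G 10)]
  d := ![-(σ * f.G 4), -(σ * f.G 8), -1 - σ * f.G 7]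
  g := ![![-(σ * f.G 0), -(σ * f.G 2), -(σ * f.G 1)], ![0, -κ - σ * f.G 6, -(σ * f.G 5)],
    ![0, 0, -(σ * f.G 3)]]

theorem qSd_ev (κ σ : ℝ) (f : FW) (z : ℝ) (x : V3) : (qSd κ σ f).ev z x = qS κ σ f z x := by
  simp only [Qd.ev, qSd, qS, ht, evY, Fin.sum_univ_three, Matrix.cons_val]
  ring

/-- coefficients of the model quadric -/
def mod (κ : ℝ) : Qd where
  c0 := 0
  c1 := 0
  c2 := 0
  b := ![1, 0, 0]
  d := ![0, 0, -1]
  g := ![![0, 0, 0], ![0, -κ, 0], ![0, 0, 0]]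

theorem mod_ev (κ z : ℝ) (x : V3) : (mod κ).ev z x = model κ z x := by
  simp only [Qd.ev, mod, model, Fin.sum_univ_three, Matrix.cons_val]
  ring

theorem mod_gr (κ z : ℝ) (x : V3) : (mod κ).gr z x = ![1, -2 * κ * x 1, -z] := by
  funext k
  fin_cases k <;> simp [Qd.gr, mod, Fin.sum_univ_three] <;> ring

theorem qSd_cl {κ σ Γ : ℝ} {f : FW} (hσ : 0 ≤ σ) (hG : ∀ k, |f.G k| ≤ Γ) :
    Cl (qSd κ σ f) (mod κ) (σ * Γ) := by
  have hΓ : 0 ≤ Γ := (abs_nonneg _).trans (hG 0)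
  have hn : 0 ≤ σ * Γ := mul_nonneg hσ hΓ
  have k : ∀ j, |-(σ * f.G j)| ≤ σ * Γ := by
    intro j
    rw [abs_neg, abs_mul, abs_of_nonneg hσ]
    exact mul_le_mul_of_nonneg_left (hG j) hσ
  have z : |(0 : ℝ)| ≤ σ * Γ := by rw [abs_zero]; exact hn
  refine ⟨?_, ?_, ?_, ?_, ?_, ?_⟩
  · simpa [qSd, mod] using k 13
  · simpa [qSd, mod] using k 12
  · simpa [qSd, mod] using k 9
  · intro i
    fin_cases i
    · simpa [qSd, mod] using hn
    · simpa [qSd, mod] using k 11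
    · simpa [qSd, mod] using k 10
  · intro i
    fin_cases i
    · simpa [qSd, mod] using k 4
    · simpa [qSd, mod] using k 8
    · have e : (qSd κ σ f).d 2 - (mod κ).d 2 = -(σ * f.G 7) := by simp [qSd, mod]; ring
      exact e ▸ k 7
  · intro i j
    fin_cases i <;> fin_cases j
    · simpa [qSd, mod] using k 0
    · simpa [qSd, mod] using k 2
    · simpa [qSd, mod] using k 1
    · simpa [qSd, mod] using hn
    · have e : (qSd κ σ f).g 1 1 - (mod κ).g 1 1 = -(σ * f.G 6) := by simp [qSd, mod]; ring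
      exact e ▸ k 6
    · simpa [qSd, mod] using k 5
    · simpa [qSd, mod] using hn
    · simpa [qSd, mod] using hn
    · simpa [qSd, mod] using k 3

theorem mod_sz {κ : ℝ} (hκ : |κ| ≤ 1) : Sz (mod κ) 1 := by
  have z : |(0 : ℝ)| ≤ 1 := by norm_num
  refine ⟨z, z, z, ?_, ?_, ?_⟩
  · intro i; fin_cases i <;> simp [mod]
  · intro i; fin_cases i <;> simp [mod]
  · intro i j; fin_cases i <;> fin_cases j <;> simp [mod, hκ]

theorem Cl.sz {Q Q' : Qd} {δ K : ℝ} (h : Cl Q Q' δ) (h' : Sz Q' K) : Sz Q (δ + K) where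
  c0 := by have := a2 h.c0 h'.c0; rwa [sub_add_cancel] at this
  c1 := by have := a2 h.c1 h'.c1; rwa [sub_add_cancel] at this
  c2 := by have := a2 h.c2 h'.c2; rwa [sub_add_cancel] at this
  b := fun i => by have := a2 (h.b i) (h'.b i); rwa [sub_add_cancel] at this
  d := fun i => by have := a2 (h.d i) (h'.d i); rwa [sub_add_cancel] at this
  g := fun i j => by have := a2 (h.g i j) (h'.g i j); rwa [sub_add_cancel] at this

/-- polynomials close to the model have a gradient close to the model gradient -/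
theorem Cl.nearG {Q : Qd} {κ δ : ℝ} (h : Cl Q (mod κ) δ) {z R η : ℝ} {x : V3} (hz : |z| ≤ R)
    (hx : ∀ k, |x k| ≤ R) (hη : δ * (1 + 7 * R) ≤ η) : NearG Q κ η z x := by
  have k := fun j => (h.gr hz hx j).trans hη
  have e := mod_gr κ z x
  refine ⟨?_, ?_, ?_⟩
  · have := k 0
    rw [e] at this
    exact this
  · have := k 1
    rw [e] at this
    have e2 : Q.gr z x 1 + 2 * κ * x 1 = Q.gr z x 1 - (![1, -2 * κ * x 1, -z] : V3) 1 := by
      simp only [Matrix.cons_val]; ring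
    rw [e2]
    exact this
  · have := k 2
    rw [e] at this
    have e2 : Q.gr z x 2 + z = Q.gr z x 2 - (![1, -2 * κ * x 1, -z] : V3) 2 := by
      simp only [Matrix.cons_val]; ring
    rw [e2]
    exact this

/-- **the pull back of a flagged sheet is close to the model** -/
theorem pull_cl {P : Pj} {η κ σ Γ : ℝ} (h : P.Sm η) (hη : η ≤ 1) (hκ : |κ| ≤ 1) {f : FW}
    (hσ : 0 ≤ σ) (hG : ∀ k, |f.G k| ≤ Γ) (hs : σ * Γ ≤ 1) :
    Cl (pullQ P (qSd κ σ f)) (mod κ) (24 * η + σ * Γ) := by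
  have h1 := qSd_cl (κ := κ) hσ hG
  have h2 := pullQ_cl h hη (h1.sz (mod_sz hκ))
  have h3 := h2.trans h1
  have h0 := h.nn
  refine ⟨?_, ?_, ?_, fun i => ?_, fun i => ?_, fun i j => ?_⟩
  · exact h3.c0.trans (by nlinarith)
  · exact h3.c1.trans (by nlinarith)
  · exact h3.c2.trans (by nlinarith)
  · exact (h3.b i).trans (by nlinarith)
  · exact (h3.d i).trans (by nlinarith)
  · exact (h3.g i j).trans (by nlinarith)

/-! ### lines in anisotropic units -/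

/-- a line in the units `u` -/
noncomputable def ul (u : Un) (t : Ln4) : Ln4 where
  p := fun k => (t.p k + u.zc * t.v k) / u.W k
  v := fun k => u.H * t.v k / u.W k

theorem ul_pos {u : Un} (hu : u.Ok) (t : Ln4) (z : ℝ) : (ul u t).pos (u.zh z) = u.xh (t.pos z) := by
  funext k
  have hW := (hu.W0 k).ne'
  have hH := hu.H0.ne'
  simp only [ul, Ln4.pos, Un.zh, Un.xh]
  field_simp
  ring

/-- **bent lines**: the image line of a line of the container, and the pull back of a flagged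
sheet. -/
theorem bent {u : Un} (hu : u.Ok) {P : Pj} {η R κ σ : ℝ} (h : P.Sm η) (hR : 1 ≤ R)
    (hη : 20 * (η * R) ≤ 1) {i : FW} {L : Ln4} {z : ℝ} (hz : |u.zh z| ≤ R)
    (hp : ∀ k, |(ul u L).p k| ≤ R) (hv : ∀ k, |(ul u L).v k| ≤ R)
    (hx : ∀ k, |u.xh (L.pos z) k| ≤ R) :
    Bent u (pullQ P (qSd κ σ i)) κ σ i (10 * (η * R ^ 2)) L (P.line (ul u L)) z := by
  have h0 := h.nn
  have hn : 0 ≤ η * R := by positivity
  have h4 : 4 * (η * R) ≤ 1 := by linarith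
  obtain ⟨t1, t2⟩ := Pj.T_half h hx h4
  have hT : P.T (u.xh (L.pos z)) ≠ 0 := by
    have : 0 < P.T (u.xh (L.pos z)) := by linarith
    exact this.ne'
  have hD : P.D (ul u L) ≠ 0 := by
    have := Pj.D_half h hp hv hη
    have : 0 < P.D (ul u L) := by linarith
    exact this.ne'
  have hl := ul_pos hu L z
  have hpos : (P.line (ul u L)).pos (P.ht (u.zh z) (u.xh (L.pos z))) = P.pt (u.xh (L.pos z)) := by
    have := P.line_pos (t := ul u L) (z := u.zh z) hD (by rw [hl]; exact hT)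
    rwa [hl] at this
  refine ⟨P.ht (u.zh z) (u.xh (L.pos z)), Pj.ht_near h hx hz hR h4, fun k => ?_, ?_⟩
  · rw [hpos, abs_sub_comm]
    refine (Pj.pt_near h hx hR h4 k).trans ?_
    have : 0 ≤ η * R ^ 2 := by positivity
    linarith
  · rw [pullQ_ev P _ hT, qSd_ev, hpos, abs_mul]
    refine mul_le_mul_of_nonneg_right ?_ (abs_nonneg _)
    rw [abs_of_nonneg (sq_nonneg _)]
    nlinarith

/-! ### the flag of a line -/

/-- flag with given coefficients off the slots `9, 12, 13`, whose sheet contains the line `M`;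
base point at the height `z0` -/
noncomputable def mkF (κ σ : ℝ) (G : Fin 14 → ℝ) (M : Ln4) (z0 : ℝ) : FW where
  g := ![z0, M.v 1, M.pos z0 1, M.pos z0 2]
  G := ![G 0, G 1, G 2, G 3, G 4, G 5, G 6, G 7, G 8,
    (-(M.v 2) - κ * M.v 1 ^ 2) / σ -
      (G 0 * M.v 0 ^ 2 + G 1 * (M.v 2 * M.v 0) + G 2 * (M.v 1 * M.v 0) + G 3 * M.v 2 ^ 2 +
        G 4 * M.v 0 + G 5 * (M.v 1 * M.v 2) + G 6 * M.v 1 ^ 2 + G 7 * M.v 2 + G 8 * M.v 1),
    G 10, G 11,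
    (M.v 0 - M.p 2 - 2 * κ * (M.p 1 * M.v 1)) / σ -
      (2 * G 0 * (M.p 0 * M.v 0) + G 1 * (M.p 2 * M.v 0 + M.v 2 * M.p 0) +
        G 2 * (M.p 1 * M.v 0 + M.v 1 * M.p 0) + 2 * G 3 * (M.p 2 * M.v 2) + G 4 * M.p 0 +
        G 5 * (M.p 1 * M.v 2 + M.v 1 * M.p 2) + 2 * G 6 * (M.p 1 * M.v 1) + G 7 * M.p 2 +
        G 8 * M.p 1 + G 10 * M.v 2 + G 11 * M.v 1),
    (M.p 0 - κ * M.p 1 ^ 2) / σ -
      (G 0 * M.p 0 ^ 2 + G 1 * (M.p 2 * M.p 0) + G 2 * (M.p 1 * M.p 0) + G 3 * M.p 2 ^ 2 +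
        G 5 * (M.p 1 * M.p 2) + G 6 * M.p 1 ^ 2 + G 10 * M.p 2 + G 11 * M.p 1)]

theorem mkF_true {κ σ : ℝ} (hσ : σ ≠ 0) (G : Fin 14 → ℝ) (M : Ln4) (z0 : ℝ) :
    TrueW κ σ (mkF κ σ G M z0) M where
  c := rfl
  A := rfl
  B := rfl
  on := by
    intro z
    simp only [qS, ht, evY, mkF, Ln4.pos, Matrix.cons_val]
    field_simp
    ring

theorem mkF_G (κ σ : ℝ) (G : Fin 14 → ℝ) (M : Ln4) (z0 : ℝ) {k : Fin 14} (h9 : k ≠ 9)
    (h12 : k ≠ 12) (h13 : k ≠ 13) : (mkF κ σ G M z0).G k = G k := by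
  fin_cases k <;> first | rfl | exact absurd rfl h9 | exact absurd rfl h12 | exact absurd rfl h13

end Crest.Agent.R136.Wit321
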