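import Crest.Agent.R136.Wk9_323

/-!
# R136 (S0187): RIG wrapper, exponents (helper323)

`rigWin_of` : rigidity of a lightlike window from the counting statements of `WkD_323`.
-/

set_option autoImplicit false
set_option linter.unusedVariables false

open Filter Topology Finset

namespace Crest.Agent.R136.Wk323

open Crest.Agent.R136.Sh605
open Crest.Agent.R138.Ex926 (Base U)
open Crest.Agent.R136.Gf356

/-! ### powers -/

theorem pow_rp (B : Base) (n : ℕ) (s : ℝ) (k : ℕ) : (B.d n ^ s) ^ k = B.d n ^ (k * s) := by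
  rw [← Real.rpow_natCast, ← Real.rpow_mul (B.pos n).le]; congr 1; ring

theorem num1 (B : Base) (n : ℕ) {v0 vP vD vA e Cu Kk : ℝ} (hKk : Kk = 2 * Cu + 6)
    (hdec : v0 + vA ≤ vP + vD) :
    B.d n ^ (Kk * e) * B.d n ^ (-(v0 - vP) - e) * B.d n ^ (-(v0 - vD) - e) *
      B.d n ^ (-vA - Cu * (2 * e)) ≤ B.d n ^ (4 * e - v0) := by
  rw [← rpow_add', ← rpow_add', ← rpow_add']
  refine rpow_anti B n ?_
  rw [hKk]
  linarith

theorem num2 (B : Base) (n : ℕ) {v0 v5 vD e Cc Cd Kk b : ℝ} (hb : 0 < b)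
    (hcon : 6 * Kk * e + (Cc + 2 * Cd + 5) * e ≤ v0 - v5)
    (t6 : 4 * b ^ 3 * B.d n ^ (6 * Kk * e + (Cc + 2 * Cd + 5) * e) ≤
      B.d n ^ (6 * Kk * e + (Cc + 2 * Cd + 4) * e)) :
    B.d n ^ (-(v5 - vD) - Cc * e) * B.d n ^ (-vD - Cd * (2 * e)) ≤
      ((B.d n ^ (Kk * e)) ^ 2 / b) ^ 3 / 4 * B.d n ^ (4 * e - v0) := by
  have e1 : ((B.d n ^ (Kk * e)) ^ 2 / b) ^ 3 / 4 = (B.d n ^ (Kk * e)) ^ 6 / (4 * b ^ 3) := by
    field_simp
  have e2 : (B.d n ^ (Kk * e)) ^ 6 = B.d n ^ (6 * Kk * e) := by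
    rw [pow_rp]; congr 1; push_cast; ring
  rw [e1, e2, div_mul_eq_mul_div, le_div_iff₀ (by positivity)]
  have h1 : B.d n ^ (-(v5 - vD) - Cc * e) * B.d n ^ (-vD - Cd * (2 * e)) ≤
      B.d n ^ (6 * Kk * e + (Cc + 2 * Cd + 5) * e) * B.d n ^ (-v0 - (Cc + 2 * Cd) * e) := by
    rw [← rpow_add', ← rpow_add']
    exact rpow_anti B n (by linarith)
  have h2 : B.d n ^ (6 * Kk * e) * B.d n ^ (4 * e - v0) =
      B.d n ^ (6 * Kk * e + (Cc + 2 * Cd + 4) * e) * B.d n ^ (-v0 - (Cc + 2 * Cd) * e) := by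
    rw [← rpow_add', ← rpow_add']
    congr 1; ring
  rw [h2]
  have h3 := rpos B n (-v0 - (Cc + 2 * Cd) * e)
  calc B.d n ^ (-(v5 - vD) - Cc * e) * B.d n ^ (-vD - Cd * (2 * e)) * (4 * b ^ 3)
      ≤ B.d n ^ (6 * Kk * e + (Cc + 2 * Cd + 5) * e) * B.d n ^ (-v0 - (Cc + 2 * Cd) * e) *
          (4 * b ^ 3) := mul_le_mul_of_nonneg_right h1 (by positivity)
    _ = (4 * b ^ 3 * B.d n ^ (6 * Kk * e + (Cc + 2 * Cd + 5) * e)) *
          B.d n ^ (-v0 - (Cc + 2 * Cd) * e) := by ring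
    _ ≤ _ := mul_le_mul_of_nonneg_right t6 h3.le

theorem num3 (B : Base) (n : ℕ) {x e Cf : ℝ} (he : 0 < e)
    (t5 : 5 * B.d n ^ (x - 2 * e) ≤ B.d n ^ (x - Cf * (3 * e))) :
    3 * B.d n ^ (x - e) ≤ 2 * B.d n ^ (x - Cf * (3 * e)) ∧
      5 * B.d n ^ (x - e) ≤ 2 * B.d n ^ (x - Cf * (3 * e)) ∧
      B.d n ^ (-e) * (3 * B.d n ^ (x - e)) ≤ 2 * B.d n ^ (x - Cf * (3 * e)) := by
  have s1 : B.d n ^ (x - e) ≤ B.d n ^ (x - 2 * e) := rpow_anti B n (by linarith)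
  have hp2 := rpos B n (x - 2 * e)
  have hp3 := rpos B n (x - e)
  have e1 : B.d n ^ (-e) * (3 * B.d n ^ (x - e)) = 3 * B.d n ^ (x - 2 * e) := by
    have : B.d n ^ (x - 2 * e) = B.d n ^ (-e) * B.d n ^ (x - e) := by
      rw [← rpow_add']; congr 1; ring
    rw [this]; ring
  rw [e1]
  refine ⟨?_, ?_, ?_⟩ <;> linarith

theorem num4 (B : Base) (n : ℕ) {x e KE Ky Cf η : ℝ} (he : 0 < e) (hKE : 3 * Cf + 1 ≤ KE)
    (hη : η ≤ 2 * B.d n ^ (x - KE * e)) :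
    (4 * η + 6 * (2 * B.d n ^ (x - Cf * (3 * e)))) / B.d n ^ (Ky * e) ≤
      20 * B.d n ^ (x - (KE + Ky) * e) := by
  rw [div_le_iff₀ (rpos B n _)]
  have e1 : 20 * B.d n ^ (x - (KE + Ky) * e) * B.d n ^ (Ky * e) = 20 * B.d n ^ (x - KE * e) := by
    rw [mul_assoc, ← rpow_add']; congr 2; ring
  have e2 : B.d n ^ (x - Cf * (3 * e)) ≤ B.d n ^ (x - KE * e) := rpow_anti B n (by nlinarith)
  rw [e1]
  linarith

theorem num5 (B : Base) (n : ℕ) {x e KE Ky Cf ε : ℝ} (he : 0 < e) (hKE : 1 ≤ KE) (hKy : 0 ≤ Ky)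
    (t7 : 27 * B.d n ^ (x - (KE + Ky) * e) ≤ B.d n ^ (x - ε)) :
    20 * B.d n ^ (x - (KE + Ky) * e) + (3 + 2 * (2 / B.d n ^ (Ky * e))) * B.d n ^ (x - e) ≤
      B.d n ^ (x - ε) := by
  have e1 : 2 / B.d n ^ (Ky * e) = 2 * B.d n ^ (-(Ky * e)) := by
    rw [div_eq_mul_inv, ← Real.rpow_neg (B.pos n).le]
  have e2 : B.d n ^ (-(Ky * e)) * B.d n ^ (x - e) ≤ B.d n ^ (x - (KE + Ky) * e) := by
    rw [← rpow_add']
    exact rpow_anti B n (by nlinarith)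
  have e3 : B.d n ^ (x - e) ≤ B.d n ^ (x - (KE + Ky) * e) := rpow_anti B n (by nlinarith)
  rw [e1]
  linarith

theorem num6 (B : Base) (n : ℕ) {v e ε Cu Kk b m8 Ln Lp : ℝ} (hb : 0 < b) (hm8 : 0 < m8)
    (hLn : 0 ≤ Ln)
    (h : B.d n ^ (-v + e) * (((B.d n ^ (Kk * e)) ^ 2 / b) ^ 6 * B.d n ^ (Kk * e) / (8 * b) *
      ((B.d n ^ e) ^ 2 * Ln)) ≤ B.d n ^ (-v - Cu * (2 * e)) * (m8 * Lp))
    (t8 : m8 * (8 * b ^ 7) * B.d n ^ ε ≤ B.d n ^ ((13 * Kk + 2 * Cu + 3) * e)) :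
    B.d n ^ ε * Ln ≤ Lp := by
  have hp := rpos B n (-v - Cu * (2 * e))
  have e1 : B.d n ^ (-v + e) * (((B.d n ^ (Kk * e)) ^ 2 / b) ^ 6 * B.d n ^ (Kk * e) / (8 * b) *
      ((B.d n ^ e) ^ 2 * Ln)) = B.d n ^ (-v - Cu * (2 * e)) *
      (B.d n ^ ((13 * Kk + 2 * Cu + 3) * e) * Ln / (8 * b ^ 7)) := by
    have a1 : ((B.d n ^ (Kk * e)) ^ 2 / b) ^ 6 * B.d n ^ (Kk * e) / (8 * b) =
        (B.d n ^ (Kk * e)) ^ 13 / (8 * b ^ 7) := by field_simp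
    have a2 : B.d n ^ (-v + e) * (B.d n ^ (Kk * e)) ^ 13 * (B.d n ^ e) ^ 2 =
        B.d n ^ (-v - Cu * (2 * e)) * B.d n ^ ((13 * Kk + 2 * Cu + 3) * e) := by
      rw [pow_rp, pow_rp, ← rpow_add', ← rpow_add', ← rpow_add']
      congr 1; push_cast; ring
    rw [a1]
    calc _ = (B.d n ^ (-v + e) * (B.d n ^ (Kk * e)) ^ 13 * (B.d n ^ e) ^ 2) * Ln / (8 * b ^ 7) := by
          ring
      _ = _ := by rw [a2]; ring
  rw [e1] at h
  have h2 := le_of_mul_le_mul_left h hp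
  rw [div_le_iff₀ (by positivity)] at h2
  have h3 : m8 * (8 * b ^ 7) * (B.d n ^ ε * Ln) ≤ m8 * (8 * b ^ 7) * Lp := by
    calc m8 * (8 * b ^ 7) * (B.d n ^ ε * Ln) = (m8 * (8 * b ^ 7) * B.d n ^ ε) * Ln := by ring
      _ ≤ B.d n ^ ((13 * Kk + 2 * Cu + 3) * e) * Ln := mul_le_mul_of_nonneg_right t8 hLn
      _ ≤ _ := h2
      _ = _ := by ring
  exact le_of_mul_le_mul_left h3 (by positivity)

variable {B : Base} {G : ℕ → RCfg (Fin 11)} {Leg : Set (Fin 11 → ℝ)} {ν : (Fin 11 → ℝ) → ℝ}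
  {D R x a m : ℝ} {T : ℕ → ℕ → Ln4} {E : ℕ → ℕ → ℝ} {fa : ℕ → ℕ → ℕ → ℝ} {fb : ℕ → ℕ → ℝ}
  {mu be : ℕ → ℝ}

set_option maxHeartbeats 2000000 in
/-- **RIGIDITY OF A LIGHTLIKE WINDOW**, from the counting statements. -/
theorem rigWin_of (H : RModel B G 1 R Leg ν D) (hxR : x ≤ R) (A : AbsWin B G x T E fa fb mu be)
    (P : RigProf Leg ν x a m)
    (hmu : ∀ ε : ℝ, 0 < ε → ∀ᶠ n in (U : Filter ℕ), B.d n ^ ε ≤ |mu n| ∧ |mu n| ≤ B.d n ^ (-ε))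
    (hpc : PosCount B G ν x T fa fb) (hdc : DirCount B G ν x T E)
    (hcu : CellUp B G ν x T E fa fb) (hcl : CellLow B G ν x T E fa fb)
    (hfb : FibBound B G x a T) (hcc : DirConc B G ν x T E) (hdu : DirUp B G ν x T E fa fb)
    {ε : ℝ} (hε : 0 < ε) :
    ∀ᶠ n in (U : Filter ℕ), ∃ s0 c0 C0 E0 : ℝ, |s0| ≤ B.d n ^ (-ε) ∧ |c0| ≤ 1 ∧
      |C0| ≤ 1 ∧ |E0| ≤ 1 ∧
      ∃ L' ⊆ (G n).L, B.d n ^ ε * ((G n).L.card : ℝ) ≤ (L'.card : ℝ) ∧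
        ∀ l ∈ L', |E n l - (E0 - s0 * ((T n l).v 1 - c0))| ≤ B.d n ^ (x - ε) ∧
          |(T n l).v 2 - (C0 + E0 * ((T n l).v 1 - c0) - s0 * ((T n l).v 1 - c0) ^ 2 / 2)| ≤
            B.d n ^ (x - ε) := by
  classical
  obtain ⟨Cu, hCu0, hcu⟩ := hcu
  obtain ⟨Cf, hCf1, hfb⟩ := hfb
  obtain ⟨Cc, hCc0, hcc⟩ := hcc
  obtain ⟨Cd, hCd0, hdu⟩ := hdu
  have hx := P.x0
  have ha0 := P.a0
  have ha1 := P.a1
  have hm := P.m0
  have h1a : 0 < 1 - a := by linarith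
  obtain ⟨Kk, hKk⟩ : ∃ Kk, Kk = 2 * Cu + 6 := ⟨_, rfl⟩
  have hKk0 : 0 ≤ Kk := by rw [hKk]; positivity
  obtain ⟨Ky, hKy⟩ : ∃ Ky, Ky = (6 * Kk + Cc + 2 * Cd + 5) / m := ⟨_, rfl⟩
  have hKy0 : 0 < Ky := by rw [hKy]; positivity
  have hmKy : m * Ky = 6 * Kk + Cc + 2 * Cd + 5 := by rw [hKy]; field_simp
  obtain ⟨KE, hKE⟩ : ∃ KE, KE = 3 * Cf + (3 * Cf + 43 * Kk + 1) / (1 - a) + 1 := ⟨_, rfl⟩
  have hKE0 : 0 ≤ (3 * Cf + 43 * Kk + 1) / (1 - a) := by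
    have : 0 ≤ 3 * Cf + 43 * Kk + 1 := by linarith
    positivity
  have hKE1 : 3 * Cf + 1 ≤ KE := by rw [hKE]; linarith
  obtain ⟨e, he, q1, q2, q3, q4, q5⟩ := exists_e (K1 := KE + Ky) (K2 := 13 * Kk + 2 * Cu + 3)
    (K3 := 22 * Kk + 3 * Cf + 2) (K4 := Ky) (K5 := 3 * Cf) (ε := ε) (X := (1 - a) * x) (x := x)
    (by linarith) (by positivity) (by positivity) hKy0.le (by positivity) hε (by positivity)
    (by nlinarith)
  have hCfe : Cf * (3 * e) ≤ x := by linarith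
  have hCfe1 : 3 * e ≤ Cf * (3 * e) := by nlinarith
  have hy0 : 0 ≤ Ky * e := by positivity
  have hz : ∀ᶠ n in (U : Filter ℕ), ∀ l k, (l, k) ∈ (G n).I → |(G n).z k| ≤ 1 := by
    filter_upwards [A.bd] with n h l k hlk
    exact (h l k hlk).1
  have hconc := P.conc (Ky * e) hy0 q4
  have hdec := P.dec
  have hcon2 : 6 * Kk * e + (Cc + 2 * Cd + 5) * e ≤ ν 0 - ν (vec {5} (Ky * e)) := by
    have : m * (Ky * e) = (m * Ky) * e := by ring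
    rw [this, hmKy] at hconc
    linarith
  filter_upwards [A.bd, A.own e he, A.aff e he, hmu e he, exists_heights H hx hxR hz he,
    H.line e he, hpc e he e he, hdc e he e he, hcu (2 * e) (by positivity),
    hdu (2 * e) (by positivity), hcl e he, hfb (3 * e) (by positivity) hCfe,
    hcc e he (Ky * e) hy0 q4, RgN344.slice_ge H.toRUnif 0 P.zero he,
    etaR_le B (x := x) he ha0 ha1 hCf1 hKk0, hn_ev B hx he ha0 ha1 hCf1 hKk0 q3,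
    ev_abs B (show x - 2 * e < x - e by linarith) 20,
    ev_abs B (show x - 3 * e < x - e by linarith) 56,
    ev_abs B (show x - Cf * (3 * e) < x by nlinarith) 2,
    ev_abs B (show x - Cf * (3 * e) < x - 2 * e by nlinarith) 5,
    ev_abs B (show 6 * Kk * e + (Cc + 2 * Cd + 4) * e < 6 * Kk * e + (Cc + 2 * Cd + 5) * e by
      nlinarith) (4 * (((13 ^ 8 : ℕ) : ℝ)) ^ 3),
    ev_abs B (show x - ε < x - (KE + Ky) * e by linarith) 27,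
    ev_abs B q2 (((81 ^ 8 : ℕ) : ℝ) * (8 * (((13 ^ 8 : ℕ) : ℝ)) ^ 7)),
    ev_abs B (show -ε < -(Ky * e) by nlinarith) 2]
    with n hbd hown haff hmun hhts hline hpcn hdcn hcun hdun hcln hfbn hccn hslice heta hnn
      t1 t2 t3 t5 t6 t7 t8 t9
  have hpow : ∀ t : ℝ, 0 < B.d n ^ t := fun t => rpos B n t
  obtain ⟨Fc, AR⟩ := exists_ARel (g := G n) (t := T n) (u := E n) (fA := fa n) (fB := fb n)
    (mu := mu n) (be := be n) (δ := B.d n ^ (x - e)) hbd hown haff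
  obtain ⟨w, hw, kst, Lg, hLg, hLgc, hal⟩ := hhts
  obtain ⟨Ls, hLsLg, hinj, hrep, hLsc⟩ := exists_reps Lg
    (fun l => cellL (B.d n ^ (x - e)) (T n l) (E n l) (Fc l))
  have hZne : (G n).Z.Nonempty := RgN344.Z_nonempty H.toRUnif n
  have hδ : 0 < B.d n ^ (x - e) := hpow _
  have hhδ : B.d n ^ x ≤ B.d n ^ (x - e) := rpow_anti B n (by linarith)
  have hLne : (G n).L.Nonempty := by
    obtain ⟨⟨i1, k1⟩, hI1⟩ := H.nonempty n
    exact ⟨i1, H.memL hI1⟩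
  have hL : B.d n ^ (-ν 0 + e) ≤ ((G n).L.card : ℝ) := by
    obtain ⟨⟨i1, k1⟩, hI1⟩ := H.nonempty n
    refine (hslice i1 k1 hI1).trans ?_
    exact_mod_cast card_le_card (filter_subset _ _)
  have hmuh : |mu n| * B.d n ^ x ≤ B.d n ^ (x - e) := by
    have e1 : B.d n ^ (x - e) = B.d n ^ (-e) * B.d n ^ x := by
      rw [← rpow_add']; congr 1; ring
    rw [e1]
    exact mul_le_mul_of_nonneg_right hmun.2 (hpow _).le
  have hKk1 : B.d n ^ (Kk * e) ≤ B.d n ^ e := rpow_anti B n (by nlinarith)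
  have hfib := AR.thinFib_of (h := B.d n ^ x) (rF := B.d n ^ (x - Cf * (3 * e))) (a := a)
    (Kf' := B.d n ^ (-(Cf * (3 * e)))) (tol := B.d n ^ (x - 3 * e)) (N := Nn B x n) (w := w)
    (kst := kst) (Ls := Ls) hδ (hpow x) hhδ (hpow _) t3 t2 (hpow _).le ha0 ha1 (by
      intro k F hF hne h1 R0 hR0 h2 h3
      exact hfbn k F (fun i hi => H.memSlice.2 (hF i hi)) hne h1 R0 hR0 h2 h3)
  have hpe : ∀ t : ℝ, B.d n ^ t * B.d n ^ (-t) = 1 := by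
    intro t
    rw [← rpow_add', add_neg_cancel, Real.rpow_zero]
  have hNh2 : 1 / 2 ≤ (Nn B x n : ℝ) * B.d n ^ x := by
    have h1 := mul_le_mul_of_nonneg_right (half_le_Nn B hx.le n) (hpow x).le
    rw [mul_comm (B.d n ^ (-x)), hpe x] at h1
    linarith
  have hη := heta _ hNh2
  rw [← hKE] at hη
  have hκ₀3 : (B.d n ^ e) ^ 3 = B.d n ^ (3 * e) := by
    rw [← Real.rpow_natCast, ← Real.rpow_mul (B.pos n).le]; congr 1; push_cast; ring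
  have hLbig : B.d n ^ (4 * e - ν 0) ≤ (B.d n ^ e) ^ 3 * ((G n).L.card : ℝ) := by
    rw [hκ₀3]
    have e1 : B.d n ^ (4 * e - ν 0) = B.d n ^ (3 * e) * B.d n ^ (-ν 0 + e) := by
      rw [← rpow_add']; congr 1; ring
    rw [e1]
    exact mul_le_mul_of_nonneg_left hL (hpow _).le
  have hr3 := num3 B n he t5
  have hb0 : (0 : ℝ) < ((13 ^ 8 : ℕ) : ℝ) := by positivity
  have hm80 : (0 : ℝ) < ((81 ^ 8 : ℕ) : ℝ) := by positivity
  have hc60 : 0 ≤ ((B.d n ^ (Kk * e)) ^ 2 / ((13 ^ 8 : ℕ) : ℝ)) ^ 3 / 4 := by positivity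
  obtain ⟨s0, c0, C0, E0, hs0, hc0, hC0, hE0, L', hL', hL'c, hcon⟩ :=
    wrap_one (g := G n) AR (H.sub n) (h := B.d n ^ x) (κ := B.d n ^ (Kk * e)) (κ₀ := B.d n ^ e)
      (lm := B.d n ^ (-e)) (lm0 := B.d n ^ e) (r := 2 * B.d n ^ (x - Cf * (3 * e))) (a := a)
      (Kf := 4 * B.d n ^ (-(Cf * (3 * e)))) (sep := B.d n ^ (Ky * e)) (tol := B.d n ^ (x - 2 * e))
      (MP := B.d n ^ (-(ν 0 - ν (vec fPos x)) - e)) (MD := B.d n ^ (-(ν 0 - ν (vec fDir x)) - e))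
      (Mu := B.d n ^ (-ν (vec fAll x) - Cu * (2 * e)))
      (Md := B.d n ^ (-ν (vec fDir x) - Cd * (2 * e)))
      (Mc := B.d n ^ (-(ν (vec {5} (Ky * e)) - ν (vec fDir x)) - Cc * e))
      (mL := B.d n ^ (-ν (vec fAll x) + e)) (err := 20 * B.d n ^ (x - (KE + Ky) * e))
      (N := Nn B x n) (w := w) (kst := kst) (Lg := Lg) (Ls := Ls)
      hδ (hpow x) hhδ (Nn_mul_le B x n) (Nn_pos B hx.le n) hmuh hmun.2 (hpow _) hmun.1 hLne hZne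
      (hpow _) hline (hpow _) hKk1 hLg hLgc hal hLsLg hinj hrep hLsc t1 (hpow _).le (hpow _).le
      (hpow _) (hpow _) hpcn hdcn hcun hdun hcln hccn hfib
      ((num1 B n hKk hdec).trans hLbig)
      ((num2 B n hb0 hcon2 t6).trans (mul_le_mul_of_nonneg_left hLbig hc60))
      (mul_pos two_pos (hpow _)) hr3.1 hr3.2.1 hr3.2.2 ha0 ha1
      (mul_nonneg (by norm_num) (hpow _).le)
      (hpow _) (Real.rpow_le_one (B.pos n).le (B.lt n).le hy0) hnn.1 hnn.2 (num4 B n he hKE1 hη)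
  have hfin := num5 B n (x := x) (e := e) (KE := KE) (Ky := Ky) (Cf := Cf) he (by linarith)
    hKy0.le t7
  refine ⟨s0, c0, C0, E0, ?_, hc0, hC0, hE0, L', hL', ?_, ?_⟩
  · refine hs0.trans (le_trans (le_of_eq ?_) t9)
    rw [div_eq_mul_inv, ← Real.rpow_neg (B.pos n).le]
  · exact num6 B n hb0 hm80 (Nat.cast_nonneg _) hL'c t8
  · intro l hl
    obtain ⟨g1, g2⟩ := hcon l hl
    exact ⟨g1.trans hfin, g2.trans hfin⟩

end Crest.Agent.R136.Wk323
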