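import Crest.Agent.R136.WkN_344

/-!
# R136 (S0187): RIG wrapper, block (N) (helper344): `DirUp`
-/

set_option autoImplicit false
set_option linter.unusedVariables false

open Filter Topology Finset

namespace Crest.Agent.R136.Wk323

open Crest.Agent.R136.Sh605
open Crest.Agent.R138.Ex926 (Base U)
open Crest.Agent.R136.Gf356
open Crest.Agent.R136.RgN344

variable {B : Base} {G : ℕ → RCfg (Fin 11)} {Leg : Set (Fin 11 → ℝ)} {ν : (Fin 11 → ℝ) → ℝ}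
  {D x a m : ℝ} {T : ℕ → ℕ → Ln4} {E : ℕ → ℕ → ℝ} {fa : ℕ → ℕ → ℕ → ℝ} {fb : ℕ → ℕ → ℝ}
  {mu be : ℕ → ℝ}

/-- number of lines of a slice with close direction: any sub-family `F` of the line slots -/
theorem famUp (H : RUnif B G Leg ν D) (A : AbsWin B G x T E fa fb mu be) {S : Finset (Fin 11)}
    (hS : S ⊆ fAll) (hL : vec S x ∈ Leg) (hx : 0 < x) :
    ∃ C : ℝ, 0 ≤ C ∧ ∀ ε₀ : ℝ, 0 < ε₀ → ∀ᶠ n in (U : Filter ℕ), ∀ k i,
      (i, k) ∈ (G n).I → ∀ F ⊆ (G n).slice k, (∀ l ∈ F, ∀ s ∈ S, |coA (T n i) (T n l) (E n i) (E n l)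
        (fa n i k) (fa n l k) (fb n k) ((G n).z k) s| ≤ B.d n ^ (x - ε₀)) →
        (F.card : ℝ) ≤ B.d n ^ (-ν (vec S x) - C * ε₀) := by
  have hD := H.D1
  refine ⟨D * 2, by positivity, fun ε₀ hε₀ => ?_⟩
  have h2ε : 0 < 2 * ε₀ := by positivity
  filter_upwards [A.loose_of H (p := vec S x)
    (fun s hs => (vec_of_notMem (fun h => hs (hS h))).le)
    (fun s => by unfold vec; split_ifs <;> linarith) hε₀ 1, H.up _ hL _ h2ε] with n h1 h2
    k i hi F hF hc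
  have h3 := h2 i k hi
  have e1 : D * (2 * ε₀) = D * 2 * ε₀ := by ring
  rw [e1] at h3
  refine le_trans ?_ h3
  refine mod_cast Finset.card_le_card fun l hl => RCfg.mem_box.2 ⟨hF hl, ?_⟩
  refine h1 k i l hi (H.memSlice.1 (hF hl)) fun s hs hps => ?_
  have hsS : s ∈ S := by
    by_contra hcon
    rw [vec_of_notMem hcon] at hps
    exact lt_irrefl _ hps
  rw [vec_of_mem hsS, one_mul]
  exact hc l hl s hsS

/-- `DirUp` of 323 (chan helper323, 02:18) -/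
theorem dirUp (H : RUnif B G Leg ν D) (A : AbsWin B G x T E fa fb mu be)
    (P : RigProf Leg ν x a m) :
    ∃ C : ℝ, 0 ≤ C ∧ ∀ ε₀ : ℝ, 0 < ε₀ → ∀ᶠ n in (U : Filter ℕ), ∀ k i,
      (i, k) ∈ (G n).I → ∀ F ⊆ (G n).slice k, (∀ l ∈ F, ∀ s ∈ fDir, |coA (T n i) (T n l) (E n i)
        (E n l) (fa n i k) (fa n l k) (fb n k) ((G n).z k) s| ≤ B.d n ^ (x - ε₀)) →
        (F.card : ℝ) ≤ B.d n ^ (-ν (vec fDir x) - C * ε₀) :=
  famUp H A (by decide) P.dir P.x0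

/-- same for the position slots -/
theorem posUp (H : RUnif B G Leg ν D) (A : AbsWin B G x T E fa fb mu be)
    (P : RigProf Leg ν x a m) :
    ∃ C : ℝ, 0 ≤ C ∧ ∀ ε₀ : ℝ, 0 < ε₀ → ∀ᶠ n in (U : Filter ℕ), ∀ k i,
      (i, k) ∈ (G n).I → ∀ F ⊆ (G n).slice k, (∀ l ∈ F, ∀ s ∈ fPos, |coA (T n i) (T n l) (E n i)
        (E n l) (fa n i k) (fa n l k) (fb n k) ((G n).z k) s| ≤ B.d n ^ (x - ε₀)) →
        (F.card : ℝ) ≤ B.d n ^ (-ν (vec fPos x) - C * ε₀) :=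
  famUp H A (by decide) P.pos P.x0

/-- many lines with close direction -/
theorem dirLow (H : RUnif B G Leg ν D) (A : AbsWin B G x T E fa fb mu be)
    (P : RigProf Leg ν x a m) :
    ∀ ε : ℝ, 0 < ε → ∀ᶠ n in (U : Filter ℕ), ∀ k i, (i, k) ∈ (G n).I →
      ∃ F ⊆ (G n).slice k, B.d n ^ (-ν (vec fDir x) + ε) ≤ (F.card : ℝ) ∧
        ∀ l ∈ F, ∀ s ∈ fDir, |coA (T n i) (T n l) (E n i) (E n l)
          (fa n i k) (fa n l k) (fb n k) ((G n).z k) s| ≤ B.d n ^ (x - ε) := by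
  intro ε hε
  have hε2 : 0 < ε / 2 := by positivity
  have hx := P.x0
  filter_upwards [A.co_le H (p := vec fDir x) (fun s => by unfold vec; split_ifs <;> linarith) hε2,
    H.low _ P.dir _ hε2, ev_mul_le B (K := 2) hε2] with n h1 h2 h3 k i hi
  refine ⟨(G n).box (vec fDir x) (ε / 2) i k, RCfg.box_subset_slice, ?_, ?_⟩
  · exact (rpow_anti B n (by linarith)).trans (h2 i k hi)
  · intro l hl s hs
    obtain ⟨l1, l2⟩ := RCfg.mem_box.1 hl
    have hsA : s ∈ fAll := by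
      revert hs; revert s; decide
    have h4 := h1 k i l hi (H.memSlice.1 l1) l2 s hsA
    rw [vec_of_mem hs] at h4
    refine h4.trans ((h3 _).trans (le_of_eq ?_))
    congr 1
    ring

end Crest.Agent.R136.Wk323
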