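import Crest.Agent.R136.WkD_323
import Crest.Agent.R136.RgN2_344

/-!
# R136 (S0187): RIG wrapper, block (N) (helper344): the counting Props of `WkD_323`

`sliceUp`, `posCount`, `dirCount`, `cellUp`, `cellLow`, `fibBound`, `dirConc`.
-/

set_option autoImplicit false
set_option linter.unusedVariables false
set_option linter.unusedSectionVars false

open Filter Topology Finset

namespace Crest.Agent.R136.Wk323

open Crest.Agent.R136.Sh605
open Crest.Agent.R138.Ex926 (Base U)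
open Crest.Agent.R136.Gf356
open Crest.Agent.R136.RgN344

variable {B : Base} {G : ℕ → RCfg (Fin 11)} {Leg : Set (Fin 11 → ℝ)} {ν : (Fin 11 → ℝ) → ℝ}
  {D x a m : ℝ} {T : ℕ → ℕ → Ln4} {E : ℕ → ℕ → ℝ} {fa : ℕ → ℕ → ℕ → ℝ} {fb : ℕ → ℕ → ℝ}
  {mu be : ℕ → ℝ}

theorem vec_of_mem {F : Finset (Fin 11)} {y : ℝ} {s : Fin 11} (h : s ∈ F) : vec F y s = y :=
  if_pos h

theorem vec_of_notMem {F : Finset (Fin 11)} {y : ℝ} {s : Fin 11} (h : s ∉ F) : vec F y s = 0 :=
  if_neg h

theorem vec_nonneg {F : Finset (Fin 11)} {y : ℝ} (hy : 0 ≤ y) (s : Fin 11) : 0 ≤ vec F y s := by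
  unfold vec; split_ifs <;> linarith

theorem vec_mono {F F' : Finset (Fin 11)} {y y' : ℝ} (hF : F ⊆ F') (hy : y ≤ y') (hy' : 0 ≤ y')
    (s : Fin 11) : vec F y s ≤ vec F' y' s := by
  by_cases h : s ∈ F
  · rw [vec_of_mem h, vec_of_mem (hF h)]; exact hy
  · rw [vec_of_notMem h]; exact vec_nonneg hy' s

section ev

variable (B)

theorem one_le_rpow_neg (n : ℕ) {t : ℝ} (ht : 0 ≤ t) : 1 ≤ B.d n ^ (-t) :=
  Real.one_le_rpow_of_pos_of_le_one_of_nonpos (B.pos n) (B.lt n).le (by linarith)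

theorem ev_mul_le {K t : ℝ} (ht : 0 < t) :
    ∀ᶠ n in (U : Filter ℕ), ∀ y : ℝ, K * B.d n ^ y ≤ B.d n ^ (y - t) := by
  filter_upwards [ev_const_le B ht K] with n hn y
  have e1 : B.d n ^ (y - t) = B.d n ^ (-t) * B.d n ^ y := by
    rw [← rpow_add']; congr 1; ring
  rw [e1]
  exact mul_le_mul_of_nonneg_right hn (rpos B n y).le

end ev

/-- relative coordinates small ⇒ absolute relative coordinates small -/
theorem AbsWin.co_le (A : AbsWin B G x T E fa fb mu be) (H : RUnif B G Leg ν D) {p : Fin 11 → ℝ}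
    (hp : ∀ s, p s ≤ x) {ε : ℝ} (hε : 0 < ε) :
    ∀ᶠ n in (U : Filter ℕ), ∀ k i l, (i, k) ∈ (G n).I → (l, k) ∈ (G n).I →
      (G n).loose p ε k i l → ∀ s ∈ fAll, |coA (T n i) (T n l) (E n i) (E n l) (fa n i k) (fa n l k)
        (fb n k) ((G n).z k) s| ≤ 2 * B.d n ^ (p s - ε) := by
  filter_upwards [A.rel ε hε] with n h k i l hi hl hlo s hs
  have h1 := h k i l hi hl s hs
  have h2 := hlo s
  rw [H.base n] at h2
  have h3 : B.d n ^ (x - ε) ≤ B.d n ^ (p s - ε) := rpow_anti B n (by linarith [hp s])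
  rw [abs_le] at *
  constructor <;> linarith [h1.1, h1.2, h2.1, h2.2]

/-- absolute relative coordinates small ⇒ relative coordinates small -/
theorem AbsWin.loose_of (A : AbsWin B G x T E fa fb mu be) (H : RUnif B G Leg ν D)
    {p : Fin 11 → ℝ} (hp0 : ∀ s, s ∉ fAll → p s ≤ 0) (hp : ∀ s, p s ≤ x) {ε : ℝ} (hε : 0 < ε)
    (K : ℝ) :
    ∀ᶠ n in (U : Filter ℕ), ∀ k i l, (i, k) ∈ (G n).I → (l, k) ∈ (G n).I →
      (∀ s ∈ fAll, 0 < p s → |coA (T n i) (T n l) (E n i) (E n l) (fa n i k) (fa n l k)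
        (fb n k) ((G n).z k) s| ≤ K * B.d n ^ (p s - ε)) → (G n).loose p (2 * ε) k i l := by
  filter_upwards [A.rel ε hε, A.bdr, ev_const_le B hε (|K| + 1)] with n h hbd hK k i l hi hl hco s
  rw [H.base n]
  by_cases hs0 : p s ≤ 0
  · refine (hbd k i l hi hl s).trans ?_
    have := one_le_rpow_neg B n (t := 2 * ε - p s) (by linarith)
    have e1 : -(2 * ε - p s) = p s - 2 * ε := by ring
    rwa [e1] at this
  · have hs : s ∈ fAll := by
      by_contra hcon
      exact hs0 (hp0 s hcon)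
    rw [not_le] at hs0
    have h1 := h k i l hi hl s hs
    have h2 := hco s hs hs0
    have h3 : B.d n ^ (x - ε) ≤ B.d n ^ (p s - ε) := rpow_anti B n (by linarith [hp s])
    have h4 : (|K| + 1) * B.d n ^ (p s - ε) ≤ B.d n ^ (p s - 2 * ε) := by
      have e1 : B.d n ^ (p s - 2 * ε) = B.d n ^ (-ε) * B.d n ^ (p s - ε) := by
        rw [← rpow_add']; congr 1; ring
      rw [e1]
      exact mul_le_mul_of_nonneg_right hK (rpos B n _).le
    have h5 : K * B.d n ^ (p s - ε) ≤ |K| * B.d n ^ (p s - ε) :=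
      mul_le_mul_of_nonneg_right (le_abs_self K) (rpos B n _).le
    refine le_trans ?_ h4
    have h6 : |(G n).rel k i l s| ≤ |(G n).rel k i l s - coA (T n i) (T n l) (E n i) (E n l)
        (fa n i k) (fa n l k) (fb n k) ((G n).z k) s| + |coA (T n i) (T n l) (E n i) (E n l)
        (fa n i k) (fa n l k) (fb n k) ((G n).z k) s| := by
      have := abs_add_le ((G n).rel k i l s - coA (T n i) (T n l) (E n i) (E n l)
        (fa n i k) (fa n l k) (fb n k) ((G n).z k) s) (coA (T n i) (T n l) (E n i) (E n l)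
        (fa n i k) (fa n l k) (fb n k) ((G n).z k) s)
      simpa using this
    linarith

/-! ### the seven Props -/

theorem sliceUp (H : RUnif B G Leg ν D) (A : AbsWin B G x T E fa fb mu be)
    (P : RigProf Leg ν x a m) : SliceUp B G ν := by
  intro ε hε
  have hD := H.D1
  have hbd : Bd G (0 : Fin 11 → ℝ) 1 := by
    intro ε hε
    filter_upwards [A.bdr] with n h k i l hi hl s
    rw [H.base n]
    refine (h k i l hi hl s).trans ?_
    have := one_le_rpow_neg B n (t := 1 * ε) (by linarith)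
    simpa using this
  have hε' : 0 < ε / D := by positivity
  filter_upwards [slice_le H 0 P.zero one_pos hbd hε'] with n h k
  refine (h k).trans (le_of_eq ?_)
  congr 1
  field_simp

theorem posL_eq (δ : ℝ) (T : Ln4) (fa fb z : ℝ) : posL δ T fa fb z =
    gl δ ![T.pos z 0, T.pos z 1, T.pos z 2, fa, T.v 0 - fa * T.v 1 - fb * T.v 2] := by
  funext j
  fin_cases j <;> rfl

theorem dirL_eq (δ : ℝ) (T : Ln4) (E : ℝ) : dirL δ T E = gl δ ![T.v 1, T.v 2, E] := by
  funext j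
  fin_cases j <;> rfl

/-- direction coordinates of close lines -/
theorem dir_close {T T' : Ln4} {E E' fa fa' fb z η : ℝ} (hE : |E| ≤ 1)
    (h2 : |coA T T' E E' fa fa' fb z 2| ≤ η) (h5 : |coA T T' E E' fa fa' fb z 5| ≤ η)
    (h6 : |coA T T' E E' fa fa' fb z 6| ≤ η) (j : Fin 3) :
    |(![T'.v 1, T'.v 2, E'] : Fin 3 → ℝ) j - (![T.v 1, T.v 2, E] : Fin 3 → ℝ) j| ≤ 2 * η := by
  have h2' : |E' - E| ≤ η := h2
  have h5' : |T'.v 1 - T.v 1| ≤ η := h5
  have h6' : |(T'.v 2 - T.v 2) - E * (T'.v 1 - T.v 1)| ≤ η := h6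
  have hη : 0 ≤ η := (abs_nonneg _).trans h5'
  have h7 : |E * (T'.v 1 - T.v 1)| ≤ η := by
    rw [abs_mul]
    calc |E| * |T'.v 1 - T.v 1| ≤ 1 * η := mul_le_mul hE h5' (abs_nonneg _) (by norm_num)
      _ = η := one_mul η
  fin_cases j
  · show |T'.v 1 - T.v 1| ≤ 2 * η
    linarith
  · show |T'.v 2 - T.v 2| ≤ 2 * η
    have e : T'.v 2 - T.v 2 = ((T'.v 2 - T.v 2) - E * (T'.v 1 - T.v 1)) +
        E * (T'.v 1 - T.v 1) := by ring
    rw [e]
    exact (abs_add_le _ _).trans (by linarith)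
  · show |E' - E| ≤ 2 * η
    linarith

/-- base and normal position of close lines -/
theorem base_close {T T' : Ln4} {E E' fa fa' fb z η θ : ℝ} (hE : |E| ≤ 1) (hfa : |fa| ≤ 1)
    (hfb : |fb| ≤ 1)
    (h8 : |coA T T' E E' fa fa' fb z 8| ≤ η) (h9 : |coA T T' E E' fa fa' fb z 9| ≤ η)
    (h10 : |coA T T' E E' fa fa' fb z 10| ≤ θ) :
    |T'.pos z 1 - T.pos z 1| ≤ η ∧ |T'.pos z 2 - T.pos z 2| ≤ 2 * η ∧
      |T'.pos z 0 - T.pos z 0| ≤ θ + 3 * η := by
  have h8' : |T'.pos z 1 - T.pos z 1| ≤ η := h8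
  have h9' : |(T'.pos z 2 - T.pos z 2) - E * (T'.pos z 1 - T.pos z 1)| ≤ η := h9
  have h10' : |(T'.pos z 0 - T.pos z 0) - fa * (T'.pos z 1 - T.pos z 1) -
    fb * (T'.pos z 2 - T.pos z 2)| ≤ θ := h10
  have hη : 0 ≤ η := (abs_nonneg _).trans h8'
  have h7 : |E * (T'.pos z 1 - T.pos z 1)| ≤ η := by
    rw [abs_mul]
    calc |E| * |T'.pos z 1 - T.pos z 1| ≤ 1 * η := mul_le_mul hE h8' (abs_nonneg _) (by norm_num)
      _ = η := one_mul η
  have g2 : |T'.pos z 2 - T.pos z 2| ≤ 2 * η := by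
    have e : T'.pos z 2 - T.pos z 2 = ((T'.pos z 2 - T.pos z 2) - E * (T'.pos z 1 - T.pos z 1)) +
        E * (T'.pos z 1 - T.pos z 1) := by ring
    rw [e]
    exact (abs_add_le _ _).trans (by linarith)
  have g3 : |fa * (T'.pos z 1 - T.pos z 1)| ≤ η := by
    rw [abs_mul]
    calc |fa| * |T'.pos z 1 - T.pos z 1| ≤ 1 * η := mul_le_mul hfa h8' (abs_nonneg _) (by norm_num)
      _ = η := one_mul η
  have g4 : |fb * (T'.pos z 2 - T.pos z 2)| ≤ 2 * η := by
    rw [abs_mul]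
    calc |fb| * |T'.pos z 2 - T.pos z 2| ≤ 1 * (2 * η) :=
          mul_le_mul hfb g2 (abs_nonneg _) (by norm_num)
      _ = 2 * η := one_mul _
  refine ⟨h8', g2, ?_⟩
  have e : T'.pos z 0 - T.pos z 0 = ((T'.pos z 0 - T.pos z 0) - fa * (T'.pos z 1 - T.pos z 1) -
    fb * (T'.pos z 2 - T.pos z 2)) + fa * (T'.pos z 1 - T.pos z 1) +
    fb * (T'.pos z 2 - T.pos z 2) := by ring
  rw [e]
  exact (abs_add_three _ _ _).trans (by linarith)

/-- position coordinates of close lines -/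
theorem pos_close {T T' : Ln4} {E E' fa fa' fb z η : ℝ} (hE : |E| ≤ 1) (hfa : |fa| ≤ 1)
    (hfb : |fb| ≤ 1) (hv : |T'.v 1| ≤ 1)
    (h4 : |coA T T' E E' fa fa' fb z 4| ≤ η) (h7 : |coA T T' E E' fa fa' fb z 7| ≤ η)
    (h8 : |coA T T' E E' fa fa' fb z 8| ≤ η) (h9 : |coA T T' E E' fa fa' fb z 9| ≤ η)
    (h10 : |coA T T' E E' fa fa' fb z 10| ≤ η) (j : Fin 5) :
    |(![T'.pos z 0, T'.pos z 1, T'.pos z 2, fa', T'.v 0 - fa' * T'.v 1 - fb * T'.v 2] :
        Fin 5 → ℝ) j -
      (![T.pos z 0, T.pos z 1, T.pos z 2, fa, T.v 0 - fa * T.v 1 - fb * T.v 2] :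
        Fin 5 → ℝ) j| ≤ 4 * η := by
  obtain ⟨g1, g2, g3⟩ := base_close hE hfa hfb h8 h9 h10
  have h4' : |fa' - fa| ≤ η := h4
  have h7' : |(T'.v 0 - T.v 0) - fa * (T'.v 1 - T.v 1) - fb * (T'.v 2 - T.v 2)| ≤ η := h7
  have hη : 0 ≤ η := (abs_nonneg _).trans h4'
  fin_cases j
  · show |T'.pos z 0 - T.pos z 0| ≤ 4 * η
    linarith
  · show |T'.pos z 1 - T.pos z 1| ≤ 4 * η
    linarith
  · show |T'.pos z 2 - T.pos z 2| ≤ 4 * η
    linarith
  · show |fa' - fa| ≤ 4 * η
    linarith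
  · show |(T'.v 0 - fa' * T'.v 1 - fb * T'.v 2) - (T.v 0 - fa * T.v 1 - fb * T.v 2)| ≤ 4 * η
    have e : (T'.v 0 - fa' * T'.v 1 - fb * T'.v 2) - (T.v 0 - fa * T.v 1 - fb * T.v 2) =
        ((T'.v 0 - T.v 0) - fa * (T'.v 1 - T.v 1) - fb * (T'.v 2 - T.v 2)) -
          (fa' - fa) * T'.v 1 := by ring
    have h5 : |(fa' - fa) * T'.v 1| ≤ η := by
      rw [abs_mul]
      calc |fa' - fa| * |T'.v 1| ≤ η * 1 := mul_le_mul h4' hv (abs_nonneg _) hη
        _ = η := mul_one η
    rw [e]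
    exact (abs_sub _ _).trans (by linarith)

theorem posCount (H : RUnif B G Leg ν D) (A : AbsWin B G x T E fa fb mu be)
    (P : RigProf Leg ν x a m) : PosCount B G ν x T fa fb := by
  intro ε₀ hε₀ ε hε
  have hD := H.D1
  have hx := P.x0
  have hle : ∀ s, vec fPos x s ≤ x := fun s => by
    unfold vec; split_ifs <;> linarith
  -- the label coordinates
  have hco : ∀ ε : ℝ, 0 < ε → ∀ᶠ n in (U : Filter ℕ), ∀ k i l, (i, k) ∈ (G n).I →
      (l, k) ∈ (G n).I → (G n).loose (vec fPos x) ε k i l → ∀ j : Fin 5,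
      |(fun n k l => (![(T n l).pos ((G n).z k) 0, (T n l).pos ((G n).z k) 1,
          (T n l).pos ((G n).z k) 2, fa n l k,
          (T n l).v 0 - fa n l k * (T n l).v 1 - fb n k * (T n l).v 2] : Fin 5 → ℝ)) n k l j -
        (fun n k l => (![(T n l).pos ((G n).z k) 0, (T n l).pos ((G n).z k) 1,
          (T n l).pos ((G n).z k) 2, fa n l k,
          (T n l).v 0 - fa n l k * (T n l).v 1 - fb n k * (T n l).v 2] : Fin 5 → ℝ)) n k i j| ≤
      B.d n ^ ((x - ε₀) - 2 * ε) := by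
    intro ε hε
    filter_upwards [A.co_le H hle hε, A.bd, ev_mul_le B (K := 8) hε] with n h1 hb h8 k i l hi hl hlo j
    have g := h1 k i l hi hl hlo
    have hval : ∀ s ∈ fPos, |coA (T n i) (T n l) (E n i) (E n l) (fa n i k) (fa n l k)
        (fb n k) ((G n).z k) s| ≤ 2 * B.d n ^ (x - ε) := by
      intro s hs
      have hsA : s ∈ fAll := by
        revert hs; revert s; decide
      have := g s hsA
      rwa [vec_of_mem hs] at this
    obtain ⟨_, _, _, bE, bfa, bfb⟩ := hb i k hi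
    obtain ⟨_, _, bv, _, _, _⟩ := hb l k hl
    have key := pos_close bE bfa bfb (bv 1) (hval 4 (by decide)) (hval 7 (by decide))
      (hval 8 (by decide)) (hval 9 (by decide)) (hval 10 (by decide)) j
    refine key.trans ?_
    calc 4 * (2 * B.d n ^ (x - ε)) = 8 * B.d n ^ (x - ε) := by ring
      _ ≤ B.d n ^ (x - ε - ε) := h8 _
      _ ≤ B.d n ^ ((x - ε₀) - 2 * ε) := rpow_anti B n (by linarith)
  set K : ℝ := D * (D * 1) + (5 : ℕ) * (2 + 1) + 1 with hK
  have hK0 : 0 < K := by positivity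
  have hεK : 0 < ε / K := by positivity
  filter_upwards [lab_le H (0 : Fin 11 → ℝ) (vec fPos x) P.zero P.pos (fun s => vec_nonneg hx.le s)
    (by norm_num : (0 : ℝ) ≤ 2) _ hco (le_refl (1 : ℝ)) hεK, A.bdr] with n h1 hbd k
  rcases ((G n).slice k).eq_empty_or_nonempty with he | ⟨i0, hi0⟩
  · rw [he]; simpa using (rpos B n _).le
  have hI0 := H.memSlice.1 hi0
  have h2 := h1 k i0 hI0 _ (Finset.Subset.refl _) (fun i hi s => by
    rw [H.base n]
    refine (hbd k i0 i hI0 (H.memSlice.1 hi) s).trans ?_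
    have := one_le_rpow_neg B n (t := 1 * (ε / K)) (by positivity)
    simpa using this)
  have e1 : K * (ε / K) = ε := by field_simp
  rw [← hK, e1] at h2
  refine le_trans (le_of_eq ?_) h2
  simp only [posL_eq]

theorem dirCount (H : RUnif B G Leg ν D) (A : AbsWin B G x T E fa fb mu be)
    (P : RigProf Leg ν x a m) : DirCount B G ν x T E := by
  intro ε₀ hε₀ ε hε
  have hD := H.D1
  have hx := P.x0
  have hle : ∀ s, vec fDir x s ≤ x := fun s => by
    unfold vec; split_ifs <;> linarith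
  have hco : ∀ ε : ℝ, 0 < ε → ∀ᶠ n in (U : Filter ℕ), ∀ k i l, (i, k) ∈ (G n).I →
      (l, k) ∈ (G n).I → (G n).loose (vec fDir x) ε k i l → ∀ j : Fin 3,
      |(fun n (_ : ℕ) l => (![(T n l).v 1, (T n l).v 2, E n l] : Fin 3 → ℝ)) n k l j -
        (fun n (_ : ℕ) l => (![(T n l).v 1, (T n l).v 2, E n l] : Fin 3 → ℝ)) n k i j| ≤
      B.d n ^ ((x - ε₀) - 2 * ε) := by
    intro ε hε
    filter_upwards [A.co_le H hle hε, A.bd, ev_mul_le B (K := 4) hε] with n h1 hb h8 k i l hi hl hlo j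
    have g := h1 k i l hi hl hlo
    have hval : ∀ s ∈ fDir, |coA (T n i) (T n l) (E n i) (E n l) (fa n i k) (fa n l k)
        (fb n k) ((G n).z k) s| ≤ 2 * B.d n ^ (x - ε) := by
      intro s hs
      have hsA : s ∈ fAll := by
        revert hs; revert s; decide
      have := g s hsA
      rwa [vec_of_mem hs] at this
    obtain ⟨_, _, _, bE, bfa, bfb⟩ := hb i k hi
    have key := dir_close bE (hval 2 (by decide)) (hval 5 (by decide)) (hval 6 (by decide)) j
    refine key.trans ?_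
    calc 2 * (2 * B.d n ^ (x - ε)) = 4 * B.d n ^ (x - ε) := by ring
      _ ≤ B.d n ^ (x - ε - ε) := h8 _
      _ ≤ B.d n ^ ((x - ε₀) - 2 * ε) := rpow_anti B n (by linarith)
  set K : ℝ := D * (D * 1) + (3 : ℕ) * (2 + 1) + 1 with hK
  have hK0 : 0 < K := by positivity
  have hεK : 0 < ε / K := by positivity
  filter_upwards [lab_le H (0 : Fin 11 → ℝ) (vec fDir x) P.zero P.dir (fun s => vec_nonneg hx.le s)
    (by norm_num : (0 : ℝ) ≤ 2) _ hco (le_refl (1 : ℝ)) hεK, A.bdr] with n h1 hbd k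
  rcases ((G n).slice k).eq_empty_or_nonempty with he | ⟨i0, hi0⟩
  · rw [he]; simpa using (rpos B n _).le
  have hI0 := H.memSlice.1 hi0
  have h2 := h1 k i0 hI0 _ (Finset.Subset.refl _) (fun i hi s => by
    rw [H.base n]
    refine (hbd k i0 i hI0 (H.memSlice.1 hi) s).trans ?_
    have := one_le_rpow_neg B n (t := 1 * (ε / K)) (by positivity)
    simpa using this)
  have e1 : K * (ε / K) = ε := by field_simp
  rw [← hK, e1] at h2
  refine le_trans (le_of_eq ?_) h2
  simp only [dirL_eq]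

theorem cellUp (H : RUnif B G Leg ν D) (A : AbsWin B G x T E fa fb mu be)
    (P : RigProf Leg ν x a m) : CellUp B G ν x T E fa fb := by
  have hD := H.D1
  have hx := P.x0
  refine ⟨D * 2, by positivity, fun ε₀ hε₀ => ?_⟩
  have h2ε : 0 < 2 * ε₀ := by positivity
  filter_upwards [A.loose_of H (p := vec fAll x) (fun s hs => (vec_of_notMem hs).le)
    (fun s => by unfold vec; split_ifs <;> linarith) hε₀ 1, H.up _ P.all _ h2ε] with n h1 h2
    k i hi F hF hc
  have h3 := h2 i k hi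
  have e1 : D * (2 * ε₀) = D * 2 * ε₀ := by ring
  rw [e1] at h3
  refine le_trans ?_ h3
  refine mod_cast Finset.card_le_card fun l hl => RCfg.mem_box.2 ⟨hF hl, ?_⟩
  refine h1 k i l hi (H.memSlice.1 (hF hl)) fun s hs _ => ?_
  rw [vec_of_mem hs, one_mul]
  exact hc l hl s hs

theorem cellLow (H : RUnif B G Leg ν D) (A : AbsWin B G x T E fa fb mu be)
    (P : RigProf Leg ν x a m) : CellLow B G ν x T E fa fb := by
  intro ε hε
  have hε2 : 0 < ε / 2 := by positivity
  have hx := P.x0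
  filter_upwards [A.co_le H (p := vec fAll x) (fun s => by unfold vec; split_ifs <;> linarith) hε2,
    H.low _ P.all _ hε2, ev_mul_le B (K := 2) hε2] with n h1 h2 h3 k i hi
  refine ⟨(G n).box (vec fAll x) (ε / 2) i k, RCfg.box_subset_slice, ?_, ?_⟩
  · exact (rpow_anti B n (by linarith)).trans (h2 i k hi)
  · intro l hl s hs
    obtain ⟨l1, l2⟩ := RCfg.mem_box.1 hl
    have h4 := h1 k i l hi (H.memSlice.1 l1) l2 s hs
    rw [vec_of_mem hs] at h4
    refine h4.trans ((h3 _).trans (le_of_eq ?_))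
    congr 1
    ring

theorem dirConc (H : RUnif B G Leg ν D) (A : AbsWin B G x T E fa fb mu be)
    (P : RigProf Leg ν x a m) : DirConc B G ν x T E := by
  have hD := H.D1
  have hx := P.x0
  set K : ℝ := D * (D * 2) + (3 : ℕ) * (2 + 1) + 1 with hK
  have hK0 : 0 < K := by positivity
  refine ⟨K, hK0.le, fun ε₀ hε₀ y hy0 hyx => ?_⟩
  have hle : ∀ s, vec fDir x s ≤ x := fun s => by
    unfold vec; split_ifs <;> linarith
  have hco : ∀ ε : ℝ, 0 < ε → ∀ᶠ n in (U : Filter ℕ), ∀ k i l, (i, k) ∈ (G n).I →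
      (l, k) ∈ (G n).I → (G n).loose (vec fDir x) ε k i l → ∀ j : Fin 3,
      |(fun n (_ : ℕ) l => (![(T n l).v 1, (T n l).v 2, E n l] : Fin 3 → ℝ)) n k l j -
        (fun n (_ : ℕ) l => (![(T n l).v 1, (T n l).v 2, E n l] : Fin 3 → ℝ)) n k i j| ≤
      B.d n ^ ((x - ε₀) - 2 * ε) := by
    intro ε hε
    filter_upwards [A.co_le H hle hε, A.bd, ev_mul_le B (K := 4) hε] with n h1 hb h8 k i l hi hl hlo j
    have g := h1 k i l hi hl hlo
    have hval : ∀ s ∈ fDir, |coA (T n i) (T n l) (E n i) (E n l) (fa n i k) (fa n l k)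
        (fb n k) ((G n).z k) s| ≤ 2 * B.d n ^ (x - ε) := by
      intro s hs
      have hsA : s ∈ fAll := by
        revert hs; revert s; decide
      have := g s hsA
      rwa [vec_of_mem hs] at this
    obtain ⟨_, _, _, bE, bfa, bfb⟩ := hb i k hi
    have key := dir_close bE (hval 2 (by decide)) (hval 5 (by decide)) (hval 6 (by decide)) j
    refine key.trans ?_
    calc 2 * (2 * B.d n ^ (x - ε)) = 4 * B.d n ^ (x - ε) := by ring
      _ ≤ B.d n ^ (x - ε - ε) := h8 _
      _ ≤ B.d n ^ ((x - ε₀) - 2 * ε) := rpow_anti B n (by linarith)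
  filter_upwards [lab_le H (vec {5} y) (vec fDir x) (P.c y hy0 hyx) P.dir
    (vec_mono (by decide) hyx hx.le) (by norm_num : (0 : ℝ) ≤ 2) _ hco
    (by norm_num : (1 : ℝ) ≤ 2) hε₀,
    A.loose_of H (p := vec {5} y) (fun s hs => (vec_of_notMem (by
      intro h; apply hs; revert h; revert s; decide)).le)
      (fun s => by unfold vec; split_ifs <;> linarith) hε₀ 2] with n h1 h2 k c
  set F := ((G n).slice k).filter fun l => |(T n l).v 1 - c| ≤ B.d n ^ y with hF
  rcases F.eq_empty_or_nonempty with he | ⟨i0, hi0⟩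
  · rw [he]; simpa using (rpos B n _).le
  obtain ⟨a1, a2⟩ := Finset.mem_filter.1 hi0
  have hI0 := H.memSlice.1 a1
  have h3 := h1 k i0 hI0 F (Finset.filter_subset _ _) (fun i hi => by
    obtain ⟨b1, b2⟩ := Finset.mem_filter.1 hi
    refine h2 k i0 i hI0 (H.memSlice.1 b1) fun s hs hs0 => ?_
    have hs5 : s = 5 := by
      by_contra hne
      have : vec {5} y s = 0 := vec_of_notMem (by simpa using hne)
      linarith
    subst hs5
    rw [vec_of_mem (by simp)]
    have e1 : coA (T n i0) (T n i) (E n i0) (E n i) (fa n i0 k) (fa n i k) (fb n k) ((G n).z k) 5 =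
        (T n i).v 1 - (T n i0).v 1 := rfl
    rw [e1]
    have e2 : B.d n ^ y ≤ B.d n ^ (y - ε₀) := rpow_anti B n (by linarith)
    rw [abs_le] at *
    constructor <;> linarith [a2.1, a2.2, b2.1, b2.2])
  rw [← hK] at h3
  refine le_trans (le_of_eq ?_) h3
  simp only [dirL_eq]

theorem fibBound (H : RUnif B G Leg ν D) (A : AbsWin B G x T E fa fb mu be)
    (P : RigProf Leg ν x a m) : FibBound B G x a T := by
  have hD := H.D1
  have hx := P.x0
  have ha0 := P.a0
  have ha1 := P.a1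
  have h1a : 0 < 1 - a := by linarith
  set C' : ℝ := (D ^ 2 + 1) * 2 + a + 2 * (D ^ 5 * 2) + 1 with hC'
  have hC'0 : 0 < C' := by positivity
  have hNc : ∀ ε : ℝ, 0 < ε → ∀ᶠ n in (U : Filter ℕ), ∀ k i l, (i, k) ∈ (G n).I →
      (l, k) ∈ (G n).I → (G n).loose (qv x x) ε k i l →
      |(fun n k l => (T n l).pos ((G n).z k) 0) n k l -
        (fun n k l => (T n l).pos ((G n).z k) 0) n k i| ≤ B.d n ^ (x - 2 * ε) := by
    intro ε hε
    filter_upwards [A.co_le H (p := qv x x) (fun s => by unfold qv; split_ifs <;> linarith) hε,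
      A.bd, ev_mul_le B (K := 8) hε] with n h1 hb h8 k i l hi hl hlo
    have g := h1 k i l hi hl hlo
    have g8 : |coA (T n i) (T n l) (E n i) (E n l) (fa n i k) (fa n l k)
        (fb n k) ((G n).z k) 8| ≤ 2 * B.d n ^ (x - ε) := g 8 (by decide)
    have g9 : |coA (T n i) (T n l) (E n i) (E n l) (fa n i k) (fa n l k)
        (fb n k) ((G n).z k) 9| ≤ 2 * B.d n ^ (x - ε) := g 9 (by decide)
    have g10 : |coA (T n i) (T n l) (E n i) (E n l) (fa n i k) (fa n l k)
        (fb n k) ((G n).z k) 10| ≤ 2 * B.d n ^ (x - ε) := g 10 (by decide)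
    obtain ⟨_, _, _, bE, bfa, bfb⟩ := hb i k hi
    obtain ⟨_, _, g3⟩ := base_close bE bfa bfb g8 g9 g10
    refine g3.trans ?_
    calc 2 * B.d n ^ (x - ε) + 3 * (2 * B.d n ^ (x - ε)) = 8 * B.d n ^ (x - ε) := by ring
      _ ≤ B.d n ^ (x - ε - ε) := h8 _
      _ = _ := by congr 1; ring
  refine ⟨max 1 (C' / (1 - a)), le_max_left _ _, fun ε₀ hε₀ hCx => ?_⟩
  set C : ℝ := max 1 (C' / (1 - a)) with hC
  have hC1 : 1 ≤ C := le_max_left _ _
  have hC2 : C' ≤ C * (1 - a) := by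
    have := le_max_right 1 (C' / (1 - a))
    rw [← hC, div_le_iff₀ h1a] at this
    exact this
  have hloose : ∀ᶠ n in (U : Filter ℕ), ∀ k i l, (i, k) ∈ (G n).I → (l, k) ∈ (G n).I →
      ∀ y, 0 ≤ y → y ≤ x →
      |(T n i).pos ((G n).z k) 1 - (T n l).pos ((G n).z k) 1| ≤ B.d n ^ (x - ε₀) →
      |(T n i).pos ((G n).z k) 2 - (T n l).pos ((G n).z k) 2| ≤ B.d n ^ (x - ε₀) →
      (0 < y → |(T n i).pos ((G n).z k) 0 - (T n l).pos ((G n).z k) 0| ≤ B.d n ^ (y - ε₀)) →
      (G n).loose (qv x y) (2 * ε₀) k i l := by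
    filter_upwards [A.rel ε₀ hε₀, A.bdr, A.bd, ev_const_le B hε₀ 4] with n h hbd hb h4
      k i l hi hl y hy0 hyx c1 c2 c3 s
    rw [H.base n]
    obtain ⟨_, _, _, bE, bfa, bfb⟩ := hb i k hi
    have hmul : ∀ t : ℝ, 4 * B.d n ^ (t - ε₀) ≤ B.d n ^ (t - 2 * ε₀) := by
      intro t
      have e1 : B.d n ^ (t - 2 * ε₀) = B.d n ^ (-ε₀) * B.d n ^ (t - ε₀) := by
        rw [← rpow_add']; congr 1; ring
      rw [e1]
      exact mul_le_mul_of_nonneg_right h4 (rpos B n _).le
    have c1' : |(T n l).pos ((G n).z k) 1 - (T n i).pos ((G n).z k) 1| ≤ B.d n ^ (x - ε₀) := by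
      rwa [abs_sub_comm]
    have c2' : |(T n l).pos ((G n).z k) 2 - (T n i).pos ((G n).z k) 2| ≤ B.d n ^ (x - ε₀) := by
      rwa [abs_sub_comm]
    have m1 : |E n i * ((T n l).pos ((G n).z k) 1 - (T n i).pos ((G n).z k) 1)| ≤
        B.d n ^ (x - ε₀) := by
      rw [abs_mul]
      calc _ ≤ 1 * B.d n ^ (x - ε₀) := mul_le_mul bE c1' (abs_nonneg _) (by norm_num)
        _ = _ := one_mul _
    have m2 : |fa n i k * ((T n l).pos ((G n).z k) 1 - (T n i).pos ((G n).z k) 1)| ≤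
        B.d n ^ (x - ε₀) := by
      rw [abs_mul]
      calc _ ≤ 1 * B.d n ^ (x - ε₀) := mul_le_mul bfa c1' (abs_nonneg _) (by norm_num)
        _ = _ := one_mul _
    have m3 : |fb n k * ((T n l).pos ((G n).z k) 2 - (T n i).pos ((G n).z k) 2)| ≤
        B.d n ^ (x - ε₀) := by
      rw [abs_mul]
      calc _ ≤ 1 * B.d n ^ (x - ε₀) := mul_le_mul bfb c2' (abs_nonneg _) (by norm_num)
        _ = _ := one_mul _
    by_cases h10 : s = 10
    · subst h10
      have e0 : qv x y 10 = y := by simp [qv]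
      rw [e0]
      rcases hy0.eq_or_lt with rfl | hy
      · refine (hbd k i l hi hl 10).trans ?_
        have := one_le_rpow_neg B n (t := 2 * ε₀) (by linarith)
        simpa using this
      · have c3' := c3 hy
        rw [abs_sub_comm] at c3'
        have r1 := h k i l hi hl 10 (by decide)
        have e1 : coA (T n i) (T n l) (E n i) (E n l) (fa n i k) (fa n l k) (fb n k)
            ((G n).z k) 10 = ((T n l).pos ((G n).z k) 0 - (T n i).pos ((G n).z k) 0) -
            fa n i k * ((T n l).pos ((G n).z k) 1 - (T n i).pos ((G n).z k) 1) -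
            fb n k * ((T n l).pos ((G n).z k) 2 - (T n i).pos ((G n).z k) 2) := rfl
        rw [e1] at r1
        have e2 : B.d n ^ (x - ε₀) ≤ B.d n ^ (y - ε₀) := rpow_anti B n (by linarith)
        refine le_trans ?_ (hmul y)
        rw [abs_le] at *
        constructor <;> linarith [r1.1, r1.2, c3'.1, c3'.2, m2.1, m2.2, m3.1, m3.2]
    · by_cases h8 : s = 8
      · subst h8
        have e0 : qv x y 8 = x := by simp [qv]
        rw [e0]
        have r1 := h k i l hi hl 8 (by decide)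
        have e1 : coA (T n i) (T n l) (E n i) (E n l) (fa n i k) (fa n l k) (fb n k)
            ((G n).z k) 8 = (T n l).pos ((G n).z k) 1 - (T n i).pos ((G n).z k) 1 := rfl
        rw [e1] at r1
        refine le_trans ?_ (hmul x)
        rw [abs_le] at *
        constructor <;> linarith [r1.1, r1.2, c1'.1, c1'.2]
      · by_cases h9 : s = 9
        · subst h9
          have e0 : qv x y 9 = x := by simp [qv]
          rw [e0]
          have r1 := h k i l hi hl 9 (by decide)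
          have e1 : coA (T n i) (T n l) (E n i) (E n l) (fa n i k) (fa n l k) (fb n k)
              ((G n).z k) 9 = ((T n l).pos ((G n).z k) 2 - (T n i).pos ((G n).z k) 2) -
                E n i * ((T n l).pos ((G n).z k) 1 - (T n i).pos ((G n).z k) 1) := rfl
          rw [e1] at r1
          refine le_trans ?_ (hmul x)
          rw [abs_le] at *
          constructor <;> linarith [r1.1, r1.2, c2'.1, c2'.2, m1.1, m1.2]
        · have e0 : qv x y s = 0 := by simp [qv, h10, h8, h9]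
          rw [e0]
          refine (hbd k i l hi hl s).trans ?_
          have := one_le_rpow_neg B n (t := 2 * ε₀) (by linarith)
          simpa using this
  filter_upwards [fib_le H hx ha0 (by norm_num : (1 : ℝ) ≤ 2) (by norm_num : (0 : ℝ) ≤ 2)
    (fun y => qv x y) P.q (fun y y' _ h _ j => by unfold qv; split_ifs <;> linarith) P.fib
    (fun n k l => (T n l).pos ((G n).z k) 0) hNc hε₀, hloose, ev_const_le B hε₀ 3] with n h1 h2 h3
    k F hF hne hbase R0 hR0 hN hsep
  have hpow : ∀ t : ℝ, 0 < B.d n ^ t := fun t => rpos B n t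
  have hR0pos : 0 < R0 := lt_of_lt_of_le (hpow _) hR0
  have hsep' : ∀ i ∈ F, ∀ i' ∈ F, i ≠ i' →
      B.d n ^ x ≤ |(T n i).pos ((G n).z k) 0 - (T n i').pos ((G n).z k) 0| := by
    intro i hi i' hi' hne'
    refine (rpow_anti B n ?_).trans (hsep i hi i' hi' hne')
    have : 0 ≤ C * ε₀ := by positivity
    linarith
  have hmain : ∀ y, 0 ≤ y → y ≤ x →
      (0 < y → ∀ i ∈ F, ∀ i' ∈ F, |(T n i).pos ((G n).z k) 0 - (T n i').pos ((G n).z k) 0| ≤
        B.d n ^ (y - ε₀)) → (F.card : ℝ) ≤ B.d n ^ (-(a * (x - y)) - C' * ε₀) := by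
    intro y hy0 hyx hy
    refine h1 k F hF y hy0 hyx ?_ hsep'
    intro i hi i' hi'
    exact h2 k i i' (H.memSlice.1 (hF hi)) (H.memSlice.1 (hF hi')) y hy0 hyx
      (hbase i hi i' hi' 1 (by decide)) (hbase i hi i' hi' 2 (by decide))
      (fun h => hy h i hi i' hi')
  -- the right side
  have hrhs : ∀ y, B.d n ^ y ≤ R0 → B.d n ^ (-(a * (x - y)) - C' * ε₀) ≤
      B.d n ^ (-(C * ε₀)) * (R0 / B.d n ^ (x - C * ε₀)) ^ a := by
    intro y hy
    have e1 : B.d n ^ (y - (x - C * ε₀)) ≤ R0 / B.d n ^ (x - C * ε₀) := by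
      rw [le_div_iff₀ (hpow _), ← rpow_add']
      have : y - (x - C * ε₀) + (x - C * ε₀) = y := by ring
      rwa [this]
    have e2 : (B.d n ^ (y - (x - C * ε₀))) ^ a ≤ (R0 / B.d n ^ (x - C * ε₀)) ^ a :=
      Real.rpow_le_rpow (hpow _).le e1 ha0
    refine le_trans ?_ (mul_le_mul_of_nonneg_left e2 (hpow _).le)
    rw [← Real.rpow_mul (B.pos n).le, ← rpow_add']
    refine rpow_anti B n ?_
    nlinarith
  rcases le_or_gt 1 R0 with hR | hR
  · refine (hmain 0 le_rfl hx.le (fun h => absurd h (lt_irrefl _))).trans (hrhs 0 ?_)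
    rwa [Real.rpow_zero]
  · -- `y = log R0 / log d`
    set y : ℝ := Real.log R0 / Real.log (B.d n) with hy
    have hlogd : Real.log (B.d n) < 0 := Real.log_neg (B.pos n) (B.lt n)
    have hdy : B.d n ^ y = R0 := by
      rw [Real.rpow_def_of_pos (B.pos n), hy, mul_div_cancel₀ _ hlogd.ne, Real.exp_log hR0pos]
    have hy0 : 0 ≤ y := div_nonneg_of_nonpos (Real.log_nonpos hR0pos.le hR.le) hlogd.le
    have hyx : y ≤ x := by
      by_contra hcon
      push Not at hcon
      have g1 : B.d n ^ y < B.d n ^ x := Real.rpow_lt_rpow_of_exponent_gt (B.pos n) (B.lt n) hcon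
      have g2 : B.d n ^ x ≤ B.d n ^ (x - C * ε₀) := rpow_anti B n (by
        have : 0 ≤ C * ε₀ := by positivity
        linarith)
      rw [hdy] at g1
      linarith
    refine (hmain y hy0 hyx (fun _ i hi i' hi' => ?_)).trans (hrhs y hdy.le)
    refine (hN i hi i' hi').trans ?_
    rw [← hdy]
    exact rpow_anti B n (by linarith)

end Crest.Agent.R136.Wk323
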