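import Crest.Agent.R136.Wk10_323
import Crest.Agent.R136.WkN_344
import Crest.Agent.R136.WkN2_344

/-!
# R136 (S0187): **RigWin** (helper323; counting helper344, geometry helper626)
-/

set_option autoImplicit false

open Filter Topology Finset

namespace Crest.Agent.R136.Wk323

/-- **rigidity of a lightlike window** -/
theorem rigWin : RigWin := by
  intro B G Leg ν D R x a m T E fa fb mu be H hxR A P hmu ε hε
  exact rigWin_of H hxR A P hmu (posCount H.toRUnif A P) (dirCount H.toRUnif A P)
    (cellUp H.toRUnif A P) (cellLow H.toRUnif A P) (fibBound H.toRUnif A P)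
    (dirConc H.toRUnif A P) (dirUp H.toRUnif A P) hε

end Crest.Agent.R136.Wk323
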