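import Crest.Agent.R136.Wk9_323

/-!
# R136 (S0187): mirrored lightlike, wrapper at one number `n` (helper323, for 940's C1*)

`mirror_one` : `wrap_one` for `RigData.mirror` (`E = 0`), heights of arbitrary density in a subset
`Zh` on which the flag `fb` is affine.
-/

set_option autoImplicit false
set_option linter.unusedVariables false

open Finset

namespace Crest.Agent.R136.Wk323

open Crest.Agent.R136.Sh605
open Crest.Agent.R136.Gf356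

/-- **MIRRORED LIGHTLIKE at one number `n`.**  `κ₁` = density of the heights of a line in `g.Z`,
`κ₂` = density of `Lg`, `κ₃` = density of the mesh heights (in `Zh`) of the lines of `Lg`. -/
theorem mirror_one {g : RCfg (Fin 11)} {t : ℕ → Ln4} {u : ℕ → ℝ} {fA : ℕ → ℕ → ℝ} {fB : ℕ → ℝ}
    {mu be δ : ℝ} {Fc : ℕ → ℝ} (A0 : ARel0 g.I g.z t u fA fB δ Fc) (hu : ∀ l ∈ g.L, u l = 0)
    {Zh : Finset ℕ} (haff : ∀ k ∈ Zh, |fB k - be - mu * g.z k| ≤ δ)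
    {h κ κ₁ κ₂ κ₃ lm lm0 r a Kf sep tol MP MD Mu Md Mc : ℝ} {N : ℕ}
    {w : ℤ} {kst : ℤ → ℕ} {Lg : Finset ℕ}
    (hδ : 0 < δ) (hh : 0 < h) (hhδ : h ≤ δ) (hNh : N * h ≤ 1) (hN : 0 < N)
    {eo : ℝ} (heo : 3 * δ + 2 * (|mu| * h) ≤ eo)
    (hlm : |mu| ≤ lm) (hlm0 : 0 < lm0) (hlm0' : lm0 ≤ |mu|) (hL : g.L.Nonempty)
    (hZ : g.Z.Nonempty) (hκ₁ : 0 < κ₁) (hκ₂ : 0 < κ₂)
    (hline : ∀ i ∈ g.L, κ₁ * (g.Z.card : ℝ) ≤ ((g.hts i).card : ℝ))
    (hκ : 0 < κ) (hκκ : κ ≤ κ₃) (hLg : Lg ⊆ g.L) (hLgc : κ₂ * (g.L.card : ℝ) ≤ (Lg.card : ℝ))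
    (hal : ∀ l ∈ Lg, κ₃ * N ≤
      ((alf (g.I.filter fun p => p.2 ∈ Zh) g.z h N w kst l).card : ℝ))
    (htol : 20 * δ ≤ tol) (hMP : 0 ≤ MP) (hMD : 0 ≤ MD) (hMu : 0 < Mu) (hMd : 0 < Md)
    (hpc : ∀ k, (((g.slice k).image fun l => posL δ (t l) (fA l k) (fB k) (g.z k)).card : ℝ) ≤ MP)
    (hdc : ∀ k, (((g.slice k).image fun l => dirL δ (t l) (u l)).card : ℝ) ≤ MD)
    (hcu : ∀ k i, (i, k) ∈ g.I → ∀ F ⊆ g.slice k, (∀ l ∈ F, ∀ s ∈ fAll,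
      |coA (t i) (t l) (u i) (u l) (fA i k) (fA l k) (fB k) (g.z k) s| ≤ tol) → (F.card : ℝ) ≤ Mu)
    (hdu : ∀ k i, (i, k) ∈ g.I → ∀ F ⊆ g.slice k, (∀ l ∈ F, ∀ s ∈ fDir,
      |coA (t i) (t l) (u i) (u l) (fA i k) (fA l k) (fB k) (g.z k) s| ≤ tol) → (F.card : ℝ) ≤ Md)
    (hcc : ∀ k, ∀ c : ℝ, ((((g.slice k).filter fun l => |(t l).v 2 - c| ≤ sep).image fun l =>
      dirL δ (t l) (u l)).card : ℝ) ≤ Mc)
    (hfib : ∀ Ls ⊆ Lg, RigData.ThinFib (fun l => shf (w * (N * h)) (t l)) Ls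
      (fun l => alf (g.I.filter fun p => p.2 ∈ Zh) g.z h N w kst l)
      (fun l => dirL δ (t l) (u l)) (3 * δ) h r a Kf)
    (n1 : κ * MP * MD * Mu ≤ κ₁ ^ 2 * (κ₂ * (g.L.card : ℝ)))
    (n2 : Mc * Md ≤ (κ ^ 2 / ((13 ^ 8 : ℕ) : ℝ)) ^ 3 / 4 * (κ₁ ^ 2 * (κ₂ * (g.L.card : ℝ))))
    (hr : 0 < r) (hδr : 3 * δ ≤ r) (her : eo ≤ r) (hlr : lm * (3 * δ) ≤ r) (ha0 : 0 ≤ a)
    (ha1 : a < 1) (hKf : 0 ≤ Kf)
    (hn : 256 * (((13 ^ 8 : ℕ) : ℝ)) ^ 3 ≤ (κ ^ 7 / (2 * (((13 ^ 8 : ℕ) : ℝ)) ^ 4)) ^ 3 * N)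
    (hn2 : 256 * (((13 ^ 8 : ℕ) : ℝ)) ^ 3 * (Kf * (16 * lm / r + 382) ^ a) <
      κ * (κ ^ 7 / (2 * (((13 ^ 8 : ℕ) : ℝ)) ^ 4)) ^ 3 * N) :
    2 * sep < RigData.etaR κ ((13 ^ 8 : ℕ) : ℝ) Kf (N * h) r a lm0 := by
  classical
  have hNr : (0 : ℝ) < N := by exact_mod_cast hN
  have hLpos : (0 : ℝ) < g.L.card := by exact_mod_cast hL.card_pos
  have hLgpos : (0 : ℝ) < Lg.card := lt_of_lt_of_le (by positivity) hLgc
  obtain ⟨Ls, hLsLg, hinj, hrep, hLsc⟩ := exists_reps Lg (fun l => cellL δ (t l) (u l) (Fc l))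
  have hLsL : Ls ⊆ g.L := hLsLg.trans hLg
  have hLsne : Ls.Nonempty := by
    obtain ⟨l, hl⟩ : Lg.Nonempty := by rw [← Finset.card_pos]; exact_mod_cast hLgpos
    obtain ⟨i, hi, -⟩ := hrep l hl
    exact ⟨i, hi⟩
  have AR : ARel (g.I.filter fun p => p.2 ∈ Zh) g.z t u fA fB mu be δ Fc :=
    ⟨A0.mono (filter_subset _ _), fun l k hl => haff k (mem_filter.1 hl).2⟩
  have hDat := AR.rigData_of' (h := h) (κ := κ) (N := N) (w := w) (kst := kst) (Ls := Ls) hδ hh hhδ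
    hNh heo hN hκ hinj (fun l hl => le_trans (mul_le_mul_of_nonneg_right hκκ hNr.le)
      (hal l (hLsLg hl)))
  -- counting
  have c1 := lines_le_cells A0 hδ hMu.le htol hZ hline hcu hLg
  rw [← hLsc] at c1
  have c2 := (lines_le_dirs A0 hδ hMd.le htol hZ hline hdu hLg).trans
    (mul_le_mul_of_nonneg_right (Nat.cast_le.2 (card_le_card (dirs_reps hrep))) hMd.le)
  have c3 : κ₁ * ((Ls.image fun l => dirL δ (t l) (u l)).card : ℝ) ≤ MD := by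
    have := dirs_le (t := t) (u := u) (δ := δ) hZ hline (fun _ => True) (M := MD) (by
      intro k
      rw [filter_true]
      exact hdc k) hLsL
    rwa [filter_true] at this
  have c4 : ((pts (fun l => alf (g.I.filter fun p => p.2 ∈ Zh) g.z h N w kst l)
      (fun l k => posL δ (t l) (fA l (kst k)) (fB (kst k)) (g.z (kst k))) Ls).card : ℝ) ≤
      N * MP := by
    refine pts_card_le Ls (fun l k => posL δ (t l) (fA l k) (fB k) (g.z k)) hMP ?_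
    intro k
    refine le_trans ?_ (hpc k)
    refine mod_cast card_le_card (image_subset_image ?_)
    intro l hl
    obtain ⟨a1, a2⟩ := mem_filter.1 hl
    exact RCfg.mem_slice.2 ⟨hLsL a1, (mem_filter.1 a2).1⟩
  have c5 : κ₁ * (κ₂ * (g.L.card : ℝ)) ≤ κ₁ * (Lg.card : ℝ) :=
    mul_le_mul_of_nonneg_left hLgc hκ₁.le
  have hcount : κ * ((pts (fun l => alf (g.I.filter fun p => p.2 ∈ Zh) g.z h N w kst l)
      (fun l k => posL δ (t l) (fA l (kst k)) (fB (kst k)) (g.z (kst k))) Ls).card : ℝ) *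
      ((Ls.image fun l => dirL δ (t l) (u l)).card : ℝ) ≤ N * (Ls.card : ℝ) := by
    set P : ℝ := ((pts (fun l => alf (g.I.filter fun p => p.2 ∈ Zh) g.z h N w kst l)
      (fun l k => posL δ (t l) (fA l (kst k)) (fB (kst k)) (g.z (kst k))) Ls).card : ℝ) with hP
    set Dn : ℝ := ((Ls.image fun l => dirL δ (t l) (u l)).card : ℝ) with hDn
    have hP0 : 0 ≤ P := Nat.cast_nonneg _
    have hDn0 : 0 ≤ Dn := Nat.cast_nonneg _
    have h1 : (κ * P * Dn) * (κ₁ * Mu) ≤ (N * (Ls.card : ℝ)) * (κ₁ * Mu) := by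
      calc (κ * P * Dn) * (κ₁ * Mu) = κ * Mu * (P * (κ₁ * Dn)) := by ring
        _ ≤ κ * Mu * ((N * MP) * MD) := by
            refine mul_le_mul_of_nonneg_left ?_ (by positivity)
            exact mul_le_mul c4 c3 (by positivity) (by positivity)
        _ = N * (κ * MP * MD * Mu) := by ring
        _ ≤ N * (κ₁ ^ 2 * (κ₂ * (g.L.card : ℝ))) := mul_le_mul_of_nonneg_left n1 hNr.le
        _ = N * κ₁ * (κ₁ * (κ₂ * (g.L.card : ℝ))) := by ring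
        _ ≤ N * κ₁ * ((Ls.card : ℝ) * Mu) :=
            mul_le_mul_of_nonneg_left (c5.trans c1) (by positivity)
        _ = _ := by ring
    exact le_of_mul_le_mul_right h1 (by positivity)
  have hconc : ∀ i ∈ Ls, (((Ls.filter fun j => |(t j).v 2 - (t i).v 2| ≤ sep).image fun l =>
      dirL δ (t l) (u l)).card : ℝ) ≤ (κ ^ 2 / ((13 ^ 8 : ℕ) : ℝ)) ^ 3 / 4 *
        ((Ls.image fun l => dirL δ (t l) (u l)).card : ℝ) := by
    intro i hi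
    have h1 := dirs_le (t := t) (u := u) (δ := δ) hZ hline
      (fun j => |(t j).v 2 - (t i).v 2| ≤ sep) (M := Mc) (fun k => hcc k _) hLsL
    set X : ℝ := (((Ls.filter fun j => |(t j).v 2 - (t i).v 2| ≤ sep).image fun l =>
      dirL δ (t l) (u l)).card : ℝ) with hX
    set Dn : ℝ := ((Ls.image fun l => dirL δ (t l) (u l)).card : ℝ) with hDn
    set c : ℝ := (κ ^ 2 / ((13 ^ 8 : ℕ) : ℝ)) ^ 3 / 4 with hc
    have hc0 : 0 ≤ c := by rw [hc]; positivity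
    have h2 : X * (κ₁ * Md) ≤ c * Dn * (κ₁ * Md) := by
      calc X * (κ₁ * Md) = (κ₁ * X) * Md := by ring
        _ ≤ Mc * Md := mul_le_mul_of_nonneg_right h1 hMd.le
        _ ≤ c * (κ₁ ^ 2 * (κ₂ * (g.L.card : ℝ))) := n2
        _ = c * κ₁ * (κ₁ * (κ₂ * (g.L.card : ℝ))) := by ring
        _ ≤ c * κ₁ * (Dn * Md) := mul_le_mul_of_nonneg_left (c5.trans c2) (by positivity)
        _ = _ := by ring
    exact le_of_mul_le_mul_right h2 (by positivity)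
  exact hDat.mirror hκ (by positivity) (lm := lm) (lm0 := lm0) (r := r) (a := a) (Kf := Kf)
    (sep := sep) hlm hlm0 hlm0' hr hδr her hlr ha0 ha1 hKf hLsne hN
    (fun i hi => hu i (hLsL hi)) hcount hconc (hfib Ls hLsLg) hn hn2

end Crest.Agent.R136.Wk323
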