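import Crest.Agent.R136.Wk11_323
import Crest.Agent.R136.Wk12_323

/-!
# R136 (S0187): counting without the affine relation (helper323, for 940's C1*)

`AbsRel` = `AbsWin` without `own`, `aff`, with any bound `Kb` of `rel`; `posCount_A`, `dirCount_A`,
`famUp_A`, `conc_A` (any direction slot), `fib_A` (thin fibre, only `qv x 0`, `qv x x`).
Proofs adapted from helper344's `WkN_344`.
-/

set_option autoImplicit false
set_option linter.unusedVariables false
set_option linter.unusedSectionVars false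

open Filter Topology Finset

namespace Crest.Agent.R136.Wk323

open Crest.Agent.R136.Sh605
open Crest.Agent.R138.Ex926 (Base U)
open Crest.Agent.R136.Gf356
open Crest.Agent.R136.RgN344

/-- absolute coordinates, no relation between the flags -/
structure AbsRel (B : Base) (G : ℕ → RCfg (Fin 11)) (x : ℝ) (T : ℕ → ℕ → Ln4) (E : ℕ → ℕ → ℝ)
    (fa : ℕ → ℕ → ℕ → ℝ) (fb : ℕ → ℕ → ℝ) (Kb : ℝ) : Prop where
  bd : ∀ᶠ n in (U : Filter ℕ), ∀ l k, (l, k) ∈ (G n).I → |(G n).z k| ≤ 1 ∧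
    (∀ j, |(T n l).pos ((G n).z k) j| ≤ 1) ∧ (∀ j, |(T n l).v j| ≤ 1) ∧ |E n l| ≤ 1 ∧
      |fa n l k| ≤ 1 ∧ |fb n k| ≤ 1
  bdr : ∀ᶠ n in (U : Filter ℕ), ∀ k i l, (i, k) ∈ (G n).I → (l, k) ∈ (G n).I →
    ∀ s, |(G n).rel k i l s| ≤ Kb
  rel : ∀ ε : ℝ, 0 < ε → ∀ᶠ n in (U : Filter ℕ), ∀ k i l, (i, k) ∈ (G n).I → (l, k) ∈ (G n).I →
    ∀ s ∈ fAll, |(G n).rel k i l s - coA (T n i) (T n l) (E n i) (E n l) (fa n i k) (fa n l k)
      (fb n k) ((G n).z k) s| ≤ B.d n ^ (x - ε)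

variable {B : Base} {G : ℕ → RCfg (Fin 11)} {Leg : Set (Fin 11 → ℝ)} {ν : (Fin 11 → ℝ) → ℝ}
  {D x a m Kb : ℝ} {T : ℕ → ℕ → Ln4} {E : ℕ → ℕ → ℝ} {fa : ℕ → ℕ → ℕ → ℝ} {fb : ℕ → ℕ → ℝ}
  {mu be : ℕ → ℝ}

/-- relative coordinates small ⇒ absolute relative coordinates small -/
theorem AbsRel.co_le (A : AbsRel B G x T E fa fb Kb) (H : RUnif B G Leg ν D) {p : Fin 11 → ℝ}
    (hp : ∀ s, p s ≤ x) {ε : ℝ} (hε : 0 < ε) :
    ∀ᶠ n in (U : Filter ℕ), ∀ k i l, (i, k) ∈ (G n).I → (l, k) ∈ (G n).I →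
      (G n).loose p ε k i l → ∀ s ∈ fAll, |coA (T n i) (T n l) (E n i) (E n l) (fa n i k) (fa n l k)
        (fb n k) ((G n).z k) s| ≤ 2 * B.d n ^ (p s - ε) := by
  filter_upwards [A.rel ε hε] with n h k i l hi hl hlo s hs
  have h1 := h k i l hi hl s hs
  have h2 := hlo s
  rw [H.base n] at h2
  have h3 : B.d n ^ (x - ε) ≤ B.d n ^ (p s - ε) := rpow_anti B n (by linarith [hp s])
  rw [abs_le] at *
  constructor <;> linarith [h1.1, h1.2, h2.1, h2.2]

/-- everything is loose at nonpositive exponents -/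
theorem AbsRel.ev_bd (A : AbsRel B G x T E fa fb Kb) {t : ℝ} (ht : 0 < t) :
    ∀ᶠ n in (U : Filter ℕ), ∀ k i l, (i, k) ∈ (G n).I → (l, k) ∈ (G n).I →
      ∀ s, ∀ q ≤ (0 : ℝ), |(G n).rel k i l s| ≤ B.d n ^ (q - t) := by
  filter_upwards [A.bdr, ev_const_le B ht Kb] with n h hK k i l hi hl s q hq
  exact (h k i l hi hl s).trans (hK.trans (rpow_anti B n (by linarith)))

/-- absolute relative coordinates small ⇒ relative coordinates small -/
theorem AbsRel.loose_of (A : AbsRel B G x T E fa fb Kb) (H : RUnif B G Leg ν D)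
    {p : Fin 11 → ℝ} (hp0 : ∀ s, s ∉ fAll → p s ≤ 0) (hp : ∀ s, p s ≤ x) {ε : ℝ} (hε : 0 < ε)
    (K : ℝ) :
    ∀ᶠ n in (U : Filter ℕ), ∀ k i l, (i, k) ∈ (G n).I → (l, k) ∈ (G n).I →
      (∀ s ∈ fAll, 0 < p s → |coA (T n i) (T n l) (E n i) (E n l) (fa n i k) (fa n l k)
        (fb n k) ((G n).z k) s| ≤ K * B.d n ^ (p s - ε)) → (G n).loose p (2 * ε) k i l := by
  filter_upwards [A.rel ε hε, A.ev_bd (t := 2 * ε) (by positivity), ev_const_le B hε (|K| + 1)]
    with n h hbd hK k i l hi hl hco s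
  rw [H.base n]
  by_cases hs0 : p s ≤ 0
  · exact hbd k i l hi hl s _ hs0
  · have hs : s ∈ fAll := by
      by_contra hcon
      exact hs0 (hp0 s hcon)
    rw [not_le] at hs0
    have h1 := h k i l hi hl s hs
    have h2 := hco s hs hs0
    have h3 : B.d n ^ (x - ε) ≤ B.d n ^ (p s - ε) := rpow_anti B n (by linarith [hp s])
    have h4 : (|K| + 1) * B.d n ^ (p s - ε) ≤ B.d n ^ (p s - 2 * ε) := by
      have e1 : B.d n ^ (p s - 2 * ε) = B.d n ^ (-ε) * B.d n ^ (p s - ε) := by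
        rw [← rpow_add']; congr 1; ring
      rw [e1]
      exact mul_le_mul_of_nonneg_right hK (rpos B n _).le
    have h5 : K * B.d n ^ (p s - ε) ≤ |K| * B.d n ^ (p s - ε) :=
      mul_le_mul_of_nonneg_right (le_abs_self K) (rpos B n _).le
    refine le_trans ?_ h4
    have h6 : |(G n).rel k i l s| ≤ |(G n).rel k i l s - coA (T n i) (T n l) (E n i) (E n l)
        (fa n i k) (fa n l k) (fb n k) ((G n).z k) s| + |coA (T n i) (T n l) (E n i) (E n l)
        (fa n i k) (fa n l k) (fb n k) ((G n).z k) s| := by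
      have := abs_add_le ((G n).rel k i l s - coA (T n i) (T n l) (E n i) (E n l)
        (fa n i k) (fa n l k) (fb n k) ((G n).z k) s) (coA (T n i) (T n l) (E n i) (E n l)
        (fa n i k) (fa n l k) (fb n k) ((G n).z k) s)
      simpa using this
    linarith

theorem posCount_A (H : RUnif B G Leg ν D) (A : AbsRel B G x T E fa fb Kb) (hx : 0 < x)
    (hzero : (0 : Fin 11 → ℝ) ∈ Leg) (hpos : vec fPos x ∈ Leg) : PosCount B G ν x T fa fb := by
  intro ε₀ hε₀ ε hε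
  have hD := H.D1
  have hle : ∀ s, vec fPos x s ≤ x := fun s => by
    unfold vec; split_ifs <;> linarith
  have hco : ∀ ε : ℝ, 0 < ε → ∀ᶠ n in (U : Filter ℕ), ∀ k i l, (i, k) ∈ (G n).I →
      (l, k) ∈ (G n).I → (G n).loose (vec fPos x) ε k i l → ∀ j : Fin 5,
      |(fun n k l => (![(T n l).pos ((G n).z k) 0, (T n l).pos ((G n).z k) 1,
          (T n l).pos ((G n).z k) 2, fa n l k,
          (T n l).v 0 - fa n l k * (T n l).v 1 - fb n k * (T n l).v 2] : Fin 5 → ℝ)) n k l j -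
        (fun n k l => (![(T n l).pos ((G n).z k) 0, (T n l).pos ((G n).z k) 1,
          (T n l).pos ((G n).z k) 2, fa n l k,
          (T n l).v 0 - fa n l k * (T n l).v 1 - fb n k * (T n l).v 2] : Fin 5 → ℝ)) n k i j| ≤
      B.d n ^ ((x - ε₀) - 2 * ε) := by
    intro ε hε
    filter_upwards [A.co_le H hle hε, A.bd, ev_mul_le B (K := 8) hε] with n h1 hb h8 k i l hi hl hlo j
    have g := h1 k i l hi hl hlo
    have hval : ∀ s ∈ fPos, |coA (T n i) (T n l) (E n i) (E n l) (fa n i k) (fa n l k)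
        (fb n k) ((G n).z k) s| ≤ 2 * B.d n ^ (x - ε) := by
      intro s hs
      have hsA : s ∈ fAll := by
        revert hs; revert s; decide
      have := g s hsA
      rwa [vec_of_mem hs] at this
    obtain ⟨_, _, _, bE, bfa, bfb⟩ := hb i k hi
    obtain ⟨_, _, bv, _, _, _⟩ := hb l k hl
    have key := pos_close bE bfa bfb (bv 1) (hval 4 (by decide)) (hval 7 (by decide))
      (hval 8 (by decide)) (hval 9 (by decide)) (hval 10 (by decide)) j
    refine key.trans ?_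
    calc 4 * (2 * B.d n ^ (x - ε)) = 8 * B.d n ^ (x - ε) := by ring
      _ ≤ B.d n ^ (x - ε - ε) := h8 _
      _ ≤ B.d n ^ ((x - ε₀) - 2 * ε) := rpow_anti B n (by linarith)
  set K : ℝ := D * (D * 1) + (5 : ℕ) * (2 + 1) + 1 with hK
  have hK0 : 0 < K := by positivity
  have hεK : 0 < ε / K := by positivity
  filter_upwards [lab_le H (0 : Fin 11 → ℝ) (vec fPos x) hzero hpos (fun s => vec_nonneg hx.le s)
    (by norm_num : (0 : ℝ) ≤ 2) _ hco (le_refl (1 : ℝ)) hεK,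
    A.ev_bd (t := 1 * (ε / K)) (by positivity)] with n h1 hbd k
  rcases ((G n).slice k).eq_empty_or_nonempty with he | ⟨i0, hi0⟩
  · rw [he]; simpa using (rpos B n _).le
  have hI0 := H.memSlice.1 hi0
  have h2 := h1 k i0 hI0 _ (Finset.Subset.refl _) (fun i hi s => by
    rw [H.base n]
    exact hbd k i0 i hI0 (H.memSlice.1 hi) s _ le_rfl)
  have e1 : K * (ε / K) = ε := by field_simp
  rw [← hK, e1] at h2
  refine le_trans (le_of_eq ?_) h2
  simp only [posL_eq]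

/-- the direction coordinates of close lines -/
theorem AbsRel.dir_co (H : RUnif B G Leg ν D) (A : AbsRel B G x T E fa fb Kb) (hx : 0 < x)
    {ε₀ : ℝ} (hε₀ : 0 < ε₀) {ε : ℝ} (hε : 0 < ε) :
    ∀ᶠ n in (U : Filter ℕ), ∀ k i l, (i, k) ∈ (G n).I →
      (l, k) ∈ (G n).I → (G n).loose (vec fDir x) ε k i l → ∀ j : Fin 3,
      |(fun n (_ : ℕ) l => (![(T n l).v 1, (T n l).v 2, E n l] : Fin 3 → ℝ)) n k l j -
        (fun n (_ : ℕ) l => (![(T n l).v 1, (T n l).v 2, E n l] : Fin 3 → ℝ)) n k i j| ≤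
      B.d n ^ ((x - ε₀) - 2 * ε) := by
  have hle : ∀ s, vec fDir x s ≤ x := fun s => by
    unfold vec; split_ifs <;> linarith
  filter_upwards [A.co_le H hle hε, A.bd, ev_mul_le B (K := 4) hε] with n h1 hb h8 k i l hi hl hlo j
  have g := h1 k i l hi hl hlo
  have hval : ∀ s ∈ fDir, |coA (T n i) (T n l) (E n i) (E n l) (fa n i k) (fa n l k)
      (fb n k) ((G n).z k) s| ≤ 2 * B.d n ^ (x - ε) := by
    intro s hs
    have hsA : s ∈ fAll := by
      revert hs; revert s; decide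
    have := g s hsA
    rwa [vec_of_mem hs] at this
  obtain ⟨_, _, _, bE, bfa, bfb⟩ := hb i k hi
  have key := dir_close bE (hval 2 (by decide)) (hval 5 (by decide)) (hval 6 (by decide)) j
  refine key.trans ?_
  calc 2 * (2 * B.d n ^ (x - ε)) = 4 * B.d n ^ (x - ε) := by ring
    _ ≤ B.d n ^ (x - ε - ε) := h8 _
    _ ≤ B.d n ^ ((x - ε₀) - 2 * ε) := rpow_anti B n (by linarith)

theorem dirCount_A (H : RUnif B G Leg ν D) (A : AbsRel B G x T E fa fb Kb) (hx : 0 < x)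
    (hzero : (0 : Fin 11 → ℝ) ∈ Leg) (hdir : vec fDir x ∈ Leg) : DirCount B G ν x T E := by
  intro ε₀ hε₀ ε hε
  have hD := H.D1
  set K : ℝ := D * (D * 1) + (3 : ℕ) * (2 + 1) + 1 with hK
  have hK0 : 0 < K := by positivity
  have hεK : 0 < ε / K := by positivity
  filter_upwards [lab_le H (0 : Fin 11 → ℝ) (vec fDir x) hzero hdir (fun s => vec_nonneg hx.le s)
    (by norm_num : (0 : ℝ) ≤ 2) _ (fun ε hε => A.dir_co H hx hε₀ hε) (le_refl (1 : ℝ)) hεK,
    A.ev_bd (t := 1 * (ε / K)) (by positivity)] with n h1 hbd k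
  rcases ((G n).slice k).eq_empty_or_nonempty with he | ⟨i0, hi0⟩
  · rw [he]; simpa using (rpos B n _).le
  have hI0 := H.memSlice.1 hi0
  have h2 := h1 k i0 hI0 _ (Finset.Subset.refl _) (fun i hi s => by
    rw [H.base n]
    exact hbd k i0 i hI0 (H.memSlice.1 hi) s _ le_rfl)
  have e1 : K * (ε / K) = ε := by field_simp
  rw [← hK, e1] at h2
  refine le_trans (le_of_eq ?_) h2
  simp only [dirL_eq]

/-- number of lines of a slice close in the slots of `S` -/
theorem famUp_A (H : RUnif B G Leg ν D) (A : AbsRel B G x T E fa fb Kb) {S : Finset (Fin 11)}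
    (hS : S ⊆ fAll) (hL : vec S x ∈ Leg) (hx : 0 < x) :
    ∃ C : ℝ, 0 ≤ C ∧ ∀ ε₀ : ℝ, 0 < ε₀ → ∀ᶠ n in (U : Filter ℕ), ∀ k i,
      (i, k) ∈ (G n).I → ∀ F ⊆ (G n).slice k, (∀ l ∈ F, ∀ s ∈ S, |coA (T n i) (T n l) (E n i) (E n l)
        (fa n i k) (fa n l k) (fb n k) ((G n).z k) s| ≤ B.d n ^ (x - ε₀)) →
        (F.card : ℝ) ≤ B.d n ^ (-ν (vec S x) - C * ε₀) := by
  have hD := H.D1
  refine ⟨D * 2, by positivity, fun ε₀ hε₀ => ?_⟩
  have h2ε : 0 < 2 * ε₀ := by positivity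
  filter_upwards [A.loose_of H (p := vec S x)
    (fun s hs => (vec_of_notMem (fun h => hs (hS h))).le)
    (fun s => by unfold vec; split_ifs <;> linarith) hε₀ 1, H.up _ hL _ h2ε] with n h1 h2
    k i hi F hF hc
  have h3 := h2 i k hi
  have e1 : D * (2 * ε₀) = D * 2 * ε₀ := by ring
  rw [e1] at h3
  refine le_trans ?_ h3
  refine mod_cast Finset.card_le_card fun l hl => RCfg.mem_box.2 ⟨hF hl, ?_⟩
  refine h1 k i l hi (H.memSlice.1 (hF hl)) fun s hs hps => ?_
  have hsS : s ∈ S := by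
    by_contra hcon
    rw [vec_of_notMem hcon] at hps
    exact lt_irrefl _ hps
  rw [vec_of_mem hsS, one_mul]
  exact hc l hl s hsS

/-- directions with `v 2` in a short interval, `E = 0` -/
theorem conc6_A (H : RUnif B G Leg ν D) (A : AbsRel B G x T (fun _ _ => 0) fa fb Kb) (hx : 0 < x)
    (hdir : vec fDir x ∈ Leg) {y : ℝ} (hy0 : 0 ≤ y) (hyx : y ≤ x) (hc : vec {6} y ∈ Leg) :
    ∀ ε₀ : ℝ, 0 < ε₀ → ∀ᶠ n in (U : Filter ℕ), ∀ k, ∀ c : ℝ,
    (((((G n).slice k).filter fun l => |(T n l).v 2 - c| ≤ B.d n ^ y).image fun l =>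
      dirL (B.d n ^ (x - ε₀)) (T n l) 0).card : ℝ) ≤
      B.d n ^ (-(ν (vec {6} y) - ν (vec fDir x)) -
        (D * (D * 2) + (3 : ℕ) * (2 + 1) + 1) * ε₀) := by
  intro ε₀ hε₀
  have hD := H.D1
  filter_upwards [lab_le H (vec {6} y) (vec fDir x) hc hdir
    (vec_mono (by decide) hyx hx.le) (by norm_num : (0 : ℝ) ≤ 2) _
    (fun ε hε => A.dir_co H hx hε₀ hε) (by norm_num : (1 : ℝ) ≤ 2) hε₀,
    A.loose_of H (p := vec {6} y) (fun s hs => (vec_of_notMem (by
      intro h; apply hs; revert h; revert s; decide)).le)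
      (fun s => by unfold vec; split_ifs <;> linarith) hε₀ 2] with n h1 h2 k c
  set F := ((G n).slice k).filter fun l => |(T n l).v 2 - c| ≤ B.d n ^ y with hF
  rcases F.eq_empty_or_nonempty with he | ⟨i0, hi0⟩
  · rw [he]; simpa using (rpos B n _).le
  obtain ⟨a1, a2⟩ := Finset.mem_filter.1 hi0
  have hI0 := H.memSlice.1 a1
  have h3 := h1 k i0 hI0 F (Finset.filter_subset _ _) (fun i hi => by
    obtain ⟨b1, b2⟩ := Finset.mem_filter.1 hi
    refine h2 k i0 i hI0 (H.memSlice.1 b1) fun s hs hs0 => ?_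
    have hs6 : s = 6 := by
      by_contra hne
      have : vec {6} y s = 0 := vec_of_notMem (by simpa using hne)
      linarith
    subst hs6
    rw [vec_of_mem (by simp)]
    have e1 : coA (T n i0) (T n i) 0 0 (fa n i0 k) (fa n i k) (fb n k) ((G n).z k) 6 =
        ((T n i).v 2 - (T n i0).v 2) - 0 * ((T n i).v 1 - (T n i0).v 1) := rfl
    rw [e1, zero_mul, sub_zero]
    have e2 : B.d n ^ y ≤ B.d n ^ (y - ε₀) := rpow_anti B n (by linarith)
    rw [abs_le] at *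
    constructor <;> linarith [a2.1, a2.2, b2.1, b2.2])
  refine le_trans (le_of_eq ?_) h3
  simp only [dirL_eq]

/-- **thin fibre**, only the boxes `qv x 0` and `qv x x` -/
theorem fib_A (H : RUnif B G Leg ν D) (A : AbsRel B G x T E fa fb Kb) (hx : 0 < x)
    (hq0 : qv x 0 ∈ Leg) (hq : qv x x ∈ Leg) :
    ∃ C : ℝ, 1 ≤ C ∧ ∀ ε₀ : ℝ, 0 < ε₀ → ∀ᶠ n in (U : Filter ℕ), ∀ k, ∀ F ⊆ (G n).slice k,
      F.Nonempty → (∀ i ∈ F, ∀ i' ∈ F, ∀ m : Fin 3, m ≠ 0 →
        |(T n i).pos ((G n).z k) m - (T n i').pos ((G n).z k) m| ≤ B.d n ^ (x - ε₀)) →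
      (∀ i ∈ F, ∀ i' ∈ F, i ≠ i' →
        B.d n ^ x ≤ |(T n i).pos ((G n).z k) 0 - (T n i').pos ((G n).z k) 0|) →
      (F.card : ℝ) ≤ B.d n ^ (-(ν (qv x 0) - ν (qv x x)) - C * ε₀) := by
  have hD := H.D1
  set K : ℝ := D * (D * 2) + (1 : ℕ) * (2 + 1) + 1 with hK
  have hK1 : 1 ≤ K := by
    have : 0 ≤ D * (D * 2) := by positivity
    rw [hK]; push_cast; linarith
  refine ⟨K, hK1, fun ε₀ hε₀ => ?_⟩
  have hle : ∀ s, qv x x s ≤ x := fun s => by unfold qv; split_ifs <;> linarith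
  -- one label coordinate
  have hco : ∀ ε : ℝ, 0 < ε → ∀ᶠ n in (U : Filter ℕ), ∀ k i l, (i, k) ∈ (G n).I →
      (l, k) ∈ (G n).I → (G n).loose (qv x x) ε k i l → ∀ j : Fin 1,
      |(fun n k l => (fun _ => (T n l).pos ((G n).z k) 0 : Fin 1 → ℝ)) n k l j -
        (fun n k l => (fun _ => (T n l).pos ((G n).z k) 0 : Fin 1 → ℝ)) n k i j| ≤
      B.d n ^ (x - 2 * ε) := by
    intro ε hε
    filter_upwards [A.co_le H hle hε, A.bd, ev_mul_le B (K := 8) hε] with n h1 hb h8 k i l hi hl hlo j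
    have g := h1 k i l hi hl hlo
    have g8 : |coA (T n i) (T n l) (E n i) (E n l) (fa n i k) (fa n l k)
        (fb n k) ((G n).z k) 8| ≤ 2 * B.d n ^ (x - ε) := g 8 (by decide)
    have g9 : |coA (T n i) (T n l) (E n i) (E n l) (fa n i k) (fa n l k)
        (fb n k) ((G n).z k) 9| ≤ 2 * B.d n ^ (x - ε) := g 9 (by decide)
    have g10 : |coA (T n i) (T n l) (E n i) (E n l) (fa n i k) (fa n l k)
        (fb n k) ((G n).z k) 10| ≤ 2 * B.d n ^ (x - ε) := g 10 (by decide)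
    obtain ⟨_, _, _, bE, bfa, bfb⟩ := hb i k hi
    obtain ⟨_, _, g3⟩ := base_close bE bfa bfb g8 g9 g10
    refine g3.trans ?_
    calc 2 * B.d n ^ (x - ε) + 3 * (2 * B.d n ^ (x - ε)) = 8 * B.d n ^ (x - ε) := by ring
      _ ≤ B.d n ^ (x - ε - ε) := h8 _
      _ = _ := by congr 1; ring
  filter_upwards [lab_le H (qv x 0) (qv x x) hq0 hq (fun s => by unfold qv; split_ifs <;> linarith)
    (by norm_num : (0 : ℝ) ≤ 2) _ hco (by norm_num : (1 : ℝ) ≤ 2) hε₀,
    A.loose_of H (p := qv x 0) (fun s hs => by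
      have h8 : s ≠ 8 := fun h => hs (by subst h; decide)
      have h9 : s ≠ 9 := fun h => hs (by subst h; decide)
      unfold qv; split_ifs <;> simp_all) (fun s => by unfold qv; split_ifs <;> linarith) hε₀ 2,
    A.bd] with n h1 h2 hb k F hF hne hbase hsep
  obtain ⟨i0, hi0⟩ := hne
  have hI0 := H.memSlice.1 (hF hi0)
  have h3 := h1 k i0 hI0 F hF (fun i hi => by
    refine h2 k i0 i hI0 (H.memSlice.1 (hF hi)) fun s hs hs0 => ?_
    obtain ⟨_, _, _, bE, bfa, bfb⟩ := hb i0 k hI0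
    have c1 := hbase i hi i0 hi0 1 (by decide)
    have c2 := hbase i hi i0 hi0 2 (by decide)
    have hp0 := rpos B n (x - ε₀)
    by_cases h8 : s = 8
    · subst h8
      have e0 : qv x 0 8 = x := by simp [qv]
      have e1 : coA (T n i0) (T n i) (E n i0) (E n i) (fa n i0 k) (fa n i k) (fb n k)
        ((G n).z k) 8 = (T n i).pos ((G n).z k) 1 - (T n i0).pos ((G n).z k) 1 := rfl
      rw [e0, e1]
      linarith
    · by_cases h9 : s = 9
      · subst h9
        have e0 : qv x 0 9 = x := by simp [qv]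
        have e1 : coA (T n i0) (T n i) (E n i0) (E n i) (fa n i0 k) (fa n i k) (fb n k)
          ((G n).z k) 9 = ((T n i).pos ((G n).z k) 2 - (T n i0).pos ((G n).z k) 2) -
            E n i0 * ((T n i).pos ((G n).z k) 1 - (T n i0).pos ((G n).z k) 1) := rfl
        rw [e0, e1]
        have m1 : |E n i0 * ((T n i).pos ((G n).z k) 1 - (T n i0).pos ((G n).z k) 1)| ≤
            1 * B.d n ^ (x - ε₀) := abs_mul_le bE c1
        refine (abs_sub _ _).trans ?_
        linarith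
      · exfalso
        have : qv x 0 s = 0 := by
          unfold qv
          split_ifs <;> simp_all
        linarith)
  -- different lines have different labels
  have hinj : Set.InjOn (fun i => gl (B.d n ^ x) ((fun n k l => (fun _ =>
      (T n l).pos ((G n).z k) 0 : Fin 1 → ℝ)) n k i)) (F : Set ℕ) := by
    intro i hi i' hi' hii
    by_contra hne'
    have h4 := abs_sub_lt_of_gl_eq (rpos B n x) hii 0
    have h5 := hsep i hi i' hi' hne'
    simp only at h4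
    linarith
  rw [card_image_of_injOn hinj] at h3
  rw [← hK] at h3
  exact h3

end Crest.Agent.R136.Wk323
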