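import Crest.Agent.R136.Wk14_323

/-!
# R136 (S0187): `mirWin : MirWin` (helper323): no mirrored lightlike window
-/

set_option autoImplicit false
set_option linter.unusedVariables false

open Filter Topology Finset

namespace Crest.Agent.R136.Wk323

open Crest.Agent.R136.Sh605
open Crest.Agent.R138.Ex926 (Base U)
open Crest.Agent.R136.Gf356

/-- **the mirrored window at one number `n`** -/
theorem mir_one {g : RCfg (Fin 11)} {t : ℕ → Ln4} {f : ℕ → ℝ} {μ be δ h κ κ₁ κh lm lm0 rF sep tol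
    eo MP MD Mu Md Mc Kf' : ℝ} {N : ℕ} (hsub : g.I ⊆ g.L ×ˢ g.Z)
    (hbd : ∀ l k, (l, k) ∈ g.I → |g.z k| ≤ 1 ∧ (∀ j, |(t l).v j| ≤ 1) ∧ |f k| ≤ 1)
    {Z' : Finset ℕ} (hZ' : Z'.Nonempty) (hZ'Z : Z' ⊆ g.Z)
    (haff : ∀ k ∈ Z', |f k - be - μ * g.z k| ≤ δ)
    (hδ : 0 < δ) (hh : 0 < h) (hhδ : h ≤ δ) (hNh : N * h ≤ 1) (hNh1 : 1 < (N + 1) * h) (hN : 0 < N)
    (heo : 3 * δ + 2 * (|μ| * h) ≤ eo)
    (hlm : |μ| ≤ lm) (hlm0 : 0 < lm0) (hlm0' : lm0 ≤ |μ|) (hL : g.L.Nonempty)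
    (hκ₁ : 0 < κ₁) (hline : ∀ i ∈ g.L, κ₁ * (g.Z.card : ℝ) ≤ ((g.hts i).card : ℝ))
    (hκh : 0 < κh) (hz : ∀ k ∈ Z', |g.z k| ≤ 1)
    (hsl : ∀ k ∈ Z', κh * (g.L.card : ℝ) ≤ ((g.slice k).card : ℝ))
    (hfr : ∀ k ∈ Z', κh * N * ((Z'.filter fun k' => |g.z k' - g.z k| ≤ h).card : ℝ) ≤
      (Z'.card : ℝ))
    (hκ : 0 < κ) (hκκ : κ ≤ κh ^ 2 / 8)
    (htol : 20 * δ ≤ tol) (htol2 : 56 * δ ≤ tol) (hMP : 0 ≤ MP) (hMD : 0 ≤ MD) (hMu : 0 < Mu)
    (hMd : 0 < Md)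
    (hpc : ∀ k, (((g.slice k).image fun l => posL δ (t l) 0 (f k) (g.z k)).card : ℝ) ≤ MP)
    (hdc : ∀ k, (((g.slice k).image fun l => dirL δ (t l) 0).card : ℝ) ≤ MD)
    (hcu : ∀ k i, (i, k) ∈ g.I → ∀ F ⊆ g.slice k, (∀ l ∈ F, ∀ s ∈ fAll,
      |coA (t i) (t l) 0 0 0 0 (f k) (g.z k) s| ≤ tol) → (F.card : ℝ) ≤ Mu)
    (hdu : ∀ k i, (i, k) ∈ g.I → ∀ F ⊆ g.slice k, (∀ l ∈ F, ∀ s ∈ fDir,
      |coA (t i) (t l) 0 0 0 0 (f k) (g.z k) s| ≤ tol) → (F.card : ℝ) ≤ Md)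
    (hcc : ∀ k, ∀ c : ℝ, ((((g.slice k).filter fun l => |(t l).v 2 - c| ≤ sep).image fun l =>
      dirL δ (t l) 0).card : ℝ) ≤ Mc)
    (hrF : 0 < rF) (hrF2 : 2 * h ≤ rF) (hKf' : 0 ≤ Kf')
    (hfib : ∀ k, ∀ F ⊆ g.slice k, F.Nonempty → (∀ i ∈ F, ∀ i' ∈ F, ∀ m : Fin 3, m ≠ 0 →
        |(t i).pos (g.z k) m - (t i').pos (g.z k) m| ≤ tol) →
      (∀ i ∈ F, ∀ i' ∈ F, i ≠ i' → rF ≤ |(t i).pos (g.z k) 0 - (t i').pos (g.z k) 0|) →
      (F.card : ℝ) ≤ Kf')
    (n1 : κ * MP * MD * Mu ≤ κ₁ ^ 2 * (κh / 8 * (g.L.card : ℝ)))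
    (n2 : Mc * Md ≤ (κ ^ 2 / ((13 ^ 8 : ℕ) : ℝ)) ^ 3 / 4 * (κ₁ ^ 2 * (κh / 8 * (g.L.card : ℝ))))
    (hδr : 3 * δ ≤ 2 * rF) (her : eo ≤ 2 * rF) (hlr : lm * (3 * δ) ≤ 2 * rF)
    (hn : 256 * (((13 ^ 8 : ℕ) : ℝ)) ^ 3 ≤ (κ ^ 7 / (2 * (((13 ^ 8 : ℕ) : ℝ)) ^ 4)) ^ 3 * N)
    (hn2 : 256 * (((13 ^ 8 : ℕ) : ℝ)) ^ 3 * (4 * Kf' * (16 * lm / (2 * rF) + 382) ^ (0 : ℝ)) <
      κ * (κ ^ 7 / (2 * (((13 ^ 8 : ℕ) : ℝ)) ^ 4)) ^ 3 * N) :
    2 * sep < RigData.etaR κ ((13 ^ 8 : ℕ) : ℝ) (4 * Kf') (N * h) (2 * rF) 0 lm0 := by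
  classical
  have A0 : ARel0 g.I g.z t (fun _ => 0) (fun _ _ => 0) f δ (fun _ => 0) :=
    ⟨fun l k hl => (hbd l k hl).1, fun l k hl => (hbd l k hl).2.1,
      fun l k hl => by simp, fun l k hl => by simp, fun l k hl => (hbd l k hl).2.2,
      fun l k k' hl hl' => by simpa using hδ.le, fun l k hl => by simpa using hδ.le⟩
  obtain ⟨w, hw, kst, Lg, hLg, hLgc, hal⟩ := heights_fin g.L Z' (fun l k => (l, k) ∈ g.I) g.z
    (h := h) (κ := κh) (n := N) hN hh hκh hNh1 hZ' hz hsl hfr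
  have hal' : ∀ l ∈ Lg, κh ^ 2 / 8 * N ≤
      ((alf (g.I.filter fun p => p.2 ∈ Z') g.z h N w kst l).card : ℝ) := by
    intro l hl
    refine (hal l hl).trans ?_
    refine mod_cast card_le_card ?_
    intro x hx
    rw [mem_filter, Finset.mem_Ico] at hx
    rw [mem_alf]
    exact ⟨hx.1, mem_filter.2 ⟨hx.2.2.1, hx.2.1⟩, hx.2.2.2⟩
  have AR : ARel (g.I.filter fun p => p.2 ∈ Z') g.z t (fun _ => 0) (fun _ _ => 0) f μ be δ
      (fun _ => 0) := ⟨A0.mono (filter_subset _ _), fun l k hl => haff k (mem_filter.1 hl).2⟩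
  refine mirror_one A0 (fun _ _ => rfl) haff (h := h) (κ := κ) (κ₁ := κ₁) (κ₂ := κh / 8)
    (κ₃ := κh ^ 2 / 8) (lm := lm) (lm0 := lm0) (r := 2 * rF) (a := 0) (Kf := 4 * Kf')
    (sep := sep) (tol := tol) (MP := MP) (MD := MD) (Mu := Mu) (Md := Md) (Mc := Mc) (N := N)
    (w := w) (kst := kst) (Lg := Lg) hδ hh hhδ hNh hN heo hlm hlm0 hlm0' hL
    (hZ'.mono hZ'Z) hκ₁ (by positivity) hline hκ hκκ hLg hLgc hal' htol hMP hMD hMu hMd hpc hdc
    hcu hdu hcc ?_ n1 n2 (by positivity) hδr her hlr le_rfl one_pos (by positivity) hn hn2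
  intro Ls hLs
  refine AR.thinFib_of (h := h) (rF := rF) (a := 0) (Kf' := Kf') (tol := tol) (N := N) (w := w)
    (kst := kst) (Ls := Ls) hδ hh hhδ hrF hrF2 htol2 hKf' le_rfl one_pos ?_
  intro k F hF hne h1 R0 hR0 h2 h3
  rw [Real.rpow_zero, mul_one]
  refine hfib k F (fun i hi => RCfg.mem_slice.2 ⟨?_, (mem_filter.1 (hF i hi)).1⟩) hne h1 h3
  exact (mem_product.1 (hsub (mem_filter.1 (hF i hi)).1)).1

/-- the slope of an affine piece on a heavy set of heights is bounded by a power -/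
theorem slope_le {Z Z' : Finset ℕ} (hZ' : Z' ⊆ Z) {z f : ℕ → ℝ} {μ w c : ℝ} (hw : 0 < w)
    (hne : Z'.Nonempty) (hc : c ≤ 1)
    (hf : ∀ k ∈ Z', |f k| ≤ 1)
    (haff : ∀ k ∈ Z', ∀ k' ∈ Z', |f k' - f k - μ * (z k' - z k)| ≤ 2 * c)
    (hfr : ∀ k ∈ Z', ((Z.filter fun k' => |z k' - z k| ≤ w).card : ℝ) < (Z'.card : ℝ)) :
    |μ| * w ≤ 4 := by
  obtain ⟨k0, hk0⟩ := hne
  obtain ⟨k, hk, hkw⟩ : ∃ k ∈ Z', w < |z k - z k0| := by
    by_contra hcon
    push Not at hcon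
    have h1 := hfr k0 hk0
    have h2 : Z' ⊆ Z.filter fun k' => |z k' - z k0| ≤ w := fun k hk =>
      mem_filter.2 ⟨hZ' hk, hcon k hk⟩
    have h3 : (Z'.card : ℝ) ≤ ((Z.filter fun k' => |z k' - z k0| ≤ w).card : ℝ) := by
      exact_mod_cast card_le_card h2
    linarith
  have h1 := haff k0 hk0 k hk
  have h2 : |μ * (z k - z k0)| ≤ 4 := by
    have e : μ * (z k - z k0) = (f k - f k0) - (f k - f k0 - μ * (z k - z k0)) := by ring
    rw [e]
    have h3 := abs_sub (f k - f k0) (f k - f k0 - μ * (z k - z k0))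
    have h4 := abs_sub (f k) (f k0)
    have h5 := hf k hk
    have h6 := hf k0 hk0
    linarith
  rw [abs_mul] at h2
  have h3 := mul_le_mul_of_nonneg_left hkw.le (abs_nonneg μ)
  linarith

set_option maxHeartbeats 1600000 in
/-- **NO MIRRORED LIGHTLIKE WINDOW** -/
theorem mirWin : MirWin := by
  classical
  intro a m ha0 ha1 hm
  have h1a : 0 < 1 - a := by linarith
  obtain ⟨K, hK⟩ : ∃ K : ℝ, K = 140 + 21 / m := ⟨_, rfl⟩
  have h21m : 0 < 21 / m := by positivity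
  have hK0 : 0 < K := by rw [hK]; linarith
  refine ⟨(1 - a) / K, by positivity, ?_⟩
  intro B G Leg ν D R x T f H hxR P hbd hrel hev
  have hx := P.x0
  obtain ⟨θ, hθ⟩ : ∃ θ : ℝ, θ = (1 - a) / K * x := ⟨_, rfl⟩
  rw [← hθ] at hev
  have hθ0 : 0 < θ := by rw [hθ]; positivity
  have hKθ : K * θ = (1 - a) * x := by rw [hθ]; field_simp
  obtain ⟨y, hy⟩ : ∃ y : ℝ, y = 20 * θ / m := ⟨_, rfl⟩
  have hy0 : 0 < y := by rw [hy]; positivity
  have hyK : 140 * θ + 21 / 20 * y = (1 - a) * x := by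
    rw [← hKθ, hK, hy]; field_simp
  have hax : 0 ≤ a * x := mul_nonneg ha0 hx.le
  have hyx : y ≤ x := by linarith
  have hmy : m * y = 20 * θ := by rw [hy]; field_simp
  have hθx : 140 * θ < x := by linarith
  have hconc := P.conc y hy0.le hyx
  rw [hmy] at hconc
  have A : AbsRel B G x T (fun _ _ => 0) (fun _ _ _ => 0) f 4 := by
    refine ⟨?_, ?_, ?_⟩
    · filter_upwards [hbd] with n h l k hlk
      obtain ⟨h1, h2, h3, h4⟩ := h l k hlk
      exact ⟨h1, h2, h3, by simp, by simp, h4⟩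
    · filter_upwards [hbd] with n h k i l hi hl s
      rw [hrel]
      obtain ⟨h1, h2, h3, h4⟩ := h i k hi
      obtain ⟨g1, g2, g3, g4⟩ := h l k hl
      exact coA_bound h2 h3 g2 g3 h4 s
    · intro ε hε
      refine Eventually.of_forall fun n k i l hi hl s hs => ?_
      rw [hrel, sub_self, abs_zero]
      exact (rpos B n _).le
  obtain ⟨Cu, hCu0, hcu⟩ := famUp_A H.toRUnif A (S := fAll) (Finset.Subset.refl _) P.all hx
  obtain ⟨Cd, hCd0, hdu⟩ := famUp_A H.toRUnif A (S := fDir) (by decide) P.dir hx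
  obtain ⟨Cf, hCf1, hfb⟩ := fib_A H.toRUnif A hx P.q0 P.q
  have hD := H.D1
  obtain ⟨Cc, hCc⟩ : ∃ Cc : ℝ, Cc = D * (D * 2) + (3 : ℕ) * (2 + 1) + 1 := ⟨_, rfl⟩
  have hCc0 : 0 ≤ Cc := by rw [hCc]; positivity
  have hcc := conc6_A H.toRUnif A hx P.dir hy0.le hyx (P.c y hy0.le hyx)
  rw [← hCc] at hcc
  obtain ⟨e, he, q1, q2, q3, q4, -⟩ := exists_e (K1 := 7 + 2 * Cu) (K2 := Cc + 2 * Cd + 5)
    (K3 := 2 * Cf) (K4 := 10) (K5 := 0) (ε := θ) (X := θ) (x := θ)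
    (by positivity) (by positivity) (by positivity) (by norm_num) le_rfl hθ0 hθ0 le_rfl
  have hbig : ∀ᶠ n in (U : Filter ℕ), False := by
    filter_upwards [hev, hbd, H.slice e he, H.line e he, H.frost x hx.le hxR e he,
      H.frost (2 * θ) (by positivity) (by linarith) e he,
      posCount_A H.toRUnif A hx P.zero P.pos e he e he,
      dirCount_A H.toRUnif A hx P.zero P.dir e he e he, hcu (2 * e) (by positivity),
      hdu (2 * e) (by positivity), hcc e he, hfb (2 * e) (by positivity),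
      RgN344.slice_ge H.toRUnif 0 P.zero he,
      mir_num B (x := x) (a := a) (θ := θ) (K1 := Cf * (2 * e)) (y := y) hθ0 (by linarith)
        (by linarith) hx ha0,
      mir_hn B (x := x) (a := a) (θ := θ) (K1 := Cf * (2 * e)) hθ0 (by linarith)
        (by linarith) hx ha0,
      mir_n1 B (v0 := ν 0) (vP := ν (vec fPos x)) (vD := ν (vec fDir x)) (vA := ν (vec fAll x))
        (e := e) (Cu := Cu) (θ := θ) he hCu0 P.dec (by linarith),
      mir_n2 B (v0 := ν 0) (v6 := ν (vec {6} y)) (vD := ν (vec fDir x)) (e := e) (Cc := Cc)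
        (Cd := Cd) (θ := θ) he hCc0 hCd0 hconc q2,
      ev_abs B (show x - 2 * e < x - e by linarith) 56,
      ev_abs B (show x - 3 * θ < x by linarith) 2,
      ev_abs B (show x - 3 * θ < x - 2 * θ by linarith) 11,
      ev_abs B (show x - 3 * θ < x - e - 2 * θ by linarith) 12,
      ev_abs B (show 2 * θ + 2 * e < 3 * θ by linarith) 8,
      ev_abs B (show x - e < x by linarith) 2]
      with n hevn hbdn hsl hline hfrx hfrθ hpcn hdcn hcun hdun hccn hfbn hslice hnum hhn hn1 hn2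
        t2 t3 t4 t5 t6 t7
    have hpow : ∀ t : ℝ, 0 < B.d n ^ t := fun t => rpos B n t
    obtain ⟨Z', hZ'Z, hZ'ne, hZ'c, μ, hμ, haff⟩ := hevn
    have hx1 : B.d n ^ x ≤ 1 := Real.rpow_le_one (B.pos n).le (B.lt n).le hx.le
    have hL0 : (G n).L.Nonempty := by
      obtain ⟨⟨i1, k1⟩, hI1⟩ := H.nonempty n
      exact ⟨i1, H.memL hI1⟩
    have hLpos : (0 : ℝ) < (G n).L.card := by exact_mod_cast hL0.card_pos
    have hLbig : B.d n ^ (-ν 0 + e) ≤ ((G n).L.card : ℝ) := by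
      obtain ⟨⟨i1, k1⟩, hI1⟩ := H.nonempty n
      refine (hslice i1 k1 hI1).trans ?_
      exact_mod_cast card_le_card (filter_subset _ _)
    have hZpos : (0 : ℝ) < (G n).Z.card := by
      exact_mod_cast (hZ'ne.mono hZ'Z).card_pos
    have halive : ∀ k ∈ (G n).Z, ∃ l, (l, k) ∈ (G n).I := by
      intro k hk
      have h1 : (0 : ℝ) < ((G n).slice k).card := lt_of_lt_of_le (mul_pos (hpow _) hLpos) (hsl k hk)
      obtain ⟨l, hl⟩ : ((G n).slice k).Nonempty := by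
        rw [← Finset.card_pos]; exact_mod_cast h1
      exact ⟨l, H.memSlice.1 hl⟩
    have hzf : ∀ k ∈ Z', |(G n).z k| ≤ 1 ∧ |f n k| ≤ 1 := by
      intro k hk
      obtain ⟨l, hl⟩ := halive k (hZ'Z hk)
      exact ⟨(hbdn l k hl).1, (hbdn l k hl).2.2.2⟩
    -- the slope
    have hμ2 : |μ| ≤ 4 * B.d n ^ (-(2 * θ)) := by
      have h1 := slope_le hZ'Z (w := B.d n ^ (2 * θ)) (hpow _) hZ'ne hx1
        (fun k hk => (hzf k hk).2) haff (by
          intro k hk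
          have h2 := hfrθ k (hZ'Z hk)
          have h3 : (((G n).Z.filter fun k' => |(G n).z k' - (G n).z k| ≤
              B.d n ^ (2 * θ)).card : ℝ) ≤ B.d n ^ (1 * (2 * θ) - e) * ((G n).Z.card : ℝ) := by
            refine le_trans (le_of_eq ?_) h2
            unfold RCfg.hbox
            rw [H.base n]
          refine lt_of_le_of_lt h3 (lt_of_lt_of_le ?_ hZ'c)
          refine mul_lt_mul_of_pos_right ?_ hZpos
          exact Real.rpow_lt_rpow_of_exponent_gt (B.pos n) (B.lt n) (by linarith))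
      have e1 : B.d n ^ (-(2 * θ)) * B.d n ^ (2 * θ) = 1 := by
        rw [← rpow_add', neg_add_cancel, Real.rpow_zero]
      have h2 : |μ| * B.d n ^ (2 * θ) ≤ (4 * B.d n ^ (-(2 * θ))) * B.d n ^ (2 * θ) := by
        rw [mul_assoc, e1]; linarith
      exact le_of_mul_le_mul_right h2 (hpow _)
    obtain ⟨k0, hk0⟩ := hZ'ne
    have haff' : ∀ k ∈ Z', |f n k - (f n k0 - μ * (G n).z k0) - μ * (G n).z k| ≤
        B.d n ^ (x - e) := by
      intro k hk
      have h1 := haff k0 hk0 k hk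
      have e1 : f n k - (f n k0 - μ * (G n).z k0) - μ * (G n).z k =
          f n k - f n k0 - μ * ((G n).z k - (G n).z k0) := by ring
      rw [e1]
      exact h1.trans t7
    have hNh2 : 1 / 2 ≤ (Nn B x n : ℝ) * B.d n ^ x := by
      have h1 := mul_le_mul_of_nonneg_right (half_le_Nn B hx.le n) (hpow x).le
      have e1 : B.d n ^ (-x) * B.d n ^ x = 1 := by
        rw [← rpow_add', neg_add_cancel, Real.rpow_zero]
      rw [e1] at h1
      linarith
    have e20 : B.d n ^ (-(2 * θ)) * B.d n ^ x = B.d n ^ (x - 2 * θ) := by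
      rw [← rpow_add']; congr 1; ring
    have e21 : B.d n ^ (x - e) ≤ B.d n ^ (x - 2 * θ) := rpow_anti B n (by linarith)
    have e22 : |μ| * B.d n ^ x ≤ 4 * B.d n ^ (x - 2 * θ) := by
      rw [← e20, ← mul_assoc]
      exact mul_le_mul_of_nonneg_right hμ2 (hpow x).le
    have hp2 := hpow (x - 2 * θ)
    have hpe := hpow (x - e)
    have hp3 := hpow (x - 3 * θ)
    have hcon := mir_one (g := G n) (t := T n) (f := f n) (μ := μ)
      (be := f n k0 - μ * (G n).z k0) (δ := B.d n ^ (x - e)) (h := B.d n ^ x)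
      (κ := B.d n ^ (3 * θ)) (κ₁ := B.d n ^ e) (κh := B.d n ^ (θ + e))
      (lm := 4 * B.d n ^ (-(2 * θ))) (lm0 := B.d n ^ θ) (rF := B.d n ^ (x - 3 * θ))
      (sep := B.d n ^ y) (tol := B.d n ^ (x - 2 * e)) (eo := B.d n ^ (x - 3 * θ))
      (MP := B.d n ^ (-(ν 0 - ν (vec fPos x)) - e)) (MD := B.d n ^ (-(ν 0 - ν (vec fDir x)) - e))
      (Mu := B.d n ^ (-ν (vec fAll x) - Cu * (2 * e)))
      (Md := B.d n ^ (-ν (vec fDir x) - Cd * (2 * e)))
      (Mc := B.d n ^ (-(ν (vec {6} y) - ν (vec fDir x)) - Cc * e))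
      (Kf' := B.d n ^ (-(a * x) - Cf * (2 * e))) (N := Nn B x n) (H.sub n)
      (fun l k hlk => ⟨(hbdn l k hlk).1, (hbdn l k hlk).2.2.1, (hbdn l k hlk).2.2.2⟩)
      (Z' := Z') ⟨k0, hk0⟩ hZ'Z haff' (hpow _) (hpow _) (rpow_anti B n (by linarith))
      (Nn_mul_le B x n) (lt_Nn_mul B x n) (Nn_pos B hx.le n) (by linarith) hμ2 (hpow _) hμ hL0
      (hpow _) hline (hpow _) (fun k hk => (hzf k hk).1)
      (fun k hk => le_trans (mul_le_mul_of_nonneg_right (rpow_anti B n (by linarith)) hLpos.le)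
        (hsl k (hZ'Z hk))) (by
        intro k hk
        have h1 := hfrx k (hZ'Z hk)
        have h2 : ((Z'.filter fun k' => |(G n).z k' - (G n).z k| ≤ B.d n ^ x).card : ℝ) ≤
            B.d n ^ (1 * x - e) * ((G n).Z.card : ℝ) := by
          refine le_trans ?_ h1
          unfold RCfg.hbox
          rw [H.base n]
          exact_mod_cast card_le_card (filter_subset_filter _ hZ'Z)
        have h3 : B.d n ^ (θ + e) * B.d n ^ (1 * x - e) * ((G n).Z.card : ℝ) ≤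
            B.d n ^ x * (Z'.card : ℝ) := by
          have e1 : B.d n ^ (θ + e) * B.d n ^ (1 * x - e) = B.d n ^ x * B.d n ^ θ := by
            rw [← rpow_add', ← rpow_add']; congr 1; ring
          rw [e1, mul_assoc]
          exact mul_le_mul_of_nonneg_left hZ'c (hpow x).le
        have hN0 : (0 : ℝ) ≤ (Nn B x n : ℝ) := Nat.cast_nonneg _
        calc B.d n ^ (θ + e) * (Nn B x n : ℝ) *
              ((Z'.filter fun k' => |(G n).z k' - (G n).z k| ≤ B.d n ^ x).card : ℝ)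
            ≤ B.d n ^ (θ + e) * (Nn B x n : ℝ) * (B.d n ^ (1 * x - e) * ((G n).Z.card : ℝ)) :=
              mul_le_mul_of_nonneg_left h2 (mul_nonneg (hpow _).le hN0)
          _ = (Nn B x n : ℝ) * (B.d n ^ (θ + e) * B.d n ^ (1 * x - e) * ((G n).Z.card : ℝ)) := by
              ring
          _ ≤ (Nn B x n : ℝ) * (B.d n ^ x * (Z'.card : ℝ)) := mul_le_mul_of_nonneg_left h3 hN0
          _ = ((Nn B x n : ℝ) * B.d n ^ x) * (Z'.card : ℝ) := by ring
          _ ≤ 1 * (Z'.card : ℝ) := mul_le_mul_of_nonneg_right (Nn_mul_le B x n) (Nat.cast_nonneg _)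
          _ = _ := one_mul _)
      (hpow _) (by
        have e1 : (B.d n ^ (θ + e)) ^ 2 = B.d n ^ (2 * θ + 2 * e) := by
          rw [pow_rp]; congr 1; push_cast; ring
        rw [e1]; linarith) (by linarith) t2 (hpow _).le (hpow _).le (hpow _) (hpow _)
      hpcn hdcn hcun hdun hccn (hpow _) t3 (hpow _).le (by
        intro k F hF hne h1 h2
        refine (hfbn k F hF hne h1 (fun i hi i' hi' hne' => ?_)).trans ?_
        · exact (rpow_anti B n (by linarith)).trans (h2 i hi i' hi' hne')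
        · have := P.fib
          exact rpow_anti B n (by linarith))
      (hn1 _ hLbig) (hn2 _ hLbig) (by linarith) (by linarith) (by
        have e1 : 4 * B.d n ^ (-(2 * θ)) * (3 * B.d n ^ (x - e)) =
            12 * B.d n ^ (x - e - 2 * θ) := by
          have : B.d n ^ (x - e - 2 * θ) = B.d n ^ (-(2 * θ)) * B.d n ^ (x - e) := by
            rw [← rpow_add']; congr 1; ring
          rw [this]; ring
        rw [e1]; linarith)
      (hhn 1).1 (hhn _).2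
    exact absurd hcon (not_lt.2 (hnum _ hNh2))
  exact hbig.exists.elim fun _ h => h

end Crest.Agent.R136.Wk323
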