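import Crest.Agent.R136.Sh1_605

/-!
# R136 (S0187): the WALK LEMMA, part 1: the loop identity (helper323, doc 2205)

Four lines `t2 - t1 - t1' - t2'` of `ℝ⁴`, consecutive ones meeting at the heights `z1`, `z3`, `z4`;
`t1, t2'` have base direction `C`, `t2, t1'` base direction `C'`.  Then `t2, t2'` have the same base
point at the height `z1 + z4 - z3`, and their difference in the normal coordinate `x 0` is
`u u' λ (2 ΔC_b - (E + E') ΔC_a)`, when the hyperplane flags `(fa, fb)` move along the lines with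
speeds `(-λ E, λ)` (lightlike rigidity).  Everything with errors.
-/

set_option autoImplicit false

namespace Crest.Agent.R136.Wk323

open Crest.Agent.R136.Sh605

/-- slope defect of the pair of lines `s, t` with respect to the hyperplane flag `(fa, fb)` -/
def Pd (s t : Ln4) (fa fb : ℝ) : ℝ :=
  (t.v 0 - s.v 0) - fa * (t.v 1 - s.v 1) - fb * (t.v 2 - s.v 2)

/-- the lines `s, t` meet at the height `z`, with error `δ` -/
def Meet (δ : ℝ) (s t : Ln4) (z : ℝ) : Prop := ∀ k, |t.pos z k - s.pos z k| ≤ δ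

/-- the base direction of `t` is `(Ca, Cb)`, with error `δ` -/
def Dir (δ Ca Cb : ℝ) (t : Ln4) : Prop := |t.v 1 - Ca| ≤ δ ∧ |t.v 2 - Cb| ≤ δ

theorem pos_add (t : Ln4) (z u : ℝ) (k : Fin 3) : t.pos (z + u) k = t.pos z k + u * t.v k := by
  simp only [Ln4.pos]; ring

theorem abs_mul_le {a b A B : ℝ} (ha : |a| ≤ A) (hb : |b| ≤ B) : |a * b| ≤ A * B := by
  rw [abs_mul]
  exact mul_le_mul ha hb (abs_nonneg _) ((abs_nonneg _).trans ha)

/-- **the loop closes in the base.** -/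
theorem loop_base {δ : ℝ} {t2 t1 t1' t2' : Ln4} {z1 u u' Ca Cb Ca' Cb' : ℝ}
    (h1 : Meet δ t2 t1 z1) (h3 : Meet δ t1 t1' (z1 + u)) (h4 : Meet δ t1' t2' (z1 + u + u'))
    (d1 : Dir δ Ca Cb t1) (d2' : Dir δ Ca Cb t2') (d1' : Dir δ Ca' Cb' t1') (d2 : Dir δ Ca' Cb' t2)
    (hu : |u| ≤ 1) (hu' : |u'| ≤ 1) (k : Fin 3) (hk : k ≠ 0) :
    |t2'.pos (z1 + u') k - t2.pos (z1 + u') k| ≤ 7 * δ := by
  have key : ∀ C C' : ℝ, |t1.v k - C| ≤ δ → |t2'.v k - C| ≤ δ → |t1'.v k - C'| ≤ δ →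
      |t2.v k - C'| ≤ δ → |t2'.pos (z1 + u') k - t2.pos (z1 + u') k| ≤ 7 * δ := by
    intro C C' e1 e2' e1' e2
    have a1 := h1 k
    have a3 := h3 k
    have a4 := h4 k
    have hz : z1 + u' = (z1 + u + u') + (-u) := by ring
    have id1 : t2'.pos (z1 + u') k - t2.pos (z1 + u') k =
        (t1.pos z1 k - t2.pos z1 k) + (t1'.pos (z1 + u) k - t1.pos (z1 + u) k) +
        (t2'.pos (z1 + u + u') k - t1'.pos (z1 + u + u') k) +
        u * (t1.v k - C) - u * (t2'.v k - C) + u' * (t1'.v k - C') - u' * (t2.v k - C') := by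
      have f1 : t2'.pos (z1 + u') k = t2'.pos (z1 + u + u') k + (-u) * t2'.v k := by
        rw [hz, pos_add]
      rw [f1, pos_add t2 z1 u', pos_add t1 z1 u, pos_add t1' (z1 + u) u']
      ring
    have b1 := abs_mul_le hu e1
    have b2 := abs_mul_le hu e2'
    have b3 := abs_mul_le hu' e1'
    have b4 := abs_mul_le hu' e2
    rw [one_mul] at b1 b2 b3 b4
    rw [id1]
    rw [abs_le] at *
    constructor <;> linarith [b1.1, b1.2, b2.1, b2.2, b3.1, b3.2, b4.1, b4.2, a1.1, a1.2, a3.1,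
      a3.2, a4.1, a4.2]
  have hk' : k = 1 ∨ k = 2 := by
    fin_cases k
    · exact absurd rfl hk
    · exact Or.inl rfl
    · exact Or.inr rfl
  rcases hk' with rfl | rfl
  · exact key Ca Ca' d1.1 d2'.1 d1'.1 d2.1
  · exact key Cb Cb' d1.2 d2'.2 d1'.2 d2.2

/-- slopes of two lines from the flag: error version -/
theorem slope_err {δ e : ℝ} {s t : Ln4} {fa fb Ca Cb Ca' Cb' : ℝ} (hP : |Pd s t fa fb| ≤ e)
    (ds : Dir δ Ca Cb s) (dt' : Dir δ Ca' Cb' t) (ha : |fa| ≤ 1) (hb : |fb| ≤ 1) :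
    |(t.v 0 - s.v 0) - (fa * (Ca' - Ca) + fb * (Cb' - Cb))| ≤ e + 4 * δ := by
  have b1 := abs_mul_le ha dt'.1
  have b2 := abs_mul_le ha ds.1
  have b3 := abs_mul_le hb dt'.2
  have b4 := abs_mul_le hb ds.2
  have id1 : (t.v 0 - s.v 0) - (fa * (Ca' - Ca) + fb * (Cb' - Cb)) =
      Pd s t fa fb + fa * (t.v 1 - Ca') - fa * (s.v 1 - Ca) + fb * (t.v 2 - Cb') -
        fb * (s.v 2 - Cb) := by
    unfold Pd; ring
  rw [id1]
  rw [one_mul] at b1 b2 b3 b4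
  rw [abs_le] at *
  constructor <;> linarith [b1.1, b1.2, b2.1, b2.2, b3.1, b3.2, b4.1, b4.2, hP.1, hP.2]

/-- **the loop identity.**  `(fa1, fb1)`, `(fa3, fb3)`, `(fa4, fb4)`: flags at the three meeting
points. -/
theorem loop_normal {δ e : ℝ} {t2 t1 t1' t2' : Ln4} {z1 u u' Ca Cb Ca' Cb' : ℝ}
    {fa1 fb1 fa3 fb3 fa4 fb4 lam E E' : ℝ}
    (h1 : Meet δ t2 t1 z1) (h3 : Meet δ t1 t1' (z1 + u)) (h4 : Meet δ t1' t2' (z1 + u + u'))
    (d1 : Dir δ Ca Cb t1) (d2' : Dir δ Ca Cb t2') (d1' : Dir δ Ca' Cb' t1') (d2 : Dir δ Ca' Cb' t2)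
    (hu : |u| ≤ 1) (hu' : |u'| ≤ 1)
    (hC : |Ca' - Ca| ≤ 2) (hC' : |Cb' - Cb| ≤ 2)
    (p1 : |Pd t2 t1 fa1 fb1| ≤ e) (p3 : |Pd t1 t1' fa3 fb3| ≤ e) (p4 : |Pd t1' t2' fa4 fb4| ≤ e)
    (a1 : |fa1| ≤ 1) (b1 : |fb1| ≤ 1) (a3 : |fa3| ≤ 1) (b3 : |fb3| ≤ 1) (a4 : |fa4| ≤ 1)
    (b4 : |fb4| ≤ 1)
    (ma : |fa3 - fa1 + lam * E * u| ≤ e) (mb : |fb3 - fb1 - lam * u| ≤ e)
    (ma' : |fa4 - fa3 + lam * E' * u'| ≤ e) (mb' : |fb4 - fb3 - lam * u'| ≤ e) :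
    |(t2'.pos (z1 + u') 0 - t2.pos (z1 + u') 0) -
      u * u' * (lam * (2 * (Cb' - Cb) - (E + E') * (Ca' - Ca)))| ≤ 19 * δ + 12 * e := by
  have s1 := slope_err (δ := δ) p1 d2 d1 a1 b1
  have s3 := slope_err (δ := δ) p3 d1 d1' a3 b3
  have s4 := slope_err (δ := δ) p4 d1' d2' a4 b4
  set D1 : ℝ := (t1.v 0 - t2.v 0) - (fa1 * (Ca - Ca') + fb1 * (Cb - Cb')) with hD1
  set D3 : ℝ := (t1'.v 0 - t1.v 0) - (fa3 * (Ca' - Ca) + fb3 * (Cb' - Cb)) with hD3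
  set D4 : ℝ := (t2'.v 0 - t1'.v 0) - (fa4 * (Ca - Ca') + fb4 * (Cb - Cb')) with hD4
  set M1 : ℝ := fa3 - fa1 + lam * E * u with hM1
  set M2 : ℝ := fb3 - fb1 - lam * u with hM2
  set M3 : ℝ := fa4 - fa3 + lam * E' * u' with hM3
  set M4 : ℝ := fb4 - fb3 - lam * u' with hM4
  have hz : z1 + u' = (z1 + u + u') + (-u) := by ring
  have id1 : (t2'.pos (z1 + u') 0 - t2.pos (z1 + u') 0) -
      u * u' * (lam * (2 * (Cb' - Cb) - (E + E') * (Ca' - Ca))) =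
      (t1.pos z1 0 - t2.pos z1 0) + (t1'.pos (z1 + u) 0 - t1.pos (z1 + u) 0) +
      (t2'.pos (z1 + u + u') 0 - t1'.pos (z1 + u + u') 0) +
      u * (-D3) + u * (-D4) + u' * D3 + u' * D1 +
      u * (M3 * (Ca' - Ca)) + u * (M4 * (Cb' - Cb)) +
      u' * (M1 * (Ca' - Ca)) + u' * (M2 * (Cb' - Cb)) := by
    have f1 : t2'.pos (z1 + u') 0 = t2'.pos (z1 + u + u') 0 + (-u) * t2'.v 0 := by
      rw [hz, pos_add]
    rw [f1, pos_add t2 z1 u', pos_add t1 z1 u, pos_add t1' (z1 + u) u']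
    simp only [hD1, hD3, hD4, hM1, hM2, hM3, hM4]
    ring
  have c1 := h1 0
  have c3 := h3 0
  have c4 := h4 0
  have e1 := abs_mul_le hu ((abs_neg D3).le.trans s3)
  have e2 := abs_mul_le hu ((abs_neg D4).le.trans s4)
  have e3 := abs_mul_le hu' s3
  have e4 := abs_mul_le hu' s1
  have e5 := abs_mul_le hu (abs_mul_le ma' hC)
  have e6 := abs_mul_le hu (abs_mul_le mb' hC')
  have e7 := abs_mul_le hu' (abs_mul_le ma hC)
  have e8 := abs_mul_le hu' (abs_mul_le mb hC')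
  rw [id1]
  rw [one_mul] at e1 e2 e3 e4 e5 e6 e7 e8
  rw [abs_le] at *
  constructor <;> linarith [e1.1, e1.2, e2.1, e2.2, e3.1, e3.2, e4.1, e4.2, e5.1, e5.2, e6.1, e6.2,
    e7.1, e7.2, e8.1, e8.2, c1.1, c1.2, c3.1, c3.2, c4.1, c4.2]

end Crest.Agent.R136.Wk323
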