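import Mathlib

/-!
# R136 (S0187): the WALK LEMMA, part 2: counting 3-step walks (helper323, doc 2205)

`Z` = meetings `(i, j, k)` of a line `i ∈ L` with a line `j ∈ L'` at the height number `k ∈ [n, 2n)`.
If `κ n |L| ≤ |Z|`, `κ n |L'| ≤ |Z|` and every (line, height) has at most `B` partners, then there are
`j ∈ L'`, a height `k` and a step `u'`, `θ n ≤ |u'|`, with at least `κ³ n / (128 B³)` values of the
first step `u` for which a walk `j - i - j' - i'` with steps `u, u'` exists.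
-/

set_option autoImplicit false

namespace Crest.Agent.R136.Wk323

open Finset

section walk

variable {ι : Type*}

/-- a walk `j -(k)- i -(k+u)- j' -(k+u+u')- i'` on the meetings `Z` -/
def IsWalk (Z : Finset (ι × ι × ℤ)) (j i j' i' : ι) (k u u' : ℤ) : Prop :=
  (i, j, k) ∈ Z ∧ (i, j', k + u) ∈ Z ∧ (i', j', k + u + u') ∈ Z

variable [DecidableEq ι]

/-- degree counting: many 3-step walks -/
theorem card_paths (Z : Finset (ι × ι × ℤ)) (L L' : Finset ι)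
    (hZ : ∀ x ∈ Z, x.1 ∈ L ∧ x.2.1 ∈ L') :
    ((Z.card : ℝ)) ^ 3 ≤ 32 * (L.card : ℝ) * (L'.card : ℝ) *
      (((Z ×ˢ Z ×ˢ Z).filter fun p => p.1.1 = p.2.1.1 ∧ p.2.1.2.1 = p.2.2.2.1).card : ℝ) := by
  classical
  rcases Z.eq_empty_or_nonempty with rfl | hne
  · simp
  have hzpos : (0 : ℝ) < Z.card := by exact_mod_cast hne.card_pos
  obtain ⟨x0, hx0⟩ := hne
  have hLpos : (0 : ℝ) < L.card := by exact_mod_cast card_pos.2 ⟨_, (hZ x0 hx0).1⟩
  have hL'pos : (0 : ℝ) < L'.card := by exact_mod_cast card_pos.2 ⟨_, (hZ x0 hx0).2⟩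
  set z : ℝ := (Z.card : ℝ) with hz
  set l : ℝ := (L.card : ℝ) with hl
  set l' : ℝ := (L'.card : ℝ) with hl'
  let dg : ι → Finset (ι × ι × ℤ) := fun i => Z.filter fun x => x.1 = i
  let dg' : ι → Finset (ι × ι × ℤ) := fun j => Z.filter fun x => x.2.1 = j
  set a : ℝ := z / (4 * l) with ha
  set a' : ℝ := z / (4 * l') with ha'
  have hapos : 0 < a := by positivity
  have ha'pos : 0 < a' := by positivity
  -- the good middle edges
  set G : Finset (ι × ι × ℤ) := Z.filter fun y => a ≤ ((dg y.1).card : ℝ) ∧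
    a' ≤ ((dg' y.2.1).card : ℝ) with hG
  set B1 : Finset (ι × ι × ℤ) := Z.filter fun y => ¬ a ≤ ((dg y.1).card : ℝ) with hB1
  set B2 : Finset (ι × ι × ℤ) := Z.filter fun y => ¬ a' ≤ ((dg' y.2.1).card : ℝ) with hB2
  have hcov : Z ⊆ G ∪ B1 ∪ B2 := by
    intro y hy
    simp only [hG, hB1, hB2, mem_union, mem_filter]
    by_cases h1 : a ≤ ((dg y.1).card : ℝ)
    · by_cases h2 : a' ≤ ((dg' y.2.1).card : ℝ)
      · exact Or.inl (Or.inl ⟨hy, h1, h2⟩)
      · exact Or.inr ⟨hy, h2⟩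
    · exact Or.inl (Or.inr ⟨hy, h1⟩)
  have hb1 : (B1.card : ℝ) ≤ z / 4 := by
    have h1 : B1.card = ∑ i ∈ L, (B1.filter fun y => y.1 = i).card :=
      card_eq_sum_card_fiberwise (fun y hy => (hZ y (mem_filter.1 hy).1).1)
    have h2 : ∀ i ∈ L, ((B1.filter fun y => y.1 = i).card : ℝ) ≤ a := by
      intro i _
      rcases (B1.filter fun y => y.1 = i).eq_empty_or_nonempty with he | ⟨y, hy⟩
      · rw [he]; simpa using hapos.le
      · rw [mem_filter, hB1, mem_filter] at hy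
        obtain ⟨⟨hy1, hy2⟩, hy3⟩ := hy
        have h3 : (B1.filter fun y => y.1 = i) ⊆ dg y.1 := by
          intro w hw
          rw [mem_filter] at hw
          exact mem_filter.2 ⟨(mem_filter.1 hw.1).1, hw.2.trans hy3.symm⟩
        have h4 : ((B1.filter fun y => y.1 = i).card : ℝ) ≤ ((dg y.1).card : ℝ) := by
          exact_mod_cast card_le_card h3
        exact h4.trans (not_le.1 hy2).le
    have h5 : (B1.card : ℝ) = ∑ i ∈ L, ((B1.filter fun y => y.1 = i).card : ℝ) := by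
      rw [h1]; push_cast; rfl
    rw [h5]
    refine (sum_le_card_nsmul _ _ a h2).trans (le_of_eq ?_)
    rw [nsmul_eq_mul, ha, ← hl]
    field_simp
  have hb2 : (B2.card : ℝ) ≤ z / 4 := by
    have h1 : B2.card = ∑ i ∈ L', (B2.filter fun y => y.2.1 = i).card :=
      card_eq_sum_card_fiberwise (fun y hy => (hZ y (mem_filter.1 hy).1).2)
    have h2 : ∀ i ∈ L', ((B2.filter fun y => y.2.1 = i).card : ℝ) ≤ a' := by
      intro i _
      rcases (B2.filter fun y => y.2.1 = i).eq_empty_or_nonempty with he | ⟨y, hy⟩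
      · rw [he]; simpa using ha'pos.le
      · rw [mem_filter, hB2, mem_filter] at hy
        obtain ⟨⟨hy1, hy2⟩, hy3⟩ := hy
        have h3 : (B2.filter fun y => y.2.1 = i) ⊆ dg' y.2.1 := by
          intro w hw
          rw [mem_filter] at hw
          exact mem_filter.2 ⟨(mem_filter.1 hw.1).1, hw.2.trans hy3.symm⟩
        have h4 : ((B2.filter fun y => y.2.1 = i).card : ℝ) ≤ ((dg' y.2.1).card : ℝ) := by
          exact_mod_cast card_le_card h3
        exact h4.trans (not_le.1 hy2).le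
    have h5 : (B2.card : ℝ) = ∑ i ∈ L', ((B2.filter fun y => y.2.1 = i).card : ℝ) := by
      rw [h1]; push_cast; rfl
    rw [h5]
    refine (sum_le_card_nsmul _ _ a' h2).trans (le_of_eq ?_)
    rw [nsmul_eq_mul, ha', ← hl']
    field_simp
  have hGc : z / 2 ≤ (G.card : ℝ) := by
    have h1 : Z.card ≤ G.card + B1.card + B2.card :=
      (card_le_card hcov).trans ((card_union_le _ _).trans (by
        have := card_union_le G B1; omega))
    have h2 : z ≤ (G.card : ℝ) + B1.card + B2.card := by rw [hz]; exact_mod_cast h1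
    linarith
  -- paths with good middle edge
  have hfib : ∀ y ∈ G, a * a' ≤
      ((((Z ×ˢ Z ×ˢ Z).filter fun p => p.1.1 = p.2.1.1 ∧ p.2.1.2.1 = p.2.2.2.1).filter
        fun p => p.2.1 = y).card : ℝ) := by
    intro y hy
    rw [hG, mem_filter] at hy
    obtain ⟨hyZ, h1, h2⟩ := hy
    have h3 : ((dg y.1 ×ˢ dg' y.2.1).image fun q => ((q.1, y, q.2) :
        (ι × ι × ℤ) × (ι × ι × ℤ) × (ι × ι × ℤ))) ⊆
        ((Z ×ˢ Z ×ˢ Z).filter fun p => p.1.1 = p.2.1.1 ∧ p.2.1.2.1 = p.2.2.2.1).filter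
          fun p => p.2.1 = y := by
      intro p hp
      rw [mem_image] at hp
      obtain ⟨q, hq, rfl⟩ := hp
      rw [mem_product] at hq
      obtain ⟨hq1, hq2⟩ := hq
      rw [mem_filter] at hq1 hq2
      rw [mem_filter, mem_filter, mem_product, mem_product]
      exact ⟨⟨⟨hq1.1, hyZ, hq2.1⟩, hq1.2, hq2.2.symm⟩, rfl⟩
    have h4 : ((dg y.1 ×ˢ dg' y.2.1).image fun q => ((q.1, y, q.2) :
        (ι × ι × ℤ) × (ι × ι × ℤ) × (ι × ι × ℤ))).card = (dg y.1).card * (dg' y.2.1).card := by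
      rw [card_image_of_injective, card_product]
      intro q q' hqq
      simp only [Prod.mk.injEq, true_and] at hqq
      exact Prod.ext hqq.1 hqq.2
    have h5 := card_le_card h3
    rw [h4] at h5
    have h6 : ((dg y.1).card : ℝ) * ((dg' y.2.1).card : ℝ) ≤
        ((((Z ×ˢ Z ×ˢ Z).filter fun p => p.1.1 = p.2.1.1 ∧ p.2.1.2.1 = p.2.2.2.1).filter
          fun p => p.2.1 = y).card : ℝ) := by exact_mod_cast h5
    exact (mul_le_mul h1 h2 ha'pos.le (hapos.le.trans h1)).trans h6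
  have hsum : (G.card : ℝ) * (a * a') ≤
      (((Z ×ˢ Z ×ˢ Z).filter fun p => p.1.1 = p.2.1.1 ∧ p.2.1.2.1 = p.2.2.2.1).card : ℝ) := by
    set W := (Z ×ˢ Z ×ˢ Z).filter fun p => p.1.1 = p.2.1.1 ∧ p.2.1.2.1 = p.2.2.2.1 with hW
    have h1 : (∑ y ∈ G, (W.filter fun p => p.2.1 = y).card) ≤ W.card := by
      rw [← card_biUnion]
      · exact card_le_card (biUnion_subset.2 fun y _ => filter_subset _ _)
      · intro y _ y' _ hyy
        rw [Function.onFun, disjoint_left]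
        intro p hp hp'
        exact hyy ((mem_filter.1 hp).2.symm.trans (mem_filter.1 hp').2)
    have h2 : (G.card : ℝ) * (a * a') ≤ ∑ y ∈ G, ((W.filter fun p => p.2.1 = y).card : ℝ) := by
      rw [← nsmul_eq_mul]
      exact card_nsmul_le_sum _ _ _ hfib
    refine h2.trans ?_
    exact_mod_cast h1
  have haa : a * a' = z ^ 2 / (16 * l * l') := by
    rw [ha, ha']; field_simp; norm_num
  have h1 : z / 2 * (a * a') ≤ (G.card : ℝ) * (a * a') :=
    mul_le_mul_of_nonneg_right hGc (by positivity)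
  have h2 : z / 2 * (a * a') = z ^ 3 / (32 * l * l') := by
    rw [haa]; field_simp; norm_num
  have h3 := (h2.symm.le.trans h1).trans hsum
  rw [div_le_iff₀ (by positivity)] at h3
  linarith

/-- **many walks with the same start and the same second step.** -/
theorem exists_walks (Z : Finset (ι × ι × ℤ)) (L L' : Finset ι) (n B : ℕ) {κ : ℝ}
    (hZ : ∀ x ∈ Z, x.1 ∈ L ∧ x.2.1 ∈ L') (hn : ∀ x ∈ Z, (n : ℤ) ≤ x.2.2 ∧ x.2.2 < 2 * n)
    (hB : ∀ (j : ι) (k : ℤ), (Z.filter fun x => x.2.1 = j ∧ x.2.2 = k).card ≤ B)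
    (hB' : ∀ (i : ι) (k : ℤ), (Z.filter fun x => x.1 = i ∧ x.2.2 = k).card ≤ B)
    (hκ : 0 < κ) (hne : Z.Nonempty) (hL : κ * n * (L.card : ℝ) ≤ Z.card)
    (hL' : κ * n * (L'.card : ℝ) ≤ Z.card) (hbig : 256 * (B : ℝ) ^ 3 ≤ κ ^ 3 * n) :
    ∃ j ∈ L', ∃ k u' : ℤ, (n : ℤ) ≤ k ∧ k < 2 * n ∧ |u'| < n ∧
      κ ^ 3 * n ≤ 512 * (B : ℝ) ^ 3 * |(u' : ℝ)| ∧
      ∃ S : Finset ℤ, κ ^ 3 * n ≤ 128 * (B : ℝ) ^ 3 * (S.card : ℝ) ∧
        ∀ u ∈ S, |u| < n ∧ ∃ i j' i' : ι, IsWalk Z j i j' i' k u u' := by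
  classical
  set W := (Z ×ˢ Z ×ˢ Z).filter fun p => p.1.1 = p.2.1.1 ∧ p.2.1.2.1 = p.2.2.2.1 with hW
  obtain ⟨x0, hx0⟩ := hne
  have hzpos : (0 : ℝ) < Z.card := by exact_mod_cast card_pos.2 ⟨x0, hx0⟩
  have hLpos : (0 : ℝ) < L.card := by exact_mod_cast card_pos.2 ⟨_, (hZ x0 hx0).1⟩
  have hL'pos : (0 : ℝ) < L'.card := by exact_mod_cast card_pos.2 ⟨_, (hZ x0 hx0).2⟩
  have hn0 : 0 < n := by have := hn x0 hx0; omega
  have hnpos : (0 : ℝ) < n := by exact_mod_cast hn0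
  have hBpos : (0 : ℝ) < B := by
    have h1 := hB x0.2.1 x0.2.2
    have h2 : 0 < (Z.filter fun x => x.2.1 = x0.2.1 ∧ x.2.2 = x0.2.2).card :=
      card_pos.2 ⟨x0, mem_filter.2 ⟨hx0, rfl, rfl⟩⟩
    exact_mod_cast lt_of_lt_of_le h2 h1
  set l : ℝ := (L.card : ℝ) with hl
  set l' : ℝ := (L'.card : ℝ) with hl'
  set z : ℝ := (Z.card : ℝ) with hz
  set b : ℝ := (B : ℝ) with hb
  set N : ℝ := (n : ℝ) with hN
  -- number of paths
  have hWc : κ ^ 3 * N ^ 3 * l' ≤ 32 * (W.card : ℝ) := by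
    have h1 := card_paths Z L L' hZ
    rw [← hz, ← hl, ← hl', ← hW] at h1
    have h2 : (κ * N * l) * (κ * N * l') * (κ * N * l') ≤ z ^ 3 := by
      have h3 : (κ * N * l) * (κ * N * l') ≤ z * z :=
        mul_le_mul hL hL' (by positivity) hzpos.le
      have h4 := mul_le_mul h3 hL' (by positivity) (by positivity)
      calc _ ≤ z * z * z := h4
        _ = z ^ 3 := by ring
    have h5 : (l * l') * (κ ^ 3 * N ^ 3 * l') ≤ (l * l') * (32 * (W.card : ℝ)) := by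
      calc (l * l') * (κ ^ 3 * N ^ 3 * l') = (κ * N * l) * (κ * N * l') * (κ * N * l') := by ring
        _ ≤ z ^ 3 := h2
        _ ≤ 32 * l * l' * (W.card : ℝ) := h1
        _ = _ := by ring
    exact le_of_mul_le_mul_left h5 (by positivity)
  -- the key map
  let Φ : (ι × ι × ℤ) × (ι × ι × ℤ) × (ι × ι × ℤ) → (ι × ℤ × ℤ) × ℤ := fun p =>
    ((p.1.2.1, p.1.2.2, p.2.2.2.2 - p.2.1.2.2), p.2.1.2.2 - p.1.2.2)
  set Q := W.image Φ with hQ
  have hfib : ∀ q ∈ Q, (W.filter fun p => Φ p = q).card ≤ B * (B * B) := by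
    rintro ⟨⟨j, k, u'⟩, u⟩ _
    have hsub : (W.filter fun p => Φ p = ((j, k, u'), u)) ⊆
        (Z.filter fun x => x.2.1 = j ∧ x.2.2 = k).biUnion fun x =>
          (Z.filter fun y => y.1 = x.1 ∧ y.2.2 = k + u).biUnion fun y =>
            (Z.filter fun w => w.2.1 = y.2.1 ∧ w.2.2 = k + u + u').image fun w => (x, y, w) := by
      intro p hp
      rw [mem_filter, hW, mem_filter, mem_product, mem_product] at hp
      obtain ⟨⟨⟨h1, h2, h3⟩, h4, h5⟩, h6⟩ := hp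
      simp only [Φ, Prod.mk.injEq] at h6
      obtain ⟨⟨h6, h7, h8⟩, h9⟩ := h6
      simp only [mem_biUnion, mem_image, mem_filter]
      refine ⟨p.1, ⟨h1, h6, h7⟩, p.2.1, ⟨h2, h4.symm, by omega⟩, p.2.2, ⟨h3, h5.symm, by omega⟩, rfl⟩
    refine (card_le_card hsub).trans ?_
    refine (card_biUnion_le_card_mul _ _ (B * B) ?_).trans (Nat.mul_le_mul_right _ (hB j k))
    intro x _
    refine (card_biUnion_le_card_mul _ _ B ?_).trans (Nat.mul_le_mul_right _ (hB' x.1 (k + u)))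
    intro y _
    exact card_image_le.trans (hB y.2.1 (k + u + u'))
  have hWQ : (W.card : ℝ) ≤ b ^ 3 * (Q.card : ℝ) := by
    have h1 := card_le_mul_card_image W (B * (B * B)) hfib
    have h2 : (W.card : ℝ) ≤ ((B * (B * B) : ℕ) : ℝ) * (Q.card : ℝ) := by exact_mod_cast h1
    refine h2.trans (le_of_eq ?_)
    push_cast
    rw [← hb]; ring
  have hQmem : ∀ q ∈ Q, q.1.1 ∈ L' ∧ (n : ℤ) ≤ q.1.2.1 ∧ q.1.2.1 < 2 * n ∧ |q.1.2.2| < n ∧
      |q.2| < n ∧ ∃ i j' i' : ι, IsWalk Z q.1.1 i j' i' q.1.2.1 q.2 q.1.2.2 := by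
    intro q hq
    rw [hQ, mem_image] at hq
    obtain ⟨p, hp, rfl⟩ := hq
    rw [hW, mem_filter, mem_product, mem_product] at hp
    obtain ⟨⟨h1, h2, h3⟩, h4, h5⟩ := hp
    have m1 := hn _ h1
    have m2 := hn _ h2
    have m3 := hn _ h3
    simp only [Φ]
    refine ⟨(hZ _ h1).2, m1.1, m1.2, abs_lt.2 ⟨by linarith [m2.2, m3.1], by linarith [m2.1, m3.2]⟩,
      abs_lt.2 ⟨by linarith [m2.1, m1.2], by linarith [m2.2, m1.1]⟩, p.1.1, p.2.1.2.1, p.2.2.1,
      h1, ?_, ?_⟩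
    · have e1 : p.1.2.2 + (p.2.1.2.2 - p.1.2.2) = p.2.1.2.2 := by ring
      rw [e1, h4]
      exact h2
    · have e1 : p.1.2.2 + (p.2.1.2.2 - p.1.2.2) + (p.2.2.2.2 - p.2.1.2.2) = p.2.2.2.2 := by ring
      rw [e1, h5]
      exact h3
  -- short second steps
  set θ : ℝ := κ ^ 3 * N / (512 * b ^ 3) with hθ
  have hθpos : 0 < θ := by positivity
  set Qg := Q.filter fun q => θ ≤ |(q.1.2.2 : ℝ)| with hQg
  set Qb := Q.filter fun q => ¬ θ ≤ |(q.1.2.2 : ℝ)| with hQb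
  have hbad : (Qb.card : ℝ) ≤ l' * N * (2 * θ + 1) * (2 * N) := by
    have hsub : Qb ⊆ (L' ×ˢ Finset.Ico (n : ℤ) (2 * n) ×ˢ Finset.Icc (-⌊θ⌋) ⌊θ⌋) ×ˢ
        Finset.Ico (-(n : ℤ)) n := by
      intro q hq
      rw [hQb, mem_filter] at hq
      obtain ⟨h1, h2, h3, h4, h5, -⟩ := hQmem q hq.1
      have h6 : |(q.1.2.2 : ℝ)| ≤ θ := (not_le.1 hq.2).le
      simp only [mem_product, Finset.mem_Ico, Finset.mem_Icc]
      rw [abs_lt] at h5
      have h7 : |q.1.2.2| ≤ ⌊θ⌋ := by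
        rw [Int.le_floor]
        push_cast
        exact h6
      rw [abs_le] at h7
      exact ⟨⟨h1, ⟨h2, h3⟩, h7⟩, h5.1.le, h5.2⟩
    have h1 := card_le_card hsub
    rw [card_product, card_product, card_product, Int.card_Ico, Int.card_Icc, Int.card_Ico] at h1
    have hfl : 0 ≤ ⌊θ⌋ := Int.floor_nonneg.2 hθpos.le
    have e1 : ((⌊θ⌋ + 1 - -⌊θ⌋).toNat : ℝ) ≤ 2 * θ + 1 := by
      have h2 : (((⌊θ⌋ + 1 - -⌊θ⌋).toNat : ℤ)) = ⌊θ⌋ + 1 - -⌊θ⌋ :=
        Int.toNat_of_nonneg (by omega)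
      have h3 : ((⌊θ⌋ + 1 - -⌊θ⌋).toNat : ℝ) = ((⌊θ⌋ + 1 - -⌊θ⌋ : ℤ) : ℝ) := by
        have h4 := congrArg (fun y : ℤ => (y : ℝ)) h2
        exact (Int.cast_natCast _).symm.trans h4
      rw [h3]; push_cast
      have h4 := Int.floor_le θ
      linarith
    have e2 : (2 * (n : ℤ) - n).toNat = n := by omega
    have e3 : ((n : ℤ) - -(n : ℤ)).toNat = 2 * n := by omega
    rw [e2, e3] at h1
    have h2 : (Qb.card : ℝ) ≤ (l' * (N * ((⌊θ⌋ + 1 - -⌊θ⌋).toNat : ℝ))) * (2 * N) := by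
      rw [hl', hN]
      exact_mod_cast h1
    refine h2.trans ?_
    have h3 : l' * (N * ((⌊θ⌋ + 1 - -⌊θ⌋).toNat : ℝ)) ≤ l' * N * (2 * θ + 1) := by
      rw [← mul_assoc]
      exact mul_le_mul_of_nonneg_left e1 (by positivity)
    exact mul_le_mul_of_nonneg_right h3 (by positivity)
  have hsplit : (Q.card : ℝ) = (Qg.card : ℝ) + (Qb.card : ℝ) := by
    have := card_filter_add_card_filter_not (s := Q) (fun q => θ ≤ |(q.1.2.2 : ℝ)|)
    rw [← hQg, ← hQb] at this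
    exact_mod_cast this.symm
  have hb3 : 0 < b ^ 3 := by positivity
  have hQlow : κ ^ 3 * N ^ 3 * l' ≤ 32 * b ^ 3 * (Q.card : ℝ) := by
    have := hWc.trans (mul_le_mul_of_nonneg_left hWQ (by norm_num : (0 : ℝ) ≤ 32))
    linarith
  have hbad2 : 64 * b ^ 3 * (Qb.card : ℝ) ≤ κ ^ 3 * N ^ 3 * l' := by
    have h1 : 64 * b ^ 3 * (Qb.card : ℝ) ≤ 64 * b ^ 3 * (l' * N * (2 * θ + 1) * (2 * N)) :=
      mul_le_mul_of_nonneg_left hbad (by positivity)
    refine h1.trans ?_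
    have h2 : 64 * b ^ 3 * (l' * N * (2 * θ + 1) * (2 * N)) =
        l' * N ^ 2 * (128 * (b ^ 3 * (2 * θ)) + 128 * b ^ 3) := by ring
    have h3 : b ^ 3 * (2 * θ) = κ ^ 3 * N / 256 := by
      rw [hθ]; field_simp; norm_num
    rw [h2, h3]
    have h4 : κ ^ 3 * N ^ 3 * l' = l' * N ^ 2 * (κ ^ 3 * N) := by ring
    rw [h4]
    refine mul_le_mul_of_nonneg_left ?_ (by positivity)
    linarith [hbig]
  have hgood : κ ^ 3 * N ^ 3 * l' ≤ 64 * b ^ 3 * (Qg.card : ℝ) := by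
    have : 64 * b ^ 3 * (Q.card : ℝ) = 64 * b ^ 3 * (Qg.card : ℝ) + 64 * b ^ 3 * (Qb.card : ℝ) := by
      rw [hsplit]; ring
    linarith
  -- pigeonhole over the keys
  set K := L' ×ˢ Finset.Ico (n : ℤ) (2 * n) ×ˢ Finset.Ico (-(n : ℤ)) n with hK
  have hKc : (K.card : ℝ) = l' * (N * (2 * N)) := by
    rw [hK, card_product, card_product, Int.card_Ico, Int.card_Ico]
    have e2 : (2 * (n : ℤ) - n).toNat = n := by omega
    have e3 : ((n : ℤ) - -(n : ℤ)).toNat = 2 * n := by omega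
    rw [e2, e3]
    push_cast
    rfl
  have hKne : K.Nonempty := by
    refine ⟨(x0.2.1, (n : ℤ), 0), ?_⟩
    rw [hK]
    simp only [mem_product, Finset.mem_Ico]
    exact ⟨(hZ x0 hx0).2, ⟨le_rfl, by omega⟩, by omega, by omega⟩
  have hmaps : ∀ q ∈ Qg, q.1 ∈ K := by
    intro q hq
    obtain ⟨h1, h2, h3, h4, -, -⟩ := hQmem q (mem_filter.1 hq).1
    rw [abs_lt] at h4
    rw [hK]
    simp only [mem_product, Finset.mem_Ico]
    exact ⟨h1, ⟨h2, h3⟩, h4.1.le, h4.2⟩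
  have hpig : K.card • (κ ^ 3 * N / (128 * b ^ 3)) ≤ (Qg.card : ℝ) := by
    rw [nsmul_eq_mul, hKc]
    have h1 : l' * (N * (2 * N)) * (κ ^ 3 * N / (128 * b ^ 3)) =
        κ ^ 3 * N ^ 3 * l' / (64 * b ^ 3) := by field_simp; norm_num
    rw [h1, div_le_iff₀ (by positivity)]
    linarith
  obtain ⟨⟨j, k, u'⟩, hkey, hcard⟩ :=
    exists_le_card_fiber_of_nsmul_le_card_of_maps_to hmaps hKne hpig
  set F := Qg.filter fun q => q.1 = (j, k, u') with hF
  have hFne : F.Nonempty := by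
    rw [← card_pos]
    have h1 : (0 : ℝ) < κ ^ 3 * N / (128 * b ^ 3) := by positivity
    have h2 : (0 : ℝ) < (F.card : ℝ) := lt_of_lt_of_le h1 hcard
    exact_mod_cast h2
  obtain ⟨q0, hq0⟩ := hFne
  rw [hF, mem_filter] at hq0
  have hq0Q := (mem_filter.1 hq0.1).1
  have hq0θ := (mem_filter.1 hq0.1).2
  obtain ⟨g1, g2, g3, g4, -, -⟩ := hQmem q0 hq0Q
  rw [hq0.2] at g1 g2 g3 g4 hq0θ
  refine ⟨j, g1, k, u', g2, g3, g4, ?_, F.image Prod.snd, ?_, ?_⟩
  · rw [hθ, div_le_iff₀ (by positivity)] at hq0θ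
    calc κ ^ 3 * N ≤ |(u' : ℝ)| * (512 * b ^ 3) := hq0θ
      _ = _ := by ring
  · have h1 : (F.image Prod.snd).card = F.card := by
      refine card_image_of_injOn ?_
      intro q hq q' hq' hqq
      have e1 := (mem_filter.1 (mem_coe.1 hq)).2
      have e2 := (mem_filter.1 (mem_coe.1 hq')).2
      exact Prod.ext (e1.trans e2.symm) hqq
    rw [h1]
    rw [div_le_iff₀ (by positivity)] at hcard
    calc κ ^ 3 * N ≤ (F.card : ℝ) * (128 * b ^ 3) := hcard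
      _ = _ := by ring
  · intro u hu
    rw [mem_image] at hu
    obtain ⟨q, hq, rfl⟩ := hu
    rw [hF, mem_filter] at hq
    obtain ⟨-, -, -, -, h5, h6⟩ := hQmem q (mem_filter.1 hq.1).1
    rw [hq.2] at h6
    exact ⟨h5, h6⟩

end walk

end Crest.Agent.R136.Wk323
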