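import Crest.Agent.R136.Wk1_323
import Crest.Agent.R136.Wk2_323

/-!
# R136 (S0187): the WALK LEMMA, part 3 (helper323, doc 2205)

Two classes `L`, `L'` of lines with base directions `C`, `C'` whose meetings `Z` are dense; the
hyperplane flags move with the speeds `(-λE, λ)` along `L` and `(-λE', λ)` along `L'`.  If the fibres
over base points are thin (at most `M` values of the normal coordinate, `r`-separated, in a window of
size `2|Λ| + ..`, only for lines ALIVE at the height in question), then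
`Λ = λ (2 ΔC_b - (E + E') ΔC_a)` is small: `κ₀ κ⁶ (n h)² |Λ| ≲ B⁶ M (r + δ + e)`.
-/

set_option autoImplicit false

namespace Crest.Agent.R136.Wk323

open Finset
open Crest.Agent.R136.Sh605

variable {ι : Type*} [DecidableEq ι]

theorem Meet.symm {δ z : ℝ} {s t : Ln4} (h : Meet δ s t z) : Meet δ t s z := fun k => by
  rw [abs_sub_comm]; exact h k

theorem Pd_symm (s t : Ln4) (fa fb : ℝ) : Pd t s fa fb = -Pd s t fa fb := by
  unfold Pd; ring

/-- separated subsets of a set of integers -/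
theorem exists_sep (S : Finset ℤ) (m : ℕ) (hm : 0 < m) :
    ∃ S' ⊆ S, S.card ≤ m * S'.card ∧ ∀ u ∈ S', ∀ v ∈ S', u ≠ v → (m : ℤ) ≤ |u - v| := by
  classical
  have hmz : (0 : ℤ) < m := by exact_mod_cast hm
  have hmaps : ∀ u ∈ S, u % (m : ℤ) ∈ Finset.Ico (0 : ℤ) m := fun u _ =>
    Finset.mem_Ico.2 ⟨Int.emod_nonneg _ hmz.ne', Int.emod_lt_of_pos _ hmz⟩
  have hcard : (Finset.Ico (0 : ℤ) m).card = m := by rw [Int.card_Ico]; omega
  by_contra hcon
  push Not at hcon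
  have h1 : ∀ r ∈ Finset.Ico (0 : ℤ) m, m * (S.filter fun u => u % (m : ℤ) = r).card < S.card := by
    intro r _
    by_contra h2
    rw [not_lt] at h2
    obtain ⟨u, hu, v, hv, huv, h3⟩ := hcon _ (filter_subset _ _) h2
    rw [mem_filter] at hu hv
    have h4 : (m : ℤ) ∣ u - v := by
      apply Int.dvd_of_emod_eq_zero
      rw [Int.sub_emod, hu.2, hv.2]
      simp
    have h5 : (m : ℤ) ≤ |u - v| := by
      have h6 : (m : ℤ) ∣ |u - v| := (dvd_abs _ _).2 h4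
      exact Int.le_of_dvd (abs_pos.2 (sub_ne_zero.2 huv)) h6
    omega
  have h2 : S.card = ∑ r ∈ Finset.Ico (0 : ℤ) m, (S.filter fun u => u % (m : ℤ) = r).card :=
    card_eq_sum_card_fiberwise hmaps
  have h3 : ∑ r ∈ Finset.Ico (0 : ℤ) m, m * (S.filter fun u => u % (m : ℤ) = r).card <
      ∑ _r ∈ Finset.Ico (0 : ℤ) m, S.card := by
    refine sum_lt_sum_of_nonempty ?_ h1
    exact ⟨0, Finset.mem_Ico.2 ⟨le_rfl, hmz⟩⟩
  rw [← mul_sum, ← h2, sum_const, hcard, smul_eq_mul] at h3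
  exact lt_irrefl _ h3

/-- the data of the walk lemma: two classes of lines, their meetings, their flags -/
structure WalkData (T : ι → Ln4) (fa fb : ι → ℤ → ℝ) (L L' : Finset ι) (Z : Finset (ι × ι × ℤ))
    (n B : ℕ) (κ δ e h lam E E' Ca Cb Ca' Cb' : ℝ) : Prop where
  sub : ∀ x ∈ Z, x.1 ∈ L ∧ x.2.1 ∈ L'
  hts : ∀ x ∈ Z, (n : ℤ) ≤ x.2.2 ∧ x.2.2 < 2 * n
  mult : ∀ (j : ι) (k : ℤ), (Z.filter fun x => x.2.1 = j ∧ x.2.2 = k).card ≤ B
  mult' : ∀ (i : ι) (k : ℤ), (Z.filter fun x => x.1 = i ∧ x.2.2 = k).card ≤ B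
  ne : Z.Nonempty
  dense : κ * n * (L.card : ℝ) ≤ Z.card
  dense' : κ * n * (L'.card : ℝ) ≤ Z.card
  hpos : 0 < h
  hle : n * h ≤ 1
  /-- meetings, with error `δ` -/
  meet : ∀ x ∈ Z, Meet δ (T x.1) (T x.2.1) (x.2.2 * h)
  /-- both lines lie in the hyperplane of the flag -/
  slope : ∀ x ∈ Z, |Pd (T x.1) (T x.2.1) (fa x.1 x.2.2) (fb x.1 x.2.2)| ≤ e
  slope' : ∀ x ∈ Z, |Pd (T x.1) (T x.2.1) (fa x.2.1 x.2.2) (fb x.2.1 x.2.2)| ≤ e
  /-- the flag belongs to the point -/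
  flag : ∀ x ∈ Z, |fa x.2.1 x.2.2 - fa x.1 x.2.2| ≤ e ∧ |fb x.2.1 x.2.2 - fb x.1 x.2.2| ≤ e
  bdd : ∀ x ∈ Z, |fa x.1 x.2.2| ≤ 1 ∧ |fb x.1 x.2.2| ≤ 1
  bdd' : ∀ x ∈ Z, |fa x.2.1 x.2.2| ≤ 1 ∧ |fb x.2.1 x.2.2| ≤ 1
  /-- own rotation of the flags -/
  own : ∀ x ∈ Z, ∀ y ∈ Z, x.1 = y.1 →
    |fa x.1 y.2.2 - fa x.1 x.2.2 + lam * E * (((y.2.2 : ℝ) - x.2.2) * h)| ≤ e ∧
      |fb x.1 y.2.2 - fb x.1 x.2.2 - lam * (((y.2.2 : ℝ) - x.2.2) * h)| ≤ e
  own' : ∀ x ∈ Z, ∀ y ∈ Z, x.2.1 = y.2.1 →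
    |fa x.2.1 y.2.2 - fa x.2.1 x.2.2 + lam * E' * (((y.2.2 : ℝ) - x.2.2) * h)| ≤ e ∧
      |fb x.2.1 y.2.2 - fb x.2.1 x.2.2 - lam * (((y.2.2 : ℝ) - x.2.2) * h)| ≤ e
  dir : ∀ i ∈ L, Dir δ Ca Cb (T i)
  dir' : ∀ i ∈ L', Dir δ Ca' Cb' (T i)
  dCa : |Ca' - Ca| ≤ 2
  dCb : |Cb' - Cb| ≤ 2

/-- the cross curvature of the pair of directions -/
def Lamb (lam E E' Ca Cb Ca' Cb' : ℝ) : ℝ := lam * (2 * (Cb' - Cb) - (E + E') * (Ca' - Ca))

/-- slope of the end line of a walk with second step `u'` from the meeting number `k` of `j` -/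
def endSlope (T : ι → Ln4) (fa fb : ι → ℤ → ℝ) (h lam E' Ca Cb Ca' Cb' : ℝ) (j : ι) (k u' : ℤ) : ℝ :=
  (T j).v 0 + (fa j k - lam * E' * (u' * h)) * (Ca - Ca') + (fb j k + lam * (u' * h)) * (Cb - Cb')

/-- one walk: the end line is over the base point of the start line, at a known normal distance, and
with known slope. -/
theorem WalkData.walk {T : ι → Ln4} {fa fb : ι → ℤ → ℝ} {L L' : Finset ι}
    {Z : Finset (ι × ι × ℤ)} {n B : ℕ} {κ δ e h lam E E' Ca Cb Ca' Cb' : ℝ}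
    (D : WalkData T fa fb L L' Z n B κ δ e h lam E E' Ca Cb Ca' Cb') {j i j' i' : ι} {k u u' : ℤ}
    (hu : |u| < n) (hu' : |u'| < n) (hw : IsWalk Z j i j' i' k u u') :
    (∀ m : Fin 3, m ≠ 0 → |(T i').pos ((k + u' : ℤ) * h) m - (T j).pos ((k + u' : ℤ) * h) m| ≤ 7 * δ) ∧
    |((T i').pos ((k + u' : ℤ) * h) 0 - (T j).pos ((k + u' : ℤ) * h) 0) -
      (u * h) * (u' * h) * Lamb lam E E' Ca Cb Ca' Cb'| ≤ 19 * δ + 36 * e ∧
    |(T i').v 0 - endSlope T fa fb h lam E' Ca Cb Ca' Cb' j k u'| ≤ 12 * δ + 19 * e := by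
  obtain ⟨w1, w3, w4⟩ := hw
  have hn0 : (0 : ℝ) < n := by
    have h1 : (0 : ℤ) < n := lt_of_le_of_lt (abs_nonneg _) hu
    exact_mod_cast h1
  have hbd : ∀ v : ℤ, |v| < n → |(v : ℝ) * h| ≤ 1 := by
    intro v hv
    rw [abs_mul, abs_of_pos D.hpos]
    have h1 : |(v : ℝ)| ≤ n := by
      have h2 : (|v| : ℤ) ≤ (n : ℤ) := hv.le
      have h3 : ((|v| : ℤ) : ℝ) ≤ ((n : ℤ) : ℝ) := by exact_mod_cast h2
      simpa [Int.cast_abs] using h3
    exact (mul_le_mul_of_nonneg_right h1 D.hpos.le).trans D.hle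
  have e3 : ((k + u : ℤ) : ℝ) * h = (k : ℝ) * h + u * h := by push_cast; ring
  have e4 : ((k + u + u' : ℤ) : ℝ) * h = (k : ℝ) * h + u * h + u' * h := by push_cast; ring
  have e5 : ((k + u' : ℤ) : ℝ) * h = (k : ℝ) * h + u' * h := by push_cast; ring
  have m1 : Meet δ (T j) (T i) ((k : ℝ) * h) := (D.meet _ w1).symm
  have m3 : Meet δ (T i) (T j') ((k : ℝ) * h + u * h) := by
    have := D.meet _ w3
    rwa [e3] at this
  have m4 : Meet δ (T j') (T i') ((k : ℝ) * h + u * h + u' * h) := by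
    have := (D.meet _ w4).symm
    rwa [e4] at this
  have d1 := D.dir i (D.sub _ w1).1
  have d2' := D.dir i' (D.sub _ w4).1
  have d1' := D.dir' j' (D.sub _ w3).2
  have d2 := D.dir' j (D.sub _ w1).2
  have he : 0 ≤ e := (abs_nonneg _).trans (D.slope _ w1)
  have he3 : e ≤ 3 * e := by linarith
  have o1 := D.own _ w1 _ w3 rfl
  have o2 := D.own' _ w3 _ w4 rfl
  simp only at o1 o2
  have c1 : (((k + u : ℤ) : ℝ) - (k : ℝ)) * h = u * h := by push_cast; ring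
  have c2 : (((k + u + u' : ℤ) : ℝ) - ((k + u : ℤ) : ℝ)) * h = u' * h := by push_cast; ring
  rw [c1] at o1
  rw [c2] at o2
  have f1 := D.flag _ w1
  have f3 := D.flag _ w3
  have f4 := D.flag _ w4
  simp only at f1 f3 f4
  have p1' : |Pd (T j) (T i) (fa i k) (fb i k)| ≤ e := by
    rw [Pd_symm, abs_neg]; exact D.slope _ w1
  have p3' : |Pd (T i) (T j') (fa i (k + u)) (fb i (k + u))| ≤ e := D.slope _ w3
  have p4' : |Pd (T j') (T i') (fa i' (k + u + u')) (fb i' (k + u + u'))| ≤ e := by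
    rw [Pd_symm, abs_neg]; exact D.slope _ w4
  have q2a : |fa i' (k + u + u') - fa i (k + u) + lam * E' * (u' * h)| ≤ 3 * e := by
    have a1 := o2.1
    have a2 := f3.1
    have a3 := f4.1
    rw [abs_le] at *
    constructor <;> linarith [a1.1, a1.2, a2.1, a2.2, a3.1, a3.2]
  have q2b : |fb i' (k + u + u') - fb i (k + u) - lam * (u' * h)| ≤ 3 * e := by
    have a1 := o2.2
    have a2 := f3.2
    have a3 := f4.2
    rw [abs_le] at *
    constructor <;> linarith [a1.1, a1.2, a2.1, a2.2, a3.1, a3.2]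
  rw [e5]
  refine ⟨fun m hm => loop_base m1 m3 m4 d1 d2' d1' d2 (hbd u hu) (hbd u' hu') m hm, ?_, ?_⟩
  · have key := loop_normal m1 m3 m4 d1 d2' d1' d2 (hbd u hu) (hbd u' hu') D.dCa D.dCb
      (p1'.trans he3) (p3'.trans he3) (p4'.trans he3)
      (D.bdd _ w1).1 (D.bdd _ w1).2 (D.bdd _ w3).1 (D.bdd _ w3).2 (D.bdd _ w4).1 (D.bdd _ w4).2
      (o1.1.trans he3) (o1.2.trans he3) q2a q2b
    unfold Lamb
    refine key.trans (le_of_eq ?_)
    ring
  · have s1 := slope_err (δ := δ) p1' d2 d1 (D.bdd _ w1).1 (D.bdd _ w1).2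
    have s3 := slope_err (δ := δ) p3' d1 d1' (D.bdd _ w3).1 (D.bdd _ w3).2
    have s4 := slope_err (δ := δ) p4' d1' d2' (D.bdd _ w4).1 (D.bdd _ w4).2
    set A1 : ℝ := fa i' (k + u + u') - fa i (k + u) + lam * E' * (u' * h) with hA1
    set A2 : ℝ := fb i' (k + u + u') - fb i (k + u) - lam * (u' * h) with hA2
    set A3 : ℝ := fa j k - fa i k with hA3
    set A4 : ℝ := fb j k - fb i k with hA4
    have b1 := abs_mul_le q2a ((abs_sub_comm Ca Ca').le.trans D.dCa)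
    have b2 := abs_mul_le q2b ((abs_sub_comm Cb Cb').le.trans D.dCb)
    have b3 := abs_mul_le f1.1 ((abs_sub_comm Ca Ca').le.trans D.dCa)
    have b4 := abs_mul_le f1.2 ((abs_sub_comm Cb Cb').le.trans D.dCb)
    set S1 : ℝ := ((T i).v 0 - (T j).v 0) - (fa i k * (Ca - Ca') + fb i k * (Cb - Cb')) with hS1
    set S3 : ℝ := ((T j').v 0 - (T i).v 0) -
      (fa i (k + u) * (Ca' - Ca) + fb i (k + u) * (Cb' - Cb)) with hS3
    set S4 : ℝ := ((T i').v 0 - (T j').v 0) -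
      (fa i' (k + u + u') * (Ca - Ca') + fb i' (k + u + u') * (Cb - Cb')) with hS4
    have id : (T i').v 0 - endSlope T fa fb h lam E' Ca Cb Ca' Cb' j k u' =
        S1 + S3 + S4 + A1 * (Ca - Ca') + A2 * (Cb - Cb') - A3 * (Ca - Ca') - A4 * (Cb - Cb') := by
      simp only [endSlope, hS1, hS3, hS4, hA1, hA2, hA3, hA4]
      ring
    rw [id]
    rw [abs_le] at *
    constructor <;> linarith [b1.1, b1.2, b2.1, b2.2, b3.1, b3.2, b4.1, b4.2, s1.1, s1.2, s3.1,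
      s3.2, s4.1, s4.2]

/-- **THE WALK LEMMA**: thin fibres over base points make the cross curvature small.  The fibre
bound is only used for lines alive (`k ∈ al i`) at the height `k` in question. -/
theorem WalkData.main {T : ι → Ln4} {fa fb : ι → ℤ → ℝ} {L L' : Finset ι}
    {Z : Finset (ι × ι × ℤ)} {n B : ℕ} {κ δ e h lam E E' Ca Cb Ca' Cb' : ℝ}
    (D : WalkData T fa fb L L' Z n B κ δ e h lam E E' Ca Cb Ca' Cb') (hκ : 0 < κ)
    (hδ : 0 ≤ δ) (hbig : 256 * (B : ℝ) ^ 3 ≤ κ ^ 3 * n) {r M κ₀ : ℝ} (hr : 0 < r) (hκ₀ : 0 < κ₀)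
    (al : ι → Finset ℤ) (halh : ∀ i ∈ L, ∀ k ∈ al i, (n : ℤ) ≤ k ∧ k < 2 * n)
    (hal : ∀ i ∈ L, κ₀ * n ≤ ((al i).card : ℝ))
    (hfib : ∀ F ⊆ L, F.Nonempty → ∀ k : ℤ, (n : ℤ) ≤ k → k < 2 * n → (∀ i ∈ F, k ∈ al i) →
      (∀ i ∈ F, ∀ i' ∈ F, ∀ m : Fin 3, m ≠ 0 →
        |(T i).pos (k * h) m - (T i').pos (k * h) m| ≤ 18 * δ) →
      (∀ i ∈ F, ∀ i' ∈ F, |(T i).pos (k * h) 0 - (T i').pos (k * h) 0| ≤
        2 * |Lamb lam E E' Ca Cb Ca' Cb'| + (86 * δ + 148 * e)) →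
      (∀ i ∈ F, ∀ i' ∈ F, i ≠ i' → r ≤ |(T i).pos (k * h) 0 - (T i').pos (k * h) 0|) →
      (F.card : ℝ) ≤ M) :
    κ₀ * κ ^ 6 * (n * h) ^ 2 * |Lamb lam E E' Ca Cb Ca' Cb'| ≤
        131072 * (B : ℝ) ^ 6 * M * (r + 86 * δ + 148 * e) ∨
      κ₀ * κ ^ 3 * n ≤ 256 * (B : ℝ) ^ 3 * M := by
  classical
  set Λ : ℝ := Lamb lam E E' Ca Cb Ca' Cb' with hΛ
  obtain ⟨x0, hx0⟩ := D.ne
  have he : 0 ≤ e := (abs_nonneg _).trans (D.slope _ hx0)
  have hn0 : 0 < n := by have := D.hts x0 hx0; omega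
  have hnpos : (0 : ℝ) < n := by exact_mod_cast hn0
  have hBpos : (0 : ℝ) < B := by
    have h1 := D.mult x0.2.1 x0.2.2
    have h2 : 0 < (Z.filter fun x => x.2.1 = x0.2.1 ∧ x.2.2 = x0.2.2).card :=
      card_pos.2 ⟨x0, mem_filter.2 ⟨hx0, rfl, rfl⟩⟩
    exact_mod_cast lt_of_lt_of_le h2 h1
  obtain ⟨j, hj, k, u', hk1, hk2, hu'n, hu'θ, S, hS, hSw⟩ :=
    exists_walks Z L L' n B D.sub D.hts D.mult D.mult' hκ D.ne D.dense D.dense' hbig
  set b : ℝ := (B : ℝ) with hb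
  set N : ℝ := (n : ℝ) with hN
  have hκn : 0 < κ ^ 3 * N := by positivity
  have hSpos : (0 : ℝ) < S.card := by
    by_contra hcon
    rw [not_lt] at hcon
    have h1 : 128 * b ^ 3 * (S.card : ℝ) ≤ 0 := mul_nonpos_of_nonneg_of_nonpos (by positivity) hcon
    linarith
  have : Nonempty ι := ⟨j⟩
  choose! p hp using fun u (hu : u ∈ S) => (hSw u hu).2
  choose! p' hp' using hp
  choose! q hq using hp'
  have hqL : ∀ u ∈ S, q u ∈ L := fun u hu => (D.sub _ (hq u hu).2.2).1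
  -- a common height at which many end lines are alive
  obtain ⟨k5, hk5, hk5c⟩ : ∃ k5 ∈ Finset.Ico (n : ℤ) (2 * n),
      κ₀ * (S.card : ℝ) ≤ ((S.filter fun u => k5 ∈ al (q u)).card : ℝ) := by
    by_contra hcon
    push Not at hcon
    have hIco : (Finset.Ico (n : ℤ) (2 * n)).card = n := by rw [Int.card_Ico]; omega
    have h1 : ∑ u ∈ S, ((al (q u)).card : ℝ) =
        ∑ k5 ∈ Finset.Ico (n : ℤ) (2 * n), ((S.filter fun u => k5 ∈ al (q u)).card : ℝ) := by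
      have e1 : ∀ u ∈ S, ((al (q u)).card : ℝ) =
          ∑ k5 ∈ Finset.Ico (n : ℤ) (2 * n), if k5 ∈ al (q u) then (1 : ℝ) else 0 := by
        intro u hu
        have h2 : al (q u) ⊆ Finset.Ico (n : ℤ) (2 * n) := fun k5 hk5 =>
          Finset.mem_Ico.2 (halh _ (hqL u hu) k5 hk5)
        rw [sum_ite_mem, inter_eq_right.2 h2]
        simp
      rw [sum_congr rfl e1, sum_comm]
      refine sum_congr rfl fun k5 _ => ?_
      rw [card_filter]
      push_cast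
      rfl
    have h2 : ∑ u ∈ S, κ₀ * N ≤ ∑ u ∈ S, ((al (q u)).card : ℝ) :=
      sum_le_sum fun u hu => hal _ (hqL u hu)
    have h3 : ∑ k5 ∈ Finset.Ico (n : ℤ) (2 * n), ((S.filter fun u => k5 ∈ al (q u)).card : ℝ) <
        ∑ _k5 ∈ Finset.Ico (n : ℤ) (2 * n), κ₀ * (S.card : ℝ) := by
      refine sum_lt_sum_of_nonempty ⟨k, Finset.mem_Ico.2 ⟨hk1, hk2⟩⟩ hcon
    rw [sum_const, nsmul_eq_mul] at h2
    rw [sum_const, hIco, nsmul_eq_mul] at h3
    rw [h1] at h2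
    nlinarith [h2, h3]
  rw [Finset.mem_Ico] at hk5
  set S5 := S.filter fun u => k5 ∈ al (q u) with hS5
  have hM : 0 ≤ M := by
    have hS5pos : 0 < S5.card := by
      have h1 : (0 : ℝ) < κ₀ * S.card := by positivity
      exact_mod_cast lt_of_lt_of_le h1 hk5c
    obtain ⟨u0, hu0⟩ := card_pos.1 hS5pos
    rw [hS5, mem_filter] at hu0
    have h5 := hfib {q u0} (by
      intro i hi
      rw [mem_singleton] at hi
      rw [hi]; exact hqL u0 hu0.1) (singleton_nonempty _) k5 hk5.1 hk5.2 (by simpa using hu0.2) (by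
        intro i hi i' hi' m _
        rw [mem_singleton] at hi hi'
        rw [hi, hi', sub_self, abs_zero]
        linarith) (by
        intro i hi i' hi'
        rw [mem_singleton] at hi hi'
        rw [hi, hi', sub_self, abs_zero]
        positivity) (by
        intro i hi i' hi' hne
        rw [mem_singleton] at hi hi'
        exact absurd (hi.trans hi'.symm) hne)
    rw [card_singleton] at h5
    linarith
  have hrho : 0 < r + 86 * δ + 148 * e := by linarith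
  rcases eq_or_ne Λ 0 with h0 | h0
  · left
    rw [h0, abs_zero, mul_zero]
    positivity
  have hΛpos : 0 < |Λ| := abs_pos.2 h0
  have hu'pos : 0 < |(u' : ℝ)| := by
    by_contra hcon
    rw [not_lt] at hcon
    have h1 : |(u' : ℝ)| = 0 := le_antisymm hcon (abs_nonneg _)
    rw [h1, mul_zero] at hu'θ
    linarith
  set s : ℝ := |(u' : ℝ)| * h ^ 2 * |Λ| with hs
  have hspos : 0 < s := by have := D.hpos; positivity
  set ρ₀ : ℝ := r + 86 * δ + 148 * e with hρ₀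
  obtain ⟨m, hm1, hm2⟩ : ∃ m : ℕ, ρ₀ / s ≤ m ∧ (m : ℝ) ≤ ρ₀ / s + 1 :=
    ⟨⌈ρ₀ / s⌉₊, Nat.le_ceil _, (Nat.ceil_lt_add_one (by positivity)).le⟩
  have hmpos : 0 < m := by
    have h1 : 0 < ρ₀ / s := by positivity
    have h2 : (0 : ℝ) < m := lt_of_lt_of_le h1 hm1
    exact_mod_cast h2
  obtain ⟨S', hS'sub5, hS'c, hS'sep⟩ := exists_sep S5 m hmpos
  have hS'sub : ∀ u ∈ S', u ∈ S := fun u hu => (mem_filter.1 (hS'sub5 hu)).1
  have hS'al : ∀ u ∈ S', k5 ∈ al (q u) := fun u hu => (mem_filter.1 (hS'sub5 hu)).2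
  have hwalk := fun u (hu : u ∈ S') => D.walk (hSw u (hS'sub u hu)).1 hu'n (hq u (hS'sub u hu))
  -- transport to the height `k5`
  set τ : ℝ := ((k5 : ℝ) - ((k + u' : ℤ) : ℝ)) * h with hτ
  have hτle : |τ| ≤ 2 := by
    rw [hτ, abs_mul, abs_of_pos D.hpos]
    have h1 : |((k5 : ℝ) - ((k + u' : ℤ) : ℝ))| ≤ 2 * n := by
      rw [abs_lt] at hu'n
      have h2 : |k5 - (k + u')| ≤ 2 * (n : ℤ) := by rw [abs_le]; constructor <;> omega
      have h3 : ((|k5 - (k + u')| : ℤ) : ℝ) ≤ ((2 * (n : ℤ) : ℤ) : ℝ) := by exact_mod_cast h2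
      simpa [Int.cast_abs, Int.cast_sub] using h3
    have h4 := mul_le_mul_of_nonneg_right h1 D.hpos.le
    have h5 := D.hle
    rw [← hN] at h4
    linarith
  have hk5pos : ∀ (t : Ln4) (mm : Fin 3), t.pos (k5 * h) mm =
      t.pos ((k + u' : ℤ) * h) mm + τ * t.v mm := by
    intro t mm
    rw [← pos_add]
    congr 1
    rw [hτ]; ring
  have hdiffY : ∀ u ∈ S', ∀ v ∈ S', |((T (q u)).pos (k5 * h) 0 - (T (q v)).pos (k5 * h) 0) -
      ((u : ℝ) - v) * h * (u' * h) * Λ| ≤ 86 * δ + 148 * e := by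
    intro u hu v hv
    obtain ⟨-, h1, h1s⟩ := hwalk u hu
    obtain ⟨-, h2, h2s⟩ := hwalk v hv
    rw [hk5pos, hk5pos]
    set Yu := (T (q u)).pos ((k + u' : ℤ) * h) 0
    set Yv := (T (q v)).pos ((k + u' : ℤ) * h) 0
    set Yj := (T j).pos ((k + u' : ℤ) * h) 0
    set σ0 := endSlope T fa fb h lam E' Ca Cb Ca' Cb' j k u'
    have h3 := abs_mul_le hτle h1s
    have h4 := abs_mul_le hτle h2s
    have id : (Yu + τ * (T (q u)).v 0 - (Yv + τ * (T (q v)).v 0)) -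
        ((u : ℝ) - v) * h * (u' * h) * Λ = (Yu - Yj - (u * h) * (u' * h) * Λ) -
        (Yv - Yj - (v * h) * (u' * h) * Λ) + τ * ((T (q u)).v 0 - σ0) -
        τ * ((T (q v)).v 0 - σ0) := by ring
    rw [id]
    rw [abs_le] at *
    constructor <;> linarith [h1.1, h1.2, h2.1, h2.2, h3.1, h3.2, h4.1, h4.2]
  have hsep : ∀ u ∈ S', ∀ v ∈ S', u ≠ v →
      r ≤ |(T (q u)).pos (k5 * h) 0 - (T (q v)).pos (k5 * h) 0| := by
    intro u hu v hv huv
    have h1 := hdiffY u hu v hv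
    have h3 : (m : ℝ) ≤ |(u : ℝ) - v| := by
      have := hS'sep u hu v hv huv
      have h4 : ((m : ℤ) : ℝ) ≤ ((|u - v| : ℤ) : ℝ) := by exact_mod_cast this
      simpa [Int.cast_abs, Int.cast_sub] using h4
    have h4 : ρ₀ ≤ |((u : ℝ) - v) * h * (u' * h) * Λ| := by
      have h5 : |((u : ℝ) - v) * h * (u' * h) * Λ| = |(u : ℝ) - v| * s := by
        rw [abs_mul, abs_mul, abs_mul, abs_mul, abs_of_pos D.hpos, hs]; ring
      rw [h5]
      have h6 : ρ₀ ≤ m * s := by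
        rw [div_le_iff₀ hspos] at hm1; exact hm1
      exact h6.trans (mul_le_mul_of_nonneg_right h3 hspos.le)
    have h5 := abs_sub_abs_le_abs_sub (((u : ℝ) - v) * h * (u' * h) * Λ)
      ((T (q u)).pos (k5 * h) 0 - (T (q v)).pos (k5 * h) 0)
    rw [abs_sub_comm] at h1
    linarith
  have hinj : Set.InjOn q (S' : Set ℤ) := by
    intro u hu v hv huv
    by_contra hne
    have := hsep u hu v hv hne
    rw [huv, sub_self, abs_zero] at this
    linarith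
  have hbd : ∀ v : ℤ, |v| < n → |(v : ℝ) * h| ≤ 1 := by
    intro v hv
    rw [abs_mul, abs_of_pos D.hpos]
    have h1 : |(v : ℝ)| ≤ n := by
      have h2 : (|v| : ℤ) ≤ (n : ℤ) := hv.le
      have h3 : ((|v| : ℤ) : ℝ) ≤ ((n : ℤ) : ℝ) := by exact_mod_cast h2
      simpa [Int.cast_abs] using h3
    exact (mul_le_mul_of_nonneg_right h1 D.hpos.le).trans D.hle
  by_cases hS'ne : S'.Nonempty
  swap
  · rw [not_nonempty_iff_eq_empty] at hS'ne
    rw [hS'ne, card_empty, mul_zero] at hS'c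
    have h1 : (S5.card : ℝ) ≤ 0 := by exact_mod_cast hS'c
    have h2 : (0 : ℝ) < κ₀ * S.card := by positivity
    linarith
  have hF := hfib (S'.image q) (by
      intro i hi
      obtain ⟨u, hu, rfl⟩ := mem_image.1 hi
      exact hqL u (hS'sub u hu)) (hS'ne.image _) k5 hk5.1 hk5.2 (by
      intro i hi
      obtain ⟨u, hu, rfl⟩ := mem_image.1 hi
      exact hS'al u hu) (by
      intro i hi i' hi' mm hmm
      obtain ⟨u, hu, rfl⟩ := mem_image.1 hi
      obtain ⟨v, hv, rfl⟩ := mem_image.1 hi'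
      have h1 := (hwalk u hu).1 mm hmm
      have h2 := (hwalk v hv).1 mm hmm
      rw [hk5pos, hk5pos]
      have hv2 : |(T (q u)).v mm - (T (q v)).v mm| ≤ 2 * δ := by
        have d1 := D.dir _ (hqL u (hS'sub u hu))
        have d2 := D.dir _ (hqL v (hS'sub v hv))
        have hmm' : mm = 1 ∨ mm = 2 := by
          fin_cases mm
          · exact absurd rfl hmm
          · exact Or.inl rfl
          · exact Or.inr rfl
        rcases hmm' with rfl | rfl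
        · have a1 := d1.1
          have a2 := d2.1
          rw [abs_le] at *
          constructor <;> linarith [a1.1, a1.2, a2.1, a2.2]
        · have a1 := d1.2
          have a2 := d2.2
          rw [abs_le] at *
          constructor <;> linarith [a1.1, a1.2, a2.1, a2.2]
      have h3 := abs_mul_le hτle hv2
      have id : (T (q u)).pos ((k + u' : ℤ) * h) mm + τ * (T (q u)).v mm -
          ((T (q v)).pos ((k + u' : ℤ) * h) mm + τ * (T (q v)).v mm) =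
          ((T (q u)).pos ((k + u' : ℤ) * h) mm - (T j).pos ((k + u' : ℤ) * h) mm) -
          ((T (q v)).pos ((k + u' : ℤ) * h) mm - (T j).pos ((k + u' : ℤ) * h) mm) +
          τ * ((T (q u)).v mm - (T (q v)).v mm) := by ring
      rw [id]
      rw [abs_le] at *
      constructor <;> linarith [h1.1, h1.2, h2.1, h2.2, h3.1, h3.2]) (by
      intro i hi i' hi'
      obtain ⟨u, hu, rfl⟩ := mem_image.1 hi
      obtain ⟨v, hv, rfl⟩ := mem_image.1 hi'
      have h1 := hdiffY u hu v hv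
      have h2 : |((u : ℝ) - v) * h * (u' * h) * Λ| ≤ 2 * |Λ| := by
        rw [abs_mul]
        refine mul_le_mul_of_nonneg_right ?_ (abs_nonneg _)
        have h3 := hbd u (hSw u (hS'sub u hu)).1
        have h4 := hbd v (hSw v (hS'sub v hv)).1
        have h5 : |((u : ℝ) - v) * h| ≤ 2 := by
          rw [sub_mul]
          refine (abs_sub _ _).trans ?_
          linarith
        have h6 := abs_mul_le h5 (hbd u' hu'n)
        linarith
      have h4 := abs_sub_abs_le_abs_sub ((T (q u)).pos (k5 * h) 0 - (T (q v)).pos (k5 * h) 0)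
        (((u : ℝ) - v) * h * (u' * h) * Λ)
      linarith) (by
      intro i hi i' hi' hne
      obtain ⟨u, hu, rfl⟩ := mem_image.1 hi
      obtain ⟨v, hv, rfl⟩ := mem_image.1 hi'
      exact hsep u hu v hv (fun h => hne (by rw [h])))
  rw [card_image_of_injOn hinj] at hF
  have hSM : κ₀ * (S.card : ℝ) ≤ (ρ₀ / s + 1) * M := by
    have h1 : (S5.card : ℝ) ≤ (m : ℝ) * (S'.card : ℝ) := by exact_mod_cast hS'c
    refine (hk5c.trans h1).trans (mul_le_mul hm2 hF (Nat.cast_nonneg _) ?_)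
    positivity
  have hfin : κ₀ * κ ^ 3 * N ≤ 128 * b ^ 3 * ((ρ₀ / s + 1) * M) := by
    have h1 : κ₀ * (κ ^ 3 * N) ≤ κ₀ * (128 * b ^ 3 * (S.card : ℝ)) :=
      mul_le_mul_of_nonneg_left hS hκ₀.le
    have h2 : 128 * b ^ 3 * (κ₀ * (S.card : ℝ)) ≤ 128 * b ^ 3 * ((ρ₀ / s + 1) * M) :=
      mul_le_mul_of_nonneg_left hSM (by positivity)
    linarith
  by_cases hcase : κ₀ * κ ^ 3 * N ≤ 256 * b ^ 3 * M
  · exact Or.inr hcase
  left
  rw [not_le] at hcase
  have h1 : κ₀ * κ ^ 3 * N ≤ 256 * b ^ 3 * (ρ₀ / s * M) := by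
    have h2 : 128 * b ^ 3 * ((ρ₀ / s + 1) * M) = 128 * b ^ 3 * (ρ₀ / s * M) + 128 * b ^ 3 * M := by
      ring
    linarith
  have h2 : κ₀ * κ ^ 3 * N * s ≤ 256 * b ^ 3 * (ρ₀ * M) := by
    have h3 := mul_le_mul_of_nonneg_right h1 hspos.le
    have h4 : 256 * b ^ 3 * (ρ₀ / s * M) * s = 256 * b ^ 3 * (ρ₀ * M) := by
      field_simp
    linarith
  have h5 : κ₀ * κ ^ 3 * N * (h ^ 2 * |Λ|) * (κ ^ 3 * N) ≤ κ₀ * κ ^ 3 * N * (h ^ 2 * |Λ|) *
      (512 * b ^ 3 * |(u' : ℝ)|) :=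
    mul_le_mul_of_nonneg_left hu'θ (by have := D.hpos; positivity)
  calc κ₀ * κ ^ 6 * (N * h) ^ 2 * |Λ| = κ₀ * κ ^ 3 * N * (h ^ 2 * |Λ|) * (κ ^ 3 * N) := by ring
    _ ≤ κ₀ * κ ^ 3 * N * (h ^ 2 * |Λ|) * (512 * b ^ 3 * |(u' : ℝ)|) := h5
    _ = 512 * b ^ 3 * (κ₀ * κ ^ 3 * N * s) := by rw [hs]; ring
    _ ≤ 512 * b ^ 3 * (256 * b ^ 3 * (ρ₀ * M)) := mul_le_mul_of_nonneg_left h2 (by positivity)
    _ = 131072 * b ^ 6 * M * ρ₀ := by ring

end Crest.Agent.R136.Wk323
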