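import Mathlib

/-!
# R136 (S0187): the WALK LEMMA, part 4: from pairs to the conic (helper323, doc 2205)

* `tri_affine`, `tri_conic` : if the cross curvatures `2 ΔC - (E + E') Δc` of the three pairs of
  `i, j, l` are `≤ η`, then `E l` is the affine interpolation of `E i, E j` at `c l` and `C l` is the
  quadratic one.
* `exists_frame` : dense sets `Zs g ⊆ P` (`g` in a class of directions) ⊢ two separated directions
  `i, j` and a dense part of directions `l` such that the triple intersections are dense.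
* `conic` : both together.
-/

set_option autoImplicit false

namespace Crest.Agent.R136.Wk323

open Finset

/-- cross curvature of two directions (without the factor `λ`) -/
def Xc (c C E c' C' E' : ℝ) : ℝ := 2 * (C' - C) - (E + E') * (c' - c)

theorem tri_affine {ci Ci Ei cj Cj Ej cl Cl El η : ℝ} (h1 : |Xc ci Ci Ei cj Cj Ej| ≤ η)
    (h2 : |Xc cj Cj Ej cl Cl El| ≤ η) (h3 : |Xc cl Cl El ci Ci Ei| ≤ η) :
    |Ei * (cj - cl) + Ej * (cl - ci) + El * (ci - cj)| ≤ 3 * η := by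
  have e : Ei * (cj - cl) + Ej * (cl - ci) + El * (ci - cj) =
      -(Xc ci Ci Ei cj Cj Ej + Xc cj Cj Ej cl Cl El + Xc cl Cl El ci Ci Ei) := by
    unfold Xc; ring
  rw [e, abs_neg]
  calc _ ≤ |Xc ci Ci Ei cj Cj Ej| + |Xc cj Cj Ej cl Cl El| + |Xc cl Cl El ci Ci Ei| :=
        abs_add_three _ _ _
    _ ≤ 3 * η := by linarith

/-- the curvature determined by two directions -/
noncomputable def sOf (ci Ei cj Ej : ℝ) : ℝ := -(Ej - Ei) / (cj - ci)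

theorem tri_E {ci Ci Ei cj Cj Ej cl Cl El η : ℝ} (hne : ci ≠ cj)
    (h1 : |Xc ci Ci Ei cj Cj Ej| ≤ η)
    (h2 : |Xc cj Cj Ej cl Cl El| ≤ η) (h3 : |Xc cl Cl El ci Ci Ei| ≤ η) :
    |El - (Ei - sOf ci Ei cj Ej * (cl - ci))| ≤ 3 * η / |cj - ci| := by
  have hd : cj - ci ≠ 0 := sub_ne_zero.2 (Ne.symm hne)
  have hdpos : 0 < |cj - ci| := abs_pos.2 hd
  have h4 := tri_affine h1 h2 h3
  rw [le_div_iff₀ hdpos, ← abs_mul]
  have e : (El - (Ei - sOf ci Ei cj Ej * (cl - ci))) * (cj - ci) =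
      -(Ei * (cj - cl) + Ej * (cl - ci) + El * (ci - cj)) := by
    unfold sOf; field_simp; ring
  rw [e, abs_neg]
  exact h4

theorem tri_C {ci Ci Ei cj Cj Ej cl Cl El η : ℝ} (hne : ci ≠ cj)
    (h1 : |Xc ci Ci Ei cj Cj Ej| ≤ η)
    (h2 : |Xc cj Cj Ej cl Cl El| ≤ η) (h3 : |Xc cl Cl El ci Ci Ei| ≤ η) (hb : |cl - ci| ≤ 2) :
    |Cl - (Ci + Ei * (cl - ci) - sOf ci Ei cj Ej * (cl - ci) ^ 2 / 2)| ≤
      η / 2 + 3 * η / |cj - ci| := by
  have h4 := tri_E hne h1 h2 h3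
  set s := sOf ci Ei cj Ej
  have e : Cl - (Ci + Ei * (cl - ci) - s * (cl - ci) ^ 2 / 2) =
      -(Xc cl Cl El ci Ci Ei) / 2 + (El - (Ei - s * (cl - ci))) * (cl - ci) / 2 := by
    unfold Xc; ring
  rw [e]
  have h5 : |-(Xc cl Cl El ci Ci Ei) / 2| ≤ η / 2 := by
    rw [abs_div, abs_neg, abs_of_pos (by norm_num : (0 : ℝ) < 2)]
    linarith
  have h6 : |(El - (Ei - s * (cl - ci))) * (cl - ci) / 2| ≤ 3 * η / |cj - ci| := by
    rw [abs_div, abs_mul, abs_of_pos (by norm_num : (0 : ℝ) < 2)]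
    have h7 := mul_le_mul h4 hb (abs_nonneg _) ((abs_nonneg _).trans h4)
    linarith
  exact (abs_add_le _ _).trans (add_le_add h5 h6)

section frame

variable {γ α : Type*} [DecidableEq γ] [DecidableEq α]

omit [DecidableEq γ] in
/-- triples of dense sets with dense triple intersections -/
theorem card_triples (Γ : Finset γ) (P : Finset α) (Zs : γ → Finset α) (κ : ℝ) (hκ : 0 < κ)
    (hP : P.Nonempty) (hΓ : Γ.Nonempty) (hsub : ∀ g ∈ Γ, Zs g ⊆ P)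
    (hsum : κ * Γ.card * P.card ≤ ∑ g ∈ Γ, ((Zs g).card : ℝ)) :
    κ ^ 3 / 2 * (Γ.card : ℝ) ^ 3 ≤ (((Γ ×ˢ Γ ×ˢ Γ).filter fun t => κ ^ 3 / 2 * (P.card : ℝ) ≤
      ((Zs t.1 ∩ Zs t.2.1 ∩ Zs t.2.2).card : ℝ)).card : ℝ) := by
  classical
  set G : ℝ := (Γ.card : ℝ) with hG
  set p : ℝ := (P.card : ℝ) with hp
  have hGpos : 0 < G := by rw [hG]; exact_mod_cast hΓ.card_pos
  have hppos : 0 < p := by rw [hp]; exact_mod_cast hP.card_pos
  let dg : α → ℝ := fun x => ((Γ.filter fun g => x ∈ Zs g).card : ℝ)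
  have hcard : ∀ x : α, dg x = ∑ g ∈ Γ, if x ∈ Zs g then (1 : ℝ) else 0 := by
    intro x
    simp only [dg]
    rw [card_filter]
    push_cast
    rfl
  have hind : ∀ A : Finset α, A ⊆ P → (A.card : ℝ) = ∑ x ∈ P, if x ∈ A then (1 : ℝ) else 0 := by
    intro A hA
    rw [sum_ite_mem, inter_eq_right.2 hA]
    simp
  have h1 : ∑ x ∈ P, dg x = ∑ g ∈ Γ, ((Zs g).card : ℝ) := by
    rw [sum_congr rfl (fun x _ => hcard x), sum_comm]
    exact sum_congr rfl fun g hg => (hind _ (hsub g hg)).symm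
  have h2 : ∑ t ∈ Γ ×ˢ Γ ×ˢ Γ, ((Zs t.1 ∩ Zs t.2.1 ∩ Zs t.2.2).card : ℝ) = ∑ x ∈ P, dg x ^ 3 := by
    have e1 : ∀ t ∈ Γ ×ˢ Γ ×ˢ Γ, ((Zs t.1 ∩ Zs t.2.1 ∩ Zs t.2.2).card : ℝ) =
        ∑ x ∈ P, (if x ∈ Zs t.1 then (1 : ℝ) else 0) * ((if x ∈ Zs t.2.1 then (1 : ℝ) else 0) *
          (if x ∈ Zs t.2.2 then (1 : ℝ) else 0)) := by
      intro t ht
      rw [mem_product] at ht
      rw [hind _ ((inter_subset_left.trans inter_subset_left).trans (hsub _ ht.1))]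
      refine sum_congr rfl fun x _ => ?_
      by_cases a1 : x ∈ Zs t.1 <;> by_cases a2 : x ∈ Zs t.2.1 <;> by_cases a3 : x ∈ Zs t.2.2 <;>
        simp [a1, a2, a3]
    rw [sum_congr rfl e1, sum_comm]
    refine sum_congr rfl fun x _ => ?_
    rw [sum_product]
    simp_rw [sum_product]
    rw [hcard x]
    have e2 : ∀ g ∈ Γ, ∑ g' ∈ Γ, ∑ g'' ∈ Γ, (if x ∈ Zs g then (1 : ℝ) else 0) *
        ((if x ∈ Zs g' then (1 : ℝ) else 0) * (if x ∈ Zs g'' then (1 : ℝ) else 0)) =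
        (if x ∈ Zs g then (1 : ℝ) else 0) * ((∑ g' ∈ Γ, if x ∈ Zs g' then (1 : ℝ) else 0) *
          (∑ g'' ∈ Γ, if x ∈ Zs g'' then (1 : ℝ) else 0)) := by
      intro g _
      rw [sum_mul_sum, mul_sum]
      refine sum_congr rfl fun g' _ => ?_
      rw [mul_sum]
    rw [sum_congr rfl e2, ← sum_mul]
    ring
  have h3 : (∑ x ∈ P, dg x) ^ 3 / p ^ 2 ≤ ∑ x ∈ P, dg x ^ 3 := by
    have := pow_sum_div_card_le_sum_pow (s := P) (f := dg) (fun x _ => Nat.cast_nonneg _) 2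
    simpa [hp] using this
  have h4 : κ ^ 3 * G ^ 3 * p ≤ ∑ t ∈ Γ ×ˢ Γ ×ˢ Γ, ((Zs t.1 ∩ Zs t.2.1 ∩ Zs t.2.2).card : ℝ) := by
    rw [h2]
    refine le_trans ?_ h3
    rw [le_div_iff₀ (by positivity), h1]
    calc κ ^ 3 * G ^ 3 * p * p ^ 2 = (κ * G * p) ^ 3 := by ring
      _ ≤ _ := pow_le_pow_left₀ (by positivity) hsum 3
  set Good := (Γ ×ˢ Γ ×ˢ Γ).filter fun t => κ ^ 3 / 2 * p ≤
      ((Zs t.1 ∩ Zs t.2.1 ∩ Zs t.2.2).card : ℝ) with hGood
  have h5 : ∑ t ∈ Γ ×ˢ Γ ×ˢ Γ, ((Zs t.1 ∩ Zs t.2.1 ∩ Zs t.2.2).card : ℝ) ≤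
      (Good.card : ℝ) * p + G ^ 3 * (κ ^ 3 / 2 * p) := by
    rw [← sum_filter_add_sum_filter_not (Γ ×ˢ Γ ×ˢ Γ) (fun t => κ ^ 3 / 2 * p ≤
      ((Zs t.1 ∩ Zs t.2.1 ∩ Zs t.2.2).card : ℝ)), ← hGood]
    refine add_le_add ?_ ?_
    · rw [← nsmul_eq_mul]
      refine sum_le_card_nsmul _ _ _ ?_
      intro t ht
      rw [hGood, mem_filter, mem_product] at ht
      rw [hp]
      exact_mod_cast card_le_card ((inter_subset_left.trans inter_subset_left).trans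
        (hsub _ ht.1.1))
    · refine (sum_le_card_nsmul _ _ (κ ^ 3 / 2 * p) fun t ht =>
        (not_le.1 (mem_filter.1 ht).2).le).trans ?_
      rw [nsmul_eq_mul]
      refine mul_le_mul_of_nonneg_right ?_ (by positivity)
      have := card_filter_le (Γ ×ˢ Γ ×ˢ Γ) (fun t => ¬ κ ^ 3 / 2 * p ≤
        ((Zs t.1 ∩ Zs t.2.1 ∩ Zs t.2.2).card : ℝ))
      rw [card_product, card_product] at this
      calc (((Γ ×ˢ Γ ×ˢ Γ).filter fun t => ¬ κ ^ 3 / 2 * p ≤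
            ((Zs t.1 ∩ Zs t.2.1 ∩ Zs t.2.2).card : ℝ)).card : ℝ) ≤
            ((Γ.card * (Γ.card * Γ.card) : ℕ) : ℝ) := by exact_mod_cast this
        _ = G ^ 3 := by push_cast; rw [← hG]; ring
  have h6 : (κ ^ 3 / 2 * G ^ 3) * p ≤ (Good.card : ℝ) * p := by
    have h7 := h4.trans h5
    nlinarith [h7]
  exact le_of_mul_le_mul_right h6 hppos

/-- **two separated directions and a dense class of third ones.** -/
theorem exists_frame (Γ : Finset γ) (P : Finset α) (Zs : γ → Finset α) (c : γ → ℝ) (κ sep : ℝ)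
    (hκ : 0 < κ) (hP : P.Nonempty) (hΓ : Γ.Nonempty) (hsub : ∀ g ∈ Γ, Zs g ⊆ P)
    (hsum : κ * Γ.card * P.card ≤ ∑ g ∈ Γ, ((Zs g).card : ℝ))
    (hsep : ∀ g ∈ Γ, ((Γ.filter fun g' => |c g' - c g| ≤ sep).card : ℝ) ≤ κ ^ 3 / 4 * Γ.card) :
    ∃ i ∈ Γ, ∃ j ∈ Γ, sep < |c j - c i| ∧
      κ ^ 3 / 4 * (Γ.card : ℝ) ≤ ((Γ.filter fun l => κ ^ 3 / 2 * (P.card : ℝ) ≤
        ((Zs i ∩ Zs j ∩ Zs l).card : ℝ)).card : ℝ) := by
  classical
  set Good := (Γ ×ˢ Γ ×ˢ Γ).filter fun t => κ ^ 3 / 2 * (P.card : ℝ) ≤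
      ((Zs t.1 ∩ Zs t.2.1 ∩ Zs t.2.2).card : ℝ) with hGood
  have h1 : κ ^ 3 / 2 * (Γ.card : ℝ) ^ 3 ≤ (Good.card : ℝ) :=
    card_triples Γ P Zs κ hκ hP hΓ hsub hsum
  set G : ℝ := (Γ.card : ℝ) with hG
  have hGpos : 0 < G := by rw [hG]; exact_mod_cast hΓ.card_pos
  set Gs := Good.filter fun t => sep < |c t.2.1 - c t.1| with hGs
  set Gn := Good.filter fun t => ¬ sep < |c t.2.1 - c t.1| with hGn
  have h2 : (Gn.card : ℝ) ≤ κ ^ 3 / 4 * G ^ 3 := by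
    have hsub' : Gn ⊆ Γ.biUnion fun g => ((Γ.filter fun g' => |c g' - c g| ≤ sep) ×ˢ Γ).image
        fun q => (g, q.1, q.2) := by
      intro t ht
      rw [hGn, mem_filter, hGood, mem_filter, mem_product, mem_product] at ht
      simp only [mem_biUnion, mem_image, mem_product, mem_filter]
      exact ⟨t.1, ht.1.1.1, (t.2.1, t.2.2), ⟨⟨ht.1.1.2.1, not_lt.1 ht.2⟩, ht.1.1.2.2⟩, rfl⟩
    have h3 : (Gn.card : ℝ) ≤ ∑ g ∈ Γ, ((((Γ.filter fun g' => |c g' - c g| ≤ sep) ×ˢ Γ).image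
        fun q => (g, q.1, q.2)).card : ℝ) := by
      exact_mod_cast (card_le_card hsub').trans card_biUnion_le
    refine h3.trans ((sum_le_card_nsmul _ _ (κ ^ 3 / 4 * G * G) ?_).trans (le_of_eq ?_))
    · intro g hg
      have h4 : ((((Γ.filter fun g' => |c g' - c g| ≤ sep) ×ˢ Γ).image
          fun q => (g, q.1, q.2)).card : ℝ) ≤
          (((Γ.filter fun g' => |c g' - c g| ≤ sep).card * Γ.card : ℕ) : ℝ) := by
        rw [← card_product]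
        exact_mod_cast card_image_le
      refine h4.trans ?_
      push_cast
      exact mul_le_mul_of_nonneg_right (hsep g hg) (Nat.cast_nonneg _)
    · rw [nsmul_eq_mul, ← hG]; ring
  have h3 : κ ^ 3 / 4 * G ^ 3 ≤ (Gs.card : ℝ) := by
    have h4 := card_filter_add_card_filter_not (s := Good) (fun t => sep < |c t.2.1 - c t.1|)
    rw [← hGs, ← hGn] at h4
    have h5 : (Gs.card : ℝ) + Gn.card = Good.card := by exact_mod_cast h4
    nlinarith [h1, h2, h5]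
  have hmaps : ∀ t ∈ Gs, (t.1, t.2.1) ∈ Γ ×ˢ Γ := by
    intro t ht
    rw [hGs, mem_filter, hGood, mem_filter, mem_product, mem_product] at ht
    exact mem_product.2 ⟨ht.1.1.1, ht.1.1.2.1⟩
  have hne : (Γ ×ˢ Γ).Nonempty := hΓ.product hΓ
  have hpig : (Γ ×ˢ Γ).card • (κ ^ 3 / 4 * G) ≤ (Gs.card : ℝ) := by
    rw [nsmul_eq_mul, card_product]
    push_cast
    rw [← hG]
    calc G * G * (κ ^ 3 / 4 * G) = κ ^ 3 / 4 * G ^ 3 := by ring
      _ ≤ _ := h3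
  obtain ⟨⟨i, j⟩, hij, hcard⟩ :=
    exists_le_card_fiber_of_nsmul_le_card_of_maps_to hmaps hne hpig
  set F := Gs.filter fun t => (t.1, t.2.1) = (i, j) with hF
  have hFpos : 0 < F.card := by
    have h4 : (0 : ℝ) < κ ^ 3 / 4 * G := by positivity
    exact_mod_cast lt_of_lt_of_le h4 hcard
  obtain ⟨t0, ht0⟩ := card_pos.1 hFpos
  have ht0' := ht0
  rw [hF, mem_filter, hGs, mem_filter] at ht0'
  have hij' := Prod.mk.inj ht0'.2
  rw [mem_product] at hij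
  refine ⟨i, hij.1, j, hij.2, ?_, hcard.trans ?_⟩
  · have := ht0'.1.2
    rwa [hij'.1, hij'.2] at this
  · have h4 : F.card ≤ (Γ.filter fun l => κ ^ 3 / 2 * (P.card : ℝ) ≤
        ((Zs i ∩ Zs j ∩ Zs l).card : ℝ)).card := by
      refine card_le_card_of_injOn (fun t => t.2.2) ?_ ?_
      · intro t ht
        rw [mem_coe, hF, mem_filter, hGs, mem_filter, hGood, mem_filter, mem_product,
          mem_product] at ht
        have h5 := Prod.mk.inj ht.2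
        rw [mem_coe, mem_filter]
        refine ⟨ht.1.1.1.2.2, ?_⟩
        have h6 := ht.1.1.2
        rwa [h5.1, h5.2] at h6
      · intro t ht t' ht' htt
        rw [mem_coe, hF, mem_filter] at ht ht'
        have h5 := Prod.mk.inj ht.2
        have h6 := Prod.mk.inj ht'.2
        exact Prod.ext (h5.1.trans h6.1.symm) (Prod.ext (h5.2.trans h6.2.symm) htt)
    exact_mod_cast h4

/-- **THE CONIC.**  `Zs g ⊆ P` dense sets; whenever `Zs g ∩ Zs g'` is `κ³/2`-dense the cross curvature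
of the directions `g, g'` is `≤ η`.  Then a `κ³/4`-dense part of the directions lies on one conic
`C = C0 + E0 (c - c0) - s0 (c - c0)² / 2`, with tangent `E = E0 - s0 (c - c0)`. -/
theorem conic (Γ : Finset γ) (P : Finset α) (Zs : γ → Finset α) (c C E : γ → ℝ) (κ sep η : ℝ)
    (hκ : 0 < κ) (hs : 0 < sep) (hη : 0 ≤ η) (hP : P.Nonempty) (hΓ : Γ.Nonempty)
    (hsub : ∀ g ∈ Γ, Zs g ⊆ P)
    (hsum : κ * Γ.card * P.card ≤ ∑ g ∈ Γ, ((Zs g).card : ℝ))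
    (hsep : ∀ g ∈ Γ, ((Γ.filter fun g' => |c g' - c g| ≤ sep).card : ℝ) ≤ κ ^ 3 / 4 * Γ.card)
    (hc : ∀ g ∈ Γ, |c g| ≤ 1) (hE : ∀ g ∈ Γ, |E g| ≤ 1)
    (hX : ∀ g ∈ Γ, ∀ g' ∈ Γ, κ ^ 3 / 2 * (P.card : ℝ) ≤ ((Zs g ∩ Zs g').card : ℝ) →
      |Xc (c g) (C g) (E g) (c g') (C g') (E g')| ≤ η) :
    ∃ i ∈ Γ, ∃ s0 : ℝ, |s0| ≤ 2 / sep ∧ ∃ Γ' ⊆ Γ, κ ^ 3 / 4 * (Γ.card : ℝ) ≤ (Γ'.card : ℝ) ∧
      (∀ l ∈ Γ', κ ^ 3 / 2 * (P.card : ℝ) ≤ ((Zs i ∩ Zs l).card : ℝ)) ∧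
      ∀ l ∈ Γ', |E l - (E i - s0 * (c l - c i))| ≤ 3 * η / sep ∧
        |C l - (C i + E i * (c l - c i) - s0 * (c l - c i) ^ 2 / 2)| ≤ η / 2 + 3 * η / sep := by
  obtain ⟨i, hi, j, hj, hij, hcard⟩ := exists_frame Γ P Zs c κ sep hκ hP hΓ hsub hsum hsep
  refine ⟨i, hi, sOf (c i) (E i) (c j) (E j), ?_, Γ.filter fun l => κ ^ 3 / 2 * (P.card : ℝ) ≤
        ((Zs i ∩ Zs j ∩ Zs l).card : ℝ), filter_subset _ _, hcard, ?_, ?_⟩
  · unfold sOf
    rw [abs_div, abs_neg]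
    have h1 : |E j - E i| ≤ 2 := by
      refine (abs_sub _ _).trans ?_
      have := hE i hi
      have := hE j hj
      linarith
    exact div_le_div₀ (by norm_num) h1 hs hij.le
  · intro l hl
    have s1 : Zs i ∩ Zs j ∩ Zs l ⊆ Zs i ∩ Zs l := fun x hx => by
      simp only [mem_inter] at hx ⊢
      exact ⟨hx.1.1, hx.2⟩
    exact (mem_filter.1 hl).2.trans (by exact_mod_cast card_le_card s1)
  · intro l hl
    obtain ⟨hlΓ, hl2⟩ := mem_filter.1 hl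
    have hne : c i ≠ c j := by
      intro h
      rw [h, sub_self, abs_zero] at hij
      linarith
    have d1 : κ ^ 3 / 2 * (P.card : ℝ) ≤ ((Zs i ∩ Zs j).card : ℝ) :=
      hl2.trans (by exact_mod_cast card_le_card inter_subset_left)
    have s2 : Zs i ∩ Zs j ∩ Zs l ⊆ Zs j ∩ Zs l := fun x hx => by
      simp only [mem_inter] at hx ⊢
      exact ⟨hx.1.2, hx.2⟩
    have s3 : Zs i ∩ Zs j ∩ Zs l ⊆ Zs l ∩ Zs i := fun x hx => by
      simp only [mem_inter] at hx ⊢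
      exact ⟨hx.2, hx.1.1⟩
    have d2 : κ ^ 3 / 2 * (P.card : ℝ) ≤ ((Zs j ∩ Zs l).card : ℝ) :=
      hl2.trans (by exact_mod_cast card_le_card s2)
    have d3 : κ ^ 3 / 2 * (P.card : ℝ) ≤ ((Zs l ∩ Zs i).card : ℝ) :=
      hl2.trans (by exact_mod_cast card_le_card s3)
    have x1 := hX i hi j hj d1
    have x2 := hX j hj l hlΓ d2
    have x3 := hX l hlΓ i hi d3
    have hb : |c l - c i| ≤ 2 := by
      have h1 := hc l hlΓ
      have h2 := hc i hi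
      rw [abs_le] at h1 h2 ⊢
      constructor <;> linarith
    have hle : 3 * η / |c j - c i| ≤ 3 * η / sep :=
      div_le_div_of_nonneg_left (by linarith) hs hij.le
    exact ⟨(tri_E hne x1 x2 x3).trans hle, (tri_C hne x1 x2 x3 hb).trans (by linarith)⟩

end frame

end Crest.Agent.R136.Wk323
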