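import Crest.Agent.R136.Wk3_323
import Crest.Agent.R136.Wk4_323

/-!
# R136 (S0187): the WALK LEMMA, part 5: rigidity of a whole class, finite form (helper323)

`RigData` : a finite class of lines `Λs` (one per fat line), alive at many heights, with position
labels (lines with the same position label at a height meet there, in a common hyperplane flag),
direction labels, and flags which rotate around the second flag direction `(1, E i)` with common
speed `lam`.  `RigData.rig` : if the fibres over base points are thin, then a dense part of the class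
has `E = E0 - s0 (c - c0)`, `C_b = C0 + E0 (c - c0) - s0 (c - c0)² / 2`, with ONE `s0`.
-/

set_option autoImplicit false
set_option linter.unusedSectionVars false

namespace Crest.Agent.R136.Wk323

open Finset
open Crest.Agent.R136.Sh605

variable {ι α γ : Type*} [DecidableEq ι] [DecidableEq α] [DecidableEq γ]

/-- finite data of the rigidity theorem -/
structure RigData (T : ι → Ln4) (E : ι → ℝ) (fa fb : ι → ℤ → ℝ) (Ls : Finset ι)
    (al : ι → Finset ℤ) (pos : ι → ℤ → α) (dir : ι → γ) (n B : ℕ) (κ δ e h lam : ℝ) : Prop where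
  hts : ∀ i ∈ Ls, ∀ k ∈ al i, (n : ℤ) ≤ k ∧ k < 2 * n
  alive : ∀ i ∈ Ls, κ * n ≤ ((al i).card : ℝ)
  mult : ∀ i ∈ Ls, ∀ k ∈ al i,
    (Ls.filter fun j => dir j = dir i ∧ k ∈ al j ∧ pos j k = pos i k).card ≤ B
  hpos : 0 < h
  hle : n * h ≤ 1
  /-- lines with the same position label at the height `k` meet there, in a common hyperplane -/
  near : ∀ i ∈ Ls, ∀ j ∈ Ls, ∀ k : ℤ, k ∈ al i → k ∈ al j → pos i k = pos j k →
    Meet δ (T i) (T j) (k * h) ∧ |Pd (T i) (T j) (fa i k) (fb i k)| ≤ e ∧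
      |fa j k - fa i k| ≤ e ∧ |fb j k - fb i k| ≤ e
  bdd : ∀ i ∈ Ls, ∀ k ∈ al i, |fa i k| ≤ 1 ∧ |fb i k| ≤ 1
  /-- own rotation: around `(1, E i)`, speed `lam` -/
  own : ∀ i ∈ Ls, ∀ k ∈ al i, ∀ k' ∈ al i,
    |fa i k' - fa i k + lam * E i * (((k' : ℝ) - k) * h)| ≤ e ∧
      |fb i k' - fb i k - lam * (((k' : ℝ) - k) * h)| ≤ e
  vel : ∀ i ∈ Ls, |(T i).v 1| ≤ 1 ∧ |(T i).v 2| ≤ 1 ∧ |E i| ≤ 1
  /-- direction labels -/
  same : ∀ i ∈ Ls, ∀ j ∈ Ls, dir i = dir j →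
    |(T j).v 1 - (T i).v 1| ≤ δ ∧ |(T j).v 2 - (T i).v 2| ≤ δ ∧ |E j - E i| ≤ δ

/-- the lines with direction label `g` -/
def cls (Ls : Finset ι) (dir : ι → γ) (g : γ) : Finset ι := Ls.filter fun i => dir i = g

/-- the points on the lines of `F` -/
def pts (al : ι → Finset ℤ) (pos : ι → ℤ → α) (F : Finset ι) : Finset (ℤ × α) :=
  F.biUnion fun i => (al i).image fun k => (k, pos i k)

/-- the meetings of two classes -/
noncomputable def meets (Ls : Finset ι) (al : ι → Finset ℤ) (pos : ι → ℤ → α) (dir : ι → γ) (n : ℕ) (g g' : γ) :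
    Finset (ι × ι × ℤ) :=
  (cls Ls dir g ×ˢ cls Ls dir g' ×ˢ Finset.Ico (n : ℤ) (2 * n)).filter fun x =>
    x.2.2 ∈ al x.1 ∧ x.2.2 ∈ al x.2.1 ∧ pos x.1 x.2.2 = pos x.2.1 x.2.2

omit [DecidableEq ι] [DecidableEq α] in
theorem mem_cls {Ls : Finset ι} {dir : ι → γ} {g : γ} {i : ι} :
    i ∈ cls Ls dir g ↔ i ∈ Ls ∧ dir i = g := mem_filter

omit [DecidableEq ι] in
theorem mem_pts {al : ι → Finset ℤ} {pos : ι → ℤ → α} {F : Finset ι} {p : ℤ × α} :
    p ∈ pts al pos F ↔ ∃ i ∈ F, p.1 ∈ al i ∧ pos i p.1 = p.2 := by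
  unfold pts
  simp only [mem_biUnion, mem_image]
  constructor
  · rintro ⟨i, hi, k, hk, rfl⟩
    exact ⟨i, hi, hk, rfl⟩
  · rintro ⟨i, hi, h1, h2⟩
    exact ⟨i, hi, p.1, h1, Prod.ext rfl h2⟩

omit [DecidableEq ι] in
theorem mem_meets {Ls : Finset ι} {al : ι → Finset ℤ} {pos : ι → ℤ → α} {dir : ι → γ} {n : ℕ}
    {g g' : γ} {x : ι × ι × ℤ} :
    x ∈ meets Ls al pos dir n g g' ↔ (x.1 ∈ Ls ∧ dir x.1 = g) ∧ (x.2.1 ∈ Ls ∧ dir x.2.1 = g') ∧
      ((n : ℤ) ≤ x.2.2 ∧ x.2.2 < 2 * n) ∧ x.2.2 ∈ al x.1 ∧ x.2.2 ∈ al x.2.1 ∧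
        pos x.1 x.2.2 = pos x.2.1 x.2.2 := by
  unfold meets
  simp only [mem_filter, mem_product, mem_cls, Finset.mem_Ico, and_assoc]

theorem fin_bound1 {U1 U2 U3 δ ηs δs rs : ℝ} (h1 : |U1| ≤ 3 * ηs) (h2 : |U2| ≤ δ)
    (h3 : |U3| ≤ 2 * δs) (h5 : δ ≤ δs) (h7 : δs ≤ rs) (h8 : 0 ≤ rs) (h9 : 0 ≤ ηs) :
    |U1 + U2 + U3| ≤ 4 * ηs + 6 * rs := by
  refine (abs_add_three _ _ _).trans ?_
  linarith

theorem four_bound {x y z : ℝ} (hx : |x| ≤ 1) (hy : |y| ≤ 1) (hz : |z| ≤ 1) :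
    |(x - z) + (y - z)| ≤ 4 := by
  have a1 := abs_add_le (x - z) (y - z)
  have a2 := abs_sub x z
  have a3 := abs_sub y z
  linarith

theorem fin_bound2 {U1 U2 U3 U4 η δ ηs δs rs : ℝ} (h1 : |U1| ≤ η / 2 + 3 * ηs) (h2 : |U2| ≤ δ)
    (h3 : |U3| ≤ 1 * δ) (h4 : |U4| ≤ 4 * δs) (h5 : δ ≤ δs) (h6 : η ≤ ηs) (h7 : δs ≤ rs)
    (h9 : 0 ≤ ηs) : |U1 + U2 - U3 + U4| ≤ 4 * ηs + 6 * rs := by
  have a1 := abs_add_le (U1 + U2 - U3) U4
  have a2 := abs_sub (U1 + U2) U3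
  have a3 := abs_add_le U1 U2
  linarith

/-- size of the normalised curvature: real arithmetic -/
theorem solve_pow {y Q a : ℝ} (hy : 0 ≤ y) (hQ : 0 ≤ Q) (ha0 : 0 ≤ a) (ha1 : a < 1)
    (h : y ≤ Q * (2 * y + 382) ^ a) : y ≤ max 191 ((4 * Q) ^ (1 / (1 - a))) := by
  by_cases h1 : y ≤ 191
  · exact h1.trans (le_max_left _ _)
  rw [not_le] at h1
  refine le_trans ?_ (le_max_right _ _)
  have hy0 : 0 < y := by linarith
  have h2 : (2 * y + 382) ^ a ≤ (4 * y) ^ a := Real.rpow_le_rpow (by linarith) (by linarith) ha0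
  have h3 : (4 * y) ^ a ≤ 4 * y ^ a := by
    rw [Real.mul_rpow (by norm_num) hy]
    refine mul_le_mul_of_nonneg_right ?_ (Real.rpow_nonneg hy a)
    calc (4 : ℝ) ^ a ≤ 4 ^ (1 : ℝ) := Real.rpow_le_rpow_of_exponent_le (by norm_num) ha1.le
      _ = 4 := Real.rpow_one 4
  have h4 : y ≤ 4 * Q * y ^ a := by
    calc y ≤ Q * (2 * y + 382) ^ a := h
      _ ≤ Q * (4 * y ^ a) := mul_le_mul_of_nonneg_left (h2.trans h3) hQ
      _ = _ := by ring
  have h5 : y ^ (1 - a) ≤ 4 * Q := by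
    rw [Real.rpow_sub hy0, Real.rpow_one, div_le_iff₀ (Real.rpow_pos_of_pos hy0 a)]
    exact h4
  have h1a : 0 < 1 - a := by linarith
  have h6 := Real.rpow_le_rpow (Real.rpow_nonneg hy _) h5 (by positivity : 0 ≤ 1 / (1 - a))
  rwa [← Real.rpow_mul hy, mul_one_div_cancel h1a.ne', Real.rpow_one] at h6

namespace RigData

variable {T : ι → Ln4} {E : ι → ℝ} {fa fb : ι → ℤ → ℝ} {Ls : Finset ι} {al : ι → Finset ℤ}
  {pos : ι → ℤ → α} {dir : ι → γ} {n B : ℕ} {κ δ e h lam : ℝ}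
  (D : RigData T E fa fb Ls al pos dir n B κ δ e h lam)

include D

/-- incidences of one direction class are at most `B` times its points -/
theorem inc_le (g : γ) : ∑ i ∈ cls Ls dir g, ((al i).card : ℝ) ≤
    B * ((pts al pos (cls Ls dir g)).card : ℝ) := by
  classical
  set S := (cls Ls dir g).sigma fun i => al i with hS
  have h1 : (S.card : ℝ) = ∑ i ∈ cls Ls dir g, ((al i).card : ℝ) := by
    rw [hS, card_sigma]; push_cast; rfl
  have h2 : S.card ≤ B * (S.image fun s : (Σ _ : ι, ℤ) => (s.2, pos s.1 s.2)).card := by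
    refine card_le_mul_card_image S B ?_
    intro a ha
    rw [mem_image] at ha
    obtain ⟨⟨i, k⟩, hik, rfl⟩ := ha
    rw [hS, mem_sigma] at hik
    obtain ⟨hi, hk⟩ := hik
    simp only at hi hk
    rw [mem_cls] at hi
    refine le_trans ?_ (D.mult i hi.1 k hk)
    refine card_le_card_of_injOn (fun s : (Σ _ : ι, ℤ) => s.1) ?_ ?_
    · intro s hs
      rw [mem_coe, mem_filter, hS, mem_sigma] at hs
      obtain ⟨⟨s1, s2⟩, s3⟩ := hs
      rw [mem_cls] at s1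
      simp only [Prod.mk.injEq] at s3
      obtain ⟨s4, s5⟩ := s3
      rw [s4] at s2 s5
      rw [mem_coe, mem_filter]
      exact ⟨s1.1, s1.2.trans hi.2.symm, s2, s5⟩
    · intro s hs s' hs' hss
      rw [mem_coe, mem_filter] at hs hs'
      have e1 := hs.2
      have e2 := hs'.2
      simp only [Prod.mk.injEq] at e1 e2
      obtain ⟨a1, b1⟩ := s
      obtain ⟨a2, b2⟩ := s'
      simp only at hss e1 e2
      subst hss
      rw [e1.1.trans e2.1.symm]
  have h3 : (S.image fun s : (Σ _ : ι, ℤ) => (s.2, pos s.1 s.2)) ⊆ pts al pos (cls Ls dir g) := by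
    intro p hp
    rw [mem_image] at hp
    obtain ⟨s, hs, rfl⟩ := hp
    rw [hS, mem_sigma] at hs
    exact mem_pts.2 ⟨s.1, hs.1, hs.2, rfl⟩
  rw [← h1]
  calc (S.card : ℝ) ≤ (B : ℝ) * ((S.image fun s : (Σ _ : ι, ℤ) => (s.2, pos s.1 s.2)).card : ℝ) := by
        exact_mod_cast h2
    _ ≤ B * ((pts al pos (cls Ls dir g)).card : ℝ) :=
        mul_le_mul_of_nonneg_left (by exact_mod_cast card_le_card h3) (Nat.cast_nonneg _)

/-- lines of one direction class -/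
theorem cls_le (g : γ) : κ * n * ((cls Ls dir g).card : ℝ) ≤
    B * ((pts al pos (cls Ls dir g)).card : ℝ) := by
  refine le_trans ?_ (D.inc_le g)
  calc κ * n * ((cls Ls dir g).card : ℝ) = ∑ _i ∈ cls Ls dir g, κ * n := by
        rw [sum_const, nsmul_eq_mul]; ring
    _ ≤ _ := sum_le_sum fun i hi => D.alive i (mem_cls.1 hi).1

/-- every line carries at most `n` points -/
theorem pts_le (F : Finset ι) (hF : F ⊆ Ls) : ((pts al pos F).card : ℝ) ≤ n * F.card := by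
  unfold pts
  have h1 := card_biUnion_le_card_mul F (fun i => (al i).image fun k => (k, pos i k)) n (by
    intro i hi
    refine card_image_le.trans ?_
    have h2 : al i ⊆ Finset.Ico (n : ℤ) (2 * n) := fun k hk =>
      Finset.mem_Ico.2 (D.hts i (hF hi) k hk)
    refine (card_le_card h2).trans ?_
    rw [Int.card_Ico]
    omega)
  have h2 : (((F.biUnion fun i => (al i).image fun k => (k, pos i k)).card : ℕ) : ℝ) ≤
      ((F.card * n : ℕ) : ℝ) := by exact_mod_cast h1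
  refine h2.trans (le_of_eq ?_)
  push_cast; ring

/-- points of two classes with the same label give meetings -/
theorem inter_le (g g' : γ) :
    (((pts al pos (cls Ls dir g)) ∩ (pts al pos (cls Ls dir g'))).card : ℝ) ≤
      ((meets Ls al pos dir n g g').card : ℝ) := by
  have h1 : (pts al pos (cls Ls dir g)) ∩ (pts al pos (cls Ls dir g')) ⊆
      (meets Ls al pos dir n g g').image fun x => (x.2.2, pos x.1 x.2.2) := by
    intro p hp
    rw [mem_inter, mem_pts, mem_pts] at hp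
    obtain ⟨⟨i, hi, h2, h3⟩, j, hj, h4, h5⟩ := hp
    rw [mem_cls] at hi hj
    rw [mem_image]
    exact ⟨(i, j, p.1), mem_meets.2 ⟨hi, hj, D.hts i hi.1 _ h2, h2, h4, h3.trans h5.symm⟩,
      Prod.ext rfl h3⟩
  exact_mod_cast (card_le_card h1).trans card_image_le

/-- **the walk data of two directions.** -/
theorem walkData {i0 j0 : ι} (hi0 : i0 ∈ Ls) (hj0 : j0 ∈ Ls) {κ' lm : ℝ} (hlm : |lam| ≤ lm)
    (hδ : 0 ≤ δ)
    (hne : (meets Ls al pos dir n (dir i0) (dir j0)).Nonempty)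
    (hd : κ' * n * ((cls Ls dir (dir i0)).card : ℝ) ≤
      ((meets Ls al pos dir n (dir i0) (dir j0)).card : ℝ))
    (hd' : κ' * n * ((cls Ls dir (dir j0)).card : ℝ) ≤
      ((meets Ls al pos dir n (dir i0) (dir j0)).card : ℝ)) :
    WalkData T fa fb (cls Ls dir (dir i0)) (cls Ls dir (dir j0))
      (meets Ls al pos dir n (dir i0) (dir j0)) n B κ' δ (e + lm * δ) h lam (E i0) (E j0)
      ((T i0).v 1) ((T i0).v 2) ((T j0).v 1) ((T j0).v 2) := by
  have hlm0 : 0 ≤ lm := (abs_nonneg _).trans hlm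
  have hle : e ≤ e + lm * δ := le_add_of_nonneg_right (mul_nonneg hlm0 hδ)
  have hstep : ∀ k k' : ℤ, (n : ℤ) ≤ k → k < 2 * n → (n : ℤ) ≤ k' → k' < 2 * n →
      |((k' : ℝ) - k) * h| ≤ 1 := by
    intro k k' h1 h2 h3 h4
    rw [abs_mul, abs_of_pos D.hpos]
    have h5 : |((k' : ℝ) - k)| ≤ n := by
      have h6 : |k' - k| ≤ (n : ℤ) := by rw [abs_le]; constructor <;> omega
      have h7 : ((|k' - k| : ℤ) : ℝ) ≤ ((n : ℤ) : ℝ) := by exact_mod_cast h6
      simpa [Int.cast_abs, Int.cast_sub] using h7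
    exact (mul_le_mul_of_nonneg_right h5 D.hpos.le).trans D.hle
  have hown : ∀ i ∈ Ls, ∀ i1 ∈ Ls, dir i1 = dir i → ∀ k ∈ al i, ∀ k' ∈ al i,
      |fa i k' - fa i k + lam * E i1 * (((k' : ℝ) - k) * h)| ≤ e + lm * δ ∧
      |fb i k' - fb i k - lam * (((k' : ℝ) - k) * h)| ≤ e + lm * δ := by
    intro i hi i1 hi1 hii k hk k' hk'
    obtain ⟨h1, h2⟩ := D.own i hi k hk k' hk'
    refine ⟨?_, h2.trans hle⟩
    have h3 := (D.same i hi i1 hi1 hii.symm).2.2
    have h4 := hstep k k' (D.hts i hi k hk).1 (D.hts i hi k hk).2 (D.hts i hi k' hk').1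
      (D.hts i hi k' hk').2
    have h5 := abs_mul_le (abs_mul_le hlm h3) h4
    have id : fa i k' - fa i k + lam * E i1 * (((k' : ℝ) - k) * h) =
        (fa i k' - fa i k + lam * E i * (((k' : ℝ) - k) * h)) +
          lam * (E i1 - E i) * (((k' : ℝ) - k) * h) := by ring
    rw [id]
    refine (abs_add_le _ _).trans ?_
    linarith
  exact
    { sub := fun x hx => by
        rw [mem_meets] at hx
        exact ⟨mem_cls.2 hx.1, mem_cls.2 hx.2.1⟩
      hts := fun x hx => (mem_meets.1 hx).2.2.1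
      mult := fun j k => by
        rcases ((meets Ls al pos dir n (dir i0) (dir j0)).filter
          fun x => x.2.1 = j ∧ x.2.2 = k).eq_empty_or_nonempty with he | ⟨x, hx⟩
        · rw [he]; simp
        · rw [mem_filter, mem_meets] at hx
          obtain ⟨⟨x1, x2, x3, x4, x5, x6⟩, x7, x8⟩ := hx
          refine le_trans ?_ (D.mult x.1 x1.1 x.2.2 x4)
          refine card_le_card_of_injOn (fun y : ι × ι × ℤ => y.1) ?_ ?_
          · intro y hy
            rw [mem_coe, mem_filter, mem_meets] at hy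
            obtain ⟨⟨y1, y2, y3, y4, y5, y6⟩, y7, y8⟩ := hy
            rw [mem_coe, mem_filter]
            refine ⟨y1.1, y1.2.trans x1.2.symm, ?_, ?_⟩
            · rw [x8, ← y8]; exact y4
            · rw [x8]
              rw [y8, y7] at y6
              rw [x8, x7] at x6
              exact y6.trans x6.symm
          · intro y hy y' hy' hyy
            rw [mem_coe, mem_filter] at hy hy'
            exact Prod.ext hyy (Prod.ext (hy.2.1.trans hy'.2.1.symm) (hy.2.2.trans hy'.2.2.symm))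
      mult' := fun i k => by
        rcases ((meets Ls al pos dir n (dir i0) (dir j0)).filter
          fun x => x.1 = i ∧ x.2.2 = k).eq_empty_or_nonempty with he | ⟨x, hx⟩
        · rw [he]; simp
        · rw [mem_filter, mem_meets] at hx
          obtain ⟨⟨x1, x2, x3, x4, x5, x6⟩, x7, x8⟩ := hx
          refine le_trans ?_ (D.mult x.2.1 x2.1 x.2.2 x5)
          refine card_le_card_of_injOn (fun y : ι × ι × ℤ => y.2.1) ?_ ?_
          · intro y hy
            rw [mem_coe, mem_filter, mem_meets] at hy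
            obtain ⟨⟨y1, y2, y3, y4, y5, y6⟩, y7, y8⟩ := hy
            rw [mem_coe, mem_filter]
            refine ⟨y2.1, y2.2.trans x2.2.symm, ?_, ?_⟩
            · rw [x8, ← y8]; exact y5
            · rw [x8]
              rw [y8, y7] at y6
              rw [x8, x7] at x6
              exact y6.symm.trans x6
          · intro y hy y' hy' hyy
            rw [mem_coe, mem_filter] at hy hy'
            exact Prod.ext (hy.2.1.trans hy'.2.1.symm) (Prod.ext hyy (hy.2.2.trans hy'.2.2.symm))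
      ne := hne
      dense := hd
      dense' := hd'
      hpos := D.hpos
      hle := D.hle
      meet := fun x hx => by
        rw [mem_meets] at hx
        obtain ⟨x1, x2, x3, x4, x5, x6⟩ := hx
        exact (D.near _ x1.1 _ x2.1 _ x4 x5 x6).1
      slope := fun x hx => by
        rw [mem_meets] at hx
        obtain ⟨x1, x2, x3, x4, x5, x6⟩ := hx
        exact (D.near _ x1.1 _ x2.1 _ x4 x5 x6).2.1.trans hle
      slope' := fun x hx => by
        rw [mem_meets] at hx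
        obtain ⟨x1, x2, x3, x4, x5, x6⟩ := hx
        have h1 := (D.near _ x2.1 _ x1.1 _ x5 x4 x6.symm).2.1.trans hle
        rwa [Pd_symm, abs_neg] at h1
      flag := fun x hx => by
        rw [mem_meets] at hx
        obtain ⟨x1, x2, x3, x4, x5, x6⟩ := hx
        obtain ⟨-, -, h1, h2⟩ := D.near _ x1.1 _ x2.1 _ x4 x5 x6
        exact ⟨h1.trans hle, h2.trans hle⟩
      bdd := fun x hx => by
        rw [mem_meets] at hx
        exact D.bdd _ hx.1.1 _ hx.2.2.2.1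
      bdd' := fun x hx => by
        rw [mem_meets] at hx
        exact D.bdd _ hx.2.1.1 _ hx.2.2.2.2.1
      own := fun x hx y hy hxy => by
        rw [mem_meets] at hx hy
        obtain ⟨x1, x2, x3, x4, x5, x6⟩ := hx
        obtain ⟨y1, y2, y3, y4, y5, y6⟩ := hy
        rw [← hxy] at y4
        exact hown _ x1.1 i0 hi0 x1.2.symm _ x4 _ y4
      own' := fun x hx y hy hxy => by
        rw [mem_meets] at hx hy
        obtain ⟨x1, x2, x3, x4, x5, x6⟩ := hx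
        obtain ⟨y1, y2, y3, y4, y5, y6⟩ := hy
        rw [← hxy] at y5
        exact hown _ x2.1 j0 hj0 x2.2.symm _ x5 _ y5
      dir := fun i hi => by
        rw [mem_cls] at hi
        have h1 := D.same i0 hi0 i hi.1 hi.2.symm
        exact ⟨h1.1, h1.2.1⟩
      dir' := fun i hi => by
        rw [mem_cls] at hi
        have h1 := D.same j0 hj0 i hi.1 hi.2.symm
        exact ⟨h1.1, h1.2.1⟩
      dCa := by
        have h1 := (D.vel i0 hi0).1
        have h2 := (D.vel j0 hj0).1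
        refine (abs_sub _ _).trans ?_
        linarith
      dCb := by
        have h1 := (D.vel i0 hi0).2.1
        have h2 := (D.vel j0 hj0).2.1
        refine (abs_sub _ _).trans ?_
        linarith }

/-- the bound of the cross curvatures -/
noncomputable def etaR (κ B Kf nh r a lm0 : ℝ) : ℝ :=
  r * max 191 ((4 * (131072 * 383 * B ^ 6 * Kf /
    (κ * (κ ^ 7 / (2 * B ^ 4)) ^ 6 * nh ^ 2))) ^ (1 / (1 - a))) / lm0

/-- thin fibres over base points, for alive lines with one direction label -/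
def ThinFib (T : ι → Ln4) (Ls : Finset ι) (al : ι → Finset ℤ) (dir : ι → γ) (δ h r a Kf : ℝ) :
    Prop :=
  ∀ F ⊆ Ls, F.Nonempty → ∀ k : ℤ, (∀ i ∈ F, k ∈ al i) →
      (∀ i ∈ F, ∀ i' ∈ F, dir i = dir i') →
      (∀ i ∈ F, ∀ i' ∈ F, ∀ m : Fin 3, m ≠ 0 →
        |(T i).pos (k * h) m - (T i').pos (k * h) m| ≤ 18 * δ) →
      ∀ R0 : ℝ, r ≤ R0 →
      (∀ i ∈ F, ∀ i' ∈ F, |(T i).pos (k * h) 0 - (T i').pos (k * h) 0| ≤ R0) →
      (∀ i ∈ F, ∀ i' ∈ F, i ≠ i' → r ≤ |(T i).pos (k * h) 0 - (T i').pos (k * h) 0|) →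
      (F.card : ℝ) ≤ Kf * (R0 / r) ^ a

/-- basic positivity -/
theorem posNB (hκ : 0 < κ) (hLs : Ls.Nonempty) (hn0 : 0 < n) :
    (0 : ℝ) < B ∧ (pts al pos Ls).Nonempty := by
  obtain ⟨l0, hl0⟩ := hLs
  have hnpos : (0 : ℝ) < n := by exact_mod_cast hn0
  have hal0 : (al l0).Nonempty := by
    by_contra hcon
    rw [not_nonempty_iff_eq_empty] at hcon
    have h1 := D.alive l0 hl0
    rw [hcon, card_empty, Nat.cast_zero] at h1
    have := mul_pos hκ hnpos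
    linarith
  obtain ⟨k0, hk0⟩ := hal0
  refine ⟨?_, ⟨(k0, pos l0 k0), mem_pts.2 ⟨l0, hl0, hk0, rfl⟩⟩⟩
  have h1 := D.mult l0 hl0 k0 hk0
  have h2 : 0 < (Ls.filter fun j => dir j = dir l0 ∧ k0 ∈ al j ∧ pos j k0 = pos l0 k0).card :=
    card_pos.2 ⟨l0, mem_filter.2 ⟨hl0, rfl, hk0, rfl⟩⟩
  exact_mod_cast lt_of_lt_of_le h2 h1

/-- points of a direction class are points of the class -/
theorem pts_cls_sub (g : γ) : pts al pos (cls Ls dir g) ⊆ pts al pos Ls := by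
  intro p hp
  rw [mem_pts] at hp
  obtain ⟨i, hi, h2, h3⟩ := hp
  exact mem_pts.2 ⟨i, (mem_cls.1 hi).1, h2, h3⟩

/-- **the cross curvature of every dense pair of directions is small.** -/
theorem xc_le (hκ : 0 < κ) (hδ : 0 ≤ δ) {lm lm0 r a Kf : ℝ} (hlm : |lam| ≤ lm)
    (hlm0 : 0 < lm0) (hlm0' : lm0 ≤ |lam|) (hr : 0 < r) (hδr : δ ≤ r) (her : e ≤ r)
    (hlr : lm * δ ≤ r) (ha0 : 0 ≤ a) (ha1 : a < 1) (hKf : 0 ≤ Kf) (hn0 : 0 < n)
    (hfib : ThinFib T Ls al dir δ h r a Kf)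
    (hn : 256 * (B : ℝ) ^ 3 ≤ (κ ^ 7 / (2 * B ^ 4)) ^ 3 * n)
    (hn2 : 256 * (B : ℝ) ^ 3 * (Kf * (16 * lm / r + 382) ^ a) < κ * (κ ^ 7 / (2 * B ^ 4)) ^ 3 * n)
    {i0 j0 : ι} (hi0 : i0 ∈ Ls) (hj0 : j0 ∈ Ls)
    (hgg : (κ ^ 2 / (B : ℝ)) ^ 3 / 2 * ((pts al pos Ls).card : ℝ) ≤
      ((pts al pos (cls Ls dir (dir i0)) ∩ pts al pos (cls Ls dir (dir j0))).card : ℝ)) :
    |Xc ((T i0).v 1) ((T i0).v 2) (E i0) ((T j0).v 1) ((T j0).v 2) (E j0)| ≤
      etaR κ B Kf (n * h) r a lm0 := by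
  classical
  set κ2 : ℝ := κ ^ 7 / (2 * B ^ 4) with hκ2
  set Q : ℝ := 131072 * 383 * B ^ 6 * Kf / (κ * κ2 ^ 6 * (n * h) ^ 2) with hQ
  set Ym : ℝ := max 191 ((4 * Q) ^ (1 / (1 - a))) with hYm
  have hη : etaR κ B Kf (n * h) r a lm0 = r * Ym / lm0 := rfl
  obtain ⟨hBpos, hPne⟩ := D.posNB hκ ⟨i0, hi0⟩ hn0
  have hlm0p : 0 < lm := lt_of_lt_of_le hlm0 (hlm0'.trans hlm)
  have hnpos : (0 : ℝ) < n := by exact_mod_cast hn0
  have hκ2p : 0 < κ2 := by rw [hκ2]; positivity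
  have hhp := D.hpos
  have hQ0 : 0 ≤ Q := by rw [hQ]; positivity
  set P := pts al pos Ls with hP
  have hPpos : (0 : ℝ) < P.card := by exact_mod_cast hPne.card_pos
  have hsubc : ∀ g, cls Ls dir g ⊆ Ls := fun g => filter_subset _ _
  have m1 := hgg.trans (D.inter_le (dir i0) (dir j0))
  have hd : ∀ g1 : γ, κ2 * n * ((cls Ls dir g1).card : ℝ) ≤
      ((meets Ls al pos dir n (dir i0) (dir j0)).card : ℝ) := by
    intro g1
    have h1 := D.cls_le g1
    have h2 : ((pts al pos (cls Ls dir g1)).card : ℝ) ≤ P.card := by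
      exact_mod_cast card_le_card (D.pts_cls_sub g1)
    have h3 : κ * n * ((cls Ls dir g1).card : ℝ) ≤ B * P.card :=
      h1.trans (mul_le_mul_of_nonneg_left h2 hBpos.le)
    have h4 : κ2 * n * ((cls Ls dir g1).card : ℝ) =
        (κ ^ 2 / (B : ℝ)) ^ 3 / (2 * B) * (κ * n * ((cls Ls dir g1).card : ℝ)) := by
      rw [hκ2]; field_simp
    have h5 : (κ ^ 2 / (B : ℝ)) ^ 3 / (2 * B) * (B * P.card) =
        (κ ^ 2 / (B : ℝ)) ^ 3 / 2 * (P.card : ℝ) := by field_simp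
    rw [h4]
    refine (mul_le_mul_of_nonneg_left h3 (by positivity)).trans ?_
    rw [h5]
    exact m1
  have hgne : (meets Ls al pos dir n (dir i0) (dir j0)).Nonempty := by
    rw [← card_pos]
    have h1 : (0 : ℝ) < (κ ^ 2 / (B : ℝ)) ^ 3 / 2 * (P.card : ℝ) := by positivity
    exact_mod_cast lt_of_lt_of_le h1 m1
  have W := D.walkData hi0 hj0 (κ' := κ2) hlm hδ hgne (hd _) (hd _)
  set Λ : ℝ := Lamb lam (E i0) (E j0) ((T i0).v 1) ((T i0).v 2) ((T j0).v 1) ((T j0).v 2) with hΛ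
  have hΛX : Λ = lam * Xc ((T i0).v 1) ((T i0).v 2) (E i0) ((T j0).v 1) ((T j0).v 2) (E j0) := by
    rw [hΛ]; unfold Lamb Xc; ring
  have he2 : e + lm * δ ≤ 2 * r := by linarith
  have hR0 : r ≤ 2 * |Λ| + 382 * r := by have := abs_nonneg Λ; linarith
  have key := W.main hκ2p hδ hn hr hκ al
    (fun i hi k hk => D.hts i (mem_cls.1 hi).1 k hk)
    (fun i hi => D.alive i (mem_cls.1 hi).1)
    (M := Kf * ((2 * |Λ| + 382 * r) / r) ^ a) (by
      intro F hF hFne k hk1 hk2 hFal hFb hFY hFs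
      refine hfib F (hF.trans (hsubc _)) hFne k hFal (fun i hi i' hi' =>
        (mem_cls.1 (hF hi)).2.trans (mem_cls.1 (hF hi')).2.symm) hFb _ hR0 ?_ hFs
      intro i hi i' hi'
      refine (hFY i hi i' hi').trans ?_
      rw [← hΛ]
      linarith)
  set y : ℝ := |Λ| / r with hy
  have hy0 : 0 ≤ y := by positivity
  have hyr : (2 * |Λ| + 382 * r) / r = 2 * y + 382 := by rw [hy]; field_simp
  rw [hyr] at key
  have hbig0 : 0 ≤ (2 * y + 382) ^ a := by positivity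
  have hyΛ : y ≤ Ym := by
    rcases key with key | key
    · refine solve_pow hy0 hQ0 ha0 ha1 ?_
      have h1 : κ * κ2 ^ 6 * (n * h) ^ 2 * |Λ| ≤
          131072 * (B : ℝ) ^ 6 * (Kf * (2 * y + 382) ^ a) * (383 * r) := by
        refine key.trans ?_
        refine mul_le_mul_of_nonneg_left ?_ (by positivity)
        linarith
      rw [hQ, div_mul_eq_mul_div, hy, div_le_div_iff₀ hr (by positivity), ← hy]
      calc |Λ| * (κ * κ2 ^ 6 * (n * h) ^ 2) = κ * κ2 ^ 6 * (n * h) ^ 2 * |Λ| := by ring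
        _ ≤ 131072 * (B : ℝ) ^ 6 * (Kf * (2 * y + 382) ^ a) * (383 * r) := h1
        _ = _ := by ring
    · exfalso
      have h1 : |Xc ((T i0).v 1) ((T i0).v 2) (E i0) ((T j0).v 1) ((T j0).v 2) (E j0)| ≤ 8 := by
        unfold Xc
        have a1 := W.dCa
        have a2 := W.dCb
        have a3 := (D.vel _ hi0).2.2
        have a4 := (D.vel _ hj0).2.2
        have a5 : |E i0 + E j0| ≤ 2 := (abs_add_le _ _).trans (by linarith)
        have a6 := abs_mul_le a5 a1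
        refine (abs_sub _ _).trans ?_
        rw [abs_mul, abs_of_pos (by norm_num : (0 : ℝ) < 2)]
        linarith
      have h2 : |Λ| ≤ 8 * lm := by
        rw [hΛX]
        have := abs_mul_le hlm h1
        linarith
      have h3 : 2 * y + 382 ≤ 16 * lm / r + 382 := by
        have : 2 * y ≤ 16 * lm / r := by
          rw [hy, mul_div_assoc', div_le_div_iff_of_pos_right hr]
          linarith
        linarith
      have h4 : (2 * y + 382) ^ a ≤ (16 * lm / r + 382) ^ a :=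
        Real.rpow_le_rpow (by positivity) h3 ha0
      have h5 : 256 * (B : ℝ) ^ 3 * (Kf * (2 * y + 382) ^ a) ≤
          256 * (B : ℝ) ^ 3 * (Kf * (16 * lm / r + 382) ^ a) :=
        mul_le_mul_of_nonneg_left (mul_le_mul_of_nonneg_left h4 hKf) (by positivity)
      linarith
  have h1 : |Λ| ≤ r * Ym := by
    rw [hy, div_le_iff₀ hr] at hyΛ
    linarith
  rw [hΛX, abs_mul] at h1
  rw [hη, le_div_iff₀ hlm0]
  calc _ ≤ |Xc ((T i0).v 1) ((T i0).v 2) (E i0) ((T j0).v 1) ((T j0).v 2) (E j0)| * |lam| :=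
        mul_le_mul_of_nonneg_left hlm0' (abs_nonneg _)
    _ ≤ r * Ym := by rw [mul_comm]; exact h1

theorem sum_cls : ∑ g ∈ Ls.image dir, ((cls Ls dir g).card : ℝ) = (Ls.card : ℝ) := by
  have := card_eq_sum_card_fiberwise (s := Ls) (t := Ls.image dir) (f := dir)
    (fun i hi => mem_image_of_mem _ hi)
  rw [this]
  push_cast
  rfl

/-- the points of the direction classes are dense on average -/
theorem sum_pts (hκ : 0 < κ) (hBpos : (0 : ℝ) < B)
    (hcount : κ * ((pts al pos Ls).card : ℝ) * ((Ls.image dir).card : ℝ) ≤ n * (Ls.card : ℝ)) :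
    κ ^ 2 / (B : ℝ) * (Ls.image dir).card * (pts al pos Ls).card ≤
      ∑ g ∈ Ls.image dir, ((pts al pos (cls Ls dir g)).card : ℝ) := by
  set Γ := Ls.image dir with hΓ
  set P := pts al pos Ls with hP
  have h1 : ∑ g ∈ Γ, κ * n * ((cls Ls dir g).card : ℝ) ≤
      ∑ g ∈ Γ, B * ((pts al pos (cls Ls dir g)).card : ℝ) :=
    sum_le_sum fun g _ => D.cls_le g
  rw [← mul_sum, ← mul_sum, hΓ, D.sum_cls, ← hΓ] at h1
  have h2 : κ * (κ * (P.card : ℝ) * (Γ.card : ℝ)) ≤ κ * (n * (Ls.card : ℝ)) :=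
    mul_le_mul_of_nonneg_left hcount hκ.le
  have h3 : κ ^ 2 / (B : ℝ) * Γ.card * P.card = (κ * (κ * (P.card : ℝ) * (Γ.card : ℝ))) / B := by
    field_simp
  rw [h3, div_le_iff₀ hBpos]
  calc κ * (κ * (P.card : ℝ) * (Γ.card : ℝ)) ≤ κ * (n * (Ls.card : ℝ)) := h2
    _ = κ * n * Ls.card := by ring
    _ ≤ B * ∑ g ∈ Γ, ((pts al pos (cls Ls dir g)).card : ℝ) := h1
    _ = _ := by ring

/-- **RIGIDITY OF A CLASS, finite form.** -/
theorem rig (hκ : 0 < κ) (hδ : 0 ≤ δ) {lm lm0 r a Kf sep : ℝ} (hlm : |lam| ≤ lm)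
    (hlm0 : 0 < lm0) (hlm0' : lm0 ≤ |lam|) (hr : 0 < r) (hδr : δ ≤ r) (her : e ≤ r)
    (hlr : lm * δ ≤ r) (ha0 : 0 ≤ a) (ha1 : a < 1) (hKf : 0 ≤ Kf) (hsep0 : 0 < sep)
    (hsep1 : sep ≤ 1) (hLs : Ls.Nonempty) (hn0 : 0 < n)
    (hcount : κ * ((pts al pos Ls).card : ℝ) * ((Ls.image dir).card : ℝ) ≤ n * (Ls.card : ℝ))
    (hconc : ∀ i ∈ Ls, (((Ls.filter fun j => |(T j).v 1 - (T i).v 1| ≤ sep).image dir).card : ℝ) ≤
      (κ ^ 2 / B) ^ 3 / 4 * ((Ls.image dir).card : ℝ))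
    (hfib : ThinFib T Ls al dir δ h r a Kf)
    (hn : 256 * (B : ℝ) ^ 3 ≤ (κ ^ 7 / (2 * B ^ 4)) ^ 3 * n)
    (hn2 : 256 * (B : ℝ) ^ 3 * (Kf * (16 * lm / r + 382) ^ a) < κ * (κ ^ 7 / (2 * B ^ 4)) ^ 3 * n) :
    ∃ i0 ∈ Ls, ∃ s0 : ℝ, |s0| ≤ 2 / sep ∧ ∃ Ls' ⊆ Ls,
      (κ ^ 2 / B) ^ 6 * κ / (8 * B) * (Ls.card : ℝ) ≤ (Ls'.card : ℝ) ∧
      ∀ i ∈ Ls', |E i - (E i0 - s0 * ((T i).v 1 - (T i0).v 1))| ≤
          (4 * etaR κ B Kf (n * h) r a lm0 + 6 * r) / sep ∧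
        |(T i).v 2 - ((T i0).v 2 + E i0 * ((T i).v 1 - (T i0).v 1) -
            s0 * ((T i).v 1 - (T i0).v 1) ^ 2 / 2)| ≤
          (4 * etaR κ B Kf (n * h) r a lm0 + 6 * r) / sep := by
  classical
  set η : ℝ := etaR κ B Kf (n * h) r a lm0 with hη
  obtain ⟨hBpos, hPne⟩ := D.posNB hκ hLs hn0
  have hX0 := fun i0 (hi0 : i0 ∈ Ls) j0 (hj0 : j0 ∈ Ls) => D.xc_le hκ hδ hlm hlm0 hlm0' hr hδr her
    hlr ha0 ha1 hKf hn0 hfib hn hn2 hi0 hj0
  obtain ⟨l0, hl0⟩ := hLs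
  have hnpos : (0 : ℝ) < n := by exact_mod_cast hn0
  have hκ1p : 0 < κ ^ 2 / (B : ℝ) := by positivity
  have hη0 : 0 ≤ η := by
    rw [hη]; unfold etaR
    have : (0 : ℝ) ≤ max 191 ((4 * (131072 * 383 * (B : ℝ) ^ 6 * Kf /
      (κ * (κ ^ 7 / (2 * (B : ℝ) ^ 4)) ^ 6 * (n * h) ^ 2))) ^ (1 / (1 - a))) :=
      le_trans (by norm_num) (le_max_left _ _)
    positivity
  -- objects
  set Γ := Ls.image dir with hΓ
  set P := pts al pos Ls with hP
  have hrep : ∀ g ∈ Γ, ∃ i ∈ Ls, dir i = g := fun g hg => mem_image.1 hg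
  have : Nonempty ι := ⟨l0⟩
  choose! rep hrep1 hrep2 using hrep
  have hΓne : Γ.Nonempty := ⟨dir l0, mem_image_of_mem _ hl0⟩
  have hsubc : ∀ g, cls Ls dir g ⊆ Ls := fun g => filter_subset _ _
  have hsubP : ∀ g ∈ Γ, pts al pos (cls Ls dir g) ⊆ P := fun g _ => D.pts_cls_sub g
  have hPpos : (0 : ℝ) < P.card := by exact_mod_cast hPne.card_pos
  have hsum := D.sum_pts hκ hBpos hcount
  -- cross curvature of dense pairs
  have hX : ∀ g ∈ Γ, ∀ g' ∈ Γ, (κ ^ 2 / (B : ℝ)) ^ 3 / 2 * (P.card : ℝ) ≤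
      ((pts al pos (cls Ls dir g) ∩ pts al pos (cls Ls dir g')).card : ℝ) →
      |Xc ((T (rep g)).v 1) ((T (rep g)).v 2) (E (rep g)) ((T (rep g')).v 1) ((T (rep g')).v 2)
        (E (rep g'))| ≤ η := by
    intro g hg g' hg' hgg
    have h1 := hX0 _ (hrep1 g hg) _ (hrep1 g' hg')
    rw [hrep2 g hg, hrep2 g' hg'] at h1
    exact h1 hgg
  -- separation of directions, for representatives
  have hsepΓ : ∀ g ∈ Γ, ((Γ.filter fun g' => |(T (rep g')).v 1 - (T (rep g)).v 1| ≤ sep).card : ℝ) ≤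
      (κ ^ 2 / (B : ℝ)) ^ 3 / 4 * Γ.card := by
    intro g hg
    refine le_trans ?_ (hconc (rep g) (hrep1 g hg))
    have hs : (Γ.filter fun g' => |(T (rep g')).v 1 - (T (rep g)).v 1| ≤ sep) ⊆
        (Ls.filter fun j => |(T j).v 1 - (T (rep g)).v 1| ≤ sep).image dir := by
      intro g' hg'
      rw [mem_filter] at hg'
      exact mem_image.2 ⟨rep g', mem_filter.2 ⟨hrep1 g' hg'.1, hg'.2⟩, hrep2 g' hg'.1⟩
    exact_mod_cast card_le_card hs
  obtain ⟨g0, hg0, s0, hs0, Γ', hΓ', hΓ'c, hΓ'd, hΓ'con⟩ :=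
    conic Γ P (fun g => pts al pos (cls Ls dir g)) (fun g => (T (rep g)).v 1)
      (fun g => (T (rep g)).v 2) (fun g => E (rep g)) (κ ^ 2 / (B : ℝ)) sep η hκ1p hsep0 hη0 hPne
      hΓne hsubP hsum hsepΓ (fun g hg => (D.vel _ (hrep1 g hg)).1)
      (fun g hg => (D.vel _ (hrep1 g hg)).2.2) hX
  refine ⟨rep g0, hrep1 g0 hg0, s0, hs0, Ls.filter fun i => dir i ∈ Γ', filter_subset _ _, ?_, ?_⟩
  · -- size
    set Ls' := Ls.filter fun i => dir i ∈ Γ' with hLs'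
    have h1 : ∑ g ∈ Γ', ((cls Ls dir g).card : ℝ) = (Ls'.card : ℝ) := by
      have h2 := card_eq_sum_card_fiberwise (s := Ls') (t := Γ') (f := dir)
        (fun i hi => (mem_filter.1 hi).2)
      rw [h2]
      push_cast
      refine sum_congr rfl fun g hg => ?_
      congr 2
      ext i
      rw [mem_cls, mem_filter, hLs', mem_filter]
      constructor
      · rintro ⟨a1, a2⟩
        exact ⟨⟨a1, by rw [a2]; exact hg⟩, a2⟩
      · rintro ⟨⟨a1, -⟩, a2⟩
        exact ⟨a1, a2⟩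
    have h2 : ∀ g ∈ Γ', (κ ^ 2 / (B : ℝ)) ^ 3 / 2 * (P.card : ℝ) ≤ n * ((cls Ls dir g).card : ℝ) := by
      intro g hg
      refine (hΓ'd g hg).trans (le_trans ?_ (D.pts_le _ (hsubc g)))
      exact_mod_cast card_le_card inter_subset_right
    have h3 : (Γ'.card : ℝ) * ((κ ^ 2 / (B : ℝ)) ^ 3 / 2 * (P.card : ℝ)) ≤ n * (Ls'.card : ℝ) := by
      rw [← h1, mul_sum, ← nsmul_eq_mul]
      exact card_nsmul_le_sum _ _ _ h2
    have h4 : κ * n * (Ls.card : ℝ) ≤ B * ((Γ.card : ℝ) * P.card) := by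
      have h5 : ∑ g ∈ Γ, κ * n * ((cls Ls dir g).card : ℝ) ≤ ∑ _g ∈ Γ, B * (P.card : ℝ) := by
        refine sum_le_sum fun g hg => (D.cls_le g).trans ?_
        refine mul_le_mul_of_nonneg_left ?_ hBpos.le
        exact_mod_cast card_le_card (hsubP g hg)
      rw [← mul_sum, hΓ, D.sum_cls, ← hΓ, sum_const, nsmul_eq_mul] at h5
      linarith
    have h6 : (κ ^ 2 / (B : ℝ)) ^ 6 / 8 * ((Γ.card : ℝ) * P.card) ≤ n * (Ls'.card : ℝ) := by
      refine le_trans ?_ h3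
      have h7 : (κ ^ 2 / (B : ℝ)) ^ 6 / 8 * ((Γ.card : ℝ) * P.card) =
          ((κ ^ 2 / (B : ℝ)) ^ 3 / 4 * (Γ.card : ℝ)) * ((κ ^ 2 / (B : ℝ)) ^ 3 / 2 * P.card) := by
        ring
      rw [h7]
      exact mul_le_mul_of_nonneg_right hΓ'c (by positivity)
    have h8 : ((κ ^ 2 / (B : ℝ)) ^ 6 * κ / (8 * B) * (Ls.card : ℝ)) * n ≤ (Ls'.card : ℝ) * n := by
      have h9 : ((κ ^ 2 / (B : ℝ)) ^ 6 * κ / (8 * B) * (Ls.card : ℝ)) * n =
          (κ ^ 2 / (B : ℝ)) ^ 6 / 8 / B * (κ * n * (Ls.card : ℝ)) := by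
        field_simp
      rw [h9]
      calc (κ ^ 2 / (B : ℝ)) ^ 6 / 8 / B * (κ * n * (Ls.card : ℝ)) ≤
            (κ ^ 2 / (B : ℝ)) ^ 6 / 8 / B * (B * ((Γ.card : ℝ) * P.card)) :=
            mul_le_mul_of_nonneg_left h4 (by positivity)
        _ = (κ ^ 2 / (B : ℝ)) ^ 6 / 8 * ((Γ.card : ℝ) * P.card) := by field_simp
        _ ≤ n * (Ls'.card : ℝ) := h6
        _ = _ := by ring
    exact le_of_mul_le_mul_right h8 hnpos
  · -- the conic on the lines
    intro i hi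
    rw [mem_filter] at hi
    obtain ⟨hiL, hiΓ⟩ := hi
    have hiΓ0 : dir i ∈ Γ := hΓ' hiΓ
    obtain ⟨c1, c2⟩ := hΓ'con (dir i) hiΓ
    obtain ⟨d1, d2, d3⟩ := D.same (rep (dir i)) (hrep1 _ hiΓ0) i hiL (hrep2 _ hiΓ0)
    set i' := rep (dir i) with hi'
    set i0 := rep g0 with hi0
    have hv := D.vel i hiL
    have hv' := D.vel i' (hrep1 _ hiΓ0)
    have hv0 := D.vel i0 (hrep1 g0 hg0)
    have hsd : |s0 * ((T i).v 1 - (T i').v 1)| ≤ 2 / sep * δ := abs_mul_le hs0 d1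
    have hδs : δ ≤ δ / sep := le_div_self hδ hsep0 hsep1
    have hηs : η ≤ η / sep := le_div_self hη0 hsep0 hsep1
    have hδrs : δ / sep ≤ r / sep := div_le_div_of_nonneg_right hδr hsep0.le
    have hrs : 0 ≤ r / sep := by positivity
    have hηs0 : 0 ≤ η / sep := by positivity
    have e2 : (2 / sep * δ) = 2 * (δ / sep) := by ring
    have e3 : 3 * η / sep = 3 * (η / sep) := by ring
    have e4 : (4 * η + 6 * r) / sep = 4 * (η / sep) + 6 * (r / sep) := by ring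
    constructor
    · rw [e4]
      have id : E i - (E i0 - s0 * ((T i).v 1 - (T i0).v 1)) =
          (E i' - (E i0 - s0 * ((T i').v 1 - (T i0).v 1))) + (E i - E i') +
            s0 * ((T i).v 1 - (T i').v 1) := by ring
      rw [id]
      rw [e3] at c1
      rw [e2] at hsd
      exact fin_bound1 c1 d3 hsd hδs hδrs hrs hηs0
    · rw [e4]
      have hE0 : |E i0 * ((T i).v 1 - (T i').v 1)| ≤ 1 * δ := abs_mul_le hv0.2.2 d1
      have hq : |s0 * ((T i).v 1 - (T i').v 1) * (((T i).v 1 - (T i0).v 1) +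
          ((T i').v 1 - (T i0).v 1)) / 2| ≤ 4 * (δ / sep) := by
        have a1 : |((T i).v 1 - (T i0).v 1) + ((T i').v 1 - (T i0).v 1)| ≤ 4 :=
          four_bound hv.1 hv'.1 hv0.1
        have a2 := abs_mul_le hsd a1
        rw [abs_div, abs_of_pos (by norm_num : (0 : ℝ) < 2), div_le_iff₀ (by norm_num)]
        rw [e2] at a2
        refine a2.trans (le_of_eq ?_)
        ring
      have id : (T i).v 2 - ((T i0).v 2 + E i0 * ((T i).v 1 - (T i0).v 1) -
          s0 * ((T i).v 1 - (T i0).v 1) ^ 2 / 2) =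
          ((T i').v 2 - ((T i0).v 2 + E i0 * ((T i').v 1 - (T i0).v 1) -
          s0 * ((T i').v 1 - (T i0).v 1) ^ 2 / 2)) + ((T i).v 2 - (T i').v 2) -
          E i0 * ((T i).v 1 - (T i').v 1) +
          s0 * ((T i).v 1 - (T i').v 1) * (((T i).v 1 - (T i0).v 1) +
            ((T i').v 1 - (T i0).v 1)) / 2 := by ring
      rw [id]
      rw [e3] at c2
      exact fin_bound2 c2 d2 hE0 hq hδs hηs hδrs hηs0

/-- **MIRRORED LIGHTLIKE**: `E = 0` on the class and `C_b` spread: impossible for small `η`. -/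
theorem mirror (hκ : 0 < κ) (hδ : 0 ≤ δ) {lm lm0 r a Kf sep : ℝ} (hlm : |lam| ≤ lm)
    (hlm0 : 0 < lm0) (hlm0' : lm0 ≤ |lam|) (hr : 0 < r) (hδr : δ ≤ r) (her : e ≤ r)
    (hlr : lm * δ ≤ r) (ha0 : 0 ≤ a) (ha1 : a < 1) (hKf : 0 ≤ Kf)
    (hLs : Ls.Nonempty) (hn0 : 0 < n) (hE : ∀ i ∈ Ls, E i = 0)
    (hcount : κ * ((pts al pos Ls).card : ℝ) * ((Ls.image dir).card : ℝ) ≤ n * (Ls.card : ℝ))
    (hconc : ∀ i ∈ Ls, (((Ls.filter fun j => |(T j).v 2 - (T i).v 2| ≤ sep).image dir).card : ℝ) ≤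
      (κ ^ 2 / B) ^ 3 / 4 * ((Ls.image dir).card : ℝ))
    (hfib : ThinFib T Ls al dir δ h r a Kf)
    (hn : 256 * (B : ℝ) ^ 3 ≤ (κ ^ 7 / (2 * B ^ 4)) ^ 3 * n)
    (hn2 : 256 * (B : ℝ) ^ 3 * (Kf * (16 * lm / r + 382) ^ a) < κ * (κ ^ 7 / (2 * B ^ 4)) ^ 3 * n) :
    2 * sep < etaR κ B Kf (n * h) r a lm0 := by
  classical
  obtain ⟨hBpos, hPne⟩ := D.posNB hκ hLs hn0
  have hX0 := fun i0 (hi0 : i0 ∈ Ls) j0 (hj0 : j0 ∈ Ls) => D.xc_le hκ hδ hlm hlm0 hlm0' hr hδr her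
    hlr ha0 ha1 hKf hn0 hfib hn hn2 hi0 hj0
  obtain ⟨l0, hl0⟩ := hLs
  have hκ1p : 0 < κ ^ 2 / (B : ℝ) := by positivity
  set Γ := Ls.image dir with hΓ
  set P := pts al pos Ls with hP
  have hrep : ∀ g ∈ Γ, ∃ i ∈ Ls, dir i = g := fun g hg => mem_image.1 hg
  have : Nonempty ι := ⟨l0⟩
  choose! rep hrep1 hrep2 using hrep
  have hΓne : Γ.Nonempty := ⟨dir l0, mem_image_of_mem _ hl0⟩
  have hsubP : ∀ g ∈ Γ, pts al pos (cls Ls dir g) ⊆ P := fun g _ => D.pts_cls_sub g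
  have hsum := D.sum_pts hκ hBpos hcount
  have hsepΓ : ∀ g ∈ Γ, ((Γ.filter fun g' => |(T (rep g')).v 2 - (T (rep g)).v 2| ≤ sep).card : ℝ) ≤
      (κ ^ 2 / (B : ℝ)) ^ 3 / 4 * Γ.card := by
    intro g hg
    refine le_trans ?_ (hconc (rep g) (hrep1 g hg))
    have hs : (Γ.filter fun g' => |(T (rep g')).v 2 - (T (rep g)).v 2| ≤ sep) ⊆
        (Ls.filter fun j => |(T j).v 2 - (T (rep g)).v 2| ≤ sep).image dir := by
      intro g' hg'
      rw [mem_filter] at hg'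
      exact mem_image.2 ⟨rep g', mem_filter.2 ⟨hrep1 g' hg'.1, hg'.2⟩, hrep2 g' hg'.1⟩
    exact_mod_cast card_le_card hs
  obtain ⟨i, hi, j, hj, hij, hcard⟩ := exists_frame Γ P (fun g => pts al pos (cls Ls dir g))
    (fun g => (T (rep g)).v 2) (κ ^ 2 / (B : ℝ)) sep hκ1p hPne hΓne hsubP hsum hsepΓ
  -- the pair `i, j` is dense
  have hΓpos : (0 : ℝ) < Γ.card := by exact_mod_cast hΓne.card_pos
  have hne : (Γ.filter fun l => (κ ^ 2 / (B : ℝ)) ^ 3 / 2 * (P.card : ℝ) ≤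
      ((pts al pos (cls Ls dir i) ∩ pts al pos (cls Ls dir j) ∩
        pts al pos (cls Ls dir l)).card : ℝ)).Nonempty := by
    rw [← card_pos]
    have h1 : (0 : ℝ) < (κ ^ 2 / (B : ℝ)) ^ 3 / 4 * Γ.card := by positivity
    exact_mod_cast lt_of_lt_of_le h1 hcard
  obtain ⟨l, hl⟩ := hne
  have hdense : (κ ^ 2 / (B : ℝ)) ^ 3 / 2 * (P.card : ℝ) ≤
      ((pts al pos (cls Ls dir i) ∩ pts al pos (cls Ls dir j)).card : ℝ) :=
    (mem_filter.1 hl).2.trans (by exact_mod_cast card_le_card inter_subset_left)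
  have h1 := hX0 _ (hrep1 i hi) _ (hrep1 j hj)
  rw [hrep2 i hi, hrep2 j hj] at h1
  have h2 := h1 hdense
  unfold Xc at h2
  rw [hE _ (hrep1 i hi), hE _ (hrep1 j hj), add_zero, zero_mul, sub_zero, abs_mul,
    abs_of_pos (by norm_num : (0 : ℝ) < 2)] at h2
  linarith

end RigData

end Crest.Agent.R136.Wk323
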