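import Crest.Agent.R136.WkG_626

/-!
# R136 (S0187): RIG wrapper, HEIGHTS (Z1) (helper323)

`heights_fin` : one actual height per mesh cell of mesh `h`, in one window `[z* + n h, z* + 2 n h)`;
`exists_heights` : the same for a relative model with full (`σ = 1`) heights.
-/

set_option autoImplicit false
set_option linter.unusedVariables false

open Filter Topology Finset

namespace Crest.Agent.R136.Wk323

open Crest.Agent.R136.Sh605
open Crest.Agent.R138.Ex926 (Base U)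
open Crest.Agent.R136.Gf356

/-- **one actual height per mesh cell** -/
theorem heights_fin {ι : Type*} (L : Finset ι) (Z : Finset ℕ) (al : ι → ℕ → Prop)
    [∀ l k, Decidable (al l k)] (z : ℕ → ℝ)
    {h κ : ℝ} {n : ℕ} (hn0 : 0 < n) (hh : 0 < h) (hκ : 0 < κ) (hn : 1 < (n + 1) * h)
    (hZ : Z.Nonempty) (hz : ∀ k ∈ Z, |z k| ≤ 1)
    (hsl : ∀ k ∈ Z, κ * (L.card : ℝ) ≤ ((L.filter fun l => al l k).card : ℝ))
    (hfr : ∀ k ∈ Z, κ * n * ((Z.filter fun k' => |z k' - z k| ≤ h).card : ℝ) ≤ (Z.card : ℝ)) :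
    ∃ w : ℤ, |(w : ℝ)| ≤ 3 ∧ ∃ kst : ℤ → ℕ, ∃ Lg ⊆ L, κ / 8 * (L.card : ℝ) ≤ (Lg.card : ℝ) ∧
      ∀ l ∈ Lg, κ ^ 2 / 8 * n ≤ (((Finset.Ico (n : ℤ) (2 * n)).filter fun g =>
        kst g ∈ Z ∧ al l (kst g) ∧ |z (kst g) - (w * (n * h) + g * h)| ≤ h).card : ℝ) := by
  set S := Z.image fun k => ⌊z k / h⌋ with hS
  have hrep : ∀ s ∈ S, ∃ k ∈ Z, ⌊z k / h⌋ = s := fun s hs => mem_image.1 hs
  choose! k0 hk0Z hk0s using hrep
  have hnR : (0 : ℝ) < n := by exact_mod_cast hn0
  -- positions of the cells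
  have hpos : ∀ s ∈ S, |z (k0 s) - s * h| ≤ h := by
    intro s hs
    have h1 := hk0s s hs
    have h2 := Int.floor_le (z (k0 s) / h)
    have h3 := Int.lt_floor_add_one (z (k0 s) / h)
    rw [h1] at h2 h3
    rw [le_div_iff₀ hh] at h2
    rw [div_lt_iff₀ hh] at h3
    rw [abs_le]
    constructor <;> linarith
  -- number of cells
  have hcardS : κ * n ≤ (S.card : ℝ) := by
    have h1 : (Z.card : ℝ) = ∑ s ∈ S, ((Z.filter fun k => ⌊z k / h⌋ = s).card : ℝ) := by
      have := card_eq_sum_card_fiberwise (s := Z) (t := S) (f := fun k => ⌊z k / h⌋)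
        (fun i hi => mem_image_of_mem _ hi)
      rw [this]
      push_cast
      rfl
    have h2 : ∀ s ∈ S, κ * n * ((Z.filter fun k => ⌊z k / h⌋ = s).card : ℝ) ≤ (Z.card : ℝ) := by
      intro s hs
      refine le_trans ?_ (hfr (k0 s) (hk0Z s hs))
      refine mul_le_mul_of_nonneg_left ?_ (by positivity)
      refine mod_cast card_le_card ?_
      intro k hk
      rw [mem_filter] at hk ⊢
      refine ⟨hk.1, ?_⟩
      have h3 : ⌊z k / h⌋ = ⌊z (k0 s) / h⌋ := by rw [hk.2, hk0s s hs]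
      have := floor_close hh h3
      rwa [abs_sub_comm] at this
    have hZ0 : (0 : ℝ) < Z.card := by exact_mod_cast hZ.card_pos
    have h3 : κ * n * (Z.card : ℝ) ≤ S.card * (Z.card : ℝ) := by
      calc κ * n * (Z.card : ℝ) = ∑ s ∈ S, κ * n * ((Z.filter fun k => ⌊z k / h⌋ = s).card : ℝ) := by
            rw [← mul_sum, ← h1]
        _ ≤ ∑ _s ∈ S, (Z.card : ℝ) := sum_le_sum h2
        _ = _ := by rw [sum_const, nsmul_eq_mul]
    exact le_of_mul_le_mul_right h3 hZ0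
  have hS0 : (0 : ℝ) < S.card := lt_of_lt_of_le (by positivity) hcardS
  -- windows
  have hwin : ∀ s ∈ S, s / (n : ℤ) ∈ Finset.Icc (-2 : ℤ) 1 := by
    intro s hs
    have h1 := hz _ (hk0Z s hs)
    rw [abs_le] at h1
    have h2 := hk0s s hs
    have h3 := Int.floor_le (z (k0 s) / h)
    have h4 := Int.lt_floor_add_one (z (k0 s) / h)
    rw [h2] at h3 h4
    rw [le_div_iff₀ hh] at h3
    rw [div_lt_iff₀ hh] at h4
    have h5 : (s : ℝ) < n + 1 := by
      have : (s : ℝ) * h < (n + 1) * h := by linarith [h1.2]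
      exact lt_of_mul_lt_mul_right this hh.le
    have h6 : -((n : ℝ) + 2) < s := by
      have : -((n : ℝ) + 1) * h < (s + 1) * h := by linarith [h1.1]
      have := lt_of_mul_lt_mul_right this hh.le
      linarith
    have h7 : s < (n : ℤ) + 1 := by exact_mod_cast h5
    have h8 : -((n : ℤ) + 2) < s := by exact_mod_cast h6
    have hnZ : (0 : ℤ) < n := by exact_mod_cast hn0
    rw [Finset.mem_Icc]
    constructor
    · rw [Int.le_ediv_iff_mul_le hnZ]
      have : (1 : ℤ) ≤ n := hnZ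
      omega
    · rw [← Int.lt_add_one_iff, Int.ediv_lt_iff_lt_mul hnZ]
      have : (1 : ℤ) ≤ n := hnZ
      omega
  -- the popular window
  have htot : κ * (S.card : ℝ) * (L.card : ℝ) ≤ ∑ w ∈ Finset.Icc (-2 : ℤ) 1,
      ∑ s ∈ S.filter fun s => s / (n : ℤ) = w, ((L.filter fun l => al l (k0 s)).card : ℝ) := by
    rw [sum_fiberwise_of_maps_to hwin]
    calc κ * (S.card : ℝ) * (L.card : ℝ) = ∑ _s ∈ S, κ * (L.card : ℝ) := by
          rw [sum_const, nsmul_eq_mul]; ring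
      _ ≤ _ := sum_le_sum fun s hs => hsl _ (hk0Z s hs)
  obtain ⟨w, hw, hww⟩ : ∃ w ∈ Finset.Icc (-2 : ℤ) 1, κ * (S.card : ℝ) * (L.card : ℝ) / 4 ≤
      ∑ s ∈ S.filter fun s => s / (n : ℤ) = w, ((L.filter fun l => al l (k0 s)).card : ℝ) := by
    by_contra hcon
    push Not at hcon
    have := sum_lt_sum_of_nonempty (s := Finset.Icc (-2 : ℤ) 1) ⟨0, by decide⟩ hcon
    rw [sum_const] at this
    have hc : (Finset.Icc (-2 : ℤ) 1).card = 4 := by decide
    rw [hc, nsmul_eq_mul] at this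
    push_cast at this
    linarith
  set Sw := S.filter fun s => s / (n : ℤ) = w with hSw
  -- double count
  have hdc : ∑ s ∈ Sw, ((L.filter fun l => al l (k0 s)).card : ℝ) =
      ∑ l ∈ L, ((Sw.filter fun s => al l (k0 s)).card : ℝ) := by
    have := sum_card_bipartiteAbove_eq_sum_card_bipartiteBelow (s := Sw) (t := L)
      (fun s l => al l (k0 s))
    exact_mod_cast this
  rw [hdc] at hww
  have hale : ∀ l, ((Sw.filter fun s => al l (k0 s)).card : ℝ) ≤ S.card := by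
    intro l
    exact_mod_cast card_le_card ((filter_subset _ _).trans (filter_subset _ _))
  set Lg := L.filter fun l => κ / 8 * (S.card : ℝ) ≤ ((Sw.filter fun s => al l (k0 s)).card : ℝ)
    with hLg
  have hLgc : κ / 8 * (L.card : ℝ) ≤ (Lg.card : ℝ) := by
    have h1 := sum_filter_add_sum_filter_not L
      (fun l => κ / 8 * (S.card : ℝ) ≤ ((Sw.filter fun s => al l (k0 s)).card : ℝ))
      (fun l => ((Sw.filter fun s => al l (k0 s)).card : ℝ))
    rw [← h1] at hww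
    have h2 : ∑ l ∈ Lg, ((Sw.filter fun s => al l (k0 s)).card : ℝ) ≤ Lg.card * (S.card : ℝ) := by
      calc _ ≤ ∑ _l ∈ Lg, (S.card : ℝ) := sum_le_sum fun l _ => hale l
        _ = _ := by rw [sum_const, nsmul_eq_mul]
    have h3 : ∑ l ∈ L.filter fun l => ¬ (κ / 8 * (S.card : ℝ) ≤
        ((Sw.filter fun s => al l (k0 s)).card : ℝ)), ((Sw.filter fun s => al l (k0 s)).card : ℝ) ≤
        κ / 8 * (S.card : ℝ) * (L.card : ℝ) := by
      calc _ ≤ ∑ _l ∈ L.filter fun l => ¬ (κ / 8 * (S.card : ℝ) ≤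
          ((Sw.filter fun s => al l (k0 s)).card : ℝ)), κ / 8 * (S.card : ℝ) := by
            refine sum_le_sum fun l hl => ?_
            exact (not_le.1 (mem_filter.1 hl).2).le
        _ = ((L.filter fun l => ¬ (κ / 8 * (S.card : ℝ) ≤
          ((Sw.filter fun s => al l (k0 s)).card : ℝ))).card : ℝ) * (κ / 8 * (S.card : ℝ)) := by
            rw [sum_const, nsmul_eq_mul]
        _ ≤ (L.card : ℝ) * (κ / 8 * (S.card : ℝ)) := by
            refine mul_le_mul_of_nonneg_right ?_ (by positivity)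
            exact_mod_cast card_le_card (filter_subset _ _)
        _ = _ := by ring
    have h4 : κ / 8 * (L.card : ℝ) * (S.card : ℝ) ≤ Lg.card * (S.card : ℝ) := by linarith
    exact le_of_mul_le_mul_right h4 hS0
  refine ⟨w - 1, ?_, fun g => k0 (g + (w - 1) * n), Lg, filter_subset _ _, hLgc, ?_⟩
  · rw [Finset.mem_Icc] at hw
    have h1 : (-2 : ℝ) ≤ w := by exact_mod_cast hw.1
    have h2 : (w : ℝ) ≤ 1 := by exact_mod_cast hw.2
    push_cast
    rw [abs_le]
    constructor <;> linarith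
  · intro l hl
    have h1 := (mem_filter.1 hl).2
    have h2 : κ ^ 2 / 8 * n ≤ ((Sw.filter fun s => al l (k0 s)).card : ℝ) := by
      refine le_trans ?_ h1
      calc κ ^ 2 / 8 * n = κ / 8 * (κ * n) := by ring
        _ ≤ κ / 8 * S.card := mul_le_mul_of_nonneg_left hcardS (by positivity)
    refine h2.trans ?_
    have h3 : (Sw.filter fun s => al l (k0 s)).card ≤
        ((Finset.Ico (n : ℤ) (2 * n)).filter fun g => k0 (g + (w - 1) * n) ∈ Z ∧
          al l (k0 (g + (w - 1) * n)) ∧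
          |z (k0 (g + (w - 1) * n)) - (((w - 1 : ℤ) : ℝ) * (n * h) + g * h)| ≤ h).card := by
      refine card_le_card_of_injOn (fun s => s - (w - 1) * n) ?_ ?_
      · intro s hs
        rw [mem_coe, mem_filter, hSw, mem_filter] at hs
        obtain ⟨⟨hsS, hsw⟩, hsal⟩ := hs
        have hnZ : (0 : ℤ) < n := by exact_mod_cast hn0
        have e0 : s - (w - 1) * n + (w - 1) * n = s := by ring
        have e1 := Int.mul_ediv_add_emod s n
        have e2 := Int.emod_nonneg s hnZ.ne'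
        have e3 := Int.emod_lt_of_pos s hnZ
        rw [hsw] at e1
        simp only [coe_filter, Set.mem_ofPred_eq, Finset.mem_Ico, e0]
        refine ⟨⟨?_, ?_⟩, hk0Z s hsS, hsal, ?_⟩
        · nlinarith
        · nlinarith
        · have := hpos s hsS
          have e4 : (((w - 1 : ℤ) : ℝ) * (n * h) + ((s - (w - 1) * n : ℤ) : ℝ) * h) = s * h := by
            push_cast; ring
          rw [e4]
          exact this
      · intro s _ s' _ hss
        simp only at hss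
        linarith
    exact_mod_cast h3

/-- absorbing constants -/
theorem ev_abs (B : Base) {s t : ℝ} (h : t < s) (c : ℝ) :
    ∀ᶠ n in (U : Filter ℕ), c * B.d n ^ s ≤ B.d n ^ t := by
  filter_upwards [ev_const_le B (sub_pos.2 h) c] with n hn
  have e : B.d n ^ t = B.d n ^ (-(s - t)) * B.d n ^ s := by
    rw [← rpow_add']; congr 1; ring
  rw [e]
  exact mul_le_mul_of_nonneg_right hn (rpos B n s).le

/-- number of mesh heights -/
noncomputable def Nn (B : Base) (x : ℝ) (n : ℕ) : ℕ := ⌊B.d n ^ (-x)⌋₊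

theorem Nn_mul_le (B : Base) (x : ℝ) (n : ℕ) : (Nn B x n : ℝ) * B.d n ^ x ≤ 1 := by
  have h1 := Nat.floor_le (rpos B n (-x)).le
  calc (Nn B x n : ℝ) * B.d n ^ x ≤ B.d n ^ (-x) * B.d n ^ x :=
        mul_le_mul_of_nonneg_right h1 (rpos B n x).le
    _ = 1 := by rw [← rpow_add', neg_add_cancel, Real.rpow_zero]

theorem lt_Nn_mul (B : Base) (x : ℝ) (n : ℕ) : 1 < ((Nn B x n : ℝ) + 1) * B.d n ^ x := by
  have h1 := Nat.lt_floor_add_one (B.d n ^ (-x))
  calc (1 : ℝ) = B.d n ^ (-x) * B.d n ^ x := by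
        rw [← rpow_add', neg_add_cancel, Real.rpow_zero]
    _ < _ := mul_lt_mul_of_pos_right h1 (rpos B n x)

theorem Nn_pos (B : Base) {x : ℝ} (hx : 0 ≤ x) (n : ℕ) : 0 < Nn B x n := by
  unfold Nn
  rw [Nat.floor_pos]
  exact Real.one_le_rpow_of_pos_of_le_one_of_nonpos (B.pos n) (B.lt n).le (by linarith)

/-- `N ≥ ρ^(-x) / 2` -/
theorem half_le_Nn (B : Base) {x : ℝ} (hx : 0 ≤ x) (n : ℕ) : B.d n ^ (-x) ≤ 2 * (Nn B x n : ℝ) := by
  have h1 := Nat.lt_floor_add_one (B.d n ^ (-x))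
  have h2 : (1 : ℝ) ≤ (Nn B x n : ℝ) := by exact_mod_cast Nn_pos B hx n
  have h3 : B.d n ^ (-x) < (Nn B x n : ℝ) + 1 := h1
  linarith

/-- **(Z1)** one actual height per mesh cell of mesh `ρ^x` -/
theorem exists_heights {B : Base} {G : ℕ → RCfg (Fin 11)} {Leg : Set (Fin 11 → ℝ)}
    {ν : (Fin 11 → ℝ) → ℝ} {D R x : ℝ} (H : RModel B G 1 R Leg ν D) (hx : 0 < x) (hxR : x ≤ R)
    (hz : ∀ᶠ n in (U : Filter ℕ), ∀ l k, (l, k) ∈ (G n).I → |(G n).z k| ≤ 1) {ε : ℝ} (hε : 0 < ε) :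
    ∀ᶠ n in (U : Filter ℕ), ∃ w : ℤ, |(w : ℝ)| ≤ 3 ∧ ∃ kst : ℤ → ℕ, ∃ Lg ⊆ (G n).L,
      B.d n ^ ε * ((G n).L.card : ℝ) ≤ (Lg.card : ℝ) ∧
      ∀ l ∈ Lg, B.d n ^ ε * (Nn B x n : ℝ) ≤
        (((Finset.Ico (Nn B x n : ℤ) (2 * Nn B x n)).filter fun g => (l, kst g) ∈ (G n).I ∧
          |(G n).z (kst g) - (w * (Nn B x n * B.d n ^ x) + g * B.d n ^ x)| ≤ B.d n ^ x).card : ℝ) := by
  have hε4 : 0 < ε / 4 := by linarith
  have hε8 : 0 < ε / 8 := by linarith
  filter_upwards [H.slice (ε / 4) hε4, H.frost x hx.le hxR (ε / 8) hε8, hz,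
    ev_abs B (show ε / 2 < ε by linarith) 8, ev_abs B (show ε / 4 < ε by linarith) 8]
    with n h1 h2 h3 h4 h5
  obtain ⟨⟨i1, k1⟩, hI1⟩ := H.nonempty n
  have hZne : (G n).Z.Nonempty := ⟨k1, H.memZ hI1⟩
  have hL0 : (0 : ℝ) < (G n).L.card := by
    exact_mod_cast (Finset.card_pos.2 ⟨i1, H.memL hI1⟩)
  have hpow : ∀ t : ℝ, 0 < B.d n ^ t := fun t => rpos B n t
  obtain ⟨w, hw, kst, Lg, hLg, hLgc, hal⟩ := heights_fin (G n).L (G n).Z
    (fun l k => (l, k) ∈ (G n).I) (G n).z (h := B.d n ^ x) (κ := B.d n ^ (ε / 4)) (n := Nn B x n)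
    (Nn_pos B hx.le n) (hpow x) (hpow _) (lt_Nn_mul B x n) hZne (by
      intro k hk
      have h6 : (0 : ℝ) < (((G n).slice k).card : ℝ) :=
        lt_of_lt_of_le (mul_pos (hpow _) hL0) (h1 k hk)
      have h7 : ((G n).slice k).Nonempty := by
        rw [← Finset.card_pos]; exact_mod_cast h6
      obtain ⟨l, hl⟩ := h7
      exact h3 l k (H.memSlice.1 hl)) (by
      intro k hk
      exact h1 k hk) (by
      intro k hk
      have h6 := h2 k hk
      have h7 : (((G n).Z.filter fun k' => |(G n).z k' - (G n).z k| ≤ B.d n ^ x).card : ℝ) ≤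
          B.d n ^ (1 * x - ε / 8) * ((G n).Z.card : ℝ) := by
        refine le_trans (le_of_eq ?_) h6
        unfold RCfg.hbox
        rw [H.base n]
      have hZ0 : (0 : ℝ) ≤ ((G n).Z.card : ℝ) := Nat.cast_nonneg _
      have e1 : B.d n ^ (1 * x - ε / 8) = B.d n ^ x * B.d n ^ (-(ε / 8)) := by
        rw [← rpow_add']; congr 1; ring
      have e2 : B.d n ^ (ε / 4) * B.d n ^ (-(ε / 8)) ≤ 1 := by
        rw [← rpow_add']
        exact Real.rpow_le_one (B.pos n).le (B.lt n).le (by linarith)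
      have e3 := Nn_mul_le B x n
      have e4 : 0 ≤ (Nn B x n : ℝ) * B.d n ^ x := mul_nonneg (Nat.cast_nonneg _) (hpow _).le
      calc B.d n ^ (ε / 4) * (Nn B x n : ℝ) *
            (((G n).Z.filter fun k' => |(G n).z k' - (G n).z k| ≤ B.d n ^ x).card : ℝ)
          ≤ B.d n ^ (ε / 4) * (Nn B x n : ℝ) * (B.d n ^ (1 * x - ε / 8) * ((G n).Z.card : ℝ)) := by
            refine mul_le_mul_of_nonneg_left h7 ?_
            exact mul_nonneg (hpow _).le (Nat.cast_nonneg _)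
        _ = (B.d n ^ (ε / 4) * B.d n ^ (-(ε / 8))) * ((Nn B x n : ℝ) * B.d n ^ x) *
              ((G n).Z.card : ℝ) := by rw [e1]; ring
        _ ≤ 1 * 1 * ((G n).Z.card : ℝ) := by
            refine mul_le_mul_of_nonneg_right ?_ hZ0
            exact mul_le_mul e2 e3 e4 (by norm_num)
        _ = _ := by ring)
  refine ⟨w, hw, kst, Lg, hLg, ?_, ?_⟩
  · refine le_trans ?_ hLgc
    refine mul_le_mul_of_nonneg_right ?_ hL0.le
    linarith
  · intro l hl
    have h6 := hal l hl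
    refine le_trans ?_ (h6.trans ?_)
    · refine mul_le_mul_of_nonneg_right ?_ (Nat.cast_nonneg _)
      have e1 : (B.d n ^ (ε / 4)) ^ 2 = B.d n ^ (ε / 2) := by
        rw [sq, ← rpow_add']; congr 1; ring
      rw [e1]
      linarith
    · refine mod_cast card_le_card ?_
      intro g hg
      rw [mem_filter] at hg ⊢
      exact ⟨hg.1, hg.2.2.1, hg.2.2.2⟩

end Crest.Agent.R136.Wk323
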