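import Crest.Agent.R136.Wk6_323

/-!
# R136 (S0187): RIG wrapper, from one configuration to `RigData` (helper323)

`ARel` : one configuration in absolute coordinates (at a fixed number `n`);
`rigData_of`, `thinFib_of` : the data of the walk lemma.
-/

set_option autoImplicit false
set_option linter.unusedVariables false

open Finset

namespace Crest.Agent.R136.Wk323

open Crest.Agent.R136.Sh605
open Crest.Agent.R136.Gf356

/-- one configuration in absolute coordinates, error `δ`, no affine relation -/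
structure ARel0 (I : Finset (ℕ × ℕ)) (z : ℕ → ℝ) (T : ℕ → Ln4) (E : ℕ → ℝ) (fa : ℕ → ℕ → ℝ)
    (fb : ℕ → ℝ) (δ : ℝ) (Fc : ℕ → ℝ) : Prop where
  z1 : ∀ l k, (l, k) ∈ I → |z k| ≤ 1
  v1 : ∀ l k, (l, k) ∈ I → ∀ j, |(T l).v j| ≤ 1
  E1 : ∀ l k, (l, k) ∈ I → |E l| ≤ 1
  fa1 : ∀ l k, (l, k) ∈ I → |fa l k| ≤ 1
  fb1 : ∀ l k, (l, k) ∈ I → |fb k| ≤ 1
  own : ∀ l k k', (l, k) ∈ I → (l, k') ∈ I → |fa l k' - fa l k + E l * (fb k' - fb k)| ≤ δ
  Fc : ∀ l k, (l, k) ∈ I → |Fc l - (fa l k + E l * fb k)| ≤ δ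

/-- one configuration in absolute coordinates, error `δ` -/
structure ARel (I : Finset (ℕ × ℕ)) (z : ℕ → ℝ) (T : ℕ → Ln4) (E : ℕ → ℝ) (fa : ℕ → ℕ → ℝ)
    (fb : ℕ → ℝ) (mu be δ : ℝ) (Fc : ℕ → ℝ) : Prop extends ARel0 I z T E fa fb δ Fc where
  aff : ∀ l k, (l, k) ∈ I → |fb k - be - mu * z k| ≤ δ

/-- smaller incidence sets -/
theorem ARel0.mono {I I' : Finset (ℕ × ℕ)} {z : ℕ → ℝ} {T : ℕ → Ln4} {E : ℕ → ℝ}
    {fa : ℕ → ℕ → ℝ} {fb : ℕ → ℝ} {δ : ℝ} {Fc : ℕ → ℝ} (A : ARel0 I z T E fa fb δ Fc)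
    (h : I' ⊆ I) : ARel0 I' z T E fa fb δ Fc where
  z1 := fun l k hl => A.z1 l k (h hl)
  v1 := fun l k hl => A.v1 l k (h hl)
  E1 := fun l k hl => A.E1 l k (h hl)
  fa1 := fun l k hl => A.fa1 l k (h hl)
  fb1 := fun l k hl => A.fb1 l k (h hl)
  own := fun l k k' hl hl' => A.own l k k' (h hl) (h hl')
  Fc := fun l k hl => A.Fc l k (h hl)

/-- the line moved by `c` in height -/
def shf (c : ℝ) (T : Ln4) : Ln4 where
  p := fun i => T.p i + c * T.v i
  v := T.v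

theorem shf_pos (c : ℝ) (T : Ln4) (z : ℝ) (k : Fin 3) : (shf c T).pos z k = T.pos (c + z) k := by
  simp only [shf, Ln4.pos]; ring

/-- alive mesh heights -/
noncomputable def alf (I : Finset (ℕ × ℕ)) (z : ℕ → ℝ) (h : ℝ) (N : ℕ) (w : ℤ) (kst : ℤ → ℕ) (l : ℕ) :
    Finset ℤ :=
  (Finset.Ico (N : ℤ) (2 * N)).filter fun g => (l, kst g) ∈ I ∧
    |z (kst g) - (w * (N * h) + g * h)| ≤ h

theorem mem_alf {I : Finset (ℕ × ℕ)} {z : ℕ → ℝ} {h : ℝ} {N : ℕ} {w : ℤ} {kst : ℤ → ℕ} {l : ℕ}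
    {g : ℤ} : g ∈ alf I z h N w kst l ↔ ((N : ℤ) ≤ g ∧ g < 2 * N) ∧ (l, kst g) ∈ I ∧
      |z (kst g) - (w * (N * h) + g * h)| ≤ h := by
  unfold alf
  rw [mem_filter, Finset.mem_Ico]

/-- positions at a mesh height against positions at the actual height -/
theorem pos_diff (T T' : Ln4) (z z' : ℝ) (k : Fin 3) :
    T'.pos z k - T.pos z k = (T'.pos z' k - T.pos z' k) + (z - z') * (T'.v k - T.v k) := by
  simp only [Ln4.pos]; ring

variable {I : Finset (ℕ × ℕ)} {z : ℕ → ℝ} {T : ℕ → Ln4} {E : ℕ → ℝ} {fa : ℕ → ℕ → ℝ}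
    {fb : ℕ → ℝ} {mu be δ : ℝ} {Fc : ℕ → ℝ}

namespace ARel

variable (A : ARel I z T E fa fb mu be δ Fc)

include A

theorem rigData_of' {h κ eo : ℝ} {N : ℕ} {w : ℤ} {kst : ℤ → ℕ} {Ls : Finset ℕ} (hδ : 0 < δ)
    (hh : 0 < h) (hhδ : h ≤ δ) (hNh : N * h ≤ 1) (heo : 3 * δ + 2 * (|mu| * h) ≤ eo) (hN : 0 < N)
    (hκ : 0 < κ)
    (hinj : ∀ i ∈ Ls, ∀ j ∈ Ls, cellL δ (T i) (E i) (Fc i) = cellL δ (T j) (E j) (Fc j) → i = j)
    (hal : ∀ l ∈ Ls, κ * N ≤ ((alf I z h N w kst l).card : ℝ)) :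
    RigData (fun l => shf (w * (N * h)) (T l)) E (fun l g => fa l (kst g)) (fun _ g => fb (kst g))
      Ls (fun l => alf I z h N w kst l)
      (fun l g => posL δ (T l) (fa l (kst g)) (fb (kst g)) (z (kst g)))
      (fun l => dirL δ (T l) (E l)) N (13 ^ 8) κ (3 * δ) eo h mu where
  hts := fun i _ k hk => (mem_alf.1 hk).1
  alive := hal
  mult := by
    intro i hi k hk
    have hI := (mem_alf.1 hk).2.1
    refine cell_mult _ T E Fc (fun l => fa l (kst k)) (fb := fb (kst k)) (z := z (kst k)) hδ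
      (A.z1 _ _ hI) (A.fb1 _ _ hI) ?_ ?_ ?_ ?_ ?_ ?_
    · intro j hj
      exact A.v1 _ _ (mem_alf.1 (mem_filter.1 hj).2.2.1).2.1 1
    · intro j hj
      exact A.fa1 _ _ (mem_alf.1 (mem_filter.1 hj).2.2.1).2.1
    · intro j hj
      exact A.Fc _ _ (mem_alf.1 (mem_filter.1 hj).2.2.1).2.1
    · intro j hj j' hj'
      exact hinj j (mem_filter.1 hj).1 j' (mem_filter.1 hj').1
    · intro j hj j' hj'
      exact (mem_filter.1 hj).2.2.2.trans (mem_filter.1 hj').2.2.2.symm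
    · intro j hj j' hj'
      exact (mem_filter.1 hj).2.1.trans (mem_filter.1 hj').2.1.symm
  hpos := hh
  hle := hNh
  near := by
    intro i hi j hj k hki hkj hp
    have hm0 : 0 ≤ |mu| * h := by positivity
    obtain ⟨-, hIi, hzi⟩ := mem_alf.1 hki
    obtain ⟨-, hIj, -⟩ := mem_alf.1 hkj
    obtain ⟨h1, h2, h3⟩ := posL_near hδ (A.v1 _ _ hIj 1) hp
    refine ⟨?_, ?_, ?_, ?_⟩
    · intro m
      rw [shf_pos, shf_pos, pos_diff _ _ _ (z (kst k))]
      have e1 := h1 m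
      have e2 : |(T j).v m - (T i).v m| ≤ 2 := by
        have := abs_sub ((T j).v m) ((T i).v m)
        have := A.v1 _ _ hIj m
        have := A.v1 _ _ hIi m
        linarith
      have e3 : |(w * (N * h) + k * h) - z (kst k)| ≤ h := by rw [abs_sub_comm]; exact hzi
      have e4 := abs_mul_le e3 e2
      refine (abs_add_le _ _).trans ?_
      linarith
    · have e : Pd (shf (w * (N * h)) (T i)) (shf (w * (N * h)) (T j)) (fa i (kst k)) (fb (kst k)) =
          Pd (T i) (T j) (fa i (kst k)) (fb (kst k)) := rfl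
      rw [e]
      linarith
    · exact h3.trans (by linarith)
    · rw [sub_self, abs_zero]; linarith
  bdd := by
    intro i hi k hk
    have hI := (mem_alf.1 hk).2.1
    exact ⟨A.fa1 _ _ hI, A.fb1 _ _ hI⟩
  own := by
    intro i hi k hk k' hk'
    have hm0 : 0 ≤ |mu| * h := by positivity
    obtain ⟨-, hI, hz⟩ := mem_alf.1 hk
    obtain ⟨-, hI', hz'⟩ := mem_alf.1 hk'
    have o := A.own _ _ _ hI hI'
    have a1 := A.aff _ _ hI
    have a2 := A.aff _ _ hI'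
    have hE := A.E1 _ _ hI
    have b1 : |mu * ((z (kst k') - (w * (N * h) + k' * h)) - (z (kst k) - (w * (N * h) + k * h)))| ≤
        2 * (|mu| * h) := by
      rw [abs_mul]
      have : |(z (kst k') - (w * (N * h) + k' * h)) - (z (kst k) - (w * (N * h) + k * h))| ≤ 2 * h :=
        (abs_sub _ _).trans (by linarith)
      have h2 := mul_le_mul_of_nonneg_left this (abs_nonneg mu)
      linarith
    have b2 : |fb (kst k') - fb (kst k) - mu * (((k' : ℝ) - k) * h)| ≤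
        2 * δ + 2 * (|mu| * h) := by
      have e : fb (kst k') - fb (kst k) - mu * (((k' : ℝ) - k) * h) =
          (fb (kst k') - be - mu * z (kst k')) - (fb (kst k) - be - mu * z (kst k)) +
          mu * ((z (kst k') - (w * (N * h) + k' * h)) - (z (kst k) - (w * (N * h) + k * h))) := by
        ring
      rw [e]
      refine (abs_add_le _ _).trans ?_
      have := abs_sub (fb (kst k') - be - mu * z (kst k')) (fb (kst k) - be - mu * z (kst k))
      linarith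
    refine ⟨?_, b2.trans (by linarith)⟩
    have e : fa i (kst k') - fa i (kst k) + mu * E i * (((k' : ℝ) - k) * h) =
        (fa i (kst k') - fa i (kst k) + E i * (fb (kst k') - fb (kst k))) -
          E i * (fb (kst k') - fb (kst k) - mu * (((k' : ℝ) - k) * h)) := by ring
    rw [e]
    have b3 := abs_mul_le hE b2
    refine (abs_sub _ _).trans ?_
    linarith
  vel := by
    intro i hi
    have hne : (alf I z h N w kst i).Nonempty := by
      rw [← card_pos]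
      have h1 := hal i hi
      have hNp : (0 : ℝ) < N := by exact_mod_cast hN
      have h2 : 0 < κ * N := by positivity
      exact_mod_cast lt_of_lt_of_le h2 h1
    obtain ⟨g, hg⟩ := hne
    have hI := (mem_alf.1 hg).2.1
    exact ⟨A.v1 _ _ hI 1, A.v1 _ _ hI 2, A.E1 _ _ hI⟩
  same := by
    intro i hi j hj hd
    obtain ⟨h1, h2, h3⟩ := dirL_near hδ hd
    exact ⟨h1.trans (by linarith), h2.trans (by linarith), h3.trans (by linarith)⟩

theorem rigData_of {h κ : ℝ} {N : ℕ} {w : ℤ} {kst : ℤ → ℕ} {Ls : Finset ℕ} (hδ : 0 < δ)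
    (hh : 0 < h) (hhδ : h ≤ δ) (hNh : N * h ≤ 1) (hmu : |mu| * h ≤ δ) (hN : 0 < N) (hκ : 0 < κ)
    (hinj : ∀ i ∈ Ls, ∀ j ∈ Ls, cellL δ (T i) (E i) (Fc i) = cellL δ (T j) (E j) (Fc j) → i = j)
    (hal : ∀ l ∈ Ls, κ * N ≤ ((alf I z h N w kst l).card : ℝ)) :
    RigData (fun l => shf (w * (N * h)) (T l)) E (fun l g => fa l (kst g)) (fun _ g => fb (kst g))
      Ls (fun l => alf I z h N w kst l)
      (fun l g => posL δ (T l) (fa l (kst g)) (fb (kst g)) (z (kst g)))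
      (fun l => dirL δ (T l) (E l)) N (13 ^ 8) κ (3 * δ) (5 * δ) h mu :=
  A.rigData_of' hδ hh hhδ hNh (by linarith) hN hκ hinj hal

/-- **thin fibres**: from actual heights to mesh heights -/
theorem thinFib_of {h rF a Kf' tol : ℝ} {N : ℕ} {w : ℤ} {kst : ℤ → ℕ} {Ls : Finset ℕ}
    (hδ : 0 < δ) (hh : 0 < h) (hhδ : h ≤ δ) (hrF : 0 < rF) (hrF2 : 2 * h ≤ rF)
    (htol : 56 * δ ≤ tol) (hKf : 0 ≤ Kf') (ha0 : 0 ≤ a) (ha1 : a < 1)
    (hfib : ∀ k, ∀ F : Finset ℕ, (∀ i ∈ F, (i, k) ∈ I) → F.Nonempty →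
      (∀ i ∈ F, ∀ i' ∈ F, ∀ m : Fin 3, m ≠ 0 → |(T i).pos (z k) m - (T i').pos (z k) m| ≤ tol) →
      ∀ R0 : ℝ, rF ≤ R0 →
      (∀ i ∈ F, ∀ i' ∈ F, |(T i).pos (z k) 0 - (T i').pos (z k) 0| ≤ R0) →
      (∀ i ∈ F, ∀ i' ∈ F, i ≠ i' → rF ≤ |(T i).pos (z k) 0 - (T i').pos (z k) 0|) →
      (F.card : ℝ) ≤ Kf' * (R0 / rF) ^ a) :
    RigData.ThinFib (fun l => shf (w * (N * h)) (T l)) Ls (fun l => alf I z h N w kst l)
      (fun l => dirL δ (T l) (E l)) (3 * δ) h (2 * rF) a (4 * Kf') := by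
  intro F hF hne g hal hdir hbase R0 hR0 hup hlow
  have hI : ∀ i ∈ F, (i, kst g) ∈ I := fun i hi => (mem_alf.1 (hal i hi)).2.1
  obtain ⟨i1, hi1⟩ := hne
  have hz := (mem_alf.1 (hal i1 hi1)).2.2
  -- change of height
  have key : ∀ i ∈ F, ∀ i' ∈ F, ∀ m : Fin 3,
      |((T i).pos (z (kst g)) m - (T i').pos (z (kst g)) m) -
        ((shf (w * (N * h)) (T i)).pos (g * h) m - (shf (w * (N * h)) (T i')).pos (g * h) m)| ≤
        2 * h := by
    intro i hi i' hi' m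
    rw [shf_pos, shf_pos, pos_diff (T i') (T i) (z (kst g)) (w * (N * h) + g * h)]
    have e2 : |(T i).v m - (T i').v m| ≤ 2 := by
      have := abs_sub ((T i).v m) ((T i').v m)
      have := A.v1 _ _ (hI i hi) m
      have := A.v1 _ _ (hI i' hi') m
      linarith
    rw [add_sub_cancel_left]
    have := abs_mul_le hz e2
    linarith
  have h1 := hfib (kst g) F hI ⟨i1, hi1⟩ (by
      intro i hi i' hi' m hm
      have e1 := key i hi i' hi' m
      have e2 := hbase i hi i' hi' m hm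
      rw [abs_le] at *
      constructor <;> linarith [e1.1, e1.2, e2.1, e2.2])
    (R0 + 2 * h) (by linarith) (by
      intro i hi i' hi'
      have e1 := key i hi i' hi' 0
      have e2 := hup i hi i' hi'
      rw [abs_le] at *
      constructor <;> linarith [e1.1, e1.2, e2.1, e2.2]) (by
      intro i hi i' hi' hne'
      have e1 := key i hi i' hi' 0
      have e2 : 2 * rF ≤ |(shf (w * (N * h)) (T i)).pos (g * h) 0 -
        (shf (w * (N * h)) (T i')).pos (g * h) 0| := hlow i hi i' hi' hne'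
      generalize (shf (w * (N * h)) (T i)).pos (g * h) 0 -
        (shf (w * (N * h)) (T i')).pos (g * h) 0 = u at e1 e2
      generalize (T i).pos (z (kst g)) 0 - (T i').pos (z (kst g)) 0 = v at e1
      have e3 := abs_sub_abs_le_abs_sub u v
      rw [abs_sub_comm] at e3
      have e4 : |u| - |v| ≤ 2 * h := e3.trans e1
      linarith)
  have hR00 : 0 < R0 := by linarith
  have h2 : (R0 + 2 * h) / rF ≤ 4 * (R0 / (2 * rF)) := by
    rw [mul_div_assoc', div_le_div_iff₀ hrF (by positivity)]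
    nlinarith
  have h3 : ((R0 + 2 * h) / rF) ^ a ≤ 4 * (R0 / (2 * rF)) ^ a := by
    calc ((R0 + 2 * h) / rF) ^ a ≤ (4 * (R0 / (2 * rF))) ^ a :=
          Real.rpow_le_rpow (by positivity) h2 ha0
      _ = 4 ^ a * (R0 / (2 * rF)) ^ a := Real.mul_rpow (by norm_num) (by positivity)
      _ ≤ 4 * (R0 / (2 * rF)) ^ a := by
          refine mul_le_mul_of_nonneg_right ?_ (by positivity)
          calc (4 : ℝ) ^ a ≤ 4 ^ (1 : ℝ) := Real.rpow_le_rpow_of_exponent_le (by norm_num) ha1.le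
            _ = 4 := Real.rpow_one 4
  calc (F.card : ℝ) ≤ Kf' * ((R0 + 2 * h) / rF) ^ a := h1
    _ ≤ Kf' * (4 * (R0 / (2 * rF)) ^ a) := mul_le_mul_of_nonneg_left h3 hKf
    _ = _ := by ring

end ARel

end Crest.Agent.R136.Wk323
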