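import Crest.Agent.R136.Wk7_323
import Crest.Agent.R136.RgN2_344

/-!
# R136 (S0187): RIG wrapper, finite counting for the assembly (helper323)
-/

set_option autoImplicit false
set_option linter.unusedVariables false

open Finset

namespace Crest.Agent.R136.Wk323

open Crest.Agent.R136.Sh605
open Crest.Agent.R136.Gf356

/-- one element per label -/
theorem exists_reps {β : Type*} [DecidableEq β] (Lg : Finset ℕ) (c : ℕ → β) :
    ∃ Ls ⊆ Lg, (∀ i ∈ Ls, ∀ j ∈ Ls, c i = c j → i = j) ∧ (∀ l ∈ Lg, ∃ i ∈ Ls, c i = c l) ∧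
      Ls.card = (Lg.image c).card := by
  classical
  rcases Lg.eq_empty_or_nonempty with rfl | ⟨l0, -⟩
  · exact ⟨∅, by simp, by simp, by simp, by simp⟩
  have hrep : ∀ b ∈ Lg.image c, ∃ i ∈ Lg, c i = b := fun b hb => mem_image.1 hb
  choose! rep h1 h2 using hrep
  refine ⟨(Lg.image c).image rep, ?_, ?_, ?_, ?_⟩
  · intro i hi
    obtain ⟨b, hb, rfl⟩ := mem_image.1 hi
    exact h1 b hb
  · intro i hi j hj hij
    obtain ⟨b, hb, rfl⟩ := mem_image.1 hi
    obtain ⟨b', hb', rfl⟩ := mem_image.1 hj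
    rw [h2 b hb, h2 b' hb'] at hij
    rw [hij]
  · intro l hl
    exact ⟨rep (c l), mem_image_of_mem _ (mem_image_of_mem _ hl), h2 _ (mem_image_of_mem _ hl)⟩
  · refine card_image_of_injOn ?_
    intro b hb b' hb' h
    rw [← h2 b hb, ← h2 b' hb', h]

/-- lines against labels: many lines per label -/
theorem card_le_labels {β : Type*} [DecidableEq β] (F : Finset ℕ) (Z : Finset ℕ)
    (al : ℕ → ℕ → Prop) [∀ i k, Decidable (al i k)] (lab : ℕ → β) {κ₀ M : ℝ} (hZ : Z.Nonempty)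
    (hM : 0 ≤ M) (hline : ∀ i ∈ F, κ₀ * (Z.card : ℝ) ≤ ((Z.filter fun k => al i k).card : ℝ))
    (h : ∀ k ∈ Z, ∀ S ⊆ F, (∀ i ∈ S, al i k) → (∀ i ∈ S, ∀ j ∈ S, lab i = lab j) →
      (S.card : ℝ) ≤ M) :
    κ₀ * (F.card : ℝ) ≤ ((F.image lab).card : ℝ) * M := by
  classical
  have hZ0 : (0 : ℝ) < Z.card := by exact_mod_cast hZ.card_pos
  have h1 : κ₀ * (Z.card : ℝ) * (F.card : ℝ) ≤ ∑ i ∈ F, ((Z.filter fun k => al i k).card : ℝ) := by
    calc κ₀ * (Z.card : ℝ) * (F.card : ℝ) = ∑ _i ∈ F, κ₀ * (Z.card : ℝ) := by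
          rw [sum_const, nsmul_eq_mul]; ring
      _ ≤ _ := sum_le_sum hline
  have h2 : ∑ i ∈ F, ((Z.filter fun k => al i k).card : ℝ) =
      ∑ k ∈ Z, ((F.filter fun i => al i k).card : ℝ) := by
    have := sum_card_bipartiteAbove_eq_sum_card_bipartiteBelow (s := F) (t := Z)
      (fun i k => al i k)
    exact_mod_cast this
  have h3 : ∀ k ∈ Z, ((F.filter fun i => al i k).card : ℝ) ≤ ((F.image lab).card : ℝ) * M := by
    intro k hk
    have e1 := card_eq_sum_card_fiberwise (s := F.filter fun i => al i k) (t := F.image lab)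
      (f := lab) (fun i hi => mem_image_of_mem _ (filter_subset _ _ hi))
    rw [e1]
    push_cast
    calc ∑ b ∈ F.image lab, ((((F.filter fun i => al i k).filter fun i => lab i = b).card : ℕ) : ℝ)
        ≤ ∑ _b ∈ F.image lab, M := by
          refine sum_le_sum fun b _ => h k hk _ ?_ ?_ ?_
          · exact (filter_subset _ _).trans (filter_subset _ _)
          · intro i hi
            exact (mem_filter.1 (mem_filter.1 hi).1).2
          · intro i hi j hj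
            exact (mem_filter.1 hi).2.trans (mem_filter.1 hj).2.symm
      _ = _ := by rw [sum_const, nsmul_eq_mul]
  have h4 : κ₀ * (F.card : ℝ) * (Z.card : ℝ) ≤ ((F.image lab).card : ℝ) * M * (Z.card : ℝ) := by
    calc κ₀ * (F.card : ℝ) * (Z.card : ℝ) = κ₀ * (Z.card : ℝ) * (F.card : ℝ) := by ring
      _ ≤ ∑ k ∈ Z, ((F.filter fun i => al i k).card : ℝ) := h1.trans (le_of_eq h2)
      _ ≤ ∑ _k ∈ Z, ((F.image lab).card : ℝ) * M := sum_le_sum h3
      _ = _ := by rw [sum_const, nsmul_eq_mul]; ring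
  exact le_of_mul_le_mul_right h4 hZ0

/-- union of sets with bounded overlap -/
theorem union_ge {ι : Type*} [DecidableEq ι] (S : Finset ι) (F : ι → Finset ℕ) {m0 : ℝ} {Bm : ℕ}
    (hF : ∀ i ∈ S, m0 ≤ ((F i).card : ℝ))
    (hB : ∀ l, (S.filter fun i => l ∈ F i).card ≤ Bm) :
    m0 * (S.card : ℝ) ≤ Bm * ((S.biUnion F).card : ℝ) := by
  classical
  have h1 : ∑ i ∈ S, ((F i).card : ℝ) = ∑ l ∈ S.biUnion F, ((S.filter fun i => l ∈ F i).card : ℝ) := by
    have h2 := sum_card_bipartiteAbove_eq_sum_card_bipartiteBelow (s := S) (t := S.biUnion F)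
      (fun i l => l ∈ F i)
    have h3 : ∀ i ∈ S, (bipartiteAbove (fun i l => l ∈ F i) (S.biUnion F) i) = F i := by
      intro i hi
      ext l
      simp only [bipartiteAbove, mem_filter, mem_biUnion]
      constructor
      · exact fun h => h.2
      · exact fun h => ⟨⟨i, hi, h⟩, h⟩
    rw [sum_congr rfl fun i hi => by rw [h3 i hi]] at h2
    exact_mod_cast h2
  calc m0 * (S.card : ℝ) = ∑ _i ∈ S, m0 := by rw [sum_const, nsmul_eq_mul]; ring
    _ ≤ ∑ i ∈ S, ((F i).card : ℝ) := sum_le_sum hF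
    _ = _ := h1
    _ ≤ ∑ _l ∈ S.biUnion F, (Bm : ℝ) := sum_le_sum fun l _ => by exact_mod_cast hB l
    _ = _ := by rw [sum_const, nsmul_eq_mul]; ring

variable {I : Finset (ℕ × ℕ)} {z : ℕ → ℝ} {T : ℕ → Ln4} {E : ℕ → ℝ} {fa : ℕ → ℕ → ℝ}
    {fb : ℕ → ℝ} {mu be δ : ℝ} {Fc : ℕ → ℝ}

/-- number of points of the configuration of the walk lemma -/
theorem pts_card_le {α : Type*} [DecidableEq α] {h : ℝ} {N : ℕ} {w : ℤ} {kst : ℤ → ℕ}
    (Ls : Finset ℕ) (lab : ℕ → ℕ → α) {M : ℝ} (hM0 : 0 ≤ M)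
    (hM : ∀ k, (((Ls.filter fun l => (l, k) ∈ I).image fun l => lab l k).card : ℝ) ≤ M) :
    ((pts (fun l => alf I z h N w kst l) (fun l g => lab l (kst g)) Ls).card : ℝ) ≤ N * M := by
  classical
  have hsub : pts (fun l => alf I z h N w kst l) (fun l g => lab l (kst g)) Ls ⊆
      (Finset.Ico (N : ℤ) (2 * N)).biUnion fun g =>
        (((Ls.filter fun l => (l, kst g) ∈ I).image fun l => lab l (kst g)).image
          fun p => (g, p)) := by
    rintro ⟨g, p⟩ hp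
    rw [mem_pts] at hp
    obtain ⟨i, hi, h1, h2⟩ := hp
    rw [mem_alf] at h1
    rw [mem_biUnion]
    refine ⟨g, Finset.mem_Ico.2 h1.1, mem_image.2 ⟨p, mem_image.2 ⟨i, ?_, h2⟩, rfl⟩⟩
    exact mem_filter.2 ⟨hi, h1.2.1⟩
  have h1 : ((pts (fun l => alf I z h N w kst l) (fun l g => lab l (kst g)) Ls).card : ℝ) ≤
      ∑ g ∈ Finset.Ico (N : ℤ) (2 * N),
        (((((Ls.filter fun l => (l, kst g) ∈ I).image fun l => lab l (kst g)).image
          fun p => ((g, p) : ℤ × α)).card : ℕ) : ℝ) := by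
    exact_mod_cast (card_le_card hsub).trans card_biUnion_le
  refine h1.trans ?_
  calc _ ≤ ∑ _g ∈ Finset.Ico (N : ℤ) (2 * N), M := by
        refine sum_le_sum fun g _ => ?_
        refine le_trans ?_ (hM (kst g))
        exact_mod_cast card_image_le
    _ = _ := by
        rw [sum_const, nsmul_eq_mul, Int.card_Ico]
        congr 1
        have : (2 * (N : ℤ) - N).toNat = N := by omega
        rw [this]

/-- lines near `i` at a common height: near cell labels -/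
theorem ARel.near_cells (A : ARel I z T E fa fb mu be δ Fc) (hδ : 0 < δ) {i l k : ℕ}
    (hi : (i, k) ∈ I) (hl : (l, k) ∈ I)
    (h : ∀ s ∈ fAll, |coA (T i) (T l) (E i) (E l) (fa i k) (fa l k) (fb k) (z k) s| ≤ δ) :
    ∀ s, |cellL δ (T l) (E l) (Fc l) s - cellL δ (T i) (E i) (Fc i) s| ≤ 20 :=
  cellL_of_coA hδ (A.z1 _ _ hi) (A.E1 _ _ hi) (A.fa1 _ _ hi) (A.fb1 _ _ hi) (A.Fc _ _ hi)
    (A.Fc _ _ hl) h

/-- overlap of the fat lines around representatives -/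
theorem ARel.overlap (A : ARel I z T E fa fb mu be δ Fc) (hδ : 0 < δ) {Ls : Finset ℕ}
    (hinj : ∀ i ∈ Ls, ∀ j ∈ Ls, cellL δ (T i) (E i) (Fc i) = cellL δ (T j) (E j) (Fc j) → i = j)
    (k0 : ℕ → ℕ) (F : ℕ → Finset ℕ) (hk0 : ∀ i ∈ Ls, (i, k0 i) ∈ I)
    (hF : ∀ i ∈ Ls, ∀ l ∈ F i, (l, k0 i) ∈ I ∧ ∀ s ∈ fAll,
      |coA (T i) (T l) (E i) (E l) (fa i (k0 i)) (fa l (k0 i)) (fb (k0 i)) (z (k0 i)) s| ≤ δ)
    (l : ℕ) : (Ls.filter fun i => l ∈ F i).card ≤ 81 ^ 8 := by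
  have h1 : ∀ i ∈ Ls.filter fun i => l ∈ F i, ∀ s,
      |cellL δ (T l) (E l) (Fc l) s - cellL δ (T i) (E i) (Fc i) s| ≤ 20 := by
    intro i hi
    obtain ⟨hi1, hi2⟩ := mem_filter.1 hi
    obtain ⟨a1, a2⟩ := hF i hi1 l hi2
    exact A.near_cells hδ (hk0 i hi1) a1 a2
  have := card_le_of_near (Ls.filter fun i => l ∈ F i) (fun i => cellL δ (T i) (E i) (Fc i))
    (fun i hi j hj => hinj i (mem_filter.1 hi).1 j (mem_filter.1 hj).1) 40 (by
      intro i hi j hj s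
      have a1 := h1 i hi s
      have a2 := h1 j hj s
      push_cast
      rw [abs_le] at *
      constructor <;> linarith [a1.1, a1.2, a2.1, a2.2])
  exact this

/-- passing from a representative to a nearby line -/
theorem conic_transfer {δ err S0 c l2 El c0 C0 E0 s0 ci l2i Ei : ℝ} (hδ : 0 ≤ δ)
    (hE : |El - Ei| ≤ δ) (hc : |c - ci| ≤ δ) (hC : |(l2 - l2i) - Ei * (c - ci)| ≤ δ)
    (hEi : |Ei| ≤ 1) (hE0 : |E0| ≤ 1) (hc1 : |c| ≤ 1) (hci : |ci| ≤ 1) (hc0 : |c0| ≤ 1)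
    (hs0 : |s0| ≤ S0) (h1 : |Ei - (E0 - s0 * (ci - c0))| ≤ err)
    (h2 : |l2i - (C0 + E0 * (ci - c0) - s0 * (ci - c0) ^ 2 / 2)| ≤ err) :
    |El - (E0 - s0 * (c - c0))| ≤ err + (3 + 2 * S0) * δ ∧
      |l2 - (C0 + E0 * (c - c0) - s0 * (c - c0) ^ 2 / 2)| ≤ err + (3 + 2 * S0) * δ := by
  have hS0 : 0 ≤ S0 := (abs_nonneg _).trans hs0
  have b1 : |s0 * (c - ci)| ≤ S0 * δ := abs_mul_le hs0 hc
  have b2 : |E0 * (c - ci)| ≤ 1 * δ := abs_mul_le hE0 hc
  have b3 : |Ei * (c - ci)| ≤ 1 * δ := abs_mul_le hEi hc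
  have b4 : |(c - c0) + (ci - c0)| ≤ 4 := four_bound hc1 hci hc0
  have b5 : |s0 * (c - ci) * ((c - c0) + (ci - c0)) / 2| ≤ 2 * (S0 * δ) := by
    have := abs_mul_le b1 b4
    rw [abs_div, abs_of_pos (by norm_num : (0 : ℝ) < 2), div_le_iff₀ (by norm_num)]
    linarith
  have hSδ : 0 ≤ S0 * δ := by positivity
  constructor
  · have e : El - (E0 - s0 * (c - c0)) = (Ei - (E0 - s0 * (ci - c0))) + (El - Ei) +
        s0 * (c - ci) := by ring
    rw [e]
    refine (abs_add_three _ _ _).trans ?_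
    linarith
  · have e : l2 - (C0 + E0 * (c - c0) - s0 * (c - c0) ^ 2 / 2) =
        (l2i - (C0 + E0 * (ci - c0) - s0 * (ci - c0) ^ 2 / 2)) +
        ((l2 - l2i) - Ei * (c - ci)) + (Ei * (c - ci) - E0 * (c - ci)) +
        s0 * (c - ci) * ((c - c0) + (ci - c0)) / 2 := by ring
    rw [e]
    have t1 := abs_add_le ((l2i - (C0 + E0 * (ci - c0) - s0 * (ci - c0) ^ 2 / 2)) +
        ((l2 - l2i) - Ei * (c - ci)) + (Ei * (c - ci) - E0 * (c - ci)))
        (s0 * (c - ci) * ((c - c0) + (ci - c0)) / 2)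
    have t2 := abs_add_three (l2i - (C0 + E0 * (ci - c0) - s0 * (ci - c0) ^ 2 / 2))
        ((l2 - l2i) - Ei * (c - ci)) (Ei * (c - ci) - E0 * (c - ci))
    have t3 := abs_sub (Ei * (c - ci)) (E0 * (c - ci))
    linarith

end Crest.Agent.R136.Wk323
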