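import Crest.Agent.R136.Wk8_323

/-!
# R136 (S0187): RIG wrapper, assembly (helper323)

`rigWin_of` : rigidity of a lightlike window from the counting statements of `WkD_323`.
-/

set_option autoImplicit false
set_option linter.unusedVariables false

open Filter Topology Finset

namespace Crest.Agent.R136.Wk323

open Crest.Agent.R136.Sh605
open Crest.Agent.R138.Ex926 (Base U)
open Crest.Agent.R136.Gf356

section

variable (B : Base) (G : ℕ → RCfg (Fin 11)) (ν : (Fin 11 → ℝ) → ℝ) (x a : ℝ)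
  (T : ℕ → ℕ → Ln4) (E : ℕ → ℕ → ℝ) (fa : ℕ → ℕ → ℕ → ℝ) (fb : ℕ → ℕ → ℝ)

/-- the lines of a slice with close directions -/
def DirUp : Prop := ∃ C : ℝ, 0 ≤ C ∧ ∀ ε₀ : ℝ, 0 < ε₀ → ∀ᶠ n in (U : Filter ℕ), ∀ k i,
  (i, k) ∈ (G n).I → ∀ F ⊆ (G n).slice k, (∀ l ∈ F, ∀ s ∈ fDir, |coA (T n i) (T n l) (E n i) (E n l)
    (fa n i k) (fa n l k) (fb n k) ((G n).z k) s| ≤ B.d n ^ (x - ε₀)) →
    (F.card : ℝ) ≤ B.d n ^ (-ν (vec fDir x) - C * ε₀)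

end

/-- size of `etaR` -/
theorem etaR_le (B : Base) {x a e Cf Kk : ℝ} (he : 0 < e) (ha0 : 0 ≤ a) (ha1 : a < 1)
    (hCf : 1 ≤ Cf) (hKk : 0 ≤ Kk) :
    ∀ᶠ n in (U : Filter ℕ), ∀ nh : ℝ, 1 / 2 ≤ nh →
      RigData.etaR (B.d n ^ (Kk * e)) ((13 ^ 8 : ℕ) : ℝ) (4 * B.d n ^ (-(Cf * (3 * e)))) nh
        (2 * B.d n ^ (x - Cf * (3 * e))) a (B.d n ^ e) ≤
      2 * B.d n ^ (x - (3 * Cf + (3 * Cf + 43 * Kk + 1) / (1 - a) + 1) * e) := by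
  set b : ℝ := ((13 ^ 8 : ℕ) : ℝ) with hb
  have hb0 : 0 < b := by rw [hb]; positivity
  set c : ℝ := 4 * (131072 * 383 * b ^ 6 * 4 * (2 * b ^ 4) ^ 6 * 4) with hc
  have h1a : 0 < 1 - a := by linarith
  have hKQ : 0 < 3 * Cf + 43 * Kk + 1 := by linarith
  filter_upwards [ev_abs B (show -((3 * Cf + 43 * Kk + 1) * e) < -((3 * Cf + 43 * Kk) * e) by
    nlinarith) c, ev_const_le B (show 0 < (3 * Cf + 43 * Kk + 1) * e / (1 - a) by positivity) 191]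
    with n h1 h2 nh hnh
  have hpow : ∀ t : ℝ, 0 < B.d n ^ t := fun t => rpos B n t
  unfold RigData.etaR
  set κ : ℝ := B.d n ^ (Kk * e) with hκ
  have hκ0 : 0 < κ := hpow _
  have hκ43 : κ ^ 43 = B.d n ^ (43 * Kk * e) := by
    rw [hκ, ← Real.rpow_natCast, ← Real.rpow_mul (B.pos n).le]
    congr 1; push_cast; ring
  have hQ : 4 * (131072 * 383 * b ^ 6 * (4 * B.d n ^ (-(Cf * (3 * e)))) /
      (κ * (κ ^ 7 / (2 * b ^ 4)) ^ 6 * nh ^ 2)) ≤ B.d n ^ (-((3 * Cf + 43 * Kk + 1) * e)) := by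
    refine le_trans ?_ h1
    have e1 : κ * (κ ^ 7 / (2 * b ^ 4)) ^ 6 * nh ^ 2 = κ ^ 43 * nh ^ 2 / (2 * b ^ 4) ^ 6 := by
      field_simp
    have e2 : B.d n ^ (-((3 * Cf + 43 * Kk) * e)) * κ ^ 43 = B.d n ^ (-(Cf * (3 * e))) := by
      rw [hκ43, ← rpow_add']; congr 1; ring
    have hnh0 : 0 < nh := by linarith
    have hnh2 : 1 ≤ 4 * nh ^ 2 := by nlinarith
    rw [e1, mul_div_assoc', div_le_iff₀ (by positivity)]
    have e3 : c * B.d n ^ (-((3 * Cf + 43 * Kk) * e)) * (κ ^ 43 * nh ^ 2 / (2 * b ^ 4) ^ 6) =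
        c / (2 * b ^ 4) ^ 6 * nh ^ 2 * (B.d n ^ (-((3 * Cf + 43 * Kk) * e)) * κ ^ 43) := by ring
    rw [e3, e2]
    have e4 : c / (2 * b ^ 4) ^ 6 * nh ^ 2 = 4 * (131072 * 383 * b ^ 6 * 4) * (4 * nh ^ 2) := by
      rw [hc]; field_simp
    rw [e4]
    have e5 : 0 ≤ 4 * (131072 * 383 * b ^ 6 * 4) * B.d n ^ (-(Cf * (3 * e))) := by
      have := hpow (-(Cf * (3 * e)))
      positivity
    calc 4 * (131072 * 383 * b ^ 6 * (4 * B.d n ^ (-(Cf * (3 * e))))) =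
          4 * (131072 * 383 * b ^ 6 * 4) * B.d n ^ (-(Cf * (3 * e))) * 1 := by ring
      _ ≤ 4 * (131072 * 383 * b ^ 6 * 4) * B.d n ^ (-(Cf * (3 * e))) * (4 * nh ^ 2) :=
          mul_le_mul_of_nonneg_left hnh2 e5
      _ = _ := by ring
  have hQ0 : 0 ≤ 4 * (131072 * 383 * b ^ 6 * (4 * B.d n ^ (-(Cf * (3 * e)))) /
      (κ * (κ ^ 7 / (2 * b ^ 4)) ^ 6 * nh ^ 2)) := by
    have := hpow (-(Cf * (3 * e)))
    positivity
  have hY : max 191 ((4 * (131072 * 383 * b ^ 6 * (4 * B.d n ^ (-(Cf * (3 * e)))) /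
      (κ * (κ ^ 7 / (2 * b ^ 4)) ^ 6 * nh ^ 2))) ^ (1 / (1 - a))) ≤
      B.d n ^ (-((3 * Cf + 43 * Kk + 1) * e / (1 - a))) := by
    refine max_le h2 ?_
    refine (Real.rpow_le_rpow hQ0 hQ (by positivity)).trans (le_of_eq ?_)
    rw [← Real.rpow_mul (B.pos n).le]
    congr 1
    ring
  rw [div_le_iff₀ (hpow e)]
  calc 2 * B.d n ^ (x - Cf * (3 * e)) * _ ≤ 2 * B.d n ^ (x - Cf * (3 * e)) *
        B.d n ^ (-((3 * Cf + 43 * Kk + 1) * e / (1 - a))) :=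
        mul_le_mul_of_nonneg_left hY (by have := hpow (x - Cf * (3 * e)); positivity)
    _ = 2 * (B.d n ^ (x - (3 * Cf + (3 * Cf + 43 * Kk + 1) / (1 - a) + 1) * e) * B.d n ^ e) := by
        rw [mul_assoc, ← rpow_add', ← rpow_add']
        congr 2
        ring
    _ = _ := by ring

theorem aux_div {A Y : ℝ} (hY : Y ≠ 0) : 16 * (A * Y) / (2 * Y) = 8 * A := by
  field_simp
  ring

/-- the numerical hypotheses `hn`, `hn2` of the walk lemma -/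
theorem hn_ev (B : Base) {x a e Cf Kk : ℝ} (hx : 0 < x) (he : 0 < e) (ha0 : 0 ≤ a) (ha1 : a < 1)
    (hCf : 1 ≤ Cf) (hKk : 0 ≤ Kk) (h1 : (22 * Kk + 3 * Cf + 2) * e < (1 - a) * x) :
    ∀ᶠ n in (U : Filter ℕ),
      256 * (((13 ^ 8 : ℕ) : ℝ)) ^ 3 ≤
        ((B.d n ^ (Kk * e)) ^ 7 / (2 * (((13 ^ 8 : ℕ) : ℝ)) ^ 4)) ^ 3 * (Nn B x n : ℝ) ∧
      256 * (((13 ^ 8 : ℕ) : ℝ)) ^ 3 * (4 * B.d n ^ (-(Cf * (3 * e))) *
        (16 * B.d n ^ (-e) / (2 * B.d n ^ (x - Cf * (3 * e))) + 382) ^ a) <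
        B.d n ^ (Kk * e) * ((B.d n ^ (Kk * e)) ^ 7 / (2 * (((13 ^ 8 : ℕ) : ℝ)) ^ 4)) ^ 3 *
          (Nn B x n : ℝ) := by
  set b : ℝ := ((13 ^ 8 : ℕ) : ℝ) with hb
  have hb0 : 0 < b := by rw [hb]; positivity
  have hax : a * x < x := by nlinarith
  have hKe : 0 ≤ Kk * e := by positivity
  have hCe : 0 < Cf * e := by nlinarith
  filter_upwards [ev_abs B (show 21 * Kk * e - x < 0 by nlinarith)
      (256 * b ^ 3 * (8 * b ^ 12) * 2),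
    ev_abs B (show -(x + e) < -x by linarith) 16, ev_abs B (show -(x + e) < 0 by linarith) 764,
    ev_abs B (show 22 * Kk * e - x < -(Cf * (3 * e)) - a * (x + e) by nlinarith)
      (256 * b ^ 3 * 4 * (8 * b ^ 12) * 2 + 1)] with n h2 h3 h4 h5
  have hpow : ∀ t : ℝ, 0 < B.d n ^ t := fun t => rpos B n t
  set κ : ℝ := B.d n ^ (Kk * e) with hκ
  have hκ0 : 0 < κ := hpow _
  have hκk : ∀ k : ℕ, κ ^ k = B.d n ^ (k * Kk * e) := by
    intro k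
    rw [hκ, ← Real.rpow_natCast, ← Real.rpow_mul (B.pos n).le]
    congr 1; ring
  have hκ21 : κ ^ 21 = B.d n ^ (21 * Kk * e) := by simpa using hκk 21
  have hκ22 : κ ^ 22 = B.d n ^ (22 * Kk * e) := by simpa using hκk 22
  have hN := half_le_Nn B hx.le n
  have e1 : (κ ^ 7 / (2 * b ^ 4)) ^ 3 = κ ^ 21 / (8 * b ^ 12) := by
    field_simp
    ring
  constructor
  · rw [e1]
    rw [Real.rpow_zero, mul_one] at h2
    have e2 : B.d n ^ (21 * Kk * e - x) = κ ^ 21 * B.d n ^ (-x) := by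
      rw [hκ21, ← rpow_add']; congr 1
    rw [e2] at h2
    have h6 : κ ^ 21 * B.d n ^ (-x) ≤ κ ^ 21 * (2 * (Nn B x n : ℝ)) :=
      mul_le_mul_of_nonneg_left hN (by positivity)
    rw [div_mul_eq_mul_div, le_div_iff₀ (by positivity)]
    nlinarith
  · rw [e1]
    -- base of the power
    have h6 : 16 * B.d n ^ (-e) / (2 * B.d n ^ (x - Cf * (3 * e))) + 382 ≤ B.d n ^ (-(x + e)) := by
      have e2 : 16 * B.d n ^ (-e) / (2 * B.d n ^ (x - Cf * (3 * e))) =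
          8 * B.d n ^ (-e - (x - Cf * (3 * e))) := by
        have : B.d n ^ (-e) = B.d n ^ (-e - (x - Cf * (3 * e))) * B.d n ^ (x - Cf * (3 * e)) := by
          rw [← rpow_add']; congr 1; ring
        rw [this]
        exact aux_div (hpow (x - Cf * (3 * e))).ne'
      have e3 : B.d n ^ (-e - (x - Cf * (3 * e))) ≤ B.d n ^ (-x) := rpow_anti B n (by nlinarith)
      rw [e2]
      rw [Real.rpow_zero, mul_one] at h4
      linarith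
    have h7 : (16 * B.d n ^ (-e) / (2 * B.d n ^ (x - Cf * (3 * e))) + 382) ^ a ≤
        B.d n ^ (-(a * (x + e))) := by
      refine (Real.rpow_le_rpow ?_ h6 ha0).trans (le_of_eq ?_)
      · have a1 := hpow (-e)
        have a2 := hpow (x - Cf * (3 * e))
        positivity
      · rw [← Real.rpow_mul (B.pos n).le]
        congr 1; ring
    have e4 : κ * (κ ^ 21 / (8 * b ^ 12)) * (Nn B x n : ℝ) =
        κ ^ 22 * (Nn B x n : ℝ) / (8 * b ^ 12) := by ring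
    rw [e4, lt_div_iff₀ (by positivity)]
    have e5 : B.d n ^ (-(Cf * (3 * e)) - a * (x + e)) =
        B.d n ^ (-(Cf * (3 * e))) * B.d n ^ (-(a * (x + e))) := by
      rw [← rpow_add']; congr 1
    have e6 : B.d n ^ (22 * Kk * e - x) = κ ^ 22 * B.d n ^ (-x) := by
      rw [hκ22, ← rpow_add']; congr 1
    rw [e5, e6] at h5
    have h8 : κ ^ 22 * B.d n ^ (-x) ≤ κ ^ 22 * (2 * (Nn B x n : ℝ)) :=
      mul_le_mul_of_nonneg_left hN (by positivity)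
    have h9 : 0 < B.d n ^ (-(Cf * (3 * e))) * B.d n ^ (-(a * (x + e))) :=
      mul_pos (hpow _) (hpow _)
    have h10 : B.d n ^ (-(Cf * (3 * e))) * (16 * B.d n ^ (-e) / (2 * B.d n ^ (x - Cf * (3 * e)))
        + 382) ^ a ≤ B.d n ^ (-(Cf * (3 * e))) * B.d n ^ (-(a * (x + e))) :=
      mul_le_mul_of_nonneg_left h7 (hpow _).le
    have h11 : 0 ≤ 256 * b ^ 3 * 4 * (8 * b ^ 12) := by positivity
    calc 256 * b ^ 3 * (4 * B.d n ^ (-(Cf * (3 * e))) * (16 * B.d n ^ (-e) /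
          (2 * B.d n ^ (x - Cf * (3 * e))) + 382) ^ a) * (8 * b ^ 12) =
          256 * b ^ 3 * 4 * (8 * b ^ 12) * (B.d n ^ (-(Cf * (3 * e))) * (16 * B.d n ^ (-e) /
          (2 * B.d n ^ (x - Cf * (3 * e))) + 382) ^ a) := by ring
      _ ≤ 256 * b ^ 3 * 4 * (8 * b ^ 12) *
          (B.d n ^ (-(Cf * (3 * e))) * B.d n ^ (-(a * (x + e)))) :=
          mul_le_mul_of_nonneg_left h10 h11
      _ < κ ^ 22 * (Nn B x n : ℝ) := by
          nlinarith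

/-! ### counting at one number `n` -/

section fin

variable {g : RCfg (Fin 11)} {t : ℕ → Ln4} {u : ℕ → ℝ} {fA : ℕ → ℕ → ℝ} {fB : ℕ → ℝ}
  {mu be δ : ℝ} {Fc : ℕ → ℝ}

/-- many lines in few cells -/
theorem lines_le_cells (A : ARel0 g.I g.z t u fA fB δ Fc) (hδ : 0 < δ) {κ₀ M tol : ℝ}
    (hM : 0 ≤ M) (htol : 20 * δ ≤ tol) (hZ : g.Z.Nonempty)
    (hline : ∀ i ∈ g.L, κ₀ * (g.Z.card : ℝ) ≤ ((g.hts i).card : ℝ))
    (hup : ∀ k i, (i, k) ∈ g.I → ∀ F ⊆ g.slice k, (∀ l ∈ F, ∀ s ∈ fAll,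
      |coA (t i) (t l) (u i) (u l) (fA i k) (fA l k) (fB k) (g.z k) s| ≤ tol) → (F.card : ℝ) ≤ M)
    {Lg : Finset ℕ} (hLg : Lg ⊆ g.L) :
    κ₀ * (Lg.card : ℝ) ≤ ((Lg.image fun l => cellL δ (t l) (u l) (Fc l)).card : ℝ) * M := by
  refine card_le_labels Lg g.Z (fun i k => (i, k) ∈ g.I) _ hZ hM (fun i hi => hline i (hLg hi)) ?_
  intro k hk S hS hal hlab
  rcases S.eq_empty_or_nonempty with rfl | ⟨i, hi⟩
  · simpa using hM
  · refine hup k i (hal i hi) S ?_ ?_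
    · intro l hl
      exact RCfg.mem_slice.2 ⟨hLg (hS hl), hal l hl⟩
    · intro l hl s hs
      refine (coA_of_cellL hδ (A.z1 _ _ (hal i hi)) (A.E1 _ _ (hal i hi)) (A.fa1 _ _ (hal i hi))
        (A.fb1 _ _ (hal i hi)) (A.Fc _ _ (hal i hi)) (A.Fc _ _ (hal l hl)) (hlab i hi l hl) s).trans
        htol

/-- many lines in few directions -/
theorem lines_le_dirs (A : ARel0 g.I g.z t u fA fB δ Fc) (hδ : 0 < δ) {κ₀ M tol : ℝ}
    (hM : 0 ≤ M) (htol : 20 * δ ≤ tol) (hZ : g.Z.Nonempty)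
    (hline : ∀ i ∈ g.L, κ₀ * (g.Z.card : ℝ) ≤ ((g.hts i).card : ℝ))
    (hup : ∀ k i, (i, k) ∈ g.I → ∀ F ⊆ g.slice k, (∀ l ∈ F, ∀ s ∈ fDir,
      |coA (t i) (t l) (u i) (u l) (fA i k) (fA l k) (fB k) (g.z k) s| ≤ tol) → (F.card : ℝ) ≤ M)
    {Lg : Finset ℕ} (hLg : Lg ⊆ g.L) :
    κ₀ * (Lg.card : ℝ) ≤ ((Lg.image fun l => dirL δ (t l) (u l)).card : ℝ) * M := by
  refine card_le_labels Lg g.Z (fun i k => (i, k) ∈ g.I) _ hZ hM (fun i hi => hline i (hLg hi)) ?_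
  intro k hk S hS hal hlab
  rcases S.eq_empty_or_nonempty with rfl | ⟨i, hi⟩
  · simpa using hM
  · refine hup k i (hal i hi) S ?_ ?_
    · intro l hl
      exact RCfg.mem_slice.2 ⟨hLg (hS hl), hal l hl⟩
    · intro l hl s hs
      exact (coA_of_dirL hδ (A.E1 _ _ (hal i hi)) (hlab i hi l hl) s hs).trans htol

/-- global number of directions -/
theorem dirs_le {κ₀ M : ℝ} (hZ : g.Z.Nonempty)
    (hline : ∀ i ∈ g.L, κ₀ * (g.Z.card : ℝ) ≤ ((g.hts i).card : ℝ)) (Q : ℕ → Prop)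
    [DecidablePred Q]
    (hup : ∀ k, ((((g.slice k).filter Q).image fun l => dirL δ (t l) (u l)).card : ℝ) ≤ M)
    {Ls : Finset ℕ} (hLs : Ls ⊆ g.L) :
    κ₀ * (((Ls.filter Q).image fun l => dirL δ (t l) (u l)).card : ℝ) ≤ M := by
  refine RgN344.image_line_le (Ls.filter Q) g.Z (fun i k => (i, k) ∈ g.I) _ hZ
    (fun i hi => hline i (hLs (mem_filter.1 hi).1)) ?_
  intro k hk
  refine le_trans ?_ (hup k)
  refine mod_cast card_le_card (image_subset_image ?_)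
  intro l hl
  obtain ⟨h1, h2⟩ := mem_filter.1 hl
  obtain ⟨h3, h4⟩ := mem_filter.1 h1
  exact mem_filter.2 ⟨RCfg.mem_slice.2 ⟨hLs h3, h2⟩, h4⟩

/-- directions of the representatives -/
theorem dirs_reps {Lg Ls : Finset ℕ}
    (hrep : ∀ l ∈ Lg, ∃ i ∈ Ls, cellL δ (t i) (u i) (Fc i) = cellL δ (t l) (u l) (Fc l)) :
    (Lg.image fun l => dirL δ (t l) (u l)) ⊆ (Ls.image fun l => dirL δ (t l) (u l)) := by
  intro b hb
  obtain ⟨l, hl, rfl⟩ := mem_image.1 hb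
  obtain ⟨i, hi, h⟩ := hrep l hl
  refine mem_image.2 ⟨i, hi, ?_⟩
  have h4 := congrFun h 4
  have h5 := congrFun h 5
  have h6 := congrFun h 6
  simp only [cellL, Matrix.cons_val] at h4 h5 h6
  funext s
  fin_cases s
  · exact h4
  · exact h5
  · exact h6

end fin

/-! ### the assembly -/

/-- `ARel` from the window, with the slope of `V2` -/
theorem exists_ARel {g : RCfg (Fin 11)} {t : ℕ → Ln4} {u : ℕ → ℝ} {fA : ℕ → ℕ → ℝ} {fB : ℕ → ℝ}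
    {mu be δ : ℝ} (hbd : ∀ l k, (l, k) ∈ g.I → |g.z k| ≤ 1 ∧
    (∀ j, |(t l).pos (g.z k) j| ≤ 1) ∧ (∀ j, |(t l).v j| ≤ 1) ∧ |u l| ≤ 1 ∧
      |fA l k| ≤ 1 ∧ |fB k| ≤ 1)
    (hown : ∀ l k k', (l, k) ∈ g.I → (l, k') ∈ g.I →
      |fA l k' - fA l k + u l * (fB k' - fB k)| ≤ δ)
    (haff : ∀ l k, (l, k) ∈ g.I → |fB k - be - mu * g.z k| ≤ δ) :
    ∃ Fc : ℕ → ℝ, ARel g.I g.z t u fA fB mu be δ Fc := by
  classical
  refine ⟨fun l => if h : ∃ k, (l, k) ∈ g.I then fA l h.choose + u l * fB h.choose else 0, ?_⟩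
  refine ⟨⟨fun l k h => (hbd l k h).1, fun l k h => (hbd l k h).2.2.1,
    fun l k h => (hbd l k h).2.2.2.1, fun l k h => (hbd l k h).2.2.2.2.1,
    fun l k h => (hbd l k h).2.2.2.2.2, hown, ?_⟩, haff⟩
  intro l k hlk
  have hex : ∃ k, (l, k) ∈ g.I := ⟨k, hlk⟩
  have h1 := hown l k hex.choose hlk hex.choose_spec
  simp only [dif_pos hex]
  have e : fA l hex.choose + u l * fB hex.choose - (fA l k + u l * fB k) =
      fA l hex.choose - fA l k + u l * (fB hex.choose - fB k) := by ring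
  rw [e]
  exact h1

/-- the choice of the small parameter -/
theorem exists_e {K1 K2 K3 K4 K5 ε X x : ℝ} (h1 : 0 ≤ K1) (h2 : 0 ≤ K2) (h3 : 0 ≤ K3) (h4 : 0 ≤ K4)
    (h5 : 0 ≤ K5) (hε : 0 < ε) (hX : 0 < X) (hXx : X ≤ x) :
    ∃ e : ℝ, 0 < e ∧ K1 * e < ε ∧ K2 * e < ε ∧ K3 * e < X ∧ K4 * e ≤ x ∧ K5 * e ≤ x := by
  set K := K1 + K2 + K3 + K4 + K5 + 1 with hK
  have hK0 : 0 < K := by positivity
  have hm : 0 < min ε X := lt_min hε hX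
  refine ⟨min ε X / (2 * K), by positivity, ?_⟩
  have hee : ∀ k : ℝ, 0 ≤ k → k ≤ K → k * (min ε X / (2 * K)) < min ε X := by
    intro k hk hkK
    rw [mul_div_assoc', div_lt_iff₀ (by positivity)]
    nlinarith
  have a1 := hee K1 h1 (by linarith)
  have a2 := hee K2 h2 (by linarith)
  have a3 := hee K3 h3 (by linarith)
  have a4 := hee K4 h4 (by linarith)
  have a5 := hee K5 h5 (by linarith)
  have b1 := min_le_left ε X
  have b2 := min_le_right ε X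
  exact ⟨by linarith, by linarith, by linarith, by linarith, by linarith⟩

/-- **the wrapper at one number `n`** -/
theorem wrap_one {g : RCfg (Fin 11)} {t : ℕ → Ln4} {u : ℕ → ℝ} {fA : ℕ → ℕ → ℝ} {fB : ℕ → ℝ}
    {mu be δ : ℝ} {Fc : ℕ → ℝ} (AR : ARel g.I g.z t u fA fB mu be δ Fc)
    (hsub : g.I ⊆ g.L ×ˢ g.Z) {h κ κ₀ lm lm0 r a Kf sep tol MP MD Mu Md Mc mL err : ℝ} {N : ℕ}
    {w : ℤ} {kst : ℤ → ℕ} {Lg Ls : Finset ℕ}
    (hδ : 0 < δ) (hh : 0 < h) (hhδ : h ≤ δ) (hNh : N * h ≤ 1) (hN : 0 < N) (hmuh : |mu| * h ≤ δ)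
    (hlm : |mu| ≤ lm) (hlm0 : 0 < lm0) (hlm0' : lm0 ≤ |mu|) (hL : g.L.Nonempty)
    (hZ : g.Z.Nonempty) (hκ₀ : 0 < κ₀)
    (hline : ∀ i ∈ g.L, κ₀ * (g.Z.card : ℝ) ≤ ((g.hts i).card : ℝ))
    (hκ : 0 < κ) (hκκ : κ ≤ κ₀) (hLg : Lg ⊆ g.L) (hLgc : κ₀ * (g.L.card : ℝ) ≤ (Lg.card : ℝ))
    (hal : ∀ l ∈ Lg, κ₀ * N ≤ ((alf g.I g.z h N w kst l).card : ℝ)) (hLsLg : Ls ⊆ Lg)
    (hinj : ∀ i ∈ Ls, ∀ j ∈ Ls, cellL δ (t i) (u i) (Fc i) = cellL δ (t j) (u j) (Fc j) → i = j)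
    (hrep : ∀ l ∈ Lg, ∃ i ∈ Ls, cellL δ (t i) (u i) (Fc i) = cellL δ (t l) (u l) (Fc l))
    (hLsc : Ls.card = (Lg.image fun l => cellL δ (t l) (u l) (Fc l)).card)
    (htol : 20 * δ ≤ tol) (hMP : 0 ≤ MP) (hMD : 0 ≤ MD) (hMu : 0 < Mu) (hMd : 0 < Md)
    (hpc : ∀ k, (((g.slice k).image fun l => posL δ (t l) (fA l k) (fB k) (g.z k)).card : ℝ) ≤ MP)
    (hdc : ∀ k, (((g.slice k).image fun l => dirL δ (t l) (u l)).card : ℝ) ≤ MD)
    (hcu : ∀ k i, (i, k) ∈ g.I → ∀ F ⊆ g.slice k, (∀ l ∈ F, ∀ s ∈ fAll,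
      |coA (t i) (t l) (u i) (u l) (fA i k) (fA l k) (fB k) (g.z k) s| ≤ tol) → (F.card : ℝ) ≤ Mu)
    (hdu : ∀ k i, (i, k) ∈ g.I → ∀ F ⊆ g.slice k, (∀ l ∈ F, ∀ s ∈ fDir,
      |coA (t i) (t l) (u i) (u l) (fA i k) (fA l k) (fB k) (g.z k) s| ≤ tol) → (F.card : ℝ) ≤ Md)
    (hcl : ∀ k i, (i, k) ∈ g.I → ∃ F ⊆ g.slice k, mL ≤ (F.card : ℝ) ∧ ∀ l ∈ F, ∀ s ∈ fAll,
      |coA (t i) (t l) (u i) (u l) (fA i k) (fA l k) (fB k) (g.z k) s| ≤ δ)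
    (hcc : ∀ k, ∀ c : ℝ, ((((g.slice k).filter fun l => |(t l).v 1 - c| ≤ sep).image fun l =>
      dirL δ (t l) (u l)).card : ℝ) ≤ Mc)
    (hfib : RigData.ThinFib (fun l => shf (w * (N * h)) (t l)) Ls
      (fun l => alf g.I g.z h N w kst l) (fun l => dirL δ (t l) (u l)) (3 * δ) h r a Kf)
    (n1 : κ * MP * MD * Mu ≤ κ₀ ^ 3 * (g.L.card : ℝ))
    (n2 : Mc * Md ≤ (κ ^ 2 / ((13 ^ 8 : ℕ) : ℝ)) ^ 3 / 4 * (κ₀ ^ 3 * (g.L.card : ℝ)))
    (hr : 0 < r) (hδr : 3 * δ ≤ r) (her : 5 * δ ≤ r) (hlr : lm * (3 * δ) ≤ r) (ha0 : 0 ≤ a)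
    (ha1 : a < 1) (hKf : 0 ≤ Kf) (hsep0 : 0 < sep) (hsep1 : sep ≤ 1)
    (hn : 256 * (((13 ^ 8 : ℕ) : ℝ)) ^ 3 ≤ (κ ^ 7 / (2 * (((13 ^ 8 : ℕ) : ℝ)) ^ 4)) ^ 3 * N)
    (hn2 : 256 * (((13 ^ 8 : ℕ) : ℝ)) ^ 3 * (Kf * (16 * lm / r + 382) ^ a) <
      κ * (κ ^ 7 / (2 * (((13 ^ 8 : ℕ) : ℝ)) ^ 4)) ^ 3 * N)
    (herr : (4 * RigData.etaR κ ((13 ^ 8 : ℕ) : ℝ) Kf (N * h) r a lm0 + 6 * r) / sep ≤ err) :
    ∃ s0 c0 C0 E0 : ℝ, |s0| ≤ 2 / sep ∧ |c0| ≤ 1 ∧ |C0| ≤ 1 ∧ |E0| ≤ 1 ∧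
      ∃ L' ⊆ g.L, mL * ((κ ^ 2 / ((13 ^ 8 : ℕ) : ℝ)) ^ 6 * κ / (8 * ((13 ^ 8 : ℕ) : ℝ)) *
          (κ₀ ^ 2 * (g.L.card : ℝ))) ≤ Mu * ((81 ^ 8 : ℕ) * (L'.card : ℝ)) ∧
        ∀ l ∈ L', |u l - (E0 - s0 * ((t l).v 1 - c0))| ≤ err + (3 + 2 * (2 / sep)) * δ ∧
          |(t l).v 2 - (C0 + E0 * ((t l).v 1 - c0) - s0 * ((t l).v 1 - c0) ^ 2 / 2)| ≤
            err + (3 + 2 * (2 / sep)) * δ := by
  classical
  have hNr : (0 : ℝ) < N := by exact_mod_cast hN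
  have hLpos : (0 : ℝ) < g.L.card := by exact_mod_cast hL.card_pos
  have hLgpos : (0 : ℝ) < Lg.card := lt_of_lt_of_le (by positivity) hLgc
  have hLsL : Ls ⊆ g.L := hLsLg.trans hLg
  have hLsne : Ls.Nonempty := by
    obtain ⟨l, hl⟩ : Lg.Nonempty := by rw [← Finset.card_pos]; exact_mod_cast hLgpos
    obtain ⟨i, hi, -⟩ := hrep l hl
    exact ⟨i, hi⟩
  have hali : ∀ i ∈ g.L, ∃ k, (i, k) ∈ g.I := by
    intro i hi
    have h1 := hline i hi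
    have h2 : (0 : ℝ) < g.Z.card := by exact_mod_cast hZ.card_pos
    have h3 : (0 : ℝ) < (g.hts i).card := lt_of_lt_of_le (by positivity) h1
    obtain ⟨k, hk⟩ : (g.hts i).Nonempty := by
      rw [← Finset.card_pos]; exact_mod_cast h3
    exact ⟨k, (RCfg.mem_hts.1 hk).2⟩
  have hDat := AR.rigData_of (h := h) (κ := κ) (N := N) (w := w) (kst := kst) (Ls := Ls) hδ hh hhδ
    hNh hmuh hN hκ hinj (fun l hl => le_trans (mul_le_mul_of_nonneg_right hκκ hNr.le)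
      (hal l (hLsLg hl)))
  -- counting
  have c1 := lines_le_cells AR.toARel0 hδ hMu.le htol hZ hline hcu hLg
  rw [← hLsc] at c1
  have c2 := (lines_le_dirs AR.toARel0 hδ hMd.le htol hZ hline hdu hLg).trans
    (mul_le_mul_of_nonneg_right (Nat.cast_le.2 (card_le_card (dirs_reps hrep))) hMd.le)
  have c3 : κ₀ * ((Ls.image fun l => dirL δ (t l) (u l)).card : ℝ) ≤ MD := by
    have := dirs_le (t := t) (u := u) (δ := δ) hZ hline (fun _ => True) (M := MD) (by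
      intro k
      rw [filter_true]
      exact hdc k) hLsL
    rwa [filter_true] at this
  have c4 : ((pts (fun l => alf g.I g.z h N w kst l)
      (fun l k => posL δ (t l) (fA l (kst k)) (fB (kst k)) (g.z (kst k))) Ls).card : ℝ) ≤
      N * MP := by
    refine pts_card_le Ls (fun l k => posL δ (t l) (fA l k) (fB k) (g.z k)) hMP ?_
    intro k
    refine le_trans ?_ (hpc k)
    refine mod_cast card_le_card (image_subset_image ?_)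
    intro l hl
    obtain ⟨a1, a2⟩ := mem_filter.1 hl
    exact RCfg.mem_slice.2 ⟨hLsL a1, a2⟩
  have c5 : κ₀ ^ 2 * (g.L.card : ℝ) ≤ κ₀ * (Lg.card : ℝ) := by
    calc κ₀ ^ 2 * (g.L.card : ℝ) = κ₀ * (κ₀ * (g.L.card : ℝ)) := by ring
      _ ≤ _ := mul_le_mul_of_nonneg_left hLgc hκ₀.le
  have hcount : κ * ((pts (fun l => alf g.I g.z h N w kst l)
      (fun l k => posL δ (t l) (fA l (kst k)) (fB (kst k)) (g.z (kst k))) Ls).card : ℝ) *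
      ((Ls.image fun l => dirL δ (t l) (u l)).card : ℝ) ≤ N * (Ls.card : ℝ) := by
    set P : ℝ := ((pts (fun l => alf g.I g.z h N w kst l)
      (fun l k => posL δ (t l) (fA l (kst k)) (fB (kst k)) (g.z (kst k))) Ls).card : ℝ) with hP
    set Dn : ℝ := ((Ls.image fun l => dirL δ (t l) (u l)).card : ℝ) with hDn
    have hP0 : 0 ≤ P := Nat.cast_nonneg _
    have hDn0 : 0 ≤ Dn := Nat.cast_nonneg _
    have h1 : (κ * P * Dn) * (κ₀ * Mu) ≤ (N * (Ls.card : ℝ)) * (κ₀ * Mu) := by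
      calc (κ * P * Dn) * (κ₀ * Mu) = κ * Mu * (P * (κ₀ * Dn)) := by ring
        _ ≤ κ * Mu * ((N * MP) * MD) := by
            refine mul_le_mul_of_nonneg_left ?_ (by positivity)
            exact mul_le_mul c4 c3 (by positivity) (by positivity)
        _ = N * (κ * MP * MD * Mu) := by ring
        _ ≤ N * (κ₀ ^ 3 * (g.L.card : ℝ)) := mul_le_mul_of_nonneg_left n1 hNr.le
        _ = N * κ₀ * (κ₀ ^ 2 * (g.L.card : ℝ)) := by ring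
        _ ≤ N * κ₀ * ((Ls.card : ℝ) * Mu) :=
            mul_le_mul_of_nonneg_left (c5.trans c1) (by positivity)
        _ = _ := by ring
    exact le_of_mul_le_mul_right h1 (by positivity)
  have hconc : ∀ i ∈ Ls, (((Ls.filter fun j => |(t j).v 1 - (t i).v 1| ≤ sep).image fun l =>
      dirL δ (t l) (u l)).card : ℝ) ≤ (κ ^ 2 / ((13 ^ 8 : ℕ) : ℝ)) ^ 3 / 4 *
        ((Ls.image fun l => dirL δ (t l) (u l)).card : ℝ) := by
    intro i hi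
    have h1 := dirs_le (t := t) (u := u) (δ := δ) hZ hline
      (fun j => |(t j).v 1 - (t i).v 1| ≤ sep) (M := Mc) (fun k => hcc k _) hLsL
    set X : ℝ := (((Ls.filter fun j => |(t j).v 1 - (t i).v 1| ≤ sep).image fun l =>
      dirL δ (t l) (u l)).card : ℝ) with hX
    set Dn : ℝ := ((Ls.image fun l => dirL δ (t l) (u l)).card : ℝ) with hDn
    set c : ℝ := (κ ^ 2 / ((13 ^ 8 : ℕ) : ℝ)) ^ 3 / 4 with hc
    have hc0 : 0 ≤ c := by rw [hc]; positivity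
    have h2 : X * (κ₀ * Md) ≤ c * Dn * (κ₀ * Md) := by
      calc X * (κ₀ * Md) = (κ₀ * X) * Md := by ring
        _ ≤ Mc * Md := mul_le_mul_of_nonneg_right h1 hMd.le
        _ ≤ c * (κ₀ ^ 3 * (g.L.card : ℝ)) := n2
        _ = c * κ₀ * (κ₀ ^ 2 * (g.L.card : ℝ)) := by ring
        _ ≤ c * κ₀ * (Dn * Md) := mul_le_mul_of_nonneg_left (c5.trans c2) (by positivity)
        _ = _ := by ring
    exact le_of_mul_le_mul_right h2 (by positivity)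
  -- rigidity
  obtain ⟨i0, hi0, s0, hs0, Ls', hLs', hLs'c, hcon⟩ := hDat.rig hκ (by positivity) (lm := lm)
    (lm0 := lm0) (r := r) (a := a) (Kf := Kf) (sep := sep) hlm hlm0 hlm0' hr hδr her hlr ha0 ha1
    hKf hsep0 hsep1 hLsne hN hcount hconc hfib hn hn2
  -- fat lines around the representatives
  have hLs'L : Ls' ⊆ g.L := hLs'.trans hLsL
  have hF0 : ∀ i ∈ Ls', ∃ k, (i, k) ∈ g.I ∧ ∃ F ⊆ g.slice k, mL ≤ (F.card : ℝ) ∧ ∀ l ∈ F,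
      ∀ s ∈ fAll, |coA (t i) (t l) (u i) (u l) (fA i k) (fA l k) (fB k) (g.z k) s| ≤ δ := by
    intro i hi
    obtain ⟨k, hk⟩ := hali i (hLs'L hi)
    exact ⟨k, hk, hcl k i hk⟩
  choose! k0 hk0 F hFs hFc hFn using hF0
  have hFI : ∀ i ∈ Ls', ∀ l ∈ F i, (l, k0 i) ∈ g.I := fun i hi l hl =>
    (RCfg.mem_slice.1 (hFs i hi hl)).2
  have hov := AR.overlap hδ (Ls := Ls') (fun i hi j hj => hinj i (hLs' hi) j (hLs' hj)) k0 F hk0
    (fun i hi l hl => ⟨hFI i hi l hl, hFn i hi l hl⟩)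
  have hun := union_ge Ls' F (m0 := mL) (Bm := 81 ^ 8) hFc hov
  obtain ⟨ki0, hki0⟩ := hali i0 (hLsL hi0)
  have hv0 := AR.v1 _ _ hki0
  have hE0 := AR.E1 _ _ hki0
  refine ⟨s0, (t i0).v 1, (t i0).v 2, u i0, hs0, hv0 1, hv0 2, hE0, Ls'.biUnion F, ?_, ?_, ?_⟩
  · intro l hl
    obtain ⟨i, hi, hl⟩ := mem_biUnion.1 hl
    exact (RCfg.mem_slice.1 (hFs i hi hl)).1
  · set bb : ℝ := ((13 ^ 8 : ℕ) : ℝ) with hbb
    have hbb0 : 0 < bb := by rw [hbb]; positivity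
    rcases le_or_gt mL 0 with hm | hm
    · have h1 : mL * ((κ ^ 2 / bb) ^ 6 * κ / (8 * bb) * (κ₀ ^ 2 * (g.L.card : ℝ))) ≤ 0 :=
        mul_nonpos_of_nonpos_of_nonneg hm (by positivity)
      exact h1.trans (by positivity)
    · have hc0 : 0 ≤ (κ ^ 2 / bb) ^ 6 * κ / (8 * bb) := by positivity
      calc mL * ((κ ^ 2 / bb) ^ 6 * κ / (8 * bb) * (κ₀ ^ 2 * (g.L.card : ℝ)))
          ≤ mL * ((κ ^ 2 / bb) ^ 6 * κ / (8 * bb) * ((Ls.card : ℝ) * Mu)) :=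
            mul_le_mul_of_nonneg_left (mul_le_mul_of_nonneg_left (c5.trans c1) hc0) hm.le
        _ = Mu * (mL * ((κ ^ 2 / bb) ^ 6 * κ / (8 * bb) * (Ls.card : ℝ))) := by ring
        _ ≤ Mu * (mL * (Ls'.card : ℝ)) :=
            mul_le_mul_of_nonneg_left (mul_le_mul_of_nonneg_left hLs'c hm.le) hMu.le
        _ ≤ Mu * ((81 ^ 8 : ℕ) * ((Ls'.biUnion F).card : ℝ)) :=
            mul_le_mul_of_nonneg_left hun hMu.le
  · intro l hl
    obtain ⟨i, hi, hl⟩ := mem_biUnion.1 hl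
    have hIl := hFI i hi l hl
    have hIi := hk0 i hi
    obtain ⟨g1, g2⟩ := hcon i hi
    have hn3 := hFn i hi l hl
    have h2 : |u l - u i| ≤ δ := hn3 2 (by decide)
    have h5 : |(t l).v 1 - (t i).v 1| ≤ δ := hn3 5 (by decide)
    have h6 : |((t l).v 2 - (t i).v 2) - u i * ((t l).v 1 - (t i).v 1)| ≤ δ := hn3 6 (by decide)
    exact conic_transfer hδ.le h2 h5 h6 (AR.E1 _ _ hIi) hE0 (AR.v1 _ _ hIl 1) (AR.v1 _ _ hIi 1)
      (hv0 1) hs0 (g1.trans herr) (g2.trans herr)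

end Crest.Agent.R136.Wk323
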