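import Crest.Agent.R136.Ful7_403

/-!
# R136: a two dimensional block which is not full has one heavy strip (helper403)

`strip_alt_R`: product structure of the class (`ν pS - ν Qc ≤ ν r - ν Qf`: the class has at most as
many velocity cells as one fan) and `ν pT - ν r + 2 t < 2 x` (the block is not full) give ONE strip
`|b · (V - c)| ≤ ρ^(t - δ)` which holds a `ρ^δ`-part of the class.
-/

set_option autoImplicit false
set_option linter.unusedVariables false

open Filter Topology Finset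

namespace Crest.Agent.R136.Ful403

open Crest.Agent.R138.Ex926 (Base U)
open Crest.Agent.R136.Gf356

variable {κ : Type} {B : Base} {G : ℕ → RCfg κ} {Leg : Set (κ → ℝ)} {ν : (κ → ℝ) → ℝ} {D : ℝ}

set_option maxHeartbeats 1000000 in
/-- **heavy strip.** -/
theorem strip_alt_R (hKM : ∀ V : ℝ, Crest.Agent.R138.Tub70.KM32 V) (H : RUnif B G Leg ν D)
    (i0 k0 : ℕ → ℕ)
    (h0 : ∀ᶠ n in (U : Filter ℕ), (i0 n, k0 n) ∈ (G n).I) (pS pT r Qc Qf : κ → ℝ)
    (hpS : pS ∈ Leg) (hpT : pT ∈ Leg) (hr : r ∈ Leg) (hQc : Qc ∈ Leg) (hQf : Qf ∈ Leg)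
    (hTr : ∀ j, pT j ≤ r j) (hSQ : ∀ j, pS j ≤ Qc j) {x t : ℝ}
    (hx : 0 < x)
    (F : ℕ → ℕ → ℕ → Fin 2 → ℝ) (A V : ℕ → ℕ → Fin 2 → ℝ) (φ : ℕ → ℕ → ℝ) (Zg : ℕ → Finset ℕ)
    (hZg : ∀ᶠ n in (U : Filter ℕ), (Zg n).Nonempty) {C1 : ℝ} (hC1 : 0 < C1)
    (hφ : ∀ ε : ℝ, 0 < ε → ∀ᶠ n in (U : Filter ℕ), ∀ k ∈ Zg n, |φ n k| ≤ B.d n ^ (-(C1 * ε)))
    (hA : ∀ ε : ℝ, 0 < ε → ∀ᶠ n in (U : Filter ℕ), ∀ i ∈ (G n).box pS ε (i0 n) (k0 n),
      ∀ i' ∈ (G n).box pS ε (i0 n) (k0 n), ∀ a, |A n i' a - A n i a| ≤ B.d n ^ (-(C1 * ε)))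
    (hV : ∀ ε : ℝ, 0 < ε → ∀ᶠ n in (U : Filter ℕ), ∀ i ∈ (G n).box pS ε (i0 n) (k0 n),
      ∀ i' ∈ (G n).box pS ε (i0 n) (k0 n), ∀ a, |V n i' a - V n i a| ≤ B.d n ^ (-(C1 * ε)))
    (hF : ∀ ε : ℝ, 0 < ε → ∀ᶠ n in (U : Filter ℕ), ∀ k ∈ Zg n,
      ∀ i ∈ (G n).box pS ε (i0 n) (k0 n), (i, k) ∈ (G n).I →
      ∀ i' ∈ (G n).box pS ε (i0 n) (k0 n), (i', k) ∈ (G n).I → ∀ a,
      |F n k i' a - F n k i a - ((A n i' a - A n i a) + φ n k * (V n i' a - V n i a))|
        ≤ B.d n ^ (x - C1 * ε))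
    (hlink : ∀ ε : ℝ, 0 < ε → ∀ᶠ n in (U : Filter ℕ), ∀ k ∈ Zg n,
      ∀ i ∈ (G n).box pS ε (i0 n) (k0 n), (i, k) ∈ (G n).I → ∀ l, (l, k) ∈ (G n).I →
      (G n).loose r ε k i l → ∀ a, |F n k l a - F n k i a| ≤ B.d n ^ (x - C1 * ε))
    (hT : ∀ ε : ℝ, 0 < ε → ∀ᶠ n in (U : Filter ℕ), ∀ k ∈ Zg n,
      ∀ i ∈ (G n).box pS ε (i0 n) (k0 n), ∀ i' ∈ (G n).box pS ε (i0 n) (k0 n),
      (i, k) ∈ (G n).I → (i', k) ∈ (G n).I → (G n).loose pT (C1 * ε) k i i')
    (hal : ∀ ε : ℝ, 0 < ε → ∀ᶠ n in (U : Filter ℕ), ∀ i ∈ (G n).box pS ε (i0 n) (k0 n),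
      ∀ T ⊆ Zg n, (∀ k ∈ Zg n, (i, k) ∈ (G n).I → k ∈ T) →
      B.d n ^ (C1 * ε) * ((Zg n).card : ℝ) ≤ (T.card : ℝ))
    (hfr : ∀ y : ℝ, 0 ≤ y → y ≤ x → ∀ ε : ℝ, 0 < ε → ∀ᶠ n in (U : Filter ℕ), ∀ k ∈ Zg n,
      ∀ T ⊆ Zg n, (∀ k' ∈ T, |φ n k' - φ n k| ≤ B.d n ^ y) →
      (T.card : ℝ) ≤ B.d n ^ (y - ε) * ((Zg n).card : ℝ))
    (hqf : ∀ C3 : ℝ, 0 < C3 → ∃ C4 : ℝ, 0 < C4 ∧ ∀ ε : ℝ, 0 < ε → ∀ᶠ n in (U : Filter ℕ),
      ∀ k ∈ Zg n, ∀ i ∈ (G n).box pS ε (i0 n) (k0 n), (i, k) ∈ (G n).I →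
      ∀ i' ∈ (G n).box pS ε (i0 n) (k0 n), (i', k) ∈ (G n).I →
      (∀ a, |F n k i' a - F n k i a| ≤ B.d n ^ (x - C3 * ε)) →
      (∀ a, |V n i' a - V n i a| ≤ B.d n ^ (t - C3 * ε)) → (G n).loose Qf (C4 * ε) k i i')
    (hql : ∀ ε : ℝ, 0 < ε → ∀ᶠ n in (U : Filter ℕ), ∀ i ∈ (G n).box pS ε (i0 n) (k0 n),
      ∀ l, (l, k0 n) ∈ (G n).I → (G n).loose Qc ε (k0 n) i l → ∀ a,
      |V n l a - V n i a| ≤ B.d n ^ (t - C1 * ε))
    (hprod : ν pS - ν Qc ≤ ν r - ν Qf) (hsize : ν pT ≤ ν pS)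
    (hnf : (ν pT - ν r) + 2 * t < 2 * x) {δ : ℝ} (hδ : 0 < δ) :
    ∀ ε : ℝ, 0 < ε → ε ≤ δ / (2 * D) → ∀ᶠ n in (U : Filter ℕ),
      ∃ b : Fin 2 → ℝ, b 0 ^ 2 + b 1 ^ 2 = 1 ∧ ∃ i1 ∈ (G n).box pS ε (i0 n) (k0 n),
      ∃ T ⊆ (G n).box pS ε (i0 n) (k0 n),
        (∀ i ∈ T, |b 0 * (V n i 0 - V n i1 0) + b 1 * (V n i 1 - V n i1 1)| ≤ B.d n ^ (t - δ)) ∧
        B.d n ^ δ * (((G n).box pS ε (i0 n) (k0 n)).card : ℝ) ≤ (T.card : ℝ) := by
  classical
  have hD := H.D1
  have hD0 : 0 < D := by linarith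
  by_contra hcon
  push Not at hcon
  obtain ⟨ε2, hε2, hε2δ, hneg⟩ := hcon
  -- every strip is light
  have hstar : ∀ᶠ n in (U : Filter ℕ), ∀ b : Fin 2 → ℝ, b 0 ^ 2 + b 1 ^ 2 = 1 →
      ∀ i1 ∈ (G n).box pS ε2 (i0 n) (k0 n), ∀ T ⊆ (G n).box pS ε2 (i0 n) (k0 n),
      (∀ i ∈ T, |b 0 * (V n i 0 - V n i1 0) + b 1 * (V n i 1 - V n i1 1)| ≤ B.d n ^ (t - δ)) →
      (T.card : ℝ) ≤ B.d n ^ δ * (((G n).box pS ε2 (i0 n) (k0 n)).card : ℝ) := by
    filter_upwards [hneg] with n hn b hb i1 hi1 T hT hTs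
    exact (hn b hb i1 hi1 T hT hTs).le
  set μ : ℝ := (ν pS - ν Qc) + ν Qf - (δ - D * ε2) with hμ
  have hDε2 : D * ε2 ≤ δ / 2 := by
    rw [le_div_iff₀ (by positivity)] at hε2δ
    linarith
  have hfan : FanBd B G pS i0 k0 F V Zg x t μ := by
    intro C3 hC3
    obtain ⟨C4, hC4, hqf'⟩ := hqf (C3 + C1 + 1) (by positivity)
    set es : ℝ := min (ε2 / D) (δ / (C3 + C1 + 2)) with hes
    have hes0 : 0 < es := lt_min (by positivity) (by positivity)
    set C5 : ℝ := 2 + D * C4 + (D + |ν pS - μ| / es) with hC5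
    have hC5a : 0 ≤ |ν pS - μ| / es := by positivity
    have hC5p : 0 < C5 := by positivity
    refine ⟨C5, hC5p, ?_⟩
    intro ε hε
    rcases le_total ε es with hle | hle
    · -- small ε
      have hεa : D * ε ≤ ε2 := by
        have h1 : ε ≤ ε2 / D := hle.trans (min_le_left _ _)
        rw [le_div_iff₀ hD0] at h1
        linarith
      have hεb : (C3 + C1 + 2) * ε ≤ δ := by
        have h1 : ε ≤ δ / (C3 + C1 + 2) := hle.trans (min_le_right _ _)
        rw [le_div_iff₀ (by positivity)] at h1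
        linarith
      have hC4ε : 0 < C4 * ε := by positivity
      filter_upwards [hstar, hqf' ε hε, hql ε hε, H.low Qc hQc ε hε, H.up Qf hQf (C4 * ε) hC4ε,
        H.up pS hpS ε2 hε2, H.tri pS hpS ε hε, ev_const_le B hε 9, h0]
        with n hst hq hl hlow hup hupS htri h9 h0n k hk i hi hik b hb T hTS hTp
      have hpow : ∀ t : ℝ, 0 < B.d n ^ t := fun t => rpos B n t
      have h2 : (2 : ℝ) ≤ B.d n ^ (-ε) := by linarith
      -- cells of the velocity
      set wV : ℝ := B.d n ^ (t - C1 * ε) with hwV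
      set lab : ℕ → (Fin 2 → ℤ) := fun i => fun a => ⌊V n i a / wV⌋ with hlab
      have hfib : ∀ c ∈ T.image lab, ((T.filter fun i => lab i = c).card : ℝ) ≤
          B.d n ^ (-ν Qf - D * (C4 * ε)) := by
        intro c hc
        obtain ⟨i1, hi1, rfl⟩ := Finset.mem_image.1 hc
        obtain ⟨hi1k, hi1F, -⟩ := hTp i1 hi1
        refine le_trans ?_ (hup i1 k hi1k)
        refine mod_cast Finset.card_le_card ?_
        intro i' hi'
        obtain ⟨a1, a2⟩ := Finset.mem_filter.1 hi'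
        obtain ⟨hi'k, hi'F, -⟩ := hTp i' a1
        refine RCfg.mem_box.2 ⟨H.memSlice.2 hi'k, ?_⟩
        refine hq k hk i1 (hTS hi1) hi1k i' (hTS a1) hi'k ?_ ?_
        · intro a
          have e1 := hi1F a
          have e2 := hi'F a
          have e3 : |F n k i' a - F n k i1 a| ≤ 2 * B.d n ^ (x - C3 * ε) := by
            have := abs_sub_le (F n k i' a) (F n k i a) (F n k i1 a)
            rw [abs_sub_comm (F n k i a) (F n k i1 a)] at this
            linarith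
          refine e3.trans ((loss_mul B h2).trans (rpow_anti B n ?_))
          nlinarith
        · intro a
          have e2 : ⌊V n i' a / wV⌋ = ⌊V n i1 a / wV⌋ := by
            have := congrFun a2 a
            simpa [hlab] using this
          have h5 := Int.abs_sub_lt_one_of_floor_eq_floor e2
          rw [← sub_div, abs_div, abs_of_pos (hpow _), div_lt_one (hpow _)] at h5
          refine h5.le.trans (rpow_anti B n ?_)
          nlinarith
      have hT1 : (T.card : ℝ) ≤ ((T.image lab).card : ℝ) * B.d n ^ (-ν Qf - D * (C4 * ε)) := by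
        have e1 : (T.card : ℝ) = ∑ c ∈ T.image lab, ((T.filter fun i => lab i = c).card : ℝ) := by
          exact_mod_cast Finset.card_eq_sum_card_fiberwise (f := lab) (s := T) (t := T.image lab)
            (fun i hi => Finset.mem_image_of_mem _ hi)
        rw [e1]
        calc _ ≤ ∑ c ∈ T.image lab, B.d n ^ (-ν Qf - D * (C4 * ε)) := Finset.sum_le_sum hfib
          _ = _ := by rw [Finset.sum_const, nsmul_eq_mul]
      -- number of cells
      have hsubS : (G n).box pS ε (i0 n) (k0 n) ⊆ (G n).box pS ε2 (i0 n) (k0 n) := by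
        intro l hl'
        obtain ⟨l1, l2⟩ := RCfg.mem_box.1 hl'
        exact RCfg.mem_box.2 ⟨l1, H.loose_mono (fun _ => le_rfl) (by nlinarith) l2⟩
      set W := ((G n).box pS ε2 (i0 n) (k0 n)).filter fun l =>
        |b 0 * (V n l 0 - V n i 0) + b 1 * (V n l 1 - V n i 1)| ≤ B.d n ^ (t - δ) with hW
      have hWc : (W.card : ℝ) ≤ B.d n ^ δ * (((G n).box pS ε2 (i0 n) (k0 n)).card : ℝ) :=
        hst b hb i (hsubS hi) W (Finset.filter_subset _ _) (fun l hl' => (Finset.mem_filter.1 hl').2)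
      have hcells := cells_le_abs T W (fun i (a : Fin 2) => V n i a) (fun _ => wV)
        (fun _ => hpow _) (m0 := B.d n ^ (-ν Qc + ε)) (by
          intro l hlT
          have hlS := hTS hlT
          have hlI : (l, k0 n) ∈ (G n).I := H.memSlice.1 (RCfg.box_subset_slice hlS)
          obtain ⟨-, -, hls⟩ := hTp l hlT
          refine ⟨(G n).box Qc ε l (k0 n), ?_, ?_, hlow l (k0 n) hlI⟩
          · intro m hm
            obtain ⟨m1, m2⟩ := RCfg.mem_box.1 hm
            have hmI := H.memSlice.1 m1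
            rw [hW, Finset.mem_filter]
            refine ⟨RCfg.mem_box.2 ⟨m1, ?_⟩, ?_⟩
            · have g1 := (RCfg.mem_box.1 hlS).2
              have g2 : (G n).loose pS ε (k0 n) l m := H.loose_mono hSQ le_rfl m2
              exact H.loose_mono (fun _ => le_rfl) hεa
                (htri (k0 n) (i0 n) l m h0n hlI hmI g1 g2)
            · have g3 := hl l hlS m hmI m2
              have hb0 : |b 0| ≤ 1 := by
                rw [← sq_le_one_iff_abs_le_one]; nlinarith [sq_nonneg (b 1)]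
              have hb1 : |b 1| ≤ 1 := by
                rw [← sq_le_one_iff_abs_le_one]; nlinarith [sq_nonneg (b 0)]
              have g4 : b 0 * (V n m 0 - V n i 0) + b 1 * (V n m 1 - V n i 1) =
                  (b 0 * (V n l 0 - V n i 0) + b 1 * (V n l 1 - V n i 1)) +
                  (b 0 * (V n m 0 - V n l 0) + b 1 * (V n m 1 - V n l 1)) := by ring
              have g5 : |b 0 * (V n m 0 - V n l 0) + b 1 * (V n m 1 - V n l 1)| ≤ 2 * wV := by
                refine (abs_add_le _ _).trans ?_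
                rw [abs_mul, abs_mul]
                have f0 := mul_le_mul hb0 (g3 0) (abs_nonneg _) zero_le_one
                have f1 := mul_le_mul hb1 (g3 1) (abs_nonneg _) zero_le_one
                linarith
              rw [g4]
              refine (abs_add_le _ _).trans ?_
              have g6 : B.d n ^ (t - C3 * ε) ≤ B.d n ^ (t - (C3 + C1) * ε) :=
                rpow_anti B n (by nlinarith)
              have g7 : wV ≤ B.d n ^ (t - (C3 + C1) * ε) := rpow_anti B n (by nlinarith)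
              have g8 : B.d n ^ (t - δ) ≥ B.d n ^ (t - (C3 + C1 + 1) * ε) :=
                rpow_anti B n (by nlinarith)
              have g9 : (3 : ℝ) * B.d n ^ (t - (C3 + C1) * ε) ≤
                  B.d n ^ (t - (C3 + C1) * ε - ε) := loss_mul B (by linarith)
              have g10 : t - (C3 + C1) * ε - ε = t - (C3 + C1 + 1) * ε := by ring
              rw [g10] at g9
              linarith
          · intro m hm a
            obtain ⟨m1, m2⟩ := RCfg.mem_box.1 hm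
            exact hl l hlS m (H.memSlice.1 m1) m2 a)
      have e9 : (3 : ℝ) ^ (Fintype.card (Fin 2)) = 9 := by rw [Fintype.card_fin]; norm_num
      rw [e9] at hcells
      have hupS' := hupS (i0 n) (k0 n) h0n
      have e1 : B.d n ^ (-ν Qc + ε) * B.d n ^ (ν Qc - ε) = 1 := by
        rw [← rpow_add']
        have : -ν Qc + ε + (ν Qc - ε) = 0 := by ring
        rw [this, Real.rpow_zero]
      have hN : ((T.image lab).card : ℝ) ≤
          9 * (B.d n ^ δ * B.d n ^ (-ν pS - D * ε2)) * B.d n ^ (ν Qc - ε) := by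
        calc ((T.image lab).card : ℝ)
            = ((T.image lab).card : ℝ) * (B.d n ^ (-ν Qc + ε) * B.d n ^ (ν Qc - ε)) := by
              rw [e1, mul_one]
          _ = (((T.image lab).card : ℝ) * B.d n ^ (-ν Qc + ε)) * B.d n ^ (ν Qc - ε) := by ring
          _ ≤ (9 * (W.card : ℝ)) * B.d n ^ (ν Qc - ε) :=
              mul_le_mul_of_nonneg_right hcells (hpow _).le
          _ ≤ _ := by
              refine mul_le_mul_of_nonneg_right ?_ (hpow _).le
              refine mul_le_mul_of_nonneg_left ?_ (by norm_num)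
              exact hWc.trans (mul_le_mul_of_nonneg_left hupS' (hpow _).le)
      calc (T.card : ℝ) ≤ ((T.image lab).card : ℝ) * B.d n ^ (-ν Qf - D * (C4 * ε)) := hT1
        _ ≤ (9 * (B.d n ^ δ * B.d n ^ (-ν pS - D * ε2)) * B.d n ^ (ν Qc - ε)) *
              B.d n ^ (-ν Qf - D * (C4 * ε)) := mul_le_mul_of_nonneg_right hN (hpow _).le
        _ = 9 * B.d n ^ (-μ - (1 + D * C4) * ε) := by
            have : B.d n ^ (-μ - (1 + D * C4) * ε) = B.d n ^ δ * B.d n ^ (-ν pS - D * ε2) *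
                B.d n ^ (ν Qc - ε) * B.d n ^ (-ν Qf - D * (C4 * ε)) := by
              rw [← rpow_add', ← rpow_add', ← rpow_add']; congr 1; rw [hμ]; ring
            rw [this]; ring
        _ ≤ B.d n ^ (-μ - (1 + D * C4) * ε - ε) := loss_mul B h9
        _ ≤ B.d n ^ (-μ - C5 * ε) := rpow_anti B n (by
            have : (2 + D * C4) * ε ≤ C5 * ε :=
              mul_le_mul_of_nonneg_right (by rw [hC5]; linarith) hε.le
            linarith)
    · -- large ε: trivial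
      filter_upwards [H.up pS hpS ε hε, h0] with n hup h0n k hk i hi hik b hb T hTS hTp
      have h1 : (T.card : ℝ) ≤ B.d n ^ (-ν pS - D * ε) :=
        le_trans (mod_cast Finset.card_le_card hTS) (hup (i0 n) (k0 n) h0n)
      refine h1.trans (rpow_anti B n ?_)
      have h2 : |ν pS - μ| ≤ |ν pS - μ| / es * ε := by
        rw [div_mul_eq_mul_div, le_div_iff₀ hes0]
        exact mul_le_mul_of_nonneg_left hle (abs_nonneg _)
      have h3 : ν pS - μ ≤ |ν pS - μ| := le_abs_self _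
      have h4 : (D + |ν pS - μ| / es) * ε ≤ C5 * ε := by
        refine mul_le_mul_of_nonneg_right ?_ hε.le
        rw [hC5]
        have : 0 ≤ D * C4 := by positivity
        linarith
      nlinarith
  rcases block_R hKM H i0 k0 h0 pS pT r hpS hpT hr hTr hx F A V φ Zg hZg hC1 hφ hA hV hF hlink hT
    hal hfan hfr with h | h
  · rw [hμ] at h
    linarith
  · linarith

end Crest.Agent.R136.Ful403
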