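import Crest.Agent.R136.RgE6_344
import Crest.Agent.R136.Z2a_403

/-!
# R136 (S0187), RIG_E: heavy strips, part 1 (helper501)

`strip_pin`: around every pin `(e, k0)` of a window of case (E) the narrow box `X_a, C_a ≤ ρ^x` has a
`ρ^δ`-part in one strip of the block velocity (strip alternative of helper403, KAKEYA), for the
scale `s < x (1 - y/2)`.
-/

set_option autoImplicit false
set_option linter.unusedVariables false

open Filter Topology Finset

namespace Crest.Agent.R136.StripE501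

open Crest.Agent.R136.Sh605
open Crest.Agent.R138.Ex926 (Base U)
open Crest.Agent.R136.Gf356
open Crest.Agent.R136.RgN344
open Crest.Agent.R136.RgE344
open Crest.Agent.R136.Wk323 (coA one_le_rpow_neg)

variable {B : Base} {G : ℕ → RCfg (Fin 11)} {Leg : Set (Fin 11 → ℝ)} {ν : (Fin 11 → ℝ) → ℝ}
  {D R x y m β : ℝ} {T : ℕ → ℕ → Ln4} {E fa fb : ℕ → ℕ → ℝ}

/-- block position -/
def pE (T : ℕ → ℕ → Ln4) (n l : ℕ) (z : ℝ) : Fin 2 → ℝ := ![(T n l).pos z 2, (T n l).pos z 0]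

/-- block position at height zero -/
def p0E (T : ℕ → ℕ → Ln4) (n l : ℕ) : Fin 2 → ℝ := ![(T n l).p 2, (T n l).p 0]

theorem pE_eq (T : ℕ → ℕ → Ln4) (n l : ℕ) (z : ℝ) (a : Fin 2) :
    pE T n l z a = p0E T n l a + z * wE T n l a := by
  fin_cases a <;> rfl

theorem qE_b {a b c d : ℝ} {s : Fin 11} (h9 : s ≠ 9) (h10 : s ≠ 10) :
    qE a b c d s = qE a 0 c d s := by
  fin_cases s
  · show (0 : ℝ) = 0
    rfl
  · show (0 : ℝ) = 0
    rfl
  · show (0 : ℝ) = 0
    rfl
  · show (0 : ℝ) = 0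
    rfl
  · show (0 : ℝ) = 0
    rfl
  · show c = c
    rfl
  · show d = d
    rfl
  · show d = d
    rfl
  · show a = a
    rfl
  · exact absurd rfl h9
  · exact absurd rfl h10

theorem loose_b (H : RUnif B G Leg ν D) {a b c d t : ℝ} {n k i l : ℕ}
    (h : (G n).loose (qE a 0 c d) t k i l) (h9 : |(G n).rel k i l 9| ≤ B.d n ^ (b - t))
    (h10 : |(G n).rel k i l 10| ≤ B.d n ^ (b - t)) : (G n).loose (qE a b c d) t k i l := by
  intro s
  by_cases e9 : s = 9
  · have e : qE a b c d 9 = b := rfl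
    rw [e9, e, H.base n]
    exact h9
  by_cases e10 : s = 10
  · have e : qE a b c d 10 = b := rfl
    rw [e10, e, H.base n]
    exact h10
  rw [qE_b e9 e10]
  exact h s

theorem pairE (H : RUnif B G Leg ν D) {p : Fin 11 → ℝ} (hp : p ∈ Leg) {ε : ℝ}
    (hε : 0 < ε) : ∀ᶠ n in (U : Filter ℕ), ∀ i0 k₀, (i0, k₀) ∈ (G n).I →
      ∀ i ∈ (G n).box p ε i0 k₀, ∀ i' ∈ (G n).box p ε i0 k₀,
      (G n).loose p (D * (D * ε)) k₀ i i' := by
  have hD := H.D1
  filter_upwards [H.symm p hp ε hε, H.tri p hp (D * ε) (by positivity)] with n h1 h2 i0 k₀ h0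
    i hi i' hi'
  obtain ⟨a1, a2⟩ := RCfg.mem_box.1 hi
  obtain ⟨b1, b2⟩ := RCfg.mem_box.1 hi'
  have a3 := H.memSlice.1 a1
  have b3 := H.memSlice.1 b1
  exact h2 k₀ i i0 i' a3 h0 b3 (h1 k₀ i0 i h0 a3 a2)
    (H.loose_mono (fun _ => le_rfl) (by nlinarith) b2)

/-- narrow in `X_a` and `C_a`: close at all heights -/
theorem near_of (H : RUnif B G Leg ν D) (A : AbsE B G x T E fa fb) (hx : 0 < x) {ε : ℝ}
    (hε : 0 < ε) :
    ∀ᶠ n in (U : Filter ℕ), ∀ k0 i l, (i, k0) ∈ (G n).I → (l, k0) ∈ (G n).I →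
      (G n).loose (qE x 0 x 0) ε k0 i l → |(T n l).v 1 - (T n i).v 1| ≤ 2 * B.d n ^ (x - ε) ∧
        ∀ z : ℝ, |z| ≤ 1 → |(T n l).pos z 1 - (T n i).pos z 1| ≤ 6 * B.d n ^ (x - ε) := by
  filter_upwards [A.co_le H (p := qE x 0 x 0)
    (fun s => qE_le hx.le le_rfl hx.le le_rfl hx.le s) hε, A.bd] with n h hb k0 i l hi hl hlo
  have h5 : |(T n l).v 1 - (T n i).v 1| ≤ 2 * B.d n ^ (x - ε) := h k0 i l hi hl hlo 5 (by decide)
  have h8 : |(T n l).pos ((G n).z k0) 1 - (T n i).pos ((G n).z k0) 1| ≤ 2 * B.d n ^ (x - ε) :=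
    h k0 i l hi hl hlo 8 (by decide)
  refine ⟨h5, fun z hz => ?_⟩
  have hz0 := (hb i k0 hi).1
  have e1 : (T n l).pos z 1 - (T n i).pos z 1 =
      ((T n l).pos ((G n).z k0) 1 - (T n i).pos ((G n).z k0) 1) +
        (z - (G n).z k0) * ((T n l).v 1 - (T n i).v 1) := by
    show ((T n l).p 1 + z * (T n l).v 1) - ((T n i).p 1 + z * (T n i).v 1) =
      (((T n l).p 1 + (G n).z k0 * (T n l).v 1) - ((T n i).p 1 + (G n).z k0 * (T n i).v 1)) +
        (z - (G n).z k0) * ((T n l).v 1 - (T n i).v 1)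
    ring
  rw [e1]
  have h9 : |z - (G n).z k0| ≤ 2 := (abs_sub _ _).trans (by linarith)
  have h10 : |(z - (G n).z k0) * ((T n l).v 1 - (T n i).v 1)| ≤ 2 * (2 * B.d n ^ (x - ε)) := by
    rw [abs_mul]
    exact mul_le_mul h9 h5 (abs_nonneg _) (by norm_num)
  exact (abs_add_le _ _).trans (by linarith)

theorem eE_le {n k : ℕ} (h1 : |E n k| ≤ 1) (h2 : |fa n k| ≤ 1) (h3 : |fb n k| ≤ 1) (j : Fin 2) :
    |eE E fa fb n k j| ≤ 2 := by
  fin_cases j
  · show |E n k| ≤ 2
    linarith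
  · show |fa n k + fb n k * E n k| ≤ 2
    have h4 : |fb n k * E n k| ≤ 1 := by
      rw [abs_mul]
      calc _ ≤ 1 * (1 : ℝ) := mul_le_mul h3 h1 (abs_nonneg _) (by norm_num)
        _ = 1 := one_mul 1
    exact (abs_add_le _ _).trans (by linarith)

/-- the block velocity from `W'` and `C_a` and conversely -/
theorem w_dE (n k i l : ℕ) (j : Fin 2) :
    wE T n l j - wE T n i j = dE T E fa fb n k i l j +
      eE E fa fb n k j * ((T n l).v 1 - (T n i).v 1) := by
  unfold dE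
  ring

theorem dE_of (n k i l : ℕ) (j : Fin 2) :
    dE T E fa fb n k i l j = (wE T n l j - wE T n i j) -
      eE E fa fb n k j * ((T n l).v 1 - (T n i).v 1) := rfl

/-- block positions from the relative coordinates -/
theorem pos_of (H : RUnif B G Leg ν D) (A : AbsE B G x T E fa fb) (hx : 0 < x) {ε : ℝ}
    (hε : 0 < ε) :
    ∀ᶠ n in (U : Filter ℕ), ∀ k i l, (i, k) ∈ (G n).I → (l, k) ∈ (G n).I →
      (G n).loose (qE x x x 0) ε k i l → ∀ a : Fin 2,
        |pE T n l ((G n).z k) a - pE T n i ((G n).z k) a| ≤ 8 * B.d n ^ (x - ε) := by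
  filter_upwards [A.co_le H (p := qE x x x 0)
    (fun s => qE_le hx.le le_rfl le_rfl le_rfl hx.le s) hε, A.bd] with n h hb k i l hi hl hlo
  obtain ⟨-, -, -, bE, bfa, bfb⟩ := hb i k hi
  have h8 : |(T n l).pos ((G n).z k) 1 - (T n i).pos ((G n).z k) 1| ≤ 2 * B.d n ^ (x - ε) :=
    h k i l hi hl hlo 8 (by decide)
  have h9 : |((T n l).pos ((G n).z k) 2 - (T n i).pos ((G n).z k) 2) -
      E n k * ((T n l).pos ((G n).z k) 1 - (T n i).pos ((G n).z k) 1)| ≤ 2 * B.d n ^ (x - ε) :=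
    h k i l hi hl hlo 9 (by decide)
  have h10 : |((T n l).pos ((G n).z k) 0 - (T n i).pos ((G n).z k) 0) -
      fa n k * ((T n l).pos ((G n).z k) 1 - (T n i).pos ((G n).z k) 1) -
      fb n k * ((T n l).pos ((G n).z k) 2 - (T n i).pos ((G n).z k) 2)| ≤ 2 * B.d n ^ (x - ε) :=
    h k i l hi hl hlo 10 (by decide)
  have hr := rpos B n (x - ε)
  set X := (T n l).pos ((G n).z k) 1 - (T n i).pos ((G n).z k) 1 with hX
  set Y := (T n l).pos ((G n).z k) 2 - (T n i).pos ((G n).z k) 2 with hY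
  set N := (T n l).pos ((G n).z k) 0 - (T n i).pos ((G n).z k) 0 with hN
  have g1 : |E n k * X| ≤ 1 * (2 * B.d n ^ (x - ε)) := by
    rw [abs_mul]; exact mul_le_mul bE h8 (abs_nonneg _) (by norm_num)
  have g2 : |fa n k * X| ≤ 1 * (2 * B.d n ^ (x - ε)) := by
    rw [abs_mul]; exact mul_le_mul bfa h8 (abs_nonneg _) (by norm_num)
  have hY' : |Y| ≤ 4 * B.d n ^ (x - ε) := by
    have e : Y = (Y - E n k * X) + E n k * X := by ring
    rw [e]
    exact (abs_add_le _ _).trans (by linarith)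
  have g3 : |fb n k * Y| ≤ 1 * (4 * B.d n ^ (x - ε)) := by
    rw [abs_mul]; exact mul_le_mul bfb hY' (abs_nonneg _) (by norm_num)
  intro a
  fin_cases a
  · show |Y| ≤ 8 * B.d n ^ (x - ε)
    linarith
  · show |N| ≤ 8 * B.d n ^ (x - ε)
    have e : N = (N - fa n k * X - fb n k * Y) + (fa n k * X + fb n k * Y) := by ring
    rw [e]
    refine (abs_add_le _ _).trans ?_
    have := abs_add_le (fa n k * X) (fb n k * Y)
    linarith

/-- narrow pairs with small block position and block velocity are in the finest box -/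
theorem loose_f (H : RUnif B G Leg ν D) (A : AbsE B G x T E fa fb) (hx : 0 < x) {s : ℝ}
    (hsx : s ≤ x) {t : ℝ} (ht : 0 < t) :
    ∀ᶠ n in (U : Filter ℕ), ∀ k i l, (i, k) ∈ (G n).I → (l, k) ∈ (G n).I →
      |(T n l).v 1 - (T n i).v 1| ≤ 2 * B.d n ^ (x - t) →
      |(T n l).pos ((G n).z k) 1 - (T n i).pos ((G n).z k) 1| ≤ 6 * B.d n ^ (x - t) →
      (∀ a : Fin 2, |pE T n l ((G n).z k) a - pE T n i ((G n).z k) a| ≤ B.d n ^ (x - t)) →
      (∀ a : Fin 2, |wE T n l a - wE T n i a| ≤ B.d n ^ (s - t)) →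
      (G n).loose (qE x x x s) (2 * t) k i l := by
  filter_upwards [A.loose_of H (a := x) (c := x) (d := s) le_rfl le_rfl hsx ht 6, A.bd,
    A.rel t ht, ev_const_le B ht 9] with n h hb hrel hK k i l hi hl hv hp hP hW
  obtain ⟨-, -, -, bE, bfa, bfb⟩ := hb i k hi
  have hr := rpos B n (x - t)
  have hrs := rpos B n (s - t)
  have hxs : B.d n ^ (x - t) ≤ B.d n ^ (s - t) := rpow_anti B n (by linarith)
  have h9c : (9 : ℝ) * B.d n ^ (x - t) ≤ B.d n ^ (x - 2 * t) := by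
    have := loss_mul B (s := x - t) hK
    have e1 : x - t - t = x - 2 * t := by ring
    rwa [e1] at this
  refine loose_b H (h k i l hi hl (fun _ => hp) (fun _ => hv.trans (by linarith)) ?_) ?_ ?_
  · intro _ j
    rw [dE_of]
    have h1 := hW j
    have h2 := eE_le (E := E) (fa := fa) (fb := fb) bE bfa bfb j
    have h3 : |eE E fa fb n k j * ((T n l).v 1 - (T n i).v 1)| ≤ 2 * (2 * B.d n ^ (x - t)) := by
      rw [abs_mul]; exact mul_le_mul h2 hv (abs_nonneg _) (by norm_num)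
    refine (abs_sub _ _).trans ?_
    linarith
  · refine le_trans ?_ h9c
    have h1 := hrel k i l hi hl 9 (by decide)
    have h2 : |(pE T n l ((G n).z k) 0 - pE T n i ((G n).z k) 0) -
        E n k * ((T n l).pos ((G n).z k) 1 - (T n i).pos ((G n).z k) 1)| ≤
        7 * B.d n ^ (x - t) := by
      have h3 : |E n k * ((T n l).pos ((G n).z k) 1 - (T n i).pos ((G n).z k) 1)| ≤
          1 * (6 * B.d n ^ (x - t)) := by
        rw [abs_mul]; exact mul_le_mul bE hp (abs_nonneg _) (by norm_num)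
      refine (abs_sub _ _).trans ?_
      linarith [hP 0]
    change |(G n).rel k i l 9 - ((pE T n l ((G n).z k) 0 - pE T n i ((G n).z k) 0) -
        E n k * ((T n l).pos ((G n).z k) 1 - (T n i).pos ((G n).z k) 1))| ≤ _ at h1
    rw [abs_le] at *
    constructor <;> linarith [h1.1, h1.2, h2.1, h2.2]
  · refine le_trans ?_ h9c
    have h1 := hrel k i l hi hl 10 (by decide)
    have h2 : |(pE T n l ((G n).z k) 1 - pE T n i ((G n).z k) 1) -
        fa n k * ((T n l).pos ((G n).z k) 1 - (T n i).pos ((G n).z k) 1) -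
        fb n k * (pE T n l ((G n).z k) 0 - pE T n i ((G n).z k) 0)| ≤
        8 * B.d n ^ (x - t) := by
      have h3 : |fa n k * ((T n l).pos ((G n).z k) 1 - (T n i).pos ((G n).z k) 1)| ≤
          1 * (6 * B.d n ^ (x - t)) := by
        rw [abs_mul]; exact mul_le_mul bfa hp (abs_nonneg _) (by norm_num)
      have h4 : |fb n k * (pE T n l ((G n).z k) 0 - pE T n i ((G n).z k) 0)| ≤
          1 * (1 * B.d n ^ (x - t)) := by
        rw [abs_mul]
        exact mul_le_mul bfb (by rw [one_mul]; exact hP 0) (abs_nonneg _) (by norm_num)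
      refine (abs_sub _ _).trans ?_
      have h5 := abs_sub (pE T n l ((G n).z k) 1 - pE T n i ((G n).z k) 1)
        (fa n k * ((T n l).pos ((G n).z k) 1 - (T n i).pos ((G n).z k) 1))
      linarith [hP 1]
    change |(G n).rel k i l 10 - ((pE T n l ((G n).z k) 1 - pE T n i ((G n).z k) 1) -
        fa n k * ((T n l).pos ((G n).z k) 1 - (T n i).pos ((G n).z k) 1) -
        fb n k * (pE T n l ((G n).z k) 0 - pE T n i ((G n).z k) 0))| ≤ _ at h1
    rw [abs_le] at *
    constructor <;> linarith [h1.1, h1.2, h2.1, h2.2]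

/-- block velocity in the class `Qc` -/
theorem vel_of (H : RUnif B G Leg ν D) (A : AbsE B G x T E fa fb) (hx : 0 < x) {s : ℝ}
    (hs : 0 ≤ s) (hsx : s ≤ x) {ε : ℝ} (hε : 0 < ε) :
    ∀ᶠ n in (U : Filter ℕ), ∀ k i l, (i, k) ∈ (G n).I → (l, k) ∈ (G n).I →
      (G n).loose (qE x 0 x s) ε k i l → ∀ a : Fin 2,
        |wE T n l a - wE T n i a| ≤ 8 * B.d n ^ (s - ε) := by
  filter_upwards [A.co_le H (p := qE x 0 x s)
    (fun j => qE_le hx.le le_rfl hx.le le_rfl hsx j) hε, A.bd] with n h hb k i l hi hl hlo a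
  obtain ⟨-, -, -, bE, bfa, bfb⟩ := hb i k hi
  have h5 : |(T n l).v 1 - (T n i).v 1| ≤ 2 * B.d n ^ (x - ε) := h k i l hi hl hlo 5 (by decide)
  have h6 := h k i l hi hl hlo 6 (by decide)
  have h7 := h k i l hi hl hlo 7 (by decide)
  have h8 := dE_le (T := T) (E := E) (fa := fa) (fb := fb) bfb h6 h7 a
  have h8' : |dE T E fa fb n k i l a| ≤ 2 * (2 * B.d n ^ (s - ε)) := h8
  have hxs : B.d n ^ (x - ε) ≤ B.d n ^ (s - ε) := rpow_anti B n (by linarith)
  have h9 : |eE E fa fb n k a * ((T n l).v 1 - (T n i).v 1)| ≤ 2 * (2 * B.d n ^ (x - ε)) := by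
    rw [abs_mul]
    exact mul_le_mul (eE_le bE bfa bfb a) h5 (abs_nonneg _) (by norm_num)
  rw [w_dE (E := E) (fa := fa) (fb := fb) n k i l a]
  exact (abs_add_le _ _).trans (by linarith)

end Crest.Agent.R136.StripE501
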