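import Crest.Agent.R136.WkES1_501

/-!
# R136 (S0187), RIG_E: heavy strips, part 2 (helper501): `strip_pin`
-/

set_option autoImplicit false
set_option linter.unusedVariables false

open Filter Topology Finset

namespace Crest.Agent.R136.StripE501

open Crest.Agent.R136.Sh605
open Crest.Agent.R138.Ex926 (Base U)
open Crest.Agent.R136.Gf356
open Crest.Agent.R136.RgN344
open Crest.Agent.R136.RgE344
open Crest.Agent.R136.Ful403 (strip_alt_R)
open Crest.Agent.R136.Wk323 (coA one_le_rpow_neg)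

variable {B : Base} {G : ℕ → RCfg (Fin 11)} {Leg : Set (Fin 11 → ℝ)} {ν : (Fin 11 → ℝ) → ℝ}
  {D R x y m β : ℝ} {T : ℕ → ℕ → Ln4} {E fa fb : ℕ → ℕ → ℝ}

/-- the conclusion at one pin -/
def Pin (B : Base) (G : ℕ → RCfg (Fin 11)) (x s δ ε : ℝ) (T : ℕ → ℕ → Ln4) (n e k0 : ℕ) : Prop :=
  ∃ b : Fin 2 → ℝ, b 0 ^ 2 + b 1 ^ 2 = 1 ∧ ∃ i1 ∈ (G n).box (qE x 0 x 0) ε e k0,
    ∃ T' ⊆ (G n).box (qE x 0 x 0) ε e k0,
      (∀ i ∈ T', |b 0 * (wE T n i 0 - wE T n i1 0) + b 1 * (wE T n i 1 - wE T n i1 1)| ≤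
        B.d n ^ (s - δ)) ∧
      B.d n ^ δ * (((G n).box (qE x 0 x 0) ε e k0).card : ℝ) ≤ (T'.card : ℝ)

theorem p_le {n l : ℕ} {z : ℝ} (hz : |z| ≤ 1) (hp : ∀ j, |(T n l).pos z j| ≤ 1)
    (hv : ∀ j, |(T n l).v j| ≤ 1) (j : Fin 3) : |(T n l).p j| ≤ 2 := by
  have h1 := hp j
  have h2 := hv j
  have e1 : (T n l).p j = (T n l).pos z j - z * (T n l).v j := by
    show (T n l).p j = ((T n l).p j + z * (T n l).v j) - z * (T n l).v j
    ring
  have h3 : |z * (T n l).v j| ≤ 1 * 1 := by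
    rw [abs_mul]; exact mul_le_mul hz h2 (abs_nonneg _) (by norm_num)
  rw [e1]
  exact (abs_sub _ _).trans (by linarith)

set_option maxHeartbeats 1000000 in
/-- **strip alternative along a sequence of pins** -/
theorem strip_seq (hKM : ∀ V : ℝ, Crest.Agent.R138.Tub70.KM32 V) (H : RModel B G 1 R Leg ν D)
    (hxR : x ≤ R) (A : AbsE B G x T E fa fb) (P : ProfE Leg ν x y m β) {s : ℝ} (hs : 0 < s)
    (hsx : s < x * (1 - y / 2)) (i0 k0 : ℕ → ℕ) (h0 : ∀ n, (i0 n, k0 n) ∈ (G n).I)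
    {δ : ℝ} (hδ : 0 < δ) {ε : ℝ} (hε : 0 < ε) (hεδ : ε ≤ δ / (2 * D)) :
    ∀ᶠ n in (U : Filter ℕ), Pin B G x s δ ε T n (i0 n) (k0 n) := by
  have hD := H.D1
  have hD0 : 0 < D := by linarith
  have hD2 : 1 ≤ D * D := by nlinarith
  have hx := P.x0
  have hy0 := P.y0
  have hy2 := P.y2
  have hm0 := P.m0
  have hβ0 := P.β0
  have hsx' : s ≤ x := by nlinarith
  have l1 : qE x 0 x 0 ∈ Leg := P.leg _ _ _ _ hx.le le_rfl le_rfl hx.le hx.le le_rfl le_rfl hx.le
  have l2 : qE x x x 0 ∈ Leg := P.leg _ _ _ _ hx.le le_rfl hx.le le_rfl hx.le le_rfl le_rfl hx.le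
  have l3 : qE x 0 x s ∈ Leg := P.leg _ _ _ _ hx.le le_rfl le_rfl hx.le hx.le le_rfl hs.le hsx'
  have l4 : qE x x x s ∈ Leg := P.leg _ _ _ _ hx.le le_rfl hx.le le_rfl hx.le le_rfl hs.le hsx'
  have f1 : ν (qE x 0 x 0) = ν (qE 0 0 0 0) - (x + y * 0 + m * x + β * 0) :=
    P.form _ _ _ _ le_rfl hx.le le_rfl le_rfl hx.le hx.le le_rfl
  have f2 : ν (qE x x x 0) = ν (qE 0 0 0 0) - (x + y * x + m * x + β * 0) :=
    P.form _ _ _ _ le_rfl hx.le le_rfl hx.le le_rfl hx.le le_rfl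
  have f3 : ν (qE x 0 x s) = ν (qE 0 0 0 0) - (x + y * 0 + m * x + β * s) :=
    P.form _ _ _ _ hs.le hsx' le_rfl le_rfl hx.le hx.le le_rfl
  have f4 : ν (qE x x x s) = ν (qE 0 0 0 0) - (x + y * x + m * x + β * s) :=
    P.form _ _ _ _ hs.le hsx' le_rfl hx.le le_rfl hx.le le_rfl
  have hTr : ∀ j, qE x 0 x 0 j ≤ qE x x x 0 j := by
    intro j
    by_cases h9 : j = 9
    · rw [h9]; show (0 : ℝ) ≤ x; exact hx.le
    by_cases h10 : j = 10
    · rw [h10]; show (0 : ℝ) ≤ x; exact hx.le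
    exact (qE_b (b := x) h9 h10).symm.le
  have hSQ : ∀ j, qE x 0 x 0 j ≤ qE x 0 x s j := by
    intro j
    fin_cases j
    · show (0 : ℝ) ≤ 0; exact le_rfl
    · show (0 : ℝ) ≤ 0; exact le_rfl
    · show (0 : ℝ) ≤ 0; exact le_rfl
    · show (0 : ℝ) ≤ 0; exact le_rfl
    · show (0 : ℝ) ≤ 0; exact le_rfl
    · show x ≤ x; exact le_rfl
    · show (0 : ℝ) ≤ s; exact hs.le
    · show (0 : ℝ) ≤ s; exact hs.le
    · show x ≤ x; exact le_rfl
    · show (0 : ℝ) ≤ 0; exact le_rfl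
    · show (0 : ℝ) ≤ 0; exact le_rfl
  set C1 : ℝ := 2 * (D * D) + 2 with hC1
  have hC1p : 0 < C1 := by positivity
  -- facts
  have hpr : ∀ ε : ℝ, 0 < ε → ∀ᶠ n in (U : Filter ℕ),
      ∀ i ∈ (G n).box (qE x 0 x 0) ε (i0 n) (k0 n), ∀ i' ∈ (G n).box (qE x 0 x 0) ε (i0 n) (k0 n),
      |(T n i').v 1 - (T n i).v 1| ≤ 2 * B.d n ^ (x - D * (D * ε)) ∧
        ∀ z : ℝ, |z| ≤ 1 → |(T n i').pos z 1 - (T n i).pos z 1| ≤ 6 * B.d n ^ (x - D * (D * ε)) := by
    intro ε hε
    filter_upwards [pairE H.toRUnif l1 hε, near_of H.toRUnif A hx (ε := D * (D * ε))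
      (by positivity)] with n h1 h2 i hi i' hi'
    exact h2 (k0 n) i i' (H.memSlice.1 (RCfg.box_subset_slice hi))
      (H.memSlice.1 (RCfg.box_subset_slice hi')) (h1 (i0 n) (k0 n) (h0 n) i hi i' hi')
  have hcst : ∀ (K : ℝ) (ε : ℝ), 0 < ε → ∀ᶠ n in (U : Filter ℕ), K ≤ B.d n ^ (-(C1 * ε)) := by
    intro K ε hε
    exact ev_const_le B (by positivity) K
  have key := strip_alt_R hKM H.toRUnif i0 k0 (Eventually.of_forall h0) (qE x 0 x 0) (qE x 0 x 0)
    (qE x x x 0) (qE x 0 x s) (qE x x x s) l1 l1 l2 l3 l4 hTr hSQ (x := x) (t := s) hx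
    (fun n k l => pE T n l ((G n).z k)) (p0E T) (wE T) (fun n k => (G n).z k) (fun n => (G n).Z)
    (Eventually.of_forall fun n => Z_nonempty H.toRUnif n) hC1p
    (by
      -- hφ
      intro ε hε
      filter_upwards [A.bd, hcst 1 ε hε, H.slice 1 one_pos] with n hb h1 hsl k hk
      have hLp := L_pos H.toRUnif n
      have h3 : (0 : ℝ) < ((G n).slice k).card :=
        lt_of_lt_of_le (mul_pos (rpos B n 1) hLp) (hsl k hk)
      have h4 : ((G n).slice k).Nonempty := by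
        rw [← Finset.card_pos]; exact_mod_cast h3
      obtain ⟨l, hl⟩ := h4
      exact (hb l k (H.memSlice.1 hl)).1.trans h1)
    (by
      -- hA
      intro ε hε
      filter_upwards [A.bd, hcst 4 ε hε] with n hb h1 i hi i' hi' a
      obtain ⟨z1, p1, v1, -⟩ := hb i (k0 n) (H.memSlice.1 (RCfg.box_subset_slice hi))
      obtain ⟨z2, p2, v2, -⟩ := hb i' (k0 n) (H.memSlice.1 (RCfg.box_subset_slice hi'))
      refine le_trans ?_ h1
      have g1 := p_le (T := T) z1 p1 v1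
      have g2 := p_le (T := T) z2 p2 v2
      fin_cases a
      · show |(T n i').p 2 - (T n i).p 2| ≤ 4
        exact (abs_sub _ _).trans (by linarith [g1 2, g2 2])
      · show |(T n i').p 0 - (T n i).p 0| ≤ 4
        exact (abs_sub _ _).trans (by linarith [g1 0, g2 0]))
    (by
      -- hV
      intro ε hε
      filter_upwards [A.bd, hcst 4 ε hε] with n hb h1 i hi i' hi' a
      obtain ⟨z1, p1, v1, -⟩ := hb i (k0 n) (H.memSlice.1 (RCfg.box_subset_slice hi))
      obtain ⟨z2, p2, v2, -⟩ := hb i' (k0 n) (H.memSlice.1 (RCfg.box_subset_slice hi'))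
      refine le_trans ?_ h1
      fin_cases a
      · show |(T n i').v 2 - (T n i).v 2| ≤ 4
        exact (abs_sub _ _).trans (by linarith [v1 2, v2 2])
      · show |(T n i').v 0 - (T n i).v 0| ≤ 4
        exact (abs_sub _ _).trans (by linarith [v1 0, v2 0]))
    (by
      -- hF
      intro ε hε
      refine Eventually.of_forall fun n k hk i hi hik i' hi' hi'k a => ?_
      have e1 : pE T n i' ((G n).z k) a - pE T n i ((G n).z k) a -
          ((p0E T n i' a - p0E T n i a) + (G n).z k * (wE T n i' a - wE T n i a)) = 0 := by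
        rw [pE_eq, pE_eq]; ring
      rw [e1, abs_zero]
      exact (rpos B n _).le)
    (by
      -- hlink
      intro ε hε
      filter_upwards [pos_of H.toRUnif A hx hε, ev_const_le B hε 8] with n h h8 k hk i hi hik l hl
        hlo a
      refine (h k i l hik hl hlo a).trans ((loss_mul B h8).trans (rpow_anti B n ?_))
      nlinarith)
    (by
      -- hT
      intro ε hε
      filter_upwards [hpr ε hε, A.loose_of H.toRUnif (a := x) (c := x) (d := 0) le_rfl le_rfl hx.le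
        (ε := D * (D * ε)) (by positivity) 6, A.bd] with n h1 h2 hb k hk i hi i' hi' hik hi'k
      obtain ⟨g1, g2⟩ := h1 i hi i' hi'
      have hr := rpos B n (x - D * (D * ε))
      have h3 := h2 k i i' hik hi'k (fun _ => g2 _ (hb i k hik).1) (fun _ => by linarith)
        (fun h => absurd h (lt_irrefl _))
      refine H.loose_mono (fun _ => le_rfl) ?_ h3
      nlinarith)
    (by
      -- hal
      intro ε hε
      filter_upwards [H.line ε hε] with n h i hi T' hT' hall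
      have hiL : i ∈ (G n).L := (RCfg.mem_slice.1 (RCfg.box_subset_slice hi)).1
      have h1 := h i hiL
      have h2 : (((G n).hts i).card : ℝ) ≤ (T'.card : ℝ) := by
        refine mod_cast Finset.card_le_card fun k hk => ?_
        obtain ⟨a1, a2⟩ := RCfg.mem_hts.1 hk
        exact hall k a1 a2
      refine le_trans (mul_le_mul_of_nonneg_right (rpow_anti B n ?_) (Nat.cast_nonneg _))
        (h1.trans h2)
      nlinarith)
    (by
      -- hfr
      intro t ht0 htx ε hε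
      filter_upwards [H.frost t ht0 (htx.trans hxR) ε hε] with n h k hk T' hT' hcl
      have h1 := h k hk
      rw [one_mul] at h1
      refine le_trans ?_ h1
      refine mod_cast Finset.card_le_card fun k' hk' => ?_
      unfold RCfg.hbox
      refine Finset.mem_filter.2 ⟨hT' hk', ?_⟩
      rw [H.base n]
      exact hcl k' hk')
    (by
      -- hqf
      intro C3 hC3
      refine ⟨2 * (C3 + D * D), by positivity, fun ε hε => ?_⟩
      have ht : 0 < (C3 + D * D) * ε := by positivity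
      filter_upwards [hpr ε hε, loose_f H.toRUnif A hx hsx' ht, A.bd] with n h1 h2 hb k hk i hi hik
        i' hi' hi'k hF hV
      obtain ⟨g1, g2⟩ := h1 i hi i' hi'
      have e1 : B.d n ^ (x - D * (D * ε)) ≤ B.d n ^ (x - (C3 + D * D) * ε) :=
        rpow_anti B n (by nlinarith)
      have h3 := h2 k i i' hik hi'k (g1.trans (by linarith))
        ((g2 _ (hb i k hik).1).trans (by linarith))
        (fun a => (hF a).trans (rpow_anti B n (by nlinarith)))
        (fun a => (hV a).trans (rpow_anti B n (by nlinarith)))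
      have e2 : 2 * ((C3 + D * D) * ε) = 2 * (C3 + D * D) * ε := by ring
      rwa [e2] at h3)
    (by
      -- hql
      intro ε hε
      filter_upwards [vel_of H.toRUnif A hx hs.le hsx' hε, ev_const_le B hε 8] with n h h8 i hi l hl
        hlo a
      have hI := H.memSlice.1 (RCfg.box_subset_slice hi)
      refine (h (k0 n) i l hI hl hlo a).trans ((loss_mul B h8).trans (rpow_anti B n ?_))
      nlinarith)
    (by rw [f1, f2, f3, f4]; linarith) le_rfl (by rw [f1, f2]; nlinarith) hδ ε hε hεδ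
  exact key

/-- **strip alternative at all pins** -/
theorem strip_pin (hKM : ∀ V : ℝ, Crest.Agent.R138.Tub70.KM32 V) (H : RModel B G 1 R Leg ν D)
    (hxR : x ≤ R) (A : AbsE B G x T E fa fb) (P : ProfE Leg ν x y m β) {s : ℝ} (hs : 0 < s)
    (hsx : s < x * (1 - y / 2)) {δ : ℝ} (hδ : 0 < δ) {ε : ℝ} (hε : 0 < ε)
    (hεδ : ε ≤ δ / (2 * D)) :
    ∀ᶠ n in (U : Filter ℕ), ∀ e k0, (e, k0) ∈ (G n).I → Pin B G x s δ ε T n e k0 := by
  classical
  have hc : ∀ n, ∃ q : ℕ × ℕ, (q.1, q.2) ∈ (G n).I ∧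
      ((∃ q' : ℕ × ℕ, (q'.1, q'.2) ∈ (G n).I ∧ ¬ Pin B G x s δ ε T n q'.1 q'.2) →
        ¬ Pin B G x s δ ε T n q.1 q.2) := by
    intro n
    by_cases hex : ∃ q' : ℕ × ℕ, (q'.1, q'.2) ∈ (G n).I ∧ ¬ Pin B G x s δ ε T n q'.1 q'.2
    · obtain ⟨q', h1, h2⟩ := hex
      exact ⟨q', h1, fun _ => h2⟩
    · obtain ⟨q, hq⟩ := H.nonempty n
      exact ⟨q, hq, fun h => absurd h hex⟩
  choose c hc1 hc2 using hc
  filter_upwards [strip_seq hKM H hxR A P hs hsx (fun n => (c n).1) (fun n => (c n).2) hc1 hδ hε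
    hεδ] with n hn e k0 he
  by_contra hcon
  exact hc2 n ⟨(e, k0), he, hcon⟩ hn

end Crest.Agent.R136.StripE501
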