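import Crest.Agent.R136.WkES2_501

/-!
# R136 (S0187), RIG_E: heavy strips, part 3 (helper501): finite counting and the strip at one
incidence
-/

set_option autoImplicit false
set_option linter.unusedVariables false

open Filter Topology Finset

namespace Crest.Agent.R136.StripE501

open Crest.Agent.R136.Sh605
open Crest.Agent.R138.Ex926 (Base U)
open Crest.Agent.R136.Gf356
open Crest.Agent.R136.RgN344
open Crest.Agent.R136.RgE344
open Crest.Agent.R136.Wk323 (coA one_le_rpow_neg)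

/-! ### finite counting -/

open Classical in
/-- lines with many good heights -/
theorem good_part (al : ℕ → ℕ → Prop) [∀ i k, Decidable (al i k)] (good : ℕ → Prop)
    (Z T : Finset ℕ) {κ₀ : ℝ} (h0 : 0 < κ₀)
    (hZ : 0 < (Z.card : ℝ))
    (hline : ∀ i ∈ T, κ₀ * (Z.card : ℝ) ≤ ((Z.filter fun k => al i k).card : ℝ))
    (hbad : ∀ k, ¬ good k → ((T.filter fun j => al j k).card : ℝ) ≤ κ₀ / 2 * (T.card : ℝ)) :
    κ₀ / 4 * (T.card : ℝ) ≤ ((T.filter fun i => κ₀ / 4 * (Z.card : ℝ) ≤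
      ((Z.filter fun k => al i k ∧ good k).card : ℝ)).card : ℝ) := by
  obtain ⟨g, hg⟩ : ∃ g : ℕ → ℝ, ∀ i, ((Z.filter fun k => al i k ∧ good k).card : ℝ) = g i :=
    ⟨_, fun _ => rfl⟩
  simp only [hg]
  set T' := T.filter fun i => κ₀ / 4 * (Z.card : ℝ) ≤ g i with hT'
  -- split
  have h1 : ∑ i ∈ T, ((Z.filter fun k => al i k).card : ℝ) =
      ∑ i ∈ T, g i + ∑ i ∈ T, ((Z.filter fun k => al i k ∧ ¬ good k).card : ℝ) := by
    rw [← Finset.sum_add_distrib]
    refine Finset.sum_congr rfl fun i _ => ?_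
    have := Finset.card_filter_add_card_filter_not (s := Z.filter fun k => al i k) (fun k => good k)
    rw [Finset.filter_filter, Finset.filter_filter] at this
    rw [← hg]
    exact_mod_cast this.symm
  -- the bad part
  have h2 : ∑ i ∈ T, ((Z.filter fun k => al i k ∧ ¬ good k).card : ℝ) ≤
      κ₀ / 2 * (T.card : ℝ) * (Z.card : ℝ) := by
    have e1 : ∑ i ∈ T, ((Z.filter fun k => al i k ∧ ¬ good k).card : ℝ) =
        ∑ i ∈ T, ∑ k ∈ Z, (if al i k ∧ ¬ good k then (1 : ℝ) else 0) := by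
      refine Finset.sum_congr rfl fun i _ => ?_
      rw [Finset.card_filter]; push_cast; rfl
    rw [e1, Finset.sum_comm]
    have e2 : ∀ k ∈ Z, ∑ i ∈ T, (if al i k ∧ ¬ good k then (1 : ℝ) else 0) ≤
        κ₀ / 2 * (T.card : ℝ) := by
      intro k _
      by_cases hk : good k
      · have : ∑ i ∈ T, (if al i k ∧ ¬ good k then (1 : ℝ) else 0) = 0 := by
          refine Finset.sum_eq_zero fun i _ => ?_
          rw [if_neg]; exact fun h => h.2 hk
        rw [this]; positivity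
      · have : ∑ i ∈ T, (if al i k ∧ ¬ good k then (1 : ℝ) else 0) =
            ((T.filter fun j => al j k).card : ℝ) := by
          rw [Finset.card_filter]; push_cast
          refine Finset.sum_congr rfl fun i _ => ?_
          by_cases hi : al i k
          · rw [if_pos ⟨hi, hk⟩, if_pos hi]
          · rw [if_neg (fun h => hi h.1), if_neg hi]
        rw [this]
        exact hbad k hk
    calc _ ≤ ∑ k ∈ Z, κ₀ / 2 * (T.card : ℝ) := Finset.sum_le_sum e2
      _ = _ := by rw [Finset.sum_const, nsmul_eq_mul]; ring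
  have h3 : κ₀ * (Z.card : ℝ) * (T.card : ℝ) ≤ ∑ i ∈ T, ((Z.filter fun k => al i k).card : ℝ) := by
    calc κ₀ * (Z.card : ℝ) * (T.card : ℝ) = ∑ i ∈ T, κ₀ * (Z.card : ℝ) := by
          rw [Finset.sum_const, nsmul_eq_mul]; ring
      _ ≤ _ := Finset.sum_le_sum hline
  -- the lines of `T'`
  have h4 : ∑ i ∈ T, g i ≤ (T'.card : ℝ) * (Z.card : ℝ) + κ₀ / 4 * (Z.card : ℝ) * (T.card : ℝ) := by
    rw [← Finset.sum_filter_add_sum_filter_not T (fun i => κ₀ / 4 * (Z.card : ℝ) ≤ g i)]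
    refine add_le_add ?_ ?_
    · calc ∑ i ∈ T.filter (fun i => κ₀ / 4 * (Z.card : ℝ) ≤ g i), g i ≤
          ∑ i ∈ T.filter (fun i => κ₀ / 4 * (Z.card : ℝ) ≤ g i), (Z.card : ℝ) := by
            refine Finset.sum_le_sum fun i _ => ?_
            rw [← hg]
            exact_mod_cast Finset.card_le_card (Finset.filter_subset _ _)
        _ = _ := by rw [Finset.sum_const, nsmul_eq_mul]
    · calc ∑ i ∈ T.filter (fun i => ¬ κ₀ / 4 * (Z.card : ℝ) ≤ g i), g i ≤
          ∑ i ∈ T.filter (fun i => ¬ κ₀ / 4 * (Z.card : ℝ) ≤ g i), κ₀ / 4 * (Z.card : ℝ) := by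
            refine Finset.sum_le_sum fun i hi => ?_
            exact (not_le.1 (Finset.mem_filter.1 hi).2).le
        _ = ((T.filter (fun i => ¬ κ₀ / 4 * (Z.card : ℝ) ≤ g i)).card : ℝ) *
            (κ₀ / 4 * (Z.card : ℝ)) := by rw [Finset.sum_const, nsmul_eq_mul]
        _ ≤ (T.card : ℝ) * (κ₀ / 4 * (Z.card : ℝ)) := by
            refine mul_le_mul_of_nonneg_right ?_ (by positivity)
            exact_mod_cast Finset.card_le_card (Finset.filter_subset _ _)
        _ = _ := by ring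
  have h5 : κ₀ / 4 * (T.card : ℝ) * (Z.card : ℝ) ≤ (T'.card : ℝ) * (Z.card : ℝ) := by
    nlinarith
  exact le_of_mul_le_mul_right h5 hZ

/-- double count -/
theorem double_count (S M : Finset ℕ) (T' : ℕ → Finset ℕ) {a b : ℝ} (hM : ∀ e ∈ S, T' e ⊆ M)
    (ha : ∀ e ∈ S, a ≤ ((T' e).card : ℝ))
    (hb : ∀ i ∈ M, ((S.filter fun e => i ∈ T' e).card : ℝ) ≤ b) :
    (S.card : ℝ) * a ≤ (M.card : ℝ) * b := by
  calc (S.card : ℝ) * a = ∑ e ∈ S, a := by rw [Finset.sum_const, nsmul_eq_mul]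
    _ ≤ ∑ e ∈ S, ((T' e).card : ℝ) := Finset.sum_le_sum ha
    _ = ∑ e ∈ S, ∑ i ∈ M, (if i ∈ T' e then (1 : ℝ) else 0) := by
        refine Finset.sum_congr rfl fun e he => ?_
        have h1 : T' e = M.filter fun i => i ∈ T' e := by
          ext i
          rw [Finset.mem_filter]
          exact ⟨fun h => ⟨hM e he h, h⟩, fun h => h.2⟩
        conv_lhs => rw [h1]
        rw [Finset.card_filter]; push_cast; rfl
    _ = ∑ i ∈ M, ∑ e ∈ S, (if i ∈ T' e then (1 : ℝ) else 0) := Finset.sum_comm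
    _ = ∑ i ∈ M, ((S.filter fun e => i ∈ T' e).card : ℝ) := by
        refine Finset.sum_congr rfl fun i _ => ?_
        rw [Finset.card_filter]; push_cast; rfl
    _ ≤ ∑ i ∈ M, b := Finset.sum_le_sum hb
    _ = _ := by rw [Finset.sum_const, nsmul_eq_mul]

open Classical in
/-- incidences over a set of lines -/
theorem inc_count (I : Finset (ℕ × ℕ)) (M Z : Finset ℕ) (good : ℕ → ℕ → Prop) {a : ℝ}
    (h : ∀ i ∈ M, a ≤ ((Z.filter fun k => (i, k) ∈ I ∧ good i k).card : ℝ)) :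
    (M.card : ℝ) * a ≤ ((I.filter fun q => q.1 ∈ M ∧ good q.1 q.2).card : ℝ) := by
  have h1 : (I.filter fun q => q.1 ∈ M ∧ good q.1 q.2).card =
      ∑ i ∈ M, ((I.filter fun q => q.1 ∈ M ∧ good q.1 q.2).filter fun q => q.1 = i).card :=
    Finset.card_eq_sum_card_fiberwise fun q hq => (Finset.mem_filter.1 hq).2.1
  rw [h1]
  push_cast
  calc (M.card : ℝ) * a = ∑ i ∈ M, a := by rw [Finset.sum_const, nsmul_eq_mul]
    _ ≤ _ := by
        refine Finset.sum_le_sum fun i hi => (h i hi).trans ?_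
        refine mod_cast Finset.card_le_card_of_injOn (fun k => (i, k)) ?_ ?_
        · intro k hk
          obtain ⟨b1, b2, b3⟩ := Finset.mem_filter.1 (Finset.mem_coe.1 hk)
          refine Finset.mem_coe.2 (Finset.mem_filter.2 ⟨Finset.mem_filter.2 ⟨b2, hi, b3⟩, rfl⟩)
        · intro k _ k' _ hkk
          exact (Prod.mk.inj hkk).2

/-! ### the strip at one incidence -/

variable {B : Base} {G : ℕ → RCfg (Fin 11)} {Leg : Set (Fin 11 → ℝ)} {ν : (Fin 11 → ℝ) → ℝ}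
  {D R x y m β : ℝ} {T : ℕ → ℕ → Ln4} {E fa fb : ℕ → ℕ → ℝ}

theorem dE_add (n k i l m : ℕ) (j : Fin 2) :
    dE T E fa fb n k i m j = dE T E fa fb n k i l j + dE T E fa fb n k l m j := by
  unfold dE
  ring

theorem unit_le {b : Fin 2 → ℝ} (hb : b 0 ^ 2 + b 1 ^ 2 = 1) (j : Fin 2) : |b j| ≤ 1 := by
  rw [← sq_le_one_iff_abs_le_one]
  fin_cases j
  · show b 0 ^ 2 ≤ 1
    nlinarith [sq_nonneg (b 1)]
  · show b 1 ^ 2 ≤ 1
    nlinarith [sq_nonneg (b 0)]

theorem dot_le {b v : Fin 2 → ℝ} (hb : b 0 ^ 2 + b 1 ^ 2 = 1) {t : ℝ} (h : ∀ j, |v j| ≤ t) :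
    |b 0 * v 0 + b 1 * v 1| ≤ 2 * t := by
  have h0 : |b 0 * v 0| ≤ 1 * t := by
    rw [abs_mul]; exact mul_le_mul (unit_le hb 0) (h 0) (abs_nonneg _) (by norm_num)
  have h1 : |b 1 * v 1| ≤ 1 * t := by
    rw [abs_mul]; exact mul_le_mul (unit_le hb 1) (h 1) (abs_nonneg _) (by norm_num)
  exact (abs_add_le _ _).trans (by linarith)

open Classical in
set_option maxHeartbeats 1000000 in
/-- **the strip at one incidence**: a `ρ^(δ - ν pS + 3 ε)`-set `S` of lines in one narrow box and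
one strip, all alive at `k`, gives `ρ^(s + ε₀) #L` lines of the slice in the strip around each of
its points -/
theorem strip_inc (H : RModel B G 1 R Leg ν D) (A : AbsE B G x T E fa fb)
    (P : ProfE Leg ν x y m β) {s : ℝ} (hs : 0 < s) (hsx : s ≤ x) {ε₀ δ ε : ℝ} (hε₀ : 0 < ε₀)
    (hδ : δ ≤ ε₀ / 4) (hδ0 : 0 < δ) (hε : 0 < ε) (hεδ : D * D * ε ≤ δ)
    (hεs : (9 + D + D * (2 * (D * D))) * ε ≤ ε₀ / 4) :
    ∀ᶠ n in (U : Filter ℕ), ∀ e k0, (e, k0) ∈ (G n).I → ∀ k, ∀ b : Fin 2 → ℝ,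
      b 0 ^ 2 + b 1 ^ 2 = 1 → ∀ S ⊆ (G n).box (qE x 0 x 0) ε e k0, (∀ i ∈ S, (i, k) ∈ (G n).I) →
      (∀ i ∈ S, ∀ l ∈ S, |b 0 * (wE T n l 0 - wE T n i 0) + b 1 * (wE T n l 1 - wE T n i 1)| ≤
        2 * B.d n ^ (s - δ)) →
      B.d n ^ (δ - ν (qE x 0 x 0) + 3 * ε) ≤ (S.card : ℝ) → ∀ i ∈ S,
      ∃ W ⊆ (G n).slice k, B.d n ^ (s + ε₀) * ((G n).L.card : ℝ) ≤ (W.card : ℝ) ∧
      ∀ l ∈ W, |(T n l).pos ((G n).z k) 1 - (T n i).pos ((G n).z k) 1| ≤ B.d n ^ (s - ε₀) ∧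
        |b 0 * dE T E fa fb n k i l 0 + b 1 * dE T E fa fb n k i l 1| ≤ B.d n ^ (s - ε₀) := by
  have hD := H.D1
  have hD0 : 0 < D := by linarith
  have hD2 : 1 ≤ D * D := by nlinarith
  have hx := P.x0
  have hm0 := P.m0
  have hβ0 := P.β0
  have l1 : qE x 0 x 0 ∈ Leg := P.leg _ _ _ _ hx.le le_rfl le_rfl hx.le hx.le le_rfl le_rfl hx.le
  have l3 : qE x 0 x s ∈ Leg := P.leg _ _ _ _ hx.le le_rfl le_rfl hx.le hx.le le_rfl hs.le hsx
  have l5 : qE s 0 0 s ∈ Leg := P.leg _ _ _ _ hs.le hsx le_rfl hx.le le_rfl hx.le hs.le hsx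
  have f1 : ν (qE x 0 x 0) = ν (qE 0 0 0 0) - (x + y * 0 + m * x + β * 0) :=
    P.form _ _ _ _ le_rfl hx.le le_rfl le_rfl hx.le hx.le le_rfl
  have f3 : ν (qE x 0 x s) = ν (qE 0 0 0 0) - (x + y * 0 + m * x + β * s) :=
    P.form _ _ _ _ hs.le hsx le_rfl le_rfl hx.le hx.le le_rfl
  have f5 : ν (qE s 0 0 s) = ν (qE 0 0 0 0) - (s + y * 0 + m * 0 + β * s) :=
    P.form _ _ _ _ hs.le le_rfl hsx le_rfl hx.le le_rfl hx.le
  have hε1 : 0 < D * (D * ε) := by positivity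
  filter_upwards [pairE H.toRUnif l1 hε, near_of H.toRUnif A hx (ε := D * (D * ε)) hε1,
    A.loose_of H.toRUnif (a := x) (c := x) (d := s) le_rfl le_rfl hsx (ε := D * (D * ε)) hε1 6,
    card_le_lab H.toRUnif (qE x 0 x s) l3 (C := 2 * (D * D)) (by positivity) hε, A.bd,
    A.co_le H.toRUnif (p := qE s 0 0 s) (fun j => qE_le hx.le hsx hx.le hx.le hsx j) hε,
    H.low (qE s 0 0 s) l5 ε hε,
    lines_le H (qE 0 0 0 0) P.zero (Cb := 1) one_pos (bd_zero A H.toRUnif) hε,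
    ev_const_le B (t := ε₀ / 2) (by positivity) 18, ev_const_le B hε 10]
    with n hpair hnear hloose hlab hb hco hlow hL h18 h10 e k0 he k b hbu S hS hSk hstrip hcard i hi
  have hpow : ∀ t : ℝ, 0 < B.d n ^ t := fun t => rpos B n t
  have heε : B.d n ^ (x - D * (D * ε)) ≤ B.d n ^ (s - δ) := rpow_anti B n (by nlinarith)
  have hesδ : B.d n ^ (s - ε) ≤ B.d n ^ (s - δ) := rpow_anti B n (by nlinarith)
  have h18' : 18 * B.d n ^ (s - δ) ≤ B.d n ^ (s - ε₀) := by
    refine (loss_mul B (s := s - δ) h18).trans (rpow_anti B n (by linarith))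
  have hSI : ∀ l ∈ S, (l, k0) ∈ (G n).I := fun l hl =>
    H.memSlice.1 (RCfg.box_subset_slice (hS hl))
  have hSn : ∀ l ∈ S, ∀ l' ∈ S, |(T n l').v 1 - (T n l).v 1| ≤ 2 * B.d n ^ (x - D * (D * ε)) ∧
      |(T n l').pos ((G n).z k) 1 - (T n l).pos ((G n).z k) 1| ≤ 6 * B.d n ^ (x - D * (D * ε)) := by
    intro l hl l' hl'
    obtain ⟨g1, g2⟩ := hnear k0 l l' (hSI l hl) (hSI l' hl')
      (hpair e k0 he l (hS hl) l' (hS hl'))
    exact ⟨g1, g2 _ (hb l k (hSk l hl)).1⟩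
  obtain ⟨-, -, -, bE, bfa, bfb⟩ := hb i k (hSk i hi)
  -- strip for `dE` inside `S`
  have hdS : ∀ l ∈ S, |b 0 * dE T E fa fb n k i l 0 + b 1 * dE T E fa fb n k i l 1| ≤
      10 * B.d n ^ (s - δ) := by
    intro l hl
    have g1 := hstrip i hi l hl
    have g2 := (hSn i hi l hl).1
    have g3 : |b 0 * (eE E fa fb n k 0 * ((T n l).v 1 - (T n i).v 1)) +
        b 1 * (eE E fa fb n k 1 * ((T n l).v 1 - (T n i).v 1))| ≤
        2 * (2 * (2 * B.d n ^ (x - D * (D * ε)))) := by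
      refine dot_le (v := fun j => eE E fa fb n k j * ((T n l).v 1 - (T n i).v 1)) hbu fun j => ?_
      rw [abs_mul]
      exact mul_le_mul (eE_le bE bfa bfb j) g2 (abs_nonneg _) (by norm_num)
    have e1 : b 0 * dE T E fa fb n k i l 0 + b 1 * dE T E fa fb n k i l 1 =
        (b 0 * (wE T n l 0 - wE T n i 0) + b 1 * (wE T n l 1 - wE T n i 1)) -
        (b 0 * (eE E fa fb n k 0 * ((T n l).v 1 - (T n i).v 1)) +
        b 1 * (eE E fa fb n k 1 * ((T n l).v 1 - (T n i).v 1))) := by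
      rw [dE_of, dE_of]; ring
    rw [e1]
    refine (abs_sub _ _).trans ?_
    linarith
  set F : ℕ → Fin 2 → ℝ := fun l j => wE T n l j - eE E fa fb n k j * (T n l).v 1 with hF
  have hFd : ∀ l l' j, F l' j - F l j = dE T E fa fb n k l l' j := by
    intro l l' j
    rw [hF, dE_of]; ring
  -- number of labels
  have hlabS := hlab k S (fun l hl => H.memSlice.2 (hSk l hl)) (Fin 2 → ℤ)
    (fun l => gl (B.d n ^ s) (F l)) (by
      intro l hl l' hl' heq
      obtain ⟨g1, g2⟩ := hSn l hl l' hl'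
      have h3 := hloose k l l' (hSk l hl) (hSk l' hl') (fun _ => g2)
        (fun _ => g1.trans (by linarith [hpow (x - D * (D * ε))])) (by
          intro _ j
          have g3 := abs_sub_lt_of_gl_eq (hpow s) heq.symm j
          rw [hFd] at g3
          have g4 : B.d n ^ s ≤ B.d n ^ (s - D * (D * ε)) := rpow_anti B n (by linarith)
          linarith [hpow (s - D * (D * ε))])
      have e1 : 2 * (D * (D * ε)) = 2 * (D * D) * ε := by ring
      rwa [e1] at h3)
  set N : ℝ := ((S.image fun l => gl (B.d n ^ s) (F l)).card : ℝ) with hN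
  set W := ((G n).slice k).filter fun l =>
    |(T n l).pos ((G n).z k) 1 - (T n i).pos ((G n).z k) 1| ≤ B.d n ^ (s - ε₀) ∧
    |b 0 * dE T E fa fb n k i l 0 + b 1 * dE T E fa fb n k i l 1| ≤ B.d n ^ (s - ε₀) with hW
  refine ⟨W, Finset.filter_subset _ _, ?_, fun l hl => (Finset.mem_filter.1 hl).2⟩
  have hgrid := grid_count S W F (δ := B.d n ^ s) (w := 4 * B.d n ^ (s - ε))
    (m0 := B.d n ^ (-ν (qE s 0 0 s) + ε)) (hpow s)
    (mul_nonneg (by norm_num) (hpow _).le) (by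
      intro l hl
      have hlk := hSk l hl
      obtain ⟨-, -, -, bE', bfa', bfb'⟩ := hb l k hlk
      refine ⟨(G n).box (qE s 0 0 s) ε l k, ?_, ?_, hlow l k hlk⟩
      · intro l' hl'
        obtain ⟨m1, m2⟩ := RCfg.mem_box.1 hl'
        have hI' := H.memSlice.1 m1
        have c8 : |(T n l').pos ((G n).z k) 1 - (T n l).pos ((G n).z k) 1| ≤
          2 * B.d n ^ (s - ε) := hco k l l' hlk hI' m2 8 (by decide)
        have c6 := hco k l l' hlk hI' m2 6 (by decide)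
        have c7 := hco k l l' hlk hI' m2 7 (by decide)
        have hd : ∀ j, |dE T E fa fb n k l l' j| ≤ 2 * (2 * B.d n ^ (s - ε)) := fun j =>
          dE_le (T := T) (E := E) (fa := fa) (fb := fb) bfb' c6 c7 j
        rw [hW, Finset.mem_filter]
        refine ⟨m1, ?_, ?_⟩
        · have g1 := (hSn i hi l hl).2
          have g2 := abs_sub_le ((T n l').pos ((G n).z k) 1) ((T n l).pos ((G n).z k) 1)
            ((T n i).pos ((G n).z k) 1)
          linarith [hpow (s - δ)]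
        · have g1 := hdS l hl
          have g2 := dot_le (v := dE T E fa fb n k l l') hbu hd
          rw [dE_add n k i l l' 0, dE_add n k i l l' 1]
          have e1 : b 0 * (dE T E fa fb n k i l 0 + dE T E fa fb n k l l' 0) +
              b 1 * (dE T E fa fb n k i l 1 + dE T E fa fb n k l l' 1) =
              (b 0 * dE T E fa fb n k i l 0 + b 1 * dE T E fa fb n k i l 1) +
              (b 0 * dE T E fa fb n k l l' 0 + b 1 * dE T E fa fb n k l l' 1) := by ring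
          rw [e1]
          refine (abs_add_le _ _).trans ?_
          linarith
      · intro l' hl' j
        obtain ⟨m1, m2⟩ := RCfg.mem_box.1 hl'
        have hI' := H.memSlice.1 m1
        have c6 := hco k l l' hlk hI' m2 6 (by decide)
        have c7 := hco k l l' hlk hI' m2 7 (by decide)
        have hd : |dE T E fa fb n k l l' j| ≤ 2 * (2 * B.d n ^ (s - ε)) :=
          dE_le (T := T) (E := E) (fa := fa) (fb := fb) bfb' c6 c7 j
        rw [hFd]
        linarith)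
  rw [← hN] at hgrid
  have hwt : 2 * (4 * B.d n ^ (s - ε)) / B.d n ^ s + 2 ≤ B.d n ^ (-(2 * ε)) := by
    have e1 : B.d n ^ (s - ε) = B.d n ^ (-ε) * B.d n ^ s := by
      rw [← rpow_add']; congr 1; ring
    have e2 : 2 * (4 * B.d n ^ (s - ε)) / B.d n ^ s = 8 * B.d n ^ (-ε) := by
      rw [e1]
      have := (hpow s).ne'
      field_simp
      ring
    have e3 : (1 : ℝ) ≤ B.d n ^ (-ε) := one_le_rpow_neg B n hε.le
    have e4 : B.d n ^ (-(2 * ε)) = B.d n ^ (-ε) * B.d n ^ (-ε) := by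
      rw [← rpow_add']; congr 1; ring
    rw [e2, e4]
    have e5 : 10 * B.d n ^ (-ε) ≤ B.d n ^ (-ε) * B.d n ^ (-ε) :=
      mul_le_mul_of_nonneg_right h10 (hpow _).le
    linarith
  have hWlow : N * B.d n ^ (-ν (qE s 0 0 s) + ε) ≤ B.d n ^ (-(4 * ε)) * (W.card : ℝ) := by
    refine hgrid.trans (mul_le_mul_of_nonneg_right ?_ (Nat.cast_nonneg _))
    calc (2 * (4 * B.d n ^ (s - ε)) / B.d n ^ s + 2) ^ 2 ≤ (B.d n ^ (-(2 * ε))) ^ 2 :=
          pow_le_pow_left₀ (by
            have h1 := hpow (s - ε)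
            have h2 := hpow s
            have h3 : 0 ≤ 2 * (4 * B.d n ^ (s - ε)) / B.d n ^ s := div_nonneg (by linarith) h2.le
            linarith) hwt 2
      _ = B.d n ^ (-(4 * ε)) := by rw [sq, ← rpow_add']; congr 1; ring
  have hNlow : B.d n ^ (δ - ν (qE x 0 x 0) + ν (qE x 0 x s) + (3 + D * (2 * (D * D))) * ε) ≤ N := by
    have h1 := hcard.trans hlabS
    have e1 : B.d n ^ (δ - ν (qE x 0 x 0) + 3 * ε) =
        B.d n ^ (δ - ν (qE x 0 x 0) + ν (qE x 0 x s) + (3 + D * (2 * (D * D))) * ε) *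
          B.d n ^ (-ν (qE x 0 x s) - D * (2 * (D * D)) * ε) := by
      rw [← rpow_add']; congr 1; ring
    rw [e1] at h1
    exact le_of_mul_le_mul_right h1 (hpow _)
  have hfin : B.d n ^ (δ - ν (qE 0 0 0 0) + s + (8 + D * (2 * (D * D))) * ε) ≤ (W.card : ℝ) := by
    have h1 := (mul_le_mul_of_nonneg_right hNlow
      (hpow (-ν (qE s 0 0 s) + ε)).le).trans hWlow
    have e1 : B.d n ^ (δ - ν (qE x 0 x 0) + ν (qE x 0 x s) + (3 + D * (2 * (D * D))) * ε) *
        B.d n ^ (-ν (qE s 0 0 s) + ε) =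
        B.d n ^ (-(4 * ε)) * B.d n ^ (δ - ν (qE 0 0 0 0) + s + (8 + D * (2 * (D * D))) * ε) := by
      rw [← rpow_add', ← rpow_add']
      congr 1
      rw [f1, f3, f5]
      ring
    rw [e1] at h1
    exact le_of_mul_le_mul_left h1 (hpow _)
  refine le_trans ?_ hfin
  calc B.d n ^ (s + ε₀) * ((G n).L.card : ℝ)
      ≤ B.d n ^ (s + ε₀) * B.d n ^ (-ν (qE 0 0 0 0) - (D * 1 + 1) * ε) :=
        mul_le_mul_of_nonneg_left hL (hpow _).le
    _ = B.d n ^ (s + ε₀ + (-ν (qE 0 0 0 0) - (D * 1 + 1) * ε)) := by rw [← rpow_add']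
    _ ≤ _ := rpow_anti B n (by nlinarith)

end Crest.Agent.R136.StripE501
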