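import Crest.Agent.R136.WkES3_501

/-!
# R136 (S0187), RIG_E: heavy strips, part 4 (helper501): `stripsE`
-/

set_option autoImplicit false
set_option linter.unusedVariables false

open Filter Topology Finset

namespace Crest.Agent.R136.StripE501

open Crest.Agent.R136.Sh605
open Crest.Agent.R138.Ex926 (Base U)
open Crest.Agent.R136.Gf356
open Crest.Agent.R136.RgN344
open Crest.Agent.R136.RgE344
open Crest.Agent.R136.Wk323 (coA one_le_rpow_neg)

variable {B : Base} {G : ℕ → RCfg (Fin 11)} {Leg : Set (Fin 11 → ℝ)} {ν : (Fin 11 → ℝ) → ℝ}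
  {D R x y m β : ℝ} {T : ℕ → ℕ → Ln4} {E fa fb : ℕ → ℕ → ℝ}

open Classical in
set_option maxHeartbeats 1000000 in
/-- **heavy strips**: at most incidences `(i, k)` the strip around `i` with the normal `b i` holds a
`ρ^(s + ε)`-part of all lines. -/
theorem stripsE (hKM : ∀ V : ℝ, Crest.Agent.R138.Tub70.KM32 V) (H : RModel B G 1 R Leg ν D)
    (hxR : x ≤ R) (A : AbsE B G x T E fa fb) (P : ProfE Leg ν x y m β) (hβ : 0 < β) {s : ℝ}
    (hs : 0 < s) (hsx : s < x * (1 - y / 2)) : StripsE B G s T E fa fb := by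
  intro ε₀ hε₀
  have hD := H.D1
  have hD0 : 0 < D := by linarith
  have hD2 : 1 ≤ D * D := by nlinarith
  have hx := P.x0
  have hy0 := P.y0
  have hsx' : s ≤ x := by nlinarith
  have l1 : qE x 0 x 0 ∈ Leg := P.leg _ _ _ _ hx.le le_rfl le_rfl hx.le hx.le le_rfl le_rfl hx.le
  set δ : ℝ := ε₀ / 4 with hδd
  have hδ : 0 < δ := by positivity
  set K : ℝ := 9 + 2 * D + D * D + D * (2 * (D * D)) with hK
  have hK0 : 0 < K := by positivity
  set ε : ℝ := δ / K with hεd
  have hε : 0 < ε := by positivity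
  have hKε : K * ε = δ := by
    rw [hεd]; field_simp
  have q1 : 0 ≤ D * ε := by positivity
  have q2 : 0 ≤ D * D * ε := by positivity
  have q3 : 0 ≤ D * (2 * (D * D)) * ε := by positivity
  have hKε' : 9 * ε + 2 * (D * ε) + D * D * ε + D * (2 * (D * D)) * ε = δ := by
    rw [← hKε, hK]; ring
  have a1 : D * D * ε ≤ δ := by linarith
  have a2 : (9 + D + D * (2 * (D * D))) * ε ≤ ε₀ / 4 := by
    have e1 : (9 + D + D * (2 * (D * D))) * ε = 9 * ε + D * ε + D * (2 * (D * D)) * ε := by ring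
    rw [e1]; linarith
  have a3 : ε ≤ δ / (2 * D) := by
    rw [le_div_iff₀ (by positivity)]
    linarith
  have a4 : δ + (6 + D * D) * ε ≤ ε₀ := by
    have e1 : (6 + D * D) * ε = 6 * ε + D * D * ε := by ring
    rw [e1]; linarith
  filter_upwards [strip_pin hKM H hxR A P hs hsx hδ hε a3,
    strip_inc H A P hs hsx' hε₀ le_rfl hδ hε a1 a2, H.low (qE x 0 x 0) l1 ε hε,
    H.up (qE x 0 x 0) l1 (D * ε) (by positivity), H.symm (qE x 0 x 0) l1 ε hε, H.line ε hε,
    H.slice ε hε, ev_const_le B hε 4] with n hpin hinc hlow hup hsymm hline hslice h4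
  obtain ⟨⟨i1, k0⟩, hI1⟩ := H.nonempty n
  have hk0 : k0 ∈ (G n).Z := H.memZ hI1
  have hpow : ∀ t : ℝ, 0 < B.d n ^ t := fun t => rpos B n t
  have hZpos : (0 : ℝ) < (G n).Z.card := by exact_mod_cast (Finset.card_pos.2 ⟨k0, hk0⟩)
  have hLpos := L_pos H.toRUnif n
  -- `ρ^ε ≤ 1/4`
  have hquart : B.d n ^ ε * 4 ≤ 1 := by
    have e1 : B.d n ^ ε * B.d n ^ (-ε) = 1 := by rw [← rpow_add', add_neg_cancel, Real.rpow_zero]
    calc B.d n ^ ε * 4 ≤ B.d n ^ ε * B.d n ^ (-ε) := mul_le_mul_of_nonneg_left h4 (hpow _).le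
      _ = 1 := e1
  have hstep : ∀ t c : ℝ, 1 / 4 ≤ c → B.d n ^ (t + ε) ≤ c * B.d n ^ t := by
    intro t c hc
    rw [rpow_add']
    have := hpow t
    nlinarith
  -- the strips at the pins over the height `k0`
  have hpin' : ∀ e, ∃ (b : Fin 2 → ℝ) (T' : Finset ℕ), b 0 ^ 2 + b 1 ^ 2 = 1 ∧
      (e ∈ (G n).slice k0 → T' ⊆ (G n).box (qE x 0 x 0) ε e k0 ∧
      (∀ i ∈ T', ∀ l ∈ T', |b 0 * (wE T n l 0 - wE T n i 0) + b 1 * (wE T n l 1 - wE T n i 1)| ≤
        2 * B.d n ^ (s - δ)) ∧ B.d n ^ (δ - ν (qE x 0 x 0) + ε) ≤ (T'.card : ℝ)) := by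
    intro e
    by_cases he : e ∈ (G n).slice k0
    · have heI := H.memSlice.1 he
      obtain ⟨b, hb, i2, -, T', hT', hstr, hc⟩ := hpin e k0 heI
      refine ⟨b, T', hb, fun _ => ⟨hT', fun i hi l hl => ?_, ?_⟩⟩
      · have g1 := hstr i hi
        have g2 := hstr l hl
        have e1 : b 0 * (wE T n l 0 - wE T n i 0) + b 1 * (wE T n l 1 - wE T n i 1) =
            (b 0 * (wE T n l 0 - wE T n i2 0) + b 1 * (wE T n l 1 - wE T n i2 1)) -
            (b 0 * (wE T n i 0 - wE T n i2 0) + b 1 * (wE T n i 1 - wE T n i2 1)) := by ring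
        rw [e1]
        exact (abs_sub _ _).trans (by linarith)
      · refine le_trans ?_ hc
        calc B.d n ^ (δ - ν (qE x 0 x 0) + ε) = B.d n ^ δ * B.d n ^ (-ν (qE x 0 x 0) + ε) := by
              rw [← rpow_add']; congr 1; ring
          _ ≤ _ := mul_le_mul_of_nonneg_left (hlow e k0 heI) (hpow _).le
    · exact ⟨![1, 0], ∅, by simp, fun h => absurd h he⟩
  choose b Te hb hTe using hpin'
  obtain ⟨good, hgood⟩ : ∃ good : ℕ → ℕ → Prop, ∀ e k, good e k ↔
      B.d n ^ ε / 2 * ((Te e).card : ℝ) ≤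
        (((Te e).filter fun j => (j, k) ∈ (G n).I).card : ℝ) := ⟨_, fun _ _ => Iff.rfl⟩
  set T' : ℕ → Finset ℕ := fun e => (Te e).filter fun i => B.d n ^ ε / 4 * ((G n).Z.card : ℝ) ≤
    (((G n).Z.filter fun k => (i, k) ∈ (G n).I ∧ good e k).card : ℝ) with hT'
  have hT'sub : ∀ e, T' e ⊆ Te e := fun e => Finset.filter_subset _ _
  have hTeS : ∀ e ∈ (G n).slice k0, Te e ⊆ (G n).slice k0 := fun e he =>
    (hTe e he).1.trans RCfg.box_subset_slice
  have hT'c : ∀ e ∈ (G n).slice k0, B.d n ^ (δ - ν (qE x 0 x 0) + 3 * ε) ≤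
      ((T' e).card : ℝ) := by
    intro e he
    have h1 := good_part (fun i k => (i, k) ∈ (G n).I) (good e) (G n).Z (Te e) (hpow ε) hZpos
      (fun i hi => by
        have hiL : i ∈ (G n).L := (RCfg.mem_slice.1 (hTeS e he hi)).1
        refine (hline i hiL).trans ?_
        refine mod_cast Finset.card_le_card fun k hk => ?_
        obtain ⟨c1, c2⟩ := RCfg.mem_hts.1 hk
        exact Finset.mem_filter.2 ⟨c1, c2⟩)
      (fun k hk => by
        rw [hgood] at hk
        exact (not_le.1 hk).le)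
    refine le_trans ?_ h1
    have h2 := (hTe e he).2.2
    have h3 : B.d n ^ (δ - ν (qE x 0 x 0) + 3 * ε) ≤
        1 / 4 * B.d n ^ (δ - ν (qE x 0 x 0) + 2 * ε) := by
      have := hstep (δ - ν (qE x 0 x 0) + 2 * ε) (1 / 4) le_rfl
      have e1 : δ - ν (qE x 0 x 0) + 2 * ε + ε = δ - ν (qE x 0 x 0) + 3 * ε := by ring
      rwa [e1] at this
    refine h3.trans ?_
    have e2 : B.d n ^ (δ - ν (qE x 0 x 0) + 2 * ε) =
        B.d n ^ ε * B.d n ^ (δ - ν (qE x 0 x 0) + ε) := by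
      rw [← rpow_add']; congr 1; ring
    rw [e2]
    have h5 := mul_le_mul_of_nonneg_left h2 (hpow ε).le
    linarith
  set M : Finset ℕ := ((G n).slice k0).biUnion T' with hM
  have hMc : ∀ i ∈ M, ((((G n).slice k0).filter fun e => i ∈ T' e).card : ℝ) ≤
      B.d n ^ (-ν (qE x 0 x 0) - D * (D * ε)) := by
    intro i hi
    obtain ⟨e, he, hie⟩ := Finset.mem_biUnion.1 hi
    have hiS := hTeS e he (hT'sub e hie)
    have hiI := H.memSlice.1 hiS
    refine le_trans ?_ (hup i k0 hiI)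
    refine mod_cast Finset.card_le_card fun e' he' => ?_
    obtain ⟨d1, d2⟩ := Finset.mem_filter.1 he'
    refine RCfg.mem_box.2 ⟨d1, ?_⟩
    exact hsymm k0 e' i (H.memSlice.1 d1) hiI
      (RCfg.mem_box.1 ((hTe e' d1).1 (hT'sub e' d2))).2
  have hdc := double_count ((G n).slice k0) M T' (fun e he => Finset.subset_biUnion_of_mem T' he)
    hT'c hMc
  have hMlow : B.d n ^ (δ + (4 + D * D) * ε) * ((G n).L.card : ℝ) ≤ (M.card : ℝ) := by
    have h1 := mul_le_mul_of_nonneg_right (hslice k0 hk0)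
      (hpow (δ - ν (qE x 0 x 0) + 3 * ε)).le
    have h2 := h1.trans hdc
    have e1 : B.d n ^ ε * ((G n).L.card : ℝ) * B.d n ^ (δ - ν (qE x 0 x 0) + 3 * ε) =
        B.d n ^ (δ + (4 + D * D) * ε) * ((G n).L.card : ℝ) *
          B.d n ^ (-ν (qE x 0 x 0) - D * (D * ε)) := by
      have : B.d n ^ ε * B.d n ^ (δ - ν (qE x 0 x 0) + 3 * ε) =
          B.d n ^ (δ + (4 + D * D) * ε) * B.d n ^ (-ν (qE x 0 x 0) - D * (D * ε)) := by
        rw [← rpow_add', ← rpow_add']; congr 1; ring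
      calc B.d n ^ ε * ((G n).L.card : ℝ) * B.d n ^ (δ - ν (qE x 0 x 0) + 3 * ε)
          = (B.d n ^ ε * B.d n ^ (δ - ν (qE x 0 x 0) + 3 * ε)) * ((G n).L.card : ℝ) := by ring
        _ = _ := by rw [this]; ring
    rw [e1] at h2
    exact le_of_mul_le_mul_right h2 (hpow _)
  -- the pins of the lines
  have hpins : ∀ i, ∃ e, i ∈ M → e ∈ (G n).slice k0 ∧ i ∈ T' e := by
    intro i
    by_cases hi : i ∈ M
    · obtain ⟨e, he, hie⟩ := Finset.mem_biUnion.1 hi
      exact ⟨e, fun _ => ⟨he, hie⟩⟩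
    · exact ⟨0, fun h => absurd h hi⟩
  choose ec hec using hpins
  refine ⟨fun i => b (ec i), (G n).I.filter fun q => q.1 ∈ M ∧ good (ec q.1) q.2,
    fun i => hb _, Finset.filter_subset _ _, ?_, ?_⟩
  · -- number of incidences
    have h1 := inc_count (G n).I M (G n).Z (fun i k => good (ec i) k)
      (a := B.d n ^ ε / 4 * ((G n).Z.card : ℝ)) (fun i hi =>
        (Finset.mem_filter.1 (hec i hi).2).2)
    refine le_trans ?_ h1
    have h2 : B.d n ^ (2 * ε) ≤ B.d n ^ ε / 4 := by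
      have := hstep ε (1 / 4) le_rfl
      have e1 : ε + ε = 2 * ε := by ring
      rw [e1] at this
      linarith
    have h3 : B.d n ^ ε₀ ≤ B.d n ^ (δ + (4 + D * D) * ε) * B.d n ^ (2 * ε) := by
      rw [← rpow_add']
      refine rpow_anti B n ?_
      have e1 : δ + (4 + D * D) * ε + 2 * ε = δ + (6 + D * D) * ε := by ring
      rw [e1]; exact a4
    calc B.d n ^ ε₀ * (((G n).L.card : ℝ) * ((G n).Z.card : ℝ))
        ≤ B.d n ^ (δ + (4 + D * D) * ε) * B.d n ^ (2 * ε) *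
            (((G n).L.card : ℝ) * ((G n).Z.card : ℝ)) :=
          mul_le_mul_of_nonneg_right h3 (by positivity)
      _ = (B.d n ^ (δ + (4 + D * D) * ε) * ((G n).L.card : ℝ)) *
            (B.d n ^ (2 * ε) * ((G n).Z.card : ℝ)) := by ring
      _ ≤ (M.card : ℝ) * (B.d n ^ ε / 4 * ((G n).Z.card : ℝ)) := by
          refine mul_le_mul hMlow (mul_le_mul_of_nonneg_right h2 hZpos.le) ?_ (Nat.cast_nonneg _)
          exact mul_nonneg (hpow _).le hZpos.le
  · intro i k hik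
    obtain ⟨hI, hiM, hg⟩ := Finset.mem_filter.1 hik
    obtain ⟨heS, hiT⟩ := hec i hiM
    have hg' := (hgood _ _).1 hg
    obtain ⟨t1, t2, t3⟩ := hTe (ec i) heS
    have hres := hinc (ec i) k0 (H.memSlice.1 heS) k (b (ec i)) (hb _)
      ((Te (ec i)).filter fun j => (j, k) ∈ (G n).I) ((Finset.filter_subset _ _).trans t1)
      (fun j hj => (Finset.mem_filter.1 hj).2)
      (fun j hj l hl => t2 j (Finset.mem_filter.1 hj).1 l (Finset.mem_filter.1 hl).1)
      (by
        refine le_trans ?_ hg'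
        have h3 : B.d n ^ (δ - ν (qE x 0 x 0) + 3 * ε) ≤
            1 / 2 * B.d n ^ (δ - ν (qE x 0 x 0) + 2 * ε) := by
          have := hstep (δ - ν (qE x 0 x 0) + 2 * ε) (1 / 2) (by norm_num)
          have e1 : δ - ν (qE x 0 x 0) + 2 * ε + ε = δ - ν (qE x 0 x 0) + 3 * ε := by ring
          rwa [e1] at this
        refine h3.trans ?_
        have e2 : B.d n ^ (δ - ν (qE x 0 x 0) + 2 * ε) =
            B.d n ^ ε * B.d n ^ (δ - ν (qE x 0 x 0) + ε) := by
          rw [← rpow_add']; congr 1; ring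
        rw [e2]
        have h5 := mul_le_mul_of_nonneg_left t3 (hpow ε).le
        linarith)
      i (Finset.mem_filter.2 ⟨hT'sub _ hiT, hI⟩)
    exact hres

end Crest.Agent.R136.StripE501
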