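import Crest.Agent.R136.WkD_323

/-!
# R136 (S0187): RIG wrapper, GEOMETRY of the labels (helper626, block (G) of helper323)

Labels `posL / dirL / cellL` of `WkD_323` against the relative coordinates `coA`:

* (G1) `posL_near`   (G2) `dirL_near`   (G3) `cell_mult`   (G4) `coA_of_cellL`
* (G5) `cellL_of_coA`   (G6) `posL_of_coA`, `dirL_of_coA`   (G7) `coA_of_posL`, `coA_of_dirL`
* `card_labels_le` : a finset of labels whose components differ by `≤ C` has `≤ (2 C + 1)^m` elements.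
-/

set_option autoImplicit false

namespace Crest.Agent.R136.Wk323

open Finset
open Crest.Agent.R136.Sh605

/-! ### labels -/

theorem floor_close {δ y y' : ℝ} (hδ : 0 < δ) (h : ⌊y / δ⌋ = ⌊y' / δ⌋) : |y' - y| ≤ δ := by
  have h2 := Int.abs_sub_lt_one_of_floor_eq_floor h
  rw [← sub_div, abs_div, abs_of_pos hδ, div_lt_one hδ, abs_sub_comm] at h2
  exact h2.le

theorem floor_near {δ y y' : ℝ} (hδ : 0 < δ) (C : ℕ) (h : |y' - y| ≤ C * δ) :
    |⌊y' / δ⌋ - ⌊y / δ⌋| ≤ (C : ℤ) + 1 := by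
  have h1 : |y' / δ - y / δ| ≤ C := by
    rw [← sub_div, abs_div, abs_of_pos hδ, div_le_iff₀ hδ]
    exact h
  have a1 := Int.floor_le (y / δ)
  have a2 := Int.lt_floor_add_one (y / δ)
  have a3 := Int.floor_le (y' / δ)
  have a4 := Int.lt_floor_add_one (y' / δ)
  rw [abs_le] at h1
  have b1 : ((⌊y' / δ⌋ : ℤ) : ℝ) - (⌊y / δ⌋ : ℤ) < (C : ℝ) + 1 := by linarith [h1.2]
  have b2 : -((C : ℝ) + 1) < ((⌊y' / δ⌋ : ℤ) : ℝ) - (⌊y / δ⌋ : ℤ) := by linarith [h1.1]
  have c1 : ⌊y' / δ⌋ - ⌊y / δ⌋ < (C : ℤ) + 1 := by exact_mod_cast b1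
  have c2 : -((C : ℤ) + 1) < ⌊y' / δ⌋ - ⌊y / δ⌋ := by exact_mod_cast b2
  rw [abs_le]
  exact ⟨c2.le, c1.le⟩

/-- a set of labels with pairwise near components is small -/
theorem card_labels_le {m : ℕ} (S : Finset (Fin m → ℤ)) (C : ℕ)
    (h : ∀ c ∈ S, ∀ c' ∈ S, ∀ s, |c' s - c s| ≤ C) : S.card ≤ (2 * C + 1) ^ m := by
  classical
  rcases S.eq_empty_or_nonempty with rfl | ⟨c0, hc0⟩
  · simp
  have h1 : S ⊆ Fintype.piFinset fun s : Fin m => Finset.Icc (c0 s - C) (c0 s + C) := by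
    intro c hc
    rw [Fintype.mem_piFinset]
    intro s
    rw [Finset.mem_Icc]
    have := abs_le.1 (h c0 hc0 c hc s)
    constructor <;> linarith [this.1, this.2]
  refine (card_le_card h1).trans (le_of_eq ?_)
  rw [Fintype.card_piFinset]
  have h2 : ∀ s : Fin m, (Finset.Icc (c0 s - C) (c0 s + C)).card = 2 * C + 1 := by
    intro s
    rw [Int.card_Icc]
    omega
  simp [h2]

/-- an injectively labelled set with pairwise near labels is small -/
theorem card_le_of_near {ι : Type*} [DecidableEq ι] {m : ℕ} (S : Finset ι) (c : ι → Fin m → ℤ)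
    (hinj : ∀ i ∈ S, ∀ j ∈ S, c i = c j → i = j) (C : ℕ)
    (h : ∀ i ∈ S, ∀ j ∈ S, ∀ s, |c j s - c i s| ≤ C) : S.card ≤ (2 * C + 1) ^ m := by
  classical
  rw [← card_image_of_injOn (f := c) (fun i hi j hj hij => hinj i hi j hj hij)]
  refine card_labels_le _ C ?_
  intro a ha b hb s
  obtain ⟨i, hi, rfl⟩ := mem_image.1 ha
  obtain ⟨j, hj, rfl⟩ := mem_image.1 hb
  exact h i hi j hj s

section pair

variable {T T' : Ln4} {E E' fa fa' fb Fc Fc' z δ : ℝ}

/-- the equalities hidden in equal position labels -/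
theorem posL_raw (hδ : 0 < δ) (h : posL δ T fa fb z = posL δ T' fa' fb z) :
    (∀ k, |T'.pos z k - T.pos z k| ≤ δ) ∧ |fa' - fa| ≤ δ ∧
      |(T'.v 0 - fa' * T'.v 1 - fb * T'.v 2) - (T.v 0 - fa * T.v 1 - fb * T.v 2)| ≤ δ := by
  have h0 := congrFun h 0
  have h1 := congrFun h 1
  have h2 := congrFun h 2
  have h3 := congrFun h 3
  have h4 := congrFun h 4
  simp only [posL, Matrix.cons_val] at h0 h1 h2 h3 h4
  refine ⟨?_, floor_close hδ h3, floor_close hδ h4⟩
  intro k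
  fin_cases k
  · exact floor_close hδ h0
  · exact floor_close hδ h1
  · exact floor_close hδ h2

/-- **(G1)** lines with the same position label meet, in a common hyperplane -/
theorem posL_near (hδ : 0 < δ) (hv : |T'.v 1| ≤ 1)
    (h : posL δ T fa fb z = posL δ T' fa' fb z) :
    Meet δ T T' z ∧ |Pd T T' fa fb| ≤ 2 * δ ∧ |fa' - fa| ≤ δ := by
  obtain ⟨h1, h2, h3⟩ := posL_raw hδ h
  refine ⟨h1, ?_, h2⟩
  have h4 := abs_mul_le h2 hv
  have e : Pd T T' fa fb = ((T'.v 0 - fa' * T'.v 1 - fb * T'.v 2) -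
      (T.v 0 - fa * T.v 1 - fb * T.v 2)) + (fa' - fa) * T'.v 1 := by
    unfold Pd; ring
  rw [e]
  refine (abs_add_le _ _).trans ?_
  linarith

/-- **(G2)** -/
theorem dirL_near (hδ : 0 < δ) (h : dirL δ T E = dirL δ T' E') :
    |T'.v 1 - T.v 1| ≤ δ ∧ |T'.v 2 - T.v 2| ≤ δ ∧ |E' - E| ≤ δ := by
  have h0 := congrFun h 0
  have h1 := congrFun h 1
  have h2 := congrFun h 2
  simp only [dirL, Matrix.cons_val] at h0 h1 h2
  exact ⟨floor_close hδ h0, floor_close hδ h1, floor_close hδ h2⟩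

/-- labels of nearby vectors, 8 components -/
theorem cellL_of_near (hδ : 0 < δ) (C : ℕ) (hp : ∀ k, |T'.p k - T.p k| ≤ C * δ)
    (hv : ∀ k, |T'.v k - T.v k| ≤ C * δ) (hE : |E' - E| ≤ C * δ) (hF : |Fc' - Fc| ≤ C * δ) :
    ∀ s, |cellL δ T' E' Fc' s - cellL δ T E Fc s| ≤ (C : ℤ) + 1 := by
  intro s
  fin_cases s
  · exact floor_near hδ C (hp 0)
  · exact floor_near hδ C (hp 1)
  · exact floor_near hδ C (hp 2)
  · exact floor_near hδ C (hv 0)
  · exact floor_near hδ C (hv 1)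
  · exact floor_near hδ C (hv 2)
  · exact floor_near hδ C hE
  · exact floor_near hδ C hF

/-- the equalities hidden in equal cell labels -/
theorem cellL_raw (hδ : 0 < δ) (h : cellL δ T E Fc = cellL δ T' E' Fc') :
    (∀ k, |T'.p k - T.p k| ≤ δ) ∧ (∀ k, |T'.v k - T.v k| ≤ δ) ∧ |E' - E| ≤ δ ∧ |Fc' - Fc| ≤ δ := by
  have h0 := congrFun h 0
  have h1 := congrFun h 1
  have h2 := congrFun h 2
  have h3 := congrFun h 3
  have h4 := congrFun h 4
  have h5 := congrFun h 5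
  have h6 := congrFun h 6
  have h7 := congrFun h 7
  simp only [cellL, Matrix.cons_val] at h0 h1 h2 h3 h4 h5 h6 h7
  refine ⟨?_, ?_, floor_close hδ h6, floor_close hδ h7⟩
  · intro k
    fin_cases k
    · exact floor_close hδ h0
    · exact floor_close hδ h1
    · exact floor_close hδ h2
  · intro k
    fin_cases k
    · exact floor_close hδ h3
    · exact floor_close hδ h4
    · exact floor_close hδ h5

/-- positions at the height `z` against positions at the height `0` -/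
theorem dpos (T T' : Ln4) (z : ℝ) (k : Fin 3) : T'.pos z k - T.pos z k =
    (T'.p k - T.p k) + z * (T'.v k - T.v k) := by
  simp only [Ln4.pos]; ring

/-- slope of `V2` at one height -/
theorem dFc {D : ℝ} (hfb : |fb| ≤ 1) (hE : |E' - E| ≤ D) (hfa : |fa' - fa| ≤ D)
    (hF : |Fc - (fa + E * fb)| ≤ D) (hF' : |Fc' - (fa' + E' * fb)| ≤ D) : |Fc' - Fc| ≤ 4 * D := by
  have h1 := abs_mul_le hE hfb
  have e : Fc' - Fc = (Fc' - (fa' + E' * fb)) - (Fc - (fa + E * fb)) + (fa' - fa) +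
      (E' - E) * fb := by ring
  rw [e]
  rw [abs_le] at *
  constructor <;> linarith [h1.1, h1.2, hE.1, hE.2, hfa.1, hfa.2, hF.1, hF.2, hF'.1, hF'.2]

/-- same position, same direction ⊢ near cells -/
theorem cell_of_pos_dir (hδ : 0 < δ) (hv : |T'.v 1| ≤ 1) (hz : |z| ≤ 1) (hfa1 : |fa| ≤ 1)
    (hfb1 : |fb| ≤ 1) (hF : |Fc - (fa + E * fb)| ≤ δ) (hF' : |Fc' - (fa' + E' * fb)| ≤ δ)
    (h : posL δ T fa fb z = posL δ T' fa' fb z) (h' : dirL δ T E = dirL δ T' E') :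
    ∀ s, |cellL δ T' E' Fc' s - cellL δ T E Fc s| ≤ 6 := by
  obtain ⟨m1, m2, m3⟩ := posL_near hδ hv h
  obtain ⟨d1, d2, d3⟩ := dirL_near hδ h'
  have hv0 : |T'.v 0 - T.v 0| ≤ 4 * δ := by
    have a1 := abs_mul_le hfa1 d1
    have a2 := abs_mul_le hfb1 d2
    have e : T'.v 0 - T.v 0 = Pd T T' fa fb + fa * (T'.v 1 - T.v 1) + fb * (T'.v 2 - T.v 2) := by
      unfold Pd; ring
    rw [e]
    refine (abs_add_three _ _ _).trans ?_
    linarith
  have hvk : ∀ k, |T'.v k - T.v k| ≤ 4 * δ := by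
    intro k
    fin_cases k
    · exact hv0
    · exact d1.trans (by linarith)
    · exact d2.trans (by linarith)
  have hpk : ∀ k, |T'.p k - T.p k| ≤ 5 * δ := by
    intro k
    have a1 := abs_mul_le hz (hvk k)
    have a2 := m1 k
    have e : T'.p k - T.p k = (T'.pos z k - T.pos z k) - z * (T'.v k - T.v k) := by
      rw [dpos]; ring
    rw [e]
    refine (abs_sub _ _).trans ?_
    linarith
  have hFc := dFc hfb1 d3 m3 hF hF'
  have key := cellL_of_near (T := T) (T' := T') (E := E) (E' := E') (Fc := Fc) (Fc' := Fc') hδ 5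
    (by exact_mod_cast hpk) (fun k => (hvk k).trans (by push_cast; linarith))
    (d3.trans (by push_cast; linarith)) (hFc.trans (by push_cast; linarith))
  intro s
  exact (key s).trans (by norm_num)

/-- **(G4)** same cell ⊢ all slots small -/
theorem coA_of_cellL (hδ : 0 < δ) (hz : |z| ≤ 1) (hE : |E| ≤ 1) (hfa1 : |fa| ≤ 1)
    (hfb1 : |fb| ≤ 1) (hF : |Fc - (fa + E * fb)| ≤ δ) (hF' : |Fc' - (fa' + E' * fb)| ≤ δ)
    (h : cellL δ T E Fc = cellL δ T' E' Fc') (s : Fin 11) :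
    |coA T T' E E' fa fa' fb z s| ≤ 20 * δ := by
  obtain ⟨hp, hv, h6, h7⟩ := cellL_raw hδ h
  have hX : ∀ k, |T'.pos z k - T.pos z k| ≤ 2 * δ := by
    intro k
    have a1 := abs_mul_le hz (hv k)
    rw [dpos]
    have := hp k
    refine (abs_add_le _ _).trans ?_
    linarith
  have hfa : |fa' - fa| ≤ 4 * δ := by
    have a1 := abs_mul_le h6 hfb1
    have e : fa' - fa = -(Fc' - (fa' + E' * fb)) + (Fc - (fa + E * fb)) + (Fc' - Fc) -
        (E' - E) * fb := by ring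
    rw [e]
    rw [abs_le] at *
    constructor <;> linarith [a1.1, a1.2, h6.1, h6.2, h7.1, h7.2, hF.1, hF.2, hF'.1, hF'.2]
  have z0 : |(0 : ℝ)| ≤ 20 * δ := by rw [abs_zero]; linarith
  fin_cases s
  · exact z0
  · exact z0
  · exact h6.trans (by linarith)
  · exact z0
  · exact hfa.trans (by linarith)
  · exact (hv 1).trans (by linarith)
  · show |(T'.v 2 - T.v 2) - E * (T'.v 1 - T.v 1)| ≤ _
    have a1 := abs_mul_le hE (hv 1)
    have := hv 2
    refine (abs_sub _ _).trans ?_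
    linarith
  · show |(T'.v 0 - T.v 0) - fa * (T'.v 1 - T.v 1) - fb * (T'.v 2 - T.v 2)| ≤ _
    have a1 := abs_mul_le hfa1 (hv 1)
    have a2 := abs_mul_le hfb1 (hv 2)
    have a3 := hv 0
    refine (abs_sub _ _).trans ?_
    have := abs_sub (T'.v 0 - T.v 0) (fa * (T'.v 1 - T.v 1))
    linarith
  · exact (hX 1).trans (by linarith)
  · show |(T'.pos z 2 - T.pos z 2) - E * (T'.pos z 1 - T.pos z 1)| ≤ _
    have a1 := abs_mul_le hE (hX 1)
    have := hX 2
    refine (abs_sub _ _).trans ?_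
    linarith
  · show |(T'.pos z 0 - T.pos z 0) - fa * (T'.pos z 1 - T.pos z 1) -
      fb * (T'.pos z 2 - T.pos z 2)| ≤ _
    have a1 := abs_mul_le hfa1 (hX 1)
    have a2 := abs_mul_le hfb1 (hX 2)
    have a3 := hX 0
    refine (abs_sub _ _).trans ?_
    have := abs_sub (T'.pos z 0 - T.pos z 0) (fa * (T'.pos z 1 - T.pos z 1))
    linarith

/-- position slots ⊢ positions -/
theorem pos_of_coA (hE : |E| ≤ 1) (hfa1 : |fa| ≤ 1) (hfb1 : |fb| ≤ 1)
    (h8 : |coA T T' E E' fa fa' fb z 8| ≤ δ) (h9 : |coA T T' E E' fa fa' fb z 9| ≤ δ)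
    (h10 : |coA T T' E E' fa fa' fb z 10| ≤ δ) :
    |T'.pos z 1 - T.pos z 1| ≤ δ ∧ |T'.pos z 2 - T.pos z 2| ≤ 2 * δ ∧
      |T'.pos z 0 - T.pos z 0| ≤ 4 * δ := by
  simp only [coA, Matrix.cons_val] at h8 h9 h10
  have h2 : |T'.pos z 2 - T.pos z 2| ≤ 2 * δ := by
    have a1 := abs_mul_le hE h8
    have e : T'.pos z 2 - T.pos z 2 = ((T'.pos z 2 - T.pos z 2) - E * (T'.pos z 1 - T.pos z 1)) +
        E * (T'.pos z 1 - T.pos z 1) := by ring
    rw [e]
    refine (abs_add_le _ _).trans ?_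
    linarith
  refine ⟨h8, h2, ?_⟩
  have a1 := abs_mul_le hfa1 h8
  have a2 := abs_mul_le hfb1 h2
  have e : T'.pos z 0 - T.pos z 0 = ((T'.pos z 0 - T.pos z 0) - fa * (T'.pos z 1 - T.pos z 1) -
      fb * (T'.pos z 2 - T.pos z 2)) + fa * (T'.pos z 1 - T.pos z 1) +
      fb * (T'.pos z 2 - T.pos z 2) := by ring
  rw [e]
  refine (abs_add_three _ _ _).trans ?_
  linarith

/-- direction slots ⊢ directions -/
theorem dir_of_coA (hE : |E| ≤ 1) (h5 : |coA T T' E E' fa fa' fb z 5| ≤ δ)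
    (h6 : |coA T T' E E' fa fa' fb z 6| ≤ δ) :
    |T'.v 1 - T.v 1| ≤ δ ∧ |T'.v 2 - T.v 2| ≤ 2 * δ := by
  simp only [coA, Matrix.cons_val] at h5 h6
  refine ⟨h5, ?_⟩
  have a1 := abs_mul_le hE h5
  have e : T'.v 2 - T.v 2 = ((T'.v 2 - T.v 2) - E * (T'.v 1 - T.v 1)) +
      E * (T'.v 1 - T.v 1) := by ring
  rw [e]
  refine (abs_add_le _ _).trans ?_
  linarith

/-- **(G5)** all slots small at one height ⊢ near cells -/
theorem cellL_of_coA (hδ : 0 < δ) (hz : |z| ≤ 1) (hE : |E| ≤ 1) (hfa1 : |fa| ≤ 1)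
    (hfb1 : |fb| ≤ 1) (hF : |Fc - (fa + E * fb)| ≤ δ) (hF' : |Fc' - (fa' + E' * fb)| ≤ δ)
    (h : ∀ s ∈ fAll, |coA T T' E E' fa fa' fb z s| ≤ δ) :
    ∀ s, |cellL δ T' E' Fc' s - cellL δ T E Fc s| ≤ 20 := by
  obtain ⟨x1, x2, x0⟩ := pos_of_coA hE hfa1 hfb1 (h 8 (by decide)) (h 9 (by decide))
    (h 10 (by decide))
  obtain ⟨v1, v2⟩ := dir_of_coA hE (h 5 (by decide)) (h 6 (by decide))
  have hE' : |E' - E| ≤ δ := h 2 (by decide)
  have hfa' : |fa' - fa| ≤ δ := h 4 (by decide)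
  have h7 : |(T'.v 0 - T.v 0) - fa * (T'.v 1 - T.v 1) - fb * (T'.v 2 - T.v 2)| ≤ δ :=
    h 7 (by decide)
  have v0 : |T'.v 0 - T.v 0| ≤ 4 * δ := by
    have a1 := abs_mul_le hfa1 v1
    have a2 := abs_mul_le hfb1 v2
    have e : T'.v 0 - T.v 0 = ((T'.v 0 - T.v 0) - fa * (T'.v 1 - T.v 1) -
        fb * (T'.v 2 - T.v 2)) + fa * (T'.v 1 - T.v 1) + fb * (T'.v 2 - T.v 2) := by ring
    rw [e]
    refine (abs_add_three _ _ _).trans ?_
    linarith
  have hvk : ∀ k, |T'.v k - T.v k| ≤ 4 * δ := by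
    intro k
    fin_cases k
    · exact v0
    · exact v1.trans (by linarith)
    · exact v2.trans (by linarith)
  have hXk : ∀ k, |T'.pos z k - T.pos z k| ≤ 4 * δ := by
    intro k
    fin_cases k
    · exact x0
    · exact x1.trans (by linarith)
    · exact x2.trans (by linarith)
  have hpk : ∀ k, |T'.p k - T.p k| ≤ 8 * δ := by
    intro k
    have a1 := abs_mul_le hz (hvk k)
    have a2 := hXk k
    have e : T'.p k - T.p k = (T'.pos z k - T.pos z k) - z * (T'.v k - T.v k) := by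
      rw [dpos]; ring
    rw [e]
    refine (abs_sub _ _).trans ?_
    linarith
  have hFc := dFc hfb1 hE' hfa' hF hF'
  have key := cellL_of_near (T := T) (T' := T') (E := E) (E' := E') (Fc := Fc) (Fc' := Fc') hδ 8
    (by exact_mod_cast hpk) (fun k => (hvk k).trans (by push_cast; linarith))
    (hE'.trans (by push_cast; linarith)) (hFc.trans (by push_cast; linarith))
  intro s
  exact (key s).trans (by norm_num)

/-- **(G6)** position slots small ⊢ near position labels -/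
theorem posL_of_coA (hδ : 0 < δ) (hE : |E| ≤ 1) (hfa1 : |fa| ≤ 1) (hfb1 : |fb| ≤ 1)
    (hv : |T'.v 1| ≤ 1) (h : ∀ s ∈ fPos, |coA T T' E E' fa fa' fb z s| ≤ δ) :
    ∀ s, |posL δ T' fa' fb z s - posL δ T fa fb z s| ≤ 20 := by
  obtain ⟨x1, x2, x0⟩ := pos_of_coA hE hfa1 hfb1 (h 8 (by decide)) (h 9 (by decide))
    (h 10 (by decide))
  have hfa' : |fa' - fa| ≤ δ := h 4 (by decide)
  have h7 : |(T'.v 0 - T.v 0) - fa * (T'.v 1 - T.v 1) - fb * (T'.v 2 - T.v 2)| ≤ δ :=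
    h 7 (by decide)
  have hxi : |(T'.v 0 - fa' * T'.v 1 - fb * T'.v 2) - (T.v 0 - fa * T.v 1 - fb * T.v 2)| ≤
      2 * δ := by
    have a1 := abs_mul_le hfa' hv
    have e : (T'.v 0 - fa' * T'.v 1 - fb * T'.v 2) - (T.v 0 - fa * T.v 1 - fb * T.v 2) =
        ((T'.v 0 - T.v 0) - fa * (T'.v 1 - T.v 1) - fb * (T'.v 2 - T.v 2)) -
          (fa' - fa) * T'.v 1 := by ring
    rw [e]
    refine (abs_sub _ _).trans ?_
    linarith
  intro s
  fin_cases s
  · exact (floor_near hδ 4 (by push_cast; exact x0)).trans (by norm_num)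
  · exact (floor_near hδ 4 (x1.trans (by push_cast; linarith))).trans (by norm_num)
  · exact (floor_near hδ 4 (x2.trans (by push_cast; linarith))).trans (by norm_num)
  · exact (floor_near hδ 4 (hfa'.trans (by push_cast; linarith))).trans (by norm_num)
  · exact (floor_near hδ 4 (hxi.trans (by push_cast; linarith))).trans (by norm_num)

/-- **(G6)** direction slots small ⊢ near direction labels -/
theorem dirL_of_coA (hδ : 0 < δ) (hE : |E| ≤ 1)
    (h : ∀ s ∈ fDir, |coA T T' E E' fa fa' fb z s| ≤ δ) :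
    ∀ s, |dirL δ T' E' s - dirL δ T E s| ≤ 20 := by
  obtain ⟨v1, v2⟩ := dir_of_coA hE (h 5 (by decide)) (h 6 (by decide))
  have hE' : |E' - E| ≤ δ := h 2 (by decide)
  intro s
  fin_cases s
  · exact (floor_near hδ 4 (v1.trans (by push_cast; linarith))).trans (by norm_num)
  · exact (floor_near hδ 4 (v2.trans (by push_cast; linarith))).trans (by norm_num)
  · exact (floor_near hδ 4 (hE'.trans (by push_cast; linarith))).trans (by norm_num)

/-- **(G7)** same position label ⊢ position slots small -/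
theorem coA_of_posL (hδ : 0 < δ) (hE : |E| ≤ 1) (hfa1 : |fa| ≤ 1) (hfb1 : |fb| ≤ 1)
    (hv : |T'.v 1| ≤ 1) (h : posL δ T fa fb z = posL δ T' fa' fb z) :
    ∀ s ∈ fPos, |coA T T' E E' fa fa' fb z s| ≤ 20 * δ := by
  obtain ⟨m1, m2, m3⟩ := posL_near hδ hv h
  have x0 := m1 0
  have x1 := m1 1
  have x2 := m1 2
  intro s hs
  have hs' : s = 4 ∨ s = 7 ∨ s = 8 ∨ s = 9 ∨ s = 10 := by
    simpa [fPos] using hs
  rcases hs' with rfl | rfl | rfl | rfl | rfl
  · exact m3.trans (by linarith)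
  · have e : coA T T' E E' fa fa' fb z 7 = Pd T T' fa fb := rfl
    rw [e]
    exact m2.trans (by linarith)
  · exact x1.trans (by linarith)
  · show |(T'.pos z 2 - T.pos z 2) - E * (T'.pos z 1 - T.pos z 1)| ≤ _
    have a1 := abs_mul_le hE x1
    refine (abs_sub _ _).trans ?_
    linarith
  · show |(T'.pos z 0 - T.pos z 0) - fa * (T'.pos z 1 - T.pos z 1) -
      fb * (T'.pos z 2 - T.pos z 2)| ≤ _
    have a1 := abs_mul_le hfa1 x1
    have a2 := abs_mul_le hfb1 x2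
    refine (abs_sub _ _).trans ?_
    have := abs_sub (T'.pos z 0 - T.pos z 0) (fa * (T'.pos z 1 - T.pos z 1))
    linarith

/-- **(G7)** same direction label ⊢ direction slots small -/
theorem coA_of_dirL (hδ : 0 < δ) (hE : |E| ≤ 1) (h : dirL δ T E = dirL δ T' E') :
    ∀ s ∈ fDir, |coA T T' E E' fa fa' fb z s| ≤ 20 * δ := by
  obtain ⟨d1, d2, d3⟩ := dirL_near hδ h
  intro s hs
  have hs' : s = 2 ∨ s = 5 ∨ s = 6 := by
    simpa [fDir] using hs
  rcases hs' with rfl | rfl | rfl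
  · exact d3.trans (by linarith)
  · exact d1.trans (by linarith)
  · show |(T'.v 2 - T.v 2) - E * (T'.v 1 - T.v 1)| ≤ _
    have a1 := abs_mul_le hE d1
    refine (abs_sub _ _).trans ?_
    linarith

end pair

/-- **(G3)** lines in different cells with the same position label at one height and the same
direction label: at most `13 ^ 8` -/
theorem cell_mult {ι : Type*} [DecidableEq ι] (S : Finset ι) (T : ι → Ln4) (E Fc fa : ι → ℝ)
    {fb z δ : ℝ} (hδ : 0 < δ) (hz : |z| ≤ 1) (hfb1 : |fb| ≤ 1)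
    (hv : ∀ i ∈ S, |(T i).v 1| ≤ 1) (hfa1 : ∀ i ∈ S, |fa i| ≤ 1)
    (hF : ∀ i ∈ S, |Fc i - (fa i + E i * fb)| ≤ δ)
    (hinj : ∀ i ∈ S, ∀ j ∈ S, cellL δ (T i) (E i) (Fc i) = cellL δ (T j) (E j) (Fc j) → i = j)
    (hpos : ∀ i ∈ S, ∀ j ∈ S, posL δ (T i) (fa i) fb z = posL δ (T j) (fa j) fb z)
    (hdir : ∀ i ∈ S, ∀ j ∈ S, dirL δ (T i) (E i) = dirL δ (T j) (E j)) :
    S.card ≤ 13 ^ 8 := by
  have := card_le_of_near S (fun i => cellL δ (T i) (E i) (Fc i)) hinj 6 (fun i hi j hj s =>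
    cell_of_pos_dir hδ (hv j hj) hz (hfa1 i hi) hfb1 (hF i hi) (hF j hj) (hpos i hi j hj)
      (hdir i hi j hj) s)
  exact this

end Crest.Agent.R136.Wk323
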