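import Crest.Agent.R136.WkH_626
import Crest.Agent.R136.Qg2_926

/-!
# R136 (S0187): RIG wrapper: a lightlike window of helper926 is an `AbsWin` (helper626)

`W : Wnd 11 ι` over the chart `coQ` with straight incidences, level slots `{0, 3}` (height, `F_b`),
units `kap s * d^(X s)` with all walls tight.  Absolute data: normalised incidences `nI`.
-/

set_option autoImplicit false
set_option linter.unusedSectionVars false
set_option linter.unusedVariables false

open Filter Topology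

namespace Crest.Agent.R136.Wk323

open Finset
open Crest.Agent.R136.Sh605
open Crest.Agent.R136.Net186
open Crest.Agent.R136.NetQ186
open Crest.Agent.R136.Qg926
open Crest.Agent.R136.Net191
open Crest.Agent.R138.Ex926 (Base U)
open Crest.Agent.R136.Gf356

/-- slots of `coQ` of the slots of `co4` -/
def tq : Fin 10 → Fin 11 := ![0, 2, 3, 4, 5, 6, 7, 8, 9, 10]

theorem s4_tq (s : Fin 10) : s4 (tq s) = s := by fin_cases s <;> rfl

theorem tq_ne (s : Fin 10) : tq s ≠ 1 := by fin_cases s <;> decide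

theorem tq_s4 {s : Fin 11} (h : s ∈ fAll) : tq (s4 s) = s := by
  have hs' : s = 2 ∨ s = 4 ∨ s = 5 ∨ s = 6 ∨ s = 7 ∨ s = 8 ∨ s = 9 ∨ s = 10 := by
    simpa [fAll] using h
  rcases hs' with rfl | rfl | rfl | rfl | rfl | rfl | rfl | rfl <;> rfl

variable {ι : ℕ → Type*} [∀ n, DecidableEq (ι n)]

/-- the units of the window -/
noncomputable def uu (W : Wnd 11 ι) (n : ℕ) (s : Fin 10) : ℝ := W.kap (tq s) * W.B.d n ^ W.X n (tq s)

/-- normalised incidences of the window -/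
noncomputable def nI (W : Wnd 11 ι) (F : ∀ n, ι n → Fq4) (n : ℕ) (i : ι n) : Fl4 :=
  nrm (uu W n) (co4 (st (F n (W.s₀ n))) (st (F n i)))

open Classical in
/-- a chosen incidence on the fat line `l` -/
noncomputable def lrep (W : Wnd 11 ι) (n : ℕ) (l : ℕ) : ι n :=
  if h : ∃ i ∈ W.Cl n, W.lc n i = l then h.choose else W.s₀ n

theorem lrep_spec (W : Wnd 11 ι) {n : ℕ} {i : ι n} (hi : i ∈ W.Cl n) :
    lrep W n (W.lc n i) ∈ W.Cl n ∧ W.lc n (lrep W n (W.lc n i)) = W.lc n i := by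
  have h : ∃ j ∈ W.Cl n, W.lc n j = W.lc n i := ⟨i, hi, rfl⟩
  unfold lrep
  rw [dif_pos h]
  exact h.choose_spec

/-- hypotheses on the window for the absolute form -/
structure LWin (W : Wnd 11 ι) (F : ∀ n, ι n → Fq4) (x : ℝ) : Prop where
  ok : W.Ok
  co : ∀ n i j, W.co n i j = coQ (F n i) (F n j)
  str : ∀ n i, (F n i).y2 = 0
  S : W.S = {0, 3}
  kz : W.kz = 0
  tight : ∀ᶠ n in (U : Filter ℕ), Tight (uu W n)
  kap : ∀ s, 2 * W.K0 ≤ W.kap s
  x0 : 0 ≤ x
  top : ∀ s, s ≠ 1 → x ≤ W.top s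

namespace LWin

variable {W : Wnd 11 ι} {F : ∀ n, ι n → Fq4} {x : ℝ} (H : LWin W F x)

include H

theorem upos (n : ℕ) (s : Fin 10) : 0 < uu W n s :=
  mul_pos (H.ok.kap _) (Real.rpow_pos_of_pos (W.B.pos n) _)

/-- coordinates of normalised incidences = normalised coordinates -/
theorem co4_nI {n : ℕ} (hu : Tight (uu W n)) (i j : ι n) (s : Fin 10) :
    co4 (nI W F n i) (nI W F n j) s = W.crd n i j (tq s) := by
  unfold nI
  rw [co4_nrm hu]
  unfold Wnd.crd
  rw [H.co, coQ_st (H.str n i) (H.str n j) (tq_ne s), s4_tq]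
  rfl

/-- a box in normalised coordinates -/
theorem crd_le {n : ℕ} {c : Fin 11 → ℝ} {i j : ι n} (h : W.bx n c W.K0 i j) (s : Fin 11) :
    |W.crd n i j s| ≤ W.B'.d n ^ c s / 2 := by
  have hX : 0 < W.B.d n ^ W.X n s := Real.rpow_pos_of_pos (W.B.pos n) _
  have hc : 0 < W.B'.d n ^ c s := Real.rpow_pos_of_pos (W.B'.pos n) _
  have hk := H.ok.kap s
  have hpos : 0 < W.kap s * W.B.d n ^ W.X n s := mul_pos hk hX
  unfold Wnd.crd
  rw [abs_div, abs_of_pos hpos, div_le_iff₀ hpos]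
  refine (h s).trans ?_
  have h1 := H.kap s
  have h2 : 0 ≤ W.B.d n ^ W.X n s * W.B'.d n ^ c s := (mul_pos hX hc).le
  have h3 := mul_le_mul_of_nonneg_right h1 h2
  linarith

/-- all incidences of the class are in half of the unit box -/
theorem half {n : ℕ} (g : W.Good n) (hu : Tight (uu W n)) {i : ι n} (hi : i ∈ W.Cl n) :
    (∀ m, |(nI W F n i).t.v m| ≤ 1 / 2) ∧ (∀ m, |(nI W F n i).t.p m| ≤ 1 / 2) ∧
      |(nI W F n i).z| ≤ 1 / 2 ∧ |(nI W F n i).e| ≤ 1 / 2 ∧ |(nI W F n i).fa| ≤ 1 / 2 ∧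
      |(nI W F n i).fb| ≤ 1 / 2 := by
  have h0 : ∀ s : Fin 10, |co4 (st (F n (W.s₀ n))) (st (F n i)) s / uu W n s| ≤ 1 / 2 := by
    intro s
    have h1 := H.crd_le (H.ok.near0 g g.s0 hi) (tq s)
    rw [Pi.zero_apply, Real.rpow_zero] at h1
    have e : co4 (st (F n (W.s₀ n))) (st (F n i)) s / uu W n s = W.crd n (W.s₀ n) i (tq s) := by
      unfold Wnd.crd
      rw [H.co, coQ_st (H.str n _) (H.str n i) (tq_ne s), s4_tq]
      rfl
    rw [e]
    exact h1
  refine ⟨?_, ?_, h0 0, h0 1, h0 3, h0 2⟩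
  · intro m
    fin_cases m
    · exact h0 6
    · exact h0 4
    · exact h0 5
  · intro m
    fin_cases m
    · exact h0 9
    · exact h0 7
    · exact h0 8

theorem unit {n : ℕ} (g : W.Good n) (hu : Tight (uu W n)) {i : ι n} (hi : i ∈ W.Cl n) :
    Unit4 (nI W F n i) := by
  obtain ⟨h1, h2, h3, h4, h5, h6⟩ := H.half g hu hi
  exact ⟨fun m => (h1 m).trans (by norm_num), fun m => (h2 m).trans (by norm_num),
    h3.trans (by norm_num), h4.trans (by norm_num), h5.trans (by norm_num),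
    h6.trans (by norm_num)⟩

/-- same fat line -/
theorem lineC {n : ℕ} (g : W.Good n) (hu : Tight (uu W n)) {i j : ι n} (hi : i ∈ W.Cl n)
    (hj : j ∈ W.Cl n) (hl : W.lc n i = W.lc n j) (s : Fin 10) (h0 : s ≠ 0) (h2 : s ≠ 2) :
    |co4 (nI W F n i) (nI W F n j) s| ≤ W.B'.d n ^ x := by
  rw [H.co4_nI hu]
  refine (H.crd_le (H.ok.near_lc g hi hj hl) (tq s)).trans ?_
  have hS : tq s ∉ W.S := by
    rw [H.S]
    revert h0 h2
    fin_cases s <;> decide
  rw [cut_of_notMem hS]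
  have h3 : W.B'.d n ^ W.top (tq s) ≤ W.B'.d n ^ x :=
    Real.rpow_le_rpow_of_exponent_ge (W.B'.pos n) (W.B'.lt n).le (H.top _ (tq_ne s))
  have h4 : 0 < W.B'.d n ^ W.top (tq s) := Real.rpow_pos_of_pos (W.B'.pos n) _
  linarith

/-- same height -/
theorem levC {n : ℕ} (g : W.Good n) (hu : Tight (uu W n)) {i j : ι n} (hi : i ∈ W.Cl n)
    (hj : j ∈ W.Cl n) (hl : W.zc n i = W.zc n j) :
    |(nI W F n j).z - (nI W F n i).z| ≤ W.B'.d n ^ x ∧
      |(nI W F n j).fb - (nI W F n i).fb| ≤ W.B'.d n ^ x := by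
  have key : ∀ s : Fin 10, tq s ∈ W.S → |co4 (nI W F n i) (nI W F n j) s| ≤ W.B'.d n ^ x := by
    intro s hS
    rw [H.co4_nI hu]
    refine (H.crd_le (H.ok.near_zc g hi hj hl) (tq s)).trans ?_
    rw [cut_of_mem hS]
    have h3 : W.B'.d n ^ W.top (tq s) ≤ W.B'.d n ^ x :=
      Real.rpow_le_rpow_of_exponent_ge (W.B'.pos n) (W.B'.lt n).le (H.top _ (tq_ne s))
    have h4 : 0 < W.B'.d n ^ W.top (tq s) := Real.rpow_pos_of_pos (W.B'.pos n) _
    linarith
  exact ⟨key 0 (by rw [H.S]; decide), key 2 (by rw [H.S]; decide)⟩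

omit H in
/-- the line of the fat line `l` -/
noncomputable def lT (W : Wnd 11 ι) (F : ∀ n, ι n → Fq4) (n l : ℕ) : Ln4 :=
  (nI W F n (lrep W n l)).t

omit H in
/-- the axis slope of the fat line `l` -/
noncomputable def lE (W : Wnd 11 ι) (F : ∀ n, ι n → Fq4) (n l : ℕ) : ℝ :=
  (nI W F n (lrep W n l)).e

omit H in
/-- `F_a` of the incidence `(l, k)` -/
noncomputable def lfa (W : Wnd 11 ι) (F : ∀ n, ι n → Fq4) (n l k : ℕ) : ℝ :=
  (nI W F n (W.rep n l k)).fa

omit H in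
/-- `F_b` at the height `k` -/
noncomputable def lfb (W : Wnd 11 ι) (F : ∀ n, ι n → Fq4) (n k : ℕ) : ℝ :=
  (nI W F n (W.zrep n k)).fb

/-- the heights of the configuration are the normalised heights of `zrep` -/
theorem z_eq {n : ℕ} (k : ℕ) : W.crd n (W.s₀ n) (W.zrep n k) W.kz = (nI W F n (W.zrep n k)).z := by
  rw [H.kz]
  unfold Wnd.crd
  rw [H.co, coQ_st (H.str n _) (H.str n _) (by decide)]
  rfl

omit H in
/-- incidences of the configuration -/
theorem mem_rep {n : ℕ} {E : Finset (ι n)} (hE : E ⊆ W.Cl n) {l k : ℕ}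
    (hI : (l, k) ∈ (W.cfg0 n E).I) : W.rep n l k ∈ W.Cl n ∧ W.lc n (W.rep n l k) = l ∧
      W.zc n (W.rep n l k) = k := by
  unfold Wnd.cfg0 at hI
  simp only [mem_image, Prod.mk.injEq] at hI
  obtain ⟨x, hx, rfl, rfl⟩ := hI
  exact W.rep_spec (hE hx)

omit H in
theorem mem_lrep {n : ℕ} {i : ι n} (hi : i ∈ W.Cl n) {l : ℕ} (hl : W.lc n i = l) :
    lrep W n l ∈ W.Cl n ∧ W.lc n (lrep W n l) = l := by
  subst hl
  exact lrep_spec W hi

omit H in
theorem mem_zrep {n : ℕ} {i : ι n} (hi : i ∈ W.Cl n) {k : ℕ} (hk : W.zc n i = k) :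
    W.zrep n k ∈ W.Cl n ∧ W.zc n (W.zrep n k) = k := by
  subst hk
  exact W.zrep_spec hi

/-- the absolute incidence of `(l, k)` is in the unit box and close to the representative -/
theorem abs_near {n : ℕ} (g : W.Good n) (hu : Tight (uu W n)) {l k : ℕ}
    (h : W.rep n l k ∈ W.Cl n ∧ W.lc n (W.rep n l k) = l ∧ W.zc n (W.rep n l k) = k) :
    Unit4 ⟨lT W F n l, W.crd n (W.s₀ n) (W.zrep n k) W.kz, lE W F n l, lfa W F n l k,
        lfb W F n k⟩ ∧
      Near4 (nI W F n (W.rep n l k)) ⟨lT W F n l, W.crd n (W.s₀ n) (W.zrep n k) W.kz, lE W F n l,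
        lfa W F n l k, lfb W F n k⟩ (8 * W.B'.d n ^ x) := by
  obtain ⟨h1, h2, h3⟩ := h
  obtain ⟨a1, a2⟩ := mem_lrep h1 h2
  obtain ⟨b1, b2⟩ := mem_zrep h1 h3
  have hη : 0 < W.B'.d n ^ x := Real.rpow_pos_of_pos (W.B'.pos n) _
  have ul := H.unit g hu a1
  have uz := H.unit g hu b1
  have ur := H.unit g hu h1
  rw [H.z_eq]
  obtain ⟨c1, c2, c3⟩ := line_close ur (fun s hs0 hs2 => H.lineC g hu h1 a1 (h2.trans a2.symm) s
    hs0 hs2)
  obtain ⟨d1, d2⟩ := H.levC g hu h1 b1 (h3.trans b2.symm)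
  refine ⟨⟨ul.v, ul.p, uz.z, ul.e, ur.fa, uz.fb⟩, ⟨fun m => (c2 m).trans (by linarith), c3,
    d1.trans (by linarith), c1.trans (by linarith), ?_, d2.trans (by linarith)⟩⟩
  show |(nI W F n (W.rep n l k)).fa - (nI W F n (W.rep n l k)).fa| ≤ _
  rw [sub_self, abs_zero]
  linarith

/-- **a lightlike window in absolute coordinates** -/
theorem absWin {E : ∀ n, Finset (ι n)}
    (hE : ∀ᶠ n in (U : Filter ℕ), E n ⊆ W.Cl n ∧ W.cfg E n = W.cfg0 n (E n)) (mu be : ℕ → ℝ)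
    (haff : ∀ ε : ℝ, 0 < ε → ∀ᶠ n in (U : Filter ℕ), ∀ l k, (l, k) ∈ (W.cfg E n).I →
      |lfb W F n k - be n - mu n * (W.cfg E n).z k| ≤ W.B'.d n ^ (x - ε)) :
    AbsWin W.B' (W.cfg E) x (lT W F) (lE W F) (lfa W F) (lfb W F) mu be where
  bd := by
    filter_upwards [hE, H.ok.ev_good, H.tight] with n ⟨h1, h2⟩ g hu l k hI
    rw [h2] at hI ⊢
    have hr := mem_rep h1 hI
    obtain ⟨a1, a2⟩ := mem_lrep hr.1 hr.2.1
    obtain ⟨b1, b2⟩ := mem_zrep hr.1 hr.2.2
    obtain ⟨v, p, -, e, -, -⟩ := H.half g hu a1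
    obtain ⟨-, -, z, -, -, fb⟩ := H.half g hu b1
    obtain ⟨-, -, -, -, fa, -⟩ := H.half g hu hr.1
    have hz : (W.cfg0 n (E n)).z k = (nI W F n (W.zrep n k)).z := H.z_eq k
    rw [hz]
    refine ⟨z.trans (by norm_num), fun j => ?_, fun j => (v j).trans (by norm_num),
      e.trans (by norm_num), fa.trans (by norm_num), fb.trans (by norm_num)⟩
    show |(nI W F n (lrep W n l)).t.p j +
      (nI W F n (W.zrep n k)).z * (nI W F n (lrep W n l)).t.v j| ≤ 1
    refine (abs_add_le _ _).trans ?_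
    have := abs_mul_le z (v j)
    have := p j
    linarith
  bdr := by
    filter_upwards [hE, H.ok.ev_good] with n ⟨h1, h2⟩ g k i l hi hl s
    rw [h2] at hi hl ⊢
    have ri := mem_rep h1 hi
    have rl := mem_rep h1 hl
    show |if s ∈ W.S then (0 : ℝ) else W.crd n (W.rep n i k) (W.rep n l k) s| ≤ 1
    split_ifs
    · simp
    · have := H.crd_le (H.ok.near0 g ri.1 rl.1) s
      rw [Pi.zero_apply, Real.rpow_zero] at this
      linarith
  rel := by
    intro ε hε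
    filter_upwards [hE, H.ok.ev_good, H.tight, ev_const_le W.B' hε 240] with n ⟨h1, h2⟩ g hu hc
      k i l hi hl s hs
    rw [h2] at hi hl ⊢
    have ri := mem_rep h1 hi
    have rl := mem_rep h1 hl
    obtain ⟨ui, ni⟩ := H.abs_near g hu ri
    obtain ⟨ul, nl⟩ := H.abs_near g hu rl
    have hS : s ∉ W.S := by
      rw [H.S]
      revert hs
      fin_cases s <;> decide
    have e1 : (W.cfg0 n (E n)).rel k i l s = co4 (nI W F n (W.rep n i k)) (nI W F n (W.rep n l k))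
        (s4 s) := by
      rw [H.co4_nI hu, tq_s4 hs]
      show (if s ∈ W.S then (0 : ℝ) else W.crd n (W.rep n i k) (W.rep n l k) s) = _
      rw [if_neg hS]
    rw [e1, coA_eq _ _ _ _ _ _ _ _ hs, abs_sub_comm]
    refine (co4_lip (H.unit g hu ri.1) ui (H.unit g hu rl.1) ul ni nl (s4 s)).trans ?_
    have e2 : W.B'.d n ^ (x - ε) = W.B'.d n ^ x * W.B'.d n ^ (-ε) := by
      rw [← Real.rpow_add (W.B'.pos n)]
      rfl
    rw [e2]
    have hη : 0 < W.B'.d n ^ x := Real.rpow_pos_of_pos (W.B'.pos n) _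
    have := mul_le_mul_of_nonneg_left hc hη.le
    linarith
  own := by
    intro ε hε
    filter_upwards [hE, H.ok.ev_good, H.tight, ev_const_le W.B' hε 50] with n ⟨h1, h2⟩ g hu hc
      l k k' hk hk'
    rw [h2] at hk hk'
    have rk := mem_rep h1 hk
    have rk' := mem_rep h1 hk'
    obtain ⟨uk, nk⟩ := H.abs_near g hu rk
    obtain ⟨uk', nk'⟩ := H.abs_near g hu rk'
    have hη : 0 < W.B'.d n ^ x := Real.rpow_pos_of_pos (W.B'.pos n) _
    have h3 : |((nI W F n (W.rep n l k')).fa - (nI W F n (W.rep n l k)).fa) +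
        (nI W F n (W.rep n l k)).e * ((nI W F n (W.rep n l k')).fb -
          (nI W F n (W.rep n l k)).fb)| ≤ W.B'.d n ^ x :=
      H.lineC g hu rk.1 rk'.1 (rk.2.1.trans rk'.2.1.symm) 3 (by decide) (by decide)
    have a1 : |lE W F n l - (nI W F n (W.rep n l k)).e| ≤ 8 * W.B'.d n ^ x := nk.e
    have a2 : |lfb W F n k - (nI W F n (W.rep n l k)).fb| ≤ 8 * W.B'.d n ^ x := nk.fb
    have a3 : |lfb W F n k' - (nI W F n (W.rep n l k')).fb| ≤ 8 * W.B'.d n ^ x := nk'.fb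
    have b1 : |lfb W F n k' - lfb W F n k| ≤ 1 + 1 := sub_bd uk'.fb uk.fb
    have b2 := (H.unit g hu rk.1).e
    have c1 := abs_mul_le a1 b1
    have c2 := abs_mul_le b2 (sub_lip a3 a2)
    have e : lfa W F n l k' - lfa W F n l k + lE W F n l * (lfb W F n k' - lfb W F n k) =
        (((nI W F n (W.rep n l k')).fa - (nI W F n (W.rep n l k)).fa) +
        (nI W F n (W.rep n l k)).e * ((nI W F n (W.rep n l k')).fb -
          (nI W F n (W.rep n l k)).fb)) +
        (lE W F n l - (nI W F n (W.rep n l k)).e) * (lfb W F n k' - lfb W F n k) +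
        (nI W F n (W.rep n l k)).e * ((lfb W F n k' - lfb W F n k) -
          ((nI W F n (W.rep n l k')).fb - (nI W F n (W.rep n l k)).fb)) := by
      unfold lfa; ring
    rw [e]
    refine (abs_add_three _ _ _).trans ?_
    have e2 : W.B'.d n ^ (x - ε) = W.B'.d n ^ x * W.B'.d n ^ (-ε) := by
      rw [← Real.rpow_add (W.B'.pos n)]
      rfl
    rw [e2]
    have := mul_le_mul_of_nonneg_left hc hη.le
    linarith
  aff := haff

end LWin

end Crest.Agent.R136.Wk323
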