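import Crest.Agent.R136.WkH2_626
import Crest.Agent.R136.Qg3b_926

/-!
# R136 (S0187): RIG wrapper: the exponent vectors of `RigProf` are legal in a lightlike window
(helper626)
-/

set_option autoImplicit false
set_option linter.unusedSectionVars false
set_option linter.unusedVariables false

open Filter Topology

namespace Crest.Agent.R136.Wk323

open Finset
open Crest.Agent.R136.Sh605
open Crest.Agent.R136.Net186
open Crest.Agent.R136.NetQ186
open Crest.Agent.R136.Qg926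
open Crest.Agent.R136.Net191
open Crest.Agent.R138.Ex926 (Base U)
open Crest.Agent.R136.Gf356

variable {ι : ℕ → Type*} [∀ n, DecidableEq (ι n)]

namespace LWin

variable {W : Wnd 11 ι} {F : ∀ n, ι n → Fq4} {x : ℝ} (H : LWin W F x)

include H

/-- **legality in the window**: level slots at `top`, so only the walls without level slots count -/
theorem mem_legW (hMw : ∀ k, W.Mw.mon k ⊆ mfQ k) {p : Fin 11 → ℝ} (h0 : ∀ s, 0 ≤ p s)
    (hx : ∀ s, p s ≤ x) (h1 : p 1 = 0) (w6 : p 6 ≤ p 2 + p 5) (w7 : p 7 ≤ p 4 + p 5)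
    (w9 : p 9 ≤ p 2 + p 8) (w10 : p 10 ≤ p 4 + p 8) : p ∈ W.legW := by
  have htop : ∀ s, 0 ≤ W.top s := fun s => H.ok.top_leg.1.nonneg s
  have hle : ∀ s, p s ≤ W.top s := by
    intro s
    by_cases hs : s = 1
    · rw [hs, h1]; exact htop 1
    · exact (hx s).trans (H.top s hs)
  have hin : ∀ s, s = 0 ∨ s = 3 → cut W.S p W.top s = W.top s := by
    intro s hs
    apply cut_of_mem
    rw [H.S]
    rcases hs with rfl | rfl <;> decide
  have hout : ∀ s, s ≠ 0 → s ≠ 3 → cut W.S p W.top s = p s := by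
    intro s hs hs'
    apply cut_of_notMem
    rw [H.S]
    simp [hs, hs']
  have c0 := hin 0 (Or.inl rfl)
  have c3 := hin 3 (Or.inr rfl)
  have c1 := hout 1 (by decide) (by decide)
  have c2 := hout 2 (by decide) (by decide)
  have c4 := hout 4 (by decide) (by decide)
  have c5 := hout 5 (by decide) (by decide)
  have c6 := hout 6 (by decide) (by decide)
  have c7 := hout 7 (by decide) (by decide)
  have c8 := hout 8 (by decide) (by decide)
  have c9 := hout 9 (by decide) (by decide)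
  have c10 := hout 10 (by decide) (by decide)
  have t0 : x ≤ W.top 0 := H.top 0 (by decide)
  have t3 : x ≤ W.top 3 := H.top 3 (by decide)
  have hleg : Legal monQ (cut W.S p W.top) := by
    rw [legalQ_iff, c0, c1, c2, c3, c4, c5, c6, c7, c8, c9, c10]
    refine ⟨?_, ?_, w6, ?_, w7, ?_, ?_, ?_, w9, ?_, w10, ?_⟩
    · intro k
      by_cases hk : k ∈ W.S
      · rw [cut_of_mem hk]; exact htop k
      · rw [cut_of_notMem hk]; exact h0 k
    · linarith [hx 4, h0 2]
    · linarith [hx 7, h0 1]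
    · linarith [hx 7, h0 6]
    · linarith [hx 8, h0 5]
    · linarith [hx 9, h0 6]
    · linarith [hx 10, h0 7]
    · linarith [hx 10, h0 9]
  refine ⟨⟨⟨hleg.nonneg, fun k e he => hleg.wall k e (hMw k he)⟩, fun k => ?_⟩, fun s _ => hle s⟩
  by_cases hk : k ∈ W.S
  · rw [cut_of_mem hk]; exact H.ok.top_leg.2 k
  · rw [cut_of_notMem hk]; exact (hle k).trans (H.ok.top_leg.2 k)

theorem vec_mem (hMw : ∀ k, W.Mw.mon k ⊆ mfQ k) {Fs : Finset (Fin 11)} {y : ℝ} (hy : 0 ≤ y)
    (hyx : y ≤ x) (h1 : (1 : Fin 11) ∉ Fs) (w6 : 6 ∈ Fs → 2 ∈ Fs ∨ 5 ∈ Fs)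
    (w7 : 7 ∈ Fs → 4 ∈ Fs ∨ 5 ∈ Fs) (w9 : 9 ∈ Fs → 2 ∈ Fs ∨ 8 ∈ Fs)
    (w10 : 10 ∈ Fs → 4 ∈ Fs ∨ 8 ∈ Fs) : vec Fs y ∈ W.legW := by
  have h0 : ∀ s, 0 ≤ vec Fs y s := fun s => by unfold vec; split_ifs <;> linarith
  have key : ∀ (a b c : Fin 11), (a ∈ Fs → b ∈ Fs ∨ c ∈ Fs) →
      vec Fs y a ≤ vec Fs y b + vec Fs y c := by
    intro a b c h
    by_cases ha : a ∈ Fs
    · have ea : vec Fs y a = y := if_pos ha
      rcases h ha with hb | hc
      · have eb : vec Fs y b = y := if_pos hb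
        rw [ea, eb]
        linarith [h0 c]
      · have ec : vec Fs y c = y := if_pos hc
        rw [ea, ec]
        linarith [h0 b]
    · have ea : vec Fs y a = 0 := if_neg ha
      rw [ea]
      linarith [h0 b, h0 c]
  refine H.mem_legW hMw h0 (fun s => ?_) (if_neg h1) (key _ _ _ w6) (key _ _ _ w7) (key _ _ _ w9)
    (key _ _ _ w10)
  unfold vec
  split_ifs <;> linarith [H.x0]

theorem qv_mem (hMw : ∀ k, W.Mw.mon k ⊆ mfQ k) {y : ℝ} (hy : 0 ≤ y) (hyx : y ≤ x) :
    qv x y ∈ W.legW := by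
  have hx := H.x0
  refine H.mem_legW hMw (fun s => ?_) (fun s => ?_) ?_ ?_ ?_ ?_ ?_
  · unfold qv; split_ifs <;> linarith
  · unfold qv; split_ifs <;> linarith
  · simp [qv]
  · simp [qv]
  · simp [qv]
  · simp [qv]
  · simp [qv, hyx]

/-- **the profile hypotheses of the RIG wrapper in a lightlike window** -/
theorem rigProf (hMw : ∀ k, W.Mw.mon k ⊆ mfQ k) (hx : 0 < x) {a m : ℝ} (a0 : 0 ≤ a) (a1 : a < 1)
    (m0 : 0 < m)
    (dec : W.nu 0 + W.nu (vec fAll x) ≤ W.nu (vec fPos x) + W.nu (vec fDir x))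
    (fib : ∀ y, 0 ≤ y → y ≤ x → W.nu (qv x y) - W.nu (qv x x) ≤ a * (x - y))
    (conc : ∀ y, 0 ≤ y → y ≤ x → m * y ≤ W.nu 0 - W.nu (vec {5} y)) :
    RigProf W.legW W.nu x a m where
  x0 := hx
  a0 := a0
  a1 := a1
  m0 := m0
  zero := by
    refine H.mem_legW hMw (fun _ => le_rfl) (fun _ => hx.le) rfl ?_ ?_ ?_ ?_ <;> simp
  all := H.vec_mem hMw hx.le le_rfl (by decide) (by decide) (by decide) (by decide) (by decide)
  pos := H.vec_mem hMw hx.le le_rfl (by decide) (by decide) (by decide) (by decide) (by decide)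
  dir := H.vec_mem hMw hx.le le_rfl (by decide) (by decide) (by decide) (by decide) (by decide)
  q := fun y hy hyx => H.qv_mem hMw hy hyx
  c := fun y hy hyx =>
    H.vec_mem hMw hy hyx (by decide) (by decide) (by decide) (by decide) (by decide)
  dec := dec
  fib := fib
  conc := conc

end LWin

end Crest.Agent.R136.Wk323
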