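import Crest.Agent.R136.WkG_626
import Crest.Agent.R136.Net3_186
import Crest.Agent.R136.Net4_186

/-!
# R136 (S0187): RIG wrapper, NORMALISATION of a lightlike window (helper626)

* `coQ_st` : straight incidences of the gauge chart (`y2 = 0`) are incidences of the thick chart.
* `nrm` : the normalised incidence with given relative coordinates; `co4_nrm` : if the units are
  multiplicative (all walls tight) then normalisation divides every slot by its unit.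
* `coA_eq` : `coA` of absolute data is `co4` of incidences with common `z`, `fb`.
* `same_line`, `co4_lip` : stability.
-/

set_option autoImplicit false

namespace Crest.Agent.R136.Wk323

open Finset
open Crest.Agent.R136.Sh605
open Crest.Agent.R136.Net186
open Crest.Agent.R136.NetQ186

/-- a straight incidence of the gauge chart -/
def st (i : Fq4) : Fl4 := ⟨⟨![i.y0, i.A, i.B], ![i.y1, i.ca, i.cb]⟩, i.z, i.e, i.fa, i.fb⟩

/-- slots of `co4` inside the slots of `coQ` (the slots `0`, `1` are not used) -/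
def s4 : Fin 11 → Fin 10 := ![0, 0, 1, 2, 3, 4, 5, 6, 7, 8, 9]

theorem coQ_st {i j : Fq4} (hi : i.y2 = 0) (hj : j.y2 = 0) {s : Fin 11} (hs : s ≠ 1) :
    coQ i j s = co4 (st i) (st j) (s4 s) := by
  fin_cases s
  · simp [coQ, co4, st, s4]
  · exact absurd rfl hs
  · simp [coQ, co4, st, s4]
  · simp [coQ, co4, st, s4]
  · simp [coQ, co4, st, s4]
  · simp [coQ, co4, st, s4]
  · simp [coQ, co4, st, s4]
  · simp [coQ, co4, st, s4, Fq4.vy, hi, hj]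
  · simp [coQ, co4, st, s4, Fq4.pa, Ln4.pos]
  · simp [coQ, co4, st, s4, Fq4.pa, Fq4.pb, Ln4.pos]
  · simp [coQ, co4, st, s4, Fq4.pa, Fq4.pb, Fq4.py, Ln4.pos, hi, hj]
    ring

/-- units with all walls tight -/
structure Tight (u : Fin 10 → ℝ) : Prop where
  pos : ∀ s, 0 < u s
  w3 : u 3 = u 1 * u 2
  w5 : u 5 = u 1 * u 4
  w6 : u 6 = u 1 * u 2 * u 4
  w7 : u 7 = u 0 * u 4
  w8 : u 8 = u 0 * u 1 * u 4
  w9 : u 9 = u 0 * u 1 * u 2 * u 4

/-- the incidence with relative coordinates `c` (seen from the origin) in the units `u` -/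
noncomputable def nrm (u c : Fin 10 → ℝ) : Fl4 :=
  ⟨⟨![c 9 / u 9, c 7 / u 7, c 8 / u 8], ![c 6 / u 6, c 4 / u 4, c 5 / u 5]⟩, c 0 / u 0, c 1 / u 1,
    c 3 / u 3, c 2 / u 2⟩

theorem nrm_v0 (u c : Fin 10 → ℝ) : (nrm u c).t.v 0 = c 6 / u 6 := rfl
theorem nrm_v1 (u c : Fin 10 → ℝ) : (nrm u c).t.v 1 = c 4 / u 4 := rfl
theorem nrm_v2 (u c : Fin 10 → ℝ) : (nrm u c).t.v 2 = c 5 / u 5 := rfl
theorem nrm_p0 (u c : Fin 10 → ℝ) : (nrm u c).t.p 0 = c 9 / u 9 := rfl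
theorem nrm_p1 (u c : Fin 10 → ℝ) : (nrm u c).t.p 1 = c 7 / u 7 := rfl
theorem nrm_p2 (u c : Fin 10 → ℝ) : (nrm u c).t.p 2 = c 8 / u 8 := rfl

/-- **normalisation**: relative coordinates of normalised incidences -/
theorem co4_nrm {u : Fin 10 → ℝ} (hu : Tight u) (o i j : Fl4) (s : Fin 10) :
    co4 (nrm u (co4 o i)) (nrm u (co4 o j)) s = co4 i j s / u s := by
  have h0 := (hu.pos 0).ne'
  have h1 := (hu.pos 1).ne'
  have h2 := (hu.pos 2).ne'
  have h4 := (hu.pos 4).ne'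
  fin_cases s
  · show (co4 o j 0 / u 0) - (co4 o i 0 / u 0) = co4 i j 0 / u 0
    simp only [co4, Matrix.cons_val]
    field_simp
    ring
  · show (co4 o j 1 / u 1) - (co4 o i 1 / u 1) = co4 i j 1 / u 1
    simp only [co4, Matrix.cons_val]
    field_simp
    ring
  · show (co4 o j 2 / u 2) - (co4 o i 2 / u 2) = co4 i j 2 / u 2
    simp only [co4, Matrix.cons_val]
    field_simp
    ring
  · show (co4 o j 3 / u 3) - (co4 o i 3 / u 3) + (co4 o i 1 / u 1) *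
      ((co4 o j 2 / u 2) - (co4 o i 2 / u 2)) = co4 i j 3 / u 3
    simp only [co4, Matrix.cons_val]
    rw [hu.w3]
    field_simp
    ring
  · show (co4 o j 4 / u 4) - (co4 o i 4 / u 4) = co4 i j 4 / u 4
    simp only [co4, Matrix.cons_val]
    field_simp
    ring
  · show ((co4 o j 5 / u 5) - (co4 o i 5 / u 5)) - (co4 o i 1 / u 1) *
      ((co4 o j 4 / u 4) - (co4 o i 4 / u 4)) = co4 i j 5 / u 5
    simp only [co4, Matrix.cons_val]
    rw [hu.w5]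
    field_simp
    ring
  · show ((co4 o j 6 / u 6) - (co4 o i 6 / u 6)) - (co4 o i 3 / u 3) *
      ((co4 o j 4 / u 4) - (co4 o i 4 / u 4)) - (co4 o i 2 / u 2) *
      ((co4 o j 5 / u 5) - (co4 o i 5 / u 5)) = co4 i j 6 / u 6
    simp only [co4, Matrix.cons_val]
    rw [hu.w6, hu.w3, hu.w5]
    field_simp
    ring
  · show ((co4 o j 7 / u 7) + (co4 o i 0 / u 0) * (co4 o j 4 / u 4)) -
      ((co4 o i 7 / u 7) + (co4 o i 0 / u 0) * (co4 o i 4 / u 4)) = co4 i j 7 / u 7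
    simp only [co4, Ln4.pos, Matrix.cons_val]
    rw [hu.w7]
    field_simp
    ring
  · show (((co4 o j 8 / u 8) + (co4 o i 0 / u 0) * (co4 o j 5 / u 5)) -
      ((co4 o i 8 / u 8) + (co4 o i 0 / u 0) * (co4 o i 5 / u 5))) - (co4 o i 1 / u 1) *
      (((co4 o j 7 / u 7) + (co4 o i 0 / u 0) * (co4 o j 4 / u 4)) -
      ((co4 o i 7 / u 7) + (co4 o i 0 / u 0) * (co4 o i 4 / u 4))) = co4 i j 8 / u 8
    simp only [co4, Ln4.pos, Matrix.cons_val]
    rw [hu.w8, hu.w7, hu.w5]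
    field_simp
    ring
  · show (((co4 o j 9 / u 9) + (co4 o i 0 / u 0) * (co4 o j 6 / u 6)) -
      ((co4 o i 9 / u 9) + (co4 o i 0 / u 0) * (co4 o i 6 / u 6))) - (co4 o i 3 / u 3) *
      (((co4 o j 7 / u 7) + (co4 o i 0 / u 0) * (co4 o j 4 / u 4)) -
      ((co4 o i 7 / u 7) + (co4 o i 0 / u 0) * (co4 o i 4 / u 4))) - (co4 o i 2 / u 2) *
      (((co4 o j 8 / u 8) + (co4 o i 0 / u 0) * (co4 o j 5 / u 5)) -
      ((co4 o i 8 / u 8) + (co4 o i 0 / u 0) * (co4 o i 5 / u 5))) = co4 i j 9 / u 9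
    simp only [co4, Ln4.pos, Matrix.cons_val]
    rw [hu.w9, hu.w8, hu.w7, hu.w6, hu.w5, hu.w3]
    field_simp
    ring

/-- absolute data as incidences -/
theorem coA_eq (T T' : Ln4) (E E' fa fa' fb z : ℝ) {s : Fin 11} (hs : s ∈ fAll) :
    coA T T' E E' fa fa' fb z s = co4 ⟨T, z, E, fa, fb⟩ ⟨T', z, E', fa', fb⟩ (s4 s) := by
  have hs' : s = 2 ∨ s = 4 ∨ s = 5 ∨ s = 6 ∨ s = 7 ∨ s = 8 ∨ s = 9 ∨ s = 10 := by
    simpa [fAll] using hs
  rcases hs' with rfl | rfl | rfl | rfl | rfl | rfl | rfl | rfl <;> simp [coA, co4, s4]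

/-! ### stability -/

/-- an incidence with parameters in the unit box -/
structure Unit4 (i : Fl4) : Prop where
  v : ∀ m, |i.t.v m| ≤ 1
  p : ∀ m, |i.t.p m| ≤ 1
  z : |i.z| ≤ 1
  e : |i.e| ≤ 1
  fa : |i.fa| ≤ 1
  fb : |i.fb| ≤ 1

/-- parameters are `δ`-close -/
structure Near4 (i i' : Fl4) (δ : ℝ) : Prop where
  v : ∀ m, |i'.t.v m - i.t.v m| ≤ δ
  p : ∀ m, |i'.t.p m - i.t.p m| ≤ δ
  z : |i'.z - i.z| ≤ δ
  e : |i'.e - i.e| ≤ δ
  fa : |i'.fa - i.fa| ≤ δ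
  fb : |i'.fb - i.fb| ≤ δ

theorem prod_lip {a a' b b' A B α β : ℝ} (ha : |a| ≤ A) (hb : |b'| ≤ B) (h1 : |a' - a| ≤ α)
    (h2 : |b' - b| ≤ β) : |a' * b' - a * b| ≤ A * β + α * B := by
  have e : a' * b' - a * b = a * (b' - b) + (a' - a) * b' := by ring
  rw [e]
  exact (abs_add_le _ _).trans (add_le_add (abs_mul_le ha h2) (abs_mul_le h1 hb))

theorem sub_lip {a a' b b' α β : ℝ} (h1 : |a' - a| ≤ α) (h2 : |b' - b| ≤ β) :
    |(a' - b') - (a - b)| ≤ α + β := by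
  have e : (a' - b') - (a - b) = (a' - a) - (b' - b) := by ring
  rw [e]
  exact (abs_sub _ _).trans (add_le_add h1 h2)

theorem add_lip {a a' b b' α β : ℝ} (h1 : |a' - a| ≤ α) (h2 : |b' - b| ≤ β) :
    |(a' + b') - (a + b)| ≤ α + β := by
  have e : (a' + b') - (a + b) = (a' - a) + (b' - b) := by ring
  rw [e]
  exact (abs_add_le _ _).trans (add_le_add h1 h2)

theorem sub_bd {a b A B : ℝ} (h1 : |a| ≤ A) (h2 : |b| ≤ B) : |a - b| ≤ A + B :=
  (abs_sub _ _).trans (add_le_add h1 h2)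

/-- **`co4` is Lipschitz on the unit box** -/
theorem co4_lip {i i' j j' : Fl4} {δ : ℝ} (hi : Unit4 i) (hi' : Unit4 i') (_hj : Unit4 j)
    (hj' : Unit4 j') (h : Near4 i i' δ) (g : Near4 j j' δ) (s : Fin 10) :
    |co4 i' j' s - co4 i j s| ≤ 30 * δ := by
  have hδ : 0 ≤ δ := (abs_nonneg _).trans h.z
  have dv : ∀ m, |(j'.t.v m - i'.t.v m) - (j.t.v m - i.t.v m)| ≤ δ + δ := fun m =>
    sub_lip (g.v m) (h.v m)
  have bv : ∀ m, |j'.t.v m - i'.t.v m| ≤ 1 + 1 := fun m => sub_bd (hj'.v m) (hi'.v m)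
  have dp : ∀ m, |(j'.t.p m - i'.t.p m) - (j.t.p m - i.t.p m)| ≤ δ + δ := fun m =>
    sub_lip (g.p m) (h.p m)
  have bp : ∀ m, |j'.t.p m - i'.t.p m| ≤ 1 + 1 := fun m => sub_bd (hj'.p m) (hi'.p m)
  have eX : ∀ (a b : Fl4) (m : Fin 3), b.t.pos a.z m - a.t.pos a.z m =
      (b.t.p m - a.t.p m) + a.z * (b.t.v m - a.t.v m) := fun a b m => by
    simp only [Ln4.pos]; ring
  have dX : ∀ m, |(j'.t.pos i'.z m - i'.t.pos i'.z m) - (j.t.pos i.z m - i.t.pos i.z m)| ≤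
      (δ + δ) + (1 * (δ + δ) + δ * (1 + 1)) := fun m => by
    rw [eX, eX]
    exact add_lip (dp m) (prod_lip hi.z (bv m) h.z (dv m))
  have bX : ∀ m, |j'.t.pos i'.z m - i'.t.pos i'.z m| ≤ (1 + 1) + 1 * (1 + 1) := fun m => by
    rw [eX]
    exact (abs_add_le _ _).trans (add_le_add (bp m) (abs_mul_le hi'.z (bv m)))
  have dfb : |(j'.fb - i'.fb) - (j.fb - i.fb)| ≤ δ + δ := sub_lip g.fb h.fb
  have bfb : |j'.fb - i'.fb| ≤ 1 + 1 := sub_bd hj'.fb hi'.fb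
  fin_cases s
  · show |(j'.z - i'.z) - (j.z - i.z)| ≤ _
    exact (sub_lip g.z h.z).trans (by linarith)
  · show |(j'.e - i'.e) - (j.e - i.e)| ≤ _
    exact (sub_lip g.e h.e).trans (by linarith)
  · show |(j'.fb - i'.fb) - (j.fb - i.fb)| ≤ _
    exact dfb.trans (by linarith)
  · show |((j'.fa - i'.fa) + i'.e * (j'.fb - i'.fb)) - ((j.fa - i.fa) + i.e * (j.fb - i.fb))| ≤ _
    exact (add_lip (sub_lip g.fa h.fa) (prod_lip hi.e bfb h.e dfb)).trans (by linarith)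
  · show |(j'.t.v 1 - i'.t.v 1) - (j.t.v 1 - i.t.v 1)| ≤ _
    exact (dv 1).trans (by linarith)
  · show |((j'.t.v 2 - i'.t.v 2) - i'.e * (j'.t.v 1 - i'.t.v 1)) -
      ((j.t.v 2 - i.t.v 2) - i.e * (j.t.v 1 - i.t.v 1))| ≤ _
    exact (sub_lip (dv 2) (prod_lip hi.e (bv 1) h.e (dv 1))).trans (by linarith)
  · show |((j'.t.v 0 - i'.t.v 0) - i'.fa * (j'.t.v 1 - i'.t.v 1) - i'.fb * (j'.t.v 2 - i'.t.v 2)) -
      ((j.t.v 0 - i.t.v 0) - i.fa * (j.t.v 1 - i.t.v 1) - i.fb * (j.t.v 2 - i.t.v 2))| ≤ _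
    exact (sub_lip (sub_lip (dv 0) (prod_lip hi.fa (bv 1) h.fa (dv 1)))
      (prod_lip hi.fb (bv 2) h.fb (dv 2))).trans (by linarith)
  · show |(j'.t.pos i'.z 1 - i'.t.pos i'.z 1) - (j.t.pos i.z 1 - i.t.pos i.z 1)| ≤ _
    exact (dX 1).trans (by linarith)
  · show |((j'.t.pos i'.z 2 - i'.t.pos i'.z 2) - i'.e * (j'.t.pos i'.z 1 - i'.t.pos i'.z 1)) -
      ((j.t.pos i.z 2 - i.t.pos i.z 2) - i.e * (j.t.pos i.z 1 - i.t.pos i.z 1))| ≤ _
    exact (sub_lip (dX 2) (prod_lip hi.e (bX 1) h.e (dX 1))).trans (by linarith)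
  · show |((j'.t.pos i'.z 0 - i'.t.pos i'.z 0) - i'.fa * (j'.t.pos i'.z 1 - i'.t.pos i'.z 1) -
      i'.fb * (j'.t.pos i'.z 2 - i'.t.pos i'.z 2)) - ((j.t.pos i.z 0 - i.t.pos i.z 0) -
      i.fa * (j.t.pos i.z 1 - i.t.pos i.z 1) - i.fb * (j.t.pos i.z 2 - i.t.pos i.z 2))| ≤ _
    exact (sub_lip (sub_lip (dX 0) (prod_lip hi.fa (bX 1) h.fa (dX 1)))
      (prod_lip hi.fb (bX 2) h.fb (dX 2))).trans (by linarith)

/-- **two incidences of one fat line** -/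
theorem line_close {i j : Fl4} {η : ℝ} (hi : Unit4 i)
    (h : ∀ s : Fin 10, s ≠ 0 → s ≠ 2 → |co4 i j s| ≤ η) :
    |j.e - i.e| ≤ η ∧ (∀ m, |j.t.v m - i.t.v m| ≤ 4 * η) ∧ ∀ m, |j.t.p m - i.t.p m| ≤ 8 * η := by
  have h1 : |j.e - i.e| ≤ η := h 1 (by decide) (by decide)
  have v1 : |j.t.v 1 - i.t.v 1| ≤ η := h 4 (by decide) (by decide)
  have h5 : |(j.t.v 2 - i.t.v 2) - i.e * (j.t.v 1 - i.t.v 1)| ≤ η := h 5 (by decide) (by decide)
  have h6 : |(j.t.v 0 - i.t.v 0) - i.fa * (j.t.v 1 - i.t.v 1) - i.fb * (j.t.v 2 - i.t.v 2)| ≤ η :=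
    h 6 (by decide) (by decide)
  have x1 : |j.t.pos i.z 1 - i.t.pos i.z 1| ≤ η := h 7 (by decide) (by decide)
  have h8 : |(j.t.pos i.z 2 - i.t.pos i.z 2) - i.e * (j.t.pos i.z 1 - i.t.pos i.z 1)| ≤ η :=
    h 8 (by decide) (by decide)
  have h9 : |(j.t.pos i.z 0 - i.t.pos i.z 0) - i.fa * (j.t.pos i.z 1 - i.t.pos i.z 1) -
      i.fb * (j.t.pos i.z 2 - i.t.pos i.z 2)| ≤ η := h 9 (by decide) (by decide)
  have hη : 0 ≤ η := (abs_nonneg _).trans h1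
  have two : ∀ {x y a : ℝ}, |x - i.e * y| ≤ η → |y| ≤ η → |x| ≤ 2 * η := by
    intro x y a hx hy
    have a1 := abs_mul_le hi.e hy
    have e : x = (x - i.e * y) + i.e * y := by ring
    rw [e]
    exact (abs_add_le _ _).trans (by linarith)
  have four : ∀ {x y w a : ℝ}, |x - i.fa * y - i.fb * w| ≤ η → |y| ≤ η → |w| ≤ 2 * η →
      |x| ≤ 4 * η := by
    intro x y w a hx hy hw
    have a1 := abs_mul_le hi.fa hy
    have a2 := abs_mul_le hi.fb hw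
    have e : x = (x - i.fa * y - i.fb * w) + i.fa * y + i.fb * w := by ring
    rw [e]
    exact (abs_add_three _ _ _).trans (by linarith)
  have v2 : |j.t.v 2 - i.t.v 2| ≤ 2 * η := two (a := 0) h5 v1
  have v0 : |j.t.v 0 - i.t.v 0| ≤ 4 * η := four (a := 0) h6 v1 v2
  have x2 : |j.t.pos i.z 2 - i.t.pos i.z 2| ≤ 2 * η := two (a := 0) h8 x1
  have x0 : |j.t.pos i.z 0 - i.t.pos i.z 0| ≤ 4 * η := four (a := 0) h9 x1 x2
  have hv : ∀ m, |j.t.v m - i.t.v m| ≤ 4 * η := by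
    intro m
    fin_cases m
    · exact v0
    · exact v1.trans (by linarith)
    · exact v2.trans (by linarith)
  refine ⟨h1, hv, ?_⟩
  have hx : ∀ m, |j.t.pos i.z m - i.t.pos i.z m| ≤ 4 * η := by
    intro m
    fin_cases m
    · exact x0
    · exact x1.trans (by linarith)
    · exact x2.trans (by linarith)
  intro m
  have a1 := abs_mul_le hi.z (hv m)
  have e : j.t.p m - i.t.p m = (j.t.pos i.z m - i.t.pos i.z m) - i.z * (j.t.v m - i.t.v m) := by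
    simp only [Ln4.pos]; ring
  rw [e]
  refine (abs_sub _ _).trans ?_
  have := hx m
  linarith

end Crest.Agent.R136.Wk323
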