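import Crest.Agent.R136.WkH4_626
import Crest.Agent.R136.Rc6_146

/-!
# R136 (S0187): profile numbers of the RIG window from the record blow-up (helper626)

Surface of the lightlike case: slopes `z, F_b (1,0)`, `E, C_a (0,1)`, `C_b (0,2)`, `F_a, X_a (1,1)`,
`N (2,2)`, `P, X_b (1,2)`.  Slots of `coQ`: `0 z, 1 R, 2 E, 3 F_b, 4 F_a, 5 C_a, 6 C_b, 7 P, 8 X_a,
9 X_b, 10 N`.

* `affine_of_mid` : a continuous midpoint-concave function which is below its chord at one
  special point is affine.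
* `n_lin` : in the group `{X_a, F_a, N}` the loss of `N` given `X_a` is linear.
* `lprof` : the inequalities `dec, fib, conc, hdens, hfrost` at every class of the half plane.
-/

set_option autoImplicit false
set_option linter.unusedSectionVars false
set_option linter.unusedVariables false

open Filter Topology Set

namespace Crest.Agent.R136.WkL626

open Crest.Agent.R136.Rc146
open Crest.Agent.R136.Dg219

/-- continuous, midpoint concave on `[0,1]`, nonnegative end values zero ⇒ nonnegative -/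
theorem nonneg_of_mid {E : ℝ → ℝ} (hc : ContinuousOn E (Icc 0 1)) (h0 : E 0 = 0) (h1 : E 1 = 0)
    (hmid : ∀ s k, 0 ≤ k → 0 ≤ s - k → s + k ≤ 1 → E (s - k) + E (s + k) ≤ 2 * E s) :
    ∀ s ∈ Icc (0 : ℝ) 1, 0 ≤ E s := by
  obtain ⟨m, hm, hmin⟩ := isCompact_Icc.exists_isMinOn (nonempty_Icc.2 zero_le_one) hc
  have hmin' : ∀ s ∈ Icc (0 : ℝ) 1, E m ≤ E s := fun s hs => hmin hs
  suffices h : 0 ≤ E m from fun s hs => h.trans (hmin' s hs)
  rcases le_total m (1 / 2) with hm2 | hm2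
  · have h2 := hmid m m hm.1 (by linarith) (by linarith)
    rw [sub_self, h0] at h2
    have h3 := hmin' (m + m) ⟨by linarith [hm.1], by linarith⟩
    linarith
  · have h2 := hmid m (1 - m) (by linarith [hm.2]) (by linarith) (by linarith)
    have e : m + (1 - m) = 1 := by ring
    rw [e, h1] at h2
    have h3 := hmin' (m - (1 - m)) ⟨by linarith, by linarith [hm.2]⟩
    linarith

/-- **continuous, midpoint concave, and below the chord at `2/3`** ⇒ affine on `[0,1]` -/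
theorem affine_of_mid {f : ℝ → ℝ} (hc : ContinuousOn f (Icc 0 1))
    (hmid : ∀ s k, 0 ≤ k → 0 ≤ s - k → s + k ≤ 1 → f (s - k) + f (s + k) ≤ 2 * f s)
    (h23 : 3 * f (2 / 3) ≤ f 0 + 2 * f 1) :
    ∀ s ∈ Icc (0 : ℝ) 1, f s = (1 - s) * f 0 + s * f 1 := by
  set E : ℝ → ℝ := fun s => f s - ((1 - s) * f 0 + s * f 1) with hE
  have hEc : ContinuousOn E (Icc 0 1) := by
    apply hc.sub
    fun_prop
  have hE0 : E 0 = 0 := by simp [hE]
  have hE1 : E 1 = 0 := by simp [hE]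
  have hEm : ∀ s k, 0 ≤ k → 0 ≤ s - k → s + k ≤ 1 → E (s - k) + E (s + k) ≤ 2 * E s := by
    intro s k h1 h2 h3
    have := hmid s k h1 h2 h3
    simp only [hE]
    linarith
  have hpos := nonneg_of_mid hEc hE0 hE1 hEm
  have hE23 : E (2 / 3) = 0 := by
    have h1 := hpos (2 / 3) ⟨by norm_num, by norm_num⟩
    have h2 : E (2 / 3) ≤ 0 := by
      simp only [hE]
      linarith
    exact le_antisymm h2 h1
  have hup : ∀ s ∈ Icc (1 / 3 : ℝ) 1, E s = 0 := by
    intro s hs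
    rcases le_total s (2 / 3) with h | h
    · have h1 := hEm (2 / 3) (2 / 3 - s) (by linarith) (by linarith [hs.1]) (by linarith [hs.1])
      have e : (2 / 3 : ℝ) - (2 / 3 - s) = s := by ring
      rw [e, hE23] at h1
      have h2 := hpos s ⟨by linarith [hs.1], hs.2⟩
      have h3 := hpos (2 / 3 + (2 / 3 - s)) ⟨by linarith, by linarith [hs.1]⟩
      linarith
    · have h1 := hEm (2 / 3) (s - 2 / 3) (by linarith) (by linarith [hs.2]) (by linarith [hs.2])
      have e : (2 / 3 : ℝ) + (s - 2 / 3) = s := by ring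
      rw [e, hE23] at h1
      have h2 := hpos s ⟨by linarith, hs.2⟩
      have h3 := hpos (2 / 3 - (s - 2 / 3)) ⟨by linarith [hs.2], by linarith⟩
      linarith
  have hall : ∀ s ∈ Icc (0 : ℝ) 1, E s = 0 := by
    intro s hs
    rcases le_total (1 / 3) s with h | h
    · exact hup s ⟨h, hs.2⟩
    · have h1 := hEm (1 / 3) (1 / 3 - s) (by linarith) (by linarith [hs.1]) (by linarith [hs.1])
      have e : (1 / 3 : ℝ) - (1 / 3 - s) = s := by ring
      rw [e, hup (1 / 3) ⟨le_rfl, by norm_num⟩] at h1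
      have h2 := hpos s hs
      have h3 := hpos (1 / 3 + (1 / 3 - s)) ⟨by linarith, by linarith [hs.1]⟩
      linarith
  intro s hs
  have := hall s hs
  simp only [hE] at this
  linarith

/-! ### the group `{X_a, F_a, N}` -/

/-- legality for the walls of `monQ` without `P ≤ z + R` and without signs -/
structure WqL (c : Fin 11 → ℝ) : Prop where
  w4 : c 4 ≤ c 2 + c 3
  w6 : c 6 ≤ c 2 + c 5
  w7a : c 7 ≤ c 4 + c 5
  w7b : c 7 ≤ c 3 + c 6
  w8 : c 8 ≤ c 0 + c 5
  w9a : c 9 ≤ c 0 + c 6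
  w9b : c 9 ≤ c 2 + c 8
  w10a : c 10 ≤ c 0 + c 7
  w10b : c 10 ≤ c 4 + c 8
  w10c : c 10 ≤ c 3 + c 9

/-- `X_a = x, F_a = f, N = n`, everything else as coarse as `K` (the group does not see it) -/
def vN (K x f n : ℝ) : Fin 11 → ℝ := ![K, 0, K, K, f, 2 * K, K, K, x, K, n]

theorem vN_wq {K x f n : ℝ} (hK : 0 ≤ K) (hx : |x| ≤ K) (hf : |f| ≤ K) (hn : |n| ≤ K)
    (h : n ≤ x + f) (hf0 : 0 ≤ f) (hx0 : 0 ≤ x) : WqL (vN K x f n) := by
  have hx' := abs_le.1 hx
  have hf' := abs_le.1 hf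
  have hn' := abs_le.1 hn
  constructor <;> simp only [vN, Matrix.cons_val] <;> linarith

section NLin

variable {g : Fin 11 → ℕ} {S : Finset ℕ} {LW L : Set (Fin 11 → ℝ)} {a b : Fin 11 → ℝ} {l : ℝ × ℝ}
  {dh : Fin 11 → ℝ} {n : ℕ → ℝ × ℝ} {lam : (Fin 11 → ℝ) → ℝ} {φ : ℕ → (Fin 11 → ℝ) → ℝ} {r : ℕ → ℝ}

/-- groups and slopes of the lightlike surface -/
structure LSrf (g : Fin 11 → ℕ) (S : Finset ℕ) (L : Set (Fin 11 → ℝ)) (a b dh : Fin 11 → ℝ) :
    Prop where
  leg : ∀ c, WqL c → c ∈ L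
  g8 : ∀ i, g i = g 8 ↔ i = 4 ∨ i = 8 ∨ i = 10
  pos : ∀ i, g i = g 8 → 0 < dh i
  mem8 : g 8 ∈ S
  a4 : a 4 = 1
  a8 : a 8 = 1
  a10 : a 10 = 2

/-- losses of the group -/
noncomputable def ps (φ : ℕ → (Fin 11 → ℝ) → ℝ) (g : Fin 11 → ℕ) (s : ℝ) : ℝ := φ (g 8) (vN 4 1 0 s)

theorem phi_vN (H : RecOut g S LW L a b l dh n lam φ r) (G : LSrf g S L a b dh) {K x f m : ℝ}
    {c : Fin 11 → ℝ} (h8 : c 8 = x) (h4 : c 4 = f) (h10 : c 10 = m) :
    φ (g 8) c = φ (g 8) (vN K x f m) := by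
  refine H.loc _ _ _ fun i hi => ?_
  rcases (G.g8 i).1 hi with rfl | rfl | rfl
  · simp [vN, h4]
  · simp [vN, h8]
  · simp [vN, h10]

theorem phi_tr (H : RecOut g S LW L a b l dh n lam φ r) (G : LSrf g S L a b dh) {K K' x f m : ℝ}
    (u : ℝ) (hc : WqL (vN K x f m)) :
    φ (g 8) (vN K' (x + u) (f + u) (m + 2 * u)) = φ (g 8) (Tn a b (u, 0)) +
      φ (g 8) (vN K x f m) := by
  rw [← H.add _ G.mem8 G.pos (u, 0) _ (G.leg _ hc)]
  symm
  refine phi_vN H G ?_ ?_ ?_
  · simp only [Pi.add_apply, Tn, vN, Matrix.cons_val, G.a8]; ring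
  · simp only [Pi.add_apply, Tn, vN, Matrix.cons_val, G.a4]; ring
  · simp only [Pi.add_apply, Tn, vN, Matrix.cons_val, G.a10]; ring

theorem phi_hom (H : RecOut g S LW L a b l dh n lam φ r) (G : LSrf g S L a b dh) {K K' x f m : ℝ}
    {t : ℝ} (ht : 0 ≤ t) (hc : WqL (vN K x f m)) :
    φ (g 8) (vN K' (t * x) (t * f) (t * m)) = t * φ (g 8) (vN K x f m) := by
  rw [← H.hom _ G.mem8 G.pos _ (G.leg _ hc) t ht]
  symm
  refine phi_vN H G ?_ ?_ ?_ <;> simp [vN]

theorem phi_smod (H : RecOut g S LW L a b l dh n lam φ r) (G : LSrf g S L a b dh) {K : ℝ}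
    {x f m x' f' m' : ℝ} (h1 : WqL (vN K x f m)) (h2 : WqL (vN K x' f' m'))
    (h3 : WqL (vN K (min x x') (min f f') (min m m')))
    (h4 : WqL (vN K (max x x') (max f f') (max m m'))) :
    φ (g 8) (vN K x f m) + φ (g 8) (vN K x' f' m') ≤
      φ (g 8) (vN K (max x x') (max f f') (max m m')) +
      φ (g 8) (vN K (min x x') (min f f') (min m m')) := by
  refine H.smod _ G.mem8 _ (G.leg _ h1) _ (G.leg _ h2) _ (G.leg _ h3) _ (G.leg _ h4) ?_ ?_
  · intro i hi
    rcases (G.g8 i).1 hi with rfl | rfl | rfl <;> simp [vN]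
  · intro i hi
    rcases (G.g8 i).1 hi with rfl | rfl | rfl <;> simp [vN]

theorem sum_g8 (G : LSrf g S L a b dh) (f : Fin 11 → ℝ) :
    ∑ i ∈ Finset.univ.filter (fun i => g i = g 8), f i = f 4 + f 8 + f 10 := by
  have e : Finset.univ.filter (fun i => g i = g 8) = ({4, 8, 10} : Finset (Fin 11)) := by
    ext i
    simp only [Finset.mem_filter, Finset.mem_univ, true_and, Finset.mem_insert,
      Finset.mem_singleton]
    exact G.g8 i
  rw [e]
  rw [Finset.sum_insert (by decide), Finset.sum_insert (by decide), Finset.sum_singleton]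
  ring

theorem ps_cont (H : RecOut g S LW L a b l dh n lam φ r) (G : LSrf g S L a b dh) :
    ContinuousOn (ps φ g) (Icc 0 1) := by
  have key : ∀ s ∈ Icc (0 : ℝ) 1, ∀ t ∈ Icc (0 : ℝ) 1, s ≤ t → |ps φ g s - ps φ g t| ≤ t - s := by
    intro s hs t ht hst
    have w : ∀ y ∈ Icc (0 : ℝ) 1, WqL (vN 4 1 0 y) := fun y hy =>
      vN_wq (by norm_num) (by norm_num) (by norm_num)
        (by rw [abs_le]; constructor <;> linarith [hy.1, hy.2]) (by linarith [hy.2]) le_rfl
        zero_le_one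
    have h := H.mono _ G.mem8 _ (G.leg _ (w s hs)) _ (G.leg _ (w t ht)) (fun i hi => by
      rcases (G.g8 i).1 hi with rfl | rfl | rfl <;> simp [vN, hst])
    rw [sum_g8 G] at h
    have h2 := h.2.trans (le_of_eq (show (vN 4 1 0 t 4 - vN 4 1 0 s 4) +
      (vN 4 1 0 t 8 - vN 4 1 0 s 8) + (vN 4 1 0 t 10 - vN 4 1 0 s 10) = t - s by simp [vN]))
    unfold ps
    rw [abs_of_nonneg h.1]
    exact h2
  have : LipschitzOnWith 1 (ps φ g) (Icc 0 1) := by
    apply LipschitzOnWith.of_dist_le_mul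
    intro s hs t ht
    rw [Real.dist_eq, Real.dist_eq, NNReal.coe_one, one_mul]
    rcases le_total s t with h | h
    · rw [abs_sub_comm s t, abs_of_nonneg (sub_nonneg.2 h)]
      exact key s hs t ht h
    · rw [abs_sub_comm (ps φ g s), abs_of_nonneg (sub_nonneg.2 h)]
      exact key t ht s hs h
  exact this.continuousOn

/-- **the loss of `N` given `X_a` is linear** -/
theorem ps_affine (H : RecOut g S LW L a b l dh n lam φ r) (G : LSrf g S L a b dh) :
    ∀ s ∈ Icc (0 : ℝ) 1, ps φ g s = (1 - s) * ps φ g 0 + s * ps φ g 1 := by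
  have w : ∀ {x f m : ℝ}, 0 ≤ x → x ≤ 4 → 0 ≤ f → f ≤ 4 → 0 ≤ m → m ≤ 4 → m ≤ x + f →
      WqL (vN 4 x f m) := fun a1 a2 a3 a4 a5 a6 a7 =>
    vN_wq (by norm_num) (by rw [abs_le]; constructor <;> linarith)
      (by rw [abs_le]; constructor <;> linarith) (by rw [abs_le]; constructor <;> linarith) a7
      a3 a1
  refine affine_of_mid (ps_cont H G) ?_ ?_
  · intro s k hk h1 h2
    have e1 : max (1 : ℝ) (1 + k / 2) = 1 + k / 2 := max_eq_right (by linarith)
    have e2 : min (1 : ℝ) (1 + k / 2) = 1 := min_eq_left (by linarith)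
    have e3 : max (0 : ℝ) (0 + k / 2) = 0 + k / 2 := max_eq_right (by linarith)
    have e4 : min (0 : ℝ) (0 + k / 2) = 0 := min_eq_left (by linarith)
    have e5 : max (s + k) s = s + k := max_eq_left (by linarith)
    have e6 : min (s + k) s = s := min_eq_right (by linarith)
    have h := phi_smod H G (K := 4) (x := 1) (f := 0) (m := s + k) (x' := 1 + k / 2)
      (f' := 0 + k / 2) (m' := s) (w (by linarith) (by linarith) le_rfl (by linarith)
        (by linarith) (by linarith) (by linarith))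
      (w (by linarith) (by linarith) (by linarith) (by linarith) (by linarith) (by linarith)
        (by linarith))
      (by rw [e2, e4, e6]; exact w (by linarith) (by linarith) (by linarith) (by linarith)
            (by linarith) (by linarith) (by linarith))
      (by rw [e1, e3, e5]; exact w (by linarith) (by linarith) (by linarith) (by linarith)
            (by linarith) (by linarith) (by linarith))
    rw [e1, e2, e3, e4, e5, e6] at h
    have t1 := phi_tr H G (K := 4) (K' := 4) (x := 1) (f := 0) (m := s - k) (k / 2)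
      (w (by linarith) (by linarith) le_rfl (by linarith) (by linarith) (by linarith)
        (by linarith))
    have t2 := phi_tr H G (K := 4) (K' := 4) (x := 1) (f := 0) (m := s) (k / 2)
      (w (by linarith) (by linarith) le_rfl (by linarith) (by linarith) (by linarith)
        (by linarith))
    rw [show s - k + 2 * (k / 2) = s by ring] at t1
    rw [show s + 2 * (k / 2) = s + k by ring] at t2
    unfold ps
    linarith
  · have e1 : max (3 / 2 : ℝ) 1 = 3 / 2 := max_eq_left (by norm_num)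
    have e2 : min (3 / 2 : ℝ) 1 = 1 := min_eq_right (by norm_num)
    have e3 : max (0 : ℝ) (1 / 2) = 1 / 2 := max_eq_right (by norm_num)
    have e4 : min (0 : ℝ) (1 / 2) = 0 := min_eq_left (by norm_num)
    have h := phi_smod H G (K := 4) (x := 3 / 2) (f := 0) (m := 1) (x' := 1) (f' := 1 / 2)
      (m' := 1) (w (by norm_num) (by norm_num) le_rfl (by norm_num) (by norm_num) (by norm_num)
        (by norm_num))
      (w (by norm_num) (by norm_num) (by norm_num) (by norm_num) (by norm_num) (by norm_num)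
        (by norm_num))
      (by rw [e2, e4, min_self]; exact w (by norm_num) (by norm_num) le_rfl (by norm_num)
            (by norm_num) (by norm_num) (by norm_num))
      (by rw [e1, e3, max_self]; exact w (by norm_num) (by norm_num) (by norm_num)
            (by norm_num) (by norm_num) (by norm_num) (by norm_num))
    rw [e1, e2, e3, e4, min_self, max_self] at h
    have t1 := phi_hom H G (K := 4) (K' := 4) (x := 1) (f := 0) (m := 2 / 3) (t := 3 / 2)
      (by norm_num) (w (by norm_num) (by norm_num) le_rfl (by norm_num) (by norm_num)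
        (by norm_num) (by norm_num))
    have t2 := phi_tr H G (K := 4) (K' := 4) (x := 1 / 2) (f := 0) (m := 0) (1 / 2)
      (w (by norm_num) (by norm_num) le_rfl (by norm_num) le_rfl (by norm_num) (by norm_num))
    have t3 := phi_hom H G (K := 4) (K' := 4) (x := 1) (f := 0) (m := 0) (t := 1 / 2)
      (by norm_num) (w (by norm_num) (by norm_num) le_rfl (by norm_num) le_rfl
        (by norm_num) (by norm_num))
    have t4 := phi_tr H G (K := 4) (K' := 4) (x := 1) (f := 0) (m := 0) (1 / 2)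
      (w (by norm_num) (by norm_num) le_rfl (by norm_num) le_rfl (by norm_num) (by norm_num))
    norm_num at t1 t2 t3 t4 h
    unfold ps
    linarith

/-- rate of `N` given `X_a` -/
noncomputable def aN (φ : ℕ → (Fin 11 → ℝ) → ℝ) (g : Fin 11 → ℕ) : ℝ := ps φ g 0 - ps φ g 1

theorem n_lin (H : RecOut g S LW L a b l dh n lam φ r) (G : LSrf g S L a b dh) {x y : ℝ}
    (hy : 0 ≤ y) (hyx : y ≤ x) {c c' : Fin 11 → ℝ} (h8 : c 8 = x) (h4 : c 4 = 0) (h10 : c 10 = y)
    (h8' : c' 8 = x) (h4' : c' 4 = 0) (h10' : c' 10 = x) :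
    φ (g 8) c - φ (g 8) c' = aN φ g * (x - y) := by
  rw [phi_vN H G (K := 4) h8 h4 h10, phi_vN H G (K := 4) h8' h4' h10']
  have w : ∀ s ∈ Icc (0 : ℝ) 1, WqL (vN 4 1 0 s) := fun s hs =>
    vN_wq (by norm_num) (by norm_num) (by norm_num)
      (by rw [abs_le]; constructor <;> linarith [hs.1, hs.2]) (by linarith [hs.2]) le_rfl
      zero_le_one
  rcases hyx.eq_or_lt with rfl | hlt
  · simp
  have hx : 0 < x := lt_of_le_of_lt hy hlt
  have hs : y / x ∈ Icc (0 : ℝ) 1 := ⟨by positivity, by rw [div_le_one hx]; exact hyx⟩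
  have t1 := phi_hom H G (K := 4) (K' := 4) (x := 1) (f := 0) (m := y / x) hx.le (w _ hs)
  have t2 := phi_hom H G (K := 4) (K' := 4) (x := 1) (f := 0) (m := 1) hx.le
    (w 1 ⟨zero_le_one, le_rfl⟩)
  have t3 := ps_affine H G _ hs
  rw [mul_one, mul_zero, mul_div_cancel₀ _ hx.ne'] at t1
  rw [mul_one, mul_zero] at t2
  rw [t1, t2]
  have e1 : φ (g 8) (vN 4 1 0 (y / x)) = (1 - y / x) * ps φ g 0 + y / x * ps φ g 1 := t3
  have e2 : φ (g 8) (vN 4 1 0 1) = ps φ g 1 := rfl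
  rw [e1, e2, aN]
  field_simp
  ring

end NLin

/-! ### the numbers of a window -/

section LProf

open Crest.Agent.R136.Qg926
open Crest.Agent.R136.Wk323 (vec fAll fPos fDir qv)

/-- resolution of the RIG window -/
def topL (x : ℝ) : Fin 11 → ℝ := fun s => if s = 1 then 0 else x

variable {g : Fin 11 → ℕ} {S : Finset ℕ} {L : Set (Fin 11 → ℝ)} {a b : Fin 11 → ℝ}
  {l : ℝ × ℝ} {c0 : ℝ} {dh : Fin 11 → ℝ} {n : ℕ → ℝ × ℝ} {lam : (Fin 11 → ℝ) → ℝ}
  {φ : ℕ → (Fin 11 → ℝ) → ℝ} {r : ℕ → ℝ}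

/-- all groups of the lightlike surface -/
structure LGrp (g : Fin 11 → ℕ) (S : Finset ℕ) (L : Set (Fin 11 → ℝ)) (a b dh : Fin 11 → ℝ) :
    Prop extends LSrf g S L a b dh where
  g5 : ∀ i, g i = g 5 ↔ i = 2 ∨ i = 5 ∨ i = 6
  g0 : ∀ i, g i = g 0 → i = 0 ∨ i = 1 ∨ i = 3
  pos5 : ∀ i, g i = g 5 → 0 < dh i
  mem5 : g 5 ∈ S
  mem0 : g 0 ∈ S
  g3 : g 3 = g 0

/-- one group changes -/
theorem dif_one (H : RecOut g S (LH L a b l c0) L a b l dh n lam φ r) {k : ℕ} (hk : k ∈ S)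
    {w : ℝ × ℝ} (hw : lf l w ≤ 0) {x : ℝ} (hx : x ≤ c0 * -(lf l w)) {c c' : Fin 11 → ℝ}
    (hc : c ∈ L) (hc' : c' ∈ L) (hn : ‖c‖ ≤ x) (hn' : ‖c'‖ ≤ x)
    (h : ∀ i, g i ≠ k → c' i = c i) :
    lam (Tn a b w + c') - lam (Tn a b w + c) = φ k (Tn a b w + c') - φ k (Tn a b w + c) := by
  rw [H.split _ ⟨w, c, hw, hc, hn.trans hx, rfl⟩ _ ⟨w, c', hw, hc', hn'.trans hx, rfl⟩
    (fun i hi => by
      have : g i ≠ k := fun he => hi (by rw [he]; exact hk)
      rw [Pi.add_apply, Pi.add_apply, h i this])]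
  rw [Finset.sum_eq_single k]
  · intro j _ hj
    rw [sub_eq_zero]
    refine H.loc _ _ _ fun i hi => ?_
    have : g i ≠ k := fun he => hj (by rw [← hi, he])
    rw [Pi.add_apply, Pi.add_apply, h i this]
  · intro h'; exact absurd hk h'

/-- test vectors -/
def vL (z d c p X N : ℝ) : Fin 11 → ℝ := ![z, 0, d, z, p, c, d, p, X, X, N]

theorem vL_wq {z d c p X N : ℝ} (hc : 0 ≤ c) (hd : 0 ≤ d) (h1 : p ≤ z + d) (h2 : X ≤ z + c)
    (h3 : X ≤ z + d) (h4 : N ≤ z + p) (h5 : N ≤ p + X) (h6 : N ≤ z + X) :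
    WqL (vL z d c p X N) := by
  constructor <;> simp only [vL, Matrix.cons_val] <;> linarith

theorem vL_norm {z d c p X N x : ℝ} (hx : 0 ≤ x) (h1 : |z| ≤ x) (h2 : |d| ≤ x) (h3 : |c| ≤ x)
    (h4 : |p| ≤ x) (h5 : |X| ≤ x) (h6 : |N| ≤ x) : ‖vL z d c p X N‖ ≤ x := by
  rw [pi_norm_le_iff_of_nonneg hx]
  intro s
  rw [Real.norm_eq_abs]
  fin_cases s <;> simp [vL, h1, h2, h3, h4, h5, h6, hx]

theorem cut_vL (x : ℝ) (p : Fin 11 → ℝ) :
    cut ({0, 3} : Finset (Fin 11)) p (topL x) = ![x, p 1, p 2, x, p 4, p 5, p 6, p 7, p 8, p 9, p 10] := by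
  funext s
  fin_cases s <;> simp [cut, topL]

theorem cut_zero (x : ℝ) : cut ({0, 3} : Finset (Fin 11)) 0 (topL x) = vL x 0 0 0 0 0 := by
  rw [cut_vL]; funext s; fin_cases s <;> simp [vL]

theorem cut_all (x : ℝ) : cut ({0, 3} : Finset (Fin 11)) (vec fAll x) (topL x) = vL x x x x x x := by
  rw [cut_vL]; funext s; fin_cases s <;> simp [vL, vec, fAll]

theorem top_vL (x : ℝ) : topL x = vL x x x x x x := by
  funext s; fin_cases s <;> simp [vL, topL]

theorem cut_pos (x : ℝ) : cut ({0, 3} : Finset (Fin 11)) (vec fPos x) (topL x) = vL x 0 0 x x x := by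
  rw [cut_vL]; funext s; fin_cases s <;> simp [vL, vec, fPos]

theorem cut_dir (x : ℝ) : cut ({0, 3} : Finset (Fin 11)) (vec fDir x) (topL x) = vL x x x 0 0 0 := by
  rw [cut_vL]; funext s; fin_cases s <;> simp [vL, vec, fDir]

theorem cut_qv (x y : ℝ) : cut ({0, 3} : Finset (Fin 11)) (qv x y) (topL x) = vL x 0 0 0 x y := by
  rw [cut_vL]; funext s; fin_cases s <;> simp [vL, qv]

theorem cut_c (x y : ℝ) : cut ({0, 3} : Finset (Fin 11)) (vec {5} y) (topL x) = vL x 0 y 0 0 0 := by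
  rw [cut_vL]; funext s; fin_cases s <;> simp [vL, vec]

theorem cut_lin (x : ℝ) : cut ({0, 3} : Finset (Fin 11)) (topL x) 0 = vL 0 x x x x x := by
  funext s; fin_cases s <;> simp [vL, cut, topL]

/-- **THE PROFILE NUMBERS of the RIG window at the class `Tn w`** -/
theorem lprof {ι : ℕ → Type*} [∀ n, DecidableEq (ι n)] {W : Wnd 11 ι}
    (hS : W.S = {0, 3}) {x : ℝ} (htop : W.top = topL x) {w : ℝ × ℝ}
    (hlam : ∀ c, W.lam c = lam (Tn a b w + c) - lam (Tn a b w))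
    (H : RecOut g S (LH L a b l c0) L a b l dh n lam φ r) (G : LGrp g S L a b dh)
    (hw : lf l w ≤ 0) (hx0 : 0 ≤ x) (hx : x ≤ c0 * -(lf l w)) :
    W.nu 0 + W.nu (vec fAll x) ≤ W.nu (vec fPos x) + W.nu (vec fDir x) ∧
    (∀ y, 0 ≤ y → y ≤ x → W.nu (qv x y) - W.nu (qv x x) ≤ aN φ g * (x - y)) ∧
    (∀ y, 0 ≤ y → y ≤ x → -φ (g 5) (Pi.single 5 1) * y ≤ W.nu 0 - W.nu (vec {5} y)) ∧
    W.lam W.top ≤ W.lam (cut W.S W.top 0) + W.lam (cut W.S 0 W.top) := by
  have hnu : ∀ p, W.nu p = lam (Tn a b w + cut {0, 3} p (topL x)) -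
      lam (Tn a b w + topL x) := by
    intro p
    show W.lam (cut W.S p W.top) - W.lam W.top = _
    rw [hS, htop, hlam, hlam]; ring
  have ax : |x| ≤ x := le_of_eq (abs_of_nonneg hx0)
  have a0 : |(0 : ℝ)| ≤ x := by rw [abs_zero]; exact hx0
  have ay : ∀ {y : ℝ}, 0 ≤ y → y ≤ x → |y| ≤ x := fun h1 h2 => by rwa [abs_of_nonneg h1]
  have l0 : vL x 0 0 0 0 0 ∈ L := G.leg _ (vL_wq le_rfl le_rfl (by linarith) (by linarith)
    (by linarith) (by linarith) (by linarith) (by linarith))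
  have lall : vL x x x x x x ∈ L := G.leg _ (vL_wq hx0 hx0 (by linarith) (by linarith)
    (by linarith) (by linarith) (by linarith) (by linarith))
  have lpos : vL x 0 0 x x x ∈ L := G.leg _ (vL_wq le_rfl le_rfl (by linarith) (by linarith)
    (by linarith) (by linarith) (by linarith) (by linarith))
  have ldir : vL x x x 0 0 0 ∈ L := G.leg _ (vL_wq hx0 hx0 (by linarith) (by linarith)
    (by linarith) (by linarith) (by linarith) (by linarith))
  have llin : vL 0 x x x x x ∈ L := G.leg _ (vL_wq hx0 hx0 (by linarith) (by linarith)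
    (by linarith) (by linarith) (by linarith) (by linarith))
  have lq : ∀ y, 0 ≤ y → y ≤ x → vL x 0 0 0 x y ∈ L := fun y h1 h2 =>
    G.leg _ (vL_wq le_rfl le_rfl (by linarith) (by linarith) (by linarith) (by linarith)
      (by linarith) (by linarith))
  have lc : ∀ y, 0 ≤ y → y ≤ x → vL x 0 y 0 0 0 ∈ L := fun y h1 h2 =>
    G.leg _ (vL_wq h1 le_rfl (by linarith) (by linarith) (by linarith) (by linarith)
      (by linarith) (by linarith))
  have lz : (0 : Fin 11 → ℝ) ∈ L := G.leg _ (by constructor <;> simp)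
  refine ⟨?_, ?_, ?_, ?_⟩
  · -- dec
    rw [hnu, hnu, hnu, hnu, cut_zero, cut_all, cut_pos, cut_dir]
    have d1 := dif_one H G.mem5 hw hx l0 ldir (vL_norm hx0 ax a0 a0 a0 a0 a0)
      (vL_norm hx0 ax ax ax a0 a0 a0) (fun i hi => by
        have hi' : ¬ (i = 2 ∨ i = 5 ∨ i = 6) := fun h => hi ((G.g5 i).2 h)
        revert hi'
        fin_cases i <;> simp [vL])
    have d2 := dif_one H G.mem5 hw hx lpos lall (vL_norm hx0 ax a0 a0 ax ax ax)
      (vL_norm hx0 ax ax ax ax ax ax) (fun i hi => by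
        have hi' : ¬ (i = 2 ∨ i = 5 ∨ i = 6) := fun h => hi ((G.g5 i).2 h)
        revert hi'
        fin_cases i <;> simp [vL])
    have e1 : φ (g 5) (Tn a b w + vL x x x 0 0 0) = φ (g 5) (Tn a b w + vL x x x x x x) :=
      H.loc _ _ _ fun i hi => by
        rcases (G.g5 i).1 hi with rfl | rfl | rfl <;> simp [vL]
    have e2 : φ (g 5) (Tn a b w + vL x 0 0 0 0 0) = φ (g 5) (Tn a b w + vL x 0 0 x x x) :=
      H.loc _ _ _ fun i hi => by
        rcases (G.g5 i).1 hi with rfl | rfl | rfl <;> simp [vL]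
    rw [e1, e2] at d1
    linarith
  · -- fib
    intro y hy hyx
    rw [hnu, hnu, cut_qv, cut_qv]
    have d1 := dif_one H G.mem8 hw hx (lq x hx0 le_rfl) (lq y hy hyx)
      (vL_norm hx0 ax a0 a0 a0 ax ax) (vL_norm hx0 ax a0 a0 a0 ax (ay hy hyx)) (fun i hi => by
        have hi' : ¬ (i = 4 ∨ i = 8 ∨ i = 10) := fun h => hi ((G.g8 i).2 h)
        revert hi'
        fin_cases i <;> simp [vL])
    rw [H.add _ G.mem8 G.pos w _ (lq x hx0 le_rfl), H.add _ G.mem8 G.pos w _ (lq y hy hyx)] at d1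
    have d2 := n_lin H G.toLSrf hy hyx (c := vL x 0 0 0 x y) (c' := vL x 0 0 0 x x) rfl rfl rfl
      rfl rfl rfl
    linarith
  · -- conc
    intro y hy hyx
    rw [hnu, hnu, cut_zero, cut_c]
    have d1 := dif_one H G.mem5 hw hx (lc y hy hyx) l0 (vL_norm hx0 ax a0 (ay hy hyx) a0 a0 a0)
      (vL_norm hx0 ax a0 a0 a0 a0 a0) (fun i hi => by
        have hi' : ¬ (i = 2 ∨ i = 5 ∨ i = 6) := fun h => hi ((G.g5 i).2 h)
        revert hi'
        fin_cases i <;> simp [vL])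
    rw [H.add _ G.mem5 G.pos5 w _ (lc y hy hyx), H.add _ G.mem5 G.pos5 w _ l0] at d1
    have e0 : φ (g 5) (vL x 0 0 0 0 0) = 0 := H.zero _ _ fun i hi => by
      rcases (G.g5 i).1 hi with rfl | rfl | rfl <;> simp [vL]
    have l5 : (Pi.single 5 1 : Fin 11 → ℝ) ∈ L := G.leg _ (by constructor <;> simp)
    have e1 : φ (g 5) (vL x 0 y 0 0 0) = y * φ (g 5) (Pi.single 5 1) := by
      rw [← H.hom _ G.mem5 G.pos5 _ l5 y hy]
      refine H.loc _ _ _ fun i hi => ?_
      rcases (G.g5 i).1 hi with rfl | rfl | rfl <;> simp [vL]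
    linarith
  · -- dens
    rw [hS, htop, cut_lin, cut_zero, hlam, hlam, hlam, top_vL]
    have d1 := dif_one H G.mem0 hw hx llin lall (vL_norm hx0 a0 ax ax ax ax ax)
      (vL_norm hx0 ax ax ax ax ax ax) (fun i hi => by
        have h3 := G.g3
        have hi' : i ≠ 0 ∧ i ≠ 3 := ⟨fun h => hi (by rw [h]), fun h => hi (by rw [h, h3])⟩
        revert hi'
        fin_cases i <;> simp [vL])
    have d2 := dif_one H G.mem0 hw hx lz l0 (by rw [norm_zero]; exact hx0)
      (vL_norm hx0 ax a0 a0 a0 a0 a0) (fun i hi => by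
        have h3 := G.g3
        have hi' : i ≠ 0 ∧ i ≠ 3 := ⟨fun h => hi (by rw [h]), fun h => hi (by rw [h, h3])⟩
        revert hi'
        fin_cases i <;> simp [vL])
    have e1 : φ (g 0) (Tn a b w + vL x x x x x x) = φ (g 0) (Tn a b w + vL x 0 0 0 0 0) :=
      H.loc _ _ _ fun i hi => by
        rcases G.g0 i hi with rfl | rfl | rfl <;> simp [vL]
    have e2 : φ (g 0) (Tn a b w + vL 0 x x x x x) = φ (g 0) (Tn a b w + 0) :=
      H.loc _ _ _ fun i hi => by
        rcases G.g0 i hi with rfl | rfl | rfl <;> simp [vL]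
    rw [e1, e2] at d1
    rw [add_zero] at d1 d2
    linarith

/-- **`C_a` is spread**: record D-max of the sheet `t1 + 1` and supermodularity -/
theorem conc_q1 (H : RecOut g S (LH L a b l c0) L a b l dh n lam φ r) (G : LGrp g S L a b dh)
    (hc0 : 0 < c0) (hl : 0 < l.1) (ha : ∀ i, 0 ≤ a i) (ha5 : a 5 = 0) {M : Set (Fin 11 → ℝ)}
    (hsub : LH L a b l c0 ⊆ M) (hM : ∀ c, WqL c → c 7 ≤ c 0 + c 1 → c ∈ M)
    (hsm : ∀ p ∈ M, ∀ q ∈ M, p ⊓ q ∈ M → p ⊔ q ∈ M → lam p + lam q ≤ lam (p ⊔ q) + lam (p ⊓ q))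
    (hanti : ∀ c ∈ M, ∀ c' ∈ M, c ≤ c' → lam c' ≤ lam c)
    (hsharp : ∀ c ∈ M, ∀ c' ∈ M, c ≤ c' → lam c - lam c' ≤ ∑ s, (c' s - c s))
    (lam0 : lam 0 = 0) {q1 : ℝ} (hD : lam ![0, 0, -1, 0, -1, 1, 0, 0, 1, 0, 0] ≤ -(1 + q1)) :
    q1 ≤ -φ (g 5) (Pi.single 5 1) := by
  set V : ℝ := 1 / (c0 * l.1) with hV
  have hV0 : 0 < V := by positivity
  have hlf : lf l (-V, 0) = -(l.1 * V) := by simp [lf]
  have hw : lf l (-V, 0) ≤ 0 := by rw [hlf]; have := mul_pos hl hV0; linarith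
  have hx : (1 : ℝ) ≤ c0 * -(lf l (-V, 0)) := by
    rw [hlf, hV]
    apply le_of_eq
    field_simp
  have w5 : WqL (Pi.single 5 1 : Fin 11 → ℝ) := by constructor <;> simp
  have l5 : (Pi.single 5 1 : Fin 11 → ℝ) ∈ L := G.leg _ w5
  have lz : (0 : Fin 11 → ℝ) ∈ L := G.leg _ (by constructor <;> simp)
  have n5 : ‖(Pi.single 5 1 : Fin 11 → ℝ)‖ ≤ 1 := by
    rw [pi_norm_le_iff_of_nonneg zero_le_one]
    intro s
    by_cases hs : s = 5
    · subst hs; simp
    · simp [hs]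
  have d1 := dif_one H G.mem5 hw hx lz l5 (by rw [norm_zero]; exact zero_le_one) n5
    (fun i hi => by
      have hi' : i ≠ 5 := fun h => hi (by rw [h])
      simp [hi'])
  rw [H.add _ G.mem5 G.pos5 _ _ l5, H.add _ G.mem5 G.pos5 _ _ lz,
    H.zero (g 5) 0 (fun i _ => rfl), add_zero (Tn a b (-V, 0))] at d1
  -- supermodularity
  have p1 : Tn a b (-V, 0) + Pi.single 5 1 ∈ M := hsub ⟨_, _, hw, l5, n5.trans hx, rfl⟩
  have p2 : Tn a b (-V, 0) ∈ M := hsub ⟨_, 0, hw, lz, by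
    rw [norm_zero]; linarith, by rw [add_zero]⟩
  have p3 : (0 : Fin 11 → ℝ) ∈ M := hM _ (by constructor <;> simp) (by simp)
  have p4 : (Pi.single 5 1 : Fin 11 → ℝ) ∈ M := hM _ w5 (by simp)
  have e1 : (Tn a b (-V, 0) + Pi.single 5 1 : Fin 11 → ℝ) ⊔ 0 = Pi.single 5 1 := by
    funext i
    simp only [Pi.sup_apply, Pi.add_apply, Tn, Pi.zero_apply]
    by_cases hi : i = 5
    · subst hi; simp [ha5]
    · have := mul_nonneg (ha i) hV0.le
      simp [hi, this]
  have e2 : (Tn a b (-V, 0) + Pi.single 5 1 : Fin 11 → ℝ) ⊓ 0 = Tn a b (-V, 0) := by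
    funext i
    simp only [Pi.inf_apply, Pi.add_apply, Tn, Pi.zero_apply]
    by_cases hi : i = 5
    · subst hi; simp [ha5]
    · have := mul_nonneg (ha i) hV0.le
      simp [hi, this]
  have s1 := hsm _ p1 0 p3 (by rw [e2]; exact p2) (by rw [e1]; exact p4)
  rw [e1, e2, lam0] at s1
  -- D-max of the sheet
  have q2 : (![0, 0, 0, 0, 0, 1, 0, 0, 1, 0, 0] : Fin 11 → ℝ) ∈ M := hM _
    (by constructor <;> simp) (by simp)
  have q3 : (![0, 0, -1, 0, -1, 1, 0, 0, 1, 0, 0] : Fin 11 → ℝ) ∈ M := hM _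
    (by constructor <;> simp) (by simp)
  have t1 := hanti _ q3 _ q2 (by intro i; fin_cases i <;> simp)
  have t2 := hsharp _ p4 _ q2 (by intro i; fin_cases i <;> simp)
  have t3 : ∑ s : Fin 11, ((![0, 0, 0, 0, 0, 1, 0, 0, 1, 0, 0] : Fin 11 → ℝ) s -
      (Pi.single 5 1 : Fin 11 → ℝ) s) = 1 := by
    simp [Fin.sum_univ_succ, Pi.single_apply]
  rw [t3] at t2
  rw [add_zero] at d1
  linarith

/-- **heights are full**: from the own profile -/
theorem frost_own {M : Set (Fin 11 → ℝ)} {lamo : (Fin 11 → ℝ) → ℝ}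
    (hle : ∀ c ∈ M, ∀ c' ∈ M, c ≤ c' → lamo c - lamo c' ≤ lam c - lam c') {w : ℝ × ℝ} {y : ℝ}
    (hy : 0 ≤ y) (h1 : Tn a b w ∈ M) (h2 : Tn a b w + Pi.single 0 y ∈ M)
    (hown : y ≤ lamo (Tn a b w) - lamo (Tn a b w + Pi.single 0 y)) :
    lam (Tn a b w + Pi.single 0 y) - lam (Tn a b w) ≤ -y := by
  have h3 : Tn a b w ≤ Tn a b w + Pi.single 0 y := by
    intro i
    rw [Pi.add_apply]
    have : 0 ≤ (Pi.single 0 y : Fin 11 → ℝ) i := by
      by_cases hi : i = 0
      · subst hi; simpa using hy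
      · simp [hi]
    linarith
  have := hle _ h1 _ h2 h3
  linarith

end LProf

/-! ### static data with resolution `0` in the slot `R` -/

section Static

open Crest.Agent.R136.Qg926
open Crest.Agent.R136.Sh605
open Crest.Agent.R136.Net186
open Crest.Agent.R136.NetQ186
open Crest.Agent.R136.Net191
open Crest.Agent.R136.Wk323
open Crest.Agent.R138.Ex926 (Base U)

/-- the slot `R` is not seen by the kept walls -/
theorem legal_drop {Mw : Mons 11} (hMw : ∀ k, Mw.mon k ⊆ mfQ k)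
    (hMw1 : ∀ k, ∀ e ∈ Mw.mon k, e 1 = 0) {p p' : Fin 11 → ℝ} (hp : ∀ s, 0 ≤ p s)
    (h : ∀ s, s ≠ 1 → p' s = p s) (hl : Legal monQ p') : Legal Mw p := by
  refine ⟨hp, fun k e he => ?_⟩
  have h1 := hl.wall k e (hMw k he)
  have hk : k ≠ 1 := by
    rintro rfl
    have h2 : mfQ 1 = ∅ := by decide
    have := hMw 1 he
    rw [h2] at this
    exact absurd this (Finset.notMem_empty _)
  have e0 := hMw1 k e he
  have e1 : ∑ s, (e s : ℝ) * p' s = ∑ s, (e s : ℝ) * p s := by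
    refine Finset.sum_congr rfl fun s _ => ?_
    by_cases hs : s = 1
    · subst hs; rw [e0]; simp
    · rw [h s hs]
  rw [h k hk, e1] at h1
  exact h1

/-- static data of the RIG window, resolution `0` in the slot `R` -/
noncomputable def stL (κ x R' : ℝ) (Mw : Mons 11) : WSt 11 where
  S := {0, 3}
  kz := 0
  top := topL x
  kap := fun s => κ ^ wtR s
  Mw := Mw
  R' := R'

theorem stL_ok {κ x R' : ℝ} {Mw M : Mons 11} {D : Set (Fin 11 → ℝ)} (hκ : 0 < κ) (hx : 0 ≤ x)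
    (hxR : x ≤ R') (hMw : ∀ k, Mw.mon k ⊆ mfQ k) (hMw1 : ∀ k, ∀ e ∈ Mw.mon k, e 1 = 0)
    (hM0 : M.mon 0 = ∅) (hD : Leg Mw R' ⊆ D) :
    (stL κ x R' Mw).Ok M D := by
  have hS := stR_ok (Mw := Mw) (M := M) hκ hx hxR hMw hM0 hD
  have hR := hS.R0
  have hR' : 0 ≤ R' := hx.trans hxR
  have key : ∀ p p' : Fin 11 → ℝ, p 1 = 0 → (∀ s, s ≠ 1 → p' s = p s) → p' ∈ Leg monQ R' →
      p ∈ Leg Mw R' := by
    intro p p' h1 h h'
    have hp : ∀ s, 0 ≤ p s := fun s => by
      by_cases hs : s = 1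
      · subst hs; rw [h1]
      · rw [← h s hs]; exact h'.1.nonneg s
    refine ⟨legal_drop hMw hMw1 hp h h'.1, fun s => ?_⟩
    by_cases hs : s = 1
    · subst hs; rw [h1]; exact hR'
    · rw [← h s hs]; exact h'.2 s
  have hQ := stR_ok (Mw := monQ) (M := M) (D := Leg monQ R') hκ hx hxR
    (fun k => Finset.Subset.refl _) hM0 (fun _ h => h)
  exact
    { R0 := hR
      leg := hD
      top_leg := key _ _ (by simp [stL, topL]) (fun s hs => by simp [stL, stR, topL, hs])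
        hQ.top_leg
      lin_leg := key _ _ (by simp [stL, topL, cut])
        (fun s hs => by simp [stL, stR, topL, cut, hs]) hQ.lin_leg
      lev_leg := key _ _ (by simp [stL, topL, cut])
        (fun s hs => by simp [stL, stR, topL, cut, hs]) hQ.lev_leg
      kzS := by simp [stL]
      kz0 := hM0
      kzw := hS.kzw
      kap := fun s => pow_pos hκ _ }

variable {ι : ℕ → Type*} [∀ n, DecidableEq (ι n)] {B B' : Base} {I J : ∀ n, Finset (ι n)}
  {co : ∀ n, ι n → ι n → Fin 11 → ℝ} {M : Mons 11} {C : ℝ} {X : ℕ → Fin 11 → ℝ} {w : ℕ → ℝ}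
  {D : Set (Fin 11 → ℝ)} {T : ℕ → ℝ} {lam : (Fin 11 → ℝ) → ℝ} {Cl : ∀ n, Finset (ι n)}
  {s₀ : ∀ n, ι n} {κ x R' : ℝ} {Mw : Mons 11}

/-- **926's window with the data `stL` is an `LWin`** -/
theorem lwinL_of_ok {F : ∀ n, ι n → Fq4}
    (hok : ((stL κ x R' Mw).wnd B B' I J co M C X w D T lam Cl s₀).Ok)
    (hco : ∀ n i j, co n i j = coQ (F n i) (F n j)) (hstr : ∀ n i, (F n i).y2 = 0)
    (hκ1 : 1 ≤ κ) (hκ : 2 * cK0 M C ≤ κ) (hx : 0 ≤ x)
    (htX : ∀ᶠ n in (U : Filter ℕ), TightX (X n)) :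
    LWin ((stL κ x R' Mw).wnd B B' I J co M C X w D T lam Cl s₀) F x where
  ok := hok
  co := hco
  str := hstr
  S := rfl
  kz := rfl
  tight := by
    filter_upwards [htX] with n hn
    exact tight_units (lt_of_lt_of_le one_pos hκ1) (B.pos n) hn
  kap := by
    intro s
    show 2 * cK0 M C ≤ κ ^ wtR s
    exact hκ.trans (le_self_pow₀ hκ1 (wtR_ne s))
  x0 := hx
  top := fun s hs => by
    show x ≤ topL x s
    unfold topL
    rw [if_neg hs]

end Static

end Crest.Agent.R136.WkL626
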