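import Crest.Agent.R136.WkD_323
import Crest.Agent.R136.RgN2_344

/-!
# R136 (S0187): RIG wrapper, block (Z1) HEIGHTS (helper344)

One actual height per mesh cell, lines alive at many of the chosen heights.
-/

set_option autoImplicit false
set_option linter.unusedVariables false
set_option linter.unusedSectionVars false

open Filter Topology Finset

namespace Crest.Agent.R136.Wk323

open Crest.Agent.R136.Sh605
open Crest.Agent.R138.Ex926 (Base U)
open Crest.Agent.R136.Gf356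
open Crest.Agent.R136.RgN344

/-- finite part: a block of `n0` mesh cells with many nonempty cells -/
theorem heights_finZ (Z : Finset ℕ) (z : ℕ → ℝ) (hZ : Z.Nonempty) (hz : ∀ k ∈ Z, |z k| ≤ 1)
    {h : ℝ} (hh : 0 < h) {n0 : ℕ} (hn0 : 1 / 2 ≤ n0 * h) {M : ℝ} (hM : 0 < M)
    (hcell : ∀ k ∈ Z, ((Z.filter fun k' => |z k' - z k| ≤ h).card : ℝ) ≤ M) :
    ∃ (b : ℕ) (kst : ℤ → ℕ) (A : Finset ℤ), b ≤ 4 ∧ A ⊆ Finset.Ico (n0 : ℤ) (2 * n0) ∧
      (∀ g ∈ A, kst g ∈ Z ∧ |z (kst g) - ((-1 + ((b : ℝ) - 1) * (n0 * h)) + g * h)| ≤ h) ∧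
      (Z.card : ℝ) ≤ 5 * M * (A.card : ℝ) := by
  classical
  have hn0pos : 0 < n0 := by
    rcases Nat.eq_zero_or_pos n0 with h0 | h0
    · rw [h0] at hn0
      norm_num at hn0
    · exact h0
  set c : ℕ → ℕ := fun k => ⌊(z k + 1) / h⌋₊ with hc
  have hzc : ∀ k ∈ Z, 0 ≤ (z k + 1) / h := fun k hk => by
    have := (abs_le.1 (hz k hk)).1
    exact div_nonneg (by linarith) hh.le
  have hc1 : ∀ k ∈ Z, (c k : ℝ) * h ≤ z k + 1 := fun k hk => by
    have := Nat.floor_le (hzc k hk)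
    rwa [le_div_iff₀ hh] at this
  have hc2 : ∀ k ∈ Z, z k + 1 < ((c k : ℝ) + 1) * h := fun k hk => by
    have := Nat.lt_floor_add_one ((z k + 1) / h)
    rwa [div_lt_iff₀ hh] at this
  have hclose : ∀ k ∈ Z, |z k - (-1 + (c k : ℝ) * h)| ≤ h := fun k hk => by
    have h1 := hc1 k hk
    have h2 := hc2 k hk
    rw [abs_le]
    constructor <;> nlinarith
  set C := Z.image c with hC
  -- many nonempty cells
  have hcount : (Z.card : ℝ) ≤ M * (C.card : ℝ) := by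
    have h1 : (Z.card : ℝ) = ∑ a ∈ C, ((Z.filter fun k => c k = a).card : ℝ) := by
      have : Z.card = ∑ a ∈ C, (Z.filter fun k => c k = a).card :=
        Finset.card_eq_sum_card_fiberwise fun i hi => Finset.mem_image_of_mem _ hi
      rw [this]
      push_cast
      rfl
    rw [h1, mul_comm, ← nsmul_eq_mul, ← Finset.sum_const]
    refine Finset.sum_le_sum fun a ha => ?_
    obtain ⟨k, hk, rfl⟩ := Finset.mem_image.1 ha
    refine le_trans ?_ (hcell k hk)
    refine mod_cast Finset.card_le_card fun k' hk' => ?_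
    obtain ⟨b1, b2⟩ := Finset.mem_filter.1 hk'
    refine Finset.mem_filter.2 ⟨b1, ?_⟩
    have e1 := hc1 k hk
    have e2 := hc2 k hk
    have e3 := hc1 k' b1
    have e4 := hc2 k' b1
    rw [b2] at e3 e4
    rw [abs_le]
    constructor <;> nlinarith
  -- blocks
  have hblock : ∀ a ∈ C, a / n0 ∈ Finset.range 5 := by
    intro a ha
    obtain ⟨k, hk, rfl⟩ := Finset.mem_image.1 ha
    have h1 := hc1 k hk
    have h2 := (abs_le.1 (hz k hk)).2
    have h3 : (c k : ℝ) * h ≤ 4 * n0 * h := by nlinarith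
    have h4 : (c k : ℝ) ≤ 4 * n0 := le_of_mul_le_mul_right h3 hh
    have h5 : c k ≤ 4 * n0 := by exact_mod_cast h4
    rw [Finset.mem_range]
    have h6 : c k / n0 ≤ 4 := by
      calc c k / n0 ≤ (4 * n0) / n0 := Nat.div_le_div_right h5
        _ = 4 := Nat.mul_div_cancel _ hn0pos
    omega
  obtain ⟨b, hb, hbcard⟩ : ∃ b ∈ Finset.range 5,
      (C.card : ℝ) ≤ 5 * ((C.filter fun a => a / n0 = b).card : ℝ) := by
    by_contra hcon
    push Not at hcon
    have h1 : (C.card : ℝ) = ∑ b ∈ Finset.range 5, ((C.filter fun a => a / n0 = b).card : ℝ) := by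
      have : C.card = ∑ b ∈ Finset.range 5, (C.filter fun a => a / n0 = b).card :=
        Finset.card_eq_sum_card_fiberwise hblock
      rw [this]
      push_cast
      rfl
    have h2 : ∑ b ∈ Finset.range 5, (5 * ((C.filter fun a => a / n0 = b).card : ℝ)) <
        ∑ _b ∈ Finset.range 5, (C.card : ℝ) :=
      Finset.sum_lt_sum_of_nonempty ⟨0, by simp⟩ hcon
    rw [← Finset.mul_sum, ← h1] at h2
    simp at h2
  set Cb := C.filter fun a => a / n0 = b with hCb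
  have hrep : ∀ a ∈ C, ∃ k ∈ Z, c k = a := fun a ha => by
    obtain ⟨k, hk, h⟩ := Finset.mem_image.1 ha
    exact ⟨k, hk, h⟩
  choose! rep hrepZ hrepc using hrep
  -- the integer label of a cell in the block
  set g : ℕ → ℤ := fun a => (a : ℤ) - b * n0 + n0 with hg
  have hginj : Function.Injective g := by
    intro a a' haa
    simp only [hg] at haa
    omega
  refine ⟨b, fun j => rep (j + b * n0 - n0).toNat, Cb.image g, by
    have := Finset.mem_range.1 hb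
    omega, ?_, ?_, ?_⟩
  · intro j hj
    obtain ⟨a, ha, rfl⟩ := Finset.mem_image.1 hj
    obtain ⟨ha1, ha2⟩ := Finset.mem_filter.1 ha
    have h1 : b * n0 ≤ a := by
      rw [← ha2]
      exact Nat.div_mul_le_self a n0
    have h2 : a < (b + 1) * n0 := by
      rw [← ha2]
      rw [mul_comm]
      exact Nat.lt_mul_div_succ a hn0pos
    have h1' : (b : ℤ) * n0 ≤ a := by exact_mod_cast h1
    have h2' : (a : ℤ) < ((b : ℤ) + 1) * n0 := by exact_mod_cast h2
    rw [Finset.mem_Ico]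
    simp only [hg]
    constructor <;> nlinarith
  · intro j hj
    obtain ⟨a, ha, rfl⟩ := Finset.mem_image.1 hj
    obtain ⟨ha1, ha2⟩ := Finset.mem_filter.1 ha
    have e1 : (g a + b * n0 - n0).toNat = a := by
      simp only [hg]
      have : (a : ℤ) - b * n0 + n0 + b * n0 - n0 = a := by ring
      rw [this]
      exact Int.toNat_natCast a
    simp only [e1]
    refine ⟨hrepZ a ha1, ?_⟩
    have h1 := hclose _ (hrepZ a ha1)
    rw [hrepc a ha1] at h1
    have e2 : (-1 + ((b : ℝ) - 1) * (n0 * h)) + (g a : ℝ) * h = -1 + (a : ℝ) * h := by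
      simp only [hg]
      push_cast
      ring
    rw [e2]
    exact h1
  · rw [Finset.card_image_of_injective _ hginj]
    calc (Z.card : ℝ) ≤ M * (C.card : ℝ) := hcount
      _ ≤ M * (5 * (Cb.card : ℝ)) := mul_le_mul_of_nonneg_left hbcard hM.le
      _ = _ := by ring

/-- double counting: lines alive at many of the chosen heights -/
theorem alive_fin {ι : Type*} [DecidableEq ι] (L : Finset ι) (A : Finset ℤ) (al : ι → ℤ → Prop)
    [∀ i g, Decidable (al i g)] {κ : ℝ} (hκ : 0 ≤ κ) (hA : A.Nonempty)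
    (h : ∀ g ∈ A, κ * (L.card : ℝ) ≤ ((L.filter fun i => al i g).card : ℝ)) :
    κ / 2 * (L.card : ℝ) ≤
      ((L.filter fun i => κ / 2 * (A.card : ℝ) ≤ ((A.filter fun g => al i g).card : ℝ)).card : ℝ) := by
  classical
  set Lg := L.filter fun i => κ / 2 * (A.card : ℝ) ≤ ((A.filter fun g => al i g).card : ℝ) with hLg
  have hA0 : (0 : ℝ) < A.card := by exact_mod_cast hA.card_pos
  have h1 : (A.card : ℝ) * (κ * L.card) ≤ ∑ g ∈ A, ((L.filter fun i => al i g).card : ℝ) := by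
    rw [← nsmul_eq_mul, ← Finset.sum_const]
    exact Finset.sum_le_sum h
  have h2 : ∑ g ∈ A, ((L.filter fun i => al i g).card : ℝ) =
      ∑ i ∈ L, ((A.filter fun g => al i g).card : ℝ) := by
    have e1 : ∀ g ∈ A, ((L.filter fun i => al i g).card : ℝ) =
        ∑ i ∈ L, if al i g then (1 : ℝ) else 0 := by
      intro g _
      rw [Finset.card_filter]
      push_cast
      rfl
    rw [Finset.sum_congr rfl e1, Finset.sum_comm]
    refine Finset.sum_congr rfl fun i _ => ?_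
    rw [Finset.card_filter]
    push_cast
    rfl
  have h3 : ∑ i ∈ L, ((A.filter fun g => al i g).card : ℝ) ≤
      (Lg.card : ℝ) * A.card + (L.card : ℝ) * (κ / 2 * A.card) := by
    rw [← Finset.sum_filter_add_sum_filter_not L (fun i => κ / 2 * (A.card : ℝ) ≤
      ((A.filter fun g => al i g).card : ℝ)), ← hLg]
    refine add_le_add ?_ ?_
    · rw [← nsmul_eq_mul, ← Finset.sum_const]
      refine Finset.sum_le_sum fun i _ => ?_
      exact_mod_cast Finset.card_le_card (Finset.filter_subset _ _)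
    · have h4 : ∑ i ∈ L.filter (fun i => ¬ κ / 2 * (A.card : ℝ) ≤
          ((A.filter fun g => al i g).card : ℝ)), ((A.filter fun g => al i g).card : ℝ) ≤
          ∑ i ∈ L.filter (fun i => ¬ κ / 2 * (A.card : ℝ) ≤
          ((A.filter fun g => al i g).card : ℝ)), κ / 2 * (A.card : ℝ) :=
        Finset.sum_le_sum fun i hi => (not_le.1 (Finset.mem_filter.1 hi).2).le
      refine h4.trans ?_
      rw [Finset.sum_const, nsmul_eq_mul]
      refine mul_le_mul_of_nonneg_right ?_ (by positivity)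
      exact_mod_cast Finset.card_le_card (Finset.filter_subset _ _)
  rw [h2] at h1
  have h5 : (A.card : ℝ) * (κ * L.card) ≤ (Lg.card : ℝ) * A.card + (L.card : ℝ) * (κ / 2 * A.card) :=
    h1.trans h3
  have h6 : κ / 2 * (L.card : ℝ) * A.card ≤ (Lg.card : ℝ) * A.card := by nlinarith
  exact le_of_mul_le_mul_right h6 hA0

variable {B : Base} {G : ℕ → RCfg (Fin 11)} {Leg : Set (Fin 11 → ℝ)} {ν : (Fin 11 → ℝ) → ℝ}
  {D R x : ℝ} {T : ℕ → ℕ → Ln4} {E : ℕ → ℕ → ℝ} {fa : ℕ → ℕ → ℕ → ℝ} {fb : ℕ → ℕ → ℝ}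
  {mu be : ℕ → ℝ}

/-- **(Z1) HEIGHTS**: one actual height per mesh cell, lines alive at many of the chosen heights -/
theorem heights (H : RModel B G 1 R Leg ν D) (A : AbsWin B G x T E fa fb mu be) {y : ℝ} (hy : 0 < y)
    (hyR : y ≤ R) {ε : ℝ} (hε : 0 < ε) :
    ∀ᶠ n in (U : Filter ℕ), ∃ (z₀ : ℝ) (kst : ℤ → ℕ) (As : Finset ℤ) (Lg : Finset ℕ),
      1 / 2 ≤ (⌊B.d n ^ (-y)⌋₊ : ℝ) * B.d n ^ y ∧ (⌊B.d n ^ (-y)⌋₊ : ℝ) * B.d n ^ y ≤ 1 ∧
      |z₀| ≤ 2 ∧ As ⊆ Finset.Ico (⌊B.d n ^ (-y)⌋₊ : ℤ) (2 * ⌊B.d n ^ (-y)⌋₊) ∧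
      (∀ g ∈ As, kst g ∈ (G n).Z ∧ |(G n).z (kst g) - (z₀ + g * B.d n ^ y)| ≤ B.d n ^ y) ∧
      B.d n ^ ε * (⌊B.d n ^ (-y)⌋₊ : ℝ) ≤ (As.card : ℝ) ∧
      Lg ⊆ (G n).L ∧ B.d n ^ ε * ((G n).L.card : ℝ) ≤ (Lg.card : ℝ) ∧
      ∀ l ∈ Lg, B.d n ^ ε * (⌊B.d n ^ (-y)⌋₊ : ℝ) ≤
        ((As.filter fun g => (l, kst g) ∈ (G n).I).card : ℝ) := by
  classical
  have hε4 : 0 < ε / 4 := by positivity
  filter_upwards [H.slice (ε / 4) hε4, H.frost y hy.le hyR (ε / 4) hε4, A.bd, slice_nonempty H,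
    ev_const_le B hy 2, ev_const_le B hε4 5] with n hsl hfr hbd hne h2y h5
  have hd := B.pos n
  have hd1 := (B.lt n).le
  have hρy : 0 < B.d n ^ y := rpos B n y
  have hinv : B.d n ^ (-y) * B.d n ^ y = 1 := by
    rw [← Real.rpow_add hd]
    simp
  have hfl1 : (⌊B.d n ^ (-y)⌋₊ : ℝ) ≤ B.d n ^ (-y) := Nat.floor_le (rpos B n _).le
  have hfl2 : B.d n ^ (-y) < (⌊B.d n ^ (-y)⌋₊ : ℝ) + 1 := Nat.lt_floor_add_one _
  have hnh1 : 1 / 2 ≤ (⌊B.d n ^ (-y)⌋₊ : ℝ) * B.d n ^ y := by nlinarith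
  have hnh2 : (⌊B.d n ^ (-y)⌋₊ : ℝ) * B.d n ^ y ≤ 1 := by nlinarith
  have hZ : (G n).Z.Nonempty := Z_nonempty H.toRUnif n
  have hz : ∀ k ∈ (G n).Z, |(G n).z k| ≤ 1 := fun k hk => by
    obtain ⟨l, hl⟩ := hne k hk
    exact (hbd l k (RCfg.mem_slice.1 hl).2).1
  have hZ0 : (0 : ℝ) < (G n).Z.card := by exact_mod_cast hZ.card_pos
  have hL : (G n).L.Nonempty := by
    obtain ⟨⟨i1, k1⟩, hI1⟩ := H.nonempty n
    exact ⟨i1, H.memL hI1⟩
  set M : ℝ := B.d n ^ (1 * y - ε / 4) * ((G n).Z.card : ℝ) with hMdef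
  have hM : 0 < M := mul_pos (rpos B n _) hZ0
  have hcell : ∀ k ∈ (G n).Z,
      ((((G n).Z).filter fun k' => |(G n).z k' - (G n).z k| ≤ B.d n ^ y).card : ℝ) ≤ M := by
    intro k hk
    have h := hfr k hk
    rw [hMdef]
    refine le_trans (le_of_eq ?_) h
    unfold RCfg.hbox
    rw [H.base n]
  obtain ⟨b, kst, As, hb, hAs, hkst, hcard⟩ :=
    heights_finZ (G n).Z (G n).z hZ hz hρy hnh1 hM hcell
  -- number of chosen cells
  have hAs2 : B.d n ^ (ε / 2) * B.d n ^ (-y) ≤ (As.card : ℝ) := by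
    have h1 : (1 : ℝ) ≤ 5 * B.d n ^ (1 * y - ε / 4) * (As.card : ℝ) := by
      have : (1 : ℝ) * (G n).Z.card ≤ (5 * B.d n ^ (1 * y - ε / 4) * (As.card : ℝ)) * (G n).Z.card := by
        calc (1 : ℝ) * (G n).Z.card = (G n).Z.card := one_mul _
          _ ≤ 5 * M * (As.card : ℝ) := hcard
          _ = _ := by rw [hMdef]; ring
      exact le_of_mul_le_mul_right this hZ0
    have h2 : 5 * B.d n ^ (1 * y - ε / 4) ≤ B.d n ^ (y - ε / 2) := by
      have e1 : B.d n ^ (y - ε / 2) = B.d n ^ (-(ε / 4)) * B.d n ^ (1 * y - ε / 4) := by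
        rw [← Real.rpow_add hd]; congr 1; ring
      rw [e1]
      exact mul_le_mul_of_nonneg_right h5 (rpos B n _).le
    have h3 : (1 : ℝ) ≤ B.d n ^ (y - ε / 2) * (As.card : ℝ) :=
      h1.trans (mul_le_mul_of_nonneg_right h2 (Nat.cast_nonneg _))
    have e2 : B.d n ^ (ε / 2) * B.d n ^ (-y) * B.d n ^ (y - ε / 2) = 1 := by
      rw [← Real.rpow_add hd, ← Real.rpow_add hd]
      have : ε / 2 + -y + (y - ε / 2) = 0 := by ring
      rw [this, Real.rpow_zero]
    calc B.d n ^ (ε / 2) * B.d n ^ (-y) = B.d n ^ (ε / 2) * B.d n ^ (-y) * 1 := (mul_one _).symm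
      _ ≤ B.d n ^ (ε / 2) * B.d n ^ (-y) * (B.d n ^ (y - ε / 2) * (As.card : ℝ)) :=
          mul_le_mul_of_nonneg_left h3 (by positivity)
      _ = _ := by rw [← mul_assoc, e2, one_mul]
  have hAne : As.Nonempty := by
    rw [← Finset.card_pos]
    have : (0 : ℝ) < As.card := lt_of_lt_of_le (by positivity) hAs2
    exact_mod_cast this
  have hslL : ∀ g ∈ As, B.d n ^ (ε / 4) * ((G n).L.card : ℝ) ≤
      (((G n).L.filter fun i => (i, kst g) ∈ (G n).I).card : ℝ) := by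
    intro g hg
    exact hsl _ (hkst g hg).1
  have hal := alive_fin (G n).L As (fun i g => (i, kst g) ∈ (G n).I) (rpos B n (ε / 4)).le hAne hslL
  have hhalf : B.d n ^ (ε / 2) ≤ B.d n ^ (ε / 4) / 2 := by
    have e1 : B.d n ^ (ε / 4) = B.d n ^ (-(ε / 4)) * B.d n ^ (ε / 2) := by
      rw [← Real.rpow_add hd]; congr 1; ring
    rw [e1]
    have := rpos B n (ε / 2)
    nlinarith
  refine ⟨-1 + ((b : ℝ) - 1) * (⌊B.d n ^ (-y)⌋₊ * B.d n ^ y), kst, As,
    (G n).L.filter fun i => B.d n ^ (ε / 4) / 2 * (As.card : ℝ) ≤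
      ((As.filter fun g => (i, kst g) ∈ (G n).I).card : ℝ), hnh1, hnh2, ?_, hAs, hkst,
    ?_, Finset.filter_subset _ _, ?_, ?_⟩
  · have hb' : (b : ℝ) ≤ 4 := by exact_mod_cast hb
    have hb0 : (0 : ℝ) ≤ b := Nat.cast_nonneg b
    rw [abs_le]
    constructor <;> nlinarith
  · have h1 : B.d n ^ ε ≤ B.d n ^ (ε / 2) := rpow_anti B n (by linarith)
    calc B.d n ^ ε * (⌊B.d n ^ (-y)⌋₊ : ℝ) ≤ B.d n ^ (ε / 2) * B.d n ^ (-y) :=
          mul_le_mul h1 hfl1 (Nat.cast_nonneg _) (rpos B n _).le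
      _ ≤ _ := hAs2
  · refine le_trans ?_ hal
    refine mul_le_mul_of_nonneg_right ?_ (Nat.cast_nonneg _)
    exact (rpow_anti B n (by linarith)).trans hhalf
  · intro l hl
    refine le_trans ?_ (Finset.mem_filter.1 hl).2
    calc B.d n ^ ε * (⌊B.d n ^ (-y)⌋₊ : ℝ) ≤ B.d n ^ ε * B.d n ^ (-y) :=
          mul_le_mul_of_nonneg_left hfl1 (rpos B n _).le
      _ = B.d n ^ (ε / 2) * (B.d n ^ (ε / 2) * B.d n ^ (-y)) := by
          have e3 : B.d n ^ ε = B.d n ^ (ε / 2) * B.d n ^ (ε / 2) := by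
            rw [← Real.rpow_add hd]; congr 1; ring
          rw [e3]; ring
      _ ≤ B.d n ^ (ε / 4) / 2 * (As.card : ℝ) :=
          mul_le_mul hhalf hAs2 (by positivity) (by positivity)

end Crest.Agent.R136.Wk323
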