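import Crest.Agent.R136.Wq2_638

/-!
# R136, wrapper `J2 → PreQ` for the straight chart `coQ` (helper638), part 3: height, counts, own facts
-/

set_option autoImplicit false
set_option linter.unusedVariables false

open Finset Filter Topology

namespace Crest.Agent.R136.Wq638

open Crest.Agent.R138.Ex926 (Base U)
open Crest.Agent.R138.Dp76 (dpow_pos dpow_add dpow_le dpow_le_one)
open Crest.Agent.R138.Mk163 (zc zl rho alive own)
open Crest.Agent.R138.MkRef627 (lc kc own_one mem_alive)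
open Crest.Agent.R136.MkA627
open Crest.Agent.R136.Net191
open Crest.Agent.R136.NetQ186
open Crest.Agent.R136.GeoQ186
open Crest.Agent.R136.Sh605 (Ln4 V3)
open Crest.Agent.R136.TD627 (TDist)

variable {σ κ : Type*} {B : Base} {I : ℕ → Finset (ℕ × ℝ)} {G : Geo σ (Fin 3)} {lev : ℕ → ℚ → ℕ}
    {A : ℕ → ℝ} {g s : ℝ} {θ : Fin 3 → ℝ} {f : ℕ → ℚ → ℕ → ℤ → ℕ} {b : ℕ → ℚ → ℕ → σ}
    {vm : ℕ → ℚ → ℝ} {w : Fin 3 → ℕ → ℚ → ℝ} {w0 : ℝ} {q : Fin 3 → ℝ}
    {π : Equiv.Perm (Fin 3)} {L : ℕ → ℕ → Ln4} {eE fA fB : ℕ → ℕ × ℝ → ℝ}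

/-! ### height -/

theorem zco_Q (n : ℕ) (x y : ℕ × ℝ) : couQ B lev w w0 (incQ π L eE fA fB) n x y 0 =
    B.d n ^ w0 * ((y.2 - x.2) * 2 ^ (lev n 0)) := by
  simp only [couQ, coQ, scl, incQ, mkT, uH, Matrix.cons_val]
  ring

/-! ### size of the marks -/

open Classical in
theorem vm_eq {c Λ : ℝ → ℝ} {τ : Fin 3 → ℝ → ℝ} (h : MkA B I G lev A c Λ τ f b vm w)
    (hval : ∀ n i J t, G.adm n i J t → G.val n i J t = capQ q (rho i) fun k => G.wid k t) {v : ℚ}
    (h0 : 0 ≤ v) (h1 : v ≤ 1) :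
    ∀ᶠ n in (U : Filter ℕ), vm n v = capQ q (rho (lev n v)) fun k => w k n v := by
  filter_upwards [h.mark v h0 h1, h.ne] with n hn hne
  obtain ⟨x, hx⟩ := hne
  have hal : x.1 ∈ alive (I n) (lev n v) (zc (lev n v) x.2) := mem_alive.2 ⟨x, hx, rfl, rfl⟩
  obtain ⟨h2, h3, h4, h5⟩ := hn _ _ hal
  rw [← h4, hval _ _ _ _ h3]
  congr 1
  funext k
  exact h5 k

theorem log_capQ {ρ : ℝ} (hρ : 0 < ρ) {x : Fin 3 → ℝ} (hx : ∀ k, 0 < x k) :
    0 < capQ q ρ x ∧ Real.log (capQ q ρ x) =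
      Real.log (x 0) + Real.log (x 1) + Real.log (x 2) +
      (q 0 * (Real.log (x 0) - Real.log ρ) + q 1 * (Real.log (x 1) - Real.log ρ) +
        q 2 * (Real.log (x 2) - Real.log ρ)) := by
  have a0 := hx 0
  have a1 := hx 1
  have a2 := hx 2
  have p0 : 0 < (x 0 / ρ) ^ q 0 := Real.rpow_pos_of_pos (div_pos a0 hρ) _
  have p1 : 0 < (x 1 / ρ) ^ q 1 := Real.rpow_pos_of_pos (div_pos a1 hρ) _
  have p2 : 0 < (x 2 / ρ) ^ q 2 := Real.rpow_pos_of_pos (div_pos a2 hρ) _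
  refine ⟨by unfold capQ; positivity, ?_⟩
  unfold capQ
  rw [Real.log_mul (by positivity) (by positivity), Real.log_mul (by positivity) a1.ne',
    Real.log_mul a0.ne' a2.ne', Real.log_mul (by positivity) p2.ne', Real.log_mul p0.ne' p1.ne',
    Real.log_rpow (div_pos a0 hρ), Real.log_rpow (div_pos a1 hρ), Real.log_rpow (div_pos a2 hρ),
    Real.log_div a0.ne' hρ.ne', Real.log_div a1.ne' hρ.ne', Real.log_div a2.ne' hρ.ne']
  ring

/-- **field `gH`** -/
theorem gH_Q (h : MkA B I G lev A (fun v => g * v) (fun v => s * v) (fun j v => θ j * (1 - v)) f b vm w)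
    (hvm : ∀ v : ℚ, 0 ≤ v → v ≤ 1 →
      ∀ᶠ n in (U : Filter ℕ), vm n v = capQ q (rho (lev n v)) fun k => w k n v)
    (R : ℝ) (u : ℚ) (h0 : 0 ≤ u) (h1 : u ≤ 1) :
    Tendsto (fun n => Real.log (ampA B A (fun v => g * v) n u * vm n u *
      B.d n ^ (-((1 - s) * (1 - (u : ℝ)))) / N0Q A vm n) / B.L n) U (𝓝 (EQ θ g s q w0 R u)) := by
  have t0 := Crest.Agent.R136.ArgA163.tau_zero h 0 h0 h1
  have t1 := Crest.Agent.R136.ArgA163.tau_zero h 1 h0 h1
  have t2 := Crest.Agent.R136.ArgA163.tau_zero h 2 h0 h1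
  have tl := h.lev_lim 0 u le_rfl h0 h1
  have key : Tendsto (fun n => (g * u + (1 - s) * (1 - (u : ℝ))) +
      (-((1 + q 0) * ((Real.log (w 0 n 0) - Real.log (w 0 n u)) / B.L n))
       -((1 + q 1) * ((Real.log (w 1 n 0) - Real.log (w 1 n u)) / B.L n))
       -((1 + q 2) * ((Real.log (w 2 n 0) - Real.log (w 2 n u)) / B.L n))) +
      (q 0 + q 1 + q 2) * (((lev n u : ℝ) - lev n 0) * Real.log 2 / B.L n)) U
      (𝓝 ((g * u + (1 - s) * (1 - (u : ℝ))) +
      (-((1 + q 0) * ((1 - θ 0) * u)) - ((1 + q 1) * ((1 - θ 1) * u)) -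
        ((1 + q 2) * ((1 - θ 2) * u))) + (q 0 + q 1 + q 2) * ((u : ℝ) - (0 : ℚ)))) :=
    (tendsto_const_nhds.add ((((t0.const_mul (1 + q 0)).neg).sub (t1.const_mul (1 + q 1))).sub
      (t2.const_mul (1 + q 2)))).add (tl.const_mul (q 0 + q 1 + q 2))
  have e1 : (g * u + (1 - s) * (1 - (u : ℝ))) +
      (-((1 + q 0) * ((1 - θ 0) * u)) - ((1 + q 1) * ((1 - θ 1) * u)) -
        ((1 + q 2) * ((1 - θ 2) * u))) + (q 0 + q 1 + q 2) * ((u : ℝ) - (0 : ℚ)) =
      EQ θ g s q w0 R u := by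
    rw [EQ_eq]; push_cast; ring
  rw [e1] at key
  refine key.congr' ?_
  have hw : ∀ v : ℚ, 0 ≤ v → v ≤ 1 → ∀ᶠ n in (U : Filter ℕ), ∀ k, 0 < w k n v := fun v a c =>
    Filter.eventually_all.2 fun k => h.wpos k v a c
  filter_upwards [hvm u h0 h1, hvm 0 le_rfl zero_le_one, hw u h0 h1, hw 0 le_rfl zero_le_one]
    with n a1 a2 a3 a4
  have ru := rho_pos (lev n u)
  have r0 := rho_pos (lev n 0)
  obtain ⟨pu, lu⟩ := log_capQ (q := q) ru (x := fun k => w k n u) a3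
  obtain ⟨p0, l0⟩ := log_capQ (q := q) r0 (x := fun k => w k n 0) a4
  have hA := h.Apos n
  have hL := B.L_pos n
  have hd : ∀ c : ℝ, Real.log (B.d n ^ c) = -(c * B.L n) := fun c => by
    rw [Real.log_rpow (B.pos n)]; unfold Base.L; ring
  have lg : Real.log (ampA B A (fun v => g * v) n u * vm n u *
      B.d n ^ (-((1 - s) * (1 - (u : ℝ)))) / N0Q A vm n) =
      (g * u + (1 - s) * (1 - (u : ℝ))) * B.L n + (Real.log (vm n u) - Real.log (vm n 0)) := by
    unfold ampA N0Q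
    have pvu : 0 < vm n u := by rw [a1]; exact pu
    have pv0 : 0 < vm n 0 := by rw [a2]; exact p0
    rw [Real.log_div, Real.log_mul, Real.log_mul, Real.log_mul, Real.log_mul, hd, hd]
    · ring
    all_goals first | exact pvu.ne' | exact pv0.ne' | exact hA.ne' | exact (dpow_pos B n _).ne' | skip
    · exact (mul_pos hA (dpow_pos B n _)).ne'
    · exact (mul_pos (mul_pos hA (dpow_pos B n _)) pvu).ne'
    · exact (mul_pos (mul_pos (mul_pos hA (dpow_pos B n _)) pvu) (dpow_pos B n _)).ne'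
    · exact (mul_pos hA pv0).ne'
  rw [lg, a1, a2, lu, l0]
  simp only [Crest.Agent.R136.ArgA163.log_rho]
  field_simp
  ring

/-! ### own facts -/

/-- precision of the slot `k` at level `v` (`1` for the other coordinates) -/
noncomputable def prQ (w : Fin 3 → ℕ → ℚ → ℝ) (k : Fin 11) (n : ℕ) (v : ℚ) : ℝ :=
  if k = 2 then w 2 n v / w 1 n v else if k = 3 then w 0 n v / w 2 n v else
    if k = 4 then w 0 n v / w 1 n v else 1

/-- graded weight of the slot -/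
noncomputable def wtQ (k : Fin 11) : ℝ := if k = 4 then 2 else 1

/-- rate of the slot -/
noncomputable def btQ (θ : Fin 3 → ℝ) (k : Fin 11) : ℝ :=
  if k = 2 then θ 1 - θ 2 else if k = 3 then θ 2 - θ 0 else θ 1 - θ 0

/-- slot coordinates -/
def isSl (k : Fin 11) : Prop := k = 2 ∨ k = 3 ∨ k = 4

theorem pathQ_slot {k : Fin 11} (hk : isSl k) (R v : ℝ) :
    pathQ θ w0 R v k = wtQ k * w0 + btQ θ k * v := by
  rcases hk with rfl | rfl | rfl
  · simp [pathQ, wtQ, btQ]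
  · simp [pathQ, wtQ, btQ]
  · simp [pathQ, wtQ, btQ]

/-- factor of a slot in the enlarged units -/
theorem sfac_slot {k : Fin 11} (hk : isSl k) {n : ℕ} (hw : ∀ j, 0 < w j n 0) :
    sfac (uH B lev w0 n) (uA B lev w w0 n) (uB B lev w w0 n) (uY B lev w w0 n) k =
      B.d n ^ (wtQ k * w0) / prQ w k n 0 := by
  have a0 := hw 0
  have a1 := hw 1
  have a2 := hw 2
  have r0 := rho_pos (lev n 0)
  have d1 : B.d n ^ (-w0) = B.d n ^ (1 * w0) * B.d n ^ (-(2 * w0)) := by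
    rw [← dpow_add]; congr 1; ring
  have d2 : B.d n ^ (-(2 * w0)) = B.d n ^ (1 * w0) * B.d n ^ (-(3 * w0)) := by
    rw [← dpow_add]; congr 1; ring
  have d3 : B.d n ^ (-w0) = B.d n ^ (2 * w0) * B.d n ^ (-(3 * w0)) := by
    rw [← dpow_add]; congr 1; ring
  have p2 := dpow_pos B n (-(2 * w0))
  have p3 := dpow_pos B n (-(3 * w0))
  rcases hk with rfl | rfl | rfl
  · have e1 : sfac (uH B lev w0 n) (uA B lev w w0 n) (uB B lev w w0 n) (uY B lev w w0 n) 2 =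
      uA B lev w w0 n / uB B lev w w0 n := by simp [sfac]
    rw [e1]
    unfold uA uB
    rw [d1]
    simp only [wtQ, prQ]
    simp
    field_simp
  · have e1 : sfac (uH B lev w0 n) (uA B lev w w0 n) (uB B lev w w0 n) (uY B lev w w0 n) 3 =
      uB B lev w w0 n / uY B lev w w0 n := by simp [sfac]
    rw [e1]
    unfold uB uY
    rw [d2]
    simp only [wtQ, prQ]
    simp
    field_simp
  · have e1 : sfac (uH B lev w0 n) (uA B lev w w0 n) (uB B lev w w0 n) (uY B lev w w0 n) 4 =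
      uA B lev w w0 n / uY B lev w w0 n := by simp [sfac]
    rw [e1]
    unfold uA uY
    rw [d3]
    simp only [wtQ, prQ]
    simp
    generalize B.d n ^ (-(3 * w0)) = X at p3 ⊢
    field_simp

theorem prQ_pos {k : Fin 11} {n : ℕ} {v : ℚ} (hw : ∀ j, 0 < w j n v) : 0 < prQ w k n v := by
  unfold prQ
  split_ifs
  · exact div_pos (hw 2) (hw 1)
  · exact div_pos (hw 0) (hw 2)
  · exact div_pos (hw 0) (hw 1)
  · exact one_pos

/-- the coordinates of two incidences of one line, apart from height and slots, vanish -/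
theorem coQ_line (t : Ln4) (z z' e Fa Fb e' Fa' Fb' : ℝ) {k : Fin 11} (h0 : k ≠ 0)
    (hk : ¬ isSl k) : coQ (mkT t z e Fa Fb) (mkT t z' e' Fa' Fb') k = 0 := by
  unfold isSl at hk
  push Not at hk
  obtain ⟨h2, h3, h4⟩ := hk
  fin_cases k
  · exact absurd rfl h0
  · simp [coQ, mkT]
  · exact absurd rfl h2
  · exact absurd rfl h3
  · exact absurd rfl h4
  · simp [coQ, mkT]
  · simp [coQ, mkT]
  · simp [coQ, mkT, Fq4.vy]
  · simp [coQ, mkT, Fq4.pa]
  · simp [coQ, mkT, Fq4.pa, Fq4.pb]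
  · simp [coQ, mkT, Fq4.pa, Fq4.pb, Fq4.py]

/-- **field `own_near`** -/
theorem own_near_Q
    (h : MkA B I G lev A (fun v => g * v) (fun v => s * v) (fun j v => θ j * (1 - v)) f b vm w)
    {T0 R : ℝ} (hb : BigQ θ w0 R T0) {V : Fin 11 → Prop} (hV : ∀ k, V k → isSl k)
    {sc : Fin 11 → ℕ → ℝ} (hscp : ∀ k n, 0 < sc k n)
    (hsc : ∀ k, isSl k → Tendsto (fun n => Real.log (sc k n / prQ w k n 0) / B.L n) U (𝓝 0))
    (hrot : ∀ k, V k → ∀ u : ℚ, 0 ≤ u → u ≤ 1 → ∀ ε : ℝ, 0 < ε → ∀ᶠ n in (U : Filter ℕ),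
      ∀ x ∈ I n, ∀ y ∈ I n, y.1 = x.1 → zc (lev n u) y.2 = zc (lev n u) x.2 →
      |coQ (incQ π L eE fA fB n x) (incQ π L eE fA fB n y) k| ≤
        sc k n * B.d n ^ (btQ θ k * u - ε))
    (hinv : ∀ k, isSl k → ¬ V k → ∀ M : ℝ, ∀ᶠ n in (U : Filter ℕ),
      ∀ x ∈ I n, ∀ y ∈ I n, y.1 = x.1 →
      |coQ (incQ π L eE fA fB n x) (incQ π L eE fA fB n y) k| ≤ sc k n * B.d n ^ M)
    (u : ℚ) (h0 : 0 ≤ u) (h1 : u ≤ 1) (ε : ℝ) (hε : 0 < ε) :
    ∀ᶠ n in (U : Filter ℕ), ∀ x ∈ I n, ∀ y ∈ I n, lc (lev n u) y = lc (lev n u) x →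
      ∀ k, |couQ B lev w w0 (incQ π L eE fA fB) n x y k| ≤ B.d n ^ (ownQ θ w0 R V u k - ε) := by
  have hw : ∀ᶠ n in (U : Filter ℕ), ∀ k, 0 < w k n 0 :=
    Filter.eventually_all.2 fun k => h.wpos k 0 le_rfl zero_le_one
  -- the slots
  have hslot : ∀ k, isSl k → ∀ᶠ n in (U : Filter ℕ), ∀ x ∈ I n, ∀ y ∈ I n,
      y.1 = x.1 → zc (lev n u) y.2 = zc (lev n u) x.2 →
      |couQ B lev w w0 (incQ π L eE fA fB) n x y k| ≤ B.d n ^ (ownQ θ w0 R V u k - ε) := by
    intro k hk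
    have hk0 : k ≠ 0 := by rintro rfl; rcases hk with h | h | h <;> exact absurd h (by decide)
    have hs1 : ∀ᶠ n in (U : Filter ℕ), sc k n / prQ w k n 0 ≤ B.d n ^ (-(ε / 2)) := by
      filter_upwards [(hsc k hk).eventually_lt_const (show (0 : ℝ) < ε / 2 by linarith), hw]
        with n a1 a2
      have hp := div_pos (hscp k n) (prQ_pos (k := k) a2)
      rw [div_lt_iff₀ (B.L_pos n)] at a1
      rw [← Real.log_le_log_iff hp (dpow_pos B n _), Real.log_rpow (B.pos n)]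
      unfold Base.L at a1
      linarith
    -- exponent `e`
    have hmain : ∀ e : ℝ, (∀ᶠ n in (U : Filter ℕ), ∀ x ∈ I n, ∀ y ∈ I n, y.1 = x.1 →
        zc (lev n u) y.2 = zc (lev n u) x.2 →
        |coQ (incQ π L eE fA fB n x) (incQ π L eE fA fB n y) k| ≤ sc k n * B.d n ^ (e - ε / 2)) →
        ∀ᶠ n in (U : Filter ℕ), ∀ x ∈ I n, ∀ y ∈ I n, y.1 = x.1 →
        zc (lev n u) y.2 = zc (lev n u) x.2 →
        |couQ B lev w w0 (incQ π L eE fA fB) n x y k| ≤ B.d n ^ (wtQ k * w0 + e - ε) := by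
      intro e he
      filter_upwards [he, hs1, hw] with n a1 a2 a3 x hx y hy hxy hz
      unfold couQ
      rw [coQ_scl (uH_pos n).ne' (uA_pos (a3 1)).ne' (uB_pos (a3 2)).ne' (uY_pos (a3 0)).ne',
        sfac_slot hk a3, abs_mul, abs_of_pos (div_pos (dpow_pos B n _) (prQ_pos a3))]
      have b1 := a1 x hx y hy hxy hz
      have b2 := prQ_pos (k := k) a3
      calc B.d n ^ (wtQ k * w0) / prQ w k n 0 *
            |coQ (incQ π L eE fA fB n x) (incQ π L eE fA fB n y) k|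
          ≤ B.d n ^ (wtQ k * w0) / prQ w k n 0 * (sc k n * B.d n ^ (e - ε / 2)) :=
            mul_le_mul_of_nonneg_left b1 (div_pos (dpow_pos B n _) b2).le
        _ = B.d n ^ (wtQ k * w0) * (sc k n / prQ w k n 0) * B.d n ^ (e - ε / 2) := by
            field_simp
        _ ≤ B.d n ^ (wtQ k * w0) * B.d n ^ (-(ε / 2)) * B.d n ^ (e - ε / 2) := by
            refine mul_le_mul_of_nonneg_right ?_ (dpow_pos B n _).le
            exact mul_le_mul_of_nonneg_left a2 (dpow_pos B n _).le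
        _ = B.d n ^ (wtQ k * w0 + e - ε) := by
            rw [← dpow_add, ← dpow_add]; congr 1; ring
    unfold ownQ
    rw [if_neg hk0]
    split_ifs with hVk
    · rw [pathQ_slot hk]
      exact hmain _ (hrot k hVk u h0 h1 (ε / 2) (by linarith))
    · have := hmain (R - wtQ k * w0) ((hinv k hk hVk (R - wtQ k * w0 - ε / 2)).mono
        fun n hn x hx y hy hxy _ => hn x hx y hy hxy)
      refine this.mono fun n hn x hx y hy hxy hz => (hn x hx y hy hxy hz).trans (le_of_eq ?_)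
      congr 1; ring
  -- the height
  have hlev := (h.lev_lim 0 u le_rfl h0 h1).eventually_const_lt
    (show (u : ℝ) - ((0 : ℚ) : ℝ) - ε < (u : ℝ) - ((0 : ℚ) : ℝ) by linarith)
  have s2 := hslot 2 (Or.inl rfl)
  have s3 := hslot 3 (Or.inr (Or.inl rfl))
  have s4 := hslot 4 (Or.inr (Or.inr rfl))
  filter_upwards [s2, s3, s4, hlev, hw] with n a2 a3 a4 al aw x hx y hy hl k
  unfold lc at hl
  have hxy : y.1 = x.1 := (Prod.mk.inj hl).1
  have hz : zc (lev n u) y.2 = zc (lev n u) x.2 := (Prod.mk.inj hl).2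
  by_cases hk0 : k = 0
  · subst hk0
    rw [zco_Q, ownQ_zero, abs_mul, abs_of_pos (dpow_pos B n w0)]
    have e1 : B.d n ^ (w0 + (u : ℝ) - ε) = B.d n ^ w0 * B.d n ^ ((u : ℝ) - ε) := by
      rw [← dpow_add]; congr 1; ring
    rw [e1]
    refine mul_le_mul_of_nonneg_left ?_ (dpow_pos B n _).le
    -- |y - x| 2^lev0 ≤ 2^(lev0 - lev u)
    have p : (0 : ℝ) < 2 ^ (lev n u) := by positivity
    have p' : (0 : ℝ) < 2 ^ (lev n 0) := by positivity
    have hz2 : |y.2 - x.2| * 2 ^ (lev n u) ≤ 1 := by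
      unfold zc at hz
      have i1 := Int.floor_le ((2 : ℝ) ^ (lev n u) * y.2)
      have i2 := Int.lt_floor_add_one ((2 : ℝ) ^ (lev n u) * y.2)
      have i3 := Int.floor_le ((2 : ℝ) ^ (lev n u) * x.2)
      have i4 := Int.lt_floor_add_one ((2 : ℝ) ^ (lev n u) * x.2)
      rw [hz] at i1 i2
      have e2 : |y.2 - x.2| * 2 ^ (lev n u) = |(y.2 - x.2) * 2 ^ (lev n u)| := by
        rw [abs_mul, abs_of_pos p]
      rw [e2, abs_le]
      constructor <;> nlinarith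
    rw [abs_mul, abs_of_pos p']
    have e3 : |y.2 - x.2| * 2 ^ (lev n 0) ≤ 2 ^ (lev n 0) / 2 ^ (lev n u) := by
      rw [le_div_iff₀ p]
      have := mul_le_mul_of_nonneg_left hz2 p'.le
      linarith
    refine e3.trans ?_
    rw [← Real.log_le_log_iff (div_pos p' p) (dpow_pos B n _), Real.log_rpow (B.pos n),
      Real.log_div p'.ne' p.ne', Real.log_pow, Real.log_pow]
    have hL := B.L_pos n
    rw [lt_div_iff₀ hL] at al
    unfold Base.L at al
    push_cast at al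
    linarith
  · by_cases hk : isSl k
    · rcases hk with rfl | rfl | rfl
      · exact a2 x hx y hy hxy hz
      · exact a3 x hx y hy hxy hz
      · exact a4 x hx y hy hxy hz
    · unfold couQ
      rw [coQ_scl (uH_pos n).ne' (uA_pos (aw 1)).ne' (uB_pos (aw 2)).ne' (uY_pos (aw 0)).ne']
      have : coQ (incQ π L eE fA fB n x) (incQ π L eE fA fB n y) k = 0 := by
        unfold incQ
        rw [hxy]
        exact coQ_line _ _ _ _ _ _ _ _ _ hk0 hk
      rw [this, mul_zero, abs_zero]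
      exact (dpow_pos B n _).le

open Classical in
/-- **field `tw`** -/
theorem tw_Q
    (h : MkA B I G lev A (fun v => g * v) (fun v => s * v) (fun j v => θ j * (1 - v)) f b vm w)
    {R : ℝ} {V : Fin 11 → Prop} {sc : Fin 11 → ℕ → ℝ} (hscp : ∀ k n, 0 < sc k n) {k : Fin 11}
    (hk : isSl k) (hVk : V k)
    (hsc : Tendsto (fun n => Real.log (sc k n / prQ w k n 0) / B.L n) U (𝓝 0))
    (htw : ∀ u : ℚ, 0 ≤ u → u < 1 → ∀ r : ℝ, btQ θ k * u < r → ∃ γ : ℝ, 0 < γ ∧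
      ∀ᶠ n in (U : Filter ℕ), ∀ x ∈ I n,
      ((((I n).filter fun y => y.1 = x.1 ∧ zc (lev n u) y.2 = zc (lev n u) x.2 ∧
        |coQ (incQ π L eE fA fB n x) (incQ π L eE fA fB n y) k| ≤ sc k n * B.d n ^ r).card : ℕ) : ℝ) ≤
        B.d n ^ γ * ((own (I n) (lev n u) (lev n 1) x).card : ℝ))
    (u : ℚ) (h0 : 0 ≤ u) (h1 : u < 1) (ρ : ℝ) (hρ : ownQ θ w0 R V u k < ρ) : ∃ γ : ℝ, 0 < γ ∧
    ∀ᶠ n in (U : Filter ℕ), ∀ x ∈ I n,
      (((I n).filter fun y => lc (lev n u) y = lc (lev n u) x ∧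
        |couQ B lev w w0 (incQ π L eE fA fB) n x y k| ≤ B.d n ^ ρ).card : ℝ) ≤
        B.d n ^ (γ - (1 - s) * (1 - (u : ℝ))) := by
  have hk0 : k ≠ 0 := by rintro rfl; rcases hk with h | h | h <;> exact absurd h (by decide)
  unfold ownQ at hρ
  rw [if_neg hk0, if_pos hVk, pathQ_slot hk] at hρ
  set r : ℝ := (ρ - wtQ k * w0 + btQ θ k * u) / 2 with hr
  have hr1 : btQ θ k * u < r := by rw [hr]; linarith
  set δ : ℝ := ρ - wtQ k * w0 - r with hδ
  have hδ0 : 0 < δ := by rw [hδ, hr]; linarith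
  obtain ⟨γ, hγ, hcnt⟩ := htw u h0 h1 r hr1
  refine ⟨γ / 2, by linarith, ?_⟩
  have hw : ∀ᶠ n in (U : Filter ℕ), ∀ k, 0 < w k n 0 :=
    Filter.eventually_all.2 fun k => h.wpos k 0 le_rfl zero_le_one
  have hown := h.own u 1 h0 h1.le le_rfl (γ / 2) (by linarith)
  filter_upwards [hcnt, hw, hown, hsc.eventually_const_lt (show -δ < (0 : ℝ) by linarith)]
    with n a1 a2 a3 a4 x hx
  have hp := prQ_pos (k := k) a2
  have hs : B.d n ^ δ * prQ w k n 0 ≤ sc k n := by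
    rw [lt_div_iff₀ (B.L_pos n)] at a4
    have e1 : Real.log (B.d n ^ δ) ≤ Real.log (sc k n / prQ w k n 0) := by
      rw [Real.log_rpow (B.pos n)]
      unfold Base.L at a4
      linarith
    rw [Real.log_le_log_iff (dpow_pos B n _) (div_pos (hscp k n) hp), le_div_iff₀ hp] at e1
    exact e1
  have hsub : ((I n).filter fun y => lc (lev n u) y = lc (lev n u) x ∧
        |couQ B lev w w0 (incQ π L eE fA fB) n x y k| ≤ B.d n ^ ρ) ⊆
      ((I n).filter fun y => y.1 = x.1 ∧ zc (lev n u) y.2 = zc (lev n u) x.2 ∧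
        |coQ (incQ π L eE fA fB n x) (incQ π L eE fA fB n y) k| ≤ sc k n * B.d n ^ r) := by
    intro y hy
    rw [mem_filter] at hy ⊢
    obtain ⟨hyI, hl, hc⟩ := hy
    unfold lc at hl
    refine ⟨hyI, (Prod.mk.inj hl).1, (Prod.mk.inj hl).2, ?_⟩
    unfold couQ at hc
    rw [coQ_scl (uH_pos n).ne' (uA_pos (a2 1)).ne' (uB_pos (a2 2)).ne' (uY_pos (a2 0)).ne',
      sfac_slot hk a2, abs_mul, abs_of_pos (div_pos (dpow_pos B n _) hp)] at hc
    have e2 : B.d n ^ ρ = B.d n ^ (wtQ k * w0) * (B.d n ^ δ * B.d n ^ r) := by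
      rw [← dpow_add, ← dpow_add]; congr 1; rw [hδ]; ring
    rw [e2, div_mul_eq_mul_div, div_le_iff₀ hp, mul_assoc] at hc
    have hc' := le_of_mul_le_mul_left hc (dpow_pos B n _)
    calc |coQ (incQ π L eE fA fB n x) (incQ π L eE fA fB n y) k|
        ≤ B.d n ^ δ * B.d n ^ r * prQ w k n 0 := hc'
      _ = B.d n ^ δ * prQ w k n 0 * B.d n ^ r := by ring
      _ ≤ sc k n * B.d n ^ r := mul_le_mul_of_nonneg_right hs (dpow_pos B n _).le
  have e4 : ((1 : ℚ) : ℝ) = 1 := by norm_num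
  have hc3 := (a3 x hx).2
  rw [e4] at hc3
  calc (((I n).filter fun y => lc (lev n u) y = lc (lev n u) x ∧
        |couQ B lev w w0 (incQ π L eE fA fB) n x y k| ≤ B.d n ^ ρ).card : ℝ)
      ≤ (((I n).filter fun y => y.1 = x.1 ∧ zc (lev n u) y.2 = zc (lev n u) x.2 ∧
        |coQ (incQ π L eE fA fB n x) (incQ π L eE fA fB n y) k| ≤ sc k n * B.d n ^ r).card : ℝ) := by
        exact_mod_cast card_le_card hsub
    _ ≤ B.d n ^ γ * ((own (I n) (lev n u) (lev n 1) x).card : ℝ) := a1 x hx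
    _ ≤ B.d n ^ γ * B.d n ^ (-(1 - (u : ℝ)) + (s * 1 - s * u) - γ / 2) :=
        mul_le_mul_of_nonneg_left hc3 (dpow_pos B n _).le
    _ = B.d n ^ (γ / 2 - (1 - s) * (1 - (u : ℝ))) := by
        rw [← dpow_add]; congr 1; ring

end Crest.Agent.R136.Wq638
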