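import Crest.Agent.R136.Wq4_638
import Crest.Agent.R136.NatT_550
import Crest.Agent.R136.Ut5_627

/-!
# R136, straight chart (helper638), part 9: `SlotQ` and `SlotOk` from the slot system of planks (627)

`slotQ_of`, `slotOk_of` : `TSys tdF` + trichotomy of the three slots ⊢ `SlotQ` and `SlotOk` for the
flags `eE = fl 0`, `fB = fl 1`, `fA = fl 2`.
-/

set_option autoImplicit false
set_option linter.unusedVariables false

open Finset Filter Topology

namespace Crest.Agent.R136.Wq638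

open Crest.Agent.R138.Ex926 (Base U)
open Crest.Agent.R138.Dp76 (dpow_pos dpow_add dpow_le dpow_le_one)
open Crest.Agent.R138.Mk163 (zc zl rho alive own)
open Crest.Agent.R136.MkA627
open Crest.Agent.R136.NetQ186
open Crest.Agent.R136.GeoQ186
open Crest.Agent.R136.Sh605 (Ln4 V3)
open Crest.Agent.R136.TD627 Crest.Agent.R136.Ut627
open Crest.Agent.R136.NatT550 (SlotOk)

/-- scales of the slots -/
noncomputable def sc4 (sc : Fin 3 → ℕ → ℝ) (k : Fin 11) (n : ℕ) : ℝ :=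
  if k = 2 then sc 0 n else if k = 3 then sc 1 n else if k = 4 then sc 2 n else 1

/-- visible slots -/
def V4 (B : Base) (I : ℕ → Finset (ℕ × ℝ)) (fl : ℕ → ℕ × ℝ → Fin 3 → ℝ) (sc : Fin 3 → ℕ → ℝ)
    (k : Fin 11) : Prop :=
  (k = 2 ∧ Vis B I fl sc 0) ∨ (k = 3 ∧ Vis B I fl sc 1) ∨ (k = 4 ∧ Vis B I fl sc 2)

/-- tied slots -/
def T4 (B : Base) (I : ℕ → Finset (ℕ × ℝ)) (fl : ℕ → ℕ × ℝ → Fin 3 → ℝ) (sc : Fin 3 → ℕ → ℝ)
    (k : Fin 11) : Prop :=
  (k = 2 ∧ Tie B I fl sc 0) ∨ (k = 3 ∧ Tie B I fl sc 1) ∨ (k = 4 ∧ Tie B I fl sc 2)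

section

variable {B : Base} {I : ℕ → Finset (ℕ × ℝ)} {fl : ℕ → ℕ × ℝ → Fin 3 → ℝ} {sc : Fin 3 → ℕ → ℝ}

theorem V4_two : V4 B I fl sc 2 ↔ Vis B I fl sc 0 := by
  constructor
  · rintro (⟨-, h⟩ | ⟨h, -⟩ | ⟨h, -⟩)
    · exact h
    · exact absurd h (by decide)
    · exact absurd h (by decide)
  · exact fun h => Or.inl ⟨rfl, h⟩

theorem V4_three : V4 B I fl sc 3 ↔ Vis B I fl sc 1 := by
  constructor
  · rintro (⟨h, -⟩ | ⟨-, h⟩ | ⟨h, -⟩)
    · exact absurd h (by decide)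
    · exact h
    · exact absurd h (by decide)
  · exact fun h => Or.inr (Or.inl ⟨rfl, h⟩)

theorem V4_four : V4 B I fl sc 4 ↔ Vis B I fl sc 2 := by
  constructor
  · rintro (⟨h, -⟩ | ⟨h, -⟩ | ⟨-, h⟩)
    · exact absurd h (by decide)
    · exact absurd h (by decide)
    · exact h
  · exact fun h => Or.inr (Or.inr ⟨rfl, h⟩)

theorem T4_two : T4 B I fl sc 2 ↔ Tie B I fl sc 0 := by
  constructor
  · rintro (⟨-, h⟩ | ⟨h, -⟩ | ⟨h, -⟩)
    · exact h
    · exact absurd h (by decide)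
    · exact absurd h (by decide)
  · exact fun h => Or.inl ⟨rfl, h⟩

theorem T4_three : T4 B I fl sc 3 ↔ Tie B I fl sc 1 := by
  constructor
  · rintro (⟨h, -⟩ | ⟨-, h⟩ | ⟨h, -⟩)
    · exact absurd h (by decide)
    · exact h
    · exact absurd h (by decide)
  · exact fun h => Or.inr (Or.inl ⟨rfl, h⟩)

theorem T4_four : T4 B I fl sc 4 ↔ Tie B I fl sc 2 := by
  constructor
  · rintro (⟨h, -⟩ | ⟨h, -⟩ | ⟨-, h⟩)
    · exact absurd h (by decide)
    · exact absurd h (by decide)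
    · exact h
  · exact fun h => Or.inr (Or.inr ⟨rfl, h⟩)

theorem sc4_two (n : ℕ) : sc4 sc 2 n = sc 0 n := by simp [sc4]
theorem sc4_three (n : ℕ) : sc4 sc 3 n = sc 1 n := by simp [sc4]
theorem sc4_four (n : ℕ) : sc4 sc 4 n = sc 2 n := by simp [sc4]

/-- index of the slot in 627's numbering -/
theorem slot_cases {k : Fin 11} (hk : isSl k) : ∃ j : Fin 3,
    (∀ n, sc4 sc k n = sc j n) ∧ (V4 B I fl sc k ↔ Vis B I fl sc j) ∧
      (T4 B I fl sc k ↔ Tie B I fl sc j) ∧ (∀ θ : Fin 3 → ℝ, btQ θ k = btF θ j) ∧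
      (∀ (w : Fin 3 → ℕ → ℚ → ℝ) (n : ℕ) (v : ℚ), prQ w k n v = prF w j n v) ∧
      (∀ (π : Equiv.Perm (Fin 3)) (L : ℕ → ℕ → Ln4) (n : ℕ) (x y : ℕ × ℝ),
        |coQ (incQ π L (fun n x => fl n x 0) (fun n x => fl n x 2) (fun n x => fl n x 1) n x)
          (incQ π L (fun n x => fl n x 0) (fun n x => fl n x 2) (fun n x => fl n x 1) n y) k| =
          tdF.d j n (fl n x) (fl n y)) := by
  rcases hk with rfl | rfl | rfl
  · exact ⟨0, sc4_two, V4_two, T4_two, fun θ => by simp [btQ, btF], fun w n v => by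
      simp [prQ, prF], fun π L n x y => rfl⟩
  · exact ⟨1, sc4_three, V4_three, T4_three, fun θ => by simp [btQ, btF], fun w n v => by
      simp [prQ, prF], fun π L n x y => rfl⟩
  · exact ⟨2, sc4_four, V4_four, T4_four, fun θ => by simp [btQ, btF], fun w n v => by
      simp [prQ, prF], fun π L n x y => rfl⟩

end

variable {σ : Type*} {G : Geo σ (Fin 3)} {g s : ℝ} {θ : Fin 3 → ℝ}
    {B : Base} {I : ℕ → Finset (ℕ × ℝ)} {lev : ℕ → ℚ → ℕ} {A : ℕ → ℝ}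
    {f : ℕ → ℚ → ℕ → ℤ → ℕ} {b : ℕ → ℚ → ℕ → σ} {vm : ℕ → ℚ → ℝ} {w : Fin 3 → ℕ → ℚ → ℝ}
    {sn : ℕ → ℚ → ℕ × ℝ → Fin 3 → ℝ} {fl : ℕ → ℕ × ℝ → Fin 3 → ℝ} {sc : Fin 3 → ℕ → ℝ}

/-- **`SlotQ` from the slot system of planks.** -/
theorem slotQ_of (hS : TSys tdF G g s θ (btF θ) B I lev A f b vm w sn (prF w) fl sc)
    (hT : ∀ j, SlotT tdF (btF θ) B I lev fl sc (fun j => |btF θ j| + 1) j)
    (π : Equiv.Perm (Fin 3)) (L : ℕ → ℕ → Ln4) :
    SlotQ B I lev w θ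
      (incQ π L (fun n x => fl n x 0) (fun n x => fl n x 2) (fun n x => fl n x 1))
      (sc4 sc) (V4 B I fl sc) (T4 B I fl sc) where
  vis := by
    rintro k (⟨h, -⟩ | ⟨h, -⟩ | ⟨h, -⟩)
    · exact Or.inl h
    · exact Or.inr (Or.inl h)
    · exact Or.inr (Or.inr h)
  tied := by
    rintro k (⟨h, h1⟩ | ⟨h, h1⟩ | ⟨h, h1⟩)
    · exact Or.inl ⟨h, h1.1⟩
    · exact Or.inr (Or.inl ⟨h, h1.1⟩)
    · exact Or.inr (Or.inr ⟨h, h1.1⟩)
  scpos := by
    intro k n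
    unfold sc4
    split_ifs
    · exact hS.scpos 0 n
    · exact hS.scpos 1 n
    · exact hS.scpos 2 n
    · exact one_pos
  sc0 := by
    intro k hk
    obtain ⟨j, e1, -, -, -, e5, -⟩ := slot_cases (B := B) (I := I) (fl := fl) (sc := sc) hk
    have h := hS.prc j 0 le_rfl zero_le_one
    rw [Rat.cast_zero, mul_zero] at h
    refine h.congr fun n => ?_
    rw [e1, e5]
  rot := by
    intro k hk u h0 h1 ε hε
    have hsl : isSl k := by
      rcases hk with ⟨h, -⟩ | ⟨h, -⟩ | ⟨h, -⟩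
      · exact Or.inl h
      · exact Or.inr (Or.inl h)
      · exact Or.inr (Or.inr h)
    obtain ⟨j, e1, -, -, e4, -, e6⟩ := slot_cases (B := B) (I := I) (fl := fl) (sc := sc) hsl
    filter_upwards [hS.same_cell j h0 h1 hε] with n hn x hx y hy hxy hz
    rw [e6, e1, e4]
    exact hn x hx y hy hxy hz
  inv := by
    intro k hk hV M
    obtain ⟨j, e1, e2, -, -, -, e6⟩ := slot_cases (B := B) (I := I) (fl := fl) (sc := sc) hk
    rw [e2, Vis, not_not] at hV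
    filter_upwards [hV M] with n hn x hx y hy hxy
    rw [e6, e1]
    exact hn x hx y hy hxy
  tw := by
    intro k hk u h0 h1 r hr
    have hsl : isSl k := by
      rcases hk with ⟨h, -⟩ | ⟨h, -⟩ | ⟨h, -⟩
      · exact Or.inl h
      · exact Or.inr (Or.inl h)
      · exact Or.inr (Or.inr h)
    obtain ⟨j, e1, -, e3, e4, -, e6⟩ := slot_cases (B := B) (I := I) (fl := fl) (sc := sc) hsl
    have hR := (slotOk3 hS hT).2.1 j (e3.1 hk)
    rw [e4] at hr
    have h0' : (0 : ℝ) ≤ u := by exact_mod_cast h0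
    have h1' : (u : ℝ) < 1 := by exact_mod_cast h1
    have hC : btF θ j * u < |btF θ j| + 1 := by
      have h2 : btF θ j * u ≤ |btF θ j| := by
        have h3 := le_abs_self (btF θ j)
        have h4 := abs_nonneg (btF θ j)
        calc btF θ j * u ≤ |btF θ j| * u := mul_le_mul_of_nonneg_right h3 h0'
          _ ≤ |btF θ j| * 1 := mul_le_mul_of_nonneg_left h1'.le h4
          _ = _ := mul_one _
      linarith
    obtain ⟨γ, hγ, hcnt⟩ := hR.tw u h0 h1 (min r (|btF θ j| + 1)) (lt_min hr hC) (min_le_right _ _)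
    refine ⟨γ, hγ, ?_⟩
    filter_upwards [hcnt] with n hn x hx
    refine le_trans ?_ (hn x hx)
    refine Nat.cast_le.2 (card_le_card fun y hy => ?_)
    rw [mem_filter] at hy ⊢
    obtain ⟨h2, h3, h4, h5⟩ := hy
    refine ⟨h2, h3, h4, ?_⟩
    rw [e6, e1] at h5
    exact h5.trans (mul_le_mul_of_nonneg_left (dpow_le B n (min_le_left _ _)) (hS.scpos j n).le)

/-- **`SlotOk` from the slot system of planks.** -/
theorem slotOk_of (hS : TSys tdF G g s θ (btF θ) B I lev A f b vm w sn (prF w) fl sc)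
    (hT : ∀ j, SlotT tdF (btF θ) B I lev fl sc (fun j => |btF θ j| + 1) j) :
    SlotOk θ (V4 B I fl sc) (T4 B I fl sc) := by
  obtain ⟨h1, -, h3, h4⟩ := slotOk3 hS hT
  refine ⟨?_, ?_, ?_, ?_⟩
  · rintro k (⟨h, h1⟩ | ⟨h, h1⟩ | ⟨h, h1⟩)
    · exact Or.inl ⟨h, h1.1⟩
    · exact Or.inr (Or.inl ⟨h, h1.1⟩)
    · exact Or.inr (Or.inr ⟨h, h1.1⟩)
  · rintro k (⟨rfl, h⟩ | ⟨rfl, h⟩ | ⟨rfl, h⟩)
    · refine ⟨Or.inl rfl, ?_⟩
      have := h1 0 h
      simpa [btQ, btF] using this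
    · refine ⟨Or.inr (Or.inl rfl), ?_⟩
      have := h1 1 h
      simpa [btQ, btF] using this
    · refine ⟨Or.inr (Or.inr rfl), ?_⟩
      have := h1 2 h
      simpa [btQ, btF] using this
  · rintro k (⟨rfl, h⟩ | ⟨rfl, h⟩ | ⟨rfl, h⟩) hn
    · rw [T4_two] at hn
      exact absurd (h3 0 h hn).1 (by decide)
    · rw [T4_three] at hn
      exact absurd (h3 1 h hn).1 (by decide)
    · rw [T4_four] at hn
      obtain ⟨-, a, b⟩ := h3 2 h hn
      exact ⟨rfl, V4_two.2 a, V4_three.2 b⟩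
  · intro a b
    obtain ⟨c, d⟩ := h4 (V4_two.1 a) (V4_three.1 b)
    exact ⟨V4_four.2 c, fun h => d (T4_four.1 h)⟩

end Crest.Agent.R136.Wq638
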