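import Crest.Agent.R136.Two9_904
import Crest.Agent.R136.Rtn_846
import Crest.Agent.R136.Tw8_46
import Crest.Agent.R136.Pl2D_860
import Crest.Agent.R136.Alr_877
import Crest.Agent.R136.Asy2_51
import Crest.Agent.R136.SmT_163

/-!
# R136 (S0187), PLAN 2: the tilt over `J1c` from `BTR Al1` and `ALR Al1` (helper774, second copy)

* `stab_Al1`, `stab_QA` : stability under changes of the dimensions;
* `fin_at` : the step at one incidence;
* **`tiltB_of`** : `BTR Al1`, `ALR Al1` ⊢ the tilt of the curved pairs over `J1c`.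
-/

set_option autoImplicit false
set_option linter.unusedVariables false

open Finset Filter Topology

namespace Crest.Agent.R136.Wr774

open Crest.Agent.R138.Ex926 (Base U)
open Crest.Agent.R138.Dp76 (Dense dpow_pos dpow_add dpow_le dpow_le_one)
open Crest.Agent.R138.Mk163 (zc zl rho Negl)
open Crest.Agent.R136.MkA627
open Crest.Agent.R136.Sh605
open Crest.Agent.R136.Tl102 (angC angC_nonneg shp_sub)
open Crest.Agent.R136.Deep51 (CloseC)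
open Crest.Agent.R136.K4 (Plk4)
open Crest.Agent.R136.Top484
open Crest.Agent.R136.Tlt51 (Shp InP mk4 zx rh TiltOKC)
open Crest.Agent.R136.KapP335
open Crest.Agent.R136.Cps605
open Crest.Agent.R136.Pl2 (TypU TypP kp rot2 Al1 BTR ALR Rel FH FL)
open Crest.Agent.R136.Pl2W102

/-- no hypothesis -/
def QT : PropE := fun _ _ _ _ _ _ _ _ _ => True

/-- conclusion of the alignment theorem -/
def QA : PropE := fun E S S' T a w1 w2 z0 ρ =>
  CloseC S.e S.w S.q S.a S'.q (E * a) T z0 ρ ∧ CloseC S'.e S'.w S'.q S'.a S.q (E * a) T z0 ρ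

theorem closeC_mono {e : Fin 3 → V3} {w : V3} {q : ℝ → V3 → ℝ} {a : ℝ} {q' : ℝ → V3 → ℝ}
    {E E' : ℝ} {T : Ln4} {z0 ρ : ℝ} (h : CloseC e w q a q' E T z0 ρ) (hE : E ≤ E') :
    CloseC e w q a q' E' T z0 ρ := fun z h1 h2 x hx hq => (h z h1 h2 x hx hq).trans hE

theorem stab_QT : Stab QT := by
  intro E E' W S S' T a w1 w2 a' w1' w2' z0 ρ r _ _ _ _ _ _ _ _ _ _ _ _ _ _ _ _
  trivial

theorem stab_QA : Stab QA := by
  intro E E' W S S' T a w1 w2 a' w1' w2' z0 ρ r hW hE hE' ha _ _ ha' _ _ na _ _ _ _ _ h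
  have h1 : E * a ≤ E' * a' := by
    have hW2 : W ≤ W ^ 2 := by nlinarith
    calc E * a ≤ E * (W * a') := mul_le_mul_of_nonneg_left na.1 hE.le
      _ = E * W * a' := by ring
      _ ≤ E * W ^ 2 * a' :=
          mul_le_mul_of_nonneg_right (mul_le_mul_of_nonneg_left hW2 hE.le) ha'.le
      _ ≤ E' * a' := mul_le_mul_of_nonneg_right hE' ha'.le
  exact ⟨closeC_mono h.1 h1, closeC_mono h.2 h1⟩

theorem stab_Al1 : Stab Al1 := by
  intro E E' W S S' T a w1 w2 a' w1' w2' z0 ρ r hW hE hE' ha hw1 hw2 ha' hw1' hw2' na n1 n2 hr sh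
    sh' h
  have hW2 : W ≤ W ^ 2 := by nlinarith
  have hW0 : 0 ≤ W := by linarith
  have hEW : E * W ≤ E' := (mul_le_mul_of_nonneg_left hW2 hE.le).trans hE'
  have hEE : E ≤ E' := (le_mul_of_one_le_right hE.le hW).trans hEW
  have hS0 := hr.trans_le (sh.r0_le.trans sh.a_le0)
  have hS2 : 0 < S.w 2 := hS0.trans_le sh.w0_le
  have hS1 : 0 < S.w 1 := hS2.trans_le sh.w_le
  have hT0 := hr.trans_le (sh'.r0_le.trans sh'.a_le0)
  have hT2 : 0 < S'.w 2 := hT0.trans_le sh'.w0_le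
  have hT1 : 0 < S'.w 1 := hT2.trans_le sh'.w_le
  have hk : 0 ≤ kp S z0 ρ T := kapP_nonneg hS0.le
  have ha0 : 0 ≤ angC S S' := angC_nonneg S S'
  have tr : ∀ {x y y' : ℝ}, 0 ≤ x → y' ≤ W * y → x * y ≤ E * kp S z0 ρ T →
      x * y' ≤ E' * kp S z0 ρ T := by
    intro x y y' hx hy h
    calc x * y' ≤ x * (W * y) := mul_le_mul_of_nonneg_left hy hx
      _ = W * (x * y) := by ring
      _ ≤ W * (E * kp S z0 ρ T) := mul_le_mul_of_nonneg_left h hW0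
      _ = E * W * kp S z0 ρ T := by ring
      _ ≤ _ := mul_le_mul_of_nonneg_right hEW hk
  refine ⟨?_, closeC_mono h.close (mul_le_mul_of_nonneg_right hEE hk), ?_⟩
  · calc angC S S' * w1' ≤ angC S S' * (W * w1) := mul_le_mul_of_nonneg_left n1.2 ha0
      _ = W * (angC S S' * w1) := by ring
      _ ≤ W * (E * w2) := mul_le_mul_of_nonneg_left h.ang hW0
      _ = E * W * w2 := by ring
      _ ≤ E * W * (W * w2') := mul_le_mul_of_nonneg_left n2.1 (mul_nonneg hE.le hW0)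
      _ = E * W ^ 2 * w2' := by ring
      _ ≤ E' * w2' := mul_le_mul_of_nonneg_right hE' hw2'.le
  · obtain ⟨f, g, h1, h2, h3, h4, h5, h6, h7⟩ := h.fr
    exact ⟨f, g, Alr877.fh_mono h1 hEE hk hS1.le hS2.le, Alr877.fl_mono h2 hEE hE hk,
      Alr877.fh_mono h3 hEE hk hT1.le hT2.le, tr (abs_nonneg _) n1.2 h4, tr (abs_nonneg _) n2.2 h5,
      tr (abs_nonneg _) n1.2 h6, tr (abs_nonneg _) n2.2 h7⟩

/-- the finite theorems in the common form -/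
theorem ft_B {R : Rel} (h : BTR R) {η : ℝ} {qm qp : Fin 3 → ℝ} (hq : Ex2 η qm qp) :
    ∃ K0 C : ℝ, 0 ≤ K0 ∧ 0 ≤ C ∧ FT QT R qm qp K0 C := by
  obtain ⟨K0, C, hK, hC, h⟩ := h η qm qp hq
  exact ⟨K0, C, hK, hC, fun L P cu cv Uf Vf W M a w1 w2 z0 ρ zL ρL r h1 _ h2 h3 _ =>
    h L P cu cv Uf Vf W M a w1 w2 z0 ρ r h1.to1 h2 h3⟩

theorem ft_A {R : Rel} (h : ALR R) : ∃ η : ℝ, 0 < η ∧ ∀ qm qp : Fin 3 → ℝ, Ex2 η qm qp →
    ∃ K0 C : ℝ, 0 ≤ K0 ∧ 0 ≤ C ∧ FT R QA qm qp K0 C := by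
  obtain ⟨η, hη, h⟩ := h
  refine ⟨η, hη, fun qm qp hq => ?_⟩
  obtain ⟨K0, C, hK, hC, h⟩ := h qm qp hq
  refine ⟨max K0 8, C, hK.trans (le_max_left _ _), hC, ?_⟩
  intro L P cu cv Uf Vf W M a w1 w2 z0 ρ zL ρL r h1 h128 h2 h3 h4
  have hW := h1.to1.W1
  have hW1 : 1 ≤ 2 * W := by linarith
  obtain ⟨t, ht⟩ := h2
  have h7 := Pl2.two7_of102' h1 ht (K := (2 * W) ^ (max K0 8))
    (Real.rpow_le_rpow_of_exponent_le hW1 (le_max_right _ _)) (h3 t ht).big h128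
  refine h L P cu cv Uf Vf W M a w1 w2 z0 ρ zL ρL r h7 ⟨t, ht⟩ (fun s hs => ?_) h4
  obtain ⟨b1, b2, b3, b4⟩ := h3 s hs
  exact ⟨(mul_le_mul_of_nonneg_right (Real.rpow_le_rpow_of_exponent_le hW1 (le_max_left _ _))
    h1.to1.a0.le).trans b1, b2, ⟨b3.det, b3.rot⟩, ⟨b4.det, b4.rot⟩⟩

/-- the sheets of the mark over the cell of the finer level -/
theorem long_of {D : Dat4} {n : ℕ} {x : ℕ × ℝ} {b v : ℚ} {r : ℝ} (h : D.lev n b ≤ D.lev n v)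
    (hS : Shp (mk4 D n b x) (zx D n b x) (rh D n b) r)
    (hT : InP (D.L n x.1) (mk4 D n b x) (zx D n b x) (rh D n b)) :
    Shp (mk4 D n b x) (zx D n v x) (rh D n v) r ∧
      InP (D.L n x.1) (mk4 D n b x) (zx D n v x) (rh D n v) := by
  obtain ⟨h1, h2⟩ := Asy51.zx_sub h x
  exact ⟨shp_sub hS h1 h2, Tw746.inP_sub hT h1 h2⟩

/-- typical facts over the short cell -/
theorem typ_short {D : Dat4} {n : ℕ} {x : ℕ × ℝ} {b c v : ℚ} {jx : ℕ → ℕ × ℝ → ℤ}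
    {e B0 W a : ℝ} (he : 0 ≤ e) (hr : 0 < D.r0 n) (hB0 : 1 ≤ B0)
    (pr : Pair D n b c B0 (zs D v jx n x) (rs D v n) x) (nd : ¬ DegAt D e b n x)
    (ro : ¬ RotAt D e b n x) (haa : (mk4 D n b x).a ≤ B0 * a)
    (hW : 10 ^ 5 * B0 ^ 3 ≤ D.B.d n ^ e * W) :
    TypU 1 W a (mk4 D n b x) (D.L n x.1) (zs D v jx n x) (rs D v n) := by
  refine Pl2W102.typU_sub (W0 := B0) (B := B0) (δ := D.B.d n ^ e) hr (rs_pos D v n) pr.z1
    pr.z1' pr.shp pr.inp hB0 pr.rb (dpow_pos D.B n e) (dpow_le_one D.B n he) hB0 haa ?_ ?_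
  · intro hk
    rw [show (D.B.d n ^ e)⁻¹ = D.B.d n ^ (-e) from (Real.rpow_neg (D.B.pos n).le _).symm] at hk
    constructor
    · by_contra hc; exact nd ⟨hk, hc⟩
    · by_contra hc; exact ro ⟨hk, hc⟩
  · calc 10 ^ 5 * (B0 ^ 2 * B0) = 10 ^ 5 * B0 ^ 3 := by ring
      _ ≤ _ := hW

/-- **the step at one incidence** -/
theorem fin_at {D : Dat4} {n : ℕ} {x : ℕ × ℝ} {u v b c : ℚ} {jx : ℕ → ℕ × ℝ → ℤ}
    {e B0 W BM Eb EA EB E : ℝ} (huv : u < v) (hbc : (b = v ∧ c = u) ∨ (b = u ∧ c = v))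
    (he : 0 ≤ e) (hr : 0 < D.r0 n) (hB0 : 1 ≤ B0) (hW1 : 1 ≤ W) (hBM : B0 ≤ BM) (hEA : EA ≤ BM)
    (hEB : EB ≤ BM)
    (pr : Pair D n b c B0 (zs D v jx n x) (rs D v n) x)
    (pr' : Pair D n c b B0 (zs D v jx n x) (rs D v n) x)
    (lu : D.lev n u ≤ D.lev n v)
    (near : ∀ k, Near B0 (D.w k n b) (D.w k n c)) (wb : ∀ k, 0 < D.w k n b)
    (nd : ¬ DegAt D e b n x) (nd' : ¬ DegAt D e c n x)
    (ro : ¬ RotAt D e b n x) (ro' : ¬ RotAt D e c n x)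
    (cv : Curv D v jx b c Eb n x) (aR : At Al1 D v jx b c EB n x) (aA : At QA D v jx b c EA n x)
    (hW : 10 ^ 5 * B0 ^ 3 ≤ D.B.d n ^ e * W)
    (hbig : 10 ^ 35 * BM ^ 9 * W ^ 8 ≤ Eb)
    (hE : 10 ^ 26 * BM ^ 3 * W ^ 8 / (1 / 128) ^ 2 ≤ E) (hEBE : EB ≤ E) : TiltOKC D E u v n x := by
  have w0 := wb 0
  have hBM1 : 1 ≤ BM := hB0.trans hBM
  have hlb : D.lev n b ≤ D.lev n v := by
    rcases hbc with ⟨rfl, rfl⟩ | ⟨rfl, rfl⟩
    · exact le_rfl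
    · exact lu
  have hlc : D.lev n c ≤ D.lev n v := by
    rcases hbc with ⟨rfl, rfl⟩ | ⟨rfl, rfl⟩
    · exact lu
    · exact le_rfl
  obtain ⟨sb, ib⟩ := long_of hlb pr.shp pr.inp
  obtain ⟨sc, ic⟩ := long_of hlc pr'.shp pr'.inp
  -- the short cell in the cell of level `v`
  obtain ⟨z1, z1'⟩ : zx D n v x ≤ zs D v jx n x ∧
      zs D v jx n x + rs D v n ≤ zx D n v x + rh D n v := by
    rcases hbc with ⟨rfl, rfl⟩ | ⟨rfl, rfl⟩
    · exact ⟨pr.z1, pr.z1'⟩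
    · exact ⟨pr'.z1, pr'.z1'⟩
  have h128 : rh D n v = 128 * rs D v n := Eng904.rho7 D v n
  have nr : ∀ k, Near BM (D.w k n b) (D.w k n b) := fun k =>
    ⟨le_mul_of_one_le_left (wb k).le hBM1, le_mul_of_one_le_left (wb k).le hBM1⟩
  have wc : ∀ k, 0 < D.w k n c := by
    intro k
    have h1 := (near k).1
    by_contra hc
    push Not at hc
    have := mul_nonpos_of_nonneg_of_nonpos (by linarith : (0:ℝ) ≤ B0) hc
    have := wb k
    linarith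
  have nr' : ∀ k, Near BM (D.w k n b) (D.w k n c) := fun k =>
    (near k).mono hBM (wb k).le (wc k).le
  have tU := typ_short (a := D.w 0 n b) he hr hB0 pr nd ro (by
    rw [pr.a]; exact le_mul_of_one_le_left w0.le hB0) hW
  have tV := typ_short (a := D.w 0 n b) he hr hB0 pr' nd' ro' (by
    rw [pr'.a]; exact (near 0).2) hW
  have hang : angC (mk4 D n b x) (mk4 D n c x) * D.w 1 n b ≤ BM * D.w 2 n b :=
    aR.ang.trans (mul_le_mul_of_nonneg_right hEB (wb 2).le)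
  obtain ⟨o1, o2⟩ := Tw746.close_nearS (zL := zx D n v x) (ρL := rh D n v) (t := 1 / 128)
    (a := D.w 0 n b) (w1 := D.w 1 n b) (w2 := D.w 2 n b) (B := BM) (W := W) hr (rs_pos D v n) z1 z1'
    (by norm_num) (by rw [h128]; linarith) sb ib sc ic w0 hW1 hBM1
    (by rw [pr.a, pr.w1, pr.w2]; exact ⟨nr 0, nr 1, nr 2⟩)
    (by rw [pr'.a, pr'.w1, pr'.w2]; exact ⟨nr' 0, nr' 1, nr' 2⟩) hang tU tV
    (closeC_mono aA.1 (mul_le_mul_of_nonneg_right hEA w0.le))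
    (closeC_mono aA.2 (mul_le_mul_of_nonneg_right hEA w0.le))
    ((mul_le_mul_of_nonneg_right hbig w0.le).trans cv.1)
  have hm : max b c = v := by
    rcases hbc with ⟨rfl, rfl⟩ | ⟨rfl, rfl⟩
    · exact max_eq_left huv.le
    · exact max_eq_right huv.le
  have hE0 : 0 ≤ E := le_trans (by positivity) hE
  refine tiltOK_cl (b := b) (c := c) (E' := 10 ^ 26 * BM ^ 3 * W ^ 8 / (1 / 128) ^ 2 * D.w 0 n b)
    (lam := EB) huv hbc ?_ ?_ aR.ang ?_ (wb 1) (wb 2).le hE0 hEBE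
  · rw [hm]; exact o1
  · rw [hm]; exact o2
  · refine mul_le_mul hE ?_ w0.le hE0
    rcases hbc with ⟨rfl, rfl⟩ | ⟨rfl, rfl⟩
    · exact le_max_right _ _
    · exact le_max_left _ _

/-- the two finite theorems in one order of the levels -/
theorem two_negl {qm qp : Fin 3 → ℝ} {KB CB KA CA : ℝ} (fB : FT QT Al1 qm qp KB CB)
    (fA : FT Al1 QA qm qp KA CA) (hKB : 0 ≤ KB) (hCB : 0 ≤ CB) (hKA : 0 ≤ KA) (hCA : 0 ≤ CA)
    {D : Dat4} {m b c : ℚ} {jx : ℕ → ℕ × ℝ → ℤ} {Cw C2 δ e s1 sB s2 sA yb : ℝ} (he : 0 < e)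
    (hδ : |(b:ℝ) - c| = δ) (hδ0 : 0 ≤ δ) (hr0 : ∀ n, 0 < D.r0 n) (hCw : 0 ≤ Cw) (hC2 : 0 ≤ C2)
    (hw : ∀ k, ∀ᶠ n in (U : Filter ℕ), 0 < D.w k n b)
    (hpair : ∀ᶠ n in (U : Filter ℕ), ∀ x ∈ D.I n,
      Pair D n b c (D.B.d n ^ (-(Cw * |(b:ℝ) - c| + e))) (zs D m jx n x) (rs D m n) x)
    (hTwo : TwoAt qm qp C2 D m jx b c)
    (hnd : Negl D.B D.I (DegAt D e b)) (hnd' : Negl D.B D.I (DegAt D e c))
    (hro : Negl D.B D.I (RotAt D e b)) (hro' : Negl D.B D.I (RotAt D e c))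
    (hs1 : s1 = 2 * (Cw + 1) + 3 * (C2 + 1) + 2) (hsB : sB = CB * s1 + 2 * (C2 + 1) + 1)
    (hs2 : s2 = sB + 2 * (Cw + 1) + 3 * (C2 + 1) + 2) (hsA : sA = CA * s2 + 2 * (C2 + 1) + 1)
    (hyb : KB * (s1 * (δ + e)) + (C2 + 1) * (δ + e) < yb)
    (hyb' : KA * (s2 * (δ + e)) + (C2 + 1) * (δ + e) < yb) :
    Negl D.B D.I fun n x => Curv D m jx b c (D.B.d n ^ (-yb)) n x ∧
      ¬ (At Al1 D m jx b c (D.B.d n ^ (-(sB * (δ + e)))) n x ∧
        At QA D m jx b c (D.B.d n ^ (-(sA * (δ + e)))) n x) := by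
  set M := δ + e with hM
  have hM0 : 0 < M := by linarith
  have a1 : Cw * δ + e ≤ (Cw + 1) * M := by
    rw [hM]
    have := mul_nonneg hCw he.le
    linarith
  have a2 : C2 * δ + e ≤ (C2 + 1) * M := by
    rw [hM]
    have := mul_nonneg hC2 he.le
    linarith
  have a3 : e ≤ M := by linarith
  have b1 : 0 ≤ (Cw + 1) * M := by positivity
  have b2 : 0 ≤ (C2 + 1) * M := by positivity
  have hs10 : 0 ≤ s1 := by rw [hs1]; positivity
  have hsB0 : 0 ≤ sB := by rw [hsB]; positivity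
  have hs20 : 0 ≤ s2 := by rw [hs2]; positivity
  have c1 : s1 * M = 2 * ((Cw + 1) * M) + 3 * ((C2 + 1) * M) + 2 * M := by rw [hs1]; ring
  have c2 : sB * M = CB * (s1 * M) + 2 * ((C2 + 1) * M) + M := by rw [hsB]; ring
  have c3 : s2 * M = sB * M + 2 * ((Cw + 1) * M) + 3 * ((C2 + 1) * M) + 2 * M := by
    rw [hs2]; ring
  have c4 : sA * M = CA * (s2 * M) + 2 * ((C2 + 1) * M) + M := by rw [hsA]; ring
  have d1 : 0 ≤ s1 * M := by positivity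
  have d2 : 0 ≤ sB * M := by positivity
  have hB := negl_ft fB hCB hKB stab_QT stab_Al1 (D := D) (m := m) (b := b) (c := c) (jx := jx)
    (Cw := Cw) (C2 := C2) (ε := e) (yH := 0) (yb := yb) (y1 := s1 * M) (y := sB * M) he hr0 hCw
    hC2 hw hpair hTwo hnd hnd' hro hro' le_rfl (by rw [hδ]; linarith) (by rw [hδ]; linarith)
    (by rw [hδ]; linarith) (by rw [hδ]; linarith)
  have hA := negl_ft fA hCA hKA stab_Al1 stab_QA (D := D) (m := m) (b := b) (c := c) (jx := jx)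
    (Cw := Cw) (C2 := C2) (ε := e) (yH := sB * M) (yb := yb) (y1 := s2 * M) (y := sA * M) he hr0
    hCw hC2 hw hpair hTwo hnd hnd' hro hro' d2 (by rw [hδ]; linarith) (by rw [hδ]; linarith)
    (by rw [hδ]; linarith) (by rw [hδ]; linarith)
  refine (Crest.Agent.R138.Mk163.Negl.or hB hA).mono ?_
  refine Eventually.of_forall fun n x hx h => ?_
  obtain ⟨h1, h2⟩ := h
  by_cases k : At Al1 D m jx b c (D.B.d n ^ (-(sB * M))) n x
  · exact Or.inr ⟨h1, k, fun h3 => h2 ⟨k, h3⟩⟩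
  · refine Or.inl ⟨h1, ?_, k⟩
    show At QT D m jx b c _ n x
    exact trivial

/-- curvature over the own cell and over the short cell -/
theorem k_short {D : Dat4} {n : ℕ} {x : ℕ × ℝ} {b c v : ℚ} {jx : ℕ → ℕ × ℝ → ℤ} {e B0 : ℝ}
    (hr : 0 < D.r0 n) (hB0 : 1 ≤ B0)
    (pr : Pair D n b c B0 (zs D v jx n x) (rs D v n) x) (nd : ¬ DegAt D e b n x)
    (hbig : D.B.d n ^ (-e) * (mk4 D n b x).a < kpm D n b x) :
    kpm D n b x ≤ 160 * B0 * kp (mk4 D n b x) (zs D v jx n x) (rs D v n) (D.L n x.1) := by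
  have hd : DetP (D.B.d n ^ e) (mk4 D n b x) (zx D n b x) (rh D n b) (D.L n x.1) := by
    by_contra hc
    exact nd ⟨hbig, hc⟩
  have ha : 0 < (mk4 D n b x).a := hr.trans_le pr.shp.r0_le
  have hk : 0 < kpm D n b x := lt_of_le_of_lt (mul_nonneg (dpow_pos D.B n _).le ha.le) hbig
  have hρ := rs_pos D v n
  obtain ⟨k1, k2, -⟩ := Tl102.kapP_sub hr hρ pr.z1 pr.z1' pr.shp pr.inp hk hd
  have hB : 0 < B0 := by linarith
  have hρ1 : 0 < rh D n b := by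
    have h1 := pr.z1
    have h2 := pr.z1'
    linarith
  have h1 : B0⁻¹ ≤ rs D v n / rh D n b := by
    rw [le_div_iff₀ hρ1, inv_mul_le_iff₀ hB]; exact pr.rb
  have h2 : B0⁻¹ * kpm D n b x ≤ 160 * kapP (mk4 D n b x) (zs D v jx n x) (rs D v n) (D.L n x.1) :=
    (mul_le_mul_of_nonneg_right h1 hk.le).trans k2
  rw [inv_mul_le_iff₀ hB] at h2
  show kpm D n b x ≤ 160 * B0 * kapP (mk4 D n b x) (zs D v jx n x) (rs D v n) (D.L n x.1)
  linarith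

theorem rpow_pw (B : Base) (n k : ℕ) (y : ℝ) : (B.d n ^ (-y)) ^ k = B.d n ^ (-((k:ℝ) * y)) := by
  rw [← Real.rpow_natCast, ← Real.rpow_mul (B.pos n).le]
  congr 1; ring

theorem ex2_of {η : ℝ} {qm qp : Fin 3 → ℝ} (h : DAl879.Ex2 η qm qp) : Ex2 η qm qp :=
  ⟨h.le, h.pos, h.e02, h.e1, h.e00, h.e21⟩

set_option maxHeartbeats 1000000 in
/-- **the tilt of the curved pairs over `J1c`** -/
theorem tiltB_of (hB : BTR Al1) (hA : ALR Al1) : ∃ η : ℝ, 0 < η ∧ ∀ (p : Par4) (D : Dat4),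
    J1c η p D → SmT163.TiltB D := by
  obtain ⟨ηA, hηA, hA⟩ := ft_A hA
  refine ⟨min 1 ηA, lt_min one_pos hηA, fun p D hJ => ?_⟩
  obtain ⟨qm, qp, hE, C2, hC2, h2⟩ := Eng904.two7_at hJ
  obtain ⟨KB, CB, hKB, hCB, fB⟩ := ft_B hB (ex2_of hE)
  obtain ⟨KA, CA, hKA, hCA, fA⟩ := hA qm qp (ex2_of (hE.mono (min_le_right _ _)))
  obtain ⟨Cw, hCw, hp⟩ := Eng904.pair_ev hJ
  obtain ⟨s1, hs1⟩ : ∃ s1 : ℝ, s1 = 2 * (Cw + 1) + 3 * (C2 + 1) + 2 := ⟨_, rfl⟩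
  obtain ⟨sB, hsB⟩ : ∃ sB : ℝ, sB = CB * s1 + 2 * (C2 + 1) + 1 := ⟨_, rfl⟩
  obtain ⟨s2, hs2⟩ : ∃ s2 : ℝ, s2 = sB + 2 * (Cw + 1) + 3 * (C2 + 1) + 2 := ⟨_, rfl⟩
  obtain ⟨sA, hsA⟩ : ∃ sA : ℝ, sA = CA * s2 + 2 * (C2 + 1) + 1 := ⟨_, rfl⟩
  obtain ⟨sM, hsM⟩ : ∃ sM : ℝ, sM = sA + sB + (Cw + 1) := ⟨_, rfl⟩
  obtain ⟨sW, hsW⟩ : ∃ sW : ℝ, sW = 3 * (Cw + 1) + 2 := ⟨_, rfl⟩
  obtain ⟨sb, hsb⟩ : ∃ sb : ℝ, sb = KB * s1 + KA * s2 + (C2 + 1) + 9 * sM + 8 * sW + 1 :=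
    ⟨_, rfl⟩
  obtain ⟨sT, hsT⟩ : ∃ sT : ℝ, sT = sb + (Cw + 1) + 3 * sM + 8 * sW + sB + 2 := ⟨_, rfl⟩
  have p1 : 0 ≤ s1 := by rw [hs1]; positivity
  have pB : 0 ≤ sB := by rw [hsB]; positivity
  have p2 : 0 ≤ s2 := by rw [hs2]; positivity
  have pA : 0 ≤ sA := by rw [hsA]; positivity
  have pM : 0 ≤ sM := by rw [hsM]; positivity
  have pW : 0 ≤ sW := by rw [hsW]; positivity
  have pb : 0 ≤ sb := by rw [hsb]; positivity
  have pT : 1 ≤ sT := by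
    rw [hsT]
    have : 0 ≤ sb + (Cw + 1) + 3 * sM + 8 * sW + sB := by positivity
    linarith
  refine ⟨sT, by linarith, ?_⟩
  intro u v hu huv hv ε hε
  have hv0 : 0 ≤ v := hu.trans huv.le
  have hu1 : u ≤ 1 := huv.le.trans hv
  have huv' : (u:ℝ) < v := by exact_mod_cast huv
  have hm : max v u = v := max_eq_left huv.le
  obtain ⟨δ, hδ⟩ : ∃ δ : ℝ, δ = (v:ℝ) - u := ⟨_, rfl⟩
  have hδ0 : 0 < δ := by rw [hδ]; linarith
  have hd1 : |(v:ℝ) - u| = δ := by rw [hδ]; exact abs_of_pos (by linarith)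
  have hd2 : |(u:ℝ) - v| = δ := by rw [abs_sub_comm]; exact hd1
  obtain ⟨e, he⟩ : ∃ e : ℝ, e = ε / sT := ⟨_, rfl⟩
  have he0 : 0 < e := by rw [he]; positivity
  have hee : sT * e = ε := by rw [he]; field_simp
  obtain ⟨jx, hjx, T1, T2⟩ := h2 v u hv0 hv hu hu1
  rw [hm] at T1 T2
  obtain ⟨hn, hpr⟩ := hp v u hv0 hv hu hu1
  have hn := hn e he0
  have hpr := hpr jx hjx e he0
  rw [hm] at hpr
  obtain ⟨t1, t3⟩ := Rtn846.typ_negl (min_le_left _ _) hJ hv0 hv he0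
  obtain ⟨t2, t4⟩ := Rtn846.typ_negl (min_le_left _ _) hJ hu hu1 he0
  obtain ⟨M, hM⟩ : ∃ M : ℝ, M = δ + e := ⟨_, rfl⟩
  have hM0 : 0 < M := by rw [hM]; linarith
  have a1 : Cw * δ + e ≤ (Cw + 1) * M := by
    rw [hM]
    have := mul_nonneg hCw he0.le
    linarith
  have a3 : e ≤ M := by rw [hM]; linarith
  have b1 : 0 ≤ (Cw + 1) * M := by positivity
  have b2 : 0 ≤ (C2 + 1) * M := by positivity
  have cM : sM * M = sA * M + sB * M + (Cw + 1) * M := by rw [hsM]; ring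
  have cW : sW * M = 3 * ((Cw + 1) * M) + 2 * M := by rw [hsW]; ring
  have cb : sb * M = KB * (s1 * M) + KA * (s2 * M) + (C2 + 1) * M + 9 * (sM * M) +
      8 * (sW * M) + M := by rw [hsb]; ring
  have cT : sT * M = sb * M + (Cw + 1) * M + 3 * (sM * M) + 8 * (sW * M) + sB * M + 2 * M := by
    rw [hsT]; ring
  have q1 : 0 ≤ KB * (s1 * M) := by positivity
  have q2 : 0 ≤ KA * (s2 * M) := by positivity
  have qM : 0 ≤ sM * M := by positivity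
  have qW : 0 ≤ sW * M := by positivity
  have qA : 0 ≤ sA * M := by positivity
  have qB : 0 ≤ sB * M := by positivity
  have qb : 0 ≤ sb * M := by positivity
  obtain ⟨yb, hyb⟩ : ∃ yb : ℝ, yb = sb * M := ⟨_, rfl⟩
  have N1 := two_negl fB fA hKB hCB hKA hCA (D := D) (m := v) (b := v) (c := u) (jx := jx)
    (yb := yb) he0 hd1 hδ0.le hJ.r0pos hCw hC2 (fun k => hJ.mka.wpos k v hv0 hv)
    (by filter_upwards [hpr] with n h x hx; exact (h x hx).1) T1 t1 t2 t3 t4 hs1 hsB hs2 hsA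
    (by rw [← hM, hyb]; linarith) (by rw [← hM, hyb]; linarith)
  have N2 := two_negl fB fA hKB hCB hKA hCA (D := D) (m := v) (b := u) (c := v) (jx := jx)
    (yb := yb) he0 hd2 hδ0.le hJ.r0pos hCw hC2 (fun k => hJ.mka.wpos k u hu hu1)
    (by filter_upwards [hpr] with n h x hx; exact (h x hx).2) T2 t2 t1 t4 t3 hs1 hsB hs2 hsA
    (by rw [← hM, hyb]; linarith) (by rw [← hM, hyb]; linarith)
  rw [← hM] at N1 N2
  -- numbers
  obtain ⟨yW, hyW⟩ : ∃ yW : ℝ, yW = 3 * (Cw * δ + e) + e + e := ⟨_, rfl⟩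
  have hCd : 0 ≤ Cw * δ := by positivity
  have hyWM : yW ≤ sW * M := by rw [hyW, cW]; linarith
  have hyW0 : 0 ≤ yW := by rw [hyW]; positivity
  have V1 : ∀ᶠ n in (U : Filter ℕ), 10 ^ 5 * D.B.d n ^ (-(3 * (Cw * δ + e))) ≤
      D.B.d n ^ (-(3 * (Cw * δ + e) + e)) := ev_pow D.B (by norm_num) (by linarith)
  have V2 : ∀ᶠ n in (U : Filter ℕ), 10 ^ 35 * D.B.d n ^ (-(9 * (sM * M) + 8 * yW)) ≤
      D.B.d n ^ (-yb) := ev_pow D.B (by norm_num) (by rw [hyb]; linarith)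
  have V3 : ∀ᶠ n in (U : Filter ℕ), (10 ^ 26 * 128 ^ 2) *
      D.B.d n ^ (-(3 * (sM * M) + 8 * yW)) ≤ D.B.d n ^ (-(sT * M)) :=
    ev_pow D.B (by norm_num) (by linarith)
  have V4 : ∀ᶠ n in (U : Filter ℕ), 160 * D.B.d n ^ (-((Cw * δ + e) + yb)) ≤
      D.B.d n ^ (-(sT * M)) := ev_pow D.B (by norm_num) (by rw [hyb]; linarith)
  have V5 : ∀ᶠ n in (U : Filter ℕ), 2 * D.B.d n ^ (-e) ≤ D.B.d n ^ (-(sT * M)) :=
    ev_pow D.B (by norm_num) (by linarith)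
  refine (Crest.Agent.R138.Mk163.Negl.or (Crest.Agent.R138.Mk163.Negl.or N1 N2)
    (Crest.Agent.R138.Mk163.Negl.or (Crest.Agent.R138.Mk163.Negl.or t1 t2)
      (Crest.Agent.R138.Mk163.Negl.or t3 t4))).mono ?_
  filter_upwards [hpr, hn, V1, V2, V3, V4, V5, hJ.mka.lev_mono u v hu huv.le hv,
    hJ.mka.wpos 0 u hu hu1, hJ.mka.wpos 1 u hu hu1, hJ.mka.wpos 2 u hu hu1,
    hJ.mka.wpos 0 v hv0 hv, hJ.mka.wpos 1 v hv0 hv, hJ.mka.wpos 2 v hv0 hv] with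
    n hpn nn v1 v2 v3 v4 v5 lm wu0 wu1 wu2 wv0 wv1 wv2 x hx hnot
  by_contra hcon
  push Not at hcon
  obtain ⟨⟨n1, n2⟩, ⟨d1, d2⟩, ⟨r1, r2⟩⟩ := hcon
  obtain ⟨hbig, hno⟩ := hnot
  obtain ⟨pr, pr'⟩ := hpn x hx
  rw [hd1] at pr
  rw [hd2] at pr'
  rw [hd1] at nn
  have dp := dpow_pos D.B n
  have eX : D.B.d n ^ (-(sT * ((v : ℝ) - u)) - ε) = D.B.d n ^ (-(sT * M)) := by
    congr 1
    rw [hM, ← hδ, ← hee]; ring
  rw [eX] at hbig hno
  set X := D.B.d n ^ (-(sT * M)) with hX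
  set B0 := D.B.d n ^ (-(Cw * δ + e)) with hB0d
  have hB01 : 1 ≤ B0 := by
    have := dpow_le D.B n (show -(Cw * δ + e) ≤ 0 by linarith)
    rwa [Real.rpow_zero] at this
  have hr := hJ.r0pos n
  have wU : ∀ k, 0 < D.w k n u := by
    intro k; fin_cases k
    · exact wu0
    · exact wu1
    · exact wu2
  have wV : ∀ k, 0 < D.w k n v := by
    intro k; fin_cases k
    · exact wv0
    · exact wv1
    · exact wv2
  have hX0 : 0 < X := dp _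
  have hXe : D.B.d n ^ (-e) < X := by
    have := dp (-e)
    linarith
  -- the short cell is curved
  have big : ∀ {b c : ℚ}, Pair D n b c B0 (zs D v jx n x) (rs D v n) x → ¬ DegAt D e b n x →
      0 < D.w 0 n b → D.w 0 n b ≤ max (D.w 0 n u) (D.w 0 n v) →
      X * max (D.w 0 n u) (D.w 0 n v) ≤ kpm D n b x →
      D.B.d n ^ (-yb) * max (D.w 0 n u) (D.w 0 n v) ≤
        kp (mk4 D n b x) (zs D v jx n x) (rs D v n) (D.L n x.1) := by
    intro b c hpb hnb hwb hwm hk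
    have hMx : 0 < max (D.w 0 n u) (D.w 0 n v) := hwb.trans_le hwm
    have h1 : D.B.d n ^ (-e) * (mk4 D n b x).a < kpm D n b x := by
      rw [hpb.a]
      calc D.B.d n ^ (-e) * D.w 0 n b < X * D.w 0 n b := mul_lt_mul_of_pos_right hXe hwb
        _ ≤ X * max (D.w 0 n u) (D.w 0 n v) := mul_le_mul_of_nonneg_left hwm hX0.le
        _ ≤ _ := hk
    have h2 := k_short hr hB01 hpb hnb h1
    have h3 : 160 * B0 * D.B.d n ^ (-yb) ≤ X := by
      rw [show 160 * B0 * D.B.d n ^ (-yb) = 160 * D.B.d n ^ (-((Cw * δ + e) + yb)) by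
        rw [← dp_mul]; ring]
      exact v4
    have h4 : 160 * B0 * (D.B.d n ^ (-yb) * max (D.w 0 n u) (D.w 0 n v)) ≤
        160 * B0 * kp (mk4 D n b x) (zs D v jx n x) (rs D v n) (D.L n x.1) := by
      calc _ = 160 * B0 * D.B.d n ^ (-yb) * max (D.w 0 n u) (D.w 0 n v) := by ring
        _ ≤ X * max (D.w 0 n u) (D.w 0 n v) := mul_le_mul_of_nonneg_right h3 hMx.le
        _ ≤ kpm D n b x := hk
        _ ≤ _ := h2
    exact le_of_mul_le_mul_left h4 (by linarith)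
  have hmax : D.B.d n ^ (-yb) * max (D.w 0 n u) (D.w 0 n v) ≤
      max (kp (mk4 D n v x) (zs D v jx n x) (rs D v n) (D.L n x.1))
        (kp (mk4 D n u x) (zs D v jx n x) (rs D v n) (D.L n x.1)) := by
    rcases le_max_iff.1 hbig with h | h
    · exact (big pr d1 wv0 (le_max_right _ _) h).trans (le_max_left _ _)
    · exact (big pr' d2 wu0 (le_max_left _ _) h).trans (le_max_right _ _)
  -- numbers for the last step
  have hW1 : 1 ≤ D.B.d n ^ (-yW) := by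
    have := dpow_le D.B n (show -yW ≤ 0 by linarith)
    rwa [Real.rpow_zero] at this
  have m1 : B0 ≤ D.B.d n ^ (-(sM * M)) := dpow_le D.B n (by linarith)
  have m2 : D.B.d n ^ (-(sA * M)) ≤ D.B.d n ^ (-(sM * M)) := dpow_le D.B n (by linarith)
  have m3 : D.B.d n ^ (-(sB * M)) ≤ D.B.d n ^ (-(sM * M)) := dpow_le D.B n (by linarith)
  have m4 : 10 ^ 5 * B0 ^ 3 ≤ D.B.d n ^ e * D.B.d n ^ (-yW) := by
    rw [hB0d, rpow_pw, ← dpow_add]
    refine le_trans (le_of_eq ?_) (v1.trans (le_of_eq ?_))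
    · push_cast; ring_nf
    · congr 1; rw [hyW]; ring
  have m5 : 10 ^ 35 * (D.B.d n ^ (-(sM * M))) ^ 9 * (D.B.d n ^ (-yW)) ^ 8 ≤
      D.B.d n ^ (-yb) := by
    rw [rpow_pw, rpow_pw, mul_assoc, dp_mul]
    exact_mod_cast v2
  have m6 : 10 ^ 26 * (D.B.d n ^ (-(sM * M))) ^ 3 * (D.B.d n ^ (-yW)) ^ 8 / (1 / 128) ^ 2 ≤
      X := by
    rw [rpow_pw, rpow_pw]
    refine le_trans (le_of_eq ?_) v3
    push_cast
    rw [← dp_mul]
    ring
  have m7 : D.B.d n ^ (-(sB * M)) ≤ X := dpow_le D.B n (by linarith)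
  rcases le_total (kp (mk4 D n u x) (zs D v jx n x) (rs D v n) (D.L n x.1))
    (kp (mk4 D n v x) (zs D v jx n x) (rs D v n) (D.L n x.1)) with hk | hk
  · rw [max_eq_left hk] at hmax
    have cv : Curv D v jx v u (D.B.d n ^ (-yb)) n x :=
      ⟨(mul_le_mul_of_nonneg_left (le_max_right _ _) (dp _).le).trans hmax, hk⟩
    obtain ⟨k1, k2⟩ := n1 cv
    exact hno (fin_at huv (Or.inl ⟨rfl, rfl⟩) he0.le hr hB01 hW1 m1 m2 m3 pr pr' lm nn wV d1 d2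
      r1 r2 cv k1 k2 m4 m5 m6 m7)
  · rw [max_eq_right hk] at hmax
    have cv : Curv D v jx u v (D.B.d n ^ (-yb)) n x :=
      ⟨(mul_le_mul_of_nonneg_left (le_max_left _ _) (dp _).le).trans hmax, hk⟩
    obtain ⟨k1, k2⟩ := n2 cv
    exact hno (fin_at huv (Or.inr ⟨rfl, rfl⟩) he0.le hr hB01 hW1 m1 m2 m3 pr' pr lm
      (fun k => ⟨(nn k).2, (nn k).1⟩) wU d2 d1 r2 r1 cv k1 k2 m4 m5 m6 m7)

end Crest.Agent.R136.Wr774
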