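import Mathlib
import Crest.Agent.R136.XA1_248

/-!
# R136, block U4 (helper248): `LeafFin`
-/

set_option autoImplicit false
set_option linter.unusedVariables false
set_option linter.unusedSectionVars false

open Finset Filter Topology

namespace Crest.Agent.R136.XA248

open Crest.Agent.R138.Ex926 Crest.Agent.R138.Dp76
open Crest.Agent.R138.Mk163 (zc zl rho alive own)
open Crest.Agent.R138.MkRef627 (lc mem_alive alive_mono)
open Crest.Agent.R138.Ps627 (prune_rel)
open MkA627 (Geo)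

variable {σ κ : Type} [Fintype κ]

/-! ### cells -/

theorem zc_Ico {i j : ℕ} (hij : i ≤ j) (z : ℝ) :
    zc j z ∈ Ico ((2:ℤ) ^ (j - i) * zc i z) (2 ^ (j - i) * (zc i z + 1)) := by
  have hp : (0:ℝ) < 2 ^ (j - i) := by positivity
  have e : (2:ℝ) ^ j = 2 ^ (j - i) * 2 ^ i := by
    rw [← pow_add]; congr 1; omega
  have h1 := Int.floor_le ((2:ℝ) ^ i * z)
  have h2 := Int.lt_floor_add_one ((2:ℝ) ^ i * z)
  rw [mem_Ico]
  unfold zc
  constructor
  · rw [Int.le_floor]
    push_cast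
    rw [e, mul_assoc]
    exact mul_le_mul_of_nonneg_left h1 hp.le
  · rw [Int.floor_lt]
    push_cast
    rw [e, mul_assoc]
    exact mul_lt_mul_of_pos_left h2 hp

/-- cells are nested -/
theorem zc_nest {i j : ℕ} (hij : i ≤ j) {y z : ℝ} (h : zc j y = zc j z) : zc i y = zc i z := by
  have h1 := mem_Ico.1 (zc_Ico hij y)
  have h2 := mem_Ico.1 (zc_Ico hij z)
  rw [h] at h1
  have hp : (0:ℤ) < 2 ^ (j - i) := by positivity
  have h3 : zc i y < zc i z + 1 := lt_of_mul_lt_mul_left (h1.1.trans_lt h2.2) hp.le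
  have h4 : zc i z < zc i y + 1 := lt_of_mul_lt_mul_left (h2.1.trans_lt h1.2) hp.le
  omega

theorem card_Ico_cell (d : ℕ) (Z : ℤ) :
    (Ico ((2:ℤ) ^ d * Z) (2 ^ d * (Z + 1))).card = 2 ^ d := by
  rw [Int.card_Ico]
  have : (2:ℤ) ^ d * (Z + 1) - 2 ^ d * Z = 2 ^ d := by ring
  rw [this]
  have : (2:ℤ) ^ d = ((2 ^ d : ℕ) : ℤ) := by push_cast; rfl
  rw [this, Int.toNat_natCast]

open Classical in
theorem mem_alive_lc {I : Finset (ℕ × ℝ)} {i : ℕ} {J : ℤ} {t : ℕ} :
    t ∈ alive I i J ↔ (t, J) ∈ I.image (lc i) := by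
  rw [mem_alive, mem_image]
  constructor
  · rintro ⟨x, hx, rfl, rfl⟩; exact ⟨x, hx, rfl⟩
  · rintro ⟨x, hx, h⟩
    simp only [lc, Prod.mk.injEq] at h
    exact ⟨x, hx, h.1, h.2⟩

open Classical in
/-- alive lines of a cell with a property, as objects -/
theorem card_alive_filter (I : Finset (ℕ × ℝ)) (i : ℕ) (J : ℤ) (p : ℕ → Prop) [DecidablePred p] :
    ((alive I i J).filter p).card =
      ((I.image (lc i)).filter fun o => o.2 = J ∧ p o.1).card := by
  have : ((I.image (lc i)).filter fun o => o.2 = J ∧ p o.1) =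
      ((alive I i J).filter p).image fun s => (s, J) := by
    ext o
    simp only [mem_filter, mem_image]
    constructor
    · rintro ⟨h1, h2, h3⟩
      refine ⟨o.1, ⟨?_, h3⟩, by rw [← h2]⟩
      rw [mem_alive_lc, ← h2]; exact mem_image.2 h1
    · rintro ⟨s, hs, rfl⟩
      exact ⟨mem_image.1 (mem_alive_lc.1 hs.1), rfl, hs.2⟩
  rw [this, card_image_of_injective]
  intro s s' h
  exact (Prod.mk.inj h).1

theorem IsCl.mono {G : Geo σ κ} {n j : ℕ} {F F' : Finset (ℕ × ℝ)} {c : ℕ → ℤ → ℕ} {b : ℕ → σ}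
    {w : κ → ℝ} (h : IsCl G n j F c b w) (hF : F' ⊆ F) : IsCl G n j F' c b w :=
  fun J t ht => h J t (alive_mono hF _ _ ht)

open Classical in
theorem Up.mono {G : Geo σ κ} {R : Rel κ} {x : κ → ℝ} {n i : ℕ} {F F' : Finset (ℕ × ℝ)} {j : ℕ}
    {w : κ → ℝ} {D : ℝ} (h : Up G R x n i F j w D) (hF : F' ⊆ F) : Up G R x n i F' j w D := by
  intro J s hs hR
  refine le_trans ?_ (h J s hs hR)
  exact_mod_cast card_le_card (filter_subset_filter _ (alive_mono hF _ _))

/-- `prune_rel` for two maps with values in `Option (ℕ × ℤ)` -/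
theorem prune2 (h : Fin 2 → ℕ × ℤ → Option (ℕ × ℤ)) {A I : Finset (ℕ × ℤ)} (hAI : A ⊆ I) {δ : ℝ}
    (hδ : 0 ≤ δ) : ∃ A' ⊆ A, (A.card : ℝ) - 2 * δ * (I.card : ℝ) ≤ (A'.card : ℝ) ∧
      ∀ i, ∀ x ∈ A', δ * ((I.filter fun y => h i y = h i x).card : ℝ) ≤
        ((A'.filter fun y => h i y = h i x).card : ℝ) := by
  obtain ⟨A', h1, h2, h3⟩ := prune_rel (η := fun _ : Fin 2 => Option (ℕ × ℤ)) h hAI hδ
  rw [Fintype.card_fin] at h2
  push_cast at h2
  refine ⟨A', h1, h2, fun i x hx => ?_⟩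
  have := h3 i x hx
  convert this

open Classical in
/-- **finite pruning** of a part `E` of a family `F` in one cell of level `i`, at level `j`. -/
theorem prune_fin {i j : ℕ} (hij : i ≤ j) {E F : Finset (ℕ × ℝ)} (hEF : E ⊆ F) (hE : E.Nonempty)
    (hcell : ∀ y ∈ F, ∀ z ∈ F, zc i y.2 = zc i z.2) {k0 : ℝ} (hk : 0 < k0)
    (hdens : 4 * k0 * (((F.image Prod.fst).card : ℝ) * 2 ^ (j - i)) ≤
      ((E.image (lc j)).card : ℝ)) (c : ℕ → ℤ → ℕ) :
    ∃ A ⊆ E, A.Nonempty ∧
      (∀ x ∈ A, k0 * 2 ^ (j - i) ≤ ((own A i j x).card : ℝ)) ∧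
      ∀ J : ℤ, ∀ t ∈ alive A j J,
        k0 * (((alive F j J).filter fun s => c s J = c t J).card : ℝ) ≤
          (((alive A j J).filter fun s => c s J = c t J).card : ℝ) := by
  obtain ⟨x0, hx0⟩ := hE
  set Z := zc i x0.2 with hZ
  have hZF : ∀ y ∈ F, zc i y.2 = Z := fun y hy => hcell y hy x0 (hEF hx0)
  set C : Finset ℤ := Ico ((2:ℤ) ^ (j - i) * Z) (2 ^ (j - i) * (Z + 1)) with hC
  set T : Finset ℕ := F.image Prod.fst with hT
  set II : Finset (ℕ × ℤ) := T ×ˢ C with hII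
  have hIIc : (II.card : ℝ) = (T.card : ℝ) * 2 ^ (j - i) := by
    rw [hII, card_product, hC, card_Ico_cell]; push_cast; rfl
  have hFO : F.image (lc j) ⊆ II := by
    intro o ho
    obtain ⟨y, hy, rfl⟩ := mem_image.1 ho
    rw [hII, mem_product]
    refine ⟨mem_image_of_mem _ hy, ?_⟩
    have := zc_Ico hij y.2
    rw [hZF y hy] at this
    exact this
  set O := E.image (lc j) with hO
  have hOI : O ⊆ II := (image_subset_image hEF).trans hFO
  set h : Fin 2 → (ℕ × ℤ) → Option (ℕ × ℤ) := fun a o =>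
    if a = 0 then some (o.1, 0) else
      if o ∈ F.image (lc j) then some (c o.1 o.2, o.2) else none with hh
  obtain ⟨A', hA'O, hcard, hfib⟩ := prune2 h hOI hk.le
  have hOc : (0:ℝ) < O.card := by
    have : O.Nonempty := ⟨lc j x0, mem_image_of_mem _ hx0⟩
    exact_mod_cast card_pos.2 this
  have hA'c : (0:ℝ) < A'.card := by
    rw [hIIc] at hcard
    nlinarith
  have hA'ne : A'.Nonempty := card_pos.1 (by exact_mod_cast hA'c)
  set A := E.filter fun x => lc j x ∈ A' with hA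
  have hAimg : A.image (lc j) = A' := by
    ext o
    rw [mem_image]
    constructor
    · rintro ⟨y, hy, rfl⟩; exact (mem_filter.1 hy).2
    · intro ho
      obtain ⟨y, hy, rfl⟩ := mem_image.1 (hA'O ho)
      exact ⟨y, mem_filter.2 ⟨hy, ho⟩, rfl⟩
  have hAE : A ⊆ E := filter_subset _ _
  refine ⟨A, hAE, ?_, ?_, ?_⟩
  · obtain ⟨o, ho⟩ := hA'ne
    obtain ⟨y, hy, rfl⟩ := mem_image.1 (hA'O ho)
    exact ⟨y, mem_filter.2 ⟨hy, ho⟩⟩
  · intro x hx
    have hxA' : lc j x ∈ A' := (mem_filter.1 hx).2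
    have h1 := hfib 0 (lc j x) hxA'
    have e1 : (II.filter fun o => h 0 o = h 0 (lc j x)) = ({x.1} : Finset ℕ) ×ˢ C := by
      ext o
      simp only [hh, hII, lc, mem_filter, mem_product, if_true, Option.some.injEq, Prod.mk.injEq,
        and_true, mem_singleton]
      constructor
      · rintro ⟨⟨-, a⟩, b⟩; exact ⟨b, a⟩
      · rintro ⟨a, b⟩
        refine ⟨⟨?_, b⟩, a⟩
        rw [a]; exact mem_image_of_mem _ (hEF (hAE hx))
    rw [e1, card_product, card_singleton, one_mul, hC, card_Ico_cell] at h1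
    push_cast at h1
    refine h1.trans ?_
    have e2 : (A'.filter fun o => h 0 o = h 0 (lc j x)).card ≤ (own A i j x).card := by
      have hsub : (A'.filter fun o => h 0 o = h 0 (lc j x)).image Prod.snd ⊆ own A i j x := by
        intro k hk'
        obtain ⟨o, ho, rfl⟩ := mem_image.1 hk'
        rw [mem_filter] at ho
        obtain ⟨ho1, ho2⟩ := ho
        simp only [hh, lc, if_true, Option.some.injEq, Prod.mk.injEq, and_true] at ho2
        rw [← hAimg] at ho1
        obtain ⟨y, hy, rfl⟩ := mem_image.1 ho1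
        unfold own
        refine mem_image.2 ⟨y, mem_filter.2 ⟨hy, ho2, ?_⟩, rfl⟩
        rw [hZF y (hEF (hAE hy)), hZF x (hEF (hAE hx))]
      refine le_trans (le_of_eq ?_) (card_le_card hsub)
      rw [card_image_of_injOn]
      intro o ho o' ho' hoo
      rw [Finset.mem_coe, mem_filter] at ho ho'
      have a1 := ho.2
      have a2 := ho'.2
      simp only [hh, lc, if_true, Option.some.injEq, Prod.mk.injEq, and_true] at a1 a2
      exact Prod.ext (a1.trans a2.symm) hoo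
    exact_mod_cast e2
  · intro J t ht
    have htA' : (t, J) ∈ A' := by rw [← hAimg]; exact mem_alive_lc.1 ht
    have htF : (t, J) ∈ F.image (lc j) := image_subset_image (hAE.trans hEF) (mem_alive_lc.1 ht)
    have h1 := hfib 1 (t, J) htA'
    have e0 : h 1 (t, J) = some (c t J, J) := by
      simp only [hh, Fin.one_eq_zero_iff, OfNat.ofNat_ne_one, if_false]
      rw [if_pos htF]
    rw [card_alive_filter, card_alive_filter, hAimg]
    have e1 : ((F.image (lc j)).filter fun o => o.2 = J ∧ c o.1 J = c t J) ⊆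
        II.filter fun o => h 1 o = h 1 (t, J) := by
      intro o ho
      rw [mem_filter] at ho
      obtain ⟨a1, a2, a3⟩ := ho
      rw [mem_filter]
      refine ⟨hFO a1, ?_⟩
      rw [e0]
      simp only [hh, Fin.one_eq_zero_iff, OfNat.ofNat_ne_one, if_false]
      rw [if_pos a1, a2, a3]
    have e2 : (A'.filter fun o => h 1 o = h 1 (t, J)) ⊆
        A'.filter fun o => o.2 = J ∧ c o.1 J = c t J := by
      intro o ho
      rw [mem_filter] at ho
      obtain ⟨a1, a2⟩ := ho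
      rw [mem_filter]
      refine ⟨a1, ?_⟩
      rw [e0] at a2
      simp only [hh, Fin.one_eq_zero_iff, OfNat.ofNat_ne_one, if_false] at a2
      split_ifs at a2 with a3
      simp only [Option.some.injEq, Prod.mk.injEq] at a2
      obtain ⟨a4, a5⟩ := a2
      rw [a5] at a4
      exact ⟨a5, a4⟩
    calc k0 * (((F.image (lc j)).filter fun o => o.2 = J ∧ c o.1 J = c t J).card : ℝ)
        ≤ k0 * ((II.filter fun o => h 1 o = h 1 (t, J)).card : ℝ) := by
          refine mul_le_mul_of_nonneg_left ?_ hk.le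
          exact_mod_cast card_le_card e1
      _ ≤ _ := h1
      _ ≤ _ := by exact_mod_cast card_le_card e2

/-- **(FIN).** -/
theorem leafFin : LeafFin := by
  intro σ κ _ I G R lo hi x β' hU hM η hη
  obtain ⟨δ1, hδ1, hev⟩ := hU (η / 2) (by positivity)
  set δ : ℝ := min (δ1 / 4) (min (η / 4) (η ^ 2 / 8)) with hδ
  have hδ0 : 0 < δ := by positivity
  have hδa : δ ≤ δ1 / 4 := min_le_left _ _
  have hδb : δ ≤ η / 4 := (min_le_right _ _).trans (min_le_left _ _)
  have hδc : δ ≤ η ^ 2 / 8 := (min_le_right _ _).trans (min_le_right _ _)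
  refine ⟨δ, hδ0, ?_⟩
  filter_upwards [hev, hM.eventually_ge_atTop (100 / δ1 + 100 / η + 100 / η ^ 2)] with n hn hMn
  intro i j hi1 hij hj hwin E F hEF hFI hE hcell hdens c b w D0 D1 hD0 hD1 hcl hlow hup
  set M : ℝ := (hi n : ℝ) - lo n with hMdef
  have hp1 : 0 < 100 / δ1 := by positivity
  have hp2 : 0 < 100 / η := by positivity
  have hp3 : 0 < 100 / η ^ 2 := by positivity
  have hM0 : 0 < M := by linarith
  have hMa : 100 ≤ δ1 * M := by
    have : 100 / δ1 ≤ M := by linarith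
    rw [div_le_iff₀ hδ1] at this; linarith
  have hMb : 100 ≤ η * M := by
    have : 100 / η ≤ M := by linarith
    rw [div_le_iff₀ hη] at this; linarith
  have hMc : 100 ≤ η ^ 2 * M := by
    have : 100 / η ^ 2 ≤ M := by linarith
    rw [div_le_iff₀ (by positivity)] at this; linarith
  set k0 : ℝ := (2:ℝ) ^ (-(δ * M)) / 4 with hk0
  have hpow : (0:ℝ) < (2:ℝ) ^ (-(δ * M)) := Real.rpow_pos_of_pos two_pos _
  have hk : 0 < k0 := by positivity
  obtain ⟨A, hAE, hAne, hown, hclass⟩ := prune_fin hij.le hEF hE hcell (k0 := k0) hk (by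
    refine le_trans (le_of_eq ?_) hdens
    rw [hk0]; ring) c
  -- own loss
  set h : ℕ := ⌈δ * M⌉₊ + 22 with hh
  have hceil : (⌈δ * M⌉₊ : ℝ) < δ * M + 1 := Nat.ceil_lt_add_one (by positivity)
  have hceil' : δ * M ≤ ⌈δ * M⌉₊ := Nat.le_ceil _
  have hhle : (h : ℝ) ≤ δ * M + 23 := by
    rw [hh]; push_cast; linarith
  have hδM1 : δ * M ≤ δ1 / 4 * M := mul_le_mul_of_nonneg_right hδa hM0.le
  have hδM2 : δ * M ≤ η / 4 * M := mul_le_mul_of_nonneg_right hδb hM0.le
  have hδM3 : δ * M ≤ η ^ 2 / 8 * M := mul_le_mul_of_nonneg_right hδc hM0.le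
  have hownA : ∀ y ∈ A, 2 ^ (j - i + 20) ≤ 2 ^ h * (own A i j y).card := by
    intro y hy
    have h1 := hown y hy
    have h2 : (1:ℝ) ≤ 2 ^ (h - 20) * k0 := by
      have e1 : h - 20 = ⌈δ * M⌉₊ + 2 := by omega
      rw [e1, hk0]
      have h3 : (2:ℝ) ^ (δ * M) ≤ (2:ℝ) ^ (⌈δ * M⌉₊ : ℝ) :=
        Real.rpow_le_rpow_of_exponent_le one_le_two hceil'
      rw [Real.rpow_natCast] at h3
      have h4 : (2:ℝ) ^ (δ * M) * (2:ℝ) ^ (-(δ * M)) = 1 := by
        rw [← Real.rpow_add two_pos]; simp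
      have h5 : (2:ℝ) ^ (⌈δ * M⌉₊ + 2) * ((2:ℝ) ^ (-(δ * M)) / 4) =
          (2:ℝ) ^ ⌈δ * M⌉₊ * (2:ℝ) ^ (-(δ * M)) := by
        rw [pow_add]; ring
      rw [h5, ← h4]
      exact mul_le_mul_of_nonneg_right h3 hpow.le
    have h6 : (2:ℝ) ^ (j - i + 20) ≤ 2 ^ h * ((own A i j y).card : ℝ) := by
      have e2 : (2:ℝ) ^ h = 2 ^ (h - 20) * 2 ^ 20 := by
        rw [← pow_add, Nat.sub_add_cancel (by omega)]
      rw [e2, pow_add]
      calc (2:ℝ) ^ (j - i) * 2 ^ 20 = 1 * 2 ^ (j - i) * 2 ^ 20 := by ring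
        _ ≤ (2 ^ (h - 20) * k0) * 2 ^ (j - i) * 2 ^ 20 := by
            have : (0:ℝ) ≤ 2 ^ (j - i) := by positivity
            gcongr
        _ = 2 ^ (h - 20) * 2 ^ 20 * (k0 * 2 ^ (j - i)) := by ring
        _ ≤ _ := mul_le_mul_of_nonneg_left h1 (by positivity)
    exact_mod_cast h6
  have hwin2 : η / 2 * M ≤ (j:ℝ) - i := by
    have : η / 2 * M ≤ η * M := by nlinarith
    linarith
  have hfin := hn i j h hi1 hij hj hwin2 (by linarith) A (hAE.trans (hEF.trans hFI)) hAne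
    (fun y hy z hz => hcell y (hEF (hAE hy)) z (hEF (hAE hz))) hownA c b w D0 (k0 * D1) hD0
    (mul_pos hk hD1) (hcl.mono (hAE.trans hEF)) (by
      intro J t ht
      have h1 := hlow J t (alive_mono (hAE.trans hEF) _ _ ht)
      have h2 := hclass J t ht
      have h3 := mul_le_mul_of_nonneg_left h1 hk.le
      rw [mul_assoc]
      refine h3.trans ?_
      convert h2) (by
      intro i' h1 h2
      refine (hup i' h1 ?_).mono hAE
      have : (i' : ℝ) ≤ i + h := by exact_mod_cast h2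
      linarith)
  -- conclusion
  have hD1' : D1 ≤ (4 * (2:ℝ) ^ (δ * M)) * (D0 * (2:ℝ) ^ ((β' + η / 2) * ((j : ℝ) - i))) := by
    have e1 : (4 * (2:ℝ) ^ (δ * M)) * k0 = 1 := by
      rw [hk0]
      have h4 : (2:ℝ) ^ (δ * M) * (2:ℝ) ^ (-(δ * M)) = 1 := by
        rw [← Real.rpow_add two_pos]; simp
      linear_combination h4
    have hpp : (0:ℝ) < 4 * (2:ℝ) ^ (δ * M) := by positivity
    calc D1 = (4 * (2:ℝ) ^ (δ * M)) * (k0 * D1) := by rw [← mul_assoc, e1, one_mul]
      _ ≤ _ := mul_le_mul_of_nonneg_left hfin hpp.le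
  refine hD1'.trans ?_
  have e2 : (4:ℝ) = (2:ℝ) ^ (2:ℝ) := by norm_num
  have e3 : (4 * (2:ℝ) ^ (δ * M)) * (D0 * (2:ℝ) ^ ((β' + η / 2) * ((j : ℝ) - i))) =
      D0 * (2:ℝ) ^ (2 + δ * M + (β' + η / 2) * ((j : ℝ) - i)) := by
    rw [e2, Real.rpow_add two_pos, Real.rpow_add two_pos]; ring
  rw [e3]
  refine mul_le_mul_of_nonneg_left ?_ hD0.le
  refine Real.rpow_le_rpow_of_exponent_le one_le_two ?_
  have h7 : η / 2 * (η * M) ≤ η / 2 * ((j:ℝ) - i) := mul_le_mul_of_nonneg_left hwin (by positivity)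
  nlinarith

end Crest.Agent.R136.XA248
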