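import Mathlib
import Crest.Agent.R136.XA1_248

/-!
# R136, block U4 (helper248): the step with a FIXED change `x` of the rewards, statement
-/

set_option autoImplicit false
set_option linter.unusedVariables false

open Finset Filter Topology

namespace Crest.Agent.R136.XA248

open Crest.Agent.R138.Ex926 Crest.Agent.R138.Dp76
open MkA627 (Geo)

/-- **(STEP), fixed `x` and error `η`**: near-maximal classes (loss
`(v' - v) (|β' - β| + C ∑ |x k|) + η`) of ONE shape cover a dense part, and their shape satisfies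
`∑ x k shp k ≤ ((β' - β) (v' - v) + η) (hi - lo)`. -/
def LeafStepR : Prop :=
  ∀ {σ κ : Type} [Fintype κ] (B : Base) (I : ℕ → Finset (ℕ × ℝ)) (G : Geo σ κ) (R Rc : Rel κ)
    (Sh : ℕ → Finset (κ → ℝ)) (lo hi : ℕ → ℕ) (D0 : ℕ → ℝ) (β Cu C : ℝ) (ct : ℕ → ℕ → ℤ → ℕ)
    (bt : ℕ → ℕ → σ) (wt : ℕ → κ → ℝ) (x : κ → ℝ) (β' : ℝ),
    InSeq B I G R Sh lo hi D0 β Cu ct bt wt → RTrans R → 0 ≤ C →
    (∀ i w j w', i ≤ j → Rc i w j w' → R i w j w' ∧ Rg C i w j w') →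
    UBw G Rc I lo hi x β' →
    ∀ (J : ℕ → Finset (ℕ × ℝ)), Dense B J I → DMaxAll B J G R lo hi D0 β wt →
    ∀ (v' : ℝ) (l' : ℕ → ℕ) (c' : ℕ → ℕ → ℤ → ℕ) (b' : ℕ → ℕ → σ) (w' : ℕ → κ → ℝ),
      St B J G R lo hi D0 β wt v' l' c' b' w' →
    ∀ v : ℝ, 0 ≤ v → v < v' → ∀ η : ℝ, 0 < η →
    ∃ (J' : ℕ → Finset (ℕ × ℝ)) (l : ℕ → ℕ) (c : ℕ → ℕ → ℤ → ℕ) (b : ℕ → ℕ → σ)
      (w : ℕ → κ → ℝ), (∀ n, J' n ⊆ J n) ∧ Dense B J' J ∧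
      (∀ᶠ n in (U : Filter ℕ), lo n ≤ l n ∧ l n ≤ l' n) ∧
      (∀ᶠ n in (U : Filter ℕ),
        |((l n : ℝ) - lo n) - v * ((hi n : ℝ) - lo n)| ≤ η * ((hi n : ℝ) - lo n)) ∧
      (∀ᶠ n in (U : Filter ℕ), IsCl G n (l n) (J' n) (c n) (b n) (w n)) ∧
      (∀ᶠ n in (U : Filter ℕ), Rc (l n) (w n) (l' n) (w' n)) ∧
      (∀ᶠ n in (U : Filter ℕ), Low G 0 n (l n) (J' n) (c n) (b n)
        (D0 n * (2:ℝ) ^ (β * ((l n : ℝ) - lo n)) *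
          (2:ℝ) ^ (-(((v' - v) * (|β' - β| + C * ∑ k, |x k|) + η) * ((hi n : ℝ) - lo n))))) ∧
      ∀ᶠ n in (U : Filter ℕ), ∑ k, x k * shp (l n) (w n) (l' n) (w' n) k ≤
        ((β' - β) * (v' - v) + η) * ((hi n : ℝ) - lo n)

end Crest.Agent.R136.XA248
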