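import Mathlib
import Crest.Agent.R136.XA2_248
import Crest.Agent.R136.XA3_248

/-!
# R136, block U4 (helper248): finite greedy selection at one level
-/

set_option autoImplicit false
set_option linter.unusedVariables false
set_option linter.unusedSectionVars false

open Finset Filter Topology

namespace Crest.Agent.R136.XA248

open Crest.Agent.R138.Ex926 Crest.Agent.R138.Dp76
open Crest.Agent.R138.Mk163 (zc zl rho alive own)
open Crest.Agent.R138.MkRef627 (lc mem_alive alive_mono own_one)
open Crest.Agent.R138.Ps627 (greedy_sub)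
open MkA627 (Geo)

variable {σ κ : Type} [Fintype κ]

/-! ### rewards -/

theorem rho_pos (i : ℕ) : 0 < rho i := by unfold rho; positivity

theorem rew_pos {i : ℕ} {w x : κ → ℝ} (hw : ∀ k, 0 < w k) : 0 < rew i w x :=
  Finset.prod_pos fun k _ => Real.rpow_pos_of_pos (div_pos (hw k) (rho_pos i)) _

theorem rew_zero (i : ℕ) (w : κ → ℝ) : rew i w 0 = 1 := by simp [rew]

theorem valx_zero (G : Geo σ κ) (n i : ℕ) (J : ℤ) (s : σ) : valx G 0 n i J s = G.val n i J s := by
  simp [valx, rew_zero]

/-- quotient of the rewards of two levels -/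
theorem rew_div {i j : ℕ} {w w' x : κ → ℝ} (hw : ∀ k, 0 < w k) (hw' : ∀ k, 0 < w' k) :
    rew i w x = (2:ℝ) ^ (∑ k, x k * shp i w j w' k) * rew j w' x := by
  unfold rew
  rw [Real.rpow_sum_of_pos two_pos, ← Finset.prod_mul_distrib]
  refine Finset.prod_congr rfl fun k _ => ?_
  have h1 : 0 < w k / rho i := div_pos (hw k) (rho_pos i)
  have h2 : 0 < w' k / rho j := div_pos (hw' k) (rho_pos j)
  have h3 : (2:ℝ) ^ (x k * shp i w j w' k) = ((w k / rho i) / (w' k / rho j)) ^ x k := by
    rw [mul_comm, Real.rpow_mul two_pos.le, shp, Real.rpow_logb two_pos (by norm_num) (div_pos h1 h2)]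
  rw [h3, ← Real.mul_rpow (div_pos h1 h2).le h2.le, div_mul_cancel₀ _ h2.ne']

/-! ### greedy selection -/

open Classical in
/-- **greedy selection at the level `l`**, test sets restricted by `P` on the widths. -/
theorem exists_greedy [Nonempty σ] (G : Geo σ κ) (n l : ℕ) (x : κ → ℝ) (P : (κ → ℝ) → Prop)
    (F : Finset (ℕ × ℝ)) {T : ℝ} (hT : 0 < T)
    (hpos : ∀ J s, G.adm n l J s → 0 < valx G x n l J s) :
    ∃ E ⊆ F, ∃ (c : ℕ → ℤ → ℕ) (b : ℕ → σ),
      (∀ J : ℤ, ∀ t ∈ alive E l J, G.mem n l J (b (c t J)) t ∧ G.adm n l J (b (c t J)) ∧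
        P (wv G (b (c t J)))) ∧
      Low G x n l E c b T ∧
      (∀ y ∈ E, ∀ z ∈ F, lc l z = lc l y → z ∈ E) ∧
      (∀ J s, G.adm n l J s → P (wv G s) →
        (((alive (F \ E) l J).filter fun t => G.mem n l J s t).card : ℝ) ≤
          T * valx G x n l J s) := by
  set mem' : ℤ × σ → ℕ × ℤ → Prop := fun K o =>
    o.2 = K.1 ∧ G.adm n l K.1 K.2 ∧ P (wv G K.2) ∧ G.mem n l K.1 K.2 o.1 with hmem'
  set vol : ℤ × σ → ℝ := fun K => if G.adm n l K.1 K.2 then valx G x n l K.1 K.2 else 1 with hvol
  have hvolpos : ∀ K, 0 < vol K := by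
    intro K
    simp only [hvol]
    split_ifs with h
    · exact hpos _ _ h
    · exact one_pos
  obtain ⟨E, hEF, cl, h1, h2, h3, h4⟩ := greedy_sub (lc l) mem' vol hvolpos hT F
  -- labels
  set O := E.image (lc l) with hO
  set rep : ℤ × σ → ℕ × ℤ := fun K => if h : ∃ o ∈ O, cl o = K then h.choose else (0, 0) with hrep
  have hrep1 : ∀ o ∈ O, cl (rep (cl o)) = cl o := by
    intro o ho
    have hex : ∃ o' ∈ O, cl o' = cl o := ⟨o, ho, rfl⟩
    simp only [hrep]
    rw [dif_pos hex]
    exact hex.choose_spec.2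
  set c : ℕ → ℤ → ℕ := fun t J => Encodable.encode (rep (cl (t, J))) with hc
  set b : ℕ → σ := fun m => (cl ((Encodable.decode (α := ℕ × ℤ) m).getD (0, 0))).2 with hb
  have hbc : ∀ o ∈ O, b (c o.1 o.2) = (cl o).2 := by
    intro o ho
    simp only [hb, hc, Encodable.encodek, Option.getD_some, Prod.mk.eta]
    rw [hrep1 o ho]
  have hcc : ∀ o ∈ O, ∀ o' ∈ O, (c o.1 o.2 = c o'.1 o'.2 ↔ cl o = cl o') := by
    intro o ho o' ho'
    constructor
    · intro h
      have h5 : rep (cl o) = rep (cl o') := by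
        have := Encodable.encode_injective h
        simpa using this
      rw [← hrep1 o ho, h5, hrep1 o' ho']
    · intro h
      simp only [hc]
      have e1 : ((o.1, o.2) : ℕ × ℤ) = o := rfl
      have e2 : ((o'.1, o'.2) : ℕ × ℤ) = o' := rfl
      rw [e1, e2, h]
  have hmemO : ∀ o ∈ O, mem' (cl o) o := by
    intro o ho
    obtain ⟨y, hy, rfl⟩ := mem_image.1 ho
    exact h2 y hy
  refine ⟨E, hEF, c, b, ?_, ?_, ?_, ?_⟩
  · intro J t ht
    have hto : (t, J) ∈ O := mem_alive_lc.1 ht
    obtain ⟨a1, a2, a3, a4⟩ := hmemO _ hto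
    have e := hbc _ hto
    simp only at e a1
    rw [← a1] at a2 a4
    rw [e]
    exact ⟨a4, a2, a3⟩
  · intro J t ht
    have hto : (t, J) ∈ O := mem_alive_lc.1 ht
    obtain ⟨a1, a2, a3, a4⟩ := hmemO _ hto
    have e := hbc _ hto
    simp only at e a1
    obtain ⟨y, hy, hye⟩ := mem_image.1 hto
    have h5 := h3 y hy
    rw [hye] at h5
    have e2 : vol (cl (t, J)) = valx G x n l J (b (c t J)) := by
      simp only [hvol]
      rw [if_pos a2, e, ← a1]
    rw [e2] at h5
    refine h5.trans ?_
    have h6 : ((alive E l J).filter fun s => c s J = c t J).card =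
        (O.filter fun o => o.2 = J ∧ c o.1 J = c t J).card := card_alive_filter E l J _
    have h7 : (O.filter fun o => cl o = cl (t, J)) ⊆
        O.filter fun o => o.2 = J ∧ c o.1 J = c t J := by
      intro o ho
      rw [mem_filter] at ho ⊢
      have h8 : o.2 = J := by
        have := (hmemO o ho.1).1
        rw [this, ho.2, ← a1]
      refine ⟨ho.1, h8, ?_⟩
      have := (hcc o ho.1 (t, J) hto).2 ho.2
      rw [h8] at this
      exact this
    have h9 : (O.filter fun o => cl o = cl (t, J)).card ≤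
        ((alive E l J).filter fun s => c s J = c t J).card := by
      rw [h6]
      exact card_le_card h7
    have h10 : ((O.filter fun o => cl o = cl (t, J)).card : ℝ) ≤
        (((alive E l J).filter fun s => c s J = c t J).card : ℝ) := by exact_mod_cast h9
    refine le_trans (le_of_eq ?_) (h10.trans (le_of_eq ?_)) <;> congr!
  · intro y hy z hz h
    exact h1 y hy z hz h
  · intro J s hs hP
    have h5 := h4 (J, s)
    have e2 : vol (J, s) = valx G x n l J s := by
      simp only [hvol]; rw [if_pos hs]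
    rw [e2] at h5
    refine le_trans ?_ h5.le
    have h6 : ((alive (F \ E) l J).filter fun t => G.mem n l J s t).card =
        (((F \ E).image (lc l)).filter fun o => o.2 = J ∧ G.mem n l J s o.1).card :=
      card_alive_filter _ l J _
    rw [h6]
    have h7 : (((F \ E).image (lc l)).filter fun o => o.2 = J ∧ G.mem n l J s o.1) ⊆
        ((F \ E).image (lc l)).filter fun o => mem' (J, s) o := by
      intro o ho
      rw [mem_filter] at ho ⊢
      exact ⟨ho.1, ho.2.1, hs, hP, ho.2.2⟩
    have h8 : ((((F \ E).image (lc l)).filter fun o => o.2 = J ∧ G.mem n l J s o.1).card : ℝ) ≤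
        ((((F \ E).image (lc l)).filter fun o => mem' (J, s) o).card : ℝ) := by
      exact_mod_cast card_le_card h7
    refine le_trans (le_of_eq ?_) (h8.trans (le_of_eq ?_)) <;> congr!

end Crest.Agent.R136.XA248
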