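import Mathlib
import Crest.Agent.R136.XA4_248

/-!
# R136, block U4 (helper248): counting lemmas for the step
-/

set_option autoImplicit false
set_option linter.unusedVariables false
set_option linter.unusedSectionVars false

open Finset Filter Topology

namespace Crest.Agent.R136.XA248

open Crest.Agent.R138.Ex926 Crest.Agent.R138.Dp76
open Crest.Agent.R138.Mk163 (zc zl rho alive own)
open Crest.Agent.R138.MkRef627 (lc mem_alive alive_mono own_one)
open MkA627 (Geo)

variable {σ κ : Type} [Fintype κ]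

open Classical in
/-- restriction to the classes of one shape -/
theorem restrict_shape {G : Geo σ κ} {n l : ℕ} {x : κ → ℝ} {P : (κ → ℝ) → Prop}
    {E : Finset (ℕ × ℝ)} {c : ℕ → ℤ → ℕ} {b : ℕ → σ} {T : ℝ}
    (h1 : ∀ J : ℤ, ∀ t ∈ alive E l J, G.mem n l J (b (c t J)) t ∧ G.adm n l J (b (c t J)) ∧
        P (wv G (b (c t J)))) (h2 : Low G x n l E c b T) (w : κ → ℝ) :
    IsCl G n l (E.filter fun y => wv G (b (c y.1 (zc l y.2))) = w) c b w ∧
    Low G x n l (E.filter fun y => wv G (b (c y.1 (zc l y.2))) = w) c b T ∧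
    ((E.filter fun y => wv G (b (c y.1 (zc l y.2))) = w).Nonempty → P w) := by
  set Ew := E.filter fun y => wv G (b (c y.1 (zc l y.2))) = w with hEw
  have key : ∀ J : ℤ, ∀ t, t ∈ alive Ew l J ↔ t ∈ alive E l J ∧ wv G (b (c t J)) = w := by
    intro J t
    rw [mem_alive, mem_alive]
    constructor
    · rintro ⟨y, hy, rfl, rfl⟩
      rw [hEw, mem_filter] at hy
      exact ⟨⟨y, hy.1, rfl, rfl⟩, hy.2⟩
    · rintro ⟨⟨y, hy, rfl, rfl⟩, h⟩
      exact ⟨y, mem_filter.2 ⟨hy, h⟩, rfl, rfl⟩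
  refine ⟨?_, ?_, ?_⟩
  · intro J t ht
    obtain ⟨a1, a2⟩ := (key J t).1 ht
    exact ⟨(h1 J t a1).1, (h1 J t a1).2.1, a2⟩
  · intro J t ht
    obtain ⟨a1, a2⟩ := (key J t).1 ht
    refine (h2 J t a1).trans ?_
    have h3 : ((alive E l J).filter fun s => c s J = c t J) ⊆
        (alive Ew l J).filter fun s => c s J = c t J := by
      intro s hs
      rw [mem_filter] at hs ⊢
      refine ⟨(key J s).2 ⟨hs.1, ?_⟩, hs.2⟩
      rw [hs.2]; exact a2
    exact_mod_cast card_le_card h3
  · rintro ⟨y, hy⟩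
    rw [hEw, mem_filter] at hy
    have h4 : y.1 ∈ alive E l (zc l y.2) := mem_alive.2 ⟨y, hy.1, rfl, rfl⟩
    have := (h1 _ _ h4).2.2
    rwa [hy.2] at this

open Classical in
/-- objects of level `l` of a family in one cell of level `i` -/
theorem card_obj_le {F : Finset (ℕ × ℝ)} {T : Finset ℕ} {i l : ℕ} (hil : i ≤ l)
    (hT : ∀ y ∈ F, y.1 ∈ T) (hcell : ∀ y ∈ F, ∀ z ∈ F, zc i y.2 = zc i z.2) :
    (F.image (lc l)).card ≤ T.card * 2 ^ (l - i) := by
  rcases F.eq_empty_or_nonempty with h0 | ⟨x0, hx0⟩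
  · rw [h0]; simp
  · have hsub : F.image (lc l) ⊆ T ×ˢ
        (Ico ((2:ℤ) ^ (l - i) * zc i x0.2) (2 ^ (l - i) * (zc i x0.2 + 1))) := by
      intro o ho
      obtain ⟨y, hy, rfl⟩ := mem_image.1 ho
      rw [mem_product]
      refine ⟨hT y hy, ?_⟩
      have := zc_Ico hil y.2
      rw [hcell y hy x0 hx0] at this
      exact this
    refine (card_le_card hsub).trans (le_of_eq ?_)
    rw [card_product, card_Ico_cell]

open Classical in
/-- incidences per object -/
theorem fib_le {I F : Finset (ℕ × ℝ)} {l hi : ℕ} (hl : l ≤ hi) (hFI : F ⊆ I)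
    (one : ∀ x ∈ I, ∀ y ∈ I, x.1 = y.1 → zc hi x.2 = zc hi y.2 → x = y) (o : ℕ × ℤ) :
    (F.filter fun y => lc l y = o).card ≤ 2 ^ (hi - l) := by
  have h1 : (F.filter fun y => lc l y = o).card =
      ((F.filter fun y => lc l y = o).image fun y => zc hi y.2).card := by
    rw [card_image_of_injOn]
    intro a ha c hc hac
    rw [Finset.mem_coe, mem_filter] at ha hc
    have e : a.1 = c.1 := by
      have := ha.2.trans hc.2.symm
      exact (Prod.mk.inj this).1
    exact one a (hFI ha.1) c (hFI hc.1) e hac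
  rw [h1, ← card_Ico_cell (hi - l) o.2]
  refine card_le_card fun k hk => ?_
  obtain ⟨y, hy, rfl⟩ := mem_image.1 hk
  rw [mem_filter] at hy
  have := zc_Ico hl y.2
  have e : zc l y.2 = o.2 := by rw [← hy.2]; rfl
  rwa [e] at this

open Classical in
theorem card_le_obj {I F : Finset (ℕ × ℝ)} {l hi : ℕ} (hl : l ≤ hi) (hFI : F ⊆ I)
    (one : ∀ x ∈ I, ∀ y ∈ I, x.1 = y.1 → zc hi x.2 = zc hi y.2 → x = y) :
    F.card ≤ (F.image (lc l)).card * 2 ^ (hi - l) := by
  rw [card_eq_sum_card_image (lc l) F]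
  refine (Finset.sum_le_card_nsmul _ _ _ fun o _ => fib_le hl hFI one o).trans ?_
  rw [smul_eq_mul]

open Classical in
/-- number of lines, from the own counts -/
theorem lines_le {I : Finset (ℕ × ℝ)} {lo hi : ℕ} {m : ℝ}
    (hown : ∀ x ∈ I, m ≤ ((own I lo hi x).card : ℝ)) :
    m * ((I.image Prod.fst).card : ℝ) ≤ (I.card : ℝ) := by
  have e : (I.card : ℝ) = ∑ t ∈ I.image Prod.fst, ((I.filter fun y => y.1 = t).card : ℝ) := by
    rw [card_eq_sum_card_image Prod.fst I]; push_cast; rfl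
  rw [e]
  have : ∑ t ∈ I.image Prod.fst, m ≤
      ∑ t ∈ I.image Prod.fst, ((I.filter fun y => y.1 = t).card : ℝ) := by
    refine sum_le_sum fun t ht => ?_
    obtain ⟨x, hx, rfl⟩ := mem_image.1 ht
    refine (hown x hx).trans ?_
    unfold own
    have h1 : ((I.filter fun y => y.1 = x.1 ∧ zc lo y.2 = zc lo x.2).image
        fun y => zc hi y.2).card ≤ (I.filter fun y => y.1 = x.1).card := by
      refine card_image_le.trans (card_le_card fun y hy => ?_)
      rw [mem_filter] at hy ⊢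
      exact ⟨hy.1, hy.2.1⟩
    exact_mod_cast h1
  rw [sum_const, nsmul_eq_mul] at this
  linarith

open Classical in
/-- **averaging over the cells of the level `l0`**: a part `Q ⊆ F` which is dense relative to the
complete shading has a cell where it is dense relative to the complete shading of the lines of `F`
alive there. -/
theorem exists_cell {F Q : Finset (ℕ × ℝ)} {lo l0 hi : ℕ} (h0 : lo ≤ l0) (h1 : l0 ≤ hi)
    {T : Finset ℕ} (hT : ∀ y ∈ F, y.1 ∈ T) (hcell : ∀ y ∈ F, ∀ z ∈ F, zc lo y.2 = zc lo z.2)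
    (hQF : Q ⊆ F) (hQ : Q.Nonempty) {α : ℝ} (hα : 0 ≤ α)
    (hd : α * ((T.card : ℝ) * 2 ^ (hi - lo)) ≤ (Q.card : ℝ)) :
    ∃ x ∈ Q, α * ((((F.filter fun y => zc l0 y.2 = zc l0 x.2).image Prod.fst).card : ℝ) *
      2 ^ (hi - l0)) ≤ ((Q.filter fun y => zc l0 y.2 = zc l0 x.2).card : ℝ) := by
  by_contra hcon
  push Not at hcon
  set S := Q.image fun y => zc l0 y.2 with hS
  have hSne : S.Nonempty := hQ.image _
  have e1 : (Q.card : ℝ) = ∑ Z ∈ S, ((Q.filter fun y => zc l0 y.2 = Z).card : ℝ) := by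
    rw [card_eq_sum_card_image (fun y : ℕ × ℝ => zc l0 y.2) Q]; push_cast; rfl
  have h2 : (Q.card : ℝ) < ∑ Z ∈ S,
      α * ((((F.filter fun y => zc l0 y.2 = Z).image Prod.fst).card : ℝ) * 2 ^ (hi - l0)) := by
    rw [e1]
    refine sum_lt_sum_of_nonempty hSne fun Z hZ => ?_
    obtain ⟨x, hx, rfl⟩ := mem_image.1 hZ
    exact hcon x hx
  have h3 : ∑ Z ∈ S, (((F.filter fun y => zc l0 y.2 = Z).image Prod.fst).card : ℝ) ≤
      (T.card : ℝ) * 2 ^ (l0 - lo) := by
    have h4 : ∑ Z ∈ S, ((F.filter fun y => zc l0 y.2 = Z).image Prod.fst).card ≤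
        (F.image (lc l0)).card := by
      have e2 : ∀ Z : ℤ, ((F.filter fun y => zc l0 y.2 = Z).image Prod.fst).card =
          ((F.image (lc l0)).filter fun o => o.2 = Z).card := by
        intro Z
        have := card_alive_filter F l0 Z (fun _ => True)
        simp only [filter_true, and_true] at this
        unfold alive at this
        convert this
      rw [sum_congr rfl fun Z _ => e2 Z]
      have hsub : S ⊆ (F.image (lc l0)).image Prod.snd := by
        intro Z hZ
        obtain ⟨x, hx, rfl⟩ := mem_image.1 hZ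
        exact mem_image.2 ⟨lc l0 x, mem_image_of_mem _ (hQF hx), rfl⟩
      calc ∑ Z ∈ S, ((F.image (lc l0)).filter fun o => o.2 = Z).card
          ≤ ∑ Z ∈ (F.image (lc l0)).image Prod.snd,
              ((F.image (lc l0)).filter fun o => o.2 = Z).card :=
            sum_le_sum_of_subset_of_nonneg hsub fun _ _ _ => Nat.zero_le _
        _ = (F.image (lc l0)).card := (card_eq_sum_card_image Prod.snd _).symm
    have h5 := card_obj_le h0 hT hcell
    exact_mod_cast h4.trans h5
  have h6 : (Q.card : ℝ) < α * ((T.card : ℝ) * 2 ^ (hi - lo)) := by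
    refine h2.trans_le ?_
    have e3 : (2:ℝ) ^ (hi - lo) = 2 ^ (l0 - lo) * 2 ^ (hi - l0) := by
      rw [← pow_add]; congr 1; omega
    rw [← mul_sum, ← sum_mul, e3, ← mul_assoc (T.card : ℝ)]
    refine mul_le_mul_of_nonneg_left ?_ hα
    exact mul_le_mul_of_nonneg_right h3 (by positivity)
  linarith

end Crest.Agent.R136.XA248
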