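import Mathlib
import Crest.Agent.R136.XA5_248

/-!
# R136, block U4 (helper248): the greedy parts of the step cover half of the family
-/

set_option autoImplicit false
set_option linter.unusedVariables false
set_option linter.unusedSectionVars false

open Finset Filter Topology

namespace Crest.Agent.R136.XA248

open Crest.Agent.R138.Ex926 Crest.Agent.R138.Dp76
open Crest.Agent.R138.Mk163 (zc zl rho alive own)
open Crest.Agent.R138.MkRef627 (lc mem_alive alive_mono own_one)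
open MkA627 (Geo)

variable {σ κ : Type} [Fintype κ]

open Classical in
/-- conclusion of `leafFin` at the stage `n` -/
def FinAt (G : Geo σ κ) (R : Rel κ) (I : Finset (ℕ × ℝ)) (lo hi n : ℕ) (x : κ → ℝ)
    (β' η δ : ℝ) : Prop :=
  ∀ i j : ℕ, lo ≤ i → i < j → j ≤ hi → η * ((hi : ℝ) - lo) ≤ (j : ℝ) - i →
      ∀ E F : Finset (ℕ × ℝ), E ⊆ F → F ⊆ I → E.Nonempty →
      (∀ y ∈ F, ∀ z ∈ F, zc i y.2 = zc i z.2) →
      (2:ℝ) ^ (-(δ * ((hi : ℝ) - lo))) * (((F.image Prod.fst).card : ℝ) * 2 ^ (j - i)) ≤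
        ((E.image (lc j)).card : ℝ) →
      ∀ (c : ℕ → ℤ → ℕ) (b : ℕ → σ) (w : κ → ℝ) (D0 D1 : ℝ), 0 < D0 → 0 < D1 →
        IsCl G n j F c b w → Low G x n j F c b D1 →
        (∀ i' : ℕ, i ≤ i' → (i' : ℝ) ≤ i + η * ((hi : ℝ) - lo) → Up G R x n i' E j w D0) →
        D1 ≤ D0 * (2:ℝ) ^ ((β' + η) * ((j : ℝ) - i))

open Classical in
/-- **the greedy parts cover half** -/
theorem cover_half {G : Geo σ κ} {R : Rel κ} {I F : Finset (ℕ × ℝ)} {lo hi n : ℕ} {x : κ → ℝ}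
    {β' η δ : ℝ} (hfin : FinAt G R I lo hi n x β' η δ) (hη : 0 ≤ η)
    (one : ∀ x ∈ I, ∀ y ∈ I, x.1 = y.1 → zc hi x.2 = zc hi y.2 → x = y)
    (hcell : ∀ y ∈ I, ∀ z ∈ I, zc lo y.2 = zc lo z.2) (hFI : F ⊆ I) (hF : F.Nonempty)
    (hd : 2 * (2:ℝ) ^ (-(δ * ((hi : ℝ) - lo))) *
      (((I.image Prod.fst).card : ℝ) * 2 ^ (hi - lo)) ≤ (F.card : ℝ))
    {l0 l' : ℕ} (h0 : lo ≤ l0) (h1 : l0 < l') (h2 : l' ≤ hi)
    (hw : η * ((hi : ℝ) - lo) ≤ (l' : ℝ) - l0) {c' : ℕ → ℤ → ℕ} {b' : ℕ → σ} {w' : κ → ℝ}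
    (hcl : IsCl G n l' F c' b' w') {D1 T : ℝ} (hD1 : 0 < D1) (hT : 0 < T)
    (hlow : Low G x n l' F c' b' D1) (hTD : T * (2:ℝ) ^ ((β' + η) * ((l' : ℝ) - l0)) < D1)
    (Ls : Finset ℕ) (hLs : ∀ l : ℕ, l0 ≤ l → (l : ℝ) ≤ l0 + η * ((hi : ℝ) - lo) → l ∈ Ls)
    (E : ℕ → Finset (ℕ × ℝ)) (hE : ∀ l ∈ Ls, Up G R x n l (F \ E l) l' w' T) :
    (F.card : ℝ) ≤ 2 * (((Ls.biUnion E) ∩ F).card : ℝ) := by
  by_contra hcon
  push Not at hcon
  set Q := F \ (Ls.biUnion E) with hQ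
  have hQF : Q ⊆ F := sdiff_subset
  have hcardQ : (F.card : ℝ) / 2 < (Q.card : ℝ) := by
    have h3 : ((Ls.biUnion E) ∩ F).card + Q.card = F.card := by
      rw [hQ, inter_comm, card_inter_add_card_sdiff]
    have h4 : ((((Ls.biUnion E) ∩ F).card : ℝ)) + (Q.card : ℝ) = (F.card : ℝ) := by
      exact_mod_cast h3
    linarith
  have hFc : (0:ℝ) < F.card := by exact_mod_cast card_pos.2 hF
  have hQne : Q.Nonempty := by
    rw [← card_pos]
    have : (0:ℝ) < Q.card := by linarith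
    exact_mod_cast this
  set α : ℝ := (2:ℝ) ^ (-(δ * ((hi : ℝ) - lo))) with hα
  have hα0 : 0 < α := Real.rpow_pos_of_pos two_pos _
  obtain ⟨x0, hx0, hx1⟩ := exists_cell (F := F) (Q := Q) (lo := lo) (l0 := l0) (hi := hi)
    (T := I.image Prod.fst) h0 (h1.le.trans h2) (fun y hy => mem_image_of_mem _ (hFI hy))
    (fun y hy z hz => hcell y (hFI hy) z (hFI hz)) hQF hQne hα0.le (by linarith)
  set Z := zc l0 x0.2 with hZ
  set Fz := F.filter fun y => zc l0 y.2 = Z with hFz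
  set Qz := Q.filter fun y => zc l0 y.2 = Z with hQz
  have hQzF : Qz ⊆ Fz := by
    intro y hy
    rw [hQz, mem_filter] at hy
    rw [hFz, mem_filter]
    exact ⟨hQF hy.1, hy.2⟩
  have hFzI : Fz ⊆ I := (filter_subset _ _).trans hFI
  have hQzne : Qz.Nonempty := ⟨x0, mem_filter.2 ⟨hx0, rfl⟩⟩
  have hdens : α * (((Fz.image Prod.fst).card : ℝ) * 2 ^ (l' - l0)) ≤
      ((Qz.image (lc l')).card : ℝ) := by
    have h5 := card_le_obj (I := I) (F := Qz) (l := l') (hi := hi) h2 (hQzF.trans hFzI) one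
    have h5' : (Qz.card : ℝ) ≤ ((Qz.image (lc l')).card : ℝ) * 2 ^ (hi - l') := by
      exact_mod_cast h5
    have h6 := hx1.trans h5'
    have e : (2:ℝ) ^ (hi - l0) = 2 ^ (l' - l0) * 2 ^ (hi - l') := by
      rw [← pow_add]; congr 1; omega
    rw [e] at h6
    have hp : (0:ℝ) < 2 ^ (hi - l') := by positivity
    refine le_of_mul_le_mul_right (le_trans (le_of_eq ?_) h6) hp
    ring
  have hres := hfin l0 l' h0 h1 h2 hw Qz Fz hQzF hFzI hQzne
    (fun y hy z hz => by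
      rw [hFz, mem_filter] at hy hz
      rw [hy.2, hz.2]) hdens c' b' w' T D1 hT hD1 (hcl.mono (filter_subset _ _)) (by
      intro J t ht
      have ht' : t ∈ alive F l' J := alive_mono (filter_subset _ _) _ _ ht
      refine (hlow J t ht').trans ?_
      have hsub : ((alive F l' J).filter fun s => c' s J = c' t J) ⊆
          (alive Fz l' J).filter fun s => c' s J = c' t J := by
        intro s hs
        rw [mem_filter] at hs ⊢
        refine ⟨?_, hs.2⟩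
        obtain ⟨y, hy, hy1, hy2⟩ := mem_alive.1 hs.1
        obtain ⟨z, hz, hz1, hz2⟩ := mem_alive.1 ht
        rw [hFz, mem_filter] at hz
        refine mem_alive.2 ⟨y, ?_, hy1, hy2⟩
        rw [hFz, mem_filter]
        refine ⟨hy, ?_⟩
        rw [← hz.2]
        exact zc_nest h1.le (hy2.trans hz2.symm)
      exact_mod_cast card_le_card hsub) (by
      intro i' hi1 hi2
      have hmem := hLs i' hi1 hi2
      refine (hE i' hmem).mono ?_
      intro y hy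
      obtain ⟨hy1, -⟩ := mem_filter.1 hy
      obtain ⟨hy2, hy3⟩ := mem_sdiff.1 hy1
      exact mem_sdiff.2 ⟨hy2, fun h => hy3 (mem_biUnion.2 ⟨i', hmem, h⟩)⟩)
  linarith

end Crest.Agent.R136.XA248
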