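import Mathlib
import Crest.Agent.R136.XA6_248

/-!
# R136, block U4 (helper248): the finite step
-/

set_option autoImplicit false
set_option linter.unusedVariables false
set_option linter.unusedSectionVars false

open Finset Filter Topology

namespace Crest.Agent.R136.XA248

open Crest.Agent.R138.Ex926 Crest.Agent.R138.Dp76
open Crest.Agent.R138.Mk163 (zc zl rho alive own)
open Crest.Agent.R138.MkRef627 (lc mem_alive alive_mono own_one)
open MkA627 (Geo)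

variable {σ κ : Type} [Fintype κ]

open Classical in
/-- **the finite step** (all losses explicit). -/
theorem step_fin {G : Geo σ κ} {R Rc : Rel κ} {I F : Finset (ℕ × ℝ)} {Sh : Finset (κ → ℝ)}
    {lo hi n : ℕ} {x : κ → ℝ} {β β' η δ ε D0 : ℝ} {wt : κ → ℝ}
    (hfin : FinAt G Rc I lo hi n x β' η δ) (hη : 0 ≤ η)
    (one : ∀ x ∈ I, ∀ y ∈ I, x.1 = y.1 → zc hi x.2 = zc hi y.2 → x = y)
    (hcell : ∀ y ∈ I, ∀ z ∈ I, zc lo y.2 = zc lo z.2)
    (sh : ∀ i J s, G.adm n i J s → wv G s ∈ Sh) (shpos : ∀ w ∈ Sh, ∀ k, 0 < w k)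
    (vpos : ∀ i J s, G.adm n i J s → 0 < G.val n i J s) (hD0 : 0 < D0)
    (hR : RTrans R) (hRc : ∀ i w j w', i ≤ j → Rc i w j w' → R i w j w')
    (hFI : F ⊆ I) (hF : F.Nonempty)
    (hd : 2 * (2:ℝ) ^ (-(δ * ((hi : ℝ) - lo))) *
      (((I.image Prod.fst).card : ℝ) * 2 ^ (hi - lo)) ≤ (F.card : ℝ))
    (hdm : ∀ i : ℕ, lo ≤ i → i ≤ hi → Up G R 0 n i F hi wt
      (D0 * (2:ℝ) ^ (β * ((i : ℝ) - lo)) * (2:ℝ) ^ (ε * ((hi : ℝ) - lo))))
    {l0 l' : ℕ} (h0 : lo ≤ l0) (h1 : l0 < l') (h2 : l' ≤ hi)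
    (hw : η * ((hi : ℝ) - lo) ≤ (l' : ℝ) - l0) {c' : ℕ → ℤ → ℕ} {b' : ℕ → σ} {w' : κ → ℝ}
    (hcl : IsCl G n l' F c' b' w') (hrng : R l' w' hi wt)
    (hlow : Low G 0 n l' F c' b'
      (D0 * (2:ℝ) ^ (β * ((l' : ℝ) - lo)) * (2:ℝ) ^ (-(ε * ((hi : ℝ) - lo))))) :
    ∃ (l : ℕ) (J' : Finset (ℕ × ℝ)) (c : ℕ → ℤ → ℕ) (b : ℕ → σ) (w : κ → ℝ),
      l0 ≤ l ∧ (l : ℝ) ≤ l0 + η * ((hi : ℝ) - lo) ∧ l ≤ l' ∧ J' ⊆ F ∧ J'.Nonempty ∧
      (F.card : ℝ) ≤ 2 * (η * ((hi : ℝ) - lo) + 1) * (Sh.card : ℝ) * (J'.card : ℝ) ∧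
      IsCl G n l J' c b w ∧ Rc l w l' w' ∧ (∀ k, 0 < w k) ∧ (∀ k, 0 < w' k) ∧
      Low G 0 n l J' c b (D0 * (2:ℝ) ^ (β * ((l' : ℝ) - lo) - ε * ((hi : ℝ) - lo) -
        (β' + η) * ((l' : ℝ) - l0) - 1 + ∑ k, x k * shp l w l' w' k)) ∧
      ∑ k, x k * shp l w l' w' k ≤ (β' + η) * ((l' : ℝ) - l0) - β * ((l' : ℝ) - l) +
        2 * (ε * ((hi : ℝ) - lo)) + 1 := by
  set M : ℝ := (hi : ℝ) - lo with hM
  have hM0 : 0 ≤ M := by
    have : (lo : ℝ) ≤ hi := by exact_mod_cast (h0.trans (h1.le.trans h2))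
    linarith
  -- widths of the classes of level `l'`
  obtain ⟨y0, hy0⟩ := hF
  have hal : y0.1 ∈ alive F l' (zc l' y0.2) := mem_alive.2 ⟨y0, hy0, rfl, rfl⟩
  obtain ⟨-, hadm0, hwv0⟩ := hcl _ _ hal
  have hw'pos : ∀ k, 0 < w' k := by
    have := shpos _ (sh _ _ _ hadm0)
    rwa [hwv0] at this
  have : Nonempty σ := ⟨b' 0⟩
  have hrew' : 0 < rew l' w' x := rew_pos hw'pos
  set Kc : ℝ := D0 * (2:ℝ) ^ (β * ((l' : ℝ) - lo)) * (2:ℝ) ^ (-(ε * M)) with hKc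
  have hKc0 : 0 < Kc := by positivity
  set D1 : ℝ := Kc / rew l' w' x with hD1
  have hD10 : 0 < D1 := div_pos hKc0 hrew'
  set E1 : ℝ := (β' + η) * ((l' : ℝ) - l0) with hE1
  set T : ℝ := D1 * (2:ℝ) ^ (-(E1 + 1)) with hT
  have hT0 : 0 < T := mul_pos hD10 (Real.rpow_pos_of_pos two_pos _)
  have hlowx : Low G x n l' F c' b' D1 := by
    intro J t ht
    refine le_trans (le_of_eq ?_) (hlow J t ht)
    rw [valx_zero, valx, (hcl J t ht).2.2, hD1]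
    field_simp
  have hTD : T * (2:ℝ) ^ ((β' + η) * ((l' : ℝ) - l0)) < D1 := by
    rw [← hE1, hT, mul_assoc, ← Real.rpow_add two_pos]
    have e : -(E1 + 1) + E1 = (-1 : ℝ) := by ring
    rw [e, Real.rpow_neg_one]
    linarith
  set Ls : Finset ℕ := Finset.Icc l0 (l0 + ⌊η * M⌋₊) with hLs
  have hηM : 0 ≤ η * M := mul_nonneg hη hM0
  have hLs1 : ∀ l ∈ Ls, l0 ≤ l ∧ (l : ℝ) ≤ l0 + η * M := by
    intro l hl
    rw [hLs, Finset.mem_Icc] at hl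
    refine ⟨hl.1, ?_⟩
    have h3 : (l : ℝ) ≤ ((l0 + ⌊η * M⌋₊ : ℕ) : ℝ) := by exact_mod_cast hl.2
    have h4 := Nat.floor_le hηM
    push_cast at h3
    linarith
  have hLs2 : ∀ l : ℕ, l0 ≤ l → (l : ℝ) ≤ l0 + η * M → l ∈ Ls := by
    intro l hl1 hl2
    rw [hLs, Finset.mem_Icc]
    refine ⟨hl1, ?_⟩
    have h3 : ((l - l0 : ℕ) : ℝ) ≤ η * M := by
      rw [Nat.cast_sub hl1]; linarith
    have h4 := Nat.le_floor h3
    omega
  have hLs3 : ∀ l ∈ Ls, l ≤ l' := by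
    intro l hl
    have h3 := (hLs1 l hl).2
    have : (l : ℝ) ≤ l' := by linarith
    exact_mod_cast this
  -- greedy at all levels of `Ls`
  have hgr := fun l => exists_greedy G n l x (fun w => Rc l w l' w') F hT0 (fun J s hs =>
    mul_pos (vpos l J s hs) (rew_pos (shpos _ (sh l J s hs))))
  choose E hEF c b hE1' hE2 hE3 hE4 using hgr
  have hcov := cover_half hfin hη one hcell hFI ⟨y0, hy0⟩ hd h0 h1 h2 hw hcl hD10 hT0 hlowx hTD Ls
    hLs2 E (fun l hl => by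
      intro J s hs hP
      have := hE4 l J s hs hP
      convert this)
  -- pigeonhole
  set S : Finset (ℕ × (κ → ℝ)) := Ls ×ˢ Sh with hS
  set Ew : ℕ × (κ → ℝ) → Finset (ℕ × ℝ) := fun p =>
    (E p.1).filter fun y => wv G (b p.1 (c p.1 y.1 (zc p.1 y.2))) = p.2 with hEw
  have hsub : (Ls.biUnion E) ∩ F ⊆ S.biUnion Ew := by
    intro y hy
    obtain ⟨hy1, -⟩ := mem_inter.1 hy
    obtain ⟨l, hl, hyl⟩ := mem_biUnion.1 hy1
    have hyal : y.1 ∈ alive (E l) l (zc l y.2) := mem_alive.2 ⟨y, hyl, rfl, rfl⟩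
    refine mem_biUnion.2 ⟨(l, wv G (b l (c l y.1 (zc l y.2)))), ?_, ?_⟩
    · rw [hS, mem_product]
      exact ⟨hl, sh _ _ _ (hE1' l _ _ hyal).2.1⟩
    · rw [hEw]
      exact mem_filter.2 ⟨hyl, rfl⟩
  have hFc : (0:ℝ) < F.card := by exact_mod_cast card_pos.2 ⟨y0, hy0⟩
  have hcard1 : (F.card : ℝ) ≤ 2 * ((S.biUnion Ew).card : ℝ) := by
    refine hcov.trans ?_
    have : (((Ls.biUnion E) ∩ F).card : ℝ) ≤ ((S.biUnion Ew).card : ℝ) := by
      exact_mod_cast card_le_card hsub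
    linarith
  have hSne : S.Nonempty := by
    rw [nonempty_iff_ne_empty]
    intro h
    rw [h, biUnion_empty, card_empty, Nat.cast_zero] at hcard1
    linarith
  obtain ⟨p, hp, hpmax⟩ := exists_max_image S (fun p => (Ew p).card) hSne
  have hcard2 : ((S.biUnion Ew).card : ℝ) ≤ (S.card : ℝ) * ((Ew p).card : ℝ) := by
    have h3 : (S.biUnion Ew).card ≤ S.card * (Ew p).card := by
      refine card_biUnion_le.trans ?_
      refine (sum_le_card_nsmul _ _ _ hpmax).trans ?_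
      rw [smul_eq_mul]
    exact_mod_cast h3
  obtain ⟨hp1, hp2⟩ := mem_product.1 hp
  have hLsc : (Ls.card : ℝ) ≤ η * M + 1 := by
    have h3 : Ls.card = ⌊η * M⌋₊ + 1 := by
      rw [hLs, Nat.card_Icc]; omega
    rw [h3]; push_cast
    have := Nat.floor_le hηM
    linarith
  have hcardF : (F.card : ℝ) ≤ 2 * (η * M + 1) * (Sh.card : ℝ) * ((Ew p).card : ℝ) := by
    have h3 : (S.card : ℝ) = (Ls.card : ℝ) * (Sh.card : ℝ) := by
      rw [hS, card_product]; push_cast; rfl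
    have h4 : (S.card : ℝ) * ((Ew p).card : ℝ) ≤
        (η * M + 1) * (Sh.card : ℝ) * ((Ew p).card : ℝ) := by
      rw [h3]
      have a1 : (0:ℝ) ≤ Sh.card := Nat.cast_nonneg _
      have a2 : (0:ℝ) ≤ (Ew p).card := Nat.cast_nonneg _
      exact mul_le_mul_of_nonneg_right (mul_le_mul_of_nonneg_right hLsc a1) a2
    linarith
  have hEne : (Ew p).Nonempty := by
    rw [← card_pos]
    by_contra h3
    have h4 : (Ew p).card = 0 := by omega
    rw [h4] at hcardF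
    push_cast at hcardF
    linarith
  obtain ⟨hcl1, hlow1, hP1⟩ := restrict_shape (P := fun w => Rc p.1 w l' w') (hE1' p.1) (hE2 p.1) p.2
  have hcl1' : IsCl G n p.1 (Ew p) (c p.1) (b p.1) p.2 := hcl1
  have hlow1' : Low G x n p.1 (Ew p) (c p.1) (b p.1) T := hlow1
  have hRcp : Rc p.1 p.2 l' w' := hP1 hEne
  have hwpos : ∀ k, 0 < p.2 k := shpos _ hp2
  set s : ℝ := ∑ k, x k * shp p.1 p.2 l' w' k with hs
  have hTrew : T * rew p.1 p.2 x = D0 * (2:ℝ) ^ (β * ((l' : ℝ) - lo) - ε * M - E1 - 1 + s) := by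
    rw [rew_div hwpos hw'pos, ← hs, hT, hD1, hKc]
    have e : β * ((l' : ℝ) - lo) - ε * M - E1 - 1 + s =
        β * ((l' : ℝ) - lo) + (-(ε * M)) + (-(E1 + 1)) + s := by ring
    rw [e, Real.rpow_add two_pos, Real.rpow_add two_pos, Real.rpow_add two_pos]
    field_simp
  have hlow0 : Low G 0 n p.1 (Ew p) (c p.1) (b p.1)
      (D0 * (2:ℝ) ^ (β * ((l' : ℝ) - lo) - ε * M - E1 - 1 + s)) := by
    intro J t ht
    refine le_trans (le_of_eq ?_) (hlow1' J t ht)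
    rw [valx_zero, valx, (hcl1' J t ht).2.2, ← hTrew]
    ring
  refine ⟨p.1, Ew p, c p.1, b p.1, p.2, (hLs1 _ hp1).1, (hLs1 _ hp1).2, hLs3 _ hp1,
    (filter_subset _ _).trans (hEF _), hEne, hcardF, hcl1', hRcp, hwpos, hw'pos, hlow0, ?_⟩
  -- shape inequality
  obtain ⟨y1, hy1⟩ := hEne
  have hal1 : y1.1 ∈ alive (Ew p) p.1 (zc p.1 y1.2) := mem_alive.2 ⟨y1, hy1, rfl, rfl⟩
  set J1 := zc p.1 y1.2 with hJ1
  obtain ⟨hm1, ha1, hv1⟩ := hcl1' J1 y1.1 hal1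
  have hup := hdm p.1 (h0.trans (hLs1 _ hp1).1) ((hLs3 _ hp1).trans h2) J1 _ ha1 (by
    rw [hv1]
    exact hR _ _ _ _ _ _ (hLs3 _ hp1) h2 (hRc _ _ _ _ (hLs3 _ hp1) hRcp) hrng)
  have hlw := hlow0 J1 y1.1 hal1
  have hle : (((alive (Ew p) p.1 J1).filter fun s => c p.1 s J1 = c p.1 y1.1 J1).card : ℝ) ≤
      (((alive F p.1 J1).filter fun t => G.mem n p.1 J1 (b p.1 (c p.1 y1.1 J1)) t).card : ℝ) := by
    have : ((alive (Ew p) p.1 J1).filter fun s => c p.1 s J1 = c p.1 y1.1 J1) ⊆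
        (alive F p.1 J1).filter fun t => G.mem n p.1 J1 (b p.1 (c p.1 y1.1 J1)) t := by
      intro t ht
      rw [mem_filter] at ht ⊢
      refine ⟨alive_mono ((filter_subset _ _).trans (hEF _)) _ _ ht.1, ?_⟩
      have := (hcl1' J1 t ht.1).1
      rwa [ht.2] at this
    exact_mod_cast card_le_card this
  have hchain := (hlw.trans hle).trans hup
  rw [valx_zero] at hchain
  have hvp := vpos _ _ _ ha1
  have h5 := le_of_mul_le_mul_right hchain hvp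
  have h6 : (2:ℝ) ^ (β * ((l' : ℝ) - lo) - ε * M - E1 - 1 + s) ≤
      (2:ℝ) ^ (β * ((p.1 : ℝ) - lo) + ε * M) := by
    rw [mul_assoc, ← Real.rpow_add two_pos] at h5
    exact le_of_mul_le_mul_left h5 hD0
  have h7 := (Real.rpow_le_rpow_left_iff (one_lt_two)).1 h6
  linarith

end Crest.Agent.R136.XA248
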