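import Mathlib
import Crest.Agent.R136.XA7_248

/-!
# R136, block U4 (helper248): `LeafStepR`
-/

set_option autoImplicit false
set_option linter.unusedVariables false
set_option linter.unusedSectionVars false

open Finset Filter Topology

namespace Crest.Agent.R136.XA248

open Crest.Agent.R138.Ex926 Crest.Agent.R138.Dp76
open Crest.Agent.R138.Mk163 (zc zl rho alive own)
open Crest.Agent.R138.MkRef627 (lc mem_alive alive_mono own_one)
open MkA627 (Geo)

section base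

variable {B : Base} {lo hi : ℕ → ℕ}

/-- the base in terms of `2` -/
theorem d_eq (hb : ∀ n, B.d n = (1 / 2 : ℝ) ^ (hi n - lo n)) (hl : ∀ n, lo n < hi n) (n : ℕ)
    (a : ℝ) : B.d n ^ a = (2:ℝ) ^ (-(a * ((hi n : ℝ) - lo n))) := by
  have e : ((hi n - lo n : ℕ) : ℝ) = (hi n : ℝ) - lo n := Nat.cast_sub (hl n).le
  rw [hb n, ← Real.rpow_natCast, ← Real.rpow_mul (by norm_num), e, one_div,
    Real.inv_rpow two_pos.le, ← Real.rpow_neg two_pos.le]
  congr 1; ring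

theorem L_eq (hb : ∀ n, B.d n = (1 / 2 : ℝ) ^ (hi n - lo n)) (hl : ∀ n, lo n < hi n) (n : ℕ) :
    B.L n = ((hi n : ℝ) - lo n) * Real.log 2 := by
  have e : ((hi n - lo n : ℕ) : ℝ) = (hi n : ℝ) - lo n := Nat.cast_sub (hl n).le
  unfold Base.L
  rw [hb n, Real.log_pow, e, one_div, Real.log_inv]
  ring

theorem M_tendsto (hb : ∀ n, B.d n = (1 / 2 : ℝ) ^ (hi n - lo n)) (hl : ∀ n, lo n < hi n) :
    Tendsto (fun n => (hi n : ℝ) - lo n) U atTop := by
  have h1 := B.L_tendsto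
  have h2 : B.L = fun n => ((hi n : ℝ) - lo n) * Real.log 2 := funext (L_eq hb hl)
  rw [h2] at h1
  have h3 : (0:ℝ) < Real.log 2 := Real.log_pos one_lt_two
  exact (tendsto_mul_const_atTop_of_pos h3).1 h1

theorem M_pos (hl : ∀ n, lo n < hi n) (n : ℕ) : (0:ℝ) < (hi n : ℝ) - lo n := by
  have : (lo n : ℝ) < hi n := by exact_mod_cast hl n
  linarith

end base

/-- `2 (a M + 1) ≤ 2 ^ (ε M)` for large `M` -/
theorem ev_poly {a ε : ℝ} (ha : 0 ≤ a) (hε : 0 < ε) :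
    ∀ᶠ M : ℝ in atTop, 2 * (a * M + 1) ≤ (2:ℝ) ^ (ε * M) := by
  have hl : (0:ℝ) < Real.log 2 := Real.log_pos one_lt_two
  set c : ℝ := ε * Real.log 2 with hc
  have hc0 : 0 < c := mul_pos hε hl
  filter_upwards [eventually_ge_atTop (max 1 (4 * (a + 1) / c ^ 2))] with M hM
  have h1 : 1 ≤ M := le_of_max_le_left hM
  have h2 : 4 * (a + 1) / c ^ 2 ≤ M := le_of_max_le_right hM
  have hc2 : 0 < c ^ 2 := by positivity
  rw [div_le_iff₀ hc2] at h2
  have h3 : (2:ℝ) ^ (ε * M) = Real.exp (c * M) := by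
    rw [Real.rpow_def_of_pos two_pos, hc]; congr 1; ring
  rw [h3]
  have h4 := Real.quadratic_le_exp_of_nonneg (show 0 ≤ c * M by positivity)
  refine le_trans ?_ h4
  have h5 : 2 * (a * M + 1) ≤ 2 * ((a + 1) * M) := by nlinarith
  have h6 : 2 * ((a + 1) * M) ≤ (c * M) ^ 2 / 2 := by
    have : 4 * (a + 1) * M ≤ M * c ^ 2 * M := mul_le_mul_of_nonneg_right h2 (by linarith)
    nlinarith
  have h7 : 0 ≤ c * M := by positivity
  linarith

open Classical in
/-- **(STEP), fixed change of rewards.** -/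
theorem leafStepR : LeafStepR := by
  intro σ κ _ B I G R Rc Sh lo hi D0 β Cu C ct bt wt x β' hI hR hC hRc hU J hJ hDM v' l' c' b' w'
    hSt v hv hvv' η hη
  have hMt := M_tendsto hI.base hI.lohi
  have hMp := M_pos hI.lohi
  have hv1 : v' ≤ 1 := by
    refine le_of_tendsto hSt.lim ?_
    filter_upwards [hSt.le_hi] with n hn
    rw [div_le_one (hMp n)]
    have : (l' n : ℝ) ≤ hi n := by exact_mod_cast hn
    linarith
  set b0 : ℝ := |β' - β| with hb0
  have hb00 : 0 ≤ b0 := abs_nonneg _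
  set Cx : ℝ := ∑ k, |x k| with hCx
  have hCx0 : 0 ≤ Cx := Finset.sum_nonneg fun k _ => abs_nonneg _
  set A0 : ℝ := b0 + C * Cx with hA0
  have hA00 : 0 ≤ A0 := by positivity
  have hβ := hI.βpos
  set g : ℝ := v' - v with hg
  have hg0 : 0 < g := by linarith
  have hg1 : g ≤ 1 := by linarith
  set η' : ℝ := min (g / 4) (η / (16 * (1 + β))) with hη'
  have hη'0 : 0 < η' := by
    have : 0 < η / (16 * (1 + β)) := by positivity
    exact lt_min (by linarith) this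
  have hη'1 : η' ≤ g / 4 := min_le_left _ _
  have hη'2 : η' * (1 + β) ≤ η / 16 := by
    have h1 : η' ≤ η / (16 * (1 + β)) := min_le_right _ _
    rw [le_div_iff₀ (by positivity)] at h1
    linarith
  have hη'3 : η' * β ≤ η / 16 ∧ η' ≤ η / 16 := by
    constructor <;> nlinarith
  set ε' : ℝ := min (g / 4) (η / (16 * (1 + A0))) with hε'
  have hε'0 : 0 < ε' := by
    have : 0 < η / (16 * (1 + A0)) := by positivity
    exact lt_min (by linarith) this
  have hε'1 : ε' ≤ g / 4 := min_le_left _ _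
  have hε'2 : ε' * (1 + A0) ≤ η / 16 := by
    have h1 : ε' ≤ η / (16 * (1 + A0)) := min_le_right _ _
    rw [le_div_iff₀ (by positivity)] at h1
    linarith
  have hε'3 : ε' * A0 ≤ η / 16 := by nlinarith
  set ε1 : ℝ := η / 32 with hε1
  have hε10 : 0 < ε1 := by positivity
  obtain ⟨δ, hδ, hfin⟩ := leafFin I G Rc lo hi x β' hU hMt η' hη'0
  set l0 : ℕ → ℕ := fun n => lo n + ⌈v * ((hi n : ℝ) - lo n)⌉₊ with hl0
  -- limit of `l'`
  have hlim : ∀ᶠ n in (U : Filter ℕ),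
      |((l' n : ℝ) - lo n) - v' * ((hi n : ℝ) - lo n)| ≤ ε' * ((hi n : ℝ) - lo n) := by
    have h1 := (Metric.tendsto_nhds.1 hSt.lim) ε' hε'0
    filter_upwards [h1] with n hn
    rw [Real.dist_eq] at hn
    have hM := hMp n
    have e : ((l' n : ℝ) - lo n) - v' * ((hi n : ℝ) - lo n) =
        (((l' n : ℝ) - lo n) / ((hi n : ℝ) - lo n) - v') * ((hi n : ℝ) - lo n) := by
      field_simp
    rw [e, abs_mul, abs_of_pos hM]
    exact mul_le_mul_of_nonneg_right hn.le hM.le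
  -- density
  have hdens : ∀ᶠ n in (U : Filter ℕ), 2 * (2:ℝ) ^ (-(δ * ((hi n : ℝ) - lo n))) *
      ((((I n).image Prod.fst).card : ℝ) * 2 ^ (hi n - lo n)) ≤ ((J n).card : ℝ) := by
    filter_upwards [hI.own (δ / 4) (by positivity), hJ.2 (δ / 4) (by positivity),
      hMt.eventually_ge_atTop (2 / δ)] with n h1 h2 h3
    have h4 := lines_le h1
    have hM := hMp n
    set M : ℝ := (hi n : ℝ) - lo n with hMdef
    have h5 : 1 ≤ δ / 2 * M := by
      rw [div_le_iff₀ hδ] at h3; linarith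
    have e1 : (2:ℝ) ^ (hi n - lo n) = (2:ℝ) ^ M := by
      rw [← Real.rpow_natCast, Nat.cast_sub (hI.lohi n).le]
    rw [d_eq hI.base hI.lohi n] at h4 h2
    refine le_trans ?_ (le_trans (mul_le_mul_of_nonneg_left h4
      (Real.rpow_pos_of_pos two_pos _).le) h2)
    rw [e1]
    have e2 : (2:ℝ) = (2:ℝ) ^ (1:ℝ) := (Real.rpow_one 2).symm
    have e3 : 2 * (2:ℝ) ^ (-(δ * M)) * ((((I n).image Prod.fst).card : ℝ) * (2:ℝ) ^ M) =
        (2:ℝ) ^ (1 + -(δ * M) + M) * (((I n).image Prod.fst).card : ℝ) := by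
      rw [Real.rpow_add two_pos, Real.rpow_add two_pos, Real.rpow_one]; ring
    have e4 : (2:ℝ) ^ (-(δ / 4 * M)) * ((2:ℝ) ^ (-((-1 + δ / 4) * M)) *
        (((I n).image Prod.fst).card : ℝ)) =
        (2:ℝ) ^ (-(δ / 4 * M) + -((-1 + δ / 4) * M)) * (((I n).image Prod.fst).card : ℝ) := by
      rw [Real.rpow_add two_pos]; ring
    rw [e3, e4]
    refine mul_le_mul_of_nonneg_right ?_ (Nat.cast_nonneg _)
    refine Real.rpow_le_rpow_of_exponent_le one_le_two ?_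
    nlinarith
  -- all conditions
  have hgood : ∀ᶠ n in (U : Filter ℕ),
      ∃ (l : ℕ) (J' : Finset (ℕ × ℝ)) (c : ℕ → ℤ → ℕ) (b : ℕ → σ) (w : κ → ℝ),
      l0 n ≤ l ∧ (l : ℝ) ≤ l0 n + η' * ((hi n : ℝ) - lo n) ∧ l ≤ l' n ∧ J' ⊆ J n ∧
      J'.Nonempty ∧
      ((J n).card : ℝ) ≤ 2 * (η' * ((hi n : ℝ) - lo n) + 1) * ((Sh n).card : ℝ) * (J'.card : ℝ) ∧
      IsCl G n l J' c b w ∧ Rc l w (l' n) (w' n) ∧ (∀ k, 0 < w k) ∧ (∀ k, 0 < w' n k) ∧
      Low G 0 n l J' c b (D0 n * (2:ℝ) ^ (β * ((l' n : ℝ) - lo n) - ε1 * ((hi n : ℝ) - lo n) -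
        (β' + η') * ((l' n : ℝ) - l0 n) - 1 + ∑ k, x k * shp l w (l' n) (w' n) k)) ∧
      ∑ k, x k * shp l w (l' n) (w' n) k ≤ (β' + η') * ((l' n : ℝ) - l0 n) -
        β * ((l' n : ℝ) - l) + 2 * (ε1 * ((hi n : ℝ) - lo n)) + 1 := by
    filter_upwards [hfin, hI.one, hI.cell0, hJ.1, hJ.nonempty hI.ne, hdens, hDM ε1 hε10,
      hSt.le_hi, hSt.cl, hSt.rng, hSt.near ε1 hε10, hlim, hMt.eventually_ge_atTop (16 / g)]
      with n h1 h2 h3 h4 h5 h6 h7 h8 h9 h10 h11 h12 h13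
    have hM := hMp n
    set M : ℝ := (hi n : ℝ) - lo n with hMdef
    have hceil : (⌈v * M⌉₊ : ℝ) < v * M + 1 := Nat.ceil_lt_add_one (by positivity)
    have hl0' : (l0 n : ℝ) = lo n + (⌈v * M⌉₊ : ℝ) := by
      rw [hl0]; push_cast; rfl
    have hgM : 16 ≤ g * M := by
      rw [div_le_iff₀ hg0] at h13; linarith
    have h12' := abs_le.1 h12
    have hε'M : ε' * M ≤ g / 4 * M := mul_le_mul_of_nonneg_right hε'1 hM.le
    have hη'M : η' * M ≤ g / 4 * M := mul_le_mul_of_nonneg_right hη'1 hM.le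
    have hgv : g * M = v' * M - v * M := by rw [hg]; ring
    have hwin : η' * M ≤ (l' n : ℝ) - l0 n := by
      rw [hl0']
      nlinarith [h12'.1]
    have hlt : l0 n < l' n := by
      have : (l0 n : ℝ) < l' n := by
        rw [hl0']
        nlinarith [h12'.1]
      exact_mod_cast this
    refine step_fin (R := R) (D0 := D0 n) (wt := wt n) (Sh := Sh n) h1 hη'0.le h2 h3
      (fun i J s hs => hI.sh n i J s hs) (hI.shpos n) (fun i J s hs => hI.vpos n i J s hs)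
      (hI.D0pos n) hR (fun i w j w'' hij h => (hRc i w j w'' hij h).1) h4 h5 h6 ?_ ?_ hlt h8 hwin
      h9 h10 ?_
    · intro i hi1 hi2
      have := h7 i hi1 hi2
      rw [d_eq hI.base hI.lohi n] at this
      have e : -(-ε1 * M) = ε1 * M := by ring
      rw [← hMdef, e] at this
      exact this
    · rw [hl0]; exact Nat.le_add_right _ _
    · have := h11
      rw [d_eq hI.base hI.lohi n] at this
      exact this
  -- choice
  have hch : ∀ n, ∃ (l : ℕ) (J' : Finset (ℕ × ℝ)) (c : ℕ → ℤ → ℕ) (b : ℕ → σ) (w : κ → ℝ),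
      J' ⊆ J n ∧ ((∃ (l : ℕ) (J' : Finset (ℕ × ℝ)) (c : ℕ → ℤ → ℕ) (b : ℕ → σ) (w : κ → ℝ),
      l0 n ≤ l ∧ (l : ℝ) ≤ l0 n + η' * ((hi n : ℝ) - lo n) ∧ l ≤ l' n ∧ J' ⊆ J n ∧
      J'.Nonempty ∧
      ((J n).card : ℝ) ≤ 2 * (η' * ((hi n : ℝ) - lo n) + 1) * ((Sh n).card : ℝ) * (J'.card : ℝ) ∧
      IsCl G n l J' c b w ∧ Rc l w (l' n) (w' n) ∧ (∀ k, 0 < w k) ∧ (∀ k, 0 < w' n k) ∧
      Low G 0 n l J' c b (D0 n * (2:ℝ) ^ (β * ((l' n : ℝ) - lo n) - ε1 * ((hi n : ℝ) - lo n) -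
        (β' + η') * ((l' n : ℝ) - l0 n) - 1 + ∑ k, x k * shp l w (l' n) (w' n) k)) ∧
      ∑ k, x k * shp l w (l' n) (w' n) k ≤ (β' + η') * ((l' n : ℝ) - l0 n) -
        β * ((l' n : ℝ) - l) + 2 * (ε1 * ((hi n : ℝ) - lo n)) + 1) →
      (l0 n ≤ l ∧ (l : ℝ) ≤ l0 n + η' * ((hi n : ℝ) - lo n) ∧ l ≤ l' n ∧
      J'.Nonempty ∧
      ((J n).card : ℝ) ≤ 2 * (η' * ((hi n : ℝ) - lo n) + 1) * ((Sh n).card : ℝ) * (J'.card : ℝ) ∧
      IsCl G n l J' c b w ∧ Rc l w (l' n) (w' n) ∧ (∀ k, 0 < w k) ∧ (∀ k, 0 < w' n k) ∧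
      Low G 0 n l J' c b (D0 n * (2:ℝ) ^ (β * ((l' n : ℝ) - lo n) - ε1 * ((hi n : ℝ) - lo n) -
        (β' + η') * ((l' n : ℝ) - l0 n) - 1 + ∑ k, x k * shp l w (l' n) (w' n) k)) ∧
      ∑ k, x k * shp l w (l' n) (w' n) k ≤ (β' + η') * ((l' n : ℝ) - l0 n) -
        β * ((l' n : ℝ) - l) + 2 * (ε1 * ((hi n : ℝ) - lo n)) + 1)) := by
    intro n
    by_cases h : ∃ (l : ℕ) (J' : Finset (ℕ × ℝ)) (c : ℕ → ℤ → ℕ) (b : ℕ → σ) (w : κ → ℝ),
      l0 n ≤ l ∧ (l : ℝ) ≤ l0 n + η' * ((hi n : ℝ) - lo n) ∧ l ≤ l' n ∧ J' ⊆ J n ∧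
      J'.Nonempty ∧
      ((J n).card : ℝ) ≤ 2 * (η' * ((hi n : ℝ) - lo n) + 1) * ((Sh n).card : ℝ) * (J'.card : ℝ) ∧
      IsCl G n l J' c b w ∧ Rc l w (l' n) (w' n) ∧ (∀ k, 0 < w k) ∧ (∀ k, 0 < w' n k) ∧
      Low G 0 n l J' c b (D0 n * (2:ℝ) ^ (β * ((l' n : ℝ) - lo n) - ε1 * ((hi n : ℝ) - lo n) -
        (β' + η') * ((l' n : ℝ) - l0 n) - 1 + ∑ k, x k * shp l w (l' n) (w' n) k)) ∧
      ∑ k, x k * shp l w (l' n) (w' n) k ≤ (β' + η') * ((l' n : ℝ) - l0 n) -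
        β * ((l' n : ℝ) - l) + 2 * (ε1 * ((hi n : ℝ) - lo n)) + 1
    · obtain ⟨l, J', c, b, w, a1, a2, a3, a4, a5⟩ := h
      exact ⟨l, J', c, b, w, a4, fun _ => ⟨a1, a2, a3, a5⟩⟩
    · exact ⟨0, ∅, fun _ _ => 0, b' n, w' n, empty_subset _, fun h' => absurd h' h⟩
  choose l J' c b w hsub hprop using hch
  have hall := hgood.mono fun n hn => hprop n hn
  refine ⟨J', l, c, b, w, hsub, ⟨Eventually.of_forall hsub, ?_⟩, ?_, ?_, ?_, ?_, ?_, ?_⟩
  · intro ε hε
    filter_upwards [hall, hI.shc (ε / 2) (by positivity),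
      hMt.eventually (ev_poly hη'0.le (show 0 < ε / 2 by positivity))] with n h1 h2 h3
    obtain ⟨-, -, -, -, h4, -⟩ := h1
    have hM := hMp n
    rw [d_eq hI.base hI.lohi n] at h2 ⊢
    have h5 : 2 * (η' * ((hi n : ℝ) - lo n) + 1) * ((Sh n).card : ℝ) ≤
        (2:ℝ) ^ (ε * ((hi n : ℝ) - lo n)) := by
      have e : (2:ℝ) ^ (ε * ((hi n : ℝ) - lo n)) = (2:ℝ) ^ (ε / 2 * ((hi n : ℝ) - lo n)) *
          (2:ℝ) ^ (-(-(ε / 2) * ((hi n : ℝ) - lo n))) := by
        rw [← Real.rpow_add two_pos]; congr 1; ring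
      rw [e]
      exact mul_le_mul h3 h2 (Nat.cast_nonneg _) (Real.rpow_pos_of_pos two_pos _).le
    have h6 : ((J n).card : ℝ) ≤ (2:ℝ) ^ (ε * ((hi n : ℝ) - lo n)) * ((J' n).card : ℝ) :=
      h4.trans (mul_le_mul_of_nonneg_right h5 (Nat.cast_nonneg _))
    have h7 := mul_le_mul_of_nonneg_left h6
      (Real.rpow_pos_of_pos two_pos (-(ε * ((hi n : ℝ) - lo n)))).le
    rwa [← mul_assoc, ← Real.rpow_add two_pos, neg_add_cancel, Real.rpow_zero, one_mul] at h7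
  · filter_upwards [hall] with n h1
    refine ⟨le_trans ?_ h1.1, h1.2.2.1⟩
    rw [hl0]; exact Nat.le_add_right _ _
  · filter_upwards [hall, hMt.eventually_ge_atTop (2 / η)] with n h1 h2
    have hM := hMp n
    set M : ℝ := (hi n : ℝ) - lo n with hMdef
    have hceil : (⌈v * M⌉₊ : ℝ) < v * M + 1 := Nat.ceil_lt_add_one (by positivity)
    have hceil' : v * M ≤ (⌈v * M⌉₊ : ℝ) := Nat.le_ceil _
    have hl0' : (l0 n : ℝ) = lo n + (⌈v * M⌉₊ : ℝ) := by
      rw [hl0]; push_cast; rfl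
    have h3 : (l0 n : ℝ) ≤ l n := by exact_mod_cast h1.1
    have h4 := h1.2.1
    have h5 : 2 ≤ η * M := by
      rw [div_le_iff₀ hη] at h2; linarith
    have h6 : η' * M ≤ η / 16 * M := mul_le_mul_of_nonneg_right hη'3.2 hM.le
    rw [abs_le]
    constructor <;> nlinarith
  · exact hall.mono fun n h1 => h1.2.2.2.2.2.1
  · exact hall.mono fun n h1 => h1.2.2.2.2.2.2.1
  · filter_upwards [hall, hlim, hMt.eventually_ge_atTop (16 * (1 + A0) / η), hSt.le_hi] with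
      n h1 h12 h13 hlh
    obtain ⟨h2, h3, h4, -, -, hcl, hRcl, hwp, hwp', hlow, hsx⟩ := h1
    have hM := hMp n
    set M : ℝ := (hi n : ℝ) - lo n with hMdef
    have h12' := abs_le.1 h12
    have hceil : (⌈v * M⌉₊ : ℝ) < v * M + 1 := Nat.ceil_lt_add_one (by positivity)
    have hceil' : v * M ≤ (⌈v * M⌉₊ : ℝ) := Nat.le_ceil _
    have hl0' : (l0 n : ℝ) = lo n + (⌈v * M⌉₊ : ℝ) := by
      rw [hl0]; push_cast; rfl
    have hηM : 16 * (1 + A0) ≤ η * M := by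
      rw [div_le_iff₀ hη] at h13; linarith
    have h2' : (l0 n : ℝ) ≤ l n := by exact_mod_cast h2
    have h4' : (l n : ℝ) ≤ l' n := by exact_mod_cast h4
    have hlh' : (l' n : ℝ) ≤ hi n := by exact_mod_cast hlh
    set s : ℝ := ∑ k, x k * shp (l n) (w n) (l' n) (w' n) k with hs
    set N : ℝ := (l' n : ℝ) - l0 n with hN
    have hN1 : N ≤ g * M + ε' * M + 1 := by
      rw [hN, hl0', hg]; linarith
    have hN0 : 0 ≤ N := by rw [hN]; linarith
    have hNM : N ≤ M := by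
      rw [hN, hl0', hMdef]
      have : (0:ℝ) ≤ (⌈v * M⌉₊ : ℝ) := Nat.cast_nonneg _
      linarith
    have hs1 : -(C * Cx * N) ≤ s := by
      have h5 : |s| ≤ Cx * (C * N) := by
        rw [hs, hCx, Finset.sum_mul]
        refine (Finset.abs_sum_le_sum_abs _ _).trans (Finset.sum_le_sum fun k _ => ?_)
        rw [abs_mul]
        refine mul_le_mul_of_nonneg_left ?_ (abs_nonneg _)
        refine ((hRc _ _ _ _ h4 hRcl).2 k).trans ?_
        refine mul_le_mul_of_nonneg_left ?_ hC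
        rw [hN]; linarith
      have := (abs_le.1 h5).1
      linarith
    have hexp : β * ((l n : ℝ) - lo n) + -((g * A0 + η) * M) ≤
        β * ((l' n : ℝ) - lo n) - ε1 * M - (β' + η') * N - 1 + s := by
      have a1 : (β' - β) * N ≤ b0 * N := mul_le_mul_of_nonneg_right (le_abs_self _) hN0
      have a2 : β * ((l n : ℝ) - l0 n) ≤ β * (η' * M) :=
        mul_le_mul_of_nonneg_left (by linarith) hβ
      have a3 : η' * N ≤ η / 16 * M :=
        mul_le_mul hη'3.2 hNM hN0 (by positivity)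
      have a4 : β * (η' * M) ≤ η / 16 * M := by
        have := mul_le_mul_of_nonneg_right hη'3.1 hM.le
        linarith
      have a5 : A0 * N ≤ A0 * (g * M) + η / 16 * M + A0 := by
        have b1 := mul_le_mul_of_nonneg_left hN1 hA00
        have b2 := mul_le_mul_of_nonneg_right hε'3 hM.le
        nlinarith
      have a6 : A0 + 1 ≤ η / 16 * M := by linarith
      have a7 : ε1 * M = η / 32 * M := rfl
      have a8 : A0 * N = b0 * N + C * Cx * N := by rw [hA0]; ring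
      have a9 : 0 ≤ η * M := by positivity
      have a10 : β * ((l' n : ℝ) - lo n) = β * ((l n : ℝ) - lo n) + β * N -
          β * ((l n : ℝ) - l0 n) := by rw [hN]; ring
      nlinarith
    intro K t ht
    refine le_trans ?_ (hlow K t ht)
    rw [valx_zero]
    refine mul_le_mul_of_nonneg_right ?_ (hI.vpos n _ _ _ (hcl K t ht).2.1).le
    rw [mul_assoc, ← Real.rpow_add two_pos]
    refine mul_le_mul_of_nonneg_left ?_ (hI.D0pos n).le
    refine Real.rpow_le_rpow_of_exponent_le one_le_two ?_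
    refine le_trans (le_of_eq ?_) hexp
    rw [hA0, hg]
  · filter_upwards [hall, hlim, hMt.eventually_ge_atTop (16 * (1 + A0) / η), hSt.le_hi] with
      n h1 h12 h13 hlh
    obtain ⟨h2, h3, h4, -, -, hcl, hRcl, hwp, hwp', hlow, hsx⟩ := h1
    have hM := hMp n
    set M : ℝ := (hi n : ℝ) - lo n with hMdef
    have h12' := abs_le.1 h12
    have hceil : (⌈v * M⌉₊ : ℝ) < v * M + 1 := Nat.ceil_lt_add_one (by positivity)
    have hceil' : v * M ≤ (⌈v * M⌉₊ : ℝ) := Nat.le_ceil _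
    have hl0' : (l0 n : ℝ) = lo n + (⌈v * M⌉₊ : ℝ) := by
      rw [hl0]; push_cast; rfl
    have hηM : 16 * (1 + A0) ≤ η * M := by
      rw [div_le_iff₀ hη] at h13; linarith
    have h2' : (l0 n : ℝ) ≤ l n := by exact_mod_cast h2
    have h4' : (l n : ℝ) ≤ l' n := by exact_mod_cast h4
    have hlh' : (l' n : ℝ) ≤ hi n := by exact_mod_cast hlh
    set s : ℝ := ∑ k, x k * shp (l n) (w n) (l' n) (w' n) k with hs
    set N : ℝ := (l' n : ℝ) - l0 n with hN
    have hN0 : 0 ≤ N := by rw [hN]; linarith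
    have hNM : N ≤ M := by
      rw [hN, hl0', hMdef]
      have : (0:ℝ) ≤ (⌈v * M⌉₊ : ℝ) := Nat.cast_nonneg _
      linarith
    have hNg : |N - g * M| ≤ ε' * M + 1 := by
      rw [hN, hl0', hg, abs_le]
      constructor <;> linarith
    have a1 : (β' - β) * N ≤ (β' - β) * (g * M) + b0 * (ε' * M + 1) := by
      have b1 : (β' - β) * (N - g * M) ≤ b0 * (ε' * M + 1) := by
        refine (le_abs_self _).trans ?_
        rw [abs_mul]
        exact mul_le_mul_of_nonneg_left hNg hb00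
      linarith
    have a2 : β * ((l n : ℝ) - l0 n) ≤ β * (η' * M) :=
      mul_le_mul_of_nonneg_left (by linarith) hβ
    have a3 : η' * N ≤ η / 16 * M :=
      mul_le_mul hη'3.2 hNM hN0 (by positivity)
    have a4 : β * (η' * M) ≤ η / 16 * M := by
      have := mul_le_mul_of_nonneg_right hη'3.1 hM.le
      linarith
    have a5 : b0 * (ε' * M + 1) ≤ η / 16 * M + A0 := by
      have c1 : b0 ≤ A0 := by rw [hA0]; have := mul_nonneg hC hCx0; linarith
      have c2 : b0 * (ε' * M + 1) ≤ A0 * (ε' * M + 1) :=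
        mul_le_mul_of_nonneg_right c1 (by positivity)
      have c3 := mul_le_mul_of_nonneg_right hε'3 hM.le
      nlinarith
    have a6 : A0 + 1 ≤ η / 16 * M := by linarith
    have a7 : ε1 * M = η / 32 * M := rfl
    have a9 : 0 ≤ η * M := by positivity
    have a10 : β * ((l' n : ℝ) - l n) = β * N - β * ((l n : ℝ) - l0 n) := by rw [hN]; ring
    have a11 : ((β' - β) * g + η) * M = (β' - β) * (g * M) + η * M := by ring
    rw [a11]
    rw [a10] at hsx
    nlinarith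

end Crest.Agent.R136.XA248
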