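import Mathlib
import Crest.Agent.R136.XA3_248

/-!
# R136, block U4 (helper615): `LeafStepR → LeafStep` (diagonal over the size of the change of rewards)
-/

set_option autoImplicit false
set_option linter.unusedVariables false

open Finset Filter Topology

namespace Crest.Agent.R136.XD615

open Crest.Agent.R138.Ex926 Crest.Agent.R138.Dp76
open MkA627 (Geo)
open Crest.Agent.R136.XA248

variable {σ κ : Type} [Fintype κ]

theorem rew_zero (i : ℕ) (w : κ → ℝ) : rew i w (0 : κ → ℝ) = 1 := by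
  unfold rew
  simp

theorem valx_zero (G : Geo σ κ) (n i : ℕ) (J : ℤ) (s : σ) :
    valx G (0 : κ → ℝ) n i J s = G.val n i J s := by
  unfold valx
  rw [rew_zero, mul_one]

/-- `Low` is antitone in the density -/
theorem Low.anti {G : Geo σ κ} {n j : ℕ} {F : Finset (ℕ × ℝ)} {c : ℕ → ℤ → ℕ} {b : ℕ → σ}
    {w : κ → ℝ} {D D' : ℝ} (hv : ∀ J s, G.adm n j J s → 0 < G.val n j J s)
    (hc : IsCl G n j F c b w) (h : Low G 0 n j F c b D) (hD : D' ≤ D) :
    Low G 0 n j F c b D' := by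
  intro J t ht
  refine le_trans ?_ (h J t ht)
  rw [valx_zero]
  exact mul_le_mul_of_nonneg_right hD (hv J _ (hc J t ht).2.1).le

/-- the base in terms of the levels -/
theorem dn_rpow {B : Base} {lo hi : ℕ → ℕ} {n : ℕ} (hb : B.d n = (1 / 2 : ℝ) ^ (hi n - lo n))
    (hl : lo n < hi n) (a : ℝ) : B.d n ^ a = (2:ℝ) ^ (-(a * ((hi n : ℝ) - lo n))) := by
  have h2 : ((hi n - lo n : ℕ) : ℝ) = (hi n : ℝ) - lo n := by
    rw [Nat.cast_sub hl.le]
  have h3 : B.d n = (2:ℝ) ^ (-((hi n : ℝ) - lo n)) := by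
    rw [hb, ← h2, Real.rpow_neg (by norm_num), Real.rpow_natCast]
    rw [one_div, inv_pow]
  rw [h3, ← Real.rpow_mul (by norm_num)]
  congr 1
  ring

theorem leafStep_of_R (H : LeafStepR) : LeafStep := by
  intro σ κ _ B I G R Rc Sh lo hi D0 β Cu C ct bt wt g lam hI hR hRc hgrad J hJ hD v' l' c' b' w'
    hS v hv0 hvv
  classical
  set SL : ℝ := ∑ k, g k * lam k with hSL
  have hRc' : ∀ i w j w', i ≤ j → Rc i w j w' → R i w j w' ∧ Rg (max C 0) i w j w' := by
    intro i w j w' hij h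
    obtain ⟨h1, h2⟩ := hRc i w j w' hij h
    refine ⟨h1, fun k => (h2 k).trans ?_⟩
    have hji : (0:ℝ) ≤ (j:ℝ) - i := by
      have : (i:ℝ) ≤ j := by exact_mod_cast hij
      linarith
    exact mul_le_mul_of_nonneg_right (le_max_left _ _) hji
  have key : ∀ j : ℕ, ∃ r β' : ℝ, 0 < r ∧ r ≤ 1 / ((j:ℝ) + 1) ∧
      UBw G Rc I lo hi (fun k => r * lam k) β' ∧
      |β' - β - r * SL| ≤ 1 / ((j:ℝ) + 1) * r := by
    intro j
    have hj : (0:ℝ) < 1 / ((j:ℝ) + 1) := by positivity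
    obtain ⟨r, hr, h⟩ := hgrad _ hj
    obtain ⟨β', h1, h2⟩ := h (min r (1 / ((j:ℝ) + 1))) (lt_min hr hj) (min_le_left _ _)
    exact ⟨_, β', lt_min hr hj, min_le_right _ _, h1, h2⟩
  choose r β' hr0 hr1 hUB hβ using key
  have hη : ∀ j : ℕ, 0 < r j / ((j:ℝ) + 1) := fun j => div_pos (hr0 j) (by positivity)
  have key2 := fun j : ℕ => H B I G R Rc Sh lo hi D0 β Cu (max C 0) ct bt wt
    (fun k => r j * lam k) (β' j) hI hR (le_max_right _ _) hRc' (hUB j) J hJ hD v' l' c' b' w' hS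
    v hv0 hvv (r j / ((j:ℝ) + 1)) (hη j)
  choose Jj lj cj bj wj h1 h2 h3 h4 h5 h6 h7 h8 using key2
  -- the loss at stage `j`
  set loss : ℕ → ℝ := fun j => (v' - v) * (|β' j - β| + max C 0 * ∑ k, |r j * lam k|) +
    r j / ((j:ℝ) + 1) with hloss
  have hN : ∀ n, (0:ℝ) < (hi n : ℝ) - lo n := by
    intro n
    have : (lo n : ℝ) < hi n := by exact_mod_cast hI.lohi n
    linarith
  let P : ℕ → ℕ → Prop := fun j n =>
    (B.d n ^ (1 / ((j:ℝ) + 1)) * ((J n).card : ℝ) ≤ ((Jj j n).card : ℝ)) ∧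
    (lo n ≤ lj j n ∧ lj j n ≤ l' n) ∧
    (|((lj j n : ℝ) - lo n) - v * ((hi n : ℝ) - lo n)| ≤
      r j / ((j:ℝ) + 1) * ((hi n : ℝ) - lo n)) ∧
    IsCl G n (lj j n) (Jj j n) (cj j n) (bj j n) (wj j n) ∧
    Rc (lj j n) (wj j n) (l' n) (w' n) ∧
    Low G 0 n (lj j n) (Jj j n) (cj j n) (bj j n)
        (D0 n * (2:ℝ) ^ (β * ((lj j n : ℝ) - lo n)) *
          (2:ℝ) ^ (-(loss j * ((hi n : ℝ) - lo n)))) ∧
    ∑ k, r j * lam k * shp (lj j n) (wj j n) (l' n) (w' n) k ≤
        ((β' j - β) * (v' - v) + r j / ((j:ℝ) + 1)) * ((hi n : ℝ) - lo n)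
  have hP : ∀ j, ∀ᶠ n in (U : Filter ℕ), P j n := by
    intro j
    filter_upwards [(h2 j).2 (1 / ((j:ℝ) + 1)) (by positivity), h3 j, h4 j, h5 j, h6 j, h7 j, h8 j]
      with n a1 a3 a4 a5 a6 a7 a8
    exact ⟨a1, a3, a4, a5, a6, a7, a8⟩
  obtain ⟨k, hk, hPk⟩ := exists_diag P hP
  have hPd : ∀ᶠ n in (U : Filter ℕ), P (k n) n := by
    filter_upwards [hPk] with n hn using hn (k n) le_rfl
  have hk1 : Tendsto (fun n => 1 / ((k n : ℝ) + 1)) U (𝓝 0) :=
    tendsto_one_div_add_atTop_nhds_zero_nat.comp hk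
  have hsmall : ∀ ε : ℝ, 0 < ε → ∀ᶠ n in (U : Filter ℕ), 1 / ((k n : ℝ) + 1) ≤ ε := fun ε hε =>
    (hk1.eventually (gt_mem_nhds hε)).mono fun n hn => le_of_lt hn
  have hrr : ∀ j : ℕ, r j / ((j:ℝ) + 1) ≤ 1 / ((j:ℝ) + 1) := by
    intro j
    have hj : (0:ℝ) < (j:ℝ) + 1 := by positivity
    refine div_le_div_of_nonneg_right ((hr1 j).trans ?_) hj.le
    rw [div_le_one hj]
    have : (0:ℝ) ≤ j := Nat.cast_nonneg _
    linarith
  -- bound of the loss
  set Cl : ℝ := (v' - v) * ((|SL| + 1) + max C 0 * ∑ k, |lam k|) + 1 with hCl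
  have hCl1 : 1 ≤ Cl := by
    have h1 : 0 ≤ (v' - v) * ((|SL| + 1) + max C 0 * ∑ k, |lam k|) := by
      have e1 : 0 ≤ ∑ k, |lam k| := sum_nonneg fun _ _ => abs_nonneg _
      have e2 : 0 ≤ max C 0 := le_max_right _ _
      have e3 : 0 ≤ v' - v := by linarith
      positivity
    linarith
  have hloss_le : ∀ j : ℕ, loss j ≤ Cl * (1 / ((j:ℝ) + 1)) := by
    intro j
    have hj : (0:ℝ) < 1 / ((j:ℝ) + 1) := by positivity
    have hj1 : 1 / ((j:ℝ) + 1) ≤ 1 := by
      rw [div_le_one (by positivity)]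
      have : (0:ℝ) ≤ j := Nat.cast_nonneg _
      linarith
    have e1 : |β' j - β| ≤ r j * (|SL| + 1) := by
      have t1 : |β' j - β| ≤ |β' j - β - r j * SL| + |r j * SL| := by
        have := abs_add_le (β' j - β - r j * SL) (r j * SL)
        simpa using this
      have t2 : |r j * SL| = r j * |SL| := by rw [abs_mul, abs_of_pos (hr0 j)]
      have t3 : 1 / ((j:ℝ) + 1) * r j ≤ 1 * r j := mul_le_mul_of_nonneg_right hj1 (hr0 j).le
      nlinarith [hβ j]
    have e2 : ∑ k, |r j * lam k| = r j * ∑ k, |lam k| := by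
      rw [mul_sum]
      refine sum_congr rfl fun k _ => ?_
      rw [abs_mul, abs_of_pos (hr0 j)]
    have e3 : 0 ≤ v' - v := by linarith
    have e4 : 0 ≤ ∑ k, |lam k| := sum_nonneg fun _ _ => abs_nonneg _
    have e5 : 0 ≤ max C 0 := le_max_right _ _
    have e6 : |β' j - β| + max C 0 * ∑ k, |r j * lam k| ≤
        r j * ((|SL| + 1) + max C 0 * ∑ k, |lam k|) := by
      rw [e2]
      nlinarith
    have e7 : 0 ≤ (|SL| + 1) + max C 0 * ∑ k, |lam k| := by positivity
    have e8 : r j * ((|SL| + 1) + max C 0 * ∑ k, |lam k|) ≤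
        1 / ((j:ℝ) + 1) * ((|SL| + 1) + max C 0 * ∑ k, |lam k|) :=
      mul_le_mul_of_nonneg_right (hr1 j) e7
    have e9 := mul_le_mul_of_nonneg_left (e6.trans e8) e3
    have e10 := hrr j
    rw [hloss, hCl]
    simp only
    nlinarith
  refine ⟨fun n => Jj (k n) n, fun n => lj (k n) n, fun n => cj (k n) n, fun n => bj (k n) n,
    fun n => wj (k n) n, fun n => h1 (k n) n, ⟨Eventually.of_forall fun n => h1 (k n) n, ?_⟩,
    ?_, ?_, ?_, ?_⟩
  · intro η hη
    filter_upwards [hPd, hsmall η hη] with n hn hs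
    refine le_trans (mul_le_mul_of_nonneg_right (dpow_le B n hs) (Nat.cast_nonneg _)) hn.1
  · filter_upwards [hPd] with n hn using hn.2.1.2
  · refine ⟨?_, ?_, ?_, ?_, ?_, ?_⟩
    · filter_upwards [hPd] with n hn using hn.2.1.1
    · filter_upwards [hPd, hS.le_hi] with n hn h using hn.2.1.2.trans h
    · rw [tendsto_iff_norm_sub_tendsto_zero]
      refine squeeze_zero' (Eventually.of_forall fun n => norm_nonneg _) ?_ hk1
      filter_upwards [hPd] with n hn
      have hNn := hN n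
      have h9 := hn.2.2.1
      rw [Real.norm_eq_abs]
      have e : ((lj (k n) n : ℝ) - lo n) / ((hi n : ℝ) - lo n) - v =
          (((lj (k n) n : ℝ) - lo n) - v * ((hi n : ℝ) - lo n)) / ((hi n : ℝ) - lo n) := by
        field_simp
      rw [e, abs_div, abs_of_pos hNn, div_le_iff₀ hNn]
      exact h9.trans (mul_le_mul_of_nonneg_right (hrr (k n)) hNn.le)
    · filter_upwards [hPd, hS.rng, hS.le_hi] with n hn hr hle
      exact hR _ _ _ _ _ _ hn.2.1.2 hle (hRc' _ _ _ _ hn.2.1.2 hn.2.2.2.2.1).1 hr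
    · filter_upwards [hPd] with n hn using hn.2.2.2.1
    · intro ε hε
      filter_upwards [hPd, hsmall (ε / Cl) (by positivity)] with n hn hs
      refine Low.anti (fun J s h => hI.vpos n _ J s h) hn.2.2.2.1 hn.2.2.2.2.2.1 ?_
      have hNn := hN n
      have hl : loss (k n) ≤ ε := by
        refine (hloss_le (k n)).trans ?_
        have := mul_le_mul_of_nonneg_left hs (le_trans zero_le_one hCl1)
        refine this.trans (le_of_eq ?_)
        field_simp
      rw [dn_rpow (hI.base n) (hI.lohi n) ε]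
      refine mul_le_mul_of_nonneg_left ?_ (mul_pos (hI.D0pos n) (by positivity)).le
      refine Real.rpow_le_rpow_of_exponent_le (by norm_num) ?_
      nlinarith
  · filter_upwards [hPd] with n hn using hn.2.2.2.2.1
  · intro ε hε
    have hv1 : 0 < v' - v + 1 := by linarith
    filter_upwards [hPd, hsmall (ε / (v' - v + 1)) (by positivity)] with n hn hs
    have hNn := hN n
    have h9 := hn.2.2.2.2.2.2
    have hrn := hr0 (k n)
    have hj : (0:ℝ) < 1 / ((k n : ℝ) + 1) := by positivity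
    rw [div_le_iff₀ hNn]
    have e1 : ∑ x, r (k n) * lam x * shp (lj (k n) n) (wj (k n) n) (l' n) (w' n) x =
        r (k n) * ∑ x, lam x * shp (lj (k n) n) (wj (k n) n) (l' n) (w' n) x := by
      rw [mul_sum]
      exact sum_congr rfl fun x _ => by ring
    rw [e1] at h9
    have e2 : β' (k n) - β ≤ r (k n) * SL + 1 / ((k n : ℝ) + 1) * r (k n) := by
      have := (abs_le.1 (hβ (k n))).2
      linarith
    have e3 : r (k n) / ((k n : ℝ) + 1) = r (k n) * (1 / ((k n : ℝ) + 1)) := by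
      rw [mul_one_div]
    have e4 : (β' (k n) - β) * (v' - v) + r (k n) / ((k n : ℝ) + 1) ≤
        r (k n) * ((v' - v) * SL + (v' - v + 1) * (1 / ((k n : ℝ) + 1))) := by
      rw [e3]
      have := mul_le_mul_of_nonneg_right e2 (show 0 ≤ v' - v by linarith)
      nlinarith
    have e5 : (v' - v + 1) * (1 / ((k n : ℝ) + 1)) ≤ ε := by
      have := mul_le_mul_of_nonneg_left hs hv1.le
      refine this.trans (le_of_eq ?_)
      field_simp
    have e6 : r (k n) * ((v' - v) * SL + (v' - v + 1) * (1 / ((k n : ℝ) + 1))) ≤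
        r (k n) * ((v' - v) * SL + ε) := mul_le_mul_of_nonneg_left (by linarith) hrn.le
    have e7 := h9.trans (mul_le_mul_of_nonneg_right (e4.trans e6) hNn.le)
    rw [mul_assoc] at e7
    exact le_of_mul_le_mul_left e7 hrn

end Crest.Agent.R136.XD615
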