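import Crest.Agent.R136.XIn1_823

/-!
# R136, block U4 (helper823): the extremal sequence on codes (`inSeq_of_seq`)

`SeqDat` : a sequence of configurations `F n` (class `Leg n`, finite set `Sh n` of widths) whose values
tend to `β`; `inSeq_of_seq` : codes `ℓ, I` with 248's `InSeq` and 289's `CodeDat`.
-/

set_option autoImplicit false
set_option linter.unusedVariables false

open Finset Filter Topology

namespace Crest.Agent.R136.XIn823

open Sh605 K4 KS879 En879 XA248 Win823 Cod289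
open Crest.Agent.R138.Ex926 (Base U)
open Crest.Agent.R138.Mk163 (zc zl rho alive own)
open Crest.Agent.R138.MkRef627 (mem_alive)
open MkA627 (Geo)

noncomputable section

/-- the base `d n = 2^(-M n)` -/
def baseM (M : ℕ → ℕ) (h1 : ∀ n, 1 ≤ M n)
    (hM : Tendsto (fun n => (M n : ℝ)) U atTop) : Base where
  d := fun n => (1 / 2 : ℝ) ^ (M n)
  pos := fun n => by positivity
  lt := fun n => pow_lt_one₀ (by norm_num) (by norm_num) (by have := h1 n; omega)
  lim0 := (tendsto_pow_atTop_nhds_zero_of_lt_one (by norm_num) (by norm_num)).comp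
    (tendsto_natCast_atTop_iff.1 hM)

theorem baseM_rpow (M : ℕ → ℕ) (h1 : ∀ n, 1 ≤ M n)
    (hM : Tendsto (fun n => (M n : ℝ)) U atTop) (n : ℕ) (s : ℝ) :
    (baseM M h1 hM).d n ^ s = (2:ℝ) ^ (-(s * M n)) := by
  show ((1 / 2 : ℝ) ^ (M n)) ^ s = _
  rw [one_div, inv_pow, ← Real.rpow_natCast, Real.inv_rpow (by positivity),
    ← Real.rpow_mul (by norm_num), ← Real.rpow_neg (by norm_num)]
  congr 1; ring

/-- input data: configurations whose values tend to `β` -/
structure SeqDat (Leg : ℕ → ℕ → ℝ → ℝ → Plk4 → Prop) (q : Fin 3 → ℝ) (F : ℕ → Cf6)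
    (Sh : ℕ → Finset (Fin 3 → ℝ)) (CU K0 β : ℝ) : Prop where
  pos : ∀ n i K, Leg n i (F n).r (F n).Λm K → 0 < K.a ∧ 0 < K.w 2 ∧ 0 < K.w 1
  CU0 : 0 ≤ CU
  K01 : 1 ≤ K0
  β0 : 0 ≤ β
  ok : ∀ n, Ok6 (Leg n) q (F n)
  all : ∀ n i, (F n).m ≤ i → i ≤ (F n).top → ∀ S, Leg n i (F n).r (F n).Λm S →
    ((objs4 i (F n).I S).card : ℝ) ≤
      (2:ℝ) ^ (CU * ((i : ℝ) - (F n).m + (F n).h + 10)) * (F n).D0 * cap5 q i S
  D0 : ∀ n, 0 < (F n).D0
  rnd : ∀ n, ∀ x ∈ (F n).I, ∀ K, K = (F n).K ((F n).cl (ob4 (F n).top x)) →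
    ∀ O : Finset (Ln4 × ℤ), (∀ o ∈ O, In4 (F n).top K o) → ∃ K', Leg n (F n).top (F n).r (F n).Λm K' ∧ wd K' ∈ Sh n ∧
      cap5 q (F n).top K' ≤ K0 * cap5 q (F n).top K ∧
      ∀ _ : DecidablePred (In4 (F n).top K'),
      (O.card : ℝ) ≤ K0 * ((O.filter fun o => In4 (F n).top K' o).card : ℝ)
  shpos : ∀ n, ∀ w ∈ Sh n, ∀ k, 0 < w k
  shc : ∀ ε : ℝ, 0 < ε → ∀ᶠ n in (U : Filter ℕ), ((Sh n).card : ℝ) ≤ (2:ℝ) ^ (ε * (F n).M)
  len : Tendsto (fun n => ((F n).M : ℝ)) U atTop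
  val : ∀ ε : ℝ, 0 < ε → ∀ᶠ n in (U : Filter ℕ), β - ε ≤ (F n).toCf4.val
  adm : ∀ δ : ℝ, 0 < δ → ∀ᶠ n in (U : Filter ℕ), Adm6 δ (F n)

/-- the new number of coarse levels -/
def hN (F : ℕ → Cf6) (Sh : ℕ → Finset (Fin 3 → ℝ)) (K0 : ℝ) (n : ℕ) : ℕ :=
  (F n).h + ⌈Real.logb 2 (4 * K0 * ((Sh n).card : ℝ))⌉₊

variable {Leg : ℕ → ℕ → ℝ → ℝ → Plk4 → Prop} {q : Fin 3 → ℝ} {F : ℕ → Cf6}
  {Sh : ℕ → Finset (Fin 3 → ℝ)} {CU K0 β : ℝ}

theorem SeqDat.Shne (h : SeqDat Leg q F Sh CU K0 β) (n : ℕ) : 0 < ((Sh n).card : ℝ) := by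
  classical
  obtain ⟨x, hx⟩ := (h.ok n).ne
  obtain ⟨K', -, hs, -, -⟩ := h.rnd n x hx _ rfl ∅ (by simp)
  exact_mod_cast card_pos.2 ⟨_, hs⟩

theorem hN_ge (h : SeqDat Leg q F Sh CU K0 β) (n : ℕ) :
    4 * K0 * ((Sh n).card : ℝ) * 2 ^ (F n).h ≤ (2:ℝ) ^ (hN F Sh K0 n) := by
  have h1 := h.Shne n
  have h2 := h.K01
  have hX : 0 < 4 * K0 * ((Sh n).card : ℝ) := by positivity
  unfold hN
  rw [pow_add, mul_comm]
  refine mul_le_mul_of_nonneg_left ?_ (by positivity)
  have h3 := Nat.le_ceil (Real.logb 2 (4 * K0 * ((Sh n).card : ℝ)))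
  rw [Real.logb_le_iff_le_rpow (by norm_num) hX] at h3
  rwa [Real.rpow_natCast] at h3

theorem hN_small (h : SeqDat Leg q F Sh CU K0 β) {ε : ℝ} (hε : 0 < ε) :
    ∀ᶠ n in (U : Filter ℕ), (hN F Sh K0 n : ℝ) ≤ ε * (F n).M := by
  have h2 := h.K01
  have hlen := h.len.eventually_ge_atTop ((Real.logb 2 (4 * K0) + 1) / (ε / 3))
  filter_upwards [h.shc (ε / 3) (by positivity), h.adm (ε / 3) (by positivity), hlen] with n g1 g2
    g3
  have h1 := h.Shne n
  have hl0 : 0 ≤ Real.logb 2 (4 * K0 * ((Sh n).card : ℝ)) := by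
    refine Real.logb_nonneg (by norm_num) ?_
    have : (1:ℝ) ≤ ((Sh n).card : ℝ) := by
      have : 0 < (Sh n).card := by exact_mod_cast h1
      exact_mod_cast this
    nlinarith
  have h3 := (Nat.ceil_lt_add_one hl0).le
  have h4 : Real.logb 2 (4 * K0 * ((Sh n).card : ℝ)) ≤ Real.logb 2 (4 * K0) + ε / 3 * (F n).M := by
    rw [Real.logb_mul (by positivity) h1.ne']
    have := (Real.logb_le_iff_le_rpow (by norm_num : (1:ℝ) < 2) h1).2 g1
    linarith
  have h5 : Real.logb 2 (4 * K0) + 1 ≤ ε / 3 * (F n).M := by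
    rw [div_le_iff₀ (by positivity)] at g3
    linarith
  have h6 := g2.hle
  unfold hN
  push_cast
  linarith

/-- the geometry of the sequence -/
def gSeq (Leg : ℕ → ℕ → ℝ → ℝ → Plk4 → Prop) (q : Fin 3 → ℝ) (F : ℕ → Cf6)
    (Sh : ℕ → Finset (Fin 3 → ℝ)) (ℓ : ℕ → ℕ → Ln4) : Geo Plk4 (Fin 3) :=
  geoW ℓ q fun n i K => LegS (Leg n) (Sh n) i (F n).r (F n).Λm K

/-- **the extremal sequence on codes** -/
theorem inSeq_of_seq (h : SeqDat Leg q F Sh CU K0 β) :
    ∃ (ℓ : ℕ → ℕ → Ln4) (I : ℕ → Finset (ℕ × ℝ)) (ct : ℕ → ℕ → ℤ → ℕ) (bt : ℕ → ℕ → Plk4)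
      (wt : ℕ → Fin 3 → ℝ),
      (∀ n, enc (ℓ n) (I n) ⊆ (F n).I) ∧ (∀ᶠ n in (U : Filter ℕ), wt n ∈ Sh n) ∧
      CodeDat (gSeq Leg q F Sh ℓ) ℓ I (fun n => LegS (Leg n) (Sh n)) (fun n => (F n).r)
        (fun n => (F n).Λm) (fun n => (F n).m) (fun n => (F n).top) q ∧
      ∀ R : Rel (Fin 3), InSeq (baseM (fun n => (F n).M) (fun n => (h.ok n).M1) h.len) I
        (gSeq Leg q F Sh ℓ) R Sh (fun n => (F n).m) (fun n => (F n).top) (fun n => (F n).D0)
        β CU ct bt wt := by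
  classical
  have hex : ∀ n, ∃ (ℓ : ℕ → Ln4) (A : Finset (ℕ × ℝ)) (c : ℕ → ℤ → ℕ) (b : ℕ → Plk4)
      (w : Fin 3 → ℝ), (Inj ℓ A ∧ enc ℓ A ⊆ (F n).I) ∧ (hN F Sh K0 n ≤ (F n).M →
        Good (Leg n) q (F n) (Sh n) CU K0 (hN F Sh K0 n) ℓ A c b w) := by
    intro n
    by_cases hn : hN F Sh K0 n ≤ (F n).M
    · obtain ⟨ℓ, A, c, b, w, hg⟩ := exists_good (h.pos n) h.CU0 (h.all n) (h.ok n) (Sh n) h.K01
        (fun x hx K hK O hO => by
          obtain ⟨K', k1, k2, k3, k4⟩ := h.rnd n x hx K hK O hO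
          exact ⟨K', k1, k2, k3, k4 _⟩) (hN_ge h n) hn
      exact ⟨ℓ, A, c, b, w, ⟨hg.inj, hg.sub⟩, fun _ => hg⟩
    · refine ⟨fun _ => ⟨0, 0⟩, ∅, fun _ _ => 0, fun _ => cubeK 1 (⟨0, 0⟩, 0), 0, ⟨?_, ?_⟩,
        fun h => absurd h hn⟩
      · intro x hx; simp at hx
      · intro y hy
        obtain ⟨x, hx, -⟩ := mem_enc.1 hy
        simp at hx
  choose ℓ I ct bt wt hI hg using hex
  have hgood : ∀ᶠ n in (U : Filter ℕ), Good (Leg n) q (F n) (Sh n) CU K0 (hN F Sh K0 n) (ℓ n)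
      (I n) (ct n) (bt n) (wt n) := by
    filter_upwards [hN_small h one_pos] with n hn
    rw [one_mul] at hn
    exact hg n (by exact_mod_cast hn)
  have etop : ∀ n, ((F n).top : ℝ) - (F n).m = (F n).M := by
    intro n
    unfold Cf4.top
    push_cast; ring
  have hM0 : ∀ n, (0:ℝ) < (F n).M := fun n => by exact_mod_cast (h.ok n).M1
  have hgeo : ∀ n, GeoOf (gSeq Leg q F Sh ℓ) (ℓ n) q n
      fun i K => LegS (Leg n) (Sh n) i (F n).r (F n).Λm K := fun n => geoOf_W _ _ _ _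
  have hcard : ∀ n, (I n).card ≤ (F n).I.card := by
    intro n
    refine (Finset.card_le_card_of_injOn (fun x : ℕ × ℝ => (ℓ n x.1, x.2)) (fun x hx => ?_)
      ?_)
    · exact (hI n).2 (mem_enc.2 ⟨x, hx, rfl⟩)
    · intro x hx y hy hxy
      simp only [Prod.mk.injEq] at hxy
      exact Prod.ext ((hI n).1 x hx y hy hxy.1) hxy.2
  have hsize : ∀ δ : ℝ, 0 < δ → ∀ᶠ n in (U : Filter ℕ),
      Real.logb 2 ((I n).card : ℝ) ≤ (2:ℝ) ^ (δ * (F n).M) := by
    intro δ hδ
    filter_upwards [h.adm δ hδ] with n hn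
    rcases Nat.eq_zero_or_pos (I n).card with h0 | h0
    · rw [h0, Nat.cast_zero, Real.logb_zero]; positivity
    · refine le_trans ?_ hn.size
      exact Real.logb_le_logb_of_le one_lt_two (by exact_mod_cast h0)
        (by exact_mod_cast hcard n)
  refine ⟨ℓ, I, ct, bt, wt, fun n => (hI n).2, hgood.mono fun n hn => hn.wSh, ?_, ?_⟩
  · refine ⟨hgeo, fun n i K hK => h.pos n i K hK.1, fun n => (h.ok n).r0, fun n => (h.ok n).Λ1,
      fun n => (hI n).1, ?_, ?_, ?_, ?_, ?_⟩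
    · simp only [etop]; exact h.len
    · intro δ hδ
      simp only [etop]
      exact hsize δ hδ
    · intro δ hδ
      simp only [etop]
      filter_upwards [h.adm δ hδ] with n hn
      exact hn.res
    · intro δ hδ
      simp only [etop]
      filter_upwards [h.adm δ hδ] with n hn
      exact hn.slope
    · filter_upwards [h.adm 1 one_pos] with n hn
      intro x hx i
      exact hn.vel _ ((hI n).2 (mem_enc.2 ⟨x, hx, rfl⟩)) i
  · intro R
    have hd := baseM_rpow (fun n => (F n).M) (fun n => (h.ok n).M1) h.len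
    refine ⟨?_, ?_, ?_, ?_, ?_, ?_, ?_, ?_, ?_, h.shpos, ?_, ?_, h.D0, h.β0, h.CU0, ?_, ?_, ?_⟩
    · intro n
      have := (h.ok n).M1
      show (F n).m < (F n).m + (F n).M
      omega
    · intro n
      show (1 / 2 : ℝ) ^ (F n).M = (1 / 2 : ℝ) ^ ((F n).m + (F n).M - (F n).m)
      congr 1
      omega
    · exact hgood.mono fun n hn => hn.ne
    · -- card
      intro ε hε
      filter_upwards [hsize ε hε, hgood] with n h1 h2
      rw [hd]
      have e : -(-ε * ((F n).M : ℝ)) = ε * (F n).M := by ring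
      rw [e]
      refine le_trans ?_ h1
      have hc : (1:ℝ) ≤ ((I n).card : ℝ) := by
        have := card_pos.2 h2.ne
        exact_mod_cast this
      have h3 : 0 ≤ Real.log ((I n).card : ℝ) := Real.log_nonneg hc
      unfold Real.logb
      rw [le_div_iff₀ (Real.log_pos (by norm_num))]
      have h4 : Real.log 2 ≤ 1 := by
        have := Real.log_two_lt_d9
        linarith
      nlinarith
    · filter_upwards with n
      intro x hx y hy
      exact (h.ok n).cell _ ((hI n).2 (mem_enc.2 ⟨x, hx, rfl⟩)) _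
        ((hI n).2 (mem_enc.2 ⟨y, hy, rfl⟩))
    · exact hgood.mono fun n hn => hn.one
    · -- own
      intro ε hε
      filter_upwards [hgood, hN_small h hε] with n h1 h2
      intro x hx
      have h3 := h1.own x hx
      rw [hd]
      have e : -((-1 + ε) * ((F n).M : ℝ)) = (F n).M - ε * (F n).M := by ring
      rw [e]
      have h4 : (2:ℝ) ^ ((F n).M + 20) ≤ 2 ^ (hN F Sh K0 n) *
          ((own (I n) (F n).m (F n).top x).card : ℝ) := by exact_mod_cast h3
      have h5 : (0:ℝ) < 2 ^ (hN F Sh K0 n) := by positivity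
      rw [← div_le_iff₀' h5] at h4
      refine le_trans ?_ h4
      rw [le_div_iff₀ h5, ← Real.rpow_natCast, ← Real.rpow_natCast, ← Real.rpow_add (by norm_num)]
      refine Real.rpow_le_rpow_of_exponent_le (by norm_num) ?_
      push_cast
      linarith
    · intro n i J s hs
      have h1 : LegS (Leg n) (Sh n) i (F n).r (F n).Λm (atJ J s) := hs
      exact h1.2
    · intro ε hε
      filter_upwards [h.shc ε hε] with n hn
      rw [hd]
      have e : -(-ε * ((F n).M : ℝ)) = ε * (F n).M := by ring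
      rw [e]; exact hn
    · intro n i J s hs
      have h1 : LegS (Leg n) (Sh n) i (F n).r (F n).Λm (atJ J s) := hs
      obtain ⟨pa, p2, p1⟩ := h.pos n i _ h1.1
      have pa' : 0 < s.a := pa
      have p2' : 0 < s.w 2 := p2
      have p1' : 0 < s.w 1 := p1
      have hr : 0 < rho i := by unfold rho; positivity
      show 0 < s.a * s.w 2 * s.w 1 *
        ((s.a / rho i) ^ q 0 * (s.w 1 / rho i) ^ q 1 * (s.w 2 / rho i) ^ q 2)
      positivity
    · intro n i J s J' s' _ _ hw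
      have h0 : s.a = s'.a := congrFun hw 0
      have h1 : s.w 1 = s'.w 1 := congrFun hw 1
      have h2 : s.w 2 = s'.w 2 := congrFun hw 2
      show s.a * s.w 2 * s.w 1 *
        ((s.a / rho i) ^ q 0 * (s.w 1 / rho i) ^ q 1 * (s.w 2 / rho i) ^ q 2) = s'.a * s'.w 2 *
        s'.w 1 * ((s'.a / rho i) ^ q 0 * (s'.w 1 / rho i) ^ q 1 * (s'.w 2 / rho i) ^ q 2)
      rw [h0, h1, h2]
    · exact hgood.mono fun n hn => hn.cl _ n (hgeo n)
    · -- low
      intro ε hε
      have hlen := h.len.eventually_ge_atTop (Real.logb 2 (4 * K0 ^ 2) / (ε / 3))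
      filter_upwards [hgood, h.val (ε / 3) (by positivity), h.shc (ε / 3) (by positivity), hlen]
        with n h1 h2 h3 h4
      have h5 := h1.low _ n (hgeo n)
      have hS := h.Shne n
      have hK0 : 0 < K0 := by have := h.K01; linarith
      have hA : 0 < 4 * K0 ^ 2 * ((Sh n).card : ℝ) := by positivity
      have hD0 := h.D0 n
      have hD1 := (h.ok n).D1p
      -- the density
      have h6 : (F n).D0 * (2:ℝ) ^ ((β - ε / 3) * (F n).M) ≤ (F n).D1 := by
        have h7 : (β - ε / 3) * (F n).M ≤ Real.logb 2 ((F n).D1 / (F n).D0) := by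
          have h8 : β - ε / 3 ≤ Real.logb 2 ((F n).D1 / (F n).D0) / (F n).M := h2
          rwa [le_div_iff₀ (hM0 n)] at h8
        rw [Real.le_logb_iff_rpow_le (by norm_num) (by positivity), le_div_iff₀ hD0] at h7
        linarith
      have h7 : 4 * K0 ^ 2 * ((Sh n).card : ℝ) ≤ (2:ℝ) ^ (2 * (ε / 3) * (F n).M) := by
        have h8 : (4 * K0 ^ 2 : ℝ) ≤ (2:ℝ) ^ (ε / 3 * (F n).M) := by
          rw [← Real.logb_le_iff_le_rpow (by norm_num) (by positivity)]
          rw [div_le_iff₀ (by positivity)] at h4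
          linarith
        calc 4 * K0 ^ 2 * ((Sh n).card : ℝ)
            ≤ (2:ℝ) ^ (ε / 3 * (F n).M) * (2:ℝ) ^ (ε / 3 * (F n).M) :=
              mul_le_mul h8 h3 hS.le (by positivity)
          _ = _ := by rw [← Real.rpow_add (by norm_num)]; congr 1; ring
      have h8 : (F n).D0 * (baseM (fun n => (F n).M) (fun n => (h.ok n).M1) h.len).d n ^
          (-β + ε) ≤ (F n).D1 / (4 * K0 ^ 2 * ((Sh n).card : ℝ)) := by
        rw [le_div_iff₀ hA, hd]
        calc (F n).D0 * (2:ℝ) ^ (-((-β + ε) * ((F n).M : ℝ))) * (4 * K0 ^ 2 * ((Sh n).card : ℝ))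
            ≤ (F n).D0 * (2:ℝ) ^ (-((-β + ε) * ((F n).M : ℝ))) *
              (2:ℝ) ^ (2 * (ε / 3) * (F n).M) := mul_le_mul_of_nonneg_left h7 (by positivity)
          _ = (F n).D0 * (2:ℝ) ^ ((β - ε / 3) * (F n).M) := by
              rw [mul_assoc, ← Real.rpow_add (by norm_num)]; congr 2; ring
          _ ≤ (F n).D1 := h6
      intro J t ht
      refine le_trans ?_ (h5 J t ht)
      refine mul_le_mul_of_nonneg_right h8 ?_
      have h9 := (h1.cl _ n (hgeo n) J t ht).2.1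
      have h10 : LegS (Leg n) (Sh n) (F n).top (F n).r (F n).Λm (atJ J (bt n (ct n t J))) := h9
      obtain ⟨pa, p2, p1⟩ := h.pos n _ _ h10.1
      rw [(hgeo n).valx_eq 0 (F n).top J (s := bt n (ct n t J)) pa p2 p1]
      have p0 : (0:ℝ) < 2 ^ (F n).top := by positivity
      unfold cap5
      positivity
    · -- up
      intro ε hε
      have hlen := h.len.eventually_ge_atTop (10 * CU / (ε / 2))
      filter_upwards [hgood, h.adm (ε / 2 / (CU + 1)) (by have := h.CU0; positivity), hlen] with n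
        h1 h2 h3
      intro i hi1 hi2 J s hs hR
      have h4 := h1.up _ n (hgeo n) R i hi1 hi2 J s hs hR
      refine h4.trans ?_
      have hCU := h.CU0
      have hD0 := h.D0 n
      have h5 : CU * (F n).h ≤ ε / 2 * (F n).M := by
        have h6 := h2.hle
        have hp : 0 < CU + 1 := by linarith
        have h7 : (F n).h * (CU + 1) ≤ ε / 2 * (F n).M := by
          have : ε / 2 / (CU + 1) * (F n).M = ε / 2 * (F n).M / (CU + 1) := by ring
          rw [this, le_div_iff₀ hp] at h6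
          exact h6
        have h8 : (0:ℝ) ≤ (F n).h := Nat.cast_nonneg _
        nlinarith
      have h6 : 10 * CU ≤ ε / 2 * (F n).M := by
        rw [div_le_iff₀ (by positivity)] at h3
        linarith
      have hv : 0 ≤ valx (gSeq Leg q F Sh ℓ) 0 n i J s := by
        have h10 : LegS (Leg n) (Sh n) i (F n).r (F n).Λm (atJ J s) := hs
        obtain ⟨pa, p2, p1⟩ := h.pos n _ _ h10.1
        rw [(hgeo n).valx_eq 0 i J (s := s) pa p2 p1]
        have p0 : (0:ℝ) < 2 ^ i := by positivity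
        unfold cap5
        positivity
      refine mul_le_mul_of_nonneg_right ?_ hv
      rw [hd, mul_comm _ (F n).D0, mul_assoc]
      refine mul_le_mul_of_nonneg_left ?_ hD0.le
      rw [← Real.rpow_add (by norm_num)]
      refine Real.rpow_le_rpow_of_exponent_le (by norm_num) ?_
      nlinarith

end

end Crest.Agent.R136.XIn823
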