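import Crest.Agent.R136.XIn2_823
import Crest.Agent.R136.Rnd2_289
import Crest.Agent.R136.UB4_861

/-!
# R136, block U4 (helper823): grids of widths

* `RndAt`      : rounding of the sheets of a level into the finite set `Sh`;
* `valB_grid`  : an upper bound for the values of the class gives one for the class with widths in `Sh`;
* `gridN`, `rndAt_N`, `seqDat_N`, `exists_seqDat` : the instance `LegN`.
-/

set_option autoImplicit false
set_option linter.unusedVariables false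

open Finset Filter Topology

namespace Crest.Agent.R136.XIn823

open Sh605 K4 KS879 En879 XA248 Win823 Cod289
open Crest.Agent.R138.Ex926 (Base U)
open Crest.Agent.R138.Mk163 (zc zl rho alive own)
open MkA627 (Geo)

noncomputable section

/-- rounding of the sheets of level `i` of the class `Leg` into `Sh`, inside the class `Leg'` -/
def RndAt (Leg Leg' : ℕ → ℝ → ℝ → Plk4 → Prop) (q : Fin 3 → ℝ) (Sh : Finset (Fin 3 → ℝ))
    (K0 : ℝ) (i : ℕ) (r Λ : ℝ) : Prop :=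
  ∀ K, Leg i r Λ K → ∀ O : Finset (Ln4 × ℤ), (∀ o ∈ O, In4 i K o) →
    ∃ K', Leg' i r Λ K' ∧ wd K' ∈ Sh ∧ K'.j = K.j ∧ cap5 q i K' ≤ K0 * cap5 q i K ∧
      ∀ _ : DecidablePred (In4 i K'),
        (O.card : ℝ) ≤ K0 * ((O.filter fun o => In4 i K' o).card : ℝ)

/-- the configuration with another upper density -/
def setD0 (F : Cf6) (D : ℝ) : Cf6 := { F with D0 := D }

theorem cap5_pos {q : Fin 3 → ℝ} {i : ℕ} {K : Plk4} (h : ∀ k, 0 < wd K k) : 0 < cap5 q i K := by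
  have pa : 0 < K.a := h 0
  have p1 : 0 < K.w 1 := h 1
  have p2 : 0 < K.w 2 := h 2
  have p0 : (0:ℝ) < 2 ^ i := by positivity
  unfold cap5
  positivity

open Classical in
/-- bounds for the rounded sheets are bounds for all sheets -/
theorem objs_of_grid {Leg Leg' : ℕ → ℝ → ℝ → Plk4 → Prop} {q : Fin 3 → ℝ}
    {Sh : Finset (Fin 3 → ℝ)} {K0 : ℝ} {i : ℕ} {r Λ : ℝ} (hR : RndAt Leg Leg' q Sh K0 i r Λ)
    (hK0 : 1 ≤ K0) {D0 : ℝ} (hD0 : 0 ≤ D0) {I : Finset (Ln4 × ℝ)}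
    (h : ∀ K, LegS Leg' Sh i r Λ K → ((objs4 i I K).card : ℝ) ≤ D0 * cap5 q i K)
    {K : Plk4} (hK : Leg i r Λ K) :
    ((objs4 i I K).card : ℝ) ≤ K0 ^ 2 * D0 * cap5 q i K := by
  obtain ⟨K', h1, h2, -, h3, h4⟩ := hR K hK (objs4 i I K) (fun o ho => by
    unfold objs4 at ho
    exact (mem_filter.1 ho).2)
  have h5 := h K' ⟨h1, h2⟩
  have h6 : (((objs4 i I K).filter fun o => In4 i K' o).card : ℝ) ≤
      ((objs4 i I K').card : ℝ) := by
    refine Nat.cast_le.2 (card_le_card fun o ho => ?_)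
    unfold objs4 at ho ⊢
    rw [mem_filter, mem_filter] at ho
    rw [mem_filter]
    exact ⟨ho.1.1, ho.2⟩
  have hK0' : 0 < K0 := by linarith
  calc ((objs4 i I K).card : ℝ) ≤ K0 * _ := h4 _
    _ ≤ K0 * (D0 * cap5 q i K') := mul_le_mul_of_nonneg_left (h6.trans h5) hK0'.le
    _ ≤ K0 * (D0 * (K0 * cap5 q i K)) := by gcongr
    _ = _ := by ring

/-- a configuration for the rounded class is one for the class -/
theorem ok6_of_grid {Leg : ℕ → ℝ → ℝ → Plk4 → Prop} {q : Fin 3 → ℝ}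
    {Sh : Finset (Fin 3 → ℝ)} {K0 : ℝ} {F : Cf6} (hF : Ok6 (LegS Leg Sh) q F) (hK0 : 1 ≤ K0)
    (hD0 : 0 ≤ F.D0)
    (hR : ∀ i, F.m ≤ i → i ≤ F.m + F.h → RndAt Leg Leg q Sh K0 i F.r F.Λm) :
    Ok6 Leg q (setD0 F (K0 ^ 2 * F.D0)) := by
  refine ⟨⟨hF.M1, hF.r0, hF.rle, hF.Λ1, hF.ne, hF.cell, hF.D1p, fun x hx => (hF.legal x hx).1,
    hF.mem, hF.low, ?_⟩, hF.h20, hF.hM, ?_, hF.own⟩
  · intro K hK
    exact objs_of_grid (hR F.m le_rfl (Nat.le_add_right _ _)) hK0 hD0 (fun K hK => hF.up K hK) hK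
  · intro i h1 h2 K hK
    exact objs_of_grid (hR i h1 h2) hK0 hD0 (fun K hK => hF.ups i h1 h2 K hK) hK

/-- the upper density is positive -/
theorem D0_pos_of_grid {Leg : ℕ → ℝ → ℝ → Plk4 → Prop} {q : Fin 3 → ℝ}
    {Sh : Finset (Fin 3 → ℝ)} {K0 : ℝ} {F : Cf6} (hF : Ok6 (LegS Leg Sh) q F) (hK0 : 1 ≤ K0)
    (hSh : ∀ w ∈ Sh, ∀ k, 0 < w k) (hR : RndAt Leg Leg q Sh K0 F.m F.r F.Λm)
    {K : Plk4} (hK : Leg F.m F.r F.Λm K) {x : Ln4 × ℝ} (hx : x ∈ F.I)
    (hxK : In4 F.m K (ob4 F.m x)) : 0 < F.D0 := by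
  classical
  obtain ⟨K', h1, h2, -, h3, h4⟩ := hR K hK {ob4 F.m x} (by simpa using hxK)
  have h5 := hF.up K' ⟨h1, h2⟩
  have hc := cap5_pos (q := q) (i := F.m) (hSh _ h2)
  have h6 := h4 (fun _ => Classical.propDecidable _)
  have hK0' : 0 < K0 := by linarith
  have h7 : 0 < ((({ob4 F.m x} : Finset (Ln4 × ℤ)).filter fun o => In4 F.m K' o).card : ℝ) := by
    by_contra hcon
    have h8 := le_antisymm (not_lt.1 hcon) (Nat.cast_nonneg _)
    rw [h8, mul_zero, card_singleton, Nat.cast_one] at h6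
    linarith
  have h8 : In4 F.m K' (ob4 F.m x) := by
    have h9 : 0 < ((({ob4 F.m x} : Finset (Ln4 × ℤ)).filter fun o => In4 F.m K' o).card) := by
      exact_mod_cast h7
    obtain ⟨o, ho⟩ := card_pos.1 h9
    rw [mem_filter, mem_singleton] at ho
    rw [← ho.1]; exact ho.2
  have h9 : 1 ≤ ((objs4 F.m F.I K').card : ℝ) := by
    have : 0 < (objs4 F.m F.I K').card := by
      refine card_pos.2 ⟨ob4 F.m x, ?_⟩
      unfold objs4
      exact mem_filter.2 ⟨mem_image_of_mem _ hx, h8⟩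
    exact_mod_cast this
  by_contra hcon
  push Not at hcon
  have : F.D0 * cap5 q F.m K' ≤ 0 := mul_nonpos_of_nonpos_of_nonneg hcon hc.le
  linarith

/-- **an upper bound for the class gives one for the class with widths in `Sh`** -/
theorem valB_grid {Leg : ℕ → ℕ → ℝ → ℝ → Plk4 → Prop} {q : Fin 3 → ℝ}
    {Sh : ℕ → Finset (Fin 3 → ℝ)} {𝒞 𝒞' : ℝ → ℕ → Cf6 → Prop} {β' K0 : ℝ}
    (h : ValB Leg q 𝒞 β') (hK0 : 1 ≤ K0) (hSh : ∀ n, ∀ w ∈ Sh n, ∀ k, 0 < w k)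
    (h𝒞 : ∀ η : ℝ, 0 < η → ∀ᶠ n in (U : Filter ℕ), ∀ F : Cf6, 𝒞' η n F →
      Ok6 (LegS (Leg n) (Sh n)) q F → (∀ D, 𝒞 (η / 2) n (setD0 F D)) ∧
      (∀ i, F.m ≤ i → i ≤ F.m + F.h → RndAt (Leg n) (Leg n) q (Sh n) K0 i F.r F.Λm) ∧
      ∃ K, Leg n F.m F.r F.Λm K ∧ ∃ x ∈ F.I, In4 F.m K (ob4 F.m x)) :
    ValB (fun n => LegS (Leg n) (Sh n)) q 𝒞' β' := by
  intro η hη
  obtain ⟨δ, hδ, h1⟩ := h (η / 2) (by positivity)
  have hlog : 0 ≤ Real.logb 2 K0 := Real.logb_nonneg (by norm_num) hK0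
  refine ⟨min δ (η / (4 * (Real.logb 2 K0 + 1))), lt_min hδ (by positivity), ?_⟩
  filter_upwards [h1, h𝒞 η hη] with n h2 h3
  intro F hF hok hadm hM
  obtain ⟨h4, h5, K, hK, x, hx, hxK⟩ := h3 F hF hok
  have hD0 := D0_pos_of_grid hok hK0 (hSh n) (h5 F.m le_rfl (Nat.le_add_right _ _)) hK hx hxK
  have hok' := ok6_of_grid hok hK0 hD0.le h5
  have hadm' : Adm6 δ (setD0 F (K0 ^ 2 * F.D0)) := by
    have h6 := hadm.mono (min_le_left _ _)
    exact ⟨h6.hle, h6.size, h6.res, h6.slope, h6.vel⟩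
  have hM' : 1 / δ ≤ ((setD0 F (K0 ^ 2 * F.D0)).M : ℝ) :=
    (one_div_le_one_div_of_le (lt_min hδ (by positivity)) (min_le_left _ _)).trans hM
  have h6 := h2 _ (h4 _) hok' hadm' hM'
  have hM0 : (0:ℝ) < F.M := by exact_mod_cast hok.M1
  have h7 : (4 * (Real.logb 2 K0 + 1)) / η ≤ F.M := by
    refine le_trans ?_ hM
    rw [← one_div_div]
    exact one_div_le_one_div_of_le (lt_min hδ (by positivity)) (min_le_right _ _)
  have h8 : F.toCf4.val - 2 * Real.logb 2 K0 / F.M ≤ (setD0 F (K0 ^ 2 * F.D0)).toCf4.val := by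
    show Real.logb 2 (F.D1 / F.D0) / F.M - 2 * Real.logb 2 K0 / F.M ≤
      Real.logb 2 (F.D1 / (K0 ^ 2 * F.D0)) / F.M
    have hD1 := hok.D1p
    have e : F.D1 / (K0 ^ 2 * F.D0) = F.D1 / F.D0 / K0 ^ 2 := by
      field_simp
    have e2 : Real.logb 2 (F.D1 / F.D0 / K0 ^ 2) =
        Real.logb 2 (F.D1 / F.D0) - 2 * Real.logb 2 K0 := by
      rw [Real.logb_div (x := F.D1 / F.D0) (by positivity) (by positivity), Real.logb_pow]
      push_cast
      rfl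
    rw [e, e2, ← sub_div]
  have h9 : 2 * Real.logb 2 K0 / F.M ≤ η / 2 := by
    rw [div_le_iff₀ hM0]
    rw [div_le_iff₀ hη] at h7
    nlinarith
  linarith

/-! ### the instance `LegN` -/

/-- dyadic widths -/
def gridW (r : ℝ) (N : ℕ) : Finset (Fin 3 → ℝ) :=
  (Rnd289.shps r N).image fun x => ![x.1, x.2.2, x.2.1]

theorem gridW_card (r : ℝ) (N : ℕ) : ((gridW r N).card : ℝ) ≤ ((N : ℝ) + 1) ^ 3 := by
  refine le_trans ?_ (Rnd289.shps_card r N)
  exact_mod_cast card_image_le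

theorem gridW_pos {r : ℝ} (hr : 0 < r) (N : ℕ) : ∀ w ∈ gridW r N, ∀ k, 0 < w k := by
  intro w hw k
  obtain ⟨x, hx, rfl⟩ := mem_image.1 hw
  obtain ⟨y, -, rfl⟩ := mem_image.1 hx
  fin_cases k <;> simp <;> positivity

/-- number of dyadic scales -/
def gridN (r : ℝ) (lo : ℕ) : ℕ := ⌈Real.logb 2 (1 / (r * 2 ^ lo))⌉₊

theorem gridN_lt {r : ℝ} (hr : 0 < r) {lo i : ℕ} (h : lo ≤ i) :
    (1:ℝ) / 2 ^ i < r * 2 ^ (gridN r lo + 1) := by
  have h1 := Nat.le_ceil (Real.logb 2 (1 / (r * 2 ^ lo)))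
  have hX : 0 < 1 / (r * 2 ^ lo) := by positivity
  rw [Real.logb_le_iff_le_rpow (by norm_num) hX, Real.rpow_natCast] at h1
  have h2 : (1:ℝ) / 2 ^ lo ≤ r * 2 ^ gridN r lo := by
    rw [div_le_iff₀ (by positivity)] at h1 ⊢
    calc (1:ℝ) ≤ 2 ^ gridN r lo * (r * 2 ^ lo) := h1
      _ = _ := by ring
  have h3 : (1:ℝ) / 2 ^ i ≤ 1 / 2 ^ lo :=
    one_div_le_one_div_of_le (by positivity) (pow_le_pow_right₀ one_le_two h)
  have h4 : (0:ℝ) < r * 2 ^ gridN r lo := by positivity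
  rw [pow_succ]
  linarith

/-- the constant of the rounding -/
def K0N (q : Fin 3 → ℝ) : ℝ := 17 ^ 9 * (2:ℝ) ^ (3 * qs q)

theorem K0N_ge (q : Fin 3 → ℝ) : 1 ≤ K0N q := by
  have hqs : 0 ≤ 3 * qs q := by unfold qs; positivity
  have hA1 : (1:ℝ) ≤ (2:ℝ) ^ (3 * qs q) := Real.one_le_rpow (by norm_num) hqs
  unfold K0N
  nlinarith

theorem rndAt_N (q : Fin 3 → ℝ) {r Λ : ℝ} (hr : 0 < r) {lo i : ℕ} (h : lo ≤ i) :
    RndAt LegN LegN q (gridW r (gridN r lo)) (K0N q) i r Λ := by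
  intro K hK O hO
  obtain ⟨K', h1, h2, h3, h4⟩ := Rnd289.rnd_cfgN (Λ := Λ) hr hK O hO
  have hN := gridN_lt hr h
  have p : 0 < K.a ∧ 0 < K.w 0 ∧ 0 < K.w 2 ∧ 0 < K.w 1 := (Sh321.ShN.toC hr hK.1).pos hr
  have hqs : 0 ≤ 3 * qs q := by unfold qs; positivity
  have hA1 : (1:ℝ) ≤ (2:ℝ) ^ (3 * qs q) := Real.one_le_rpow (by norm_num) hqs
  have hw1 : K'.w 1 ≤ 1 / 2 ^ i := h1.2
  have hw2 : K'.w 2 ≤ K'.w 1 := h1.1.w_le
  have ha : K'.a ≤ K'.w 2 := h1.1.a_le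
  obtain ⟨e0, e1, e2, ei, ej, ek⟩ := h2
  refine ⟨K', h1, ?_, h3.ja, ?_, ?_⟩
  · refine mem_image.2 ⟨Rnd289.shp K', mem_image.2 ⟨(e0, e1, e2), ?_, ?_⟩, ?_⟩
    · rw [mem_product, mem_product, mem_range, mem_range, mem_range]
      refine ⟨?_, ?_, ?_⟩
      · exact Nat.lt_succ_of_le (Rnd289.exp_le hr (by rw [← ei]; linarith))
      · exact Nat.lt_succ_of_le (Rnd289.exp_le hr (by rw [← ej]; linarith))
      · exact Nat.lt_succ_of_le (Rnd289.exp_le hr (by rw [← ek]; linarith))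
    · simp only [Rnd289.shp, ei, ej, ek]
    · funext k
      fin_cases k <;> rfl
  · refine (Rnd289.cap5_comp h3 p.1 p.2.2.1 p.2.2.2).1.trans ?_
    have h0 : 0 ≤ cap5 q i K := by
      have pa := p.1; have p2 := p.2.2.1; have p1 := p.2.2.2
      unfold cap5; positivity
    refine mul_le_mul_of_nonneg_right ?_ h0
    unfold K0N
    exact le_mul_of_one_le_left (by positivity) (by norm_num)
  · intro _
    have h5 : (O.card : ℝ) ≤ 17 ^ 9 * ((O.filter fun o => In4 i K' o).card : ℝ) := by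
      convert h4
    refine h5.trans ?_
    refine mul_le_mul_of_nonneg_right ?_ (Nat.cast_nonneg _)
    unfold K0N
    exact le_mul_of_one_le_right (by positivity) hA1

theorem legN_pos {i : ℕ} {r Λ : ℝ} (hr : 0 < r) {K : Plk4} (hK : LegN i r Λ K) :
    0 < K.a ∧ 0 < K.w 2 ∧ 0 < K.w 1 := by
  have h := (Sh321.ShN.toC hr hK.1).pos hr
  exact ⟨h.1, h.2.2.1, h.2.2.2⟩

/-- the exponent of (UB) -/
def CUN (q : Fin 3 → ℝ) : ℝ := (29 : ℝ) + (4 + 1) * qs q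

theorem CUN_nonneg (q : Fin 3 → ℝ) : 0 ≤ CUN q := by
  have hqs : 0 ≤ qs q := by unfold qs; positivity
  unfold CUN; linarith

theorem hUB_N (q : Fin 3 → ℝ) (G : Cf6) (hG : Ok6 LegN q G) (S : Plk4)
    (hS : LegN G.top G.r G.Λm S) :
    ((objs4 G.top G.I S).card : ℝ) ≤
      (2:ℝ) ^ (CUN q * (G.M + G.h + 10)) * G.D0 * cap5 q G.top S := by
  have h := Val289.hUB_G Val289.legOf_N
    (UB289.ubgG (κ := 24) (p := 4) UB289.pos_shN (by norm_num) UB861.ubOneC) (by norm_num) q G hG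
    S hS
  refine h.trans (le_of_eq ?_)
  unfold CUN
  norm_num

theorem val_pos {q : Fin 3 → ℝ} {G : Cf6} (hG : Ok6 LegN q G) : 0 < G.D0 := by
  obtain ⟨h, -⟩ := Val289.val_coreG Val289.legOf_N
    (UB289.ubgG (κ := 24) (p := 4) UB289.pos_shN (by norm_num) UB861.ubOneC) (by norm_num) hG
    (E := qs q * ((4 + 1) * (G.M + G.h + 10)))
    (fun a w2 w1 pa p2 p1 a' w2' w1' => Val289.rew_any hG.hM pa p2 p1 a' w2' w1')
  exact h

/-- **input data for `LegN`** -/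
theorem seqDat_N {q : Fin 3 → ℝ} {β : ℝ} {F : ℕ → Cf6} (hβ : 0 ≤ β)
    (hok : ∀ n, Ok6 LegN q (F n)) (hadm : ∀ δ : ℝ, 0 < δ → ∀ᶠ n in (U : Filter ℕ), Adm6 δ (F n))
    (hlen : Tendsto (fun n => ((F n).M : ℝ)) U atTop)
    (hval : ∀ ε : ℝ, 0 < ε → ∀ᶠ n in (U : Filter ℕ), β - ε ≤ (F n).toCf4.val) :
    SeqDat (fun _ => LegN) q F (fun n => gridW (F n).r (gridN (F n).r (F n).m)) (CUN q) (K0N q)
      β where
  pos := fun n i K hK => legN_pos (hok n).r0 hK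
  CU0 := CUN_nonneg q
  K01 := K0N_ge q
  β0 := hβ
  ok := hok
  all := fun n i h1 h2 S hS => ups_all clsOK6_N (CUN_nonneg q) (hUB_N q) (hok n)
    (val_pos (hok n)).le h1 h2 hS
  D0 := fun n => val_pos (hok n)
  rnd := fun n x hx K hK O hO => by
    obtain ⟨K', k1, k2, -, k3, k4⟩ := rndAt_N q (hok n).r0 (Nat.le_add_right _ _) K (by
      rw [hK]; exact (hok n).legal x hx) O hO
    exact ⟨K', k1, k2, k3, k4⟩
  shpos := fun n => gridW_pos (hok n).r0 _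
  shc := by
    intro ε hε
    have h1 := hlen.eventually_ge_atTop (9 / (ε / 2))
    filter_upwards [hadm (ε / 6) (by positivity), h1] with n h2 h3
    refine (gridW_card _ _).trans ?_
    have hr := (hok n).r0
    have hrm : (F n).r * 2 ^ (F n).m ≤ 1 := by
      have h4 := (hok n).rle
      have h5 : (1:ℝ) / 2 ^ (F n).top ≤ 1 / 2 ^ (F n).m :=
        one_div_le_one_div_of_le (by positivity)
          (pow_le_pow_right₀ one_le_two (Nat.le_add_right _ _))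
      have h6 := h4.trans h5
      rwa [le_div_iff₀ (by positivity)] at h6
    have hl0 : 0 ≤ Real.logb 2 (1 / ((F n).r * 2 ^ (F n).m)) :=
      Real.logb_nonneg (by norm_num) ((one_le_div (by positivity)).2 hrm)
    have h4 := (Nat.ceil_lt_add_one hl0).le
    have h5 := h2.res
    set X : ℝ := (2:ℝ) ^ (ε / 6 * (F n).M) with hX
    have hX1 : 1 ≤ X := Real.one_le_rpow (by norm_num) (by positivity)
    have h6 : ((gridN (F n).r (F n).m : ℕ) : ℝ) + 1 ≤ 4 * X := by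
      unfold gridN
      linarith
    have h7 : (((gridN (F n).r (F n).m : ℕ) : ℝ) + 1) ^ 3 ≤ (4 * X) ^ 3 :=
      pow_le_pow_left₀ (by positivity) h6 3
    refine h7.trans ?_
    have e1 : (4 * X) ^ 3 = (2:ℝ) ^ (6 + 3 * (ε / 6 * (F n).M)) := by
      rw [Real.rpow_add (by norm_num), mul_comm (3:ℝ), Real.rpow_mul (by norm_num), ← hX]
      norm_num
      ring
    rw [e1]
    refine Real.rpow_le_rpow_of_exponent_le (by norm_num) ?_
    rw [div_le_iff₀ (by positivity)] at h3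
    nlinarith
  len := hlen
  val := hval
  adm := hadm


/-- near-extremal configurations of the full class -/
theorem exists_seqDat {q : Fin 3 → ℝ} {β : ℝ} (hβ : 0 ≤ β) (h : Bet879.IsBeta (Bet879.VV q) β) :
    ∃ F : ℕ → Cf6, SeqDat (fun _ => LegN) q F
      (fun n => gridW (F n).r (gridN (F n).r (F n).m)) (CUN q) (K0N q) β := by
  obtain ⟨F, h1, h2, h3, h4⟩ := Bet879.exists_seq_Cf6 h
  have hU : (U : Filter ℕ) ≤ atTop := by
    rw [← Nat.cofinite_eq_atTop]; exact Filter.hyperfilter_le_cofinite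
  refine ⟨F, seqDat_N hβ h1 (fun δ hδ => ?_) ?_ (fun ε hε => ?_)⟩
  · obtain ⟨N, hN⟩ := exists_nat_gt (1 / δ)
    refine hU ?_
    filter_upwards [eventually_ge_atTop N] with n hn
    refine (h2 n).mono ?_
    rw [div_le_iff₀ (by positivity)]
    rw [div_lt_iff₀ hδ] at hN
    have : (N : ℝ) ≤ n := by exact_mod_cast hn
    nlinarith
  · refine tendsto_atTop_mono (f := fun n : ℕ => (n : ℝ)) (fun n => ?_) ?_
    · have := h3 n; linarith
    · exact (tendsto_natCast_atTop_atTop (R := ℝ)).mono_left hU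
  · have := (h4.eventually (lt_mem_nhds (show β - ε < β by linarith)))
    exact hU (this.mono fun n hn => hn.le)

section

variable {q : Fin 3 → ℝ} {β : ℝ} {F : ℕ → Cf6}
  (h : SeqDat (fun _ => LegN) q F (fun n => gridW (F n).r (gridN (F n).r (F n).m)) (CUN q) (K0N q)
    β)

include h

/-- an upper bound for the rounded class, all windows of the sequence -/
theorem valB_N (x : Fin 3 → ℝ) {β' : ℝ} (hβ' : Bet879.IsBeta (Bet879.VV (q + x)) β') :
    ValB (fun n => LegS LegN (gridW (F n).r (gridN (F n).r (F n).m))) (q + x)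
      (fun _ n G => G.r = (F n).r ∧ (F n).m ≤ G.m) β' := by
  refine valB_grid (valB_of_isBeta hβ') (K0N_ge (q + x)) (fun n => gridW_pos (h.ok n).r0 _) ?_
  intro η hη
  filter_upwards with n
  rintro G ⟨hGr, hGm⟩ hok
  refine ⟨fun _ => trivial, fun i h1 h2 => ?_, ?_⟩
  · rw [hGr]
    exact rndAt_N (q + x) (h.ok n).r0 (hGm.trans h1)
  · obtain ⟨y, hy⟩ := hok.ne
    refine ⟨cubeK G.r (ob4 G.m y), ?_, y, hy, cube_mem hok.r0 _⟩
    refine clsOK6_N.cube _ _ _ _ hok.r0 hok.Λ1 (hok.rle.trans ?_)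
    exact one_div_le_one_div_of_le (by positivity)
      (pow_le_pow_right₀ one_le_two (Nat.le_add_right _ _))

variable {ℓ : ℕ → ℕ → Ln4} {I : ℕ → Finset (ℕ × ℝ)}
  (hC : CodeDat (gSeq (fun _ => LegN) q F (fun n => gridW (F n).r (gridN (F n).r (F n).m)) ℓ) ℓ I
    (fun n => LegS LegN (gridW (F n).r (gridN (F n).r (F n).m))) (fun n => (F n).r)
    (fun n => (F n).Λm) (fun n => (F n).m) (fun n => (F n).top) q)

include hC

/-- **`UBw` for all rewards** -/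
theorem ubw_N (x : Fin 3 → ℝ) {β' : ℝ} (hβ' : Bet879.IsBeta (Bet879.VV (q + x)) β') :
    UBw (gSeq (fun _ => LegN) q F (fun n => gridW (F n).r (gridN (F n).r (F n).m)) ℓ)
      (fun _ _ _ _ => True) I (fun n => (F n).m) (fun n => (F n).top) x β' := by
  refine ubw_of hC (fun n => (h.ok n).rle) (valB_N h x hβ') ?_
  intro η hη
  filter_upwards with n
  intro i j k hi _ _ _ A _ _ c b w D0 D1 _
  exact ⟨rfl, hi⟩

/-- **`UBd`** -/
theorem ubd_N {β' : ℝ} (hβ' : Bet879.IsBeta (Bet879.VV q) β') (Q : ℕ → ℕ → Plk4 → Prop) :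
    UBd (gSeq (fun _ => LegN) q F (fun n => gridW (F n).r (gridN (F n).r (F n).m)) ℓ)
      (fun _ _ _ _ _ => True) Q I (fun n => (F n).m) (fun n => (F n).top) (fun n => (F n).r)
      β' := by
  have hB := valB_N h 0 (β' := β') (by rw [add_zero]; exact hβ')
  rw [add_zero] at hB
  refine ubd_of hC hB ?_ (fun _ _ _ _ _ _ _ => trivial)
  intro η hη
  filter_upwards with n
  intro j k _ _ _ A _ _ _ c b w D0 D1 _ _
  exact ⟨rfl, le_rfl⟩

end

end

end Crest.Agent.R136.XIn823
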