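import Crest.Agent.R136.XA1_248

/-!
# R136, block U4, leaf (UP) (helper823), part 1: the greedy extraction at one level

* `greedy`       : abstract greedy extraction with thresholds.
* `greedy_level` : extraction of all test sets of level `j` of density `> T`.
* `shape_cl`, `shape_low` : the extracted objects of one shape form honest classes.
-/

set_option autoImplicit false
set_option linter.unusedVariables false

open Finset Filter Topology

namespace Crest.Agent.R136.XUp823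

open Crest.Agent.R138.Ex926 Crest.Agent.R138.Dp76
open Crest.Agent.R138.Mk163 (zc zl rho alive own)
open Crest.Agent.R138.MkRef627 (lc)
open MkA627 (Geo)
open XA248

open Classical in
/-- **greedy extraction** -/
theorem greedy {α τ : Type*} (P : τ → α → Prop) (θ : τ → ℝ) (ok : τ → Prop)
    (hθ : ∀ T, ok T → 0 < θ T) (T0 : τ) : ∀ (m : ℕ) (O : Finset α), O.card ≤ m →
    ∃ (E : Finset α) (c : α → ℕ) (g : ℕ → τ), E ⊆ O ∧
      (∀ o ∈ E, ok (g (c o)) ∧ P (g (c o)) o ∧
        θ (g (c o)) ≤ ((E.filter fun p => c p = c o).card : ℝ)) ∧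
      ∀ T, ok T → (((O \ E).filter fun p => P T p).card : ℝ) ≤ θ T := by
  intro m
  induction m with
  | zero =>
    intro O hO
    have h0 : O = ∅ := card_eq_zero.1 (Nat.le_zero.1 hO)
    subst h0
    refine ⟨∅, fun _ => 0, fun _ => T0, Subset.refl _, by simp, fun T hT => ?_⟩
    simpa using (hθ T hT).le
  | succ m ih =>
    intro O hO
    by_cases hg : ∀ T, ok T → ((O.filter fun p => P T p).card : ℝ) ≤ θ T
    · refine ⟨∅, fun _ => 0, fun _ => T0, empty_subset _, by simp, fun T hT => ?_⟩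
      rw [sdiff_empty]
      exact hg T hT
    · push Not at hg
      obtain ⟨T, hT, hlt⟩ := hg
      set C := O.filter fun p => P T p with hC
      have hCp : 0 < C.card := by
        have : (0:ℝ) < (C.card : ℝ) := (hθ T hT).trans hlt
        exact_mod_cast this
      have hCO : C ⊆ O := filter_subset _ _
      have hcard : (O \ C).card ≤ m := by
        rw [card_sdiff_of_subset hCO]; omega
      obtain ⟨E', c', g', hE', h1, h2⟩ := ih (O \ C) hcard
      have hdisj : ∀ p ∈ E', p ∉ C := fun p hp => (Finset.mem_sdiff.1 (hE' hp)).2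
      refine ⟨E' ∪ C, fun o => if o ∈ C then 0 else c' o + 1,
        fun k => if k = 0 then T else g' (k - 1), ?_, ?_, ?_⟩
      · intro p hp
        rcases mem_union.1 hp with h | h
        · exact (Finset.mem_sdiff.1 (hE' h)).1
        · exact hCO h
      · intro o ho
        by_cases hoC : o ∈ C
        · simp only [hoC, if_true]
          refine ⟨hT, (mem_filter.1 hoC).2, hlt.le.trans ?_⟩
          refine Nat.cast_le.2 (card_le_card fun p hp => ?_)
          rw [mem_filter]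
          exact ⟨mem_union_right _ hp, by simp [hp]⟩
        · have hoE : o ∈ E' := (mem_union.1 ho).resolve_right hoC
          obtain ⟨a1, a2, a3⟩ := h1 o hoE
          simp only [hoC, if_false, Nat.add_eq_zero_iff, one_ne_zero, and_false,
            Nat.add_sub_cancel]
          refine ⟨a1, a2, a3.trans (Nat.cast_le.2 (card_le_card fun p hp => ?_))⟩
          rw [mem_filter] at hp ⊢
          refine ⟨mem_union_left _ hp.1, ?_⟩
          rw [if_neg (hdisj p hp.1), hp.2]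
      · intro T' hT'
        refine le_trans (Nat.cast_le.2 (card_le_card fun p hp => ?_)) (h2 T' hT')
        rw [mem_filter, Finset.mem_sdiff, mem_union] at hp
        rw [mem_filter, Finset.mem_sdiff, Finset.mem_sdiff]
        obtain ⟨⟨b1, b2⟩, b3⟩ := hp
        push Not at b2
        exact ⟨⟨⟨b1, b2.2⟩, b2.1⟩, b3⟩

variable {σ κ : Type} [Fintype κ]

theorem rew_zero (i : ℕ) (w : κ → ℝ) : rew i w 0 = 1 := by
  unfold rew
  simp

theorem valx_zero (G : Geo σ κ) (n i : ℕ) (J : ℤ) (s : σ) : valx G 0 n i J s = G.val n i J s := by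
  unfold valx
  rw [rew_zero, mul_one]

open Classical in
theorem mem_alive' {I : Finset (ℕ × ℝ)} {i : ℕ} {J : ℤ} {t : ℕ} :
    t ∈ alive I i J ↔ (t, J) ∈ I.image (lc i) := by
  unfold alive lc
  simp only [mem_image, mem_filter, Prod.mk.injEq]
  constructor
  · rintro ⟨x, ⟨h1, h2⟩, h3⟩
    exact ⟨x, h1, h3, h2⟩
  · rintro ⟨x, h1, h3, h2⟩
    exact ⟨x, ⟨h1, h2⟩, h3⟩

/-- `Up` is monotone in the family -/
theorem up_mono {G : Geo σ κ} {R : Rel κ} {x : κ → ℝ} {n i : ℕ} {F F' : Finset (ℕ × ℝ)} {j : ℕ}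
    {w : κ → ℝ} {D : ℝ} (h : Up G R x n i F j w D) (hF : F' ⊆ F) : Up G R x n i F' j w D := by
  classical
  intro J s hs hR
  refine le_trans (Nat.cast_le.2 (card_le_card ?_)) (h J s hs hR)
  refine filter_subset_filter _ fun t ht => ?_
  rw [mem_alive'] at ht ⊢
  exact image_subset_image hF ht

/-- `Up` is monotone in the bound -/
theorem up_mono_D {G : Geo σ κ} {R : Rel κ} {n i : ℕ} {F : Finset (ℕ × ℝ)} {j : ℕ}
    {w : κ → ℝ} {D D' : ℝ} (h : Up G R 0 n i F j w D)
    (hv : ∀ J s, G.adm n i J s → 0 < G.val n i J s) (hD : D ≤ D') : Up G R 0 n i F j w D' := by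
  intro J s hs hR
  refine (h J s hs hR).trans ?_
  rw [valx_zero]
  exact mul_le_mul_of_nonneg_right hD (hv J s hs).le

open Classical in
/-- **greedy extraction of the test sets of level `j` of density `> T`** -/
theorem greedy_level (G : Geo σ κ) (R : Rel κ) (n j hi : ℕ) (I : Finset (ℕ × ℝ)) (wt : κ → ℝ)
    {T : ℝ} (hT : 0 < T) (hv : ∀ J s, G.adm n j J s → 0 < G.val n j J s) (s0 : σ) :
    ∃ (E : Finset (ℕ × ℤ)) (c : ℕ → ℤ → ℕ) (b : ℕ → σ), E ⊆ I.image (lc j) ∧
      (∀ o ∈ E, G.mem n j o.2 (b (c o.1 o.2)) o.1 ∧ G.adm n j o.2 (b (c o.1 o.2)) ∧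
        R j (wv G (b (c o.1 o.2))) hi wt ∧
        T * G.val n j o.2 (b (c o.1 o.2)) ≤
          ((E.filter fun p => p.2 = o.2 ∧ c p.1 p.2 = c o.1 o.2).card : ℝ)) ∧
      Up G R 0 n j (I.filter fun x => lc j x ∉ E) hi wt T := by
  obtain ⟨E, c, g, hE, h1, h2⟩ := greedy (α := ℕ × ℤ) (τ := ℤ × σ)
    (fun T o => o.2 = T.1 ∧ G.mem n j T.1 T.2 o.1)
    (fun S => T * G.val n j S.1 S.2)
    (fun S => G.adm n j S.1 S.2 ∧ R j (wv G S.2) hi wt)
    (fun S hS => mul_pos hT (hv _ _ hS.1)) (0, s0) _ (I.image (lc j)) le_rfl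
  refine ⟨E, fun t J => c (t, J), fun k => (g k).2, hE, ?_, ?_⟩
  · rintro ⟨t, J⟩ ho
    obtain ⟨⟨a1, a2⟩, ⟨a3, a4⟩, a5⟩ := h1 (t, J) ho
    simp only at a3 a4
    rw [← a3] at a1 a4 a5
    refine ⟨a4, a1, a2, a5.trans (Nat.cast_le.2 (card_le_card ?_))⟩
    rintro ⟨t', J'⟩ hp
    rw [mem_filter] at hp ⊢
    refine ⟨hp.1, ?_, hp.2⟩
    have b := (h1 (t', J') hp.1).2.1.1
    simp only at b
    show J' = J
    rw [b, hp.2, ← a3]
  · intro J s hs hR
    rw [valx_zero]
    refine le_trans (Nat.cast_le.2 ?_) (h2 (J, s) ⟨hs, hR⟩)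
    refine card_le_card_of_injOn (fun t => (t, J)) (fun t ht => ?_) ?_
    · rw [Finset.mem_coe, mem_filter, mem_alive'] at ht
      obtain ⟨x, hx, hxt⟩ := mem_image.1 ht.1
      rw [mem_filter] at hx
      refine Finset.mem_coe.2 ((@Finset.mem_filter _ _ (_) _ _).2
        ⟨(@Finset.mem_sdiff _ (_) _ _ _).2 ⟨?_, ?_⟩, rfl, ht.2⟩)
      · show (t, J) ∈ I.image (lc j)
        rw [← hxt]; exact mem_image_of_mem _ hx.1
      · show (t, J) ∉ E
        rw [← hxt]; exact hx.2
    · intro t _ t' _ h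
      exact congrArg Prod.fst h

/-- the incidences over the extracted objects of one shape -/
noncomputable def shapeF (G : Geo σ κ) (j : ℕ) (I : Finset (ℕ × ℝ)) (E : Finset (ℕ × ℤ))
    (c : ℕ → ℤ → ℕ) (b : ℕ → σ) (w : κ → ℝ) : Finset (ℕ × ℝ) := by
  classical
  exact I.filter fun x => lc j x ∈ E ∧ wv G (b (c (lc j x).1 (lc j x).2)) = w

open Classical in
theorem alive_shape {G : Geo σ κ} {j : ℕ} {I : Finset (ℕ × ℝ)} {E : Finset (ℕ × ℤ)}
    {c : ℕ → ℤ → ℕ} {b : ℕ → σ} {w : κ → ℝ} (hE : E ⊆ I.image (lc j)) {J : ℤ} {t : ℕ} :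
    t ∈ alive (shapeF G j I E c b w) j J ↔ (t, J) ∈ E ∧ wv G (b (c t J)) = w := by
  rw [mem_alive']
  unfold shapeF
  constructor
  · intro h
    obtain ⟨x, hx, hxt⟩ := mem_image.1 h
    rw [mem_filter, hxt] at hx
    exact hx.2
  · rintro ⟨h1, h2⟩
    obtain ⟨x, hx, hxt⟩ := mem_image.1 (hE h1)
    refine mem_image.2 ⟨x, mem_filter.2 ⟨hx, ?_⟩, hxt⟩
    rw [hxt]
    exact ⟨h1, h2⟩

open Classical in
/-- the extracted objects of one shape form honest classes -/
theorem shape_cl {G : Geo σ κ} {n j : ℕ} {I : Finset (ℕ × ℝ)} {E : Finset (ℕ × ℤ)}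
    {c : ℕ → ℤ → ℕ} {b : ℕ → σ} {T : ℝ} (w : κ → ℝ) (hE : E ⊆ I.image (lc j))
    (h : ∀ o ∈ E, G.mem n j o.2 (b (c o.1 o.2)) o.1 ∧ G.adm n j o.2 (b (c o.1 o.2)) ∧
        T * G.val n j o.2 (b (c o.1 o.2)) ≤
          ((E.filter fun p => p.2 = o.2 ∧ c p.1 p.2 = c o.1 o.2).card : ℝ)) :
    IsCl G n j (shapeF G j I E c b w) c b w ∧ Low G 0 n j (shapeF G j I E c b w) c b T := by
  constructor
  · intro J t ht
    rw [alive_shape hE] at ht
    exact ⟨(h (t, J) ht.1).1, (h (t, J) ht.1).2.1, ht.2⟩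
  · intro J t ht
    rw [alive_shape hE] at ht
    rw [valx_zero]
    refine (h (t, J) ht.1).2.2.trans (Nat.cast_le.2 ?_)
    refine card_le_card_of_injOn Prod.fst (fun p hp => ?_) ?_
    · rw [Finset.mem_coe, mem_filter] at hp ⊢
      obtain ⟨h1, h2, h3⟩ := hp
      rw [alive_shape hE]
      have e : (p.1, J) = p := Prod.ext rfl h2.symm
      simp only at h2 h3
      rw [h2] at h3
      refine ⟨⟨by rw [e]; exact h1, by rw [h3]; exact ht.2⟩, h3⟩
    · intro p hp p' hp' hpp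
      rw [Finset.mem_coe, mem_filter] at hp hp'
      exact Prod.ext hpp (hp.2.1.trans hp'.2.1.symm)

open Classical in
/-- the objects of the shape part -/
theorem image_shape {G : Geo σ κ} {j : ℕ} {I : Finset (ℕ × ℝ)} {E : Finset (ℕ × ℤ)}
    {c : ℕ → ℤ → ℕ} {b : ℕ → σ} {w : κ → ℝ} (hE : E ⊆ I.image (lc j)) :
    (shapeF G j I E c b w).image (lc j) =
      E.filter fun o => wv G (b (c o.1 o.2)) = w := by
  ext ⟨t, J⟩
  rw [← mem_alive', alive_shape hE, mem_filter]

end Crest.Agent.R136.XUp823
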