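import Crest.Agent.R136.XUp1_823

/-!
# R136, block U4, leaf (UP) (helper823), part 2

`up_eta` : one error `η`; `leafUp : LeafFin → LeafUp` (diagonal).
-/

set_option autoImplicit false
set_option linter.unusedVariables false

open Finset Filter Topology

namespace Crest.Agent.R136.XUp823

open Crest.Agent.R138.Ex926 Crest.Agent.R138.Dp76
open Crest.Agent.R138.Mk163 (zc zl rho alive own)
open Crest.Agent.R138.MkRef627 (lc)
open MkA627 (Geo)
open XA248

/-! ### counting -/

theorem zc_div' {i j : ℕ} (h : i ≤ j) (z : ℝ) : zc i z = zc j z / 2 ^ (j - i) := by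
  unfold zc
  have e : (2:ℝ) ^ i * z = ((2:ℝ) ^ j * z) / ((2 ^ (j - i) : ℕ) : ℝ) := by
    push_cast
    have : (2:ℝ) ^ j = 2 ^ i * 2 ^ (j - i) := by rw [← pow_add]; congr 1; omega
    rw [this]; field_simp
  rw [e, Int.floor_div_natCast]
  push_cast
  rfl

open Classical in
/-- an object of level `i` has at most `2^(hi - i)` incidences -/
theorem fib_le {I : Finset (ℕ × ℝ)} {i hi : ℕ} (hij : i ≤ hi)
    (hone : ∀ x ∈ I, ∀ y ∈ I, x.1 = y.1 → zc hi x.2 = zc hi y.2 → x = y) (E : Finset (ℕ × ℤ)) :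
    (I.filter fun x => lc i x ∈ E).card ≤ 2 ^ (hi - i) * E.card := by
  refine card_le_mul_card_image_of_maps_to (f := lc i) (fun x hx => (mem_filter.1 hx).2) _ ?_
  rintro ⟨t, J⟩ _
  have h1 : (0:ℤ) < 2 ^ (hi - i) := by positivity
  have h2 : (((I.filter fun x => lc i x ∈ E).filter fun x => lc i x = (t, J))).card ≤
      (Finset.Ico (J * 2 ^ (hi - i)) (J * 2 ^ (hi - i) + 2 ^ (hi - i))).card := by
    refine card_le_card_of_injOn (fun x => zc hi x.2) (fun x hx => ?_) ?_
    · rw [Finset.mem_coe, mem_filter, mem_filter] at hx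
      have h3 : zc i x.2 = J := congrArg Prod.snd hx.2
      rw [zc_div' hij] at h3
      rw [Finset.mem_coe, Finset.mem_Ico]
      have e1 := Int.ediv_mul_le (zc hi x.2) h1.ne'
      have e2 := Int.lt_ediv_add_one_mul_self (zc hi x.2) h1
      rw [h3] at e1 e2
      exact ⟨e1, by linarith⟩
    · intro x hx y hy hxy
      rw [Finset.mem_coe, mem_filter, mem_filter] at hx hy
      have h3 : x.1 = t := congrArg Prod.fst hx.2
      have h4 : y.1 = t := congrArg Prod.fst hy.2
      exact hone x hx.1.1 y hy.1.1 (h3.trans h4.symm) hxy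
  refine h2.trans (le_of_eq ?_)
  rw [Int.card_Ico]
  have : J * 2 ^ (hi - i) + 2 ^ (hi - i) - J * 2 ^ (hi - i) = ((2 ^ (hi - i) : ℕ) : ℤ) := by
    push_cast; ring
  rw [this, Int.toNat_natCast]

open Classical in
/-- number of lines -/
theorem lines_le {I : Finset (ℕ × ℝ)} {lo hi : ℕ} {m : ℝ}
    (hm : ∀ x ∈ I, m ≤ ((own I lo hi x).card : ℝ)) :
    ((I.image Prod.fst).card : ℝ) * m ≤ (I.card : ℝ) := by
  rw [card_eq_sum_card_image Prod.fst I]
  push_cast
  rw [← nsmul_eq_mul, ← Finset.sum_const]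
  refine sum_le_sum fun t ht => ?_
  obtain ⟨x, hx, rfl⟩ := mem_image.1 ht
  refine (hm x hx).trans (Nat.cast_le.2 ?_)
  unfold own
  refine card_image_le.trans (card_le_card fun y hy => ?_)
  rw [mem_filter] at hy ⊢
  exact ⟨hy.1, hy.2.1⟩

/-! ### powers of `d` -/

section
variable {σ κ : Type} [Fintype κ] {B : Base} {I : ℕ → Finset (ℕ × ℝ)} {G : Geo σ κ} {R : Rel κ}
    {Sh : ℕ → Finset (κ → ℝ)} {lo hi : ℕ → ℕ} {D0 : ℕ → ℝ} {β Cu : ℝ} {ct : ℕ → ℕ → ℤ → ℕ}
    {bt : ℕ → ℕ → σ} {wt : ℕ → κ → ℝ}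

theorem d_rpow (h : InSeq B I G R Sh lo hi D0 β Cu ct bt wt) (n : ℕ) (a : ℝ) :
    B.d n ^ a = (2:ℝ) ^ (-(a * ((hi n : ℝ) - lo n))) := by
  have h1 : B.d n = (2:ℝ) ^ (-((hi n : ℝ) - lo n)) := by
    rw [h.base n, one_div, inv_pow, Real.rpow_neg (by norm_num)]
    congr 1
    rw [← Nat.cast_sub (h.lohi n).le, Real.rpow_natCast]
  rw [h1, ← Real.rpow_mul (by norm_num)]
  congr 1
  ring

theorem N_tendsto (h : InSeq B I G R Sh lo hi D0 β Cu ct bt wt) :
    Tendsto (fun n => (hi n : ℝ) - lo n) U atTop := by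
  have h1 := B.L_tendsto
  have h2 : ∀ n, (hi n : ℝ) - lo n = B.L n / Real.log 2 := by
    intro n
    have h3 := d_rpow h n 1
    rw [Real.rpow_one, one_mul] at h3
    unfold Base.L
    rw [h3, Real.log_rpow (by norm_num)]
    have : Real.log 2 ≠ 0 := (Real.log_pos one_lt_two).ne'
    field_simp
  simp only [h2]
  exact h1.atTop_div_const (Real.log_pos one_lt_two)

open Classical in
/-- **one error `η`** -/
theorem up_eta (hFin : LeafFin) (h : InSeq B I G R Sh lo hi D0 β Cu ct bt wt) (hRT : RTrans R)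
    (hUB : UBw G R I lo hi 0 β) {η : ℝ} (hη : 0 < η) {c : ℝ} (hc : 0 < c) :
    ∀ᶠ n in (U : Filter ℕ), ∃ J : Finset (ℕ × ℝ), J ⊆ I n ∧
      ((I n \ J).card : ℝ) ≤ c * ((I n).card : ℝ) ∧
      ∀ i : ℕ, lo n ≤ i → i ≤ hi n → Up G R 0 n i J (hi n) (wt n)
        (D0 n * (2:ℝ) ^ (β * ((i : ℝ) - lo n)) * (2:ℝ) ^ (η * ((hi n : ℝ) - lo n))) := by
  have hCu := h.Cu0
  have hβ := h.βpos
  -- the small error
  obtain ⟨η1, hη1, hη11, hη1η⟩ : ∃ η1 : ℝ, 0 < η1 ∧ η1 ≤ 1 ∧ (Cu + 2) * η1 < η := by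
    refine ⟨min 1 (η / (2 * (Cu + 2))), by positivity, min_le_left _ _, ?_⟩
    have h1 : (Cu + 2) * min 1 (η / (2 * (Cu + 2))) ≤ (Cu + 2) * (η / (2 * (Cu + 2))) :=
      mul_le_mul_of_nonneg_left (min_le_right _ _) (by linarith)
    have h2 : (Cu + 2) * (η / (2 * (Cu + 2))) = η / 2 := by field_simp
    linarith
  have hN := N_tendsto h
  obtain ⟨δ, hδ, hLF⟩ := hFin I G R lo hi 0 β hUB hN η1 hη1
  have hsmall : ∀ᶠ n in (U : Filter ℕ),
      (((hi n : ℝ) - lo n) + 1) * (2:ℝ) ^ (-(δ / 2 * ((hi n : ℝ) - lo n))) ≤ c := by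
    have h1 : Tendsto (fun x : ℝ => (x + 1) * (2:ℝ) ^ (-(δ / 2 * x))) atTop (𝓝 0) := by
      have h2 : Tendsto (fun x : ℝ => x ^ (1:ℝ) * Real.exp (-(δ / 2 * Real.log 2) * x)) atTop
          (𝓝 0) := tendsto_rpow_mul_exp_neg_mul_atTop_nhds_zero 1 _
            (by have := Real.log_pos one_lt_two; positivity)
      have h3 : Tendsto (fun x : ℝ => Real.exp (-(δ / 2 * Real.log 2) * x)) atTop (𝓝 0) := by
        have := tendsto_rpow_mul_exp_neg_mul_atTop_nhds_zero 0 (δ / 2 * Real.log 2)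
          (by have := Real.log_pos one_lt_two; positivity)
        simpa using this
      have h4 := h2.add h3
      rw [add_zero] at h4
      refine h4.congr fun x => ?_
      rw [Real.rpow_one, Real.rpow_def_of_pos (by norm_num : (0:ℝ) < 2)]
      have : Real.log 2 * -(δ / 2 * x) = -(δ / 2 * Real.log 2) * x := by ring
      rw [this]; ring
    exact (h1.comp hN).eventually (ge_mem_nhds hc) |>.mono fun n hn => hn
  filter_upwards [hLF, h.up η1 hη1, h.shc (δ / 4) (by positivity), h.own (δ / 4) (by positivity),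
    hsmall, h.cell0, h.one, h.ne, hN.eventually_gt_atTop 0] with n hLFn hup hsh hown hsm hcell
    hone hne hNp
  set N : ℝ := (hi n : ℝ) - lo n with hNdef
  have hD0 := h.D0pos n
  have dpow : ∀ a : ℝ, B.d n ^ a = (2:ℝ) ^ (-(a * N)) := fun a => d_rpow h n a
  have two : (0:ℝ) < 2 := by norm_num
  -- trivial levels
  have htriv : ∀ i : ℕ, lo n ≤ i → i ≤ hi n → (i : ℝ) - lo n ≤ η1 * N →
      Up G R 0 n i (I n) (hi n) (wt n) (D0 n * (2:ℝ) ^ ((Cu + 1) * η1 * N)) := by
    intro i h1 h2 h3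
    refine up_mono_D (hup i h1 h2) (fun J s hs => h.vpos n i J s hs) ?_
    rw [dpow, mul_assoc, ← Real.rpow_add two]
    refine mul_le_mul_of_nonneg_left (Real.rpow_le_rpow_of_exponent_le one_le_two ?_) hD0.le
    have : Cu * ((i : ℝ) - lo n) ≤ Cu * (η1 * N) := mul_le_mul_of_nonneg_left h3 hCu
    nlinarith
  -- extraction
  have hext : ∀ i : ℕ, ∃ (E : Finset (ℕ × ℤ)) (c : ℕ → ℤ → ℕ) (b : ℕ → σ),
      E ⊆ (I n).image (lc i) ∧
      (∀ o ∈ E, G.mem n i o.2 (b (c o.1 o.2)) o.1 ∧ G.adm n i o.2 (b (c o.1 o.2)) ∧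
        R i (wv G (b (c o.1 o.2))) (hi n) (wt n) ∧
        (D0 n * (2:ℝ) ^ (β * ((i : ℝ) - lo n)) * (2:ℝ) ^ (η * N)) *
          G.val n i o.2 (b (c o.1 o.2)) ≤
          ((E.filter fun p => p.2 = o.2 ∧ c p.1 p.2 = c o.1 o.2).card : ℝ)) ∧
      Up G R 0 n i ((I n).filter fun x => lc i x ∉ E) (hi n) (wt n)
        (D0 n * (2:ℝ) ^ (β * ((i : ℝ) - lo n)) * (2:ℝ) ^ (η * N)) := fun i =>
    greedy_level G R n i (hi n) (I n) (wt n) (by positivity) (fun J s hs => h.vpos n i J s hs)
      (bt 0 0)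
  choose E cE bE hE1 hE2 hE3 using hext
  set big : Finset ℕ := (Finset.Icc (lo n) (hi n)).filter fun i => η1 * N < (i : ℝ) - lo n
    with hbig
  set J : Finset (ℕ × ℝ) := (I n).filter fun x => ∀ i ∈ big, lc i x ∉ E i with hJ
  have hJI : J ⊆ I n := filter_subset _ _
  refine ⟨J, hJI, ?_, ?_⟩
  · -- count
    have hbad : ∀ i ∈ big, (((I n).filter fun x => lc i x ∈ E i).card : ℝ) ≤
        (2:ℝ) ^ (-(δ / 2 * N)) * ((I n).card : ℝ) := by
      intro i hi'
      rw [hbig, mem_filter, Finset.mem_Icc] at hi'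
      obtain ⟨⟨hi1, hi2⟩, hi3⟩ := hi'
      have hloi : lo n < i := by
        have : (0:ℝ) < (i:ℝ) - lo n := lt_trans (by positivity) hi3
        have : (lo n : ℝ) < i := by linarith
        exact_mod_cast this
      set T : ℝ := D0 n * (2:ℝ) ^ (β * ((i : ℝ) - lo n)) * (2:ℝ) ^ (η * N) with hTdef
      have hTp : 0 < T := by positivity
      set Ln : ℝ := (((I n).image Prod.fst).card : ℝ) with hLn
      -- each shape
      have hshape : ∀ w ∈ Sh n, (((E i).filter fun o =>
          wv G (bE i (cE i o.1 o.2)) = w).card : ℝ) ≤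
            (2:ℝ) ^ (-(δ * N)) * (Ln * 2 ^ (i - lo n)) := by
        intro w hw
        by_contra hcon
        push Not at hcon
        set F := shapeF G i (I n) (E i) (cE i) (bE i) w with hF
        have hFI : F ⊆ I n := filter_subset _ _
        have himg : F.image (lc i) = (E i).filter fun o => wv G (bE i (cE i o.1 o.2)) = w :=
          image_shape (hE1 i)
        have hpos : 0 < ((E i).filter fun o => wv G (bE i (cE i o.1 o.2)) = w).card := by
          have : (0:ℝ) < (((E i).filter fun o => wv G (bE i (cE i o.1 o.2)) = w).card : ℝ) :=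
            lt_of_le_of_lt (by positivity) hcon
          exact_mod_cast this
        have hFne : F.Nonempty := by
          rw [← himg] at hpos
          exact image_nonempty.1 (card_pos.1 hpos)
        obtain ⟨o, ho⟩ := card_pos.1 hpos
        rw [mem_filter] at ho
        have hRw : R i w (hi n) (wt n) := by
          have := (hE2 i o ho.1).2.2.1
          rwa [ho.2] at this
        obtain ⟨hcl, hlow⟩ := shape_cl (G := G) (n := n) (j := i) (I := I n) (c := cE i)
          (b := bE i) (T := T) w (hE1 i)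
          (fun o ho => ⟨(hE2 i o ho).1, (hE2 i o ho).2.1, (hE2 i o ho).2.2.2⟩)
        have hfin := hLFn (lo n) i le_rfl hloi hi2 hi3.le F F (Subset.refl _) hFI hFne
          (fun x hx y hy => hcell x (hFI hx) y (hFI hy)) (by
            rw [himg]
            refine le_trans ?_ hcon.le
            have : ((F.image Prod.fst).card : ℝ) ≤ Ln :=
              Nat.cast_le.2 (card_le_card (image_subset_image hFI))
            gcongr) (cE i) (bE i) w (D0 n * (2:ℝ) ^ ((Cu + 1) * η1 * N)) T (by positivity) hTp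
          hcl hlow (by
            intro i' h1 h2
            have h3 : (i' : ℝ) - lo n ≤ η1 * N := by linarith
            have h4 : i' ≤ i := by
              have : (i' : ℝ) ≤ i := by linarith
              exact_mod_cast this
            intro J0 s hs hR
            exact (up_mono (htriv i' h1 (h4.trans hi2) h3) hFI) J0 s hs
              (hRT _ _ _ _ _ _ h4 hi2 hR hRw))
        -- contradiction
        rw [hTdef, mul_assoc, mul_assoc, ← Real.rpow_add two, ← Real.rpow_add two] at hfin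
        have h5 := le_of_mul_le_mul_left hfin hD0
        rw [Real.rpow_le_rpow_left_iff one_lt_two] at h5
        have hi2' : (i : ℝ) - lo n ≤ N := by
          have : (i : ℝ) ≤ hi n := by exact_mod_cast hi2
          rw [hNdef]; linarith
        have h6 : η1 * ((i : ℝ) - lo n) ≤ η1 * N := mul_le_mul_of_nonneg_left hi2' hη1.le
        have h7 : (Cu + 2) * η1 * N < η * N := mul_lt_mul_of_pos_right hη1η hNp
        nlinarith
      -- all shapes
      have hEc : ((E i).card : ℝ) ≤ ((Sh n).card : ℝ) *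
          ((2:ℝ) ^ (-(δ * N)) * (Ln * 2 ^ (i - lo n))) := by
        have h1 := card_eq_sum_card_fiberwise (f := fun o : ℕ × ℤ => wv G (bE i (cE i o.1 o.2)))
          (s := E i) (t := Sh n) (fun o ho => h.sh n i o.2 _ (hE2 i o ho).2.1)
        rw [h1]
        push_cast
        rw [← nsmul_eq_mul, ← Finset.sum_const]
        exact sum_le_sum fun w hw => hshape w hw
      have hB := fib_le hi2 hone (E i)
      have hB' : (((I n).filter fun x => lc i x ∈ E i).card : ℝ) ≤
          2 ^ (hi n - i) * ((E i).card : ℝ) := by exact_mod_cast hB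
      have hL := lines_le hown
      rw [← hLn, dpow] at hL
      rw [dpow] at hsh
      have hpow : (2:ℝ) ^ (hi n - i) * 2 ^ (i - lo n) = (2:ℝ) ^ N := by
        rw [← pow_add, ← Real.rpow_natCast]
        congr 1
        have : hi n - i + (i - lo n) = hi n - lo n := by omega
        rw [this, Nat.cast_sub (h.lohi n).le]
      have hLn0 : 0 ≤ Ln := Nat.cast_nonneg _
      calc (((I n).filter fun x => lc i x ∈ E i).card : ℝ)
          ≤ 2 ^ (hi n - i) * (((Sh n).card : ℝ) *
            ((2:ℝ) ^ (-(δ * N)) * (Ln * 2 ^ (i - lo n)))) :=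
            hB'.trans (mul_le_mul_of_nonneg_left hEc (by positivity))
        _ = ((Sh n).card : ℝ) * ((2:ℝ) ^ (-(δ * N)) * (Ln * (2 ^ (hi n - i) * 2 ^ (i - lo n)))) := by
            ring
        _ = ((Sh n).card : ℝ) * ((2:ℝ) ^ (-(δ * N)) * (Ln * (2:ℝ) ^ N)) := by rw [hpow]
        _ ≤ (2:ℝ) ^ (-(-(δ / 4) * N)) * ((2:ℝ) ^ (-(δ * N)) * (Ln * (2:ℝ) ^ N)) :=
            mul_le_mul_of_nonneg_right hsh (by positivity)
        _ = (2:ℝ) ^ (-(δ / 2 * N)) * (Ln * (2:ℝ) ^ (-((-1 + δ / 4) * N))) := by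
            have e1 : (2:ℝ) ^ (-(-(δ / 4) * N)) * ((2:ℝ) ^ (-(δ * N)) * (Ln * (2:ℝ) ^ N)) =
              Ln * ((2:ℝ) ^ (-(-(δ / 4) * N)) * (2:ℝ) ^ (-(δ * N)) * (2:ℝ) ^ N) := by ring
            have e2 : (2:ℝ) ^ (-(δ / 2 * N)) * (Ln * (2:ℝ) ^ (-((-1 + δ / 4) * N))) =
              Ln * ((2:ℝ) ^ (-(δ / 2 * N)) * (2:ℝ) ^ (-((-1 + δ / 4) * N))) := by ring
            rw [e1, e2, ← Real.rpow_add two, ← Real.rpow_add two, ← Real.rpow_add two]
            congr 2; ring
        _ ≤ (2:ℝ) ^ (-(δ / 2 * N)) * ((I n).card : ℝ) :=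
            mul_le_mul_of_nonneg_left hL (by positivity)
    have hcov : I n \ J ⊆ big.biUnion fun i => (I n).filter fun x => lc i x ∈ E i := by
      intro x hx
      rw [Finset.mem_sdiff, hJ, mem_filter] at hx
      obtain ⟨hx1, hx2⟩ := hx
      push Not at hx2
      obtain ⟨i, hi1, hi2⟩ := hx2 hx1
      rw [mem_biUnion]
      exact ⟨i, hi1, mem_filter.2 ⟨hx1, hi2⟩⟩
    have hbc : (big.card : ℝ) ≤ N + 1 := by
      have h1 : big.card ≤ (Finset.Icc (lo n) (hi n)).card := card_le_card (filter_subset _ _)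
      rw [Nat.card_Icc] at h1
      have h2 : (big.card : ℝ) ≤ ((hi n + 1 - lo n : ℕ) : ℝ) := by exact_mod_cast h1
      have h3 := (h.lohi n).le
      rw [Nat.cast_sub (by omega)] at h2
      push_cast at h2
      rw [hNdef]; linarith
    calc ((I n \ J).card : ℝ)
        ≤ ((big.biUnion fun i => (I n).filter fun x => lc i x ∈ E i).card : ℝ) :=
          Nat.cast_le.2 (card_le_card hcov)
      _ ≤ ∑ i ∈ big, (((I n).filter fun x => lc i x ∈ E i).card : ℝ) := by
          exact_mod_cast card_biUnion_le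
      _ ≤ ∑ i ∈ big, (2:ℝ) ^ (-(δ / 2 * N)) * ((I n).card : ℝ) := sum_le_sum hbad
      _ = (big.card : ℝ) * ((2:ℝ) ^ (-(δ / 2 * N)) * ((I n).card : ℝ)) := by
          rw [Finset.sum_const, nsmul_eq_mul]
      _ ≤ (N + 1) * ((2:ℝ) ^ (-(δ / 2 * N)) * ((I n).card : ℝ)) :=
          mul_le_mul_of_nonneg_right hbc (by positivity)
      _ = ((N + 1) * (2:ℝ) ^ (-(δ / 2 * N))) * ((I n).card : ℝ) := by ring
      _ ≤ c * ((I n).card : ℝ) := mul_le_mul_of_nonneg_right hsm (Nat.cast_nonneg _)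
  · intro i h1 h2
    by_cases h3 : η1 * N < (i : ℝ) - lo n
    · refine up_mono (hE3 i) fun x hx => ?_
      rw [hJ, mem_filter] at hx
      rw [mem_filter]
      exact ⟨hx.1, hx.2 i (mem_filter.2 ⟨Finset.mem_Icc.2 ⟨h1, h2⟩, h3⟩)⟩
    · push Not at h3
      refine up_mono_D (up_mono (htriv i h1 h2 h3) hJI) (fun J s hs => h.vpos n i J s hs) ?_
      have e9 : D0 n * (2:ℝ) ^ (β * ((i : ℝ) - lo n)) * (2:ℝ) ^ (η * N) =
          D0 n * (2:ℝ) ^ (β * ((i : ℝ) - lo n) + η * N) := by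
        rw [mul_assoc, ← Real.rpow_add two]
      rw [e9]
      refine mul_le_mul_of_nonneg_left (Real.rpow_le_rpow_of_exponent_le one_le_two ?_) hD0.le
      have h4 : (0:ℝ) ≤ (i : ℝ) - lo n := by
        have : (lo n : ℝ) ≤ i := by exact_mod_cast h1
        linarith
      have h5 : 0 ≤ β * ((i : ℝ) - lo n) := mul_nonneg hβ h4
      have h6 : (Cu + 2) * η1 * N ≤ η * N := mul_le_mul_of_nonneg_right hη1η.le hNp.le
      have h7 : 0 ≤ η1 * N := by positivity
      nlinarith

end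

open Classical in
/-- **leaf (UP)** -/
theorem leafUp (hFin : LeafFin) : LeafUp := by
  intro σ κ _ B I G R Sh lo hi D0 β Cu ct bt wt h hRT hUB
  set P : ℕ → ℕ → Finset (ℕ × ℝ) → Prop := fun k n J => J ⊆ I n ∧
      ((I n \ J).card : ℝ) ≤ (1 / 2 : ℝ) ^ (k + 2) * ((I n).card : ℝ) ∧
      ∀ i : ℕ, lo n ≤ i → i ≤ hi n → Up G R 0 n i J (hi n) (wt n)
        (D0 n * (2:ℝ) ^ (β * ((i : ℝ) - lo n)) * (2:ℝ) ^ (1 / ((k:ℝ) + 1) *
          ((hi n : ℝ) - lo n))) with hP
  have hk : ∀ k : ℕ, ∀ᶠ n in (U : Filter ℕ), ∃ J, P k n J := fun k =>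
    up_eta hFin h hRT hUB (by positivity : (0:ℝ) < 1 / ((k:ℝ) + 1)) (by positivity)
  set Jk : ℕ → ℕ → Finset (ℕ × ℝ) := fun k n => if hh : ∃ J, P k n J then hh.choose else I n
    with hJk
  have hJk1 : ∀ k n, ((I n \ Jk k n).card : ℝ) ≤ (1 / 2 : ℝ) ^ (k + 2) * ((I n).card : ℝ) := by
    intro k n
    by_cases hh : ∃ J, P k n J
    · have : Jk k n = hh.choose := by simp only [hJk]; rw [dif_pos hh]
      rw [this]
      exact hh.choose_spec.2.1
    · have : Jk k n = I n := by simp only [hJk]; rw [dif_neg hh]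
      rw [this, sdiff_self]
      simp only [Finset.bot_eq_empty, card_empty, Nat.cast_zero]
      positivity
  set J : ℕ → Finset (ℕ × ℝ) := fun n => (I n).filter fun x => ∀ k ∈ Finset.range n, x ∈ Jk k n
    with hJ
  refine ⟨J, fun n => filter_subset _ _, Eventually.of_forall fun n => ?_, ?_⟩
  · have hcov : I n \ J n ⊆ (Finset.range n).biUnion fun k => I n \ Jk k n := by
      intro x hx
      rw [Finset.mem_sdiff] at hx
      obtain ⟨hx1, hx2⟩ := hx
      simp only [hJ, mem_filter, not_and] at hx2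
      have hx3 := hx2 hx1
      push Not at hx3
      obtain ⟨k, hk1, hk2⟩ := hx3
      rw [mem_biUnion]
      exact ⟨k, hk1, Finset.mem_sdiff.2 ⟨hx1, hk2⟩⟩
    have h1 : ((I n \ J n).card : ℝ) ≤ (1 / 2) * ((I n).card : ℝ) := by
      calc ((I n \ J n).card : ℝ) ≤
            (((Finset.range n).biUnion fun k => I n \ Jk k n).card : ℝ) :=
            Nat.cast_le.2 (card_le_card hcov)
        _ ≤ ∑ k ∈ Finset.range n, ((I n \ Jk k n).card : ℝ) := by exact_mod_cast card_biUnion_le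
        _ ≤ ∑ k ∈ Finset.range n, (1 / 2 : ℝ) ^ (k + 2) * ((I n).card : ℝ) :=
            sum_le_sum fun k _ => hJk1 k n
        _ = (∑ k ∈ Finset.range n, (1 / 2 : ℝ) ^ k) * (1 / 4) * ((I n).card : ℝ) := by
            rw [Finset.sum_mul, Finset.sum_mul]
            refine sum_congr rfl fun k _ => ?_
            rw [pow_add]; norm_num
        _ ≤ 2 * (1 / 4) * ((I n).card : ℝ) := by
            have h2 : ∑ k ∈ Finset.range n, (1 / 2 : ℝ) ^ k ≤ 2 := by
              rw [geom_sum_eq (by norm_num)]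
              have : (0:ℝ) ≤ (1 / 2 : ℝ) ^ n := by positivity
              rw [div_le_iff_of_neg (by norm_num)]
              linarith
            gcongr
        _ = _ := by ring
    have h2 : ((I n).card : ℝ) = ((I n \ J n).card : ℝ) + ((J n).card : ℝ) := by
      have := card_sdiff_add_card_eq_card (filter_subset _ _ : J n ⊆ I n)
      exact_mod_cast this.symm
    linarith
  · intro ε hε
    obtain ⟨k, hkε⟩ := exists_nat_one_div_lt hε
    filter_upwards [hk k, ev_ge (k + 1)] with n hn hkn i h1 h2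
    have hJe : Jk k n = hn.choose := by simp only [hJk]; rw [dif_pos hn]
    have hs := hn.choose_spec.2.2 i h1 h2
    rw [← hJe] at hs
    have hsub : J n ⊆ Jk k n := by
      intro x hx
      simp only [hJ, mem_filter] at hx
      exact hx.2 k (Finset.mem_range.2 (by omega))
    refine up_mono_D (up_mono hs hsub) (fun J s hs => h.vpos n i J s hs) ?_
    rw [d_rpow h]
    refine mul_le_mul_of_nonneg_left (Real.rpow_le_rpow_of_exponent_le one_le_two ?_) ?_
    · have h3 : (0:ℝ) ≤ (hi n : ℝ) - lo n := by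
        have : (lo n : ℝ) ≤ hi n := by exact_mod_cast (h.lohi n).le
        linarith
      have := mul_le_mul_of_nonneg_right hkε.le h3
      linarith
    · have := h.D0pos n
      positivity

end Crest.Agent.R136.XUp823
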