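import Crest.Agent.R136.XUp2_823
import Crest.Agent.R136.XA2_248

/-!
# R136, block U4 (helper823): leaf (UP), unconditional
-/

set_option autoImplicit false

namespace Crest.Agent.R136.XUp823

open XA248

/-- **leaf (UP)** : D-max of the expected size at all levels on half of the extremal sequence -/
theorem leafUp_holds : LeafUp := leafUp leafFin

end Crest.Agent.R136.XUp823
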