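import Crest.Agent.R136.End15_882
import Crest.Agent.R136.EndS_638

/-!
# R136 (S0187), lightlike case, END: the container of the record (helper638)

`cont_nat` (leaf (X) of helper882): one container with full own counts at two levels, the upper own
counts at two levels, and the full record boxes.
-/

set_option autoImplicit false
set_option linter.unusedVariables false

open Finset Filter Topology

namespace Crest.Agent.R136.End882

open Crest.Agent.R138.Ex926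
open Crest.Agent.R136.Net191
open Crest.Agent.R136.NetQ186
open Crest.Agent.R136.GeoQ186
open Crest.Agent.R136.Gz779
open Crest.Agent.R136.Zpr779
open Crest.Agent.R136.Qg926
open Crest.Agent.R136.Wq638
open Crest.Agent.R136.TL196
open Crest.Agent.R136.NatT550
open Crest.Agent.R138.Mk163 (zc zl rho alive own)

/-! ### boxes -/

/-- the container box is legal, for every height exponent `z ≥ u` -/
theorem kbm_leg {u v t R' : ℝ} (hu : 0 ≤ u) (huv : u ≤ v) (ht : 0 ≤ t)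
    (hR : 2 * t + u + v ≤ R') {z : ℝ} (hz : u ≤ z) (hzR : z ≤ R') :
    Function.update (kbm u v t) 0 z ∈ Leg monQ R' := by
  have e : ∀ k : Fin 11, k ≠ 0 → Function.update (kbm u v t) 0 z k = kbm u v t k :=
    fun k hk => Function.update_of_ne hk _ _
  have e0 : Function.update (kbm u v t) 0 z 0 = z := Function.update_self _ _ _
  have e1 := e 1 (by decide)
  have e2 := e 2 (by decide)
  have e3 := e 3 (by decide)
  have e4 := e 4 (by decide)
  have e5 := e 5 (by decide)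
  have e6 := e 6 (by decide)
  have e7 := e 7 (by decide)
  have e8 := e 8 (by decide)
  have e9 := e 9 (by decide)
  have e10 := e 10 (by decide)
  simp only [kbm, Matrix.cons_val] at e1 e2 e3 e4 e5 e6 e7 e8 e9 e10
  refine ⟨legalQ_iff.2 ⟨fun k => ?_, ?_, ?_, ?_, ?_, ?_, ?_, ?_, ?_, ?_, ?_, ?_⟩, fun k => ?_⟩
  · fin_cases k
    · change 0 ≤ Function.update (kbm u v t) 0 z 0; rw [e0]; linarith
    · change 0 ≤ Function.update (kbm u v t) 0 z 1; rw [kbm, e1]; linarith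
    · change 0 ≤ Function.update (kbm u v t) 0 z 2; rw [kbm, e2]; linarith
    · change 0 ≤ Function.update (kbm u v t) 0 z 3; rw [kbm, e3]; linarith
    · change 0 ≤ Function.update (kbm u v t) 0 z 4; rw [kbm, e4]; linarith
    · change 0 ≤ Function.update (kbm u v t) 0 z 5; rw [kbm, e5]; linarith
    · change 0 ≤ Function.update (kbm u v t) 0 z 6; rw [kbm, e6]; linarith
    · change 0 ≤ Function.update (kbm u v t) 0 z 7; rw [kbm, e7]; linarith
    · change 0 ≤ Function.update (kbm u v t) 0 z 8; rw [kbm, e8]; linarith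
    · change 0 ≤ Function.update (kbm u v t) 0 z 9; rw [kbm, e9]; linarith
    · change 0 ≤ Function.update (kbm u v t) 0 z 10; rw [kbm, e10]; linarith
  all_goals try (rw [kbm] at *; simp only [e0, e1, e2, e3, e4, e5, e6, e7, e8, e9, e10]; linarith)
  · fin_cases k
    · change Function.update (kbm u v t) 0 z 0 ≤ R'; rw [e0]; linarith
    · change Function.update (kbm u v t) 0 z 1 ≤ R'; rw [kbm, e1]; linarith
    · change Function.update (kbm u v t) 0 z 2 ≤ R'; rw [kbm, e2]; linarith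
    · change Function.update (kbm u v t) 0 z 3 ≤ R'; rw [kbm, e3]; linarith
    · change Function.update (kbm u v t) 0 z 4 ≤ R'; rw [kbm, e4]; linarith
    · change Function.update (kbm u v t) 0 z 5 ≤ R'; rw [kbm, e5]; linarith
    · change Function.update (kbm u v t) 0 z 6 ≤ R'; rw [kbm, e6]; linarith
    · change Function.update (kbm u v t) 0 z 7 ≤ R'; rw [kbm, e7]; linarith
    · change Function.update (kbm u v t) 0 z 8 ≤ R'; rw [kbm, e8]; linarith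
    · change Function.update (kbm u v t) 0 z 9 ≤ R'; rw [kbm, e9]; linarith
    · change Function.update (kbm u v t) 0 z 10 ≤ R'; rw [kbm, e10]; linarith


theorem kbm_bd {u v t : ℝ} (hu : 0 ≤ u) (huv : u ≤ v) (ht : 0 ≤ t) {z : ℝ} (hz : z ≤ v)
    (k : Fin 11) : Function.update (kbm u v t) 0 z k ≤ 2 * t + u + v := by
  by_cases hk : k = 0
  · subst hk
    rw [Function.update_self]
    linarith
  · rw [Function.update_of_ne hk]
    fin_cases k <;> simp only [kbm, Matrix.cons_val, Fin.zero_eta, Fin.mk_one, Fin.reduceFinMk] <;>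
      linarith

theorem kbm_rz {θ T1 x u v : ℝ} (huv : u ≤ v) (hx : 2 * T1 + 1 ≤ x) (hv : v ≤ 1) (hu : 0 ≤ u)
    (hT : 0 ≤ T1) (ht : T1 - θ * v ≤ T1) : kbm u v (T1 - θ * v) ≤ rz θ T1 x v := by
  intro k
  fin_cases k <;>
    simp only [kbm, rz, Matrix.cons_val, Fin.zero_eta, Fin.mk_one, Fin.reduceFinMk] <;>
    linarith

theorem rz_lt {θ T1 x v R' : ℝ} (hθ0 : 0 < θ) (t1 : 1 ≤ T1) (t2 : θ ≤ T1) (hx : x = 2 * T1 + 3)
    (hR : R' = 4 * x) (hv0 : 0 ≤ v) (hv : v ≤ 1) (k : Fin 11) : rz θ T1 x v k < R' := by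
  have h1 : 0 ≤ θ * v := mul_nonneg hθ0.le hv0
  have h2 : θ * v ≤ θ := mul_le_of_le_one_right hθ0.le hv
  fin_cases k <;>
    simp only [rz, Matrix.cons_val, Fin.zero_eta, Fin.mk_one, Fin.reduceFinMk] <;>
    linarith

/-! ### units -/

/-- the first slot of the gauge chart is the height -/
theorem coG_zero (c : LCtx) (h : ℕ → Fin 6 → ℝ) (n : ℕ) (x y : ℕ × ℝ) :
    coG c.F h n x y 0 = uH c.D.B c.D.lev c.w0 n * (y.2 - x.2) := by
  change uH c.D.B c.D.lev c.w0 n * y.2 - uH c.D.B c.D.lev c.w0 n * x.2 = _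
  ring

theorem uH_pos (c : LCtx) (n : ℕ) : 0 < uH c.D.B c.D.lev c.w0 n := by
  unfold uH
  exact mul_pos (Real.rpow_pos_of_pos (c.D.B.pos n) _) (by positivity)

theorem unit0 (c : LCtx) (T1 : ℝ) (ξ w : ℕ → ℝ) (n : ℕ) :
    c.D.B.d n ^ XG (c.XB T1 ξ w) n 0 =
      uH c.D.B c.D.lev c.w0 n * sdn' c T1 ξ w n 0 := by
  have h1 : sdn' c T1 ξ w n 0 = c.D.B.d n ^ (c.XB T1 ξ w n 0) / uH c.D.B c.D.lev c.w0 n := rfl
  have h2 : XG (c.XB T1 ξ w) n 0 = c.XB T1 ξ w n 0 := XG_of_ne (by decide)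
  rw [h1, h2, mul_div_cancel₀ _ (uH_pos c n).ne']

theorem same_cell {m : ℕ} {z z' : ℝ} (h : zc m z' = zc m z) : |z' - z| ≤ rho m := by
  have h1 := HR829.zc_mem m z
  have h2 := HR829.zc_mem m z'
  rw [h] at h2
  rw [abs_le]
  constructor <;> linarith [h1.1, h1.2, h2.1, h2.2]

/-! ### arithmetic of the losses -/

/-- lower own count -/
theorem low_aux {e To o N p ε g : ℝ} (he : 0 < e) (he1 : e ≤ 1) (hT : 0 < To)
    (h1 : (1 - p) - g / 8 ≤ o) (h2 : ε ≤ g / 8) (h3 : To * e ^ (-o + ε) ≤ N) :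
    To * e ^ (-(1 - p) - 3 / 4 * g) ≤ e ^ (-g) * N := by
  have hep : ∀ s : ℝ, 0 < e ^ s := fun s => Real.rpow_pos_of_pos he s
  calc To * e ^ (-(1 - p) - 3 / 4 * g) = e ^ (-g) * (To * e ^ (-(1 - p) + g / 4)) := by
        rw [show -(1 - p) - 3 / 4 * g = -g + (-(1 - p) + g / 4) by ring, Real.rpow_add he]; ring
    _ ≤ e ^ (-g) * (To * e ^ (-o + ε)) := by
        refine mul_le_mul_of_nonneg_left (mul_le_mul_of_nonneg_left ?_ hT.le) (hep _).le
        exact Real.rpow_le_rpow_of_exponent_ge he he1 (by linarith)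
    _ ≤ e ^ (-g) * N := mul_le_mul_of_nonneg_left h3 (hep _).le

/-- upper own count -/
theorem up_aux {e To N o p u P2 g : ℝ} (he : 0 < e) (he1 : e ≤ 1) (hT : 0 < To)
    (h1 : o ≤ 1 - p) (hN : N ≤ To * e ^ (-o - g / 2)) (hP0 : 0 < P2)
    (hP : P2 ≤ 2 * e ^ (-(p - u))) (h2 : 2 ≤ e ^ (-(g / 2))) :
    N ≤ e ^ (-g) * (To * e ^ (-(1 - u)) / P2) := by
  have hep : ∀ s : ℝ, 0 < e ^ s := fun s => Real.rpow_pos_of_pos he s
  have h3 : e ^ (p - u) / 2 ≤ 1 / P2 := by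
    rw [div_le_div_iff₀ (by norm_num) hP0, one_mul]
    calc e ^ (p - u) * P2 ≤ e ^ (p - u) * (2 * e ^ (-(p - u))) :=
          mul_le_mul_of_nonneg_left hP (hep _).le
      _ = 2 * (e ^ (p - u) * e ^ (-(p - u))) := by ring
      _ = 2 := by rw [← Real.rpow_add he, add_neg_cancel, Real.rpow_zero, mul_one]
  calc N ≤ To * e ^ (-o - g / 2) := hN
    _ ≤ To * e ^ (-(1 - p) - g / 2) := by
        refine mul_le_mul_of_nonneg_left ?_ hT.le
        exact Real.rpow_le_rpow_of_exponent_ge he he1 (by linarith)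
    _ = To * e ^ (-(1 - p) - g / 2) * (2 / 2) := by ring
    _ ≤ To * e ^ (-(1 - p) - g / 2) * (e ^ (-(g / 2)) / 2) := by
        refine mul_le_mul_of_nonneg_left ?_ (mul_pos hT (hep _)).le
        exact div_le_div_of_nonneg_right h2 (by norm_num)
    _ = e ^ (-g) * (To * e ^ (-(1 - u))) * (e ^ (p - u) / 2) := by
        have e1 : e ^ (-(1 - p) - g / 2) * e ^ (-(g / 2)) =
            e ^ (-g) * e ^ (-(1 - u)) * e ^ (p - u) := by
          rw [← Real.rpow_add he, ← Real.rpow_add he, ← Real.rpow_add he]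
          congr 1; ring
        calc To * e ^ (-(1 - p) - g / 2) * (e ^ (-(g / 2)) / 2) =
            To * (e ^ (-(1 - p) - g / 2) * e ^ (-(g / 2))) / 2 := by ring
          _ = _ := by rw [e1]; ring
    _ ≤ e ^ (-g) * (To * e ^ (-(1 - u))) * (1 / P2) :=
        mul_le_mul_of_nonneg_left h3 (mul_pos (hep _) (mul_pos hT (hep _))).le
    _ = _ := by ring

open Classical in
set_option maxHeartbeats 2000000 in
/-- general form of `cont_nat` -/
theorem cont_gen {c : LCtx} {B' : Base} {E J' : ℕ → Finset (ℕ × ℝ)} {ξ w : ℕ → ℝ}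
    {lam : (Fin 11 → ℝ) → ℝ} {h : ℕ → Fin 6 → ℝ} {To : ℕ → ℝ} {ν' own' : (Fin 11 → ℝ) → ℝ}
    {θ T1 x R' : ℝ}
    (H : ExtZ c.D.B B' E J' (coG c.F h) monQ 2 (XG (c.XB T1 ξ w)) w monQ R' (c.TB T1 B' ξ lam) To
      0 0 0 (PDz θ T1 R') (DL c.p) (rz θ T1 x) (oz θ T1 x R')
      (fun v => DL c.p (rz θ T1 x v)) (fun _ => False) ν' own' (DL c.p (bT T1) - lam (bT T1)))
    (hZ : 1 ≤ θ ∨ Zer θ T1 x R' own') (hθ0 : 0 < θ) (t1 : 1 ≤ T1) (t2 : θ ≤ T1)
    (hx : x = 2 * T1 + 3) (hR : R' = 4 * x)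
    (hs : ∀ᶠ n in (U : Filter ℕ), 0 < sdn' c T1 ξ w n 0 ∧ sdn' c T1 ξ w n 0 ≤ 1)
    {η : ℝ} (hη0 : 0 < η) (hη1 : η ≤ 1 / 4) {M₁ : ℕ} (hM₁ : 4 ≤ η * M₁)
    {δ' κ' : ℝ} (hδ0 : 0 < δ') (hδ1 : δ' ≤ 1 / 2) (hκ0 : 0 < κ') (hκ1 : κ' ≤ η) :
    ∃ u v : ℝ, 0 < u ∧ u < v ∧ v < 1 ∧ v - u ≤ 1 / 2 ∧ ∀ εc : ℝ, 0 < εc → ∀ ε1 : ℝ, 0 < ε1 →
      ∀ᶠ n in (U : Filter ℕ), ∀ i l j M k : ℕ,
        i = lvl (sdn' c T1 ξ w n 0 * B'.d n ^ u) →
        j = lvl (sdn' c T1 ξ w n 0 * B'.d n ^ v) →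
        M = nM (B'.d n) (v - u - δ' * (v - u)) → k = nK η M → l = i + M + 1 - k →
        ∃ F ⊆ J' n, F.Nonempty ∧ (∀ x ∈ F, ∀ y ∈ F, zc i x.2 = zc i y.2) ∧
          (∀ x ∈ F, ∀ y ∈ F, ∀ s, |coG c.F h n x y s| ≤ B'.d n ^ (-εc) *
            (c.D.B.d n ^ XG (c.XB T1 ξ w) n s *
              B'.d n ^ kbm u v (T1 - θ * v) s)) ∧
          (∀ x ∈ F, To n * B'.d n ^ (-(1 - u)) ≤ B'.d n ^ (-(κ' * (v - u))) *
            ((F.filter fun y => y.1 = x.1 ∧ zc i y.2 = zc i x.2).card : ℝ)) ∧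
          (∀ x ∈ F, To n * B'.d n ^ (-(1 - u)) / 2 ^ (M + 1 - k) ≤ B'.d n ^ (-(κ' * (v - u))) *
            ((F.filter fun y => y.1 = x.1 ∧ zc l y.2 = zc l x.2).card : ℝ)) ∧
          (∀ x ∈ F, ((F.filter fun y => y.1 = x.1 ∧ zc (i + M + 1) y.2 =
            zc (i + M + 1) x.2).card : ℝ) ≤ B'.d n ^ (-(κ' * (v - u))) *
              (To n * B'.d n ^ (-(1 - u)) / 2 ^ (M + 1))) ∧
          (∀ x ∈ F, ((F.filter fun y => y.1 = x.1 ∧ zc j y.2 = zc j x.2).card : ℝ) ≤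
            B'.d n ^ (-(κ' * (v - u))) * (To n * B'.d n ^ (-(1 - u)) / 2 ^ (j - i))) ∧
          (∀ y ∈ F, c.TB T1 B' ξ lam n *
              B'.d n ^ (-(ν' (rz θ T1 x v)) + ε1) ≤
            ((F.filter fun y' => zc j y'.2 = zc j y.2 ∧ ∀ s, |coG c.F h n y y' s| ≤
              B'.d n ^ (-εc) * (c.D.B.d n ^ XG (c.XB T1 ξ w) n s *
                B'.d n ^ rz θ T1 x v s)).card : ℝ)) := by
  obtain ⟨a, ha⟩ : ∃ a : ℝ, a = (1 - δ') * (1 - 3 / 4 * η) + κ' / 2 := ⟨_, rfl⟩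
  have ha0 : 0 ≤ a := by
    rw [ha]
    have h1 : 0 ≤ (1 - δ') * (1 - 3 / 4 * η) := mul_nonneg (by linarith) (by linarith)
    linarith
  have ha1 : a ≤ 1 := by
    have h1 : (1 - δ') * (1 - 3 / 4 * η) ≤ 1 * (1 - 3 / 4 * η) :=
      mul_le_mul_of_nonneg_right (by linarith) (by linarith)
    rw [ha]; linarith
  obtain ⟨u, v, hu, huv, hv1, huv2, hown⟩ := own_lo (J := fun _ => ∅) (lo := fun _ => 0)
    (Cl := fun _ => ∅) (s₀ := fun _ => (0, 0)) (ηg := fun _ => 0) H hZ hθ0 ha0 ha1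
    (ε := κ' / 8) (by positivity)
  refine ⟨u, v, hu, huv, hv1, huv2, fun εc hεc ε1 hε1 => ?_⟩
  have hvu : 0 < v - u := by linarith
  obtain ⟨g, hg⟩ : ∃ g : ℝ, g = κ' * (v - u) := ⟨_, rfl⟩
  have hg0 : 0 < g := by rw [hg]; exact mul_pos hκ0 hvu
  rw [← hg]
  obtain ⟨t, ht⟩ : ∃ t : ℝ, t = T1 - θ * v := ⟨_, rfl⟩
  have hθv : 0 < θ * v := mul_pos hθ0 (by linarith)
  have hθv1 : θ * v ≤ θ := mul_le_of_le_one_right hθ0.le hv1.le
  have ht0 : 0 ≤ t := by linarith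
  have htT : t ≤ T1 := by linarith
  obtain ⟨δ, hδ⟩ : ∃ δ : ℝ, δ = δ' * (v - u) := ⟨_, rfl⟩
  have hδp : 0 < δ := by rw [hδ]; exact mul_pos hδ0 hvu
  have hδlt : δ < v - u := by rw [hδ]; exact mul_lt_of_lt_one_left hvu (by linarith)
  rw [← hδ]
  rw [← ht]
  have hRb : 2 * t + u + v ≤ R' := by rw [hR, hx]; linarith
  -- the boxes
  have hpc0 : Function.update (kbm u v t) 0 u = kbm u v t :=
    Function.update_eq_self_iff.2 rfl
  have mc : kbm u v t ∈ Leg monQ R' := by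
    have := kbm_leg hu.le huv.le ht0 hRb le_rfl (by linarith : u ≤ R')
    rwa [hpc0] at this
  obtain ⟨zl', hzl⟩ : ∃ z : ℝ, z = u + a * (v - u) := ⟨_, rfl⟩
  have hzl0 : u ≤ zl' := by
    rw [hzl]; exact le_add_of_nonneg_right (mul_nonneg ha0 hvu.le)
  have hzl1 : zl' ≤ v := by
    have h1 : a * (v - u) ≤ v - u := mul_le_of_le_one_left hvu.le ha1
    rw [hzl]; linarith
  have ml : Function.update (kbm u v t) 0 zl' ∈ Leg monQ R' :=
    kbm_leg hu.le huv.le ht0 hRb hzl0 (by linarith)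
  have m3 : Function.update (kbm u v t) 0 (v - δ) ∈ Leg monQ R' :=
    kbm_leg hu.le huv.le ht0 hRb (by linarith) (by linarith)
  have m4 : Function.update (kbm u v t) 0 v ∈ Leg monQ R' :=
    kbm_leg hu.le huv.le ht0 hRb huv.le (by linarith)
  have mv : rz θ T1 x v ∈ Leg monQ R' := (H.record v (by linarith) hv1.le).1
  have habs : |1 - θ| ≤ T1 := by rw [abs_le]; constructor <;> linarith
  -- own exponents
  have ow1 : (1 - u) - g / 8 ≤ own' (kbm u v t) := by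
    have h1 := hown 0 (Or.inl rfl) (kbm u v t) mc (by simp [kbm])
      (by simp only [kbm, Matrix.cons_val]; rw [ht]; linarith)
      (by simp only [kbm, Matrix.cons_val]; linarith)
      (by simp only [kbm, Matrix.cons_val]; linarith)
      (fun k => by
        have := kbm_bd hu.le huv.le ht0 huv.le k
        rw [hpc0] at this
        linarith)
      (fun k => by
        have := kbm_bd hu.le huv.le ht0 huv.le k
        rw [hpc0] at this
        linarith)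
    have e1 : kbm u v t 0 = u := rfl
    rw [e1] at h1
    rw [hg]
    linarith
  have ow2 : (1 - zl') - g / 8 ≤ own' (Function.update (kbm u v t) 0 zl') := by
    have e1 : ∀ k : Fin 11, k ≠ 0 → Function.update (kbm u v t) 0 zl' k = kbm u v t k :=
      fun k hk => Function.update_of_ne hk _ _
    have h1 := hown a (Or.inr rfl) _ ml (by rw [Function.update_self]; exact hzl)
      (by rw [e1 4 (by decide)]; simp only [kbm, Matrix.cons_val]; rw [ht]; linarith)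
      (by rw [e1 1 (by decide)]; simp only [kbm, Matrix.cons_val]; linarith)
      (by rw [e1 3 (by decide)]; simp only [kbm, Matrix.cons_val]; linarith)
      (fun k => by
        have := kbm_bd hu.le huv.le ht0 hzl1 k
        linarith)
      (fun k => by
        have := kbm_bd hu.le huv.le ht0 hzl1 k
        linarith)
    rw [Function.update_self] at h1
    rw [hg]
    linarith
  have up3 : own' (Function.update (kbm u v t) 0 (v - δ)) ≤ 1 - (v - δ) := by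
    have := H.own_up _ m3 (v - δ) (by linarith) (by linarith)
      (by rw [Function.update_self]; ring)
    linarith
  have up4 : own' (Function.update (kbm u v t) 0 v) ≤ 1 - v := by
    have := H.own_up _ m4 v (by linarith) (by linarith) (by rw [Function.update_self]; ring)
    linarith
  obtain ⟨δ3, hδ3, ev3⟩ := Cnt638.own_le_box H m3 (ε := g / 2) (by positivity)
  obtain ⟨δ4, hδ4, ev4⟩ := Cnt638.own_le_box H m4 (ε := g / 2) (by positivity)
  obtain ⟨ε, hε0, hεc', hε1', hεg, hε3, hε4⟩ : ∃ ε : ℝ, 0 < ε ∧ ε ≤ εc ∧ ε ≤ ε1 ∧ ε ≤ g / 8 ∧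
      ε ≤ δ3 ∧ ε ≤ δ4 := by
    refine ⟨min (min εc ε1) (min (g / 8) (min δ3 δ4)), ?_, ?_, ?_, ?_, ?_, ?_⟩
    · exact lt_min (lt_min hεc hε1) (lt_min (by positivity) (lt_min hδ3 hδ4))
    · exact (min_le_left _ _).trans (min_le_left _ _)
    · exact (min_le_left _ _).trans (min_le_right _ _)
    · exact (min_le_right _ _).trans (min_le_left _ _)
    · exact (min_le_right _ _).trans ((min_le_right _ _).trans (min_le_left _ _))
    · exact (min_le_right _ _).trans ((min_le_right _ _).trans (min_le_right _ _))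
  -- the levels
  have lf : ∀ᶠ n in (U : Filter ℕ),
      sdn' c T1 ξ w n 0 * B'.d n ^ u ≤ rho (lvl (sdn' c T1 ξ w n 0 * B'.d n ^ u)) ∧
      rho (lvl (sdn' c T1 ξ w n 0 * B'.d n ^ u)) ≤ 2 * (sdn' c T1 ξ w n 0 * B'.d n ^ u) ∧
      sdn' c T1 ξ w n 0 * B'.d n ^ v ≤ rho (lvl (sdn' c T1 ξ w n 0 * B'.d n ^ v)) ∧
      rho (lvl (sdn' c T1 ξ w n 0 * B'.d n ^ v)) ≤ 2 * (sdn' c T1 ξ w n 0 * B'.d n ^ v) ∧
      (2 : ℝ) ^ nM (B'.d n) (v - u - δ) ≤ B'.d n ^ (-(v - u - δ)) ∧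
      B'.d n ^ (-(v - u - δ)) ≤ (2 : ℝ) ^ (nM (B'.d n) (v - u - δ) + 1) ∧
      M₁ ≤ nM (B'.d n) (v - u - δ) ∧
      η / 2 * nM (B'.d n) (v - u - δ) ≤ nK η (nM (B'.d n) (v - u - δ)) ∧
      (nK η (nM (B'.d n) (v - u - δ)) : ℝ) ≤ η * nM (B'.d n) (v - u - δ) ∧
      nK η (nM (B'.d n) (v - u - δ)) ≤ nM (B'.d n) (v - u - δ) ∧
      lvl (sdn' c T1 ξ w n 0 * B'.d n ^ u) + nM (B'.d n) (v - u - δ) + 1 ≤
        lvl (sdn' c T1 ξ w n 0 * B'.d n ^ v) ∧
      sdn' c T1 ξ w n 0 * B'.d n ^ (u + (v - u - δ) * (1 - 3 / 4 * η) + g / 2) ≤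
        rho (lvl (sdn' c T1 ξ w n 0 * B'.d n ^ u) + nM (B'.d n) (v - u - δ) + 1 -
          nK η (nM (B'.d n) (v - u - δ))) ∧
      ((2 : ℝ) ^ (nM (B'.d n) (v - u - δ) + 1 - nK η (nM (B'.d n) (v - u - δ))))⁻¹ ≤
        2 * B'.d n ^ ((v - u - δ) * (1 - 3 / 4 * η)) := by
    filter_upwards [hs, ev_const_le B' (c := (2 : ℝ) ^ (M₁ + 1)) (by positivity)
      (ε := v - u - δ) (by linarith), ev_const_le B' (c := 5) (by norm_num) hδp,
      ev_const_le B' (c := 2) (by norm_num) (ε := g / 2) (by positivity)] with n k1 k2 k3 k4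
    have he := B'.pos n
    have hep : ∀ s : ℝ, 0 < B'.d n ^ s := fun s => Real.rpow_pos_of_pos he s
    refine lev_facts hη0 hη1 hM₁ he (B'.lt n) k1.1 k1.2 hu huv hδp hδlt k2 ?_ ?_
    · rw [Real.rpow_neg he.le] at k3
      have h5 : 5 * B'.d n ^ δ ≤ 1 := by
        calc 5 * B'.d n ^ δ ≤ (B'.d n ^ δ)⁻¹ * B'.d n ^ δ :=
              mul_le_mul_of_nonneg_right k3 (hep _).le
          _ = 1 := inv_mul_cancel₀ (hep _).ne'
      have := hep δ
      linarith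
    · rw [Real.rpow_neg he.le] at k4
      calc 2 * B'.d n ^ (g / 2) ≤ (B'.d n ^ (g / 2))⁻¹ * B'.d n ^ (g / 2) :=
            mul_le_mul_of_nonneg_right k4 (hep _).le
        _ = 1 := inv_mul_cancel₀ (hep _).ne'
  have main := Cnt638.exists_cont H (pc := kbm u v t) (pu := kbm u v t)
    (pl := Function.update (kbm u v t) 0 zl') (pv := rz θ T1 x v) mc mc ml mv
    (fun k => by
      have b1 := kbm_bd hu.le huv.le ht0 huv.le k
      rw [hpc0] at b1
      have b2 := kbm_bd hu.le huv.le ht0 hzl1 k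
      exact ⟨by linarith, by linarith, rz_lt hθ0 t1 t2 hx hR (by linarith) hv1.le k⟩)
    le_rfl (fun k => by
      by_cases hk : k = 0
      · subst hk; rw [Function.update_self]; exact hzl0
      · rw [Function.update_of_ne hk])
    (by rw [ht]; exact kbm_rz huv.le (by linarith) hv1.le hu.le (by linarith) (by linarith))
    (uh := fun n => uH c.D.B c.D.lev c.w0 n) (uH_pos c) (fun n y y' => coG_zero c h n y y')
    (i := fun n => lvl (sdn' c T1 ξ w n 0 * B'.d n ^ u))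
    (l := fun n => lvl (sdn' c T1 ξ w n 0 * B'.d n ^ u) + nM (B'.d n) (v - u - δ) + 1 -
      nK η (nM (B'.d n) (v - u - δ)))
    (j := fun n => lvl (sdn' c T1 ξ w n 0 * B'.d n ^ v))
    (lf.mono fun n f => by
      obtain ⟨-, -, -, -, -, -, -, -, -, f10, f11, -⟩ := f
      change _ ≤ _
      omega)
    (lf.mono fun n f => by
      obtain ⟨-, -, -, -, -, -, -, -, -, f10, f11, -⟩ := f
      change _ ≤ _
      omega)
    (lf.mono fun n f => by
      rw [unit0, mul_assoc]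
      exact mul_le_mul_of_nonneg_left f.1 (uH_pos c n).le)
    (lf.mono fun n f => by
      obtain ⟨-, -, -, -, -, -, -, -, -, -, -, f12, -⟩ := f
      rw [unit0, mul_assoc, Function.update_self]
      refine mul_le_mul_of_nonneg_left ?_ (uH_pos c n).le
      refine le_trans (le_of_eq ?_) f12
      congr 2
      rw [hzl, ha, hδ, hg]; ring)
    (lf.mono fun n f => by
      rw [unit0, mul_assoc]
      exact mul_le_mul_of_nonneg_left f.2.2.1 (uH_pos c n).le)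
    hε0
  filter_upwards [main, lf, ev3, ev4, hs, ev_const_le B' (c := 2) (by norm_num) hδ3,
    ev_const_le B' (c := 2) (by norm_num) hδ4,
    ev_const_le B' (c := 2) (by norm_num) (ε := g / 4) (by positivity)] with
    n ⟨F, hFJ, hFne, hFz, hFn, hF1, hF2, hF3⟩ ⟨f1, f2, f3, f4, f5, f6, f7, f8, f9, f10, f11, f12,
      f13⟩ o3 o4 hsn c3 c4 c5 i l j M k hi' hj' hM' hk' hl'
  subst hi' hj' hM' hk' hl'
  have he := B'.pos n
  have he1 := (B'.lt n).le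
  have hep : ∀ s : ℝ, 0 < B'.d n ^ s := fun s => Real.rpow_pos_of_pos he s
  have hBp : ∀ s : ℝ, 0 < c.D.B.d n ^ s := fun s => Real.rpow_pos_of_pos (c.D.B.pos n) s
  have hTo := H.oprof.pos n
  have hTn := H.win.T0 n
  have hmono : ∀ {s s' : ℝ}, s ≤ s' → B'.d n ^ s' ≤ B'.d n ^ s := fun hss =>
    Real.rpow_le_rpow_of_exponent_ge he he1 hss
  have c2 : (2 : ℝ) ≤ B'.d n ^ (-(g / 2)) := c5.trans (hmono (by linarith))
  -- own boxes
  have ownb : ∀ (z' : ℝ) (m : ℕ) (δ₁ : ℝ), ε ≤ δ₁ → 2 ≤ B'.d n ^ (-δ₁) →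
      rho m ≤ 2 * (sdn' c T1 ξ w n 0 * B'.d n ^ z') → ∀ y ∈ F,
      ∀ y' ∈ F.filter (fun y' => y'.1 = y.1 ∧ zc m y'.2 = zc m y.2), y'.1 = y.1 ∧
        ∀ k, |coG c.F h n y y' k| ≤ B'.d n ^ (-δ₁) * (c.D.B.d n ^ XG (c.XB T1 ξ w) n k *
          B'.d n ^ Function.update (kbm u v t) 0 z' k) := by
    intro z' m δ₁ hd1 hd2 hm y hy y' hy'
    rw [mem_filter] at hy'
    refine ⟨hy'.2.1, fun k => ?_⟩
    by_cases hk : k = 0
    · subst hk
      rw [Function.update_self, coG_zero, abs_mul, abs_of_pos (uH_pos c n), unit0]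
      calc uH c.D.B c.D.lev c.w0 n * |y'.2 - y.2|
          ≤ uH c.D.B c.D.lev c.w0 n * (2 * (sdn' c T1 ξ w n 0 * B'.d n ^ z')) :=
            mul_le_mul_of_nonneg_left ((same_cell hy'.2.2).trans hm) (uH_pos c n).le
        _ = 2 * (uH c.D.B c.D.lev c.w0 n * sdn' c T1 ξ w n 0 * B'.d n ^ z') := by ring
        _ ≤ B'.d n ^ (-δ₁) * (uH c.D.B c.D.lev c.w0 n * sdn' c T1 ξ w n 0 * B'.d n ^ z') :=
            mul_le_mul_of_nonneg_right hd2
              (mul_pos (mul_pos (uH_pos c n) hsn.1) (hep _)).le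
    · rw [Function.update_of_ne hk]
      refine (hFn y hy y' hy'.1 k).trans ?_
      exact mul_le_mul_of_nonneg_right (hmono (by linarith)) (mul_pos (hBp _) (hep _)).le
  refine ⟨F, hFJ, hFne, hFz, ?_, ?_, ?_, ?_, ?_, ?_⟩
  · intro y hy y' hy' s
    refine (hFn y hy y' hy' s).trans ?_
    exact mul_le_mul_of_nonneg_right (hmono (by linarith)) (mul_pos (hBp _) (hep _)).le
  · intro y hy
    refine le_trans ?_ (low_aux (p := u) he he1 hTo ow1 hεg (hF1 y hy))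
    exact mul_le_mul_of_nonneg_left (hmono (by linarith)) hTo.le
  · intro y hy
    refine le_trans ?_ (low_aux (p := zl') he he1 hTo ow2 hεg (hF2 y hy))
    rw [div_eq_mul_inv]
    calc To n * B'.d n ^ (-(1 - u)) *
          ((2 : ℝ) ^ (nM (B'.d n) (v - u - δ) + 1 - nK η (nM (B'.d n) (v - u - δ))))⁻¹
        ≤ To n * B'.d n ^ (-(1 - u)) * (2 * B'.d n ^ ((v - u - δ) * (1 - 3 / 4 * η))) :=
          mul_le_mul_of_nonneg_left f13 (mul_pos hTo (hep _)).le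
      _ ≤ To n * B'.d n ^ (-(1 - u)) *
          (B'.d n ^ (-(g / 4)) * B'.d n ^ ((v - u - δ) * (1 - 3 / 4 * η))) := by
          refine mul_le_mul_of_nonneg_left ?_ (mul_pos hTo (hep _)).le
          exact mul_le_mul_of_nonneg_right c5 (hep _).le
      _ = To n * B'.d n ^ (-(1 - zl') - 3 / 4 * g) := by
          rw [mul_assoc, ← Real.rpow_add he, ← Real.rpow_add he]
          congr 2
          rw [hzl, ha, hδ, hg]; ring
  · intro y hy
    have h1 := o3 y (hFJ hy) (F.filter fun y' => y'.1 = y.1 ∧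
      zc (lvl (sdn' c T1 ξ w n 0 * B'.d n ^ u) + nM (B'.d n) (v - u - δ) + 1) y'.2 =
        zc (lvl (sdn' c T1 ξ w n 0 * B'.d n ^ u) + nM (B'.d n) (v - u - δ) + 1) y.2)
      ((filter_subset _ _).trans hFJ) (ownb (v - δ) _ δ3 hε3 c3 ?_ y hy)
    · refine up_aux (p := v - δ) he he1 hTo up3 h1 (by positivity) ?_ c2
      rw [pow_succ, mul_comm]
      refine mul_le_mul_of_nonneg_left ?_ (by norm_num)
      rwa [show v - δ - u = v - u - δ by ring]
    · have e1 : rho (lvl (sdn' c T1 ξ w n 0 * B'.d n ^ u) + nM (B'.d n) (v - u - δ) + 1) =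
          rho (lvl (sdn' c T1 ξ w n 0 * B'.d n ^ u)) *
            ((2 : ℝ) ^ (nM (B'.d n) (v - u - δ) + 1))⁻¹ := by
        unfold rho
        rw [add_assoc, pow_add]
        field_simp
      have e2 : ((2 : ℝ) ^ (nM (B'.d n) (v - u - δ) + 1))⁻¹ ≤ B'.d n ^ (v - u - δ) := by
        rw [Real.rpow_neg he.le] at f6
        exact inv_le_of_inv_le₀ (hep _) f6
      rw [e1]
      calc rho (lvl (sdn' c T1 ξ w n 0 * B'.d n ^ u)) *
            ((2 : ℝ) ^ (nM (B'.d n) (v - u - δ) + 1))⁻¹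
          ≤ 2 * (sdn' c T1 ξ w n 0 * B'.d n ^ u) * B'.d n ^ (v - u - δ) :=
            mul_le_mul f2 e2 (by positivity)
              (mul_pos two_pos (mul_pos hsn.1 (hep _))).le
        _ = 2 * (sdn' c T1 ξ w n 0 * (B'.d n ^ u * B'.d n ^ (v - u - δ))) := by ring
        _ = _ := by
          rw [← Real.rpow_add he]
          congr 3; ring
  · intro y hy
    have h1 := o4 y (hFJ hy) (F.filter fun y' => y'.1 = y.1 ∧
      zc (lvl (sdn' c T1 ξ w n 0 * B'.d n ^ v)) y'.2 =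
        zc (lvl (sdn' c T1 ξ w n 0 * B'.d n ^ v)) y.2)
      ((filter_subset _ _).trans hFJ) (ownb v _ δ4 hε4 c4 f4 y hy)
    refine up_aux (p := v) he he1 hTo up4 h1 (by positivity) ?_ c2
    -- `2^(j-i) = rho i / rho j`
    have hij : lvl (sdn' c T1 ξ w n 0 * B'.d n ^ u) ≤ lvl (sdn' c T1 ξ w n 0 * B'.d n ^ v) := by
      omega
    have e1 : (2 : ℝ) ^ (lvl (sdn' c T1 ξ w n 0 * B'.d n ^ v) -
        lvl (sdn' c T1 ξ w n 0 * B'.d n ^ u)) *
        rho (lvl (sdn' c T1 ξ w n 0 * B'.d n ^ v)) = rho (lvl (sdn' c T1 ξ w n 0 * B'.d n ^ u)) := by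
      unfold rho
      rw [pow_sub₀ _ two_ne_zero hij]
      field_simp
    have hP0 : (0 : ℝ) < 2 ^ (lvl (sdn' c T1 ξ w n 0 * B'.d n ^ v) -
      lvl (sdn' c T1 ξ w n 0 * B'.d n ^ u)) := by positivity
    have e2 : (2 : ℝ) ^ (lvl (sdn' c T1 ξ w n 0 * B'.d n ^ v) -
        lvl (sdn' c T1 ξ w n 0 * B'.d n ^ u)) * (sdn' c T1 ξ w n 0 * B'.d n ^ v) ≤
        2 * (sdn' c T1 ξ w n 0 * B'.d n ^ u) :=
      (mul_le_mul_of_nonneg_left f3 hP0.le).trans (e1.le.trans f2)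
    have e3 : B'.d n ^ u = B'.d n ^ (-(v - u)) * B'.d n ^ v := by
      rw [← Real.rpow_add he]; congr 1; ring
    have hlv : 0 < sdn' c T1 ξ w n 0 * B'.d n ^ v := mul_pos hsn.1 (hep _)
    refine le_of_mul_le_mul_right (e2.trans (le_of_eq ?_)) hlv
    calc 2 * (sdn' c T1 ξ w n 0 * B'.d n ^ u)
        = 2 * (sdn' c T1 ξ w n 0 * (B'.d n ^ (-(v - u)) * B'.d n ^ v)) :=
          congrArg (fun z => 2 * (sdn' c T1 ξ w n 0 * z)) e3
      _ = 2 * B'.d n ^ (-(v - u)) * (sdn' c T1 ξ w n 0 * B'.d n ^ v) := by ring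
  · intro y hy
    refine le_trans ?_ ((hF3 y hy).trans ?_)
    · exact mul_le_mul_of_nonneg_left (hmono (by linarith)) hTn.le
    · refine Nat.cast_le.2 (card_le_card fun y' hy' => ?_)
      rw [mem_filter] at hy' ⊢
      refine ⟨hy'.1, hy'.2.1, fun s => (hy'.2.2 s).trans ?_⟩
      exact mul_le_mul_of_nonneg_right (hmono (by linarith)) (mul_pos (hBp _) (hep _)).le

open Classical in
/-- **(X)** the container of the record -/
theorem cont_nat {η₀ : ℝ} {c : LCtx} (ok : c.Ok η₀) {B' : Base} {J : ℕ → Finset (ℕ × ℝ)}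
    {ξ w : ℕ → ℝ} {lam lo : (Fin 11 → ℝ) → ℝ} {Cl E : ℕ → Finset (ℕ × ℝ)} {s₀ : ℕ → ℕ × ℝ}
    {h : ℕ → Fin 6 → ℝ} {ηg : ℕ → ℝ} {J' : ℕ → Finset (ℕ × ℝ)} {To : ℕ → ℝ}
    {ν' own' : (Fin 11 → ℝ) → ℝ}
    (G : GZ c (T1z (c.p.θ 1)) (xz (c.p.θ 1)) (Rz (c.p.θ 1)) B' J ξ w lam lo Cl E s₀ h ηg J' To ν'
      own')
    (hZ : 1 ≤ c.p.θ 1 ∨ Zer (c.p.θ 1) (T1z (c.p.θ 1)) (xz (c.p.θ 1)) (Rz (c.p.θ 1)) own')
    {η : ℝ} (hη0 : 0 < η) (hη1 : η ≤ 1 / 4) {M₁ : ℕ} (hM₁ : 4 ≤ η * M₁)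
    {δ' κ' : ℝ} (hδ0 : 0 < δ') (hδ1 : δ' ≤ 1 / 2) (hκ0 : 0 < κ') (hκ1 : κ' ≤ η) :
    ∃ u v : ℝ, 0 < u ∧ u < v ∧ v < 1 ∧ v - u ≤ 1 / 2 ∧ ∀ εc : ℝ, 0 < εc → ∀ ε1 : ℝ, 0 < ε1 →
      ∀ᶠ n in (U : Filter ℕ), ∀ i l j M k : ℕ,
        i = lvl (sdn' c (T1z (c.p.θ 1)) ξ w n 0 * B'.d n ^ u) →
        j = lvl (sdn' c (T1z (c.p.θ 1)) ξ w n 0 * B'.d n ^ v) →
        M = nM (B'.d n) (v - u - δ' * (v - u)) → k = nK η M → l = i + M + 1 - k →
        ∃ F ⊆ J' n, F.Nonempty ∧ (∀ x ∈ F, ∀ y ∈ F, zc i x.2 = zc i y.2) ∧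
          (∀ x ∈ F, ∀ y ∈ F, ∀ s, |coG c.F h n x y s| ≤ B'.d n ^ (-εc) *
            (c.D.B.d n ^ XG (c.XB (T1z (c.p.θ 1)) ξ w) n s *
              B'.d n ^ kbm u v (T1z (c.p.θ 1) - c.p.θ 1 * v) s)) ∧
          (∀ x ∈ F, To n * B'.d n ^ (-(1 - u)) ≤ B'.d n ^ (-(κ' * (v - u))) *
            ((F.filter fun y => y.1 = x.1 ∧ zc i y.2 = zc i x.2).card : ℝ)) ∧
          (∀ x ∈ F, To n * B'.d n ^ (-(1 - u)) / 2 ^ (M + 1 - k) ≤ B'.d n ^ (-(κ' * (v - u))) *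
            ((F.filter fun y => y.1 = x.1 ∧ zc l y.2 = zc l x.2).card : ℝ)) ∧
          (∀ x ∈ F, ((F.filter fun y => y.1 = x.1 ∧ zc (i + M + 1) y.2 =
            zc (i + M + 1) x.2).card : ℝ) ≤ B'.d n ^ (-(κ' * (v - u))) *
              (To n * B'.d n ^ (-(1 - u)) / 2 ^ (M + 1))) ∧
          (∀ x ∈ F, ((F.filter fun y => y.1 = x.1 ∧ zc j y.2 = zc j x.2).card : ℝ) ≤
            B'.d n ^ (-(κ' * (v - u))) * (To n * B'.d n ^ (-(1 - u)) / 2 ^ (j - i))) ∧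
          (∀ x ∈ F, c.TB (T1z (c.p.θ 1)) B' ξ lam n *
              B'.d n ^ (-(ν' (rz (c.p.θ 1) (T1z (c.p.θ 1)) (xz (c.p.θ 1)) v)) + ε1) ≤
            ((F.filter fun y => zc j y.2 = zc j x.2 ∧ ∀ s, |coG c.F h n x y s| ≤
              B'.d n ^ (-εc) * (c.D.B.d n ^ XG (c.XB (T1z (c.p.θ 1)) ξ w) n s *
                B'.d n ^ rz (c.p.θ 1) (T1z (c.p.θ 1)) (xz (c.p.θ 1)) v s)).card : ℝ)) := by
  refine cont_gen G.ext hZ ok.th.tp.ok.θ1 (one_le_T1z _) (le_T1z _) rfl rfl ?_ hη0 hη1 hM₁ hδ0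
    hδ1 hκ0 hκ1
  obtain ⟨ξ₀, h0, h1, hξ⟩ := Wid638.ξ_near G.gw.rw
  filter_upwards [Wid638.sides ok G.gw.rw (T1z (c.p.θ 1)), hξ ξ₀ h0] with n ⟨s0, _⟩ a1
  rw [sdn'_eq, s0]
  have hρ := Wid638.rho_pos' (c.D.lev n 0)
  have hd : 0 < c.D.B.d n ^ ξ n := Real.rpow_pos_of_pos (c.D.B.pos n) _
  have hξ0 : 0 ≤ ξ n := by
    have := (abs_le.1 a1).1
    linarith
  have hd1 : c.D.B.d n ^ ξ n ≤ 1 := Real.rpow_le_one (c.D.B.pos n).le (c.D.B.lt n).le hξ0
  have hρ1 : rho (c.D.lev n 0) ≤ 1 := by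
    unfold rho
    rw [div_le_one (by positivity)]
    exact one_le_pow₀ (by norm_num)
  refine ⟨mul_pos hρ hd, ?_⟩
  calc rho (c.D.lev n 0) * c.D.B.d n ^ ξ n ≤ 1 * 1 := mul_le_mul hρ1 hd1 hd.le zero_le_one
    _ = 1 := one_mul 1

end Crest.Agent.R136.End882
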