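import Crest.Agent.R136.Gr2_356
import Crest.Agent.R138.TwA_501

/-!
# R136: heavy functionals and transport, finite lemmas (helper272)

* `kauf_lab` : finite Kaufman inequality with labels of cells, arbitrary near relation;
* `far_pair` : two far heights with many common lines;
* `sep_card` : separated subset.
-/

set_option autoImplicit false
set_option linter.unusedVariables false
set_option linter.unusedSectionVars false

open Finset Filter Topology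

namespace Crest.Agent.R136.Xd272

open Crest.Agent.R138.TwA501 (energy pair_sum_le)
open Crest.Agent.R136.Gf356

open Classical in
/-- the finite Kaufman inequality at one pin, cells given by labels -/
theorem kauf_lab (Z S : Finset ℕ) (al : ℕ → ℕ → Prop) (lab : ℕ → ℕ → ℕ)
    (near : ℕ → ℕ → ℕ → Prop) (D : ℕ → ℕ → ℝ) {J : ℕ} {M m : ℝ} (tt aa bb : ℕ → ℝ)
    (hm : 0 ≤ m) (hM0 : 0 ≤ M)
    (hlab : ∀ k ∈ Z, ∀ i ∈ S, ∀ i' ∈ S, al i k → al i' k → lab k i = lab k i' → near k i i')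
    (hcell : ∀ k ∈ Z, (((S.filter fun i => al i k).image (lab k)).card : ℝ) ≤ M)
    (hal : ∀ i ∈ S, m * (Z.card : ℝ) ≤ ((Z.filter fun k => al i k).card : ℝ))
    (h0 : ∀ i ∈ S, ∀ i' ∈ S, D i i' ≤ tt 0)
    (hb : ∀ j ≤ J, 0 ≤ bb j)
    (h1 : ∀ j < J, ∀ i ∈ S, ∀ i' ∈ S, tt (j + 1) < D i i' →
      ((Z.filter fun k => near k i i').card : ℝ) ≤ bb j * Z.card)
    (h2 : (1 : ℝ) ≤ bb J)
    (hnear : ∀ j ≤ J, ∀ i ∈ S, ((S.filter fun i' => D i i' ≤ tt j).card : ℝ) ≤ aa j * S.card)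
    (hS : S.Nonempty) (hZ : Z.Nonempty) :
    m ^ 2 ≤ M * ∑ j ∈ range (J + 1), aa j * bb j := by
  have hZc : (0 : ℝ) < Z.card := by exact_mod_cast card_pos.2 hZ
  have hSc : (0 : ℝ) < S.card := by exact_mod_cast card_pos.2 hS
  have e1 := energy (S := S) (K := Z) (fun k => S.filter fun i => al i k)
    (fun k _ => filter_subset _ _) (fun k i => ((lab k i : ℕ) : ℤ))
    (fun k i i' => near k i i') M (by
      intro k hk i hi i' hi' hl
      rw [mem_filter] at hi hi'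
      exact hlab k hk i hi.1 i' hi'.1 hi.2 hi'.2 (by exact_mod_cast hl)) (by
      intro k hk
      refine le_trans ?_ (hcell k hk)
      have : (S.filter fun i => al i k).image (fun i => ((lab k i : ℕ) : ℤ)) =
          ((S.filter fun i => al i k).image (lab k)).image fun c : ℕ => (c : ℤ) := by
        rw [image_image]; rfl
      rw [this]
      exact_mod_cast card_image_le)
  have e2 := pair_sum_le (S := S)
    (fun i i' => ((Z.filter fun k => near k i i').card : ℝ))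
    D tt (fun j => bb j * Z.card) J
    (fun j hj => mul_nonneg (hb j hj) hZc.le) h0
    (fun j hj i hi i' hi' hD => h1 j hj i hi i' hi' hD)
    (fun i hi i' hi' => by
      calc ((Z.filter fun k => near k i i').card : ℝ) ≤ Z.card := by
            exact_mod_cast card_le_card (filter_subset _ _)
        _ = 1 * Z.card := (one_mul _).symm
        _ ≤ _ := mul_le_mul_of_nonneg_right h2 hZc.le)
    (fun j => aa j * S.card) hnear
  have e3 : ∑ k ∈ Z, (((S.filter fun i => al i k).card : ℕ) : ℝ) =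
      ∑ i ∈ S, ((Z.filter fun k => al i k).card : ℝ) := by
    have g1 : ∀ k ∈ Z, (((S.filter fun i => al i k).card : ℕ) : ℝ) =
        ∑ i ∈ S, (if al i k then (1 : ℝ) else 0) := by
      intro k _
      rw [card_filter]; push_cast; rfl
    have g2 : ∀ i ∈ S, (((Z.filter fun k => al i k).card : ℕ) : ℝ) =
        ∑ k ∈ Z, (if al i k then (1 : ℝ) else 0) := by
      intro i _
      rw [card_filter]; push_cast; rfl
    rw [sum_congr rfl g1, sum_congr rfl g2, sum_comm]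
  have e4 : m * Z.card * S.card ≤ ∑ k ∈ Z, (((S.filter fun i => al i k).card : ℕ) : ℝ) := by
    rw [e3]
    calc m * Z.card * S.card = ∑ i ∈ S, m * (Z.card : ℝ) := by
          rw [sum_const, nsmul_eq_mul]; ring
      _ ≤ _ := sum_le_sum hal
  have hsum : ∑ j ∈ range (J + 1), aa j * (S.card : ℝ) * (bb j * Z.card) =
      (S.card : ℝ) * Z.card * ∑ j ∈ range (J + 1), (aa j * bb j) := by
    rw [mul_sum]
    refine sum_congr rfl fun j _ => ?_
    ring
  rw [hsum] at e2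
  have e5 : (m * Z.card * S.card) ^ 2 ≤ (Z.card : ℝ) * (M *
      (S.card * ((S.card : ℝ) * Z.card * ∑ j ∈ range (J + 1), (aa j * bb j)))) := by
    refine (pow_le_pow_left₀ (by positivity) e4 2).trans (e1.trans ?_)
    refine mul_le_mul_of_nonneg_left (mul_le_mul_of_nonneg_left e2 hM0) hZc.le
  have e6 : m ^ 2 * ((Z.card : ℝ) * S.card) ^ 2 ≤
      (M * ∑ j ∈ range (J + 1), aa j * bb j) * ((Z.card : ℝ) * S.card) ^ 2 := by
    calc _ = (m * Z.card * S.card) ^ 2 := by ring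
      _ ≤ _ := e5
      _ = _ := by ring
  exact le_of_mul_le_mul_right e6 (by positivity)

/-- the finite Kaufman inequality with labels, in a form without decidability -/
theorem kauf_labT (Z S : Finset ℕ) (al : ℕ → ℕ → Prop) (lab : ℕ → ℕ → ℕ)
    (near : ℕ → ℕ → ℕ → Prop) (D : ℕ → ℕ → ℝ) {J : ℕ} {M m : ℝ} (tt aa bb : ℕ → ℝ)
    (hm : 0 ≤ m) (hM0 : 0 ≤ M)
    (hlab : ∀ k ∈ Z, ∀ i ∈ S, ∀ i' ∈ S, al i k → al i' k → lab k i = lab k i' → near k i i')
    (hcell : ∀ k ∈ Z, ∀ T ⊆ S, (∀ i ∈ T, al i k) → ((T.image (lab k)).card : ℝ) ≤ M)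
    (hal : ∀ i ∈ S, ∀ T ⊆ Z, (∀ k ∈ Z, al i k → k ∈ T) → m * (Z.card : ℝ) ≤ (T.card : ℝ))
    (h0 : ∀ i ∈ S, ∀ i' ∈ S, D i i' ≤ tt 0)
    (hb : ∀ j ≤ J, 0 ≤ bb j)
    (h1 : ∀ j < J, ∀ i ∈ S, ∀ i' ∈ S, tt (j + 1) < D i i' → ∀ T ⊆ Z, (∀ k ∈ T, near k i i') →
      (T.card : ℝ) ≤ bb j * Z.card)
    (h2 : (1 : ℝ) ≤ bb J)
    (hnear : ∀ j ≤ J, ∀ i ∈ S, ∀ T ⊆ S, (∀ i' ∈ T, D i i' ≤ tt j) →
      (T.card : ℝ) ≤ aa j * S.card)
    (hS : S.Nonempty) (hZ : Z.Nonempty) :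
    m ^ 2 ≤ M * ∑ j ∈ range (J + 1), aa j * bb j := by
  classical
  refine kauf_lab Z S al lab near D tt aa bb hm hM0 hlab ?_ ?_ h0 hb ?_ h2 ?_ hS hZ
  · intro k hk
    exact hcell k hk _ (filter_subset _ _) fun i hi => (mem_filter.1 hi).2
  · intro i hi
    exact hal i hi _ (filter_subset _ _) fun k hk h => mem_filter.2 ⟨hk, h⟩
  · intro j hj i hi i' hi' hD
    exact h1 j hj i hi i' hi' hD _ (filter_subset _ _) fun k hk => (mem_filter.1 hk).2
  · intro j hj i hi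
    exact hnear j hj i hi _ (filter_subset _ _) fun k hk => (mem_filter.1 hk).2

/-- the finite Kaufman inequality with labels, without bound for the differences -/
theorem kauf_labF (Z S : Finset ℕ) (al : ℕ → ℕ → Prop) (lab : ℕ → ℕ → ℕ)
    (near : ℕ → ℕ → ℕ → Prop) (D : ℕ → ℕ → ℝ) {J : ℕ} {M m : ℝ} (tt aa bb : ℕ → ℝ)
    (hm : 0 ≤ m) (hM0 : 0 ≤ M)
    (hlab : ∀ k ∈ Z, ∀ i ∈ S, ∀ i' ∈ S, al i k → al i' k → lab k i = lab k i' → near k i i')
    (hcell : ∀ k ∈ Z, ∀ T ⊆ S, (∀ i ∈ T, al i k) → ((T.image (lab k)).card : ℝ) ≤ M)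
    (hal : ∀ i ∈ S, ∀ T ⊆ Z, (∀ k ∈ Z, al i k → k ∈ T) → m * (Z.card : ℝ) ≤ (T.card : ℝ))
    (hD : ∀ i ∈ S, ∀ i' ∈ S, 0 ≤ D i i')
    (hb : ∀ j ≤ J, 0 ≤ bb j)
    (h1 : ∀ j < J, ∀ i ∈ S, ∀ i' ∈ S, tt (j + 1) < D i i' → ∀ T ⊆ Z, (∀ k ∈ T, near k i i') →
      (T.card : ℝ) ≤ bb j * Z.card)
    (h2 : (1 : ℝ) ≤ bb J) (ha : (1 : ℝ) ≤ aa 0)
    (hnear : ∀ j, 1 ≤ j → j ≤ J → ∀ i ∈ S, ∀ T ⊆ S, (∀ i' ∈ T, D i i' ≤ tt j) →
      (T.card : ℝ) ≤ aa j * S.card)
    (hS : S.Nonempty) (hZ : Z.Nonempty) :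
    m ^ 2 ≤ M * ∑ j ∈ range (J + 1), aa j * bb j := by
  classical
  refine kauf_labT Z S al lab near D
    (fun j => if j = 0 then ∑ i ∈ S, ∑ i' ∈ S, D i i' else tt j) aa bb hm hM0 hlab hcell hal ?_ hb
    ?_ h2 ?_ hS hZ
  · intro i hi i' hi'
    simp only [if_true]
    calc D i i' ≤ ∑ i' ∈ S, D i i' := single_le_sum (f := fun i' => D i i') (hD i hi) hi'
      _ ≤ _ := single_le_sum (f := fun i => ∑ i' ∈ S, D i i')
        (fun i hi => sum_nonneg (hD i hi)) hi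
  · intro j hj i hi i' hi' h
    simp only [Nat.add_eq_zero_iff, one_ne_zero, and_false, if_false] at h
    exact h1 j hj i hi i' hi' h
  · intro j hj i hi T hT hTD
    rcases Nat.eq_zero_or_pos j with h0 | h0
    · subst h0
      have h3 : (T.card : ℝ) ≤ 1 * S.card := by
        rw [one_mul]; exact_mod_cast card_le_card hT
      exact h3.trans (mul_le_mul_of_nonneg_right ha (Nat.cast_nonneg _))
    · have hne : j ≠ 0 := by omega
      simp only [if_neg hne] at hTD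
      exact hnear j h0 hj i hi T hT hTD

open Classical in
/-- two far heights with many common lines -/
theorem far_pair (L Z : Finset ℕ) (J : Finset (ℕ × ℕ)) (z : ℕ → ℝ) {θ s : ℝ} (hθ : 0 < θ)
    (hL : L.Nonempty) (hZ : Z.Nonempty) (hJ : J ⊆ L ×ˢ Z)
    (hc : θ * ((L.card : ℝ) * Z.card) ≤ (J.card : ℝ))
    (hfr : ∀ k ∈ Z, ((Z.filter fun k' => |z k' - z k| ≤ s).card : ℝ) ≤ θ ^ 2 / 4 * Z.card) :
    ∃ k ∈ Z, ∃ k' ∈ Z, s < |z k' - z k| ∧
      θ ^ 2 / 2 * (L.card : ℝ) ≤ ((L.filter fun i => (i, k) ∈ J ∧ (i, k') ∈ J).card : ℝ) := by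
  by_contra hcon
  push Not at hcon
  have hZ0 : (0 : ℝ) < Z.card := by exact_mod_cast hZ.card_pos
  have hL0 : (0 : ℝ) < L.card := by exact_mod_cast hL.card_pos
  have hJc : (J.card : ℝ) = ∑ i ∈ L, ((Z.filter fun k => (i, k) ∈ J).card : ℝ) := by
    have h1 : J = (L ×ˢ Z).filter fun q => q ∈ J := by
      ext q
      rw [mem_filter]
      exact ⟨fun h => ⟨hJ h, h⟩, fun h => h.2⟩
    conv_lhs => rw [h1]
    rw [card_filter, sum_product]
    push_cast
    refine sum_congr rfl fun i _ => ?_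
    rw [card_filter]; push_cast; rfl
  have h1 : (J.card : ℝ) ^ 2 ≤ L.card * ∑ i ∈ L, ((Z.filter fun k => (i, k) ∈ J).card : ℝ) ^ 2 := by
    rw [hJc]
    exact sq_sum_le_card_mul_sum_sq
  have h2 : ∑ i ∈ L, ((Z.filter fun k => (i, k) ∈ J).card : ℝ) ^ 2 =
      ∑ k ∈ Z, ∑ k' ∈ Z, ((L.filter fun i => (i, k) ∈ J ∧ (i, k') ∈ J).card : ℝ) := by
    have g1 : ∀ i ∈ L, ((Z.filter fun k => (i, k) ∈ J).card : ℝ) ^ 2 =
        ∑ k ∈ Z, ∑ k' ∈ Z, (if (i, k) ∈ J ∧ (i, k') ∈ J then (1 : ℝ) else 0) := by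
      intro i _
      have : ((Z.filter fun k => (i, k) ∈ J).card : ℝ) =
          ∑ k ∈ Z, (if (i, k) ∈ J then (1 : ℝ) else 0) := by
        rw [card_filter]; push_cast; rfl
      rw [this, sq, sum_mul_sum]
      refine sum_congr rfl fun k _ => sum_congr rfl fun k' _ => ?_
      by_cases a1 : (i, k) ∈ J <;> by_cases a2 : (i, k') ∈ J <;> simp [a1, a2]
    rw [sum_congr rfl g1, sum_comm]
    refine sum_congr rfl fun k _ => ?_
    rw [sum_comm]
    refine sum_congr rfl fun k' _ => ?_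
    rw [card_filter]; push_cast; rfl
  have h3 : ∀ k ∈ Z, ∑ k' ∈ Z, ((L.filter fun i => (i, k) ∈ J ∧ (i, k') ∈ J).card : ℝ) ≤
      θ ^ 2 / 2 * L.card * Z.card + θ ^ 2 / 4 * Z.card * L.card := by
    intro k hk
    rw [← sum_filter_add_sum_filter_not Z (fun k' => |z k' - z k| ≤ s)]
    have a1 : ∑ k' ∈ Z.filter (fun k' => |z k' - z k| ≤ s),
        ((L.filter fun i => (i, k) ∈ J ∧ (i, k') ∈ J).card : ℝ) ≤ θ ^ 2 / 4 * Z.card * L.card := by
      calc _ ≤ ∑ k' ∈ Z.filter (fun k' => |z k' - z k| ≤ s), (L.card : ℝ) :=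
            sum_le_sum fun k' _ => by exact_mod_cast card_le_card (filter_subset _ _)
        _ = ((Z.filter fun k' => |z k' - z k| ≤ s).card : ℝ) * L.card := by
            rw [sum_const, nsmul_eq_mul]
        _ ≤ _ := mul_le_mul_of_nonneg_right (hfr k hk) hL0.le
    have a2 : ∑ k' ∈ Z.filter (fun k' => ¬ |z k' - z k| ≤ s),
        ((L.filter fun i => (i, k) ∈ J ∧ (i, k') ∈ J).card : ℝ) ≤
          θ ^ 2 / 2 * L.card * Z.card := by
      calc _ ≤ ∑ k' ∈ Z.filter (fun k' => ¬ |z k' - z k| ≤ s), (θ ^ 2 / 2 * L.card) := by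
            refine sum_le_sum fun k' hk' => ?_
            rw [mem_filter, not_le] at hk'
            exact (hcon k hk k' hk'.1 hk'.2).le
        _ = ((Z.filter fun k' => ¬ |z k' - z k| ≤ s).card : ℝ) * (θ ^ 2 / 2 * L.card) := by
            rw [sum_const, nsmul_eq_mul]
        _ ≤ (Z.card : ℝ) * (θ ^ 2 / 2 * L.card) :=
            mul_le_mul_of_nonneg_right (by exact_mod_cast card_le_card (filter_subset _ _))
              (by positivity)
        _ = _ := by ring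
    linarith
  have h4 : (J.card : ℝ) ^ 2 ≤ L.card * (Z.card *
      (θ ^ 2 / 2 * L.card * Z.card + θ ^ 2 / 4 * Z.card * L.card)) := by
    refine h1.trans ?_
    rw [h2]
    refine mul_le_mul_of_nonneg_left ?_ hL0.le
    calc _ ≤ ∑ k ∈ Z, (θ ^ 2 / 2 * L.card * Z.card + θ ^ 2 / 4 * Z.card * L.card) :=
          sum_le_sum h3
      _ = _ := by rw [sum_const, nsmul_eq_mul]
  have h5 : (θ * ((L.card : ℝ) * Z.card)) ^ 2 ≤ (J.card : ℝ) ^ 2 :=
    pow_le_pow_left₀ (by positivity) hc 2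
  have h6 : 0 < θ ^ 2 * ((L.card : ℝ) * Z.card) ^ 2 := by positivity
  nlinarith

open Classical in
/-- a separated subset with few elements forces large classes -/
theorem sep_card (T : Finset ℕ) (v : ℕ → ℕ → ℝ) {s M : ℝ}
    (hM : ∀ t ∈ T, ((T.filter fun t' => |v t t'| ≤ s ∨ |v t' t| ≤ s).card : ℝ) ≤ M)
    (hself : ∀ t ∈ T, |v t t| ≤ s) :
    ∃ E ⊆ T, (∀ e ∈ E, ∀ e' ∈ E, e ≠ e' → s < |v e e'|) ∧ (T.card : ℝ) ≤ E.card * M := by
  obtain ⟨E, hET, h1, h2⟩ := exists_indep T (fun e t => |v e t| ≤ s)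
  refine ⟨E, hET, fun e he e' he' hne => not_le.1 (h1 e he e' he' hne), ?_⟩
  have hsub : T ⊆ E.biUnion fun e => T.filter fun t' => |v e t'| ≤ s ∨ |v t' e| ≤ s := by
    intro t ht
    rw [mem_biUnion]
    by_cases htE : t ∈ E
    · exact ⟨t, htE, mem_filter.2 ⟨ht, Or.inl (hself t ht)⟩⟩
    · obtain ⟨e, he, h⟩ := h2 t ht htE
      exact ⟨e, he, mem_filter.2 ⟨ht, h⟩⟩
  calc (T.card : ℝ) ≤ ((E.biUnion fun e => T.filter fun t' => |v e t'| ≤ s ∨ |v t' e| ≤ s).card : ℝ) := by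
        exact_mod_cast card_le_card hsub
    _ ≤ ∑ e ∈ E, ((T.filter fun t' => |v e t'| ≤ s ∨ |v t' e| ≤ s).card : ℝ) := by
        exact_mod_cast card_biUnion_le
    _ ≤ ∑ e ∈ E, M := sum_le_sum fun e he => hM e (hET he)
    _ = _ := by rw [sum_const, nsmul_eq_mul]

end Crest.Agent.R136.Xd272
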