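import Crest.Agent.R136.Xd1_272
import Crest.Agent.R136.Prn3_779

/-!
# R136: few values of a heavy functional (helper272)

* `dense_fibre` : a dense part of a slice is dense in some box;
* `few_vals` : lines which own a heavy level set of the functional `dn` in their box `qH` take few
  different values.
-/

set_option autoImplicit false
set_option linter.unusedVariables false
set_option linter.unusedSectionVars false

open Finset Filter Topology

namespace Crest.Agent.R136.Xd272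

open Crest.Agent.R138.Ex926 (Base U)
open Crest.Agent.R136.Gf356
open Crest.Agent.R136.Prn779 (OneBox)

variable {κ : Type} {B : Base} {G : ℕ → RCfg κ} {Leg : Set (κ → ℝ)} {ν : (κ → ℝ) → ℝ}
  {σ R D : ℝ}

open Classical in
/-- a dense part of a slice is dense in some box -/
theorem dense_fibre (H : RUnif B G Leg ν D) {p : κ → ℝ} (hp : p ∈ Leg) {ε : ℝ} (hε : 0 < ε) :
    ∀ᶠ n in (U : Filter ℕ), ∀ k, ∀ W ⊆ (G n).slice k, W.Nonempty → ∀ θ : ℝ, 0 < θ →
      θ * (((G n).slice k).card : ℝ) ≤ (W.card : ℝ) →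
      ∃ T ⊆ W, T.Nonempty ∧ (∀ t ∈ T, ∀ t' ∈ T, (G n).loose p (D ^ 5 * ε) k t t') ∧
        θ * B.d n ^ (-ν p + ε) ≤ (T.card : ℝ) := by
  filter_upwards [H.exists_lab p hp hε] with n hn k W hW hWne θ hθ hWc
  obtain ⟨lab, h1, h2⟩ := hn k W hW ((G n).slice k) (fun t _ => RCfg.box_subset_slice)
  obtain ⟨i0, hi0, h3⟩ := exists_fibre W lab hWne h2
  refine ⟨W.filter fun i => lab i = lab i0, filter_subset _ _, ⟨i0, by simp [hi0]⟩, ?_, ?_⟩
  · intro t ht t' ht'
    rw [mem_filter] at ht ht'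
    exact h1 t ht.1 t' ht'.1 (ht.2.trans ht'.2.symm)
  · have hs : (0 : ℝ) < ((G n).slice k).card := by
      obtain ⟨t, ht⟩ := hWne
      exact_mod_cast card_pos.2 ⟨t, hW ht⟩
    have h4 : θ * (((G n).slice k).card : ℝ) ≤ (((G n).slice k).card : ℝ) *
        (B.d n ^ (ν p - ε) * ((W.filter fun i => lab i = lab i0).card : ℝ)) := by
      refine hWc.trans (h3.trans (le_of_eq (by ring)))
    have h5 : θ ≤ B.d n ^ (ν p - ε) * ((W.filter fun i => lab i = lab i0).card : ℝ) := by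
      have : (((G n).slice k).card : ℝ) * θ ≤ (((G n).slice k).card : ℝ) *
        (B.d n ^ (ν p - ε) * ((W.filter fun i => lab i = lab i0).card : ℝ)) := by
        rw [mul_comm]; exact h4
      exact le_of_mul_le_mul_left this hs
    have h6 : B.d n ^ (ν p - ε) * B.d n ^ (-ν p + ε) = 1 := by
      rw [← rpow_add']
      have : ν p - ε + (-ν p + ε) = 0 := by ring
      rw [this, Real.rpow_zero]
    calc θ * B.d n ^ (-ν p + ε) ≤ B.d n ^ (ν p - ε) *
          ((W.filter fun i => lab i = lab i0).card : ℝ) * B.d n ^ (-ν p + ε) :=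
          mul_le_mul_of_nonneg_right h5 (rpos B n _).le
      _ = (B.d n ^ (ν p - ε) * B.d n ^ (-ν p + ε)) *
          ((W.filter fun i => lab i = lab i0).card : ℝ) := by ring
      _ = _ := by rw [h6, one_mul]

open Classical in
/-- lines with a heavy level set take few values -/
theorem few_vals (H : RUnif B G Leg ν D) {qH r2 qr p0 : κ → ℝ} (hqH : qH ∈ Leg) (hr2 : r2 ∈ Leg)
    (hqr : qr ∈ Leg) (hp0 : p0 ∈ Leg) (h0r : ∀ j, p0 j ≤ r2 j)
    (hmax : ∀ j, qr j ≤ max (qH j) (r2 j)) (hone : OneBox G p0)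
    (hsplit : ν p0 - ν r2 ≤ ν qH - ν qr) (dn : ℕ → ℕ → ℕ → ℕ → ℝ) {c c' w εH : ℝ}
    (hεH : 0 < εH) (hcc : c < c')
    (hadd : ∀ᶠ n in (U : Filter ℕ), ∀ k i j l, (i, k) ∈ (G n).I → (j, k) ∈ (G n).I →
      (l, k) ∈ (G n).I → |dn n k i l - dn n k i j - dn n k j l| ≤ B.d n ^ c')
    (hsm : ∀ᶠ n in (U : Filter ℕ), ∀ k i l, (i, k) ∈ (G n).I → (l, k) ∈ (G n).I →
      (G n).loose r2 (D ^ 5 * εH) k i l → |dn n k i l| ≤ B.d n ^ c') :
    ∀ᶠ n in (U : Filter ℕ), ∀ k, ∀ T ⊆ (G n).slice k,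
      (∀ e ∈ T, B.d n ^ (-ν qH + w) ≤
        ((((G n).box qH εH e k).filter fun l => |dn n k e l| ≤ B.d n ^ c').card : ℝ)) →
      (∀ e ∈ T, ∀ e' ∈ T, e ≠ e' → B.d n ^ c < |dn n k e e'|) →
      (T.card : ℝ) ≤ B.d n ^ (-(w + (D ^ 6 + D ^ 2 + 1) * εH)) := by
  have hD := H.D1
  have hD0 : 0 < D := by linarith
  have hD2 : D ^ 2 ≤ D ^ 5 := pow_le_pow_right₀ hD (by norm_num)
  filter_upwards [hadd, hsm, H.symm qH hqH εH hεH, H.tri qH hqH (D * εH) (by positivity),
    H.up qr hqr (D ^ 5 * εH) (by positivity), H.exists_lab_loose p0 r2 hp0 hr2 h0r hεH,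
    hone εH hεH, Crest.Agent.R138.TwA501.ev_const_mul B 7 hcc]
    with n hadd hsm hsymm htri hup hlabs hone h7 k T hT hV hsep
  have hpow : ∀ t : ℝ, 0 < B.d n ^ t := fun t => rpos B n t
  obtain ⟨lab, l1, l2⟩ := hlabs k ((G n).slice k) (Subset.refl _) (fun i hi i' hi' =>
    hone i i' k (H.memSlice.1 hi) (H.memSlice.1 hi'))
  set V : ℕ → Finset ℕ := fun e =>
    ((G n).box qH εH e k).filter fun l => |dn n k e l| ≤ B.d n ^ c' with hVdef
  have hIT : ∀ e ∈ T, (e, k) ∈ (G n).I := fun e he => H.memSlice.1 (hT he)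
  have hVI : ∀ e, ∀ t ∈ V e, (t, k) ∈ (G n).I := by
    intro e t ht
    rw [hVdef] at ht
    exact H.memSlice.1 (RCfg.box_subset_slice (mem_filter.1 ht).1)
  -- classes of labels inside `V e`
  have hcls : ∀ e ∈ T, ∀ b ∈ (V e).image lab,
      (((V e).filter fun t => lab t = b).card : ℝ) ≤ B.d n ^ (-ν qr - D * (D ^ 5 * εH)) := by
    intro e he b hb
    obtain ⟨t0, ht0, rfl⟩ := mem_image.1 hb
    refine le_trans ?_ (hup t0 k (hVI e t0 ht0))
    refine mod_cast card_le_card ?_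
    intro t ht
    obtain ⟨ht1, ht2⟩ := mem_filter.1 ht
    have a0 := (RCfg.mem_box.1 (mem_filter.1 ht0).1).2
    have a1 := (RCfg.mem_box.1 (mem_filter.1 ht1).1).2
    have a2 := hsymm k e t0 (hIT e he) (hVI e t0 ht0) a0
    have a3 : (G n).loose qH (D * εH) k e t := H.loose_mono (fun _ => le_rfl) (by nlinarith) a1
    have a4 := htri k t0 e t (hVI e t0 ht0) (hIT e he) (hVI e t ht1) a2 a3
    have a5 := l1 t0 (H.memSlice.2 (hVI e t0 ht0)) t (H.memSlice.2 (hVI e t ht1)) ht2.symm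
    refine RCfg.mem_box.2 ⟨H.memSlice.2 (hVI e t ht1), fun j => ?_⟩
    have b1 := a4 j
    have b2 := a5 j
    rw [H.base n] at b1 b2 ⊢
    rcases le_total (qH j) (r2 j) with h | h
    · have h' := hmax j
      rw [max_eq_right h] at h'
      exact b2.trans (rpow_anti B n (by linarith))
    · have h' := hmax j
      rw [max_eq_left h] at h'
      refine b1.trans (rpow_anti B n ?_)
      have : D * (D * εH) ≤ D ^ 5 * εH := by
        calc D * (D * εH) = D ^ 2 * εH := by ring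
          _ ≤ _ := mul_le_mul_of_nonneg_right hD2 hεH.le
      linarith
  have hlabV : ∀ e ∈ T, B.d n ^ (-ν qH + w) ≤ (((V e).image lab).card : ℝ) *
      B.d n ^ (-ν qr - D * (D ^ 5 * εH)) := by
    intro e he
    refine (hV e he).trans ?_
    have h1 : ((V e).card : ℝ) = ∑ b ∈ (V e).image lab, (((V e).filter fun t => lab t = b).card : ℝ) := by
      have := card_eq_sum_card_fiberwise (s := V e) (t := (V e).image lab) (f := lab)
        (fun i hi => mem_image_of_mem _ hi)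
      exact_mod_cast this
    change ((V e).card : ℝ) ≤ _
    rw [h1]
    calc _ ≤ ∑ b ∈ (V e).image lab, B.d n ^ (-ν qr - D * (D ^ 5 * εH)) :=
          sum_le_sum fun b hb => hcls e he b hb
      _ = _ := by rw [sum_const, nsmul_eq_mul]
  -- disjointness
  have hee : ∀ e ∈ T, |dn n k e e| ≤ B.d n ^ c' := by
    intro e he
    have := hadd k e e e (hIT e he) (hIT e he) (hIT e he)
    have e1 : dn n k e e - dn n k e e - dn n k e e = - dn n k e e := by ring
    rwa [e1, abs_neg] at this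
  have hdisj : ∀ e ∈ T, ∀ e' ∈ T, e ≠ e' → Disjoint ((V e).image lab) ((V e').image lab) := by
    intro e he e' he' hne
    rw [disjoint_left]
    intro b hb hb'
    obtain ⟨t, ht, rfl⟩ := mem_image.1 hb
    obtain ⟨t', ht', hl⟩ := mem_image.1 hb'
    have b1 := (mem_filter.1 ht).2
    have b2 := (mem_filter.1 ht').2
    have b3 := hsm k t t' (hVI e t ht) (hVI e' t' ht') (l1 t (H.memSlice.2 (hVI e t ht)) t'
      (H.memSlice.2 (hVI e' t' ht')) hl.symm)
    have b4 := hadd k e t e' (hIT e he) (hVI e t ht) (hIT e' he')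
    have b5 := hadd k t t' e' (hVI e t ht) (hVI e' t' ht') (hIT e' he')
    have b6 := hadd k e' t' e' (hIT e' he') (hVI e' t' ht') (hIT e' he')
    have b7 := hee e' he'
    have b8 := hsep e he e' he' hne
    have b9 : |dn n k e e'| ≤ 7 * B.d n ^ c' := by
      rw [abs_le] at b1 b2 b3 b4 b5 b6 b7 ⊢
      constructor <;> linarith [b1.1, b1.2, b2.1, b2.2, b3.1, b3.2, b4.1, b4.2, b5.1, b5.2,
        b6.1, b6.2, b7.1, b7.2]
    linarith
  have hsum : ∑ e ∈ T, (((V e).image lab).card : ℝ) ≤ ((((G n).slice k).image lab).card : ℝ) := by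
    have h1 : ∑ e ∈ T, ((V e).image lab).card = (T.biUnion fun e => (V e).image lab).card :=
      (card_biUnion fun e he e' he' hne => hdisj e he e' he' hne).symm
    have h2 : (T.biUnion fun e => (V e).image lab) ⊆ ((G n).slice k).image lab := by
      intro b hb
      obtain ⟨e, he, hb⟩ := mem_biUnion.1 hb
      obtain ⟨t, ht, rfl⟩ := mem_image.1 hb
      exact mem_image_of_mem _ (H.memSlice.2 (hVI e t ht))
    have h3 := card_le_card h2
    rw [← h1] at h3
    exact_mod_cast h3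
  have hfin : (T.card : ℝ) * B.d n ^ (-ν qH + w) ≤ B.d n ^ (-(ν p0 - ν r2) - (D ^ 2 + 1) * εH) *
      B.d n ^ (-ν qr - D * (D ^ 5 * εH)) := by
    calc (T.card : ℝ) * B.d n ^ (-ν qH + w) = ∑ e ∈ T, B.d n ^ (-ν qH + w) := by
          rw [sum_const, nsmul_eq_mul]
      _ ≤ ∑ e ∈ T, (((V e).image lab).card : ℝ) * B.d n ^ (-ν qr - D * (D ^ 5 * εH)) :=
          sum_le_sum hlabV
      _ = (∑ e ∈ T, (((V e).image lab).card : ℝ)) * B.d n ^ (-ν qr - D * (D ^ 5 * εH)) := by
          rw [sum_mul]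
      _ ≤ _ := mul_le_mul_of_nonneg_right (hsum.trans l2) (hpow _).le
  have h8 : B.d n ^ (-ν qH + w) * B.d n ^ (ν qH - w) = 1 := by
    rw [← rpow_add']
    have : -ν qH + w + (ν qH - w) = 0 := by ring
    rw [this, Real.rpow_zero]
  calc (T.card : ℝ) = (T.card : ℝ) * B.d n ^ (-ν qH + w) * B.d n ^ (ν qH - w) := by
        rw [mul_assoc, h8, mul_one]
    _ ≤ B.d n ^ (-(ν p0 - ν r2) - (D ^ 2 + 1) * εH) *
      B.d n ^ (-ν qr - D * (D ^ 5 * εH)) * B.d n ^ (ν qH - w) :=
        mul_le_mul_of_nonneg_right hfin (hpow _).le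
    _ = B.d n ^ (-(ν p0 - ν r2) - (D ^ 2 + 1) * εH + (-ν qr - D * (D ^ 5 * εH)) +
        (ν qH - w)) := by rw [rpow_add', rpow_add']
    _ ≤ _ := by
        refine rpow_anti B n ?_
        have : D * (D ^ 5 * εH) = D ^ 6 * εH := by ring
        rw [this]
        linarith

end Crest.Agent.R136.Xd272
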