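import Crest.Agent.R136.Xd2_272

/-!
# R136: heavy level sets of the velocity functional (helper272)

`heavy_R` : on a heavy set `Zs` of heights on which `N_k = N + (z k - z k0) n'` for all pairs in the
frozen box `pS`, `a < σ` forces: at least half of the incidences over `Zs` have in their box
`qH = pS ∪ {N : (1-δ) y}` at least `ρ^(-ν qH + g y)` lines with `|Δ n'| ≤ ρ^((1-δ) y)`.
-/

set_option autoImplicit false
set_option linter.unusedVariables false
set_option linter.unusedSectionVars false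

open Finset Filter Topology

namespace Crest.Agent.R136.Xd272

open Crest.Agent.R138.Ex926 (Base U)
open Crest.Agent.R138.TwA501 (ev_const_mul)
open Crest.Agent.R136.Gf356
open Crest.Agent.R136.Prn779 (OneBox)

variable {κ : Type} [DecidableEq κ] {B : Base} {G : ℕ → RCfg κ} {Leg : Set (κ → ℝ)}
  {ν : (κ → ℝ) → ℝ} {σ R D : ℝ}

open Classical in
/-- number of lines of the box `q` around `(i, k)` with small functional -/
noncomputable def lev (G : RCfg κ) (q : κ → ℝ) (εH c : ℝ) (dn : ℕ → ℕ → ℕ → ℝ) (i k : ℕ) : ℝ :=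
  (((G.box q εH i k).filter fun l => |dn k i l| ≤ c).card : ℝ)

open Classical in
/-- choice of a pin and of the set of light lines -/
theorem pick_pin (L Zs : Finset ℕ) (I Jl : Finset (ℕ × ℕ)) {e1 e3 : ℝ} (he1 : 0 < e1)
    (he3 : 0 < e3) (hL : L.Nonempty) (hZ : Zs.Nonempty)
    (hI : ∀ q ∈ I, q.1 ∈ L) (hJl : Jl ⊆ I.filter fun q => q.2 ∈ Zs)
    (hsl : ∀ k ∈ Zs, e1 * (L.card : ℝ) ≤ ((L.filter fun i => (i, k) ∈ I).card : ℝ))
    (hJc : ((I.filter fun q => q.2 ∈ Zs).card : ℝ) < 2 * (Jl.card : ℝ))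
    (h13 : e3 ≤ e1 / 4) :
    ∃ k0 ∈ Zs, ∃ W : Finset ℕ, W.Nonempty ∧ (∀ i ∈ W, (i, k0) ∈ Jl ∧
      ∀ T ⊆ Zs, (∀ k ∈ Zs, (i, k) ∈ I → k ∈ T) → e3 * (Zs.card : ℝ) ≤ (T.card : ℝ)) ∧
      e1 / 4 * (L.card : ℝ) ≤ (W.card : ℝ) := by
  suffices hsuff : ∃ k0 ∈ Zs, ∃ W : Finset ℕ, W.Nonempty ∧ (∀ i ∈ W, (i, k0) ∈ Jl ∧
      e3 * (Zs.card : ℝ) ≤ ((Zs.filter fun k => (i, k) ∈ I).card : ℝ)) ∧
      e1 / 4 * (L.card : ℝ) ≤ (W.card : ℝ) by
    obtain ⟨k0, hk0, W, h1, h2, h3⟩ := hsuff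
    refine ⟨k0, hk0, W, h1, fun i hi => ⟨(h2 i hi).1, fun T hT hTk => (h2 i hi).2.trans ?_⟩, h3⟩
    refine mod_cast card_le_card fun k hk => ?_
    exact hTk k (mem_filter.1 hk).1 (mem_filter.1 hk).2
  have hZ0 : (0 : ℝ) < Zs.card := by exact_mod_cast hZ.card_pos
  have hL0 : (0 : ℝ) < L.card := by exact_mod_cast hL.card_pos
  by_contra hcon
  push Not at hcon
  -- rows
  have hrow : ∀ (T : Finset (ℕ × ℕ)), (∀ q ∈ T, q.1 ∈ L ∧ q.2 ∈ Zs) →
      (T.card : ℝ) = ∑ k ∈ Zs, ((L.filter fun i => (i, k) ∈ T).card : ℝ) := by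
    intro T hT
    have h1 : T = (L ×ˢ Zs).filter fun q => q ∈ T := by
      ext q
      rw [mem_filter, mem_product]
      exact ⟨fun h => ⟨hT q h, h⟩, fun h => h.2⟩
    conv_lhs => rw [h1]
    rw [card_filter, sum_product_right]
    push_cast
    refine sum_congr rfl fun i _ => ?_
    rw [card_filter]; push_cast; rfl
  have hcol : ∀ (T : Finset (ℕ × ℕ)), (∀ q ∈ T, q.1 ∈ L ∧ q.2 ∈ Zs) →
      (T.card : ℝ) = ∑ i ∈ L, ((Zs.filter fun k => (i, k) ∈ T).card : ℝ) := by
    intro T hT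
    have h1 : T = (L ×ˢ Zs).filter fun q => q ∈ T := by
      ext q
      rw [mem_filter, mem_product]
      exact ⟨fun h => ⟨hT q h, h⟩, fun h => h.2⟩
    conv_lhs => rw [h1]
    rw [card_filter, sum_product]
    push_cast
    refine sum_congr rfl fun i _ => ?_
    rw [card_filter]; push_cast; rfl
  obtain ⟨good, hgood⟩ : ∃ good : ℕ → Prop, ∀ i, good i ↔
      e3 * (Zs.card : ℝ) ≤ ((Zs.filter fun k => (i, k) ∈ I).card : ℝ) := ⟨_, fun _ => Iff.rfl⟩
  have hmemJ : ∀ q ∈ Jl, q.1 ∈ L ∧ q.2 ∈ Zs := by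
    intro q hq
    have := mem_filter.1 (hJl hq)
    exact ⟨hI q this.1, this.2⟩
  have hmemI : ∀ q ∈ I.filter (fun q => q.2 ∈ Zs), q.1 ∈ L ∧ q.2 ∈ Zs := by
    intro q hq
    have := mem_filter.1 hq
    exact ⟨hI q this.1, this.2⟩
  have h1 : e1 * L.card * Zs.card ≤ ((I.filter fun q => q.2 ∈ Zs).card : ℝ) := by
    rw [hrow _ hmemI]
    calc e1 * L.card * Zs.card = ∑ k ∈ Zs, e1 * (L.card : ℝ) := by
          rw [sum_const, nsmul_eq_mul]; ring
      _ ≤ _ := by
          refine sum_le_sum fun k hk => (hsl k hk).trans ?_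
          refine mod_cast card_le_card ?_
          intro i hi
          rw [mem_filter] at hi ⊢
          exact ⟨hi.1, mem_filter.2 ⟨hi.2, hk⟩⟩
  have h2 : ((Jl.filter fun q => ¬ good q.1).card : ℝ) ≤ e3 * Zs.card * L.card := by
    rw [hcol _ (fun q hq => hmemJ q (mem_filter.1 hq).1)]
    calc _ ≤ ∑ i ∈ L, e3 * (Zs.card : ℝ) := by
          refine sum_le_sum fun i hi => ?_
          by_cases hg : good i
          · have : (Zs.filter fun k => (i, k) ∈ Jl.filter fun q => ¬ good q.1) = ∅ := by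
              ext k
              simp only [mem_filter, notMem_empty, iff_false]
              intro h
              exact h.2.2 hg
            rw [this]
            simp only [card_empty, Nat.cast_zero]
            positivity
          · have hg' := not_le.1 fun h => hg ((hgood i).2 h)
            refine le_trans ?_ hg'.le
            refine mod_cast card_le_card ?_
            intro k hk
            rw [mem_filter] at hk ⊢
            exact ⟨hk.1, (mem_filter.1 (hJl (mem_filter.1 hk.2).1)).1⟩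
      _ = _ := by rw [sum_const, nsmul_eq_mul]; ring
  have h3 : ((Jl.filter fun q => good q.1).card : ℝ) ≤ e1 / 4 * L.card * Zs.card := by
    rw [hrow _ (fun q hq => hmemJ q (mem_filter.1 hq).1)]
    calc _ ≤ ∑ k ∈ Zs, e1 / 4 * (L.card : ℝ) := by
          refine sum_le_sum fun k hk => ?_
          rcases (L.filter fun i => (i, k) ∈ Jl.filter fun q => good q.1).eq_empty_or_nonempty
            with he | hne
          · rw [he]
            simp only [card_empty, Nat.cast_zero]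
            positivity
          · refine (hcon k hk _ hne ?_).le
            intro i hi
            have := mem_filter.1 (mem_filter.1 hi).2
            exact ⟨this.1, (hgood i).1 this.2⟩
      _ = _ := by rw [sum_const, nsmul_eq_mul]; ring
  have h4 : (Jl.card : ℝ) = ((Jl.filter fun q => good q.1).card : ℝ) +
      ((Jl.filter fun q => ¬ good q.1).card : ℝ) := by
    have := card_filter_add_card_filter_not (s := Jl) (fun q => good q.1)
    rw [← this, Nat.cast_add]
  have h5 : e3 * Zs.card * L.card ≤ e1 / 4 * L.card * Zs.card := by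
    have : 0 ≤ (Zs.card : ℝ) * L.card := by positivity
    nlinarith
  nlinarith [mul_pos (mul_pos he1 hL0) hZ0]

open Classical in
/-- the near heights of a pair with large difference -/
theorem near_hts0 (Z Zs : Finset ℕ) (z : ℕ → ℝ) (hZs : Zs ⊆ Z) {K A V t r : ℝ} {k0 : ℕ}
    (hk0 : k0 ∈ Z) (hK : 1 ≤ K) (hz : ∀ k ∈ Z, |z k| ≤ K) (ht : 0 < t) (hr : 0 ≤ r)
    (hD : t < max |A| |V|) (hrt : 2 * r ≤ t) {X : ℝ} (hX : 0 ≤ X)
    (hfr : ∀ k ∈ Z, ((Z.filter fun k' => |z k' - z k| ≤ 16 * K * r / t).card : ℝ) ≤ X) :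
    ((Zs.filter fun k => |A + (z k - z k0) * V| ≤ r).card : ℝ) ≤ X := by
  rcases (Zs.filter fun k => |A + (z k - z k0) * V| ≤ r).eq_empty_or_nonempty with he | ⟨k1, hk1⟩
  · rw [he]; simpa using hX
  rw [mem_filter] at hk1
  have hM0 : 0 < max |A| |V| := ht.trans hD
  have hu : ∀ k ∈ Zs, |z k - z k0| ≤ 2 * K := by
    intro k hk
    have h1 := hz k (hZs hk)
    have h2 := hz k0 hk0
    rw [abs_le] at h1 h2 ⊢
    constructor <;> linarith [h1.1, h1.2, h2.1, h2.2]
  have hV : max |A| |V| / (8 * K) ≤ |V| := by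
    by_contra hcon
    push Not at hcon
    rw [lt_div_iff₀ (by positivity)] at hcon
    have h1 : |V| < max |A| |V| := by nlinarith [abs_nonneg V]
    have h2 : max |A| |V| = |A| := by
      rcases max_cases |A| |V| with h | h
      · exact h.1
      · rw [h.1] at h1; exact absurd h1 (lt_irrefl _)
    rw [h2] at hcon hD hM0
    have h3 : |(z k1 - z k0) * V| ≤ |A| / 4 := by
      rw [abs_mul]
      have := hu k1 hk1.1
      have h5 : |z k1 - z k0| * |V| ≤ 2 * K * |V| := mul_le_mul_of_nonneg_right this (abs_nonneg _)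
      nlinarith
    have h4 := hk1.2
    have h6 : |A| ≤ |A + (z k1 - z k0) * V| + |(z k1 - z k0) * V| := by
      have := abs_sub (A + (z k1 - z k0) * V) ((z k1 - z k0) * V)
      rwa [add_sub_cancel_right] at this
    linarith
  refine le_trans ?_ (hfr k1 (hZs hk1.1))
  refine mod_cast card_le_card ?_
  intro k hk
  rw [mem_filter] at hk ⊢
  refine ⟨hZs hk.1, ?_⟩
  rw [le_div_iff₀ ht]
  have h1 : |(z k - z k1) * V| ≤ 2 * r := by
    have e1 : (z k - z k1) * V = (A + (z k - z k0) * V) - (A + (z k1 - z k0) * V) := by ring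
    rw [e1]
    exact (abs_sub _ _).trans (by linarith [hk.2, hk1.2])
  rw [abs_mul] at h1
  rw [div_le_iff₀ (by positivity)] at hV
  have h2 : |z k - z k1| * t ≤ |z k - z k1| * (|V| * (8 * K)) :=
    mul_le_mul_of_nonneg_left (hD.le.trans hV) (abs_nonneg _)
  nlinarith

/-- the near heights of a pair with large difference, form without decidability -/
theorem near_hts (Z Zs : Finset ℕ) (z : ℕ → ℝ) (hZs : Zs ⊆ Z) {K A V t r : ℝ} {k0 : ℕ}
    (hk0 : k0 ∈ Z) (hK : 1 ≤ K) (hz : ∀ k ∈ Z, |z k| ≤ K) (ht : 0 < t) (hr : 0 ≤ r)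
    (hD : t < max |A| |V|) (hrt : 2 * r ≤ t) {X : ℝ} (hX : 0 ≤ X)
    (hfr : ∀ k ∈ Z, ∀ T ⊆ Z, (∀ k' ∈ T, |z k' - z k| ≤ 16 * K * r / t) → (T.card : ℝ) ≤ X)
    (T : Finset ℕ) (hT : T ⊆ Zs) (hTn : ∀ k ∈ T, |A + (z k - z k0) * V| ≤ r) :
    (T.card : ℝ) ≤ X := by
  classical
  refine le_trans ?_ (near_hts0 Z Zs z hZs hk0 hK hz ht hr hD hrt hX fun k hk =>
    hfr k hk _ (filter_subset _ _) fun k' hk' => (mem_filter.1 hk').2)
  refine mod_cast card_le_card fun k hk => mem_filter.2 ⟨hT hk, hTn k hk⟩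

/-- arithmetic of the exponents -/
theorem expo {σ a δ g h y : ℝ} {J j : ℕ} (ha : 0 ≤ a) (hσ1 : σ ≤ 1) (haσ : a < σ) (hy : 0 < y)
    (hδ : 0 < δ) (hδ1 : δ < 1) (hh : 0 ≤ h) (hh1 : h < (σ - a) * δ * y / 8)
    (hh2 : h < (g - a * δ) * y) (hJ0 : 0 < J) (hJ : 4 / ((σ - a) * δ) < J) (hj : j ≤ J) :
    a * y < (if sc y J j < (1 - δ / 2) * y then a * sc y J j else a * ((1 - δ) * y) + g * y) +
      (if j < J then σ * (y - sc y J (j + 1)) - h else 0) := by
  have hJr : (0 : ℝ) < J := by exact_mod_cast hJ0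
  have hsa : 0 < σ - a := sub_pos.2 haσ
  have hyJ : y / J < (σ - a) * δ * y / 4 := by
    rw [div_lt_iff₀ (by positivity)] at hJ
    rw [div_lt_iff₀ hJr]
    nlinarith
  rcases Nat.lt_or_ge j J with hjJ | hjJ
  · rw [if_pos hjJ]
    have h1 : sc y J (j + 1) ≤ y := sc_le hy.le hJ0 hjJ
    rw [sc_succ y hJ0] at h1 ⊢
    set t := sc y J j with ht
    by_cases hc : t < (1 - δ / 2) * y
    · rw [if_pos hc]
      have h2 : (σ - a) * (δ / 2 * y) ≤ (σ - a) * (y - t) :=
        mul_le_mul_of_nonneg_left (by nlinarith) hsa.le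
      have hyJ0 : 0 ≤ y / J := by positivity
      nlinarith
    · rw [if_neg hc]
      have h3 : 0 ≤ σ * (y - (t + y / J)) :=
        mul_nonneg (by linarith) (by linarith)
      nlinarith
  · have hjJ' : j = J := le_antisymm hj hjJ
    subst hjJ'
    rw [if_neg (lt_irrefl _), add_zero]
    have h1 : sc y j j = y := by unfold sc; field_simp
    rw [h1, if_neg (by nlinarith)]
    nlinarith

end Crest.Agent.R136.Xd272
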