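import Crest.Agent.R136.Xd3_272

/-!
# R136: heavy level sets of the velocity functional, the pieces (helper272)
-/

set_option autoImplicit false
set_option linter.unusedVariables false
set_option linter.unusedSectionVars false

open Finset Filter Topology

namespace Crest.Agent.R136.Xd272

open Crest.Agent.R138.Ex926 (Base U)
open Crest.Agent.R138.TwA501 (ev_const_mul)
open Crest.Agent.R136.Gf356
open Crest.Agent.R136.Prn779 (OneBox)

variable {κ : Type} {B : Base} {G : ℕ → RCfg κ} {Leg : Set (κ → ℝ)}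
  {ν : (κ → ℝ) → ℝ} {σ R D : ℝ}

/-- the data of the motion of the slot `sN` on the heights `Zs` -/
structure Mv (B : Base) (G : ℕ → RCfg κ) (Zs : ℕ → Finset ℕ) (sN : κ)
    (dn : ℕ → ℕ → ℕ → ℕ → ℝ) (pS pT : κ → ℝ) (y C1 : ℝ) : Prop where
  C1_ge : 1 ≤ C1
  mv : ∀ ε : ℝ, 0 < ε → ∀ᶠ n in (U : Filter ℕ), ∀ k0 ∈ Zs n, ∀ k ∈ Zs n, ∀ i l,
      (i, k0) ∈ (G n).I → (l, k0) ∈ (G n).I → (i, k) ∈ (G n).I → (l, k) ∈ (G n).I →
      (G n).loose pS ε k0 i l →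
      |(G n).rel k i l sN - ((G n).rel k0 i l sN + ((G n).z k - (G n).z k0) * dn n k0 i l)|
        ≤ B.d n ^ (y - C1 * ε)
  inT : ∀ ε : ℝ, 0 < ε → ∀ᶠ n in (U : Filter ℕ), ∀ k0 ∈ Zs n, ∀ k ∈ Zs n, ∀ i l,
      (i, k0) ∈ (G n).I → (l, k0) ∈ (G n).I → (i, k) ∈ (G n).I → (l, k) ∈ (G n).I →
      (G n).loose pS ε k0 i l → (G n).loose pT (C1 * ε) k i l

/-- piece 1: labels of cells at the heights of `Zs` -/
theorem cells_pin (H : RModel B G σ R Leg ν D) {Zs : ℕ → Finset ℕ} {sN : κ}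
    {dn : ℕ → ℕ → ℕ → ℕ → ℝ} {y a C1 : ℝ} {pS pT r : κ → ℝ}
    (hM : Mv B G Zs sN dn pS pT y C1) (hpT : pT ∈ Leg) (hr : r ∈ Leg) (hTr : ∀ j, pT j ≤ r j)
    (hrN : y ≤ r sN) (hcell : ν pT - ν r ≤ a * y) :
    ∃ C2 : ℝ, 1 ≤ C2 ∧ ∀ ε : ℝ, 0 < ε → ∀ᶠ n in (U : Filter ℕ), ∀ k0 ∈ Zs n, ∀ S : Finset ℕ,
      (∀ i ∈ S, (i, k0) ∈ (G n).I) →
      (∀ i ∈ S, ∀ i' ∈ S, (G n).loose pS (D ^ 5 * ε) k0 i i') → ∀ k ∈ Zs n,
      ∃ lab : ℕ → ℕ, (∀ i ∈ S, ∀ i' ∈ S, (i, k) ∈ (G n).I → (i', k) ∈ (G n).I → lab i = lab i' →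
        |(G n).rel k0 i i' sN + ((G n).z k - (G n).z k0) * dn n k0 i i'| ≤
          B.d n ^ (y - C2 * ε)) ∧
        ∀ T ⊆ S, (∀ i ∈ T, (i, k) ∈ (G n).I) →
          ((T.image lab).card : ℝ) ≤ B.d n ^ (-(a * y) - C2 * ε) := by
  classical
  have hD := H.D1
  have hD0 : 0 < D := by linarith
  have hC1 := hM.C1_ge
  have hC10 : 0 < C1 := by linarith
  refine ⟨C1 * D ^ 10 + (D ^ 2 + 1) * (C1 * D ^ 5) + 1, ?_, ?_⟩
  · have : 0 ≤ C1 * D ^ 10 + (D ^ 2 + 1) * (C1 * D ^ 5) := by positivity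
    linarith
  intro ε hε
  filter_upwards [hM.mv (D ^ 5 * ε) (by positivity), hM.inT (D ^ 5 * ε) (by positivity),
    H.exists_lab_loose pT r hpT hr hTr (ε := C1 * (D ^ 5 * ε)) (by positivity),
    ev_const_le B hε 2] with n hmv hinT hlab h2 k0 hk0 S hSI hSl k hk
  have hpow : ∀ t : ℝ, 0 < B.d n ^ t := fun t => rpos B n t
  obtain ⟨lab, a1, a2⟩ := hlab k (S.filter fun i => (i, k) ∈ (G n).I) (by
    intro i hi
    exact H.toRUnif.memSlice.2 (mem_filter.1 hi).2) (by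
    intro i hi i' hi'
    obtain ⟨b1, b2⟩ := mem_filter.1 hi
    obtain ⟨b1', b2'⟩ := mem_filter.1 hi'
    exact hinT k0 hk0 k hk i i' (hSI i b1) (hSI i' b1') b2 b2' (hSl i b1 i' b1'))
  refine ⟨lab, ?_, ?_⟩
  · intro i hi i' hi' h1 h1' heq
    have b1 := a1 i (mem_filter.2 ⟨hi, h1⟩) i' (mem_filter.2 ⟨hi', h1'⟩) heq sN
    have b2 := hmv k0 hk0 k hk i i' (hSI i hi) (hSI i' hi') h1 h1' (hSl i hi i' hi')
    rw [H.base n] at b1
    have hp : 0 ≤ (D ^ 2 + 1) * (C1 * D ^ 5) * ε := by positivity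
    have b3 : |(G n).rel k i i' sN| ≤ B.d n ^ (y - C1 * D ^ 10 * ε) := by
      refine b1.trans (rpow_anti B n ?_)
      have : D ^ 5 * (C1 * (D ^ 5 * ε)) = C1 * D ^ 10 * ε := by ring
      rw [this]
      linarith
    have b4 : B.d n ^ (y - C1 * (D ^ 5 * ε)) ≤ B.d n ^ (y - C1 * D ^ 10 * ε) := by
      refine rpow_anti B n ?_
      have : D ^ 5 ≤ D ^ 10 := pow_le_pow_right₀ hD (by norm_num)
      have h3 : C1 * (D ^ 5 * ε) ≤ C1 * (D ^ 10 * ε) :=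
        mul_le_mul_of_nonneg_left (mul_le_mul_of_nonneg_right this hε.le) hC10.le
      linarith
    have b5 : 2 * B.d n ^ (y - C1 * D ^ 10 * ε) ≤
        B.d n ^ (y - (C1 * D ^ 10 + (D ^ 2 + 1) * (C1 * D ^ 5) + 1) * ε) := by
      have h3 : B.d n ^ (-ε) * B.d n ^ (y - C1 * D ^ 10 * ε) ≤
          B.d n ^ (y - (C1 * D ^ 10 + (D ^ 2 + 1) * (C1 * D ^ 5) + 1) * ε) := by
        rw [← rpow_add']
        exact rpow_anti B n (by linarith)
      exact (mul_le_mul_of_nonneg_right h2 (hpow _).le).trans h3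
    have e1 : (G n).rel k0 i i' sN + ((G n).z k - (G n).z k0) * dn n k0 i i' =
        (G n).rel k i i' sN - ((G n).rel k i i' sN - ((G n).rel k0 i i' sN +
          ((G n).z k - (G n).z k0) * dn n k0 i i')) := by ring
    rw [e1]
    exact (abs_sub _ _).trans (by linarith)
  · intro T hT hTI
    have h3 : (T.image lab).card ≤ ((S.filter fun i => (i, k) ∈ (G n).I).image lab).card :=
      card_le_card (image_subset_image fun i hi => mem_filter.2 ⟨hT hi, hTI i hi⟩)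
    refine le_trans (mod_cast h3) (a2.trans (rpow_anti B n ?_))
    have hp : 0 ≤ C1 * D ^ 10 * ε := by positivity
    have e2 : (D ^ 2 + 1) * (C1 * (D ^ 5 * ε)) = (D ^ 2 + 1) * (C1 * D ^ 5) * ε := by ring
    rw [e2]
    linarith

/-- piece 2: common heights of a pair -/
theorem near_pin (H : RModel B G σ R Leg ν D) {Zs : ℕ → Finset ℕ} (hZs : ∀ n, Zs n ⊆ (G n).Z)
    {h : ℝ} (hdens : ∀ ε : ℝ, 0 < ε → ∀ᶠ n in (U : Filter ℕ),
      B.d n ^ (h + ε) * ((G n).Z.card : ℝ) ≤ ((Zs n).card : ℝ)) {K : ℝ} (hK : 1 ≤ K)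
    (hz : ∀ᶠ n in (U : Filter ℕ), ∀ k ∈ (G n).Z, |(G n).z k| ≤ K) {y C2 : ℝ} (hy : 0 < y)
    (hyR : y ≤ R) {J : ℕ} (hJ0 : 0 < J) :
    ∀ ε : ℝ, 0 < ε → ∀ᶠ n in (U : Filter ℕ), ∀ k0 ∈ (G n).Z, ∀ j < J, ∀ A V : ℝ,
      B.d n ^ (sc y J (j + 1) - (C2 + 1) * ε) < max |A| |V| → ∀ T ⊆ Zs n,
      (∀ k ∈ T, |A + ((G n).z k - (G n).z k0) * V| ≤ B.d n ^ (y - C2 * ε)) →
      (T.card : ℝ) ≤ B.d n ^ (σ * (y - sc y J (j + 1)) - h - 2 * ε) * ((Zs n).card : ℝ) := by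
  classical
  intro ε hε
  have hfrost : ∀ᶠ n in (U : Filter ℕ), ∀ j ∈ range J, ∀ k ∈ (G n).Z,
      (((G n).hbox (y - sc y J (j + 1)) k).card : ℝ) ≤
        B.d n ^ (σ * (y - sc y J (j + 1)) - ε) * ((G n).Z.card : ℝ) := by
    rw [Filter.eventually_all_finset]
    intro j hj
    have hjJ : j + 1 ≤ J := by simpa using hj
    refine H.frost _ (by linarith [sc_le hy.le hJ0 hjJ]) ?_ ε hε
    linarith [sc_nonneg hy.le J (j + 1)]
  filter_upwards [hfrost, hdens ε hε, hz, ev_const_le B hε (16 * K + 2)]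
    with n hfr hdens hz h8 k0 hk0 j hj A V hAV T hT hTn
  have hpow : ∀ t : ℝ, 0 < B.d n ^ t := fun t => rpos B n t
  have hjJ : j + 1 ≤ J := hj
  have ht1 := sc_le hy.le hJ0 hjJ
  refine near_hts (G n).Z (Zs n) (G n).z (hZs n) hk0 hK hz (hpow _) (hpow _).le hAV ?_
    (mul_nonneg (hpow _).le (Nat.cast_nonneg _)) ?_ T hT hTn
  · have : B.d n ^ (sc y J (j + 1) - (C2 + 1) * ε) =
        B.d n ^ (-ε) * B.d n ^ (sc y J (j + 1) - C2 * ε) := by
      rw [← rpow_add']; congr 1; ring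
    rw [this]
    have h3 : B.d n ^ (y - C2 * ε) ≤ B.d n ^ (sc y J (j + 1) - C2 * ε) :=
      rpow_anti B n (by linarith)
    nlinarith [hpow (sc y J (j + 1) - C2 * ε)]
  · intro k hk T' hT' hTn'
    have h3 : 16 * K * B.d n ^ (y - C2 * ε) / B.d n ^ (sc y J (j + 1) - (C2 + 1) * ε) ≤
        B.d n ^ (y - sc y J (j + 1)) := by
      rw [div_le_iff₀ (hpow _), ← rpow_add']
      have : B.d n ^ (y - sc y J (j + 1) + (sc y J (j + 1) - (C2 + 1) * ε)) =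
          B.d n ^ (-ε) * B.d n ^ (y - C2 * ε) := by
        rw [← rpow_add']; congr 1; ring
      rw [this]
      exact mul_le_mul_of_nonneg_right (by linarith) (hpow _).le
    have h4 : (T'.card : ℝ) ≤ (((G n).hbox (y - sc y J (j + 1)) k).card : ℝ) := by
      refine mod_cast card_le_card ?_
      intro k' hk'
      unfold RCfg.hbox
      rw [mem_filter, H.base n]
      exact ⟨hT' hk', (hTn' k' hk').trans h3⟩
    refine h4.trans ((hfr j (mem_range.2 hj) k hk).trans ?_)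
    have h5 : ((G n).Z.card : ℝ) ≤ B.d n ^ (-(h + ε)) * (Zs n).card := by
      have h6 : B.d n ^ (-(h + ε)) * B.d n ^ (h + ε) = 1 := by
        rw [← rpow_add']; simp
      calc ((G n).Z.card : ℝ) = B.d n ^ (-(h + ε)) * (B.d n ^ (h + ε) * (G n).Z.card) := by
            rw [← mul_assoc, h6, one_mul]
        _ ≤ _ := mul_le_mul_of_nonneg_left hdens (hpow _).le
    calc B.d n ^ (σ * (y - sc y J (j + 1)) - ε) * ((G n).Z.card : ℝ)
        ≤ B.d n ^ (σ * (y - sc y J (j + 1)) - ε) *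
          (B.d n ^ (-(h + ε)) * (Zs n).card) := mul_le_mul_of_nonneg_left h5 (hpow _).le
      _ = _ := by
          rw [← mul_assoc, ← rpow_add']
          congr 2
          ring

end Crest.Agent.R136.Xd272
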