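import Crest.Agent.R136.Xd4_272

/-!
# R136: heavy level sets of the velocity functional, main theorem (helper272)

`heavy_R` : on a heavy set `Zs` of heights on which `N_k = N + (z k - z k0) n'` for all pairs in the
frozen box `pS`, `a < σ` forces: at least half of the incidences over `Zs` have in their box
`qH = pS ∪ {N : (1-δ) y}` at least `ρ^(-ν qH + g y)` lines with `|Δ n'| ≤ ρ^((1-δ) y)`.
-/

set_option autoImplicit false
set_option linter.unusedVariables false
set_option linter.unusedSectionVars false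

open Finset Filter Topology

namespace Crest.Agent.R136.Xd272

open Crest.Agent.R138.Ex926 (Base U)
open Crest.Agent.R136.Gf356

variable {κ : Type} [DecidableEq κ] {B : Base} {G : ℕ → RCfg κ} {Leg : Set (κ → ℝ)}
  {ν : (κ → ℝ) → ℝ} {σ R D : ℝ}

/-- the exponents of the close pairs -/
noncomputable def Aj (a g δ y : ℝ) (J j : ℕ) : ℝ :=
  if sc y J j < (1 - δ / 2) * y then a * sc y J j else a * ((1 - δ) * y) + g * y

/-- piece 3: close pairs of light lines -/
theorem cnt_pin (H : RModel B G σ R Leg ν D) {sN : κ} {dn : ℕ → ℕ → ℕ → ℕ → ℝ}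
    {y δ g a C4 εH : ℝ} {pS : κ → ℝ} (hy : 0 < y) (hpS0 : pS sN = 0)
    (hQ : ∀ t : ℝ, 0 ≤ t → t ≤ y → Function.update pS sN t ∈ Leg)
    (hrate : ∀ t : ℝ, 0 ≤ t → t ≤ y → a * t ≤ ν pS - ν (Function.update pS sN t))
    (hδ : 0 < δ) (hδ1 : δ < 1) {J : ℕ} (hJ0 : 0 < J) (hC4 : 1 ≤ C4) (hεH : 0 < εH) :
    ∀ ε : ℝ, 0 < ε → D ^ 5 * ε ≤ εH → C4 * ε ≤ δ * y / 2 → ∀ᶠ n in (U : Filter ℕ), ∀ k0,
      ∀ S : Finset ℕ, (∀ i ∈ S, (i, k0) ∈ (G n).I) →
      (∀ i ∈ S, ∀ i' ∈ S, (G n).loose pS (D ^ 5 * ε) k0 i i') →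
      (∀ i ∈ S, ¬ B.d n ^ (-ν (Function.update pS sN ((1 - δ) * y)) + g * y) ≤
          lev (G n) (Function.update pS sN ((1 - δ) * y)) εH (B.d n ^ ((1 - δ) * y)) (dn n) i k0) →
      B.d n ^ (-ν pS + 3 * ε) ≤ (S.card : ℝ) →
      ∀ j ≤ J, ∀ i ∈ S, ∀ T ⊆ S, (∀ i' ∈ T, max |(G n).rel k0 i i' sN| |dn n k0 i i'| ≤
        B.d n ^ (sc y J j - C4 * ε)) →
      (T.card : ℝ) ≤ B.d n ^ (Aj a g δ y J j - (D * (C4 + D ^ 5) + 3) * ε) * S.card := by
  have hD := H.D1
  have hD0 : 0 < D := by linarith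
  intro ε hε hεa hεb
  have hupQ : ∀ᶠ n in (U : Filter ℕ), ∀ j ∈ range (J + 1), ∀ i k, (i, k) ∈ (G n).I →
      (((G n).box (Function.update pS sN (sc y J j)) ((C4 + D ^ 5) * ε) i k).card : ℝ) ≤
        B.d n ^ (-ν (Function.update pS sN (sc y J j)) - D * ((C4 + D ^ 5) * ε)) := by
    rw [Filter.eventually_all_finset]
    intro j hj
    have hjJ : j ≤ J := by simpa [Nat.lt_succ_iff] using hj
    exact H.up _ (hQ _ (sc_nonneg hy.le J j) (sc_le hy.le hJ0 hjJ)) _ (by positivity)
  filter_upwards [hupQ] with n hupQ k0 S hSI hSl hlight hSc j hj i hi T hT hTD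
  have hpow : ∀ t : ℝ, 0 < B.d n ^ t := fun t => rpos B n t
  have hjr : j ∈ range (J + 1) := mem_range.2 (by omega)
  have hSs : ∀ i ∈ S, i ∈ (G n).slice k0 := fun i hi => H.toRUnif.memSlice.2 (hSI i hi)
  have hD5 : 0 ≤ D ^ 5 * ε := by positivity
  have hC40 : 0 ≤ C4 * ε := by positivity
  by_cases hc : sc y J j < (1 - δ / 2) * y
  · have hAj : Aj a g δ y J j = a * sc y J j := by unfold Aj; exact if_pos hc
    have hsub : T ⊆ (G n).box (Function.update pS sN (sc y J j)) ((C4 + D ^ 5) * ε) i k0 := by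
      intro i' hi'
      have c2 := hTD i' hi'
      refine RCfg.mem_box.2 ⟨hSs i' (hT hi'), fun s => ?_⟩
      rw [H.base n]
      by_cases hs : s = sN
      · subst hs
        rw [Function.update_self]
        refine ((le_max_left _ _).trans c2).trans (rpow_anti B n ?_)
        linarith
      · rw [Function.update_of_ne hs]
        have := hSl i hi i' (hT hi') s
        rw [H.base n] at this
        exact this.trans (rpow_anti B n (by linarith))
    refine le_trans (mod_cast card_le_card hsub) ((hupQ j hjr i k0 (hSI i hi)).trans ?_)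
    have h3 := hrate (sc y J j) (sc_nonneg hy.le J j) (sc_le hy.le hJ0 hj)
    calc B.d n ^ (-ν (Function.update pS sN (sc y J j)) - D * ((C4 + D ^ 5) * ε))
        ≤ B.d n ^ (Aj a g δ y J j - (D * (C4 + D ^ 5) + 3) * ε + (-ν pS + 3 * ε)) := by
          refine rpow_anti B n ?_
          rw [hAj]
          linarith
      _ = B.d n ^ (Aj a g δ y J j - (D * (C4 + D ^ 5) + 3) * ε) * B.d n ^ (-ν pS + 3 * ε) :=
          rpow_add' B n _ _
      _ ≤ _ := mul_le_mul_of_nonneg_left hSc (hpow _).le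
  · have hAj : Aj a g δ y J j = a * ((1 - δ) * y) + g * y := by unfold Aj; exact if_neg hc
    have hl := not_le.1 (hlight i hi)
    have hsub : (T.card : ℝ) ≤ lev (G n) (Function.update pS sN ((1 - δ) * y)) εH
        (B.d n ^ ((1 - δ) * y)) (dn n) i k0 := by
      unfold lev
      refine mod_cast card_le_card ?_
      intro i' hi'
      have c2 := hTD i' hi'
      have c3 : B.d n ^ (sc y J j - C4 * ε) ≤ B.d n ^ ((1 - δ) * y) := by
        refine rpow_anti B n ?_
        rw [not_lt] at hc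
        linarith
      refine mem_filter.2 ⟨RCfg.mem_box.2 ⟨hSs i' (hT hi'), fun s => ?_⟩,
        ((le_max_right _ _).trans c2).trans c3⟩
      rw [H.base n]
      by_cases hs : s = sN
      · subst hs
        rw [Function.update_self]
        refine (((le_max_left _ _).trans c2).trans c3).trans (rpow_anti B n ?_)
        linarith
      · rw [Function.update_of_ne hs]
        have := hSl i hi i' (hT hi') s
        rw [H.base n] at this
        exact this.trans (rpow_anti B n (by linarith))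
    have hδy : 0 ≤ δ * y := by positivity
    have h3 := hrate ((1 - δ) * y) (mul_nonneg (by linarith) hy.le) (by linarith)
    refine hsub.trans (hl.le.trans ?_)
    calc B.d n ^ (-ν (Function.update pS sN ((1 - δ) * y)) + g * y)
        ≤ B.d n ^ (Aj a g δ y J j - (D * (C4 + D ^ 5) + 3) * ε + (-ν pS + 3 * ε)) := by
          refine rpow_anti B n ?_
          rw [hAj]
          have : 0 ≤ D * (C4 + D ^ 5) * ε := by positivity
          linarith
      _ = B.d n ^ (Aj a g δ y J j - (D * (C4 + D ^ 5) + 3) * ε) * B.d n ^ (-ν pS + 3 * ε) :=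
          rpow_add' B n _ _
      _ ≤ _ := mul_le_mul_of_nonneg_left hSc (hpow _).le

theorem sq_le_quarter {t : ℝ} (ht : 0 < t) (h : 8 * t ≤ 1) : t * t ≤ t / 4 := by nlinarith

theorem eight_mul {t s : ℝ} (ht : 0 < t) (h : 8 ≤ s) (h2 : s * t = 1) : 8 * t ≤ 1 := by nlinarith

open Classical in
set_option maxHeartbeats 1000000 in
/-- **heavy level sets** -/
theorem heavy_R (H : RModel B G σ R Leg ν D) {Zs : ℕ → Finset ℕ} (hZs : ∀ n, Zs n ⊆ (G n).Z)
    {h : ℝ} (hh : 0 ≤ h) (hdens : ∀ ε : ℝ, 0 < ε → ∀ᶠ n in (U : Filter ℕ),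
      B.d n ^ (h + ε) * ((G n).Z.card : ℝ) ≤ ((Zs n).card : ℝ))
    {sN : κ} {dn : ℕ → ℕ → ℕ → ℕ → ℝ} {K : ℝ} (hK : 1 ≤ K)
    (hz : ∀ᶠ n in (U : Filter ℕ), ∀ k ∈ (G n).Z, |(G n).z k| ≤ K) {y δ g a C1 : ℝ} (hy : 0 < y)
    (hyR : y ≤ R) {pS pT r : κ → ℝ} (hM : Mv B G Zs sN dn pS pT y C1) (hpS0 : pS sN = 0)
    (hpT : pT ∈ Leg) (hr : r ∈ Leg) (hTr : ∀ j, pT j ≤ r j) (hrN : y ≤ r sN)
    (hQ : ∀ t : ℝ, 0 ≤ t → t ≤ y → Function.update pS sN t ∈ Leg)
    (hrate : ∀ t : ℝ, 0 ≤ t → t ≤ y → a * t ≤ ν pS - ν (Function.update pS sN t))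
    (hcell : ν pT - ν r ≤ a * y) (ha : 0 ≤ a) (haσ : a < σ) (hδ : 0 < δ) (hδ1 : δ < 1)
    (hh1 : h < (σ - a) * δ * y / 8) (hh2 : h < (g - a * δ) * y) {εH : ℝ} (hεH : 0 < εH) :
    ∀ᶠ n in (U : Filter ℕ), 2 * ((((G n).I.filter fun q => q.2 ∈ Zs n).filter fun q =>
        ¬ B.d n ^ (-ν (Function.update pS sN ((1 - δ) * y)) + g * y) ≤
          lev (G n) (Function.update pS sN ((1 - δ) * y)) εH (B.d n ^ ((1 - δ) * y)) (dn n)
            q.1 q.2).card : ℝ) ≤ (((G n).I.filter fun q => q.2 ∈ Zs n).card : ℝ) := by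
  have hD := H.D1
  have hD0 : 0 < D := by linarith
  have hσ1 := H.σ_le
  have hpS : pS ∈ Leg := by
    have := hQ 0 le_rfl hy.le
    rwa [← hpS0, Function.update_eq_self] at this
  by_contra hcon
  rw [← Ultrafilter.eventually_not] at hcon
  obtain ⟨J, hJ⟩ : ∃ J : ℕ, 4 / ((σ - a) * δ) < J := exists_nat_gt _
  have hJ0 : 0 < J := by
    rcases Nat.eq_zero_or_pos J with h0 | h0
    · rw [h0] at hJ
      have : 0 < 4 / ((σ - a) * δ) := div_pos (by norm_num) (mul_pos (sub_pos.2 haσ) hδ)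
      simp at hJ
      linarith
    · exact h0
  obtain ⟨C2, hC2, hcells⟩ := cells_pin H hM hpT hr hTr hrN hcell
  obtain ⟨C4, hC4, hC42⟩ : ∃ C4 : ℝ, 1 ≤ C4 ∧ C2 + 1 ≤ C4 := ⟨C2 + 1, by linarith, le_rfl⟩
  have hnp := near_pin H hZs hdens hK hz (y := y) (C2 := C4 - 1) hy hyR hJ0
  have hcnt := cnt_pin H (sN := sN) (dn := dn) (g := g) (a := a) (εH := εH) (C4 := C4) hy hpS0 hQ
    hrate hδ hδ1 hJ0 hC4 hεH
  obtain ⟨C, hC, hCa, hCp⟩ : ∃ C : ℝ, C = C4 + (D * (C4 + D ^ 5) + 3) + 8 ∧ 0 ≤ D * (C4 + D ^ 5) ∧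
      0 < C := by
    have : 0 ≤ D * (C4 + D ^ 5) := by positivity
    exact ⟨_, rfl, this, by linarith⟩
  obtain ⟨j, hj, hjle⟩ := exists_le_of_ev B J (fun j => Aj a g δ y J j +
      (if j < J then σ * (y - sc y J (j + 1)) - h else 0)) (a * y) C 1 (by
    intro ε0 hε0
    obtain ⟨ε, hεp, hε00, hεa, hεb⟩ : ∃ ε : ℝ, 0 < ε ∧ ε ≤ ε0 ∧ D ^ 5 * ε ≤ εH ∧
        C4 * ε ≤ δ * y / 2 := by
      refine ⟨min ε0 (min (εH / D ^ 5) (δ * y / (2 * C4))),
        lt_min hε0 (lt_min (by positivity) (by positivity)), min_le_left _ _, ?_, ?_⟩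
      · have h1 : min ε0 (min (εH / D ^ 5) (δ * y / (2 * C4))) ≤ εH / D ^ 5 :=
          (min_le_right _ _).trans (min_le_left _ _)
        rw [le_div_iff₀ (by positivity)] at h1
        linarith
      · have h1 : min ε0 (min (εH / D ^ 5) (δ * y / (2 * C4))) ≤ δ * y / (2 * C4) :=
          (min_le_right _ _).trans (min_le_right _ _)
        rw [le_div_iff₀ (by positivity)] at h1
        linarith
    have key : ∀ᶠ n in (U : Filter ℕ), B.d n ^ (a * y + C * ε) ≤
        ∑ j ∈ range (J + 1), B.d n ^ (Aj a g δ y J j +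
          (if j < J then σ * (y - sc y J (j + 1)) - h else 0) - C * ε) := by
      filter_upwards [hcon, hcells ε hεp, hnp ε hεp, hcnt ε hεp hεa hεb, H.slice ε hεp,
        hdens ε hεp, dense_fibre H.toRUnif hpS hεp, ev_const_le B hεp 8]
        with n hcon hcells hnp hcnt hsl hdens hfib h8
      have hpow : ∀ t : ℝ, 0 < B.d n ^ t := fun t => rpos B n t
      have h8' : 8 * B.d n ^ ε ≤ 1 :=
        eight_mul (hpow ε) h8 (by rw [← rpow_add']; simp)
      have h9 : B.d n ^ ε * B.d n ^ ε ≤ B.d n ^ ε / 4 := sq_le_quarter (hpow ε) h8'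
      obtain ⟨⟨i1, k1⟩, hI1⟩ := H.nonempty n
      have hLne : (G n).L.Nonempty := ⟨i1, H.memL hI1⟩
      have hZne : (G n).Z.Nonempty := ⟨k1, H.memZ hI1⟩
      have hZc : (0 : ℝ) < (G n).Z.card := by exact_mod_cast hZne.card_pos
      have hZsne : (Zs n).Nonempty := by
        rw [← Finset.card_pos]
        have : (0 : ℝ) < (Zs n).card := (mul_pos (hpow _) hZc).trans_le hdens
        exact_mod_cast this
      -- pin
      obtain ⟨k0, hk0, W, hWne, hW, hWc⟩ := pick_pin (G n).L (Zs n) (G n).I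
        (((G n).I.filter fun q => q.2 ∈ Zs n).filter fun q =>
          ¬ B.d n ^ (-ν (Function.update pS sN ((1 - δ) * y)) + g * y) ≤
            lev (G n) (Function.update pS sN ((1 - δ) * y)) εH (B.d n ^ ((1 - δ) * y)) (dn n)
              q.1 q.2)
        (e1 := B.d n ^ ε) (e3 := B.d n ^ (2 * ε)) (hpow _) (hpow _) hLne hZsne
        (fun q hq => H.memL hq) (filter_subset _ _)
        (fun k hk => hsl k (hZs n hk)) (not_le.1 hcon)
        (by
          have e1 : B.d n ^ (2 * ε) = B.d n ^ ε * B.d n ^ ε := by rw [← rpow_add']; congr 1; ring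
          rw [e1]
          exact h9)
      have hk0Z : k0 ∈ (G n).Z := hZs n hk0
      have hWI : ∀ i ∈ W, (i, k0) ∈ (G n).I := fun i hi =>
        (mem_filter.1 (mem_filter.1 (hW i hi).1).1).1
      have hWs : W ⊆ (G n).slice k0 := fun i hi => H.toRUnif.memSlice.2 (hWI i hi)
      have hslL : (((G n).slice k0).card : ℝ) ≤ (G n).L.card := by
        exact_mod_cast card_le_card (filter_subset _ _)
      have hq0 : 0 < B.d n ^ ε / 4 := by have := hpow ε; positivity
      obtain ⟨S, hSW, hSne, hSl, hSc⟩ := hfib k0 W hWs hWne (B.d n ^ ε / 4) hq0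
        ((mul_le_mul_of_nonneg_left hslL hq0.le).trans hWc)
      have hSI : ∀ i ∈ S, (i, k0) ∈ (G n).I := fun i hi => hWI i (hSW hi)
      have hScard : B.d n ^ (-ν pS + 3 * ε) ≤ (S.card : ℝ) := by
        refine le_trans ?_ hSc
        have e1 : B.d n ^ (-ν pS + 3 * ε) = B.d n ^ ε * B.d n ^ ε * B.d n ^ (-ν pS + ε) := by
          rw [← rpow_add', ← rpow_add']; congr 1; ring
        rw [e1]
        exact mul_le_mul_of_nonneg_right h9 (hpow _).le
      have hlight : ∀ i ∈ S, ¬ B.d n ^ (-ν (Function.update pS sN ((1 - δ) * y)) + g * y) ≤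
          lev (G n) (Function.update pS sN ((1 - δ) * y)) εH (B.d n ^ ((1 - δ) * y)) (dn n)
            i k0 := fun i hi => (mem_filter.1 (hW i (hSW hi)).1).2
      have hlabk := hcells k0 hk0 S hSI hSl
      choose! lab hlab1 hlab2 using hlabk
      have kf := kauf_labF (Zs n) S (fun i k => (i, k) ∈ (G n).I) lab
        (fun k i i' => |(G n).rel k0 i i' sN + ((G n).z k - (G n).z k0) * dn n k0 i i'| ≤
          B.d n ^ (y - C2 * ε))
        (fun i i' => max |(G n).rel k0 i i' sN| |dn n k0 i i'|) (J := J)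
        (M := B.d n ^ (-(a * y) - C2 * ε)) (m := B.d n ^ (2 * ε))
        (fun j => B.d n ^ (sc y J j - C4 * ε))
        (fun j => B.d n ^ (Aj a g δ y J j - (D * (C4 + D ^ 5) + 3) * ε))
        (fun j => B.d n ^ ((if j < J then σ * (y - sc y J (j + 1)) - h else 0) - 2 * ε))
        (hpow _).le (hpow _).le hlab1 hlab2
        (fun i hi => (hW i (hSW hi)).2)
        (fun i _ i' _ => (abs_nonneg _).trans (le_max_left _ _))
        (fun j _ => (hpow _).le)
        (by
          intro j hj i hi i' hi' hDt T hT hTn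
          have h5 := hnp k0 hk0Z j hj ((G n).rel k0 i i' sN) (dn n k0 i i') (by
            have : C4 - 1 + 1 = C4 := by ring
            rw [this]
            exact hDt) T hT (fun k hk => (hTn k hk).trans (rpow_anti B n (by
              have : C2 * ε ≤ (C4 - 1) * ε := mul_le_mul_of_nonneg_right (by linarith) hεp.le
              linarith)))
          simp only [if_pos hj]
          exact h5)
        (by
          simp only [if_neg (lt_irrefl J)]
          apply Real.one_le_rpow_of_pos_of_le_one_of_nonpos (B.pos n) (B.lt n).le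
          linarith)
        (by
          have hlt0 : sc y J 0 < (1 - δ / 2) * y := by
            rw [sc_zero]; exact mul_pos (by linarith) hy
          have e0 : Aj a g δ y J 0 = 0 := by
            unfold Aj
            rw [if_pos hlt0, sc_zero, mul_zero]
          apply Real.one_le_rpow_of_pos_of_le_one_of_nonpos (B.pos n) (B.lt n).le
          rw [e0]
          have : 0 ≤ D * (C4 + D ^ 5) * ε := mul_nonneg hCa hεp.le
          linarith)
        (fun j _ hj i hi T hT hTD => hcnt k0 S hSI hSl hlight hScard j hj i hi T hT hTD)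
        hSne hZsne
      -- conclusion
      have e1 : (B.d n ^ (2 * ε)) ^ 2 = B.d n ^ (4 * ε) := by
        rw [sq, ← rpow_add']; congr 1; ring
      rw [e1] at kf
      have e2 : B.d n ^ (a * y + C * ε) = B.d n ^ (a * y + (C - 4) * ε) * B.d n ^ (4 * ε) := by
        rw [← rpow_add']; congr 1; ring
      rw [e2]
      refine (mul_le_mul_of_nonneg_left kf (hpow _).le).trans ?_
      rw [← mul_assoc, ← rpow_add', mul_sum]
      refine sum_le_sum fun j _ => ?_
      rw [← rpow_add', ← rpow_add']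
      refine rpow_anti B n ?_
      have h5 : C2 * ε ≤ (C4 - 1) * ε := mul_le_mul_of_nonneg_right (by linarith) hεp.le
      have h6 : 0 ≤ D * (C4 + D ^ 5) * ε := mul_nonneg hCa hεp.le
      have h7 : 0 ≤ C4 * ε := mul_nonneg (by linarith) hεp.le
      rw [hC]
      linarith
    filter_upwards [key] with n hn
    have hCε : C * ε ≤ C * ε0 := mul_le_mul_of_nonneg_left hε00 hCp.le
    refine le_trans (rpow_anti B n ?_) (hn.trans ?_)
    · linarith
    · rw [one_mul]
      refine sum_le_sum fun j _ => rpow_anti B n ?_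
      linarith)
  have hlt := expo (σ := σ) (a := a) (δ := δ) (g := g) (h := h) (y := y) (J := J) (j := j) ha hσ1
    haσ hy hδ hδ1 hh hh1 hh2 hJ0 hJ hj
  exact absurd hjle (not_le.2 hlt)

end Crest.Agent.R136.Xd272
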