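import Crest.Agent.R136.Cap2_102

/-!
# R136 (S0187), PLAN 2 (B1): height over the tangent plane, far points (helper236)

`yc_far` : `T` in the box of the sheet, `X` in the `9/8`-dilated box, no bound on the lateral
distance: `w 0 |yc| ≤ 2000 (|q X| + |q T| + w 0 kap)`.
-/

set_option autoImplicit false

namespace Crest.Agent.R136.Ycf236

open Crest.Agent.R136.Sh605 Crest.Agent.R136.Tl102

theorem lim_ge {A B c : ℝ} (h : ∀ τ, 0 < τ → τ ≤ 1 → c ≤ A + B * τ) : c ≤ A := by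
  by_contra hc
  push Not at hc
  have hB : 0 < 2 * (|B| + 1) := by positivity
  have h0 : 0 < min 1 ((c - A) / (2 * (|B| + 1))) := lt_min one_pos (div_pos (by linarith) hB)
  have h1 : min 1 ((c - A) / (2 * (|B| + 1))) ≤ 1 := min_le_left _ _
  have h2 : min 1 ((c - A) / (2 * (|B| + 1))) ≤ (c - A) / (2 * (|B| + 1)) := min_le_right _ _
  generalize min 1 ((c - A) / (2 * (|B| + 1))) = τ at h0 h1 h2
  have h3 := h τ h0 h1
  have h4 : B * τ ≤ |B| * τ := mul_le_mul_of_nonneg_right (le_abs_self B) h0.le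
  rw [le_div_iff₀ hB] at h2
  nlinarith

/-- the inequality between the real numbers -/
theorem far_real {x0 y n yy P F1 φ R R1 l k ε A S A' S' : ℝ}
    (hn1 : 1 / 2 ≤ n - 2 * yy) (hn2 : 1 / 2 ≤ n + 2 * yy) (hP1 : 1 / 2 ≤ P - 7 / 4 * yy)
    (hP2 : 1 / 2 ≤ P + 7 / 4 * yy) (hl : P = l + yy * y) (hφ : φ = y * l + R)
    (hR : |R| ≤ 18 * k) (hF : F1 = n * y + R1) (hR1 : |R1| ≤ 5 * k) (hA : 0 ≤ A) (hA' : 0 ≤ A')
    (hS : |S| ≤ 17 / 4) (hS' : |S'| ≤ 17 / 4) (e1 : 33 / 17 * F1 - 16 / 17 * φ = A * x0 + S)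
    (e2 : -(31 / 17) * F1 + 48 / 17 * φ = A' * x0 + S') (hε : |φ| ≤ ε) (hk : 0 ≤ k)
    (hy : |y| ≤ 11) : |y| ≤ 2000 * (ε + k) := by
  by_contra hc
  push Not at hc
  have hε0 : 0 ≤ ε := (abs_nonneg _).trans hε
  have hY0 : 0 < |y| := lt_of_le_of_lt (by positivity) hc
  have k1 : k ≤ 11 / 2000 := by linarith
  have k2 : ε ≤ 11 / 2000 := by linarith
  obtain ⟨s1, s2⟩ := abs_le.1 hS
  obtain ⟨s3, s4⟩ := abs_le.1 hS'
  obtain ⟨p1, p2⟩ := abs_le.1 hε
  obtain ⟨r1, r2⟩ := abs_le.1 hR1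
  -- `|F1| ≤ 2.34`
  have hF1 : |F1| ≤ 234 / 100 := by
    rw [abs_le]
    rcases le_total 0 x0 with h | h
    · have a1 := mul_nonneg hA h
      have a2 := mul_nonneg hA' h
      constructor <;> linarith
    · have a1 := mul_nonneg_of_nonpos_of_nonpos (neg_nonpos.2 hA) h
      have a2 := mul_nonneg_of_nonpos_of_nonpos (neg_nonpos.2 hA') h
      constructor <;> linarith
  have hn : 1 / 2 + 2 * |yy| ≤ n := by
    rcases abs_cases yy with ⟨h, -⟩ | ⟨h, -⟩ <;> rw [h] <;> linarith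
  have hP : 1 / 2 + 7 / 4 * |yy| ≤ P := by
    rcases abs_cases yy with ⟨h, -⟩ | ⟨h, -⟩ <;> rw [h] <;> linarith
  have hn0 : 0 ≤ n := le_trans (by positivity) hn
  -- `l` is small
  have hlY : |l| * |y| ≤ 18 * (ε + k) := by
    have : |l| * |y| = |φ - R| := by rw [hφ, ← abs_mul]; congr 1; ring
    rw [this]
    refine (abs_sub _ _).trans ?_
    linarith
  have hl1 : |l| ≤ 9 / 1000 := by
    by_contra h
    push Not at h
    have : 9 / 1000 * |y| < |l| * |y| := mul_lt_mul_of_pos_right h hY0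
    linarith
  have hmY : 1 / 2 + 7 / 4 * |yy| - 9 / 1000 ≤ |yy| * |y| := by
    have h1 : |yy| * |y| = |P - l| := by rw [hl, ← abs_mul]; congr 1; ring
    have h2 := le_abs_self (P - l)
    have h3 := le_abs_self l
    rw [h1]; linarith
  have hnY : n * |y| ≤ 237 / 100 := by
    have h1 : n * |y| = |F1 - R1| := by
      rw [hF]
      have : n * y + R1 - R1 = n * y := by ring
      rw [this, abs_mul, abs_of_nonneg hn0]
    rw [h1]
    refine (abs_sub _ _).trans ?_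
    linarith
  have hm0 := abs_nonneg yy
  have h1 : (1 / 2 + 2 * |yy|) * |y| ≤ n * |y| := mul_le_mul_of_nonneg_right hn hY0.le
  have h2 : |y| ≤ 2776 / 1000 - 7 * |yy| := by linarith
  have h3 : |yy| * |y| ≤ |yy| * (2776 / 1000 - 7 * |yy|) := mul_le_mul_of_nonneg_left h2 hm0
  nlinarith [sq_nonneg (|yy| - 7 / 100)]

/-- `∂₀` of the expansion -/
def P0 (b0 b1 : V3) (G : QF) (ζ : ℝ) (p : V3) : ℝ :=
  b0 0 + ζ * b1 0 + 2 * G.yy * p 0 + G.yu * p 1 + G.yv * p 2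

/-- `∂₁` of the expansion -/
def P1 (b0 b1 : V3) (G : QF) (ζ : ℝ) (p : V3) : ℝ :=
  b0 1 + ζ * b1 1 + G.yu * p 0 + 2 * G.uu * p 1 + G.uv * p 2

/-- `∂₂` of the expansion -/
def P2 (b0 b1 : V3) (G : QF) (ζ : ℝ) (p : V3) : ℝ :=
  b0 2 + ζ * b1 2 + G.yv * p 0 + G.uv * p 1 + 2 * G.vv * p 2

theorem inK_cmb_iff {e : Fin 3 → V3} (he : Ortho e) {c T : Ln4} {w : V3} {z : ℝ} {x : V3} :
    InK e c (dbl3 w) z (T.pos z + cmb (fr e w) x) ↔
      ∀ i, |dt (e i) (T.pos z - c.pos z) + w i * x i| ≤ 2 * w i := by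
  refine forall_congr' fun i => ?_
  have e1 : dt (e i) (T.pos z + cmb (fr e w) x - c.pos z) =
      dt (e i) (T.pos z - c.pos z) + dt (e i) (cmb (fr e w) x) := by
    simp only [dt, Pi.add_apply, Pi.sub_apply]; ring
  rw [e1, dt_cmb_fr he]
  exact Iff.rfl

section
variable {e : Fin 3 → V3} {c : Ln4} {w : V3} {q : ℝ → V3 → ℝ} {z0 ρ : ℝ} {T : Ln4}
  {b0 b1 : V3} {G : QF} {ζ : ℝ}

/-- one side: the room to the wall of the box -/
theorem room {t w p : ℝ} (hw : 0 < w) (h : |t + w * p| ≤ 2 * w) :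
    (∀ τ, 0 < τ → τ ≤ 1 → |t + w * (p + τ)| ≤ 2 * w) ∨
      (∀ τ, 0 < τ → τ ≤ 1 → |t + w * (p - τ)| ≤ 2 * w) := by
  rw [abs_le] at h
  rcases le_total (t + w * p) 0 with h0 | h0
  · left
    intro τ h1 h2
    have a1 : w * τ ≤ w * 1 := mul_le_mul_of_nonneg_left h2 hw.le
    have a2 : 0 < w * τ := mul_pos hw h1
    rw [abs_le]; constructor <;> nlinarith [h.1, h.2]
  · right
    intro τ h1 h2
    have a1 : w * τ ≤ w * 1 := mul_le_mul_of_nonneg_left h2 hw.le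
    have a2 : 0 < w * τ := mul_pos hw h1
    rw [abs_le]; constructor <;> nlinarith [h.1, h.2]

theorem grad0 (S : StP e c w q z0 ρ) (hρ : 0 ≤ ρ) (hE : IsExp q e w T z0 ρ b0 b1 G) (hζ : 0 ≤ ζ)
    (hζ' : ζ ≤ 1) {p : V3}
    (hp : ∀ i, |dt (e i) (T.pos (z0 + ρ * ζ) - c.pos (z0 + ρ * ζ)) + w i * p i| ≤ 2 * w i) :
    1 / 2 ≤ P0 b0 b1 G ζ p := by
  have hw0 := S.pos 0
  have z1 : z0 ≤ z0 + ρ * ζ := by nlinarith
  have z2 : z0 + ρ * ζ ≤ z0 + ρ := by nlinarith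
  have key : ∀ p' : V3, ∀ τ : ℝ, 0 < τ →
      (∀ i, |dt (e i) (T.pos (z0 + ρ * ζ) - c.pos (z0 + ρ * ζ)) + w i * p' i| ≤ 2 * w i) →
      |dt (e 0) (T.pos (z0 + ρ * ζ) - c.pos (z0 + ρ * ζ)) + w 0 * (p' 0 + τ)| ≤ 2 * w 0 →
      1 / 2 ≤ P0 b0 b1 G ζ p' + G.yy * τ := by
    intro p' τ hτ h1 h2
    have pe : p' = ![p' 0, p' 1, p' 2] := by ext i; fin_cases i <;> rfl
    have i1 := (inK_cmb_iff (T := T) S.ortho (c := c) (w := w) (x := p')).2 h1
    have i2 := (inK_cmb_iff (T := T) S.ortho (c := c) (w := w) (z := z0 + ρ * ζ)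
      (x := ![p' 0 + τ, p' 1, p' 2])).2 (by
        intro i; fin_cases i
        · exact h2
        · exact h1 1
        · exact h1 2)
    rw [cmb_add_zero e w _ (p' 0) (p' 1) (p' 2) τ, ← pe] at i2
    have g := (S.st0 _ z1 z2 _ (τ * w 0) (by positivity) i1 i2).1
    have e1 := hE ζ ![p' 0 + τ, p' 1, p' 2]
    have e2 := hE ζ p'
    rw [cmb_add_zero e w _ (p' 0) (p' 1) (p' 2) τ, ← pe] at e1
    have e3 : Fq b0 b1 G ζ ![p' 0 + τ, p' 1, p' 2] - Fq b0 b1 G ζ p' =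
        τ * (P0 b0 b1 G ζ p' + G.yy * τ) := by
      simp only [Fq, dt, bz, QF.ev, P0, Matrix.cons_val]
      ring
    rw [e1, e2] at g
    have g2 : w 0 * (τ / 2) ≤ w 0 * (τ * (P0 b0 b1 G ζ p' + G.yy * τ)) := by
      rw [← e3]; linarith
    have g3 := le_of_mul_le_mul_left g2 hw0
    by_contra hc
    push Not at hc
    have := mul_lt_mul_of_pos_left hc hτ
    linarith
  rcases room hw0 (hp 0) with h | h
  · exact lim_ge (B := G.yy) fun τ h1 h2 => key p τ h1 hp (h τ h1 h2)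
  · refine lim_ge (B := -G.yy) fun τ h1 h2 => ?_
    have := key ![p 0 - τ, p 1, p 2] τ h1 (by
      intro i; fin_cases i
      · exact h τ h1 h2
      · exact hp 1
      · exact hp 2) (by
        change |_ + w 0 * (p 0 - τ + τ)| ≤ _
        rw [sub_add_cancel]; exact hp 0)
    have e4 : P0 b0 b1 G ζ ![p 0 - τ, p 1, p 2] + G.yy * τ = P0 b0 b1 G ζ p + -G.yy * τ := by
      simp only [P0, Matrix.cons_val]; ring
    rw [e4] at this
    exact this

theorem grad1 (S : StP e c w q z0 ρ) (hρ : 0 ≤ ρ) (hE : IsExp q e w T z0 ρ b0 b1 G) (hζ : 0 ≤ ζ)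
    (hζ' : ζ ≤ 1) {p : V3}
    (hp : ∀ i, |dt (e i) (T.pos (z0 + ρ * ζ) - c.pos (z0 + ρ * ζ)) + w i * p i| ≤ 2 * w i) :
    |P1 b0 b1 G ζ p| ≤ 1 := by
  have hw0 := S.pos 0
  have hw1 := S.pos 1
  have z1 : z0 ≤ z0 + ρ * ζ := by nlinarith
  have z2 : z0 + ρ * ζ ≤ z0 + ρ := by nlinarith
  have key : ∀ p' : V3, ∀ τ : ℝ, 0 < τ →
      (∀ i, |dt (e i) (T.pos (z0 + ρ * ζ) - c.pos (z0 + ρ * ζ)) + w i * p' i| ≤ 2 * w i) →
      |dt (e 1) (T.pos (z0 + ρ * ζ) - c.pos (z0 + ρ * ζ)) + w 1 * (p' 1 + τ)| ≤ 2 * w 1 →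
      |P1 b0 b1 G ζ p' + G.uu * τ| ≤ 1 := by
    intro p' τ hτ h1 h2
    have pe : p' = ![p' 0, p' 1, p' 2] := by ext i; fin_cases i <;> rfl
    have i1 := (inK_cmb_iff (T := T) S.ortho (c := c) (w := w) (x := p')).2 h1
    have i2 := (inK_cmb_iff (T := T) S.ortho (c := c) (w := w) (z := z0 + ρ * ζ)
      (x := ![p' 0, p' 1 + τ, p' 2])).2 (by
        intro i; fin_cases i
        · exact h1 0
        · exact h2
        · exact h1 2)
    rw [cmb_add_one e w _ (p' 0) (p' 1) (p' 2) τ, ← pe] at i2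
    have g := S.st1 _ z1 z2 _ (τ * w 1) (by positivity) i1 i2
    have e1 := hE ζ ![p' 0, p' 1 + τ, p' 2]
    have e2 := hE ζ p'
    rw [cmb_add_one e w _ (p' 0) (p' 1) (p' 2) τ, ← pe] at e1
    have e3 : Fq b0 b1 G ζ ![p' 0, p' 1 + τ, p' 2] - Fq b0 b1 G ζ p' =
        τ * (P1 b0 b1 G ζ p' + G.uu * τ) := by
      simp only [Fq, dt, bz, QF.ev, P1, Matrix.cons_val]
      ring
    rw [e1, e2] at g
    have e4 : q (z0 + ρ * ζ) (T.pos (z0 + ρ * ζ)) + w 0 * Fq b0 b1 G ζ ![p' 0, p' 1 + τ, p' 2] -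
        (q (z0 + ρ * ζ) (T.pos (z0 + ρ * ζ)) + w 0 * Fq b0 b1 G ζ p') =
        (w 0 * τ) * (P1 b0 b1 G ζ p' + G.uu * τ) := by
      rw [mul_assoc, ← e3]; ring
    have e5 : w 0 / w 1 * (τ * w 1) = (w 0 * τ) * 1 := by field_simp
    rw [e4, e5, abs_mul, abs_of_pos (mul_pos hw0 hτ)] at g
    exact le_of_mul_le_mul_left g (mul_pos hw0 hτ)
  rw [abs_le]
  rcases room hw1 (hp 1) with h | h
  · have k := fun τ h1 h2 => abs_le.1 (key p τ h1 hp (h τ h1 h2))
    constructor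
    · exact lim_ge (B := G.uu) fun τ h1 h2 => (k τ h1 h2).1
    · have := lim_ge (A := -P1 b0 b1 G ζ p) (B := -G.uu) (c := -1) fun τ h1 h2 => by
        have := (k τ h1 h2).2
        linarith
      linarith
  · have k : ∀ τ, 0 < τ → τ ≤ 1 → |P1 b0 b1 G ζ p + -G.uu * τ| ≤ 1 := by
      intro τ h1 h2
      have := key ![p 0, p 1 - τ, p 2] τ h1 (by
        intro i; fin_cases i
        · exact hp 0
        · exact h τ h1 h2
        · exact hp 2) (by
          change |_ + w 1 * (p 1 - τ + τ)| ≤ _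
          rw [sub_add_cancel]; exact hp 1)
      have e4 : P1 b0 b1 G ζ ![p 0, p 1 - τ, p 2] + G.uu * τ = P1 b0 b1 G ζ p + -G.uu * τ := by
        simp only [P1, Matrix.cons_val]; ring
      rw [e4] at this
      exact this
    constructor
    · exact lim_ge (B := -G.uu) fun τ h1 h2 => (abs_le.1 (k τ h1 h2)).1
    · have := lim_ge (A := -P1 b0 b1 G ζ p) (B := G.uu) (c := -1) fun τ h1 h2 => by
        have := (abs_le.1 (k τ h1 h2)).2
        linarith
      linarith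

theorem grad2 (S : StP e c w q z0 ρ) (hρ : 0 ≤ ρ) (hE : IsExp q e w T z0 ρ b0 b1 G) (hζ : 0 ≤ ζ)
    (hζ' : ζ ≤ 1) {p : V3}
    (hp : ∀ i, |dt (e i) (T.pos (z0 + ρ * ζ) - c.pos (z0 + ρ * ζ)) + w i * p i| ≤ 2 * w i) :
    |P2 b0 b1 G ζ p| ≤ 1 := by
  have hw0 := S.pos 0
  have hw2 := S.pos 2
  have z1 : z0 ≤ z0 + ρ * ζ := by nlinarith
  have z2 : z0 + ρ * ζ ≤ z0 + ρ := by nlinarith
  have key : ∀ p' : V3, ∀ τ : ℝ, 0 < τ →
      (∀ i, |dt (e i) (T.pos (z0 + ρ * ζ) - c.pos (z0 + ρ * ζ)) + w i * p' i| ≤ 2 * w i) →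
      |dt (e 2) (T.pos (z0 + ρ * ζ) - c.pos (z0 + ρ * ζ)) + w 2 * (p' 2 + τ)| ≤ 2 * w 2 →
      |P2 b0 b1 G ζ p' + G.vv * τ| ≤ 1 := by
    intro p' τ hτ h1 h2
    have pe : p' = ![p' 0, p' 1, p' 2] := by ext i; fin_cases i <;> rfl
    have i1 := (inK_cmb_iff (T := T) S.ortho (c := c) (w := w) (x := p')).2 h1
    have i2 := (inK_cmb_iff (T := T) S.ortho (c := c) (w := w) (z := z0 + ρ * ζ)
      (x := ![p' 0, p' 1, p' 2 + τ])).2 (by
        intro i; fin_cases i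
        · exact h1 0
        · exact h1 1
        · exact h2)
    rw [cmb_add_two e w _ (p' 0) (p' 1) (p' 2) τ, ← pe] at i2
    have g := S.st2 _ z1 z2 _ (τ * w 2) (by positivity) i1 i2
    have e1 := hE ζ ![p' 0, p' 1, p' 2 + τ]
    have e2 := hE ζ p'
    rw [cmb_add_two e w _ (p' 0) (p' 1) (p' 2) τ, ← pe] at e1
    have e3 : Fq b0 b1 G ζ ![p' 0, p' 1, p' 2 + τ] - Fq b0 b1 G ζ p' =
        τ * (P2 b0 b1 G ζ p' + G.vv * τ) := by
      simp only [Fq, dt, bz, QF.ev, P2, Matrix.cons_val]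
      ring
    rw [e1, e2] at g
    have e4 : q (z0 + ρ * ζ) (T.pos (z0 + ρ * ζ)) + w 0 * Fq b0 b1 G ζ ![p' 0, p' 1, p' 2 + τ] -
        (q (z0 + ρ * ζ) (T.pos (z0 + ρ * ζ)) + w 0 * Fq b0 b1 G ζ p') =
        (w 0 * τ) * (P2 b0 b1 G ζ p' + G.vv * τ) := by
      rw [mul_assoc, ← e3]; ring
    have e5 : w 0 / w 2 * (τ * w 2) = (w 0 * τ) * 1 := by field_simp
    rw [e4, e5, abs_mul, abs_of_pos (mul_pos hw0 hτ)] at g
    exact le_of_mul_le_mul_left g (mul_pos hw0 hτ)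
  rw [abs_le]
  rcases room hw2 (hp 2) with h | h
  · have k := fun τ h1 h2 => abs_le.1 (key p τ h1 hp (h τ h1 h2))
    constructor
    · exact lim_ge (B := G.vv) fun τ h1 h2 => (k τ h1 h2).1
    · have := lim_ge (A := -P2 b0 b1 G ζ p) (B := -G.vv) (c := -1) fun τ h1 h2 => by
        have := (k τ h1 h2).2
        linarith
      linarith
  · have k : ∀ τ, 0 < τ → τ ≤ 1 → |P2 b0 b1 G ζ p + -G.vv * τ| ≤ 1 := by
      intro τ h1 h2
      have := key ![p 0, p 1, p 2 - τ] τ h1 (by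
        intro i; fin_cases i
        · exact hp 0
        · exact hp 1
        · exact h τ h1 h2) (by
          change |_ + w 2 * (p 2 - τ + τ)| ≤ _
          rw [sub_add_cancel]; exact hp 2)
      have e4 : P2 b0 b1 G ζ ![p 0, p 1, p 2 - τ] + G.vv * τ = P2 b0 b1 G ζ p + -G.vv * τ := by
        simp only [P2, Matrix.cons_val]; ring
      rw [e4] at this
      exact this
    constructor
    · exact lim_ge (B := -G.vv) fun τ h1 h2 => (abs_le.1 (k τ h1 h2)).1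
    · have := lim_ge (A := -P2 b0 b1 G ζ p) (B := G.vv) (c := -1) fun τ h1 h2 => by
        have := (abs_le.1 (k τ h1 h2)).2
        linarith
      linarith

/-- **height of a point of the `9/8`-box over the tangent plane, any lateral distance** -/
theorem yc_far (S : StP e c w q z0 ρ) (hρ : 0 ≤ ρ)
    (hT : ∀ z, z0 ≤ z → z ≤ z0 + ρ → InK e c w z (T.pos z))
    (hE : IsExp q e w T z0 ρ b0 b1 G) (hζ : 0 ≤ ζ) (hζ' : ζ ≤ 1) {X : V3}
    (hX : InK e c (fun i => 9 / 8 * w i) (z0 + ρ * ζ) X) :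
    w 0 * |yc b0 (pc e w T (z0 + ρ * ζ) X)| ≤
      2000 * (|q (z0 + ρ * ζ) X| + |q (z0 + ρ * ζ) (T.pos (z0 + ρ * ζ))| +
        w 0 * kap b0 b1 G) := by
  have N := hE.nrmC S hρ hT
  obtain ⟨g1, g2, -, -, -, -, -, s1, s2⟩ := N.b1_le
  have hw0 := S.pos 0
  have hwne : ∀ i, w i ≠ 0 := fun i => (S.pos i).ne'
  have z1 : z0 ≤ z0 + ρ * ζ := by nlinarith
  have z2 : z0 + ρ * ζ ≤ z0 + ρ := by nlinarith
  set x := pc e w T (z0 + ρ * ζ) X with hx
  set t : V3 := fun i => dt (e i) (T.pos (z0 + ρ * ζ) - c.pos (z0 + ρ * ζ)) with ht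
  have htw : ∀ i, |t i| ≤ w i := fun i => hT _ z1 z2 i
  have hxX : T.pos (z0 + ρ * ζ) + cmb (fr e w) x = X := cmb_pc S.ortho hwne T _ X
  have htx : ∀ i, |t i + w i * x i| ≤ 9 / 8 * w i := by
    intro i
    have h1 := hX i
    have h2 : t i + w i * x i = dt (e i) (X - c.pos (z0 + ρ * ζ)) := by
      have h3 : w i * x i = dt (e i) (X - T.pos (z0 + ρ * ζ)) := by
        rw [hx]; unfold pc; rw [mul_div_cancel₀ _ (hwne i)]
      rw [h3, ht]
      simp only [dt, Pi.sub_apply]; ring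
    rw [h2]; exact h1
  have hwx : ∀ i, |w i * x i| ≤ 17 / 8 * w i := by
    intro i
    have a := abs_le.1 (htx i)
    have b := abs_le.1 (htw i)
    rw [abs_le]; constructor <;> linarith [a.1, a.2, b.1, b.2]
  have hx2 : ∀ i, |x i| ≤ 17 / 8 := by
    intro i
    have := hwx i
    rw [abs_mul, abs_of_pos (S.pos i), mul_comm (w i)] at this
    exact le_of_mul_le_mul_right this (S.pos i)
  -- membership of the points used
  have box : ∀ s : ℝ, -(8 / 17) ≤ s → s ≤ 24 / 17 → ∀ i, |t i + w i * (s * x i)| ≤ 2 * w i := by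
    intro s h1 h2 i
    have a := abs_le.1 (htx i)
    have b := abs_le.1 (htw i)
    have d := abs_le.1 (hwx i)
    have e1 : w i * (s * x i) = s * (w i * x i) := by ring
    rw [e1]
    set X' := w i * x i
    rw [abs_le]
    constructor
    · rcases le_total 0 X' with h | h
      · have := mul_le_mul_of_nonneg_right h1 h
        linarith [a.1, a.2, b.1, b.2, d.1, d.2]
      · have := mul_le_mul_of_nonpos_right h2 h
        linarith [a.1, a.2, b.1, b.2, d.1, d.2]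
    · rcases le_total 0 X' with h | h
      · have := mul_le_mul_of_nonneg_right h2 h
        linarith [a.1, a.2, b.1, b.2, d.1, d.2]
      · have := mul_le_mul_of_nonpos_right h1 h
        linarith [a.1, a.2, b.1, b.2, d.1, d.2]
  -- coefficients
  set s := b0 1 / b0 0 with hs
  set s' := b0 2 / b0 0 with hs'
  have hb00 : b0 0 ≠ 0 := by linarith
  have es : b0 1 = s * b0 0 := by rw [hs]; field_simp
  have es' : b0 2 = s' * b0 0 := by rw [hs']; field_simp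
  set y := yc b0 x with hy
  have ey : x 0 = y - s * x 1 - s' * x 2 := by rw [hy]; unfold yc; ring
  set n := b0 0 + ζ * b1 0 with hn
  set k := kap b0 b1 G with hk
  have k0 : 0 ≤ k := kap_nonneg b0 b1 G
  have k1 : |shB1 b0 b1 1| ≤ k := (le_max_left _ _).trans (le_max_left _ _)
  have k2 : |shB1 b0 b1 2| ≤ k := (le_max_right _ _).trans (le_max_left _ _)
  have k3 : |(shG b0 G).uu| ≤ k :=
    (le_max_left _ _).trans ((le_max_left _ _).trans (le_max_right _ _))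
  have k4 : |(shG b0 G).uv| ≤ k :=
    (le_max_right _ _).trans ((le_max_left _ _).trans (le_max_right _ _))
  have k5 : |(shG b0 G).vv| ≤ k := (le_max_right _ _).trans (le_max_right _ _)
  have hζa : |ζ| ≤ 1 := by rw [abs_of_nonneg hζ]; exact hζ'
  set r1 := shB1 b0 b1 1 with hr1
  set r2 := shB1 b0 b1 2 with hr2
  set M := shG b0 G with hM
  have er1 : b1 1 = r1 + s * b1 0 := by rw [hr1]; simp only [shB1, Matrix.cons_val]; ring
  have er2 : b1 2 = r2 + s' * b1 0 := by rw [hr2]; simp only [shB1, Matrix.cons_val]; ring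
  have ef : Fq b0 b1 G ζ x = y * (n + M.yy * y + M.yu * x 1 + M.yv * x 2) +
      (ζ * r1 * x 1 + ζ * r2 * x 2 + M.uu * (x 1 * x 1) + M.uv * (x 1 * x 2) +
        M.vv * (x 2 * x 2)) := by
    have h1 : Fq b0 b1 G ζ x = Fq b0 b1 G ζ (unsh b0 y (x 1) (x 2)) := by
      rw [hy, unsh_yc]
    rw [h1, Fq_unsh hb00]
    simp only [Fq, dt, bz, QF.ev, shB0, Matrix.cons_val]
    rw [hn, hr1, hr2, hM]
    simp only [shB1, Matrix.cons_val]
    ring
  have eP : P0 b0 b1 G ζ x = (n + M.yy * y + M.yu * x 1 + M.yv * x 2) + M.yy * y := by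
    simp only [P0, hM, shG]
    rw [ey, ← hs, ← hs', hn]
    ring
  -- value
  set φ := Fq b0 b1 G ζ x with hφ
  have hval : w 0 * φ = q (z0 + ρ * ζ) X - q (z0 + ρ * ζ) (T.pos (z0 + ρ * ζ)) := by
    have := hE ζ x
    rw [hxX] at this
    rw [this, hφ]; ring
  -- abbreviations
  have A1 := grad0 S hρ hE hζ hζ' (p := ![-1, 0, 0]) (by
    intro i
    have b := abs_le.1 (htw i)
    fin_cases i
    · change |t 0 + w 0 * (-1)| ≤ 2 * w 0
      rw [abs_le]; constructor <;> [have := abs_le.1 (htw 0); have := abs_le.1 (htw 0)] <;>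
        linarith [this.1, this.2]
    · change |t 1 + w 1 * 0| ≤ 2 * w 1
      have := htw 1; rw [mul_zero, add_zero]; linarith [(S.pos 1)]
    · change |t 2 + w 2 * 0| ≤ 2 * w 2
      have := htw 2; rw [mul_zero, add_zero]; linarith [(S.pos 2)])
  have A2 := grad0 S hρ hE hζ hζ' (p := ![1, 0, 0]) (by
    intro i
    fin_cases i
    · change |t 0 + w 0 * 1| ≤ 2 * w 0
      rw [abs_le]; constructor <;> [have := abs_le.1 (htw 0); have := abs_le.1 (htw 0)] <;>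
        linarith [this.1, this.2]
    · change |t 1 + w 1 * 0| ≤ 2 * w 1
      have := htw 1; rw [mul_zero, add_zero]; linarith [(S.pos 1)]
    · change |t 2 + w 2 * 0| ≤ 2 * w 2
      have := htw 2; rw [mul_zero, add_zero]; linarith [(S.pos 2)])
  have A3 := grad0 S hρ hE hζ hζ' (p := ![x 0 - 7 / 8, x 1, x 2]) (by
    intro i
    fin_cases i
    · change |t 0 + w 0 * (x 0 - 7 / 8)| ≤ 2 * w 0
      have a := abs_le.1 (htx 0)
      rw [abs_le]; constructor <;> linarith [a.1, a.2]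
    · change |t 1 + w 1 * x 1| ≤ 2 * w 1
      have := htx 1; linarith [(S.pos 1)]
    · change |t 2 + w 2 * x 2| ≤ 2 * w 2
      have := htx 2; linarith [(S.pos 2)])
  have A4 := grad0 S hρ hE hζ hζ' (p := ![x 0 + 7 / 8, x 1, x 2]) (by
    intro i
    fin_cases i
    · change |t 0 + w 0 * (x 0 + 7 / 8)| ≤ 2 * w 0
      have a := abs_le.1 (htx 0)
      rw [abs_le]; constructor <;> linarith [a.1, a.2]
    · change |t 1 + w 1 * x 1| ≤ 2 * w 1
      have := htx 1; linarith [(S.pos 1)]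
    · change |t 2 + w 2 * x 2| ≤ 2 * w 2
      have := htx 2; linarith [(S.pos 2)])
  have B1 := box (-(8 / 17)) le_rfl (by norm_num)
  have B2 := box (24 / 17) (by norm_num) le_rfl
  have C0 := grad0 S hρ hE hζ hζ' (p := fun i => -(8 / 17) * x i) B1
  have C1 := grad1 S hρ hE hζ hζ' (p := fun i => -(8 / 17) * x i) B1
  have C2 := grad2 S hρ hE hζ hζ' (p := fun i => -(8 / 17) * x i) B1
  have D0 := grad0 S hρ hE hζ hζ' (p := fun i => 24 / 17 * x i) B2
  have D1 := grad1 S hρ hE hζ hζ' (p := fun i => 24 / 17 * x i) B2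
  have D2 := grad2 S hρ hE hζ hζ' (p := fun i => 24 / 17 * x i) B2
  have hlat : ∀ a b : ℝ, |a| ≤ 1 → |b| ≤ 1 → |a * x 1 + b * x 2| ≤ 17 / 4 := by
    intro a b ha hb
    have a1 := mul_abs_le ha (hx2 1)
    have a2 := mul_abs_le hb (hx2 2)
    refine (abs_add_le _ _).trans ?_
    linarith
  have m1 := abs_le.1 (mul_abs_le (mul_abs_le hζa k1) (hx2 1))
  have m2 := abs_le.1 (mul_abs_le (mul_abs_le hζa k2) (hx2 2))
  have m3 := abs_le.1 (mul_abs_le k3 (mul_abs_le (hx2 1) (hx2 1)))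
  have m4 := abs_le.1 (mul_abs_le k4 (mul_abs_le (hx2 1) (hx2 2)))
  have m5 := abs_le.1 (mul_abs_le k5 (mul_abs_le (hx2 2) (hx2 2)))
  have hy11 : |y| ≤ 11 := by
    have e1 : y = x 0 + s * x 1 + s' * x 2 := by rw [hy]; unfold yc; ring
    rw [e1]
    have a1 := mul_abs_le s1 (hx2 1)
    have a2 := mul_abs_le s2 (hx2 2)
    have a3 := hx2 0
    refine (abs_add_le _ _).trans ((add_le_add (abs_add_le _ _) le_rfl).trans ?_)
    linarith
  have fin := far_real (x0 := x 0) (y := y) (n := n) (yy := M.yy) (P := P0 b0 b1 G ζ x)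
    (F1 := n * y + (ζ * r1 * x 1 + ζ * r2 * x 2)) (φ := φ)
    (R := ζ * r1 * x 1 + ζ * r2 * x 2 + M.uu * (x 1 * x 1) + M.uv * (x 1 * x 2) +
        M.vv * (x 2 * x 2)) (R1 := ζ * r1 * x 1 + ζ * r2 * x 2)
    (l := n + M.yy * y + M.yu * x 1 + M.yv * x 2) (k := k) (ε := |φ|)
    (A := P0 b0 b1 G ζ fun i => -(8 / 17) * x i)
    (S := (P1 b0 b1 G ζ fun i => -(8 / 17) * x i) * x 1 +
      (P2 b0 b1 G ζ fun i => -(8 / 17) * x i) * x 2)
    (A' := P0 b0 b1 G ζ fun i => 24 / 17 * x i)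
    (S' := (P1 b0 b1 G ζ fun i => 24 / 17 * x i) * x 1 +
      (P2 b0 b1 G ζ fun i => 24 / 17 * x i) * x 2)
    (by simp only [P0, Matrix.cons_val] at A1; simp only [hM, shG]; linarith)
    (by simp only [P0, Matrix.cons_val] at A2; simp only [hM, shG]; linarith)
    (by simp only [P0, Matrix.cons_val] at A3 ⊢; simp only [hM, shG]; linarith)
    (by simp only [P0, Matrix.cons_val] at A4 ⊢; simp only [hM, shG]; linarith)
    eP ef
    (by rw [abs_le]; constructor <;> linarith [m1.1, m1.2, m2.1, m2.2, m3.1, m3.2, m4.1, m4.2,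
          m5.1, m5.2])
    rfl
    (by rw [abs_le]; constructor <;> linarith [m1.1, m1.2, m2.1, m2.2])
    (by linarith) (by linarith) (hlat _ _ C1 C2) (hlat _ _ D1 D2)
    (by
      have e1 : n * y + (ζ * r1 * x 1 + ζ * r2 * x 2) = (b0 0 + ζ * b1 0) * x 0 +
          (b0 1 + ζ * b1 1) * x 1 + (b0 2 + ζ * b1 2) * x 2 := by
        rw [ey, es, es', er1, er2, hn]; ring
      rw [e1, hφ]
      simp only [Fq, dt, bz, QF.ev, P0, P1, P2]
      ring)
    (by
      have e1 : n * y + (ζ * r1 * x 1 + ζ * r2 * x 2) = (b0 0 + ζ * b1 0) * x 0 +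
          (b0 1 + ζ * b1 1) * x 1 + (b0 2 + ζ * b1 2) * x 2 := by
        rw [ey, es, es', er1, er2, hn]; ring
      rw [e1, hφ]
      simp only [Fq, dt, bz, QF.ev, P0, P1, P2]
      ring)
    le_rfl k0 hy11
  have h1 : w 0 * |φ| = |q (z0 + ρ * ζ) X - q (z0 + ρ * ζ) (T.pos (z0 + ρ * ζ))| := by
    rw [← hval, abs_mul, abs_of_pos hw0]
  have h2 := abs_sub (q (z0 + ρ * ζ) X) (q (z0 + ρ * ζ) (T.pos (z0 + ρ * ζ)))
  have h3 := mul_le_mul_of_nonneg_left fin hw0.le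
  have h4 : w 0 * (2000 * (|φ| + k)) = 2000 * (w 0 * |φ| + w 0 * k) := by ring
  rw [h4, h1] at h3
  linarith

end

end Crest.Agent.R136.Ycf236
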