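import Mathlib
import Crest.Agent.R136.Yk1_953

/-!
# R136 U4, pure penalty: chain with room, part 2 (helper953)

* `DmxU u0` : D-max at the levels `v ∈ [u0, 1]`; `up_oneK`, `exists_dmxK` : (UP);
* `rep_okK` : one incidence per line and top cell; `exists_sub` : a part in one cell of level `j`
  with full fibres.
-/

set_option autoImplicit false
set_option linter.unusedSectionVars false

open Finset Filter Topology

namespace Crest.Agent.R136.Yk953

open Crest.Agent.R138.Ex926 Crest.Agent.R138.Dp76 Crest.Agent.R138.Ps627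
open Crest.Agent.R138.Ps926
open Crest.Agent.R138.NatTw76 (exists_avoid)
open Crest.Agent.R138.Mk163 (zc zl rho alive own Negl)
open Crest.Agent.R138.MkRef627 (lc kc own_one alive_mono mem_alive card_class own_lower exists_num)
open Crest.Agent.R138.MkZoom779 (zc_nested zc_eq exists_rep)
open Crest.Agent.R136.MkA627 (ampA Geo MkA)
open Crest.Agent.R116.Xa794 (TS)
open Crest.Agent.R116.Xa2794 (lc_nested class_fib_ge class_fib_le)
open Crest.Agent.R116.Xa3794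
open Crest.Agent.R116.Xc794 Crest.Agent.R116.Xc1794
open Crest.Agent.R116.Xc3794 Crest.Agent.R116.Xc4794 Crest.Agent.R116.Xc5794
open Crest.Agent.R136.Yc953 (RwdF Zf)
open Crest.Agent.R136.KF879 (OkH UBH)

variable {Ln ι S : Type} [Fintype ι]

/-- D-max at the levels `v ∈ [u0, 1]` -/
def DmxU (u0 : ℚ) (B : Base) (I : ℕ → Finset (ℕ × ℝ)) (T : ℕ → TS Ln ι S) (L : ℕ → ℕ → Ln)
    (lev : ℕ → ℚ → ℕ) (A : ℕ → ℝ) (c : ℝ → ℝ) (V : ℕ → ℕ → (ι → ℕ) → ℝ) : Prop :=
  open Classical in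
  ∀ v : ℚ, u0 ≤ v → v ≤ 1 → ∀ ε : ℝ, 0 < ε → ∀ᶠ n in (U : Filter ℕ), ∀ (J : ℤ) (s : (ι → ℕ) × S),
    (T n).adm (lev n v) J s →
      (((alive (I n) (lev n v) J).filter fun t => (T n).mem (lev n v) J s (L n t)).card : ℝ) ≤
        B.d n ^ (-ε) * ampA B A c n v * V n (lev n v) s.1

section

variable {B : Base} {I : ℕ → Finset (ℕ × ℝ)} {lev : ℕ → ℚ → ℕ} {T : ℕ → TS Ln ι S}
  {L : ℕ → ℕ → Ln} {A : ℕ → ℝ} {Ψ : ℝ → (ι → ℝ) → ℝ} {atop : ℕ → ι → ℕ} {N : ℕ → ℕ}
  {c : ℝ → ℝ} {V : ℕ → ℕ → (ι → ℕ) → ℝ}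

theorem DmxU.mono {u0 : ℚ} {J : ℕ → Finset (ℕ × ℝ)} (h : DmxU u0 B I T L lev A c V)
    (hJ : ∀ n, J n ⊆ I n) : DmxU u0 B J T L lev A c V := by
  classical
  intro v hv0 hv1 ε hε
  filter_upwards [h v hv0 hv1 ε hε] with n hn J0 s hs
  refine le_trans ?_ (hn J0 s hs)
  exact_mod_cast card_le_card (filter_subset_filter _ (alive_mono (hJ n) _ _))

open Classical in
theorem up_oneK [Nonempty S] {K : ℕ} {u0 : ℚ} (hu0 : 0 ≤ u0) (h : Sq B I lev Zf) (𝒯 : Set (TS Ln ι S)) (hΨ : SupA Ψ) {g : ℝ}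
    (hUB : UBH K 𝒯 Ψ g) (hT : ∀ n, T n ∈ 𝒯)
    (hfin : ∀ (n i : ℕ) (J : ℤ) (s : (ι → ℕ) × S), (T n).adm i J s → ∀ j, s.1 j ≤ N n)
    (hNd : ∀ ε : ℝ, 0 < ε → ∀ᶠ n in (U : Filter ℕ), (N n : ℝ) ≤ B.d n ^ (-ε))
    (hA : ∀ n, 0 < A n)
    (h0 : ∀ᶠ n in (U : Filter ℕ), ∀ (J0 : ℤ) (s : (ι → ℕ) × S), (T n).adm (lev n u0) J0 s →
      (((alive (I n) (lev n u0) J0).filter fun t => (T n).mem (lev n u0) J0 s (L n t)).card : ℝ) ≤
        A n * B.d n ^ (-(g * (u0 : ℝ))) * VV T Ψ lev atop n (lev n u0) s.1)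
    {v : ℚ} (hv0 : u0 ≤ v) (hv1 : v ≤ 1) (hroom : u0 < v → Room K lev u0 v)
    {ε : ℝ} (hε : 0 < ε) :
    ∃ E : ℕ → Finset (ℕ × ℝ), Negl B I (fun n x => x ∈ E n) ∧
      ∀ᶠ n in (U : Filter ℕ), ∀ Q ⊆ I n, (∀ x ∈ Q, x ∉ E n) → ∀ (J : ℤ) (s : (ι → ℕ) × S),
        (T n).adm (lev n v) J s →
          (((alive Q (lev n v) J).filter fun t => (T n).mem (lev n v) J s (L n t)).card : ℝ) ≤
            B.d n ^ (-ε) * ampA B A (fun v => g * v) n v *
              VV T Ψ lev atop n (lev n v) s.1 := by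
  have hvv0 : 0 ≤ v := hu0.trans hv0
  rcases hv0.eq_or_lt with rfl | hvpos
  · refine ⟨fun _ => ∅, ⟨1, one_pos, Eventually.of_forall fun n => ?_⟩, ?_⟩
    · simp only [notMem_empty, filter_false, card_empty, Nat.cast_zero]
      exact mul_nonneg (dpow_pos B n _).le (Nat.cast_nonneg _)
    · filter_upwards [h0] with n hn Q hQ _ J s hs
      refine le_trans (by exact_mod_cast card_le_card (filter_subset_filter _
        (alive_mono hQ _ _))) ((hn J s hs).trans ?_)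
      refine mul_le_mul_of_nonneg_right ?_ (VV_pos _ _ _).le
      unfold ampA
      have h1 : 1 ≤ B.d n ^ (-ε) := by
        have := dpow_le B n (a := -ε) (b := 0) (by linarith)
        rwa [Real.rpow_zero] at this
      have h2 : 0 < A n * B.d n ^ (-(g * (u0 : ℝ))) := mul_pos (hA n) (dpow_pos B n _)
      nlinarith
  set cc : ℝ → ℝ := fun v => g * v with hcc
  set t : ℕ → ℝ := fun n => B.d n ^ (-ε) * ampA B A cc n v with ht
  have htp : ∀ n, 0 < t n := fun n => mul_pos (dpow_pos B n _) (ampA_pos hA cc n v)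
  have hex := fun n => extractC (T n) (VV T Ψ lev atop n (lev n v)) (VV_pos n (lev n v)) (N n)
    (lev n v) (hfin n (lev n v)) (L n) (I n) (htp n)
  choose A0 hA0 A1 hA1 f b a h1 h2 h3 h4 h5 using hex
  refine ⟨A0, ?_, ?_⟩
  swap
  · exact Eventually.of_forall fun n Q hQ hQA J s hs => h5 n Q hQ hQA J s hs
  -- `A0` is negligible
  have hA0ev : ∀ᶠ n in (U : Filter ℕ), A0 n ⊆ I n := Eventually.of_forall hA0
  by_cases hd : Dense B A0 I
  swap
  · obtain ⟨γ, hγ, h6⟩ := small_of_not_dense hA0ev hd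
    refine ⟨γ, hγ, ?_⟩
    filter_upwards [h6] with n hn
    refine le_trans ?_ hn.le
    refine Nat.cast_le.2 (card_le_card ?_)
    intro x hx
    simp only [mem_filter] at hx
    exact hx.2
  exfalso
  have hd1 : Dense B A1 A0 := by
    refine dense_of_small (Eventually.of_forall hA1) fun η hη => ?_
    filter_upwards [boxN_small hNd (Fintype.card ι) hη] with n hn
    exact (h1 n).trans (mul_le_mul_of_nonneg_right hn (Nat.cast_nonneg _))
  have hd2 : Dense B A1 I := hd1.trans hd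
  have hne := hd2.nonempty h.ne
  set Φ : ℕ → ℝ := fun n =>
    (2 : ℝ) ^ (-(Ψ ((lev n 1 : ℝ) - lev n v) (rel (lev n v) (a n) (lev n 1) (atop n)))) with hΦ
  have hΦp : ∀ n, 0 < Φ n := fun n => Real.rpow_pos_of_pos two_pos _
  obtain ⟨e0, he0, hlow⟩ := low_seqK h 𝒯 Ψ hUB hT hfin hNd (u := u0) (v := v) (hroom hvpos)
    hvpos hv1
    (A := A1) (fun n => (hA1 n).trans (hA0 n)) (Eventually.of_forall h2) (f := f) (b := b) (a := a)
    (Eventually.of_forall h3) (D1 := fun n => t n * Φ n)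
    (fun n => mul_pos (htp n) (hΦp n))
    (Eventually.of_forall fun n x hx => by
      refine le_trans (le_of_eq ?_) (h4 n x hx)
      simp only [VV, capP, hΦ]
      ring) (η := ε) hε
    (D0 := fun n => A n * B.d n ^ (-(g * (u0 : ℝ))) * Φ n) (by
      refine Eventually.of_forall fun n => ?_
      have e1 : B.d n ^ (ε + g * ((v : ℝ) - u0)) *
          (t n * Φ n) = A n * B.d n ^ (-(g * (u0 : ℝ))) * Φ n := by
        simp only [ht, hcc, ampA]
        have e2 : B.d n ^ (ε + g * ((v : ℝ) - u0)) *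
            (B.d n ^ (-ε) * (A n * B.d n ^ (-(g * (v : ℝ)))) * Φ n) =
            A n * Φ n * (B.d n ^ (ε + g * ((v : ℝ) - u0)) * B.d n ^ (-ε) *
              B.d n ^ (-(g * (v : ℝ)))) := by ring
        rw [e2, ← dpow_add, ← dpow_add]
        have e3 : ε + g * ((v : ℝ) - u0) + -ε + -(g * (v : ℝ)) = -(g * (u0 : ℝ)) := by
          ring
        rw [e3]; ring
      simp only [e1]
      exact le_rfl)
  obtain ⟨n, hn1, hn2, hn3, hn4, hn5⟩ := (hlow.and ((hd2.2 e0 he0).and (h0.and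
    ((h.lev_mono u0 v hu0 hv0 hv1).and (h.lev_mono v 1 hvv0 hv1 le_rfl))))).exists
  obtain ⟨c, s, hs1, hs4⟩ := hn1 (A1 n) (Subset.refl _) hn2
  have h6 := hn3 c s hs1
  have h7 : (((alive (A1 n) (lev n u0) c).filter fun t => (T n).mem (lev n u0) c s (L n t)).card : ℝ) ≤
      (((alive (I n) (lev n u0) c).filter fun t => (T n).mem (lev n u0) c s (L n t)).card : ℝ) := by
    exact_mod_cast card_le_card (filter_subset_filter _
      (alive_mono ((hA1 n).trans (hA0 n)) _ _))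
  have h8 := capP_sup (T n) hΨ hn4 hn5 s.1 (a n) (atop n)
  have hAd : 0 < A n * B.d n ^ (-(g * (u0 : ℝ))) := mul_pos (hA n) (dpow_pos B n _)
  have h9 := mul_le_mul_of_nonneg_left h8 hAd.le
  have h10 : A n * B.d n ^ (-(g * (u0 : ℝ))) * VV T Ψ lev atop n (lev n u0) s.1 =
    A n * B.d n ^ (-(g * (u0 : ℝ))) * capP (T n) Ψ (lev n 1) (atop n) (lev n u0) s.1 := rfl
  have h11 : A n * B.d n ^ (-(g * (u0 : ℝ))) * Φ n * capP (T n) Ψ (lev n v) (a n) (lev n u0) s.1 =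
      A n * B.d n ^ (-(g * (u0 : ℝ))) *
        ((2 : ℝ) ^ (-(Ψ ((lev n 1 : ℝ) - lev n v) (rel (lev n v) (a n) (lev n 1) (atop n)))) *
        capP (T n) Ψ (lev n v) (a n) (lev n u0) s.1) := by
    simp only [hΦ]; ring
  linarith

open Classical in
/-- **(UP)**: a dense part has D-max at all levels. -/
theorem exists_dmxK [Nonempty S] {K : ℕ} {u0 : ℚ} (hu0 : 0 ≤ u0) (h : Sq B I lev Zf) (𝒯 : Set (TS Ln ι S)) (hΨ : SupA Ψ) {g : ℝ}
    (hUB : UBH K 𝒯 Ψ g) (hT : ∀ n, T n ∈ 𝒯)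
    (hfin : ∀ (n i : ℕ) (J : ℤ) (s : (ι → ℕ) × S), (T n).adm i J s → ∀ j, s.1 j ≤ N n)
    (hNd : ∀ ε : ℝ, 0 < ε → ∀ᶠ n in (U : Filter ℕ), (N n : ℝ) ≤ B.d n ^ (-ε))
    (hA : ∀ n, 0 < A n)
    (h0 : ∀ᶠ n in (U : Filter ℕ), ∀ (J0 : ℤ) (s : (ι → ℕ) × S), (T n).adm (lev n u0) J0 s →
      (((alive (I n) (lev n u0) J0).filter fun t => (T n).mem (lev n u0) J0 s (L n t)).card : ℝ) ≤
        A n * B.d n ^ (-(g * (u0 : ℝ))) * VV T Ψ lev atop n (lev n u0) s.1)
    (hroom : ∀ v : ℚ, u0 < v → v ≤ 1 → Room K lev u0 v) :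
    ∃ J : ℕ → Finset (ℕ × ℝ), (∀ n, J n ⊆ I n) ∧ Dense B J I ∧
      DmxU u0 B J T L lev A (fun v => g * v) (VV T Ψ lev atop) := by
  have hex : ∀ j : ℕ, ∃ E : ℕ → Finset (ℕ × ℝ), Negl B I (fun n x => x ∈ E n) ∧
      (u0 ≤ (Denumerable.ofNat (ℚ × ℕ) j).1 → (Denumerable.ofNat (ℚ × ℕ) j).1 ≤ 1 →
      ∀ᶠ n in (U : Filter ℕ), ∀ Q ⊆ I n, (∀ x ∈ Q, x ∉ E n) → ∀ (J : ℤ) (s : (ι → ℕ) × S),
        (T n).adm (lev n (Denumerable.ofNat (ℚ × ℕ) j).1) J s →
          (((alive Q (lev n (Denumerable.ofNat (ℚ × ℕ) j).1) J).filter fun t =>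
            (T n).mem (lev n (Denumerable.ofNat (ℚ × ℕ) j).1) J s (L n t)).card : ℝ) ≤
            B.d n ^ (-(1 / (((Denumerable.ofNat (ℚ × ℕ) j).2 : ℝ) + 1))) *
              ampA B A (fun v => g * v) n (Denumerable.ofNat (ℚ × ℕ) j).1 *
              VV T Ψ lev atop n (lev n (Denumerable.ofNat (ℚ × ℕ) j).1) s.1) := by
    intro j
    by_cases h1 : u0 ≤ (Denumerable.ofNat (ℚ × ℕ) j).1 ∧ (Denumerable.ofNat (ℚ × ℕ) j).1 ≤ 1
    · obtain ⟨E, hE1, hE2⟩ := up_oneK hu0 h 𝒯 hΨ hUB hT hfin hNd hA h0 h1.1 h1.2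
        (fun hlt => hroom _ hlt h1.2)
        (ε := 1 / (((Denumerable.ofNat (ℚ × ℕ) j).2 : ℝ) + 1)) (by positivity)
      exact ⟨E, hE1, fun _ _ => hE2⟩
    · refine ⟨fun _ => ∅, ⟨1, one_pos, Eventually.of_forall fun n => ?_⟩, fun h2 h3 =>
        absurd ⟨h2, h3⟩ h1⟩
      simp only [notMem_empty, filter_false, card_empty, Nat.cast_zero]
      exact mul_nonneg (dpow_pos B n _).le (Nat.cast_nonneg _)
  choose E hE1 hE2 using hex
  obtain ⟨J, hJI, hJd, hJ⟩ := exists_avoid (B := B) (I := I) (fun j n x => x ∈ E j n) hE1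
  refine ⟨J, hJI, hJd, ?_⟩
  intro v hv0 hv1 ε hε
  obtain ⟨k, hk⟩ := exists_nat_one_div_lt hε
  obtain ⟨j, hj⟩ : ∃ j, Denumerable.ofNat (ℚ × ℕ) j = (v, k) :=
    ⟨@Encodable.encode (ℚ × ℕ) Denumerable.toEncodable (v, k), Denumerable.ofNat_encode _⟩
  have h1 := hE2 j (by rw [hj]; exact hv0) (by rw [hj]; exact hv1)
  rw [hj] at h1
  filter_upwards [h1, hJ j] with n h2 h3 J0 s hs
  refine (h2 (J n) (hJI n) (fun x hx => h3 x hx) J0 s hs).trans ?_
  refine mul_le_mul_of_nonneg_right ?_ (VV_pos _ _ _).le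
  refine mul_le_mul_of_nonneg_right (dpow_le B n ?_) (ampA_pos hA _ n v).le
  have h4 : (((v, k) : ℚ × ℕ).2 : ℝ) = (k : ℝ) := rfl
  linarith

end

open Classical in
/-- one incidence per line and cell of the top level. -/
theorem rep_okK {T : TS Ln ι S} {Ψ : ℝ → (ι → ℝ) → ℝ} {F : Cfg Ln ι S} {hh : ℕ}
    (h : OkH T Ψ hh F) :
    ∃ F' : Cfg Ln ι S, OkH T Ψ hh F' ∧ F'.m = F.m ∧ F'.M = F.M ∧ F'.N = F.N ∧ F'.D0 = F.D0 ∧
      F'.D1 = F.D1 ∧ F'.nu = F.nu ∧ F'.I ⊆ F.I ∧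
      ∀ x ∈ F'.I, ∀ y ∈ F'.I, x.1 = y.1 → zc (F.m + F.M) x.2 = zc (F.m + F.M) y.2 → x = y := by
  obtain ⟨I1, hI1, hone, hfull⟩ := exists_rep F.I (F.m + F.M)
  have hmm : F.m - hh ≤ F.m + F.M := (Nat.sub_le _ _).trans (Nat.le_add_right _ _)
  refine ⟨{ F with I := I1 }, ?_, rfl, rfl, rfl, rfl, rfl, rfl, hI1, hone⟩
  have hal : ∀ J, alive F.I (F.m + F.M) J = alive I1 (F.m + F.M) J := by
    intro J
    ext t
    rw [mem_alive, mem_alive]
    constructor
    · rintro ⟨y, hy, h1, h2⟩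
      obtain ⟨x, hx, h3, h4⟩ := hfull y hy
      exact ⟨x, hx, h3.trans h1, h4.trans h2⟩
    · rintro ⟨y, hy, h1, h2⟩
      exact ⟨y, hI1 hy, h1, h2⟩
  refine
    { M1 := h.M1
      h_le := h.h_le
      ne := ?_
      cell := fun x hx y hy => h.cell x (hI1 hx) y (hI1 hy)
      D1p := h.D1p
      nup := h.nup
      fin := h.fin
      top := ?_
      low := ?_
      own := ?_
      up := ?_ }
  · obtain ⟨y, hy⟩ := h.ne
    obtain ⟨x, hx, -⟩ := hfull y hy
    exact ⟨x, hx⟩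
  · intro J t ht
    exact h.top J t (alive_mono hI1 _ _ ht)
  · intro J t ht
    have h1 := h.low J t (alive_mono hI1 _ _ ht)
    rw [hal J] at h1
    exact h1
  · intro x hx
    have h1 := h.own x (hI1 hx)
    refine h1.trans ?_
    have : own F.I (F.m - hh) (F.m + F.M) x ⊆ own I1 (F.m - hh) (F.m + F.M) x := by
      intro c hc
      unfold own at hc ⊢
      obtain ⟨y, hy, rfl⟩ := mem_image.1 hc
      rw [mem_filter] at hy
      obtain ⟨x', hx', h3, h4⟩ := hfull y hy.1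
      refine mem_image.2 ⟨x', mem_filter.2 ⟨hx', h3.trans hy.2.1, ?_⟩, h4⟩
      exact (zc_nested hmm h4).trans hy.2.2
    exact_mod_cast card_le_card this
  · intro J s hs
    refine le_trans ?_ (h.up J s hs)
    exact_mod_cast card_le_card (filter_subset_filter _ (alive_mono hI1 _ _))

open Classical in
/-- small (line, cell of level `j`) fibres are few. -/
theorem few_bad {I : Finset (ℕ × ℝ)} {i j : ℕ} (hij : i ≤ j) {ν : ℝ} (hν : 0 < ν)
    (hfib : ∀ x ∈ I, ν ≤ ((I.filter fun y => lc i y = lc i x).card : ℝ)) :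
    ((I.filter fun x => ((I.filter fun y => lc j y = lc j x).card : ℝ) <
      ν / (4 * 2 ^ (j - i))).card : ℝ) ≤ (1 / 4) * (I.card : ℝ) := by
  set τ : ℝ := ν / (4 * 2 ^ (j - i)) with hτ
  set bad := I.filter fun x => ((I.filter fun y => lc j y = lc j x).card : ℝ) < τ with hbad
  have hbI : bad ⊆ I := filter_subset _ _
  have hτ0 : 0 < τ := by positivity
  -- one coarse fibre
  have h1 : ∀ x0 ∈ I, ((bad.filter fun y => lc i y = lc i x0).card : ℝ) ≤
      (1 / 4) * ((I.filter fun y => lc i y = lc i x0).card : ℝ) := by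
    intro x0 hx0
    set Fx := bad.filter fun y => lc i y = lc i x0 with hFx
    have e1 : (Fx.card : ℝ) = ∑ c ∈ Fx.image (fun y => zc j y.2),
        ((Fx.filter fun y => zc j y.2 = c).card : ℝ) := by
      rw [card_eq_sum_card_image (fun y : ℕ × ℝ => zc j y.2) Fx]
      push_cast; rfl
    have e2 : ∑ c ∈ Fx.image (fun y => zc j y.2), ((Fx.filter fun y => zc j y.2 = c).card : ℝ) ≤
        ((Fx.image fun y => zc j y.2).card : ℝ) * τ := by
      rw [← nsmul_eq_mul]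
      refine sum_le_card_nsmul _ _ _ fun c hc => ?_
      obtain ⟨y, hy, rfl⟩ := mem_image.1 hc
      have hyb := (mem_filter.1 hy).1
      have hyi := (mem_filter.1 hy).2
      refine le_trans ?_ (mem_filter.1 hyb).2.le
      have : (Fx.filter fun z => zc j z.2 = zc j y.2) ⊆ I.filter fun z => lc j z = lc j y := by
        intro z hz
        rw [mem_filter] at hz
        have hz1 := (mem_filter.1 hz.1)
        rw [mem_filter]
        refine ⟨hbI hz1.1, ?_⟩
        have a1 : z.1 = y.1 := (Prod.mk.inj hz1.2).1.trans (Prod.mk.inj hyi).1.symm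
        exact Prod.ext a1 hz.2
      exact_mod_cast card_le_card this
    have e3 : Fx.image (fun y => zc j y.2) ⊆ own I i j x0 := by
      intro c hc
      obtain ⟨y, hy, rfl⟩ := mem_image.1 hc
      have hy1 := mem_filter.1 hy
      obtain ⟨a1, a2⟩ := Prod.mk.inj hy1.2
      unfold own
      exact mem_image.2 ⟨y, mem_filter.2 ⟨hbI hy1.1, a1, a2⟩, rfl⟩
    have e4 : ((Fx.image fun y => zc j y.2).card : ℝ) ≤ 2 ^ (j - i) := by
      have := (card_le_card e3).trans (own_card_le (I := I) hij x0)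
      exact_mod_cast this
    have e5 : ((Fx.image fun y => zc j y.2).card : ℝ) * τ ≤ 2 ^ (j - i) * τ :=
      mul_le_mul_of_nonneg_right e4 hτ0.le
    have e6 : (2 : ℝ) ^ (j - i) * τ = (1 / 4) * ν := by
      rw [hτ]; field_simp
    have e7 := hfib x0 hx0
    linarith
  -- sum over the coarse fibres
  have e1 : (bad.card : ℝ) = ∑ o ∈ I.image (lc i), ((bad.filter fun y => lc i y = o).card : ℝ) := by
    rw [card_eq_sum_card_fiberwise (f := lc i) (s := bad) (t := I.image (lc i))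
      (fun x hx => mem_coe.2 (mem_image_of_mem _ (hbI (mem_coe.1 hx))))]
    push_cast; rfl
  have e2 : (I.card : ℝ) = ∑ o ∈ I.image (lc i), ((I.filter fun y => lc i y = o).card : ℝ) := by
    rw [card_eq_sum_card_fiberwise (f := lc i) (s := I) (t := I.image (lc i))
      (fun x hx => mem_coe.2 (mem_image_of_mem _ (mem_coe.1 hx)))]
    push_cast; rfl
  rw [e1, e2, mul_sum]
  refine sum_le_sum fun o ho => ?_
  obtain ⟨x0, hx0, rfl⟩ := mem_image.1 ho
  exact h1 x0 hx0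

open Classical in
/-- **a part in one cell of level `j` with full fibres and large classes.** -/
theorem exists_sub {I : Finset (ℕ × ℝ)} {i j k : ℕ} (hij : i ≤ j) (hjk : j ≤ k)
    (hne : I.Nonempty) {ν : ℝ} (hν : 0 < ν)
    (hfib : ∀ x ∈ I, ν ≤ ((I.filter fun y => lc i y = lc i x).card : ℝ)) (f : ℕ → ℤ → ℕ) :
    ∃ J ⊆ I, J.Nonempty ∧ (∀ x ∈ J, ∀ y ∈ J, zc j x.2 = zc j y.2) ∧
      (∀ x ∈ J, (1 / 8) * ((I.filter fun y => kc k f y = kc k f x).card : ℝ) ≤
        ((J.filter fun y => kc k f y = kc k f x).card : ℝ)) ∧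
      ∀ x ∈ J, (1 / 32) * (ν / 2 ^ (j - i)) ≤ ((J.filter fun y => lc j y = lc j x).card : ℝ) := by
  set τ : ℝ := ν / (4 * 2 ^ (j - i)) with hτ
  set P : ℕ × ℝ → Prop := fun x => ((I.filter fun y => lc j y = lc j x).card : ℝ) < τ with hP
  have hb := few_bad hij hν hfib
  rw [← hτ] at hb
  set J0 := I.filter fun x => ¬ P x with hJ0
  have hIc : (0 : ℝ) < (I.card : ℝ) := by exact_mod_cast card_pos.2 hne
  have hJ0c : (3 / 4) * (I.card : ℝ) ≤ (J0.card : ℝ) := by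
    have h1 : (I.filter P).card + J0.card = I.card := card_filter_add_card_filter_not (p := P)
    have h2 : ((I.filter P).card : ℝ) + (J0.card : ℝ) = (I.card : ℝ) := by exact_mod_cast h1
    have h3 : ((I.filter P).card : ℝ) ≤ (1 / 4) * (I.card : ℝ) := hb
    linarith
  set hm : Fin 2 → (ℕ × ℝ) → ℕ × ℤ := ![kc k f, lc j] with hhm
  obtain ⟨A', hA', hloss, hf⟩ := prune_rel (η := fun _ => ℕ × ℤ) hm (A := J0) (I := I)
    (filter_subset _ _) (δ := 1 / 8) (by norm_num)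
  rw [Fintype.card_fin] at hloss
  push_cast at hloss
  have hA'c : (0 : ℝ) < (A'.card : ℝ) := by linarith
  obtain ⟨x0, hx0⟩ := card_pos.1 (by exact_mod_cast hA'c : 0 < A'.card)
  have g0 : ∀ x ∈ A', (1 / 8) * ((I.filter fun y => kc k f y = kc k f x).card : ℝ) ≤
      ((A'.filter fun y => kc k f y = kc k f x).card : ℝ) := by
    intro x hx
    have h1 := hf 0 x hx
    have h2 : hm 0 = kc k f := rfl
    simp only [h2] at h1
    convert h1
  have g1 : ∀ x ∈ A', (1 / 8) * ((I.filter fun y => lc j y = lc j x).card : ℝ) ≤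
      ((A'.filter fun y => lc j y = lc j x).card : ℝ) := by
    intro x hx
    have h1 := hf 1 x hx
    have h2 : hm 1 = lc j := rfl
    simp only [h2] at h1
    convert h1
  set J := A'.filter fun y => zc j y.2 = zc j x0.2 with hJ
  have hJA : J ⊆ A' := filter_subset _ _
  have hcell : ∀ x ∈ J, zc j x.2 = zc j x0.2 := fun x hx => (mem_filter.1 hx).2
  have hin : ∀ x ∈ J, ∀ y ∈ A', zc j y.2 = zc j x.2 → y ∈ J := fun x hx y hy hxy =>
    mem_filter.2 ⟨hy, hxy.trans (hcell x hx)⟩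
  refine ⟨J, hJA.trans (hA'.trans (filter_subset _ _)), ⟨x0, mem_filter.2 ⟨hx0, rfl⟩⟩,
    fun x hx y hy => (hcell x hx).trans (hcell y hy).symm, ?_, ?_⟩
  · intro x hx
    have e1 : (J.filter fun y => kc k f y = kc k f x) = A'.filter fun y => kc k f y = kc k f x := by
      ext y
      exact ⟨fun h => mem_filter.2 ⟨hJA (mem_filter.1 h).1, (mem_filter.1 h).2⟩,
        fun h => mem_filter.2 ⟨hin x hx y (mem_filter.1 h).1
          (zc_nested hjk (Prod.mk.inj (mem_filter.1 h).2).2), (mem_filter.1 h).2⟩⟩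
    rw [e1]
    exact g0 x (hJA hx)
  · intro x hx
    have e1 : (J.filter fun y => lc j y = lc j x) = A'.filter fun y => lc j y = lc j x := by
      ext y
      exact ⟨fun h => mem_filter.2 ⟨hJA (mem_filter.1 h).1, (mem_filter.1 h).2⟩,
        fun h => mem_filter.2 ⟨hin x hx y (mem_filter.1 h).1
          (Prod.mk.inj (mem_filter.1 h).2).2, (mem_filter.1 h).2⟩⟩
    rw [e1]
    refine le_trans ?_ (g1 x (hJA hx))
    have hxJ0 := (mem_filter.1 (hA' (hJA hx))).2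
    have h2 : τ ≤ ((I.filter fun y => lc j y = lc j x).card : ℝ) := not_lt.1 hxJ0
    have h3 : (1 / 32) * (ν / 2 ^ (j - i)) = (1 / 8) * τ := by
      rw [hτ]; field_simp; norm_num
    rw [h3]
    exact mul_le_mul_of_nonneg_left h2 (by norm_num)

end Crest.Agent.R136.Yk953
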