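import Mathlib
import Crest.Agent.R136.Yk2_953

/-!
# R136 U4, pure penalty: chain with room, part 3 (helper953): the initial near-extremal sequence

`lev n 0 = F.m - ⌈M/K⌉` (one cell, full own counts), `lev n u0 = F.m` (bottom bound),
`lev n 1 = F.m + F.M` (marks), `u0 = 1 / (K + 1)`.
-/

set_option autoImplicit false
set_option linter.unusedSectionVars false

open Finset Filter Topology

namespace Crest.Agent.R136.Yk953

open Crest.Agent.R138.Ex926 Crest.Agent.R138.Dp76 Crest.Agent.R138.Ps627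
open Crest.Agent.R138.Ps926
open Crest.Agent.R138.Mk163 (zc zl rho alive own Negl)
open Crest.Agent.R138.MkRef627 (lc kc own_one alive_mono mem_alive card_class own_lower exists_num)
open Crest.Agent.R138.MkZoom779 (zc_nested zc_eq exists_rep)
open Crest.Agent.R136.MkA627 (ampA Geo MkA)
open Crest.Agent.R116.Xa794 (TS)
open Crest.Agent.R116.Xa2794 (lc_nested class_fib_ge class_fib_le)
open Crest.Agent.R116.Xa3794
open Crest.Agent.R116.Xc794 Crest.Agent.R116.Xc1794
open Crest.Agent.R116.Xc3794 Crest.Agent.R116.Xc4794 Crest.Agent.R116.Xc5794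
open Crest.Agent.R136.Yc953 (RwdF Zf)
open Crest.Agent.R136.KF879 (OkH UBH)

variable {Ln ι S : Type} [Fintype ι]

/-- the normalised position of the levels -/
noncomputable def levK (m mb : ℕ) (u0 : ℚ) (Mt : ℕ) (v : ℚ) : ℕ :=
  if v < u0 then mb + ⌊(v : ℝ) * Mt⌋₊ else m + ⌊((v : ℝ) - u0) * Mt⌋₊

theorem levK_zero {m mb : ℕ} {u0 : ℚ} (h0 : 0 < u0) (Mt : ℕ) : levK m mb u0 Mt 0 = mb := by
  unfold levK
  rw [if_pos h0]
  simp

theorem levK_u0 (m mb : ℕ) (u0 : ℚ) (Mt : ℕ) : levK m mb u0 Mt u0 = m := by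
  unfold levK
  rw [if_neg (lt_irrefl _)]
  simp

theorem levK_pos {m mb hp Mt : ℕ} (hmb : m = mb + hp) {u0 : ℚ}
    (h1 : (u0 : ℝ) * Mt ≤ hp) (h2 : (hp : ℝ) ≤ (u0 : ℝ) * Mt + 1) {v : ℚ} (hv : 0 ≤ v) :
    |(levK m mb u0 Mt v : ℝ) - mb - v * Mt| ≤ 2 := by
  have hvR : (0 : ℝ) ≤ v := by exact_mod_cast hv
  have hMt : (0 : ℝ) ≤ Mt := Nat.cast_nonneg _
  unfold levK
  split_ifs with h
  · have a1 := Nat.floor_le (mul_nonneg hvR hMt)
    have a2 := Nat.lt_floor_add_one ((v : ℝ) * Mt)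
    push_cast
    rw [abs_le]
    constructor <;> linarith
  · push Not at h
    have hR : (u0 : ℝ) ≤ v := by exact_mod_cast h
    have a1 := Nat.floor_le (mul_nonneg (sub_nonneg.2 hR) hMt)
    have a2 := Nat.lt_floor_add_one (((v : ℝ) - u0) * Mt)
    rw [hmb]
    push_cast
    rw [abs_le]
    constructor <;> nlinarith

theorem levK_mono {m mb hp Mt : ℕ} (hmb : m = mb + hp) {u0 : ℚ}
    (h1 : (u0 : ℝ) * Mt ≤ hp) {u v : ℚ} (_hu : 0 ≤ u) (huv : u ≤ v) :
    levK m mb u0 Mt u ≤ levK m mb u0 Mt v := by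
  have hMt : (0 : ℝ) ≤ Mt := Nat.cast_nonneg _
  have huvR : (u : ℝ) ≤ v := by exact_mod_cast huv
  unfold levK
  split_ifs with ha hb hb
  · exact Nat.add_le_add_left (Nat.floor_mono (mul_le_mul_of_nonneg_right huvR hMt)) _
  · have hR : (u : ℝ) ≤ u0 := by exact_mod_cast ha.le
    have a1 : ⌊(u : ℝ) * Mt⌋₊ ≤ hp := by
      refine Nat.floor_le_of_le ?_
      exact (mul_le_mul_of_nonneg_right hR hMt).trans h1
    rw [hmb]
    omega
  · exact absurd (huv.trans_lt hb) ha
  · exact Nat.add_le_add_left (Nat.floor_mono (mul_le_mul_of_nonneg_right (by linarith) hMt)) _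

set_option maxHeartbeats 2000000 in
open Classical in
/-- **the initial sequence.** -/
theorem exists_initK {K : ℕ} (hK : 2 ≤ K) {𝒯 : Set (TS Ln ι S)} {Ψ : ℝ → (ι → ℝ) → ℝ} {g : ℝ}
    (hΨ0 : Ψ 0 (fun _ => 0) = 0) (hlow : ∀ b < g, ¬ UBH K 𝒯 Ψ b) (hUB : UBH K 𝒯 Ψ g) :
    ∃ (B : Base) (I : ℕ → Finset (ℕ × ℝ)) (T : ℕ → TS Ln ι S) (L : ℕ → ℕ → Ln)
      (lev : ℕ → ℚ → ℕ) (A : ℕ → ℝ) (f : ℕ → ℕ → ℤ → ℕ) (b : ℕ → ℕ → (ι → ℕ) × S)
      (atop : ℕ → ι → ℕ) (N : ℕ → ℕ) (u0 : ℚ),
      0 < u0 ∧ (u0 : ℝ) < 1 / 2 ∧ ((K : ℝ) + 1) * u0 = 1 ∧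
      Nonempty S ∧ (∀ n, T n ∈ 𝒯) ∧
      (∀ (n i : ℕ) (J : ℤ) (s : (ι → ℕ) × S), (T n).adm i J s → ∀ j, s.1 j ≤ N n) ∧
      (∀ ε : ℝ, 0 < ε → ∀ᶠ n in (U : Filter ℕ), (N n : ℝ) ≤ B.d n ^ (-ε)) ∧
      (∀ n, 0 < A n) ∧ Sq B I lev Zf ∧
      (∀ᶠ n in (U : Filter ℕ), ∀ (J0 : ℤ) (s : (ι → ℕ) × S), (T n).adm (lev n u0) J0 s →
        (((alive (I n) (lev n u0) J0).filter fun t => (T n).mem (lev n u0) J0 s (L n t)).card : ℝ) ≤
          A n * B.d n ^ (-(g * (u0 : ℝ))) * VV T Ψ lev atop n (lev n u0) s.1) ∧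
      Mrk B I T L lev A (fun v => g * v) (VV T Ψ lev atop) 1 f b atop ∧
      ∀ v : ℚ, u0 < v → v ≤ 1 → Room K lev u0 v := by
  have hKR : (2 : ℝ) ≤ K := by exact_mod_cast hK
  have hKp : (0 : ℝ) < K := by linarith
  have hK1 : (0 : ℝ) < (K : ℝ) + 1 := by linarith
  -- the configurations
  obtain ⟨δs, hδs, Ms, hMs⟩ := hUB 1 one_pos
  have hex : ∀ n : ℕ, ∃ T ∈ 𝒯, ∃ (F : Cfg Ln ι S) (h : ℕ), OkH T Ψ h F ∧ n ≤ F.M ∧
      F.M ≤ K * h ∧ h ≤ F.M ∧
      Real.log (F.I.card : ℝ) ≤ (2 : ℝ) ^ (1 / ((n : ℝ) + 1) * F.M) ∧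
      (F.N : ℝ) ≤ (2 : ℝ) ^ (1 / ((n : ℝ) + 1) * F.M) ∧ 0 < F.D0 ∧
      (2 : ℝ) ^ ((g - 1 / ((n : ℝ) + 1)) * F.M) * F.D0 ≤ F.D1 ∧
      (2 : ℝ) ^ ((1 - 1 / ((n : ℝ) + 1)) * (F.M + h : ℝ)) ≤ F.nu ∧
      ∀ x ∈ F.I, ∀ y ∈ F.I, x.1 = y.1 → zc (F.m + F.M) x.2 = zc (F.m + F.M) y.2 → x = y := by
    intro n
    have hp : (0 : ℝ) < 1 / ((n : ℝ) + 1) := by positivity
    have h1 := hlow (g - 1 / ((n : ℝ) + 1)) (by linarith)
    unfold UBH at h1
    push Not at h1
    obtain ⟨η, hη, h2⟩ := h1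
    obtain ⟨T, hT, F, hh, hF, hM, hMK, hhM, hc, hN, hnu, hlt⟩ := h2 (min (1 / ((n : ℝ) + 1)) δs)
      (lt_min hp hδs) (max n Ms)
    obtain ⟨F', hF', e1, e2, e3, e4, e5, e6, e7, e8⟩ := rep_okK hF
    have hMp : (0 : ℝ) ≤ (F.M : ℝ) := Nat.cast_nonneg _
    have hMhp : (0 : ℝ) ≤ (F.M : ℝ) + hh := add_nonneg hMp (Nat.cast_nonneg _)
    have hle1 : (2 : ℝ) ^ (min (1 / ((n : ℝ) + 1)) δs * F.M) ≤ (2 : ℝ) ^ (1 / ((n : ℝ) + 1) * F.M) :=
      Real.rpow_le_rpow_of_exponent_le (by norm_num)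
        (mul_le_mul_of_nonneg_right (min_le_left _ _) hMp)
    have hle2 : (2 : ℝ) ^ (min (1 / ((n : ℝ) + 1)) δs * F.M) ≤ (2 : ℝ) ^ (δs * F.M) :=
      Real.rpow_le_rpow_of_exponent_le (by norm_num)
        (mul_le_mul_of_nonneg_right (min_le_right _ _) hMp)
    have hnu1 : (2 : ℝ) ^ ((1 - 1 / ((n : ℝ) + 1)) * (F.M + hh : ℝ)) ≤ F.nu := by
      refine le_trans (Real.rpow_le_rpow_of_exponent_le (by norm_num)
        (mul_le_mul_of_nonneg_right ?_ hMhp)) hnu
      linarith [min_le_left (1 / ((n : ℝ) + 1)) δs]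
    have hnu2 : (2 : ℝ) ^ ((1 - δs) * (F.M + hh : ℝ)) ≤ F.nu := by
      refine le_trans (Real.rpow_le_rpow_of_exponent_le (by norm_num)
        (mul_le_mul_of_nonneg_right ?_ hMhp)) hnu
      linarith [min_le_right (1 / ((n : ℝ) + 1)) δs]
    have hD0 : 0 < F.D0 := by
      have h3 := hMs T hT F hh hF ((le_max_right _ _).trans hM) hMK hhM (hc.trans hle2)
        (hN.trans hle2) hnu2
      have h4 : 0 < F.D1 := hF.D1p
      by_contra hneg
      push Not at hneg
      have h5 : (2 : ℝ) ^ ((g + 1) * F.M) * F.D0 ≤ 0 :=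
        mul_nonpos_of_nonneg_of_nonpos (by positivity) hneg
      linarith
    refine ⟨T, hT, F', hh, hF', by rw [e2]; exact (le_max_left _ _).trans hM, by rw [e2]; exact hMK,
      by rw [e2]; exact hhM, ?_, ?_, by rw [e4]; exact hD0, ?_, by rw [e2, e6]; exact hnu1,
      by rw [e1, e2]; exact e8⟩
    · rw [e2]
      refine le_trans (Real.log_le_log ?_ ?_) (hc.trans hle1)
      · exact_mod_cast card_pos.2 hF'.ne
      · exact_mod_cast card_le_card e7
    · rw [e2, e3]; exact hN.trans hle1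
    · rw [e2, e4, e5]
      refine le_trans ?_ hlt.le
      refine mul_le_mul_of_nonneg_right ?_ hD0.le
      refine Real.rpow_le_rpow_of_exponent_le (by norm_num) ?_
      nlinarith
  choose T hT F hh hF hM hMK hhM hc hN hD0 hgap hnul hone using hex
  have hM1 : ∀ n, 1 ≤ (F n).M := fun n => (hF n).M1
  have hlog2 : 0 < Real.log 2 := Real.log_pos (by norm_num)
  -- the room used
  set hp : ℕ → ℕ := fun n => ((F n).M + K - 1) / K with hhp
  have hK0 : 0 < K := by omega
  have hp1 : ∀ n, (F n).M ≤ K * hp n := by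
    intro n
    have h1 := Nat.div_add_mod ((F n).M + K - 1) K
    have h2 := Nat.mod_lt ((F n).M + K - 1) hK0
    simp only [hhp]
    omega
  have hp2 : ∀ n, K * hp n ≤ (F n).M + K - 1 := by
    intro n
    simp only [hhp]
    exact Nat.mul_div_le _ _
  have hp3 : ∀ n, hp n ≤ hh n := by
    intro n
    have h1 := hp2 n
    have h2 := hMK n
    by_contra hcon
    push Not at hcon
    have h3 : K * (hh n + 1) ≤ K * hp n := Nat.mul_le_mul_left K hcon
    rw [Nat.mul_add, Nat.mul_one] at h3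
    omega
  have hp4 : ∀ n, hp n ≤ (F n).m := fun n => (hp3 n).trans (hF n).h_le
  set mb : ℕ → ℕ := fun n => (F n).m - hp n with hmb
  have hmb1 : ∀ n, (F n).m = mb n + hp n := fun n => by
    have := hp4 n
    simp only [hmb]; omega
  set Mt : ℕ → ℕ := fun n => (F n).M + hp n with hMt
  -- the base
  set B : Base :=
    { d := fun n => (1 / 2 : ℝ) ^ (Mt n)
      pos := fun n => by positivity
      lt := fun n => pow_lt_one₀ (by norm_num) (by norm_num) (by
        have := hM1 n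
        simp only [hMt]; omega)
      lim0 := by
        have h1 : Tendsto (fun n : ℕ => (1 / 2 : ℝ) ^ n) U (𝓝 0) :=
          (tendsto_pow_atTop_nhds_zero_of_lt_one (by norm_num) (by norm_num)).mono_left U_le_atTop
        refine squeeze_zero (fun n => by positivity) (fun n => ?_) h1
        exact pow_le_pow_of_le_one (by norm_num) (by norm_num) ((hM n).trans (by
          simp only [hMt]; omega)) } with hB
  have hBL : ∀ n, B.L n = Mt n * Real.log 2 := by
    intro n
    have : B.L n = - Real.log ((1 / 2 : ℝ) ^ (Mt n)) := rfl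
    rw [this, Real.log_pow, one_div, Real.log_inv]; ring
  have hMpos : ∀ n, (0 : ℝ) < ((F n).M : ℝ) := fun n => by exact_mod_cast hM1 n
  have hMtpos : ∀ n, (0 : ℝ) < (Mt n : ℝ) := fun n => by
    have : 0 < Mt n := by
      have := hM1 n
      simp only [hMt]; omega
    exact_mod_cast this
  have hdp : ∀ n (e : ℝ), B.d n ^ (-e) = (2 : ℝ) ^ (e * (Mt n)) := by
    intro n e
    apply le_antisymm
    · refine le_two_rpow ?_
      rw [hBL]
      rw [show e * (Mt n : ℝ) * Real.log 2 / ((Mt n : ℝ) * Real.log 2) = e by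
        field_simp [(hMtpos n).ne']]
    · refine two_rpow_le ?_
      rw [hBL]
      rw [show e * (Mt n : ℝ) * Real.log 2 / ((Mt n : ℝ) * Real.log 2) = e by
        field_simp [(hMtpos n).ne']]
  have hMtlim : Tendsto (fun n => (Mt n : ℝ)) U atTop := by
    refine tendsto_atTop_mono (fun n => (by
      have h1 : n ≤ Mt n := (hM n).trans (by simp only [hMt]; omega)
      exact_mod_cast h1 : (n : ℝ) ≤ Mt n)) ?_
    exact tendsto_natCast_atTop_atTop.mono_left U_le_atTop
  have hinv : Tendsto (fun n => 1 / (Mt n : ℝ)) U (𝓝 0) := by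
    have h2 := tendsto_inv_atTop_zero.comp hMtlim
    refine h2.congr fun n => ?_
    simp only [Function.comp, one_div]
  -- `1/(n+1)` is eventually small
  have hsm0 : Tendsto (fun n : ℕ => 1 / ((n : ℝ) + 1)) U (𝓝 0) :=
    tendsto_one_div_add_atTop_nhds_zero_nat.mono_left U_le_atTop
  have hsm : ∀ ε : ℝ, 0 < ε → ∀ᶠ n : ℕ in (U : Filter ℕ), 1 / ((n : ℝ) + 1) ≤ ε := by
    intro ε hε
    filter_upwards [hsm0.eventually_lt_const hε] with n hn using hn.le
  -- the bottom level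
  set u0 : ℚ := 1 / ((K : ℚ) + 1) with hu0
  have hu0p : 0 < u0 := by positivity
  have hu0R : (u0 : ℝ) = 1 / ((K : ℝ) + 1) := by rw [hu0]; push_cast; rfl
  have hu0K : ((K : ℝ) + 1) * u0 = 1 := by rw [hu0R]; field_simp
  have hu0h : (u0 : ℝ) < 1 / 2 := by
    rw [hu0R, div_lt_div_iff₀ hK1 two_pos]
    linarith
  have hu01 : u0 < 1 := by
    have : (u0 : ℝ) < 1 := by linarith
    exact_mod_cast this
  have hp1R : ∀ n, ((F n).M : ℝ) ≤ K * hp n := fun n => by exact_mod_cast hp1 n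
  have hp2R : ∀ n, (K : ℝ) * hp n ≤ (F n).M + K - 1 := fun n => by
    have h1 := hp2 n
    have h2 : K * hp n + 1 ≤ (F n).M + K := by omega
    have h3 : (K : ℝ) * hp n + 1 ≤ (F n).M + K := by exact_mod_cast h2
    linarith
  have hMtR : ∀ n, (Mt n : ℝ) = (F n).M + hp n := fun n => by
    simp only [hMt]; push_cast; rfl
  have hq1 : ∀ n, (u0 : ℝ) * Mt n ≤ hp n := by
    intro n
    rw [hu0R, hMtR, one_div, inv_mul_le_iff₀ hK1]
    have := hp1R n
    linarith
  have hq2 : ∀ n, (hp n : ℝ) ≤ (u0 : ℝ) * Mt n + 1 := by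
    intro n
    have h1 : (hp n : ℝ) - 1 ≤ (u0 : ℝ) * Mt n := by
      rw [hu0R, hMtR, one_div, ← div_eq_inv_mul, le_div_iff₀ hK1]
      have := hp2R n
      nlinarith
    linarith
  set lev : ℕ → ℚ → ℕ := fun n v => levK (F n).m (mb n) u0 (Mt n) v with hlev
  have hlev0 : ∀ n, lev n 0 = mb n := fun n => levK_zero hu0p _
  have hlevu : ∀ n, lev n u0 = (F n).m := fun n => levK_u0 _ _ _ _
  have hlev1 : ∀ n, lev n 1 = (F n).m + (F n).M := by
    intro n
    have h1 : ⌊((1 : ℝ) - u0) * Mt n⌋₊ = (F n).M := by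
      rw [Nat.floor_eq_iff (mul_nonneg (by linarith) (Nat.cast_nonneg _))]
      have e1 : ((1 : ℝ) - u0) * Mt n = (F n).M + (hp n - u0 * Mt n) := by
        rw [hMtR]; ring
      rw [e1]
      have h2 : (hp n : ℝ) - u0 * Mt n < 1 := by
        have h3 : ((K : ℝ) + 1) * ((hp n : ℝ) - u0 * Mt n) = K * hp n - (F n).M := by
          have : ((K : ℝ) + 1) * ((hp n : ℝ) - u0 * Mt n) =
              (K + 1) * hp n - (((K : ℝ) + 1) * u0) * Mt n := by ring
          rw [this, hu0K, hMtR]; ring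
        have h4 := hp2R n
        by_contra hcon
        push Not at hcon
        nlinarith
      constructor
      · linarith [hq1 n]
      · linarith
    have h5 : lev n 1 = (F n).m + ⌊(((1 : ℚ) : ℝ) - u0) * Mt n⌋₊ := by
      simp only [hlev, levK]
      rw [if_neg (not_lt.2 hu01.le)]
    rw [h5, Rat.cast_one, h1]
  have hpos : ∀ n (v : ℚ), 0 ≤ v → |(lev n v : ℝ) - mb n - v * Mt n| ≤ 2 := fun n v hv =>
    levK_pos (hmb1 n) (hq1 n) (hq2 n) hv
  have hlm : ∀ u v : ℚ, 0 ≤ u → u ≤ v → v ≤ 1 → ∀ᶠ n in (U : Filter ℕ), lev n u ≤ lev n v :=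
    fun u v hu huv _ => Eventually.of_forall fun n => levK_mono (hmb1 n) (hq1 n) hu huv
  have hll : ∀ u v : ℚ, 0 ≤ u → u ≤ v → v ≤ 1 →
      Tendsto (fun n => ((lev n v : ℝ) - lev n u) * Real.log 2 / B.L n) U (𝓝 ((v : ℝ) - u)) := by
    intro u v hu huv hv
    have h1 : Tendsto (fun n => 4 * (1 / (Mt n : ℝ))) U (𝓝 0) := by
      have := hinv.const_mul 4
      rwa [mul_zero] at this
    rw [tendsto_iff_dist_tendsto_zero]
    refine squeeze_zero (fun n => dist_nonneg) (fun n => ?_) h1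
    have hm := hMtpos n
    have e1 : ((lev n v : ℝ) - lev n u) * Real.log 2 / B.L n =
        ((lev n v : ℝ) - lev n u) / Mt n := by
      rw [hBL]
      field_simp
    rw [e1, Real.dist_eq]
    have a1 := abs_le.1 (hpos n v (hu.trans huv))
    have a2 := abs_le.1 (hpos n u hu)
    have e2 : ((lev n v : ℝ) - lev n u) / Mt n - ((v : ℝ) - u) =
        (((lev n v : ℝ) - mb n - v * Mt n) - ((lev n u : ℝ) - mb n - u * Mt n)) / Mt n := by
      field_simp
      ring
    rw [e2, abs_div, abs_of_pos hm, div_le_iff₀ hm]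
    have e3 : 4 * (1 / (Mt n : ℝ)) * Mt n = 4 := by field_simp
    rw [e3, abs_le]
    constructor <;> linarith
  -- the part in one cell of the level `mb`
  have hfibF : ∀ n, ∀ x ∈ (F n).I, (F n).nu ≤
      ((((F n).I).filter fun y => lc ((F n).m - hh n) y = lc ((F n).m - hh n) x).card : ℝ) := by
    intro n x hx
    have q1 := (hF n).own x hx
    have q2 := own_one (I := (F n).I) (i := (F n).m - hh n) (j := (F n).m + (F n).M)
      (fun y hy z hz a1 a2 => hone n y hy z hz a1 a2) x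
    rw [q2] at q1
    exact q1
  have hsub := fun n => exists_sub (I := (F n).I) (i := (F n).m - hh n) (j := mb n)
    (k := (F n).m + (F n).M) (by
      have := hp3 n
      simp only [hmb]; omega) (by
      simp only [hmb]; omega) (hF n).ne (hF n).nup (hfibF n) (F n).f
  choose I1 hI1 hI1ne hI1cell hI1kc hI1lc using hsub
  have hcard : ∀ ε : ℝ, 0 < ε → ∀ᶠ n in (U : Filter ℕ),
      Real.log ((I1 n).card : ℝ) ≤ B.d n ^ (-ε) := by
    intro ε hε
    filter_upwards [hsm ε hε] with n hn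
    refine le_trans (Real.log_le_log (by exact_mod_cast card_pos.2 (hI1ne n))
      (by exact_mod_cast card_le_card (hI1 n))) ((hc n).trans ?_)
    rw [hdp n ε]
    refine Real.rpow_le_rpow_of_exponent_le (by norm_num) ?_
    have h1 : ((F n).M : ℝ) ≤ Mt n := by
      rw [hMtR]
      have : (0 : ℝ) ≤ hp n := Nat.cast_nonneg _
      linarith
    exact mul_le_mul hn h1 (hMpos n).le hε.le
  obtain ⟨I2, Λ, hI2, hI2d, hSq, hfe⟩ := exists_profile (B := B) (I1 := I1)
    (lev := lev) (Eventually.of_forall hI1ne) hcard hlm hll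
    (Eventually.of_forall fun n x hx y hy => by rw [hlev0]; exact hI1cell n x hx y hy)
    (Eventually.of_forall fun n x hx y hy h1 h2 => by
      rw [hlev1] at h2; exact hone n x (hI1 n hx) y (hI1 n hy) h1 h2)
    (fun j n => if j = 0 then kc (lev n 1) (F n).f else lc (lev n 0))
  -- full own counts: `Λ 1 = 0`
  have hL1 : Λ 1 ≤ 0 := by
    refine le_of_forall_pos_le_add fun ε hε => ?_
    set e1 : ℝ := ε / 8 with he1
    have he0 : 0 < e1 := by positivity
    obtain ⟨n, h2, h3, h4, h5, h6⟩ := ((hfe 1 e1 he0).and ((hSq.fib 0 le_rfl zero_le_one e1 he0).and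
      ((hsm e1 he0).and (hSq.ne.and (dpow_small B (c := e1) he0 (ε := 1 / 32) (by norm_num)))))).exists
    obtain ⟨x, hx⟩ := h5
    have hxI := hI2 n hx
    have h2x := h2 x hx
    have h3x := (h3 x hx).2
    simp only [one_ne_zero, if_false] at h2x
    have q1 := hI1lc n x hxI
    rw [← hlev0 n] at q1
    have q3 := (mul_le_mul_of_nonneg_left q1 (dpow_pos B n e1).le).trans (h2x.trans h3x)
    rw [Rat.cast_zero, hSq.lam0] at q3
    -- lower bound of the full count
    have q4 : B.d n ^ (-(1 - 2 * e1)) ≤ (F n).nu / 2 ^ (lev n 0 - ((F n).m - hh n)) := by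
      rw [le_div_iff₀ (by positivity), hdp n (1 - 2 * e1)]
      refine le_trans ?_ (hnul n)
      have e5 : lev n 0 - ((F n).m - hh n) = hh n - hp n := by
        rw [hlev0]
        have := hp3 n
        have := (hF n).h_le
        simp only [hmb]; omega
      rw [e5, ← Real.rpow_natCast, ← Real.rpow_add two_pos]
      refine Real.rpow_le_rpow_of_exponent_le (by norm_num) ?_
      rw [Nat.cast_sub (hp3 n), hMtR]
      have a1 : (hh n : ℝ) ≤ (F n).M := by exact_mod_cast hhM n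
      have a2 : (hp n : ℝ) ≤ hh n := by exact_mod_cast hp3 n
      have a3 : (0 : ℝ) ≤ hp n := Nat.cast_nonneg _
      have a4 := hMpos n
      have a5 : 1 / ((n : ℝ) + 1) * ((F n).M + hh n) ≤ e1 * ((F n).M + (F n).M) :=
        mul_le_mul h4 (by linarith) (by linarith) he0.le
      nlinarith
    have q5 : B.d n ^ e1 * (B.d n ^ e1 * B.d n ^ (-(1 - 2 * e1))) ≤
        B.d n ^ (-(1 - (0 : ℝ)) + (Λ 1 - 0) - e1) := by
      refine le_trans ?_ q3
      refine mul_le_mul_of_nonneg_left ?_ (dpow_pos B n e1).le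
      exact mul_le_mul h6.le q4 (dpow_pos B n _).le (by norm_num)
    rw [← dpow_add, ← dpow_add] at q5
    have q8 : -(1 - (0 : ℝ)) + (Λ 1 - 0) - e1 ≤ e1 + (e1 + -(1 - 2 * e1)) := by
      by_contra hcon
      push Not at hcon
      have := Real.rpow_lt_rpow_of_exponent_gt (B.pos n) (B.lt n) hcon
      linarith
    linarith
  have hL0 : ∀ v : ℝ, 0 ≤ v → v ≤ 1 → Λ v = 0 := by
    intro v h0 h1
    have a1 := (hSq.lam 0 v le_rfl h0 h1).1
    have a2 := (hSq.lam v 1 h0 h1 le_rfl).1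
    rw [hSq.lam0] at a1
    linarith
  have hSq' : Sq B I2 lev Zf :=
    { ne := hSq.ne
      card := hSq.card
      lam0 := rfl
      lam := fun u v _ huv _ => by
        simp only [Zf, sub_zero]
        exact ⟨le_rfl, by linarith⟩
      lev_mono := hSq.lev_mono
      lev_lim := hSq.lev_lim
      cell0 := hSq.cell0
      one := hSq.one
      fib := fun v h0 h1 ε hε => by
        have z1 : Λ 1 - Λ (v : ℝ) = Zf 1 - Zf (v : ℝ) := by
          rw [hL0 1 zero_le_one le_rfl, hL0 v (by exact_mod_cast h0) (by exact_mod_cast h1)]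
          simp [Zf]
        have := hSq.fib v h0 h1 ε hε
        rw [z1] at this
        exact this }
  refine ⟨B, I2, T, fun n => (F n).L, lev, fun n => (F n).D0 * B.d n ^ (g * (u0 : ℝ)),
    fun n => (F n).f, fun n => (F n).b, fun n => (F n).a, fun n => (F n).N, u0, hu0p, hu0h, hu0K,
    ⟨((F 0).b 0).2⟩, hT, fun n i J s hs => (hF n).fin i J s hs, ?_,
    fun n => mul_pos (hD0 n) (dpow_pos B n _), hSq', ?_, ?_, ?_⟩
  · intro ε hε
    filter_upwards [hsm ε hε] with n hn
    refine (hN n).trans ?_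
    rw [hdp n ε]
    refine Real.rpow_le_rpow_of_exponent_le (by norm_num) ?_
    have h1 : ((F n).M : ℝ) ≤ Mt n := by
      rw [hMtR]
      have : (0 : ℝ) ≤ hp n := Nat.cast_nonneg _
      linarith
    exact mul_le_mul hn h1 (hMpos n).le hε.le
  · refine Eventually.of_forall fun n J0 s hs => ?_
    rw [hlevu] at hs ⊢
    have h1 := (hF n).up J0 s hs
    refine le_trans (by exact_mod_cast card_le_card (filter_subset_filter _
      (alive_mono ((hI2 n).trans (hI1 n)) _ _))) (h1.trans (le_of_eq ?_))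
    have e1 : (F n).D0 * B.d n ^ (g * (u0 : ℝ)) * B.d n ^ (-(g * (u0 : ℝ))) = (F n).D0 := by
      rw [mul_assoc, ← dpow_add, add_neg_cancel, Real.rpow_zero, mul_one]
    rw [e1]
    unfold VV
    rw [hlev1]
  · refine { mark := ?_, near := ?_ }
    · refine Eventually.of_forall fun n x hx => ?_
      rw [hlev1]
      exact (hF n).top _ x.1 (mem_alive.2 ⟨x, hI1 n (hI2 n hx), rfl, rfl⟩)
    · intro ε hε
      set e1 : ℝ := ε / 4 with he1
      have he0 : 0 < e1 := by positivity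
      -- `(g - 1/(n+1)) M / Mt → g (1 - u0)`
      have hr1 : Tendsto (fun n => ((F n).M : ℝ) / Mt n) U (𝓝 (1 - (u0 : ℝ))) := by
        rw [tendsto_iff_dist_tendsto_zero]
        refine squeeze_zero (fun n => dist_nonneg) (fun n => ?_) hinv
        have hm := hMtpos n
        rw [Real.dist_eq]
        have e2 : ((F n).M : ℝ) / Mt n - (1 - u0) = (u0 * Mt n - hp n) / Mt n := by
          have : ((F n).M : ℝ) = Mt n - hp n := by rw [hMtR]; ring
          rw [this]; field_simp; ring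
        rw [e2, abs_div, abs_of_pos hm, div_le_div_iff_of_pos_right hm, abs_le]
        constructor <;> linarith [hq1 n, hq2 n]
      have hr2 : Tendsto (fun n : ℕ => (g - 1 / ((n : ℝ) + 1)) * (((F n).M : ℝ) / Mt n)) U
          (𝓝 ((g - 0) * (1 - (u0 : ℝ)))) := (tendsto_const_nhds.sub hsm0).mul hr1
      have hr3 := hr2.eventually_const_lt (show (g - 0) * (1 - (u0 : ℝ)) - e1 <
        (g - 0) * (1 - (u0 : ℝ)) by linarith)
      filter_upwards [hfe 0 e1 he0, hr3, dpow_small B (c := e1) he0 (ε := 1 / 8) (by norm_num)]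
        with n h1 h4 h8 x hx
      have hxI1 := hI2 n hx
      have hxI := hI1 n hxI1
      have h1x := h1 x hx
      simp only [if_true] at h1x
      -- classes
      have hlo1 : ∀ y ∈ (F n).I, (1 : ℝ) ≤ ((((F n).I).filter fun z =>
          lc (lev n 1) z = lc (lev n 1) y).card : ℝ) := by
        intro y hy
        have : 0 < (((F n).I).filter fun z => lc (lev n 1) z = lc (lev n 1) y).card :=
          card_pos.2 ⟨y, mem_filter.2 ⟨hy, rfl⟩⟩
        exact_mod_cast this
      have hhi1 : ∀ y ∈ I2 n, (((I2 n).filter fun z =>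
          lc (lev n 1) z = lc (lev n 1) y).card : ℝ) ≤ 1 := by
        intro y hy
        have : ((I2 n).filter fun z => lc (lev n 1) z = lc (lev n 1) y).card ≤ 1 := by
          rw [card_le_one]
          intro z hz z' hz'
          rw [mem_filter] at hz hz'
          obtain ⟨a1, a2⟩ := Prod.mk.inj (hz.2.trans hz'.2.symm)
          rw [hlev1] at a2
          exact hone n z (hI1 n (hI2 n hz.1)) z' (hI1 n (hI2 n hz'.1)) a1 a2
        exact_mod_cast this
      have p1 := class_fib_ge (f := (F n).f) hlo1 x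
      have p2 := class_fib_le (f := (F n).f) hhi1 x
      rw [one_mul] at p1 p2
      have p3 : (F n).D1 * (T n).vol (lev n 1) (F n).a ≤
          (((alive (F n).I (lev n 1) (zc (lev n 1) x.2)).filter fun s =>
            (F n).f s (zc (lev n 1) x.2) = (F n).f x.1 (zc (lev n 1) x.2)).card : ℝ) := by
        rw [hlev1]
        exact (hF n).low _ x.1 (mem_alive.2 ⟨x, hxI, rfl, rfl⟩)
      have p10 := hI1kc n x hxI1
      rw [← hlev1 n] at p10
      set NC : ℝ := (((alive (I2 n) (lev n 1) (zc (lev n 1) x.2)).filter fun s =>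
        (F n).f s (zc (lev n 1) x.2) = (F n).f x.1 (zc (lev n 1) x.2)).card : ℝ) with hNC
      have hvol := (T n).volpos (lev n 1) (F n).a
      have hDv : 0 < (F n).D1 * (T n).vol (lev n 1) (F n).a := mul_pos (hF n).D1p hvol
      have p4 : B.d n ^ (2 * e1) * ((F n).D1 * (T n).vol (lev n 1) (F n).a) ≤ NC := by
        refine le_trans ?_ (h1x.trans p2)
        have e2 : B.d n ^ (2 * e1) = B.d n ^ e1 * B.d n ^ e1 := by rw [← dpow_add]; congr 1; ring
        rw [e2, mul_assoc]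
        refine mul_le_mul_of_nonneg_left ?_ (dpow_pos B n _).le
        refine le_trans ?_ p10
        refine le_trans (mul_le_mul_of_nonneg_right h8.le hDv.le) ?_
        exact mul_le_mul_of_nonneg_left (p3.trans p1) (by norm_num)
      -- the gap
      have p9 : B.d n ^ (-g) * ((F n).D0 * B.d n ^ (g * (u0 : ℝ))) ≤
          B.d n ^ (-e1) * (F n).D1 := by
        have q1 := hgap n
        have e2 : (2 : ℝ) ^ ((g - 1 / ((n : ℝ) + 1)) * (F n).M) =
            B.d n ^ (-((g - 1 / ((n : ℝ) + 1)) * (((F n).M : ℝ) / Mt n))) := by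
          rw [hdp]
          congr 1
          have := (hMtpos n).ne'
          field_simp
        rw [e2] at q1
        have q2 := mul_le_mul_of_nonneg_left q1 (dpow_pos B n (-e1)).le
        refine le_trans ?_ q2
        have e8 : B.d n ^ (-e1) * (B.d n ^ (-((g - 1 / ((n : ℝ) + 1)) * (((F n).M : ℝ) / Mt n))) *
            (F n).D0) = B.d n ^ (-e1 + -((g - 1 / ((n : ℝ) + 1)) * (((F n).M : ℝ) / Mt n))) *
            (F n).D0 := by rw [← mul_assoc, ← dpow_add]
        have e9 : B.d n ^ (-g) * ((F n).D0 * B.d n ^ (g * (u0 : ℝ))) =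
            B.d n ^ (-g + g * (u0 : ℝ)) * (F n).D0 := by
          rw [mul_comm (F n).D0, ← mul_assoc, ← dpow_add]
        rw [e8, e9]
        refine mul_le_mul_of_nonneg_right (dpow_le B n ?_) (hD0 n).le
        nlinarith
      -- conclusion
      have e6 : ampA B (fun n => (F n).D0 * B.d n ^ (g * (u0 : ℝ))) (fun v => g * v) n 1 *
          VV T Ψ lev (fun n => (F n).a) n (lev n 1) (F n).a =
          (B.d n ^ (-g) * ((F n).D0 * B.d n ^ (g * (u0 : ℝ)))) * (T n).vol (lev n 1) (F n).a := by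
        unfold ampA VV capP
        have e7 : rel (lev n 1) (F n).a (lev n 1) (F n).a = fun _ => (0 : ℝ) := by
          funext j; simp [rel]
        rw [e7, sub_self, hΨ0, neg_zero, Real.rpow_zero, mul_one, Rat.cast_one]
        simp only [mul_one]
        ring
      rw [e6]
      have q5 := mul_le_mul_of_nonneg_right p9 hvol.le
      refine q5.trans ?_
      have q6 := mul_le_mul_of_nonneg_left p4 (dpow_pos B n (-(3 * e1))).le
      have q7 : B.d n ^ (-(3 * e1)) *
          (B.d n ^ (2 * e1) * ((F n).D1 * (T n).vol (lev n 1) (F n).a)) =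
          B.d n ^ (-e1) * (F n).D1 * (T n).vol (lev n 1) (F n).a := by
        rw [← mul_assoc, ← dpow_add, ← mul_assoc]; congr 3; ring
      rw [q7] at q6
      refine q6.trans ?_
      refine mul_le_mul_of_nonneg_right (dpow_le B n ?_) (Nat.cast_nonneg _)
      rw [he1]; linarith
  · -- room
    intro v hv0 hv1
    rcases hv1.eq_or_lt with rfl | hv1'
    · refine ⟨0, le_rfl, hu0p, ?_, Eventually.of_forall fun n => ?_⟩
      · rw [Rat.cast_zero, Rat.cast_one]; linarith
      · rw [hlev1, hlevu, hlev0]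
        have h1 := hp1 n
        have h2 := hmb1 n
        have e1 : (F n).m + (F n).M - (F n).m = (F n).M := by omega
        have e2 : (F n).m - mb n = hp n := by omega
        rw [e1, e2]
        exact h1
    · refine room_of hK hSq' hu0p.le hv0 hv1 ?_
      rw [hu0K]
      exact_mod_cast hv1'

end Crest.Agent.R136.Yk953
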