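import Mathlib

/-!
# R136, case (Z2) / (C2) with `σ < q1 / 4`, real analysis (helper57)

* `pos_of_deriv`    : `0 < deriv F x` gives uniform growth to the right of `x`
* `volume_good`     : for `F` monotone, `1`-Lipschitz on `[a, b]` the set of points with positive
                      derivative has measure at least `F b - F a`
* `null_of_density` : a set whose complement has lower right density `≥ γ > 0` at each of its points
                      is null
* `sub_of_ae_deriv` : Lipschitz function with derivative `≤ -Λ` a.e.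
-/

set_option autoImplicit false

open Set Filter Topology MeasureTheory Metric
open scoped NNReal ENNReal

namespace Crest.Agent.R136.Z2H57

/-- growth to the right of a point with positive derivative -/
theorem pos_of_deriv {F : ℝ → ℝ} {x : ℝ} (h : 0 < deriv F x) :
    ∃ c > 0, ∃ h0 > 0, ∀ δ, 0 ≤ δ → δ ≤ h0 → c * δ ≤ F (x + δ) - F x := by
  have hd : DifferentiableAt ℝ F x := by
    by_contra hcon
    rw [deriv_zero_of_not_differentiableAt hcon] at h
    exact lt_irrefl _ h
  have h1 := hd.hasDerivAt.tendsto_slope_zero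
  have h2 : ∀ᶠ t : ℝ in 𝓝[≠] 0, deriv F x / 2 < t⁻¹ • (F (x + t) - F x) :=
    h1.eventually (lt_mem_nhds (by linarith))
  have h3 : ∀ᶠ t : ℝ in 𝓝[>] 0, deriv F x / 2 < t⁻¹ • (F (x + t) - F x) :=
    h2.filter_mono (nhdsWithin_mono _ fun t ht => (ne_of_gt ht))
  obtain ⟨h0, hh0, H⟩ := mem_nhdsGT_iff_exists_Ioo_subset.1 h3
  have hh0 : 0 < h0 := hh0
  refine ⟨deriv F x / 2, by linarith, h0 / 2, by linarith, fun δ h4 h5 => ?_⟩
  rcases h4.eq_or_lt with h6 | h6
  · rw [← h6]; simp
  · have h7 := H ⟨h6, by linarith⟩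
    simp only [mem_ofPred_eq, smul_eq_mul] at h7
    rw [← div_eq_inv_mul, lt_div_iff₀ h6] at h7
    linarith

/-- monotone and `1`-Lipschitz on `[a, b]` -/
def ML (F : ℝ → ℝ) (a b : ℝ) : Prop :=
  ∀ x ∈ Icc a b, ∀ y ∈ Icc a b, x ≤ y → 0 ≤ F y - F x ∧ F y - F x ≤ y - x

theorem ML.lip {F : ℝ → ℝ} {a b : ℝ} (h : ML F a b) : LipschitzOnWith 1 F (Icc a b) := by
  refine LipschitzOnWith.of_dist_le_mul fun x hx y hy => ?_
  rw [Real.dist_eq, Real.dist_eq, NNReal.coe_one, one_mul]
  rcases le_total x y with h1 | h1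
  · have := h x hx y hy h1
    rw [abs_sub_comm, abs_of_nonneg this.1, abs_sub_comm x y, abs_of_nonneg (by linarith)]
    exact this.2
  · have := h y hy x hx h1
    rw [abs_of_nonneg this.1, abs_of_nonneg (by linarith : 0 ≤ x - y)]
    exact this.2

theorem ML.mono {F : ℝ → ℝ} {a b a' b' : ℝ} (h : ML F a b) (h1 : a ≤ a') (h2 : b' ≤ b) :
    ML F a' b' := fun x hx y hy hxy =>
  h x ⟨h1.trans hx.1, hx.2.trans h2⟩ y ⟨h1.trans hy.1, hy.2.trans h2⟩ hxy

/-- points of positive derivative -/
def good (F : ℝ → ℝ) (a b : ℝ) : Set ℝ := {x | x ∈ Ioo a b ∧ 0 < deriv F x}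

theorem measurableSet_good (F : ℝ → ℝ) (a b : ℝ) : MeasurableSet (good F a b) :=
  measurableSet_Ioo.inter ((measurable_deriv F) measurableSet_Ioi)

theorem good_subset (F : ℝ → ℝ) (a b : ℝ) : good F a b ⊆ Ioo a b := fun _ h => h.1

theorem volume_good {F : ℝ → ℝ} {a b : ℝ} (hab : a ≤ b) (h : ML F a b) :
    ENNReal.ofReal (F b - F a) ≤ volume (good F a b) := by
  have hac : AbsolutelyContinuousOnInterval F a b := by
    refine LipschitzOnWith.absolutelyContinuousOnInterval (K := 1) ?_
    rw [uIcc_of_le hab]; exact h.lip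
  have hint := hac.intervalIntegrable_deriv
  have heq := hac.integral_deriv_eq_sub
  have hb1 : ∀ x ∈ Ioo a b, |deriv F x| ≤ 1 := by
    intro x hx
    have h1 : LipschitzOnWith 1 F (Ioo a b) := h.lip.mono Ioo_subset_Icc_self
    have h2 := norm_deriv_le_of_lipschitzOn (isOpen_Ioo.mem_nhds hx) h1
    simpa using h2
  have hfin : volume (good F a b) ≠ ⊤ := by
    have := measure_mono (μ := volume) (good_subset F a b)
    rw [Real.volume_Ioo] at this
    exact ne_top_of_le_ne_top ENNReal.ofReal_ne_top this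
  have h3 : F b - F a ≤ volume.real (good F a b) := by
    rw [← heq, intervalIntegral.integral_of_le hab, integral_Ioc_eq_integral_Ioo]
    have h4 : ∫ x in Ioo a b, deriv F x ≤ ∫ x in Ioo a b, (good F a b).indicator (fun _ => (1:ℝ)) x := by
      refine setIntegral_mono_on ?_ ?_ measurableSet_Ioo fun x hx => ?_
      · have := hint.1
        exact this.mono_set Ioo_subset_Ioc_self
      · refine Integrable.indicator ?_ (measurableSet_good F a b)
        refine integrableOn_const ?_
        rw [Real.volume_Ioo]; exact ENNReal.ofReal_ne_top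
      · by_cases hg : x ∈ good F a b
        · rw [indicator_of_mem hg]
          exact (le_abs_self _).trans (hb1 x hx)
        · rw [indicator_of_notMem hg]
          by_contra hcon
          exact hg ⟨hx, not_le.1 hcon⟩
    refine h4.trans (le_of_eq ?_)
    rw [setIntegral_indicator (measurableSet_good F a b),
      inter_eq_right.2 (good_subset F a b), setIntegral_const, smul_eq_mul, mul_one]
  calc ENNReal.ofReal (F b - F a) ≤ ENNReal.ofReal (volume.real (good F a b)) :=
        ENNReal.ofReal_le_ofReal h3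
    _ = volume (good F a b) := ENNReal.ofReal_toReal hfin

/-- **density lemma** (`N` arbitrary) -/
theorem null_of_density {N : Set ℝ} {γ : ℝ} (hγ : 0 < γ)
    (H : ∀ x ∈ N, ∃ h1 > 0, ∀ h, 0 < h → h < h1 → ∃ M : Set ℝ, MeasurableSet M ∧
      M ⊆ Ioo x (x + h) ∧ Disjoint M N ∧ ENNReal.ofReal (γ * h) ≤ volume M) :
    volume N = 0 := by
  have h0 := Besicovitch.ae_tendsto_measure_inter_div (volume : Measure ℝ) N
  have h1 := ae_imp_of_ae_restrict h0
  have h2 : ∀ᵐ x : ℝ, x ∉ N := by
    filter_upwards [h1] with x hx hxN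
    have h3 := hx hxN
    obtain ⟨h1, hh1, Hx⟩ := H x hxN
    have h4 : ∀ᶠ r : ℝ in 𝓝[>] 0, volume (N ∩ closedBall x r) / volume (closedBall x r) ≤
        ENNReal.ofReal (1 - γ / 2) := by
      filter_upwards [Ioo_mem_nhdsGT hh1] with r hr
      obtain ⟨M, hM, hMs, hMN, hMv⟩ := Hx r hr.1 hr.2
      have h5 : N ∩ closedBall x r ⊆ closedBall x r \ M := by
        rintro y ⟨hy1, hy2⟩
        exact ⟨hy2, fun hy3 => (Set.disjoint_left.1 hMN hy3) hy1⟩
      have h6 : M ⊆ closedBall x r := by
        intro y hy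
        have := hMs hy
        rw [Real.closedBall_eq_Icc]
        exact ⟨by linarith [this.1, hr.1], this.2.le⟩
      have hMfin : volume M ≠ ⊤ := by
        refine ne_top_of_le_ne_top ?_ (measure_mono h6)
        rw [Real.volume_closedBall]; exact ENNReal.ofReal_ne_top
      have h7 : volume (N ∩ closedBall x r) ≤ ENNReal.ofReal (2 * r) - ENNReal.ofReal (γ * r) := by
        refine (measure_mono h5).trans ?_
        rw [measure_sdiff h6 hM.nullMeasurableSet hMfin, Real.volume_closedBall]
        exact tsub_le_tsub_left hMv _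
      rw [Real.volume_closedBall]
      have hr0 : 0 < 2 * r := by linarith [hr.1]
      rw [ENNReal.div_le_iff (by simpa using hr0) ENNReal.ofReal_ne_top]
      refine h7.trans ?_
      rw [← ENNReal.ofReal_sub _ (by nlinarith [hr.1] : 0 ≤ γ * r)]
      by_cases hγ2 : 0 ≤ 1 - γ / 2
      · rw [← ENNReal.ofReal_mul hγ2]
        refine ENNReal.ofReal_le_ofReal ?_
        nlinarith
      · have : 2 * r - γ * r ≤ 0 := by nlinarith [hr.1]
        rw [ENNReal.ofReal_of_nonpos this]
        exact bot_le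
    have h8 := le_of_tendsto h3 h4
    rw [← ENNReal.ofReal_one, ENNReal.ofReal_le_ofReal_iff'] at h8
    rcases h8 with h8 | h8 <;> linarith
  rw [ae_iff] at h2
  simpa using h2

/-- Lipschitz on `[a, b]`, derivative `≤ -Λ` a.e. -/
theorem sub_of_ae_deriv {F : ℝ → ℝ} {a b Λ : ℝ} {K : ℝ≥0} (hab : a ≤ b)
    (h : LipschitzOnWith K F (Icc a b))
    (hd : ∀ᵐ x : ℝ, x ∈ Ioo a b → ∃ s : ℝ, HasDerivAt F s x ∧ s ≤ -Λ) :
    F b - F a ≤ -(Λ * (b - a)) := by
  have hac : AbsolutelyContinuousOnInterval F a b := by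
    refine LipschitzOnWith.absolutelyContinuousOnInterval (K := K) ?_
    rw [uIcc_of_le hab]; exact h
  have hint := hac.intervalIntegrable_deriv
  rw [← hac.integral_deriv_eq_sub, intervalIntegral.integral_of_le hab,
    integral_Ioc_eq_integral_Ioo]
  have h4 : ∫ x in Ioo a b, deriv F x ≤ ∫ _ in Ioo a b, (-Λ) := by
    refine setIntegral_mono_on_ae ?_ ?_ measurableSet_Ioo ?_
    · have := hint.1
      exact this.mono_set Ioo_subset_Ioc_self
    · refine integrableOn_const ?_
      rw [Real.volume_Ioo]; exact ENNReal.ofReal_ne_top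
    · filter_upwards [hd] with x hx hx2
      obtain ⟨s, hs1, hs2⟩ := hx hx2
      rw [hs1.deriv]; exact hs2
  refine h4.trans (le_of_eq ?_)
  rw [setIntegral_const, smul_eq_mul, Measure.real, Real.volume_Ioo,
    ENNReal.toReal_ofReal (by linarith)]
  ring

end Crest.Agent.R136.Z2H57
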