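import Crest.Agent.R136.Z2a_403

/-!
# R136: the heavy strip in the form `P - lam C_a = const` (helper403)

`strip_lam_R` : `strip_alt_R` + loss of the slot `V 0` at the class (`ν (pC y) < ν pS`) ⊢ one `lam`,
`|lam| ≤ ρ^(-δ)`, with `|(V 1 i - V 1 i1) - lam (V 0 i - V 0 i1)| ≤ ρ^(t - δ)` on a `ρ^δ`-part of the
class.
-/

set_option autoImplicit false
set_option linter.unusedVariables false

open Filter Topology Finset

namespace Crest.Agent.R136.Ful403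

open Crest.Agent.R138.Ex926 (Base U)
open Crest.Agent.R136.Gf356

variable {κ : Type} {B : Base} {G : ℕ → RCfg κ} {Leg : Set (κ → ℝ)} {ν : (κ → ℝ) → ℝ} {D : ℝ}

set_option maxHeartbeats 1000000 in
/-- **heavy strip, slope form.** -/
theorem strip_lam_R (hKM : ∀ V : ℝ, Crest.Agent.R138.Tub70.KM32 V) (H : RUnif B G Leg ν D)
    (i0 k0 : ℕ → ℕ)
    (h0 : ∀ᶠ n in (U : Filter ℕ), (i0 n, k0 n) ∈ (G n).I) (pS pT r Qc Qf : κ → ℝ)
    (hpS : pS ∈ Leg) (hpT : pT ∈ Leg) (hr : r ∈ Leg) (hQc : Qc ∈ Leg) (hQf : Qf ∈ Leg)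
    (hTr : ∀ j, pT j ≤ r j) (hSQ : ∀ j, pS j ≤ Qc j) {x t : ℝ}
    (hx : 0 < x)
    (F : ℕ → ℕ → ℕ → Fin 2 → ℝ) (A V : ℕ → ℕ → Fin 2 → ℝ) (φ : ℕ → ℕ → ℝ) (Zg : ℕ → Finset ℕ)
    (hZg : ∀ᶠ n in (U : Filter ℕ), (Zg n).Nonempty) {C1 : ℝ} (hC1 : 0 < C1)
    (hφ : ∀ ε : ℝ, 0 < ε → ∀ᶠ n in (U : Filter ℕ), ∀ k ∈ Zg n, |φ n k| ≤ B.d n ^ (-(C1 * ε)))
    (hA : ∀ ε : ℝ, 0 < ε → ∀ᶠ n in (U : Filter ℕ), ∀ i ∈ (G n).box pS ε (i0 n) (k0 n),
      ∀ i' ∈ (G n).box pS ε (i0 n) (k0 n), ∀ a, |A n i' a - A n i a| ≤ B.d n ^ (-(C1 * ε)))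
    (hV : ∀ ε : ℝ, 0 < ε → ∀ᶠ n in (U : Filter ℕ), ∀ i ∈ (G n).box pS ε (i0 n) (k0 n),
      ∀ i' ∈ (G n).box pS ε (i0 n) (k0 n), ∀ a, |V n i' a - V n i a| ≤ B.d n ^ (-(C1 * ε)))
    (hF : ∀ ε : ℝ, 0 < ε → ∀ᶠ n in (U : Filter ℕ), ∀ k ∈ Zg n,
      ∀ i ∈ (G n).box pS ε (i0 n) (k0 n), (i, k) ∈ (G n).I →
      ∀ i' ∈ (G n).box pS ε (i0 n) (k0 n), (i', k) ∈ (G n).I → ∀ a,
      |F n k i' a - F n k i a - ((A n i' a - A n i a) + φ n k * (V n i' a - V n i a))|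
        ≤ B.d n ^ (x - C1 * ε))
    (hlink : ∀ ε : ℝ, 0 < ε → ∀ᶠ n in (U : Filter ℕ), ∀ k ∈ Zg n,
      ∀ i ∈ (G n).box pS ε (i0 n) (k0 n), (i, k) ∈ (G n).I → ∀ l, (l, k) ∈ (G n).I →
      (G n).loose r ε k i l → ∀ a, |F n k l a - F n k i a| ≤ B.d n ^ (x - C1 * ε))
    (hT : ∀ ε : ℝ, 0 < ε → ∀ᶠ n in (U : Filter ℕ), ∀ k ∈ Zg n,
      ∀ i ∈ (G n).box pS ε (i0 n) (k0 n), ∀ i' ∈ (G n).box pS ε (i0 n) (k0 n),
      (i, k) ∈ (G n).I → (i', k) ∈ (G n).I → (G n).loose pT (C1 * ε) k i i')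
    (hal : ∀ ε : ℝ, 0 < ε → ∀ᶠ n in (U : Filter ℕ), ∀ i ∈ (G n).box pS ε (i0 n) (k0 n),
      ∀ T ⊆ Zg n, (∀ k ∈ Zg n, (i, k) ∈ (G n).I → k ∈ T) →
      B.d n ^ (C1 * ε) * ((Zg n).card : ℝ) ≤ (T.card : ℝ))
    (hfr : ∀ y : ℝ, 0 ≤ y → y ≤ x → ∀ ε : ℝ, 0 < ε → ∀ᶠ n in (U : Filter ℕ), ∀ k ∈ Zg n,
      ∀ T ⊆ Zg n, (∀ k' ∈ T, |φ n k' - φ n k| ≤ B.d n ^ y) →
      (T.card : ℝ) ≤ B.d n ^ (y - ε) * ((Zg n).card : ℝ))
    (hqf : ∀ C3 : ℝ, 0 < C3 → ∃ C4 : ℝ, 0 < C4 ∧ ∀ ε : ℝ, 0 < ε → ∀ᶠ n in (U : Filter ℕ),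
      ∀ k ∈ Zg n, ∀ i ∈ (G n).box pS ε (i0 n) (k0 n), (i, k) ∈ (G n).I →
      ∀ i' ∈ (G n).box pS ε (i0 n) (k0 n), (i', k) ∈ (G n).I →
      (∀ a, |F n k i' a - F n k i a| ≤ B.d n ^ (x - C3 * ε)) →
      (∀ a, |V n i' a - V n i a| ≤ B.d n ^ (t - C3 * ε)) → (G n).loose Qf (C4 * ε) k i i')
    (hql : ∀ ε : ℝ, 0 < ε → ∀ᶠ n in (U : Filter ℕ), ∀ i ∈ (G n).box pS ε (i0 n) (k0 n),
      ∀ l, (l, k0 n) ∈ (G n).I → (G n).loose Qc ε (k0 n) i l → ∀ a,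
      |V n l a - V n i a| ≤ B.d n ^ (t - C1 * ε))
    (hprod : ν pS - ν Qc ≤ ν r - ν Qf) (hsize : ν pT ≤ ν pS)
    (hnf : (ν pT - ν r) + 2 * t < 2 * x) (ht : 0 < t)
    (pC : ℝ → κ → ℝ) {y0 : ℝ} (hy0 : 0 < y0)
    (hpC : ∀ y : ℝ, 0 < y → y ≤ y0 → pC y ∈ Leg ∧ ν (pC y) < ν pS)
    (hCl : ∀ y : ℝ, 0 < y → y ≤ y0 → ∀ ε : ℝ, 0 < ε → ∀ᶠ n in (U : Filter ℕ),
      ∀ i ∈ (G n).box pS ε (i0 n) (k0 n), ∀ i' ∈ (G n).box pS ε (i0 n) (k0 n),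
      |V n i' 0 - V n i 0| ≤ B.d n ^ y → (G n).loose (pC y) (C1 * ε) (k0 n) i i')
    {δ : ℝ} (hδ : 0 < δ) :
    ∃ ε0 : ℝ, 0 < ε0 ∧ ∀ ε : ℝ, 0 < ε → ε ≤ ε0 → ∀ᶠ n in (U : Filter ℕ),
      ∃ lam : ℝ, |lam| ≤ B.d n ^ (-δ) ∧ ∃ i1 ∈ (G n).box pS ε (i0 n) (k0 n),
      ∃ T ⊆ (G n).box pS ε (i0 n) (k0 n),
        (∀ i ∈ T, |(V n i 1 - V n i1 1) - lam * (V n i 0 - V n i1 0)| ≤ B.d n ^ (t - δ)) ∧
        B.d n ^ δ * (((G n).box pS ε (i0 n) (k0 n)).card : ℝ) ≤ (T.card : ℝ) := by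
  classical
  have hD := H.D1
  have hD0 : 0 < D := by linarith
  set y : ℝ := min y0 (min (t / 4) (δ / 8)) with hy
  have hyp : 0 < y := lt_min hy0 (lt_min (by positivity) (by positivity))
  have hy1 : y ≤ y0 := min_le_left _ _
  have hy2 : y ≤ t / 4 := (min_le_right _ _).trans (min_le_left _ _)
  have hy3 : y ≤ δ / 8 := (min_le_right _ _).trans (min_le_right _ _)
  obtain ⟨hLC, hlt⟩ := hpC y hyp hy1
  set c : ℝ := ν pS - ν (pC y) with hc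
  have hc0 : 0 < c := by rw [hc]; linarith
  set δ1 : ℝ := min (δ / 4) (min (t / 4) (c / 4)) with hδ1
  have hδ1p : 0 < δ1 := lt_min (by positivity) (lt_min (by positivity) (by positivity))
  have hd1 : δ1 ≤ δ / 4 := min_le_left _ _
  have hd2 : δ1 ≤ t / 4 := (min_le_right _ _).trans (min_le_left _ _)
  have hd3 : δ1 ≤ c / 4 := (min_le_right _ _).trans (min_le_right _ _)
  have key := strip_alt_R hKM H i0 k0 h0 pS pT r Qc Qf hpS hpT hr hQc hQf hTr hSQ hx F A V φ Zg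
    hZg hC1 hφ hA hV hF hlink hT hal hfr hqf hql hprod hsize hnf hδ1p
  have hq : 0 < 8 * (1 + D * C1) := by positivity
  refine ⟨min (δ1 / (2 * D)) (min (δ / (8 * C1)) (c / (4 * (1 + D * C1)))),
    lt_min (by positivity) (lt_min (by positivity) (by positivity)), fun ε hε hle => ?_⟩
  have he1 : ε ≤ δ1 / (2 * D) := hle.trans (min_le_left _ _)
  have he2 : ε ≤ δ / (8 * C1) := (hle.trans (min_le_right _ _)).trans (min_le_left _ _)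
  have he3 : ε ≤ c / (4 * (1 + D * C1)) := (hle.trans (min_le_right _ _)).trans (min_le_right _ _)
  have he2' : C1 * ε ≤ δ / 8 := by
    rw [le_div_iff₀ (by positivity)] at he2
    linarith
  have he3' : (1 + D * C1) * ε ≤ c / 4 := by
    rw [le_div_iff₀ (by positivity)] at he3
    linarith
  filter_upwards [key ε hε he1, hCl y hyp hy1 ε hε, H.up (pC y) hLC (C1 * ε) (by positivity),
    H.low pS hpS ε hε, h0, ev_const_le B (t := t / 2) (by positivity) 4,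
    ev_const_le B (t := δ / 4) (by positivity) 4, ev_const_le B (t := δ / 2) (by positivity) 2,
    hV ε hε] with n h1 h2 h3 h4 h5 h6 h7 h8 h9
  have hpow : ∀ s : ℝ, 0 < B.d n ^ s := fun s => rpos B n s
  obtain ⟨b, hb, i1, hi1, T, hTs, hstrip, hcard⟩ := h1
  have hcard' : B.d n ^ δ * (((G n).box pS ε (i0 n) (k0 n)).card : ℝ) ≤ (T.card : ℝ) := by
    refine le_trans (mul_le_mul_of_nonneg_right ?_ (Nat.cast_nonneg _)) hcard
    exact rpow_anti B n (by linarith)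
  rcases le_or_gt (B.d n ^ (δ / 2)) |b 1| with hbig | hsmall
  · have hb1 : 0 < |b 1| := lt_of_lt_of_le (hpow _) hbig
    have hb1' : b 1 ≠ 0 := abs_pos.1 hb1
    have hb0 : |b 0| ≤ 1 := by
      rw [← sq_le_one_iff_abs_le_one]; nlinarith [sq_nonneg (b 1)]
    have hinv : 1 / |b 1| ≤ B.d n ^ (-(δ / 2)) := by
      rw [Real.rpow_neg (B.pos n).le, one_div]
      exact inv_anti₀ (hpow _) hbig
    refine ⟨-(b 0) / b 1, ?_, i1, hi1, T, hTs, ?_, hcard'⟩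
    · rw [abs_div, abs_neg]
      calc |b 0| / |b 1| ≤ 1 / |b 1| := by gcongr
        _ ≤ B.d n ^ (-(δ / 2)) := hinv
        _ ≤ B.d n ^ (-δ) := rpow_anti B n (by linarith)
    · intro i hi
      have h10 := hstrip i hi
      have e1 : (V n i 1 - V n i1 1) - -(b 0) / b 1 * (V n i 0 - V n i1 0) =
          (b 0 * (V n i 0 - V n i1 0) + b 1 * (V n i 1 - V n i1 1)) / b 1 := by
        field_simp; ring
      rw [e1, abs_div]
      calc |b 0 * (V n i 0 - V n i1 0) + b 1 * (V n i 1 - V n i1 1)| / |b 1|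
          = |b 0 * (V n i 0 - V n i1 0) + b 1 * (V n i 1 - V n i1 1)| * (1 / |b 1|) := by
            rw [mul_one_div]
        _ ≤ B.d n ^ (t - δ1) * B.d n ^ (-(δ / 2)) :=
            mul_le_mul h10 hinv (by positivity) (hpow _).le
        _ = B.d n ^ (t - δ1 - δ / 2) := by rw [← rpow_add']; congr 1
        _ ≤ B.d n ^ (t - δ) := rpow_anti B n (by linarith)
  · -- the strip bounds `V 0`
    exfalso
    have hr1 : B.d n ^ (δ / 2) ≤ 1 / 2 := by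
      have e1 : B.d n ^ (δ / 2) * B.d n ^ (-(δ / 2)) = 1 := by
        rw [← rpow_add', add_neg_cancel, Real.rpow_zero]
      nlinarith [hpow (δ / 2)]
    have hb1s : b 1 ^ 2 ≤ 1 / 4 := by
      have := abs_nonneg (b 1)
      rw [← sq_abs]
      nlinarith
    have hb0 : 1 / 2 ≤ |b 0| := by
      by_contra hcon
      push Not at hcon
      have := abs_nonneg (b 0)
      have h11 : b 0 ^ 2 < 1 / 4 := by rw [← sq_abs]; nlinarith
      linarith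
    have hsub : T ⊆ (G n).box (pC y) (C1 * ε) i1 (k0 n) := by
      intro i hi
      have hiS := hTs hi
      refine RCfg.mem_box.2 ⟨(RCfg.mem_box.1 hiS).1, h2 i1 hi1 i hiS ?_⟩
      have g1 := hstrip i hi
      have g2 := h9 i1 hi1 i hiS 1
      have g3 : |b 0 * (V n i 0 - V n i1 0)| ≤ B.d n ^ (t - δ1) +
          B.d n ^ (δ / 2) * B.d n ^ (-(C1 * ε)) := by
        have e1 : b 0 * (V n i 0 - V n i1 0) =
            (b 0 * (V n i 0 - V n i1 0) + b 1 * (V n i 1 - V n i1 1)) -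
              b 1 * (V n i 1 - V n i1 1) := by ring
        rw [e1]
        refine (abs_sub _ _).trans (add_le_add g1 ?_)
        rw [abs_mul]
        exact mul_le_mul hsmall.le g2 (abs_nonneg _) (hpow _).le
      rw [abs_mul] at g3
      have g4 : |V n i 0 - V n i1 0| ≤ 2 * (B.d n ^ (t - δ1) +
          B.d n ^ (δ / 2) * B.d n ^ (-(C1 * ε))) := by
        have := abs_nonneg (V n i 0 - V n i1 0)
        nlinarith
      have g5 : 4 * B.d n ^ (t - δ1) ≤ B.d n ^ y := by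
        calc 4 * B.d n ^ (t - δ1) ≤ B.d n ^ (-(t / 2)) * B.d n ^ (t - δ1) :=
              mul_le_mul_of_nonneg_right h6 (hpow _).le
          _ = B.d n ^ (-(t / 2) + (t - δ1)) := by rw [← rpow_add']
          _ ≤ B.d n ^ y := rpow_anti B n (by linarith)
      have g6 : 4 * (B.d n ^ (δ / 2) * B.d n ^ (-(C1 * ε))) ≤ B.d n ^ y := by
        calc 4 * (B.d n ^ (δ / 2) * B.d n ^ (-(C1 * ε))) ≤
              B.d n ^ (-(δ / 4)) * (B.d n ^ (δ / 2) * B.d n ^ (-(C1 * ε))) :=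
              mul_le_mul_of_nonneg_right h7 (mul_pos (hpow _) (hpow _)).le
          _ = B.d n ^ (-(δ / 4) + (δ / 2 + -(C1 * ε))) := by rw [← rpow_add', ← rpow_add']
          _ ≤ B.d n ^ y := rpow_anti B n (by linarith)
      linarith
    have hi1I : (i1, k0 n) ∈ (G n).I := H.memSlice.1 (RCfg.mem_box.1 hi1).1
    have g1 : (T.card : ℝ) ≤ B.d n ^ (-ν (pC y) - D * (C1 * ε)) := by
      refine le_trans ?_ (h3 i1 (k0 n) hi1I)
      exact_mod_cast Finset.card_le_card hsub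
    have g2 := h4 (i0 n) (k0 n) h5
    have g3 : B.d n ^ (δ1 + (-ν pS + ε)) ≤ B.d n ^ (-ν (pC y) - D * (C1 * ε)) := by
      rw [rpow_add']
      exact (mul_le_mul_of_nonneg_left g2 (hpow _).le).trans (hcard.trans g1)
    have g4 := (Real.rpow_le_rpow_left_iff_of_base_lt_one (B.pos n) (B.lt n)).1 g3
    have g5 : D * (C1 * ε) = D * C1 * ε := by ring
    rw [hc] at hd3 he3' hc0
    nlinarith

end Crest.Agent.R136.Ful403
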