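import Crest.Agent.R136.Net4_186
import Crest.Agent.R136.Net2_191
import Crest.Agent.R136.Z2a_57

/-!
# R136, case (Z2') = (C2z) of the thick table, scalar half, part 1 (helper57)

Only `32` tied, `θ 2 < q1 / 4 * θ 1` (in particular `θ 2 ≤ 0`).  Slots of `186`:
`0 z, 1 R, 2 E, 3 F_b, 4 F_a, 5 C_a, 6 C_b, 7 P, 8 X_a, 9 X_b, 10 N`.

`nt` = `NatT550.nat4`.  `xx v t y` = natural box `(v; t, σ t + y, κ v + σ t + y)`.

* `S1`, `S2` : uniform sweeps of `C_a`, resp. of `C_b` together with `E`, at a box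
* `Dat` : profile, local D-max and record value near one part of the record line
-/

set_option autoImplicit false
set_option linter.unusedVariables false

open Set Filter Topology MeasureTheory

namespace Crest.Agent.R136.Z2H57

open Crest.Agent.R136.Net191
open Crest.Agent.R136.NetQ186

/-- natural box (literally `NatT550.nat4`) -/
def nt (w0 R v t1 t2 t3 : ℝ) : Fin 11 → ℝ :=
  ![w0 + v, R, w0 + (t2 - t1), w0 + (t3 - t2), 2 * w0 + (t3 - t1), w0 + t1, 2 * w0 + t2,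
    3 * w0 + t3, 2 * w0 + (v + t1), 3 * w0 + (v + t2), 4 * w0 + (v + t3)]

/-- direction `C_a` -/
def uC : Fin 11 → ℝ := ![0, 0, 0, 0, 0, 1, 0, 0, 0, 0, 0]

/-- direction `C_b + E` -/
def uB : Fin 11 → ℝ := ![0, 0, 1, 0, 0, 0, 1, 0, 0, 0, 0]

/-- profile facts -/
structure Prf (ν : (Fin 11 → ℝ) → ℝ) (R : ℝ) : Prop where
  lip : ∀ p ∈ Leg monQ R, ∀ q ∈ Leg monQ R, p ≤ q → 0 ≤ ν p - ν q ∧ ν p - ν q ≤ ∑ k, (q k - p k)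
  sub : ∀ p ∈ Leg monQ R, ∀ q ∈ Leg monQ R, p ⊓ q ∈ Leg monQ R → ν p + ν q ≤ ν (p ⊔ q) + ν (p ⊓ q)

section

variable {ν : (Fin 11 → ℝ) → ℝ} {R : ℝ}

/-- increments are antitone -/
theorem Prf.inc (H : Prf ν R) {p q d : Fin 11 → ℝ} (hp : p ∈ Leg monQ R) (hq : q ∈ Leg monQ R)
    (hpd : p + d ∈ Leg monQ R) (h0 : ∀ k, 0 ≤ d k) (hpq : p ≤ q)
    (he : ∀ k, d k = 0 ∨ p k = q k) : ν q - ν (q + d) ≤ ν p - ν (p + d) := by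
  have e1 : (p + d) ⊓ q = p := by
    funext k
    simp only [Pi.inf_apply, Pi.add_apply]
    rcases he k with h | h
    · rw [h, add_zero]; exact inf_eq_left.2 (hpq k)
    · rw [h]; exact inf_eq_right.2 (by linarith [h0 k])
  have e2 : (p + d) ⊔ q = q + d := by
    funext k
    simp only [Pi.sup_apply, Pi.add_apply]
    rcases he k with h | h
    · rw [h, add_zero, add_zero]; exact sup_eq_right.2 (hpq k)
    · rw [h]; exact sup_eq_left.2 (by linarith [h0 k])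
  have := H.sub (p + d) hpd q hq (by rw [e1]; exact hp)
  rw [e1, e2] at this
  linarith

/-- positive rate of `C_a` at a box -/
def Pos (ν : (Fin 11 → ℝ) → ℝ) (p : Fin 11 → ℝ) : Prop :=
  ∃ c > 0, ∃ h0 > 0, ∀ δ, 0 ≤ δ → δ ≤ h0 → c * δ ≤ ν p - ν (p + δ • uC)

/-- **uniform sweep of `C_a`** near the box `p` -/
def S1 (ν : (Fin 11 → ℝ) → ℝ) (R : ℝ) (p : Fin 11 → ℝ) : Prop :=
  ∃ c > 0, ∃ h0 > 0, ∀ d : Fin 11 → ℝ, (∀ k, |d k| ≤ h0) → d 5 = 0 → ∀ δ, 0 ≤ δ → δ ≤ h0 →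
    p + d ∈ Leg monQ R → p + d + δ • uC ∈ Leg monQ R → c * δ ≤ ν (p + d) - ν (p + d + δ • uC)

/-- **uniform joint sweep of `C_b` and `E`** near the box `p` -/
def S2 (ν : (Fin 11 → ℝ) → ℝ) (R : ℝ) (p : Fin 11 → ℝ) : Prop :=
  ∃ c > 0, ∃ h0 > 0, ∀ d : Fin 11 → ℝ, (∀ k, |d k| ≤ h0) → d 2 = 0 → d 6 = 0 → d 5 ≤ 0 →
    ∀ δ, 0 ≤ δ → δ ≤ h0 → p + d ∈ Leg monQ R → p + d + δ • uB ∈ Leg monQ R →
      c * δ ≤ ν (p + d) - ν (p + d + δ • uB)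

/-- exponent of D-max of a natural box -/
def En (g s : ℝ) (q : Fin 3 → ℝ) (v t1 t2 t3 : ℝ) : ℝ :=
  g * v + (1 - s) * (1 - v) - (v + t3) - (v + t2) - (v + t1) - q 0 * t3 - q 1 * t1 - q 2 * t2

/-- local data near a part of the record line `t_j = - θ_j v`, `va < v < vb`.  The record boxes have
`R` in the slot `1`, the boxes of the windows `Rs < R`. -/
structure Dat (ν : (Fin 11 → ℝ) → ℝ) (R Rs w0 : ℝ) (θ : Fin 3 → ℝ) (g s c₀ : ℝ) (q : Fin 3 → ℝ)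
    (va vb η : ℝ) : Prop where
  prf : Prf ν R
  η0 : 0 < η
  vab : va < vb
  Rs0 : η ≤ Rs
  RsR : Rs + η ≤ R
  lo : ∀ v ∈ Ioo va vb, ∀ t1 t2 t3 : ℝ, |t1 + θ 1 * v| ≤ η → |t2 + θ 2 * v| ≤ η →
    |t3 + θ 0 * v| ≤ η → ∀ k, η ≤ nt w0 Rs v t1 t2 t3 k
  hi : ∀ v ∈ Ioo va vb, ∀ t1 t2 t3 : ℝ, |t1 + θ 1 * v| ≤ η → |t2 + θ 2 * v| ≤ η →
    |t3 + θ 0 * v| ≤ η → ∀ k, nt w0 Rs v t1 t2 t3 k + η ≤ R
  pw : ∀ v ∈ Ioo va vb, ∀ t3 : ℝ, |t3 + θ 0 * v| ≤ η → 3 * w0 + t3 + η ≤ w0 + v + Rs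
  dmax : ∀ v ∈ Ioo va vb, ∀ t1 t2 t3 : ℝ, |t1 + θ 1 * v| ≤ η → |t2 + θ 2 * v| ≤ η →
    |t3 + θ 0 * v| ≤ η → (∃ v' ∈ Ioo va vb, v + t3 ≤ (1 - θ 0) * v') →
      ν (nt w0 Rs v t1 t2 t3) ≤ c₀ + En g s q v t1 t2 t3
  rcd : ∀ v ∈ Ioo va vb, c₀ + En g s q v (-(θ 1 * v)) (-(θ 2 * v)) (-(θ 0 * v)) ≤
    ν (nt w0 R v (-(θ 1 * v)) (-(θ 2 * v)) (-(θ 0 * v)))

/-- legality of a small modification of a natural box; slot `1` is `Rs` or `R` -/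
theorem leg_add {w0 Rs Rt v t1 t2 t3 η : ℝ} {d : Fin 11 → ℝ}
    (lo : ∀ k, η ≤ nt w0 Rs v t1 t2 t3 k) (hi : ∀ k, nt w0 Rs v t1 t2 t3 k + η ≤ R)
    (pw : 3 * w0 + t3 + η ≤ w0 + v + Rs) (hRt : Rs ≤ Rt) (hRt' : Rt + d 1 ≤ R)
    (hd : ∀ k, |d k| ≤ η) (hd7 : d 7 ≤ d 0 + d 1 + η)
    (h4 : d 4 ≤ d 2 + d 3) (h6 : d 6 ≤ d 2 + d 5) (h7 : d 7 ≤ d 4 + d 5) (h7' : d 7 ≤ d 3 + d 6)
    (h8 : d 8 ≤ d 0 + d 5) (h9 : d 9 ≤ d 0 + d 6) (h9' : d 9 ≤ d 2 + d 8)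
    (h10 : d 10 ≤ d 0 + d 7) (h10' : d 10 ≤ d 4 + d 8) (h10'' : d 10 ≤ d 3 + d 9) :
    nt w0 Rt v t1 t2 t3 + d ∈ Leg monQ R := by
  have hk : ∀ k : Fin 11, k ≠ 1 → nt w0 Rt v t1 t2 t3 k = nt w0 Rs v t1 t2 t3 k := by
    intro k hk
    fin_cases k <;> first | rfl | exact absurd rfl hk
  have e1 : nt w0 Rt v t1 t2 t3 1 = Rt := rfl
  have e2 : nt w0 Rs v t1 t2 t3 1 = Rs := rfl
  refine ⟨?_, fun k => ?_⟩
  · rw [legalQ_iff]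
    refine ⟨fun k => ?_, ?_, ?_, ?_, ?_, ?_, ?_, ?_, ?_, ?_, ?_, ?_⟩
    · have h1 := lo k
      have h2 := neg_le_of_abs_le (hd k)
      rw [Pi.add_apply]
      by_cases hk1 : k = 1
      · subst hk1; rw [e1]; rw [e2] at h1; linarith
      · rw [hk k hk1]; linarith
    all_goals
      simp only [Pi.add_apply, nt, Matrix.cons_val]
      linarith
  · have h1 := hi k
    have h2 := le_of_abs_le (hd k)
    rw [Pi.add_apply]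
    by_cases hk1 : k = 1
    · subst hk1; rw [e1]; exact hRt'
    · rw [hk k hk1]; linarith

end

end Crest.Agent.R136.Z2H57
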