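import Crest.Agent.R136.Z2b_57

/-!
# R136, case (Z2') = (C2z), scalar half, part 2 (helper57): sweeps

`xx w0 Rt θ v t y` : natural box `(v; t, σ t + y, κ v + σ t + y)`, `σ = θ 2 / θ 1`, `κ = θ 2 - θ 0`.
Record: `v = - t / θ 1`, `y = 0`.

* `Dat.pos_ae` : for every `v` and almost every `t` below the record, `C_a` has positive rate at
  `xx v t y` for some (hence all) small `y`
* `Dat.s1`, `Dat.s2` : the uniform sweeps
-/

set_option autoImplicit false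
set_option linter.unusedVariables false

open Set Filter Topology MeasureTheory

namespace Crest.Agent.R136.Z2H57

open Crest.Agent.R136.Net191
open Crest.Agent.R136.NetQ186

/-- the natural boxes of the plane -/
noncomputable def xx (w0 Rt : ℝ) (θ : Fin 3 → ℝ) (v t y : ℝ) : Fin 11 → ℝ :=
  nt w0 Rt v t (θ 2 / θ 1 * t + y) ((θ 2 - θ 0) * v + (θ 2 / θ 1 * t + y))

section

variable {ν : (Fin 11 → ℝ) → ℝ} {R Rs w0 : ℝ} {θ : Fin 3 → ℝ} {g s c₀ : ℝ} {q : Fin 3 → ℝ}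
  {va vb η : ℝ}

/-- size of the slopes -/
def Th (θ : Fin 3 → ℝ) : ℝ := θ 1 + |θ 2| + 1

/-- the boxes of the plane are near the record line -/
theorem near_xx (h1 : 0 < θ 1) {v t y : ℝ} (hv : Th θ * |v - -t / θ 1| ≤ η / 2)
    (hy : |y| ≤ η / 2) :
    |t + θ 1 * v| ≤ η ∧ |θ 2 / θ 1 * t + y + θ 2 * v| ≤ η ∧
      |(θ 2 - θ 0) * v + (θ 2 / θ 1 * t + y) + θ 0 * v| ≤ η := by
  have e1 : t + θ 1 * v = θ 1 * (v - -t / θ 1) := by field_simp; ring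
  have e2 : θ 2 / θ 1 * t + y + θ 2 * v = θ 2 * (v - -t / θ 1) + y := by field_simp; ring
  have e3 : (θ 2 - θ 0) * v + (θ 2 / θ 1 * t + y) + θ 0 * v = θ 2 * (v - -t / θ 1) + y := by
    rw [← e2]; ring
  set w := v - -t / θ 1 with hw
  have hw0 := abs_nonneg w
  have h2 := abs_nonneg (θ 2)
  have hη : 0 ≤ η / 2 := (abs_nonneg y).trans hy
  unfold Th at hv
  have b1 : θ 1 * |w| ≤ η / 2 := by nlinarith
  have b2 : |θ 2| * |w| ≤ η / 2 := by nlinarith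
  refine ⟨?_, ?_, ?_⟩
  · rw [e1, abs_mul, abs_of_pos h1]; linarith
  · rw [e2]
    refine (abs_add_le _ _).trans ?_
    rw [abs_mul]; linarith
  · rw [e3]
    refine (abs_add_le _ _).trans ?_
    rw [abs_mul]; linarith

theorem xx_rec (h1 : 0 < θ 1) (t : ℝ) : ∀ Rt : ℝ, xx w0 Rt θ (-t / θ 1) t 0 =
    nt w0 Rt (-t / θ 1) (-(θ 1 * (-t / θ 1))) (-(θ 2 * (-t / θ 1))) (-(θ 0 * (-t / θ 1))) := by
  intro Rt
  have e1 : -(θ 1 * (-t / θ 1)) = t := by field_simp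
  have e2 : -(θ 2 * (-t / θ 1)) = θ 2 / θ 1 * t + 0 := by field_simp; ring
  have e3 : -(θ 0 * (-t / θ 1)) = (θ 2 - θ 0) * (-t / θ 1) + (θ 2 / θ 1 * t + 0) := by
    rw [← e2]; ring
  rw [e1, e3, e2]; rfl

/-- exponent of D-max in the plane -/
noncomputable def Ex (g s : ℝ) (q θ : Fin 3 → ℝ) (v t y : ℝ) : ℝ :=
  En g s q v t (θ 2 / θ 1 * t + y) ((θ 2 - θ 0) * v + (θ 2 / θ 1 * t + y))

theorem Ex_rec (h1 : 0 < θ 1) (t : ℝ) : Ex g s q θ (-t / θ 1) t 0 =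
    En g s q (-t / θ 1) (-(θ 1 * (-t / θ 1))) (-(θ 2 * (-t / θ 1))) (-(θ 0 * (-t / θ 1))) := by
  have e1 : -(θ 1 * (-t / θ 1)) = t := by field_simp
  have e2 : -(θ 2 * (-t / θ 1)) = θ 2 / θ 1 * t + 0 := by field_simp; ring
  have e3 : -(θ 0 * (-t / θ 1)) = (θ 2 - θ 0) * (-t / θ 1) + (θ 2 / θ 1 * t + 0) := by
    rw [← e2]; ring
  rw [e1, e3, e2]; rfl

theorem Ex_sub (v t y v' y' : ℝ) : Ex g s q θ v' t y' - Ex g s q θ v t y =
    (g - q 0 * (θ 2 - θ 0) - ((1 - s) + 3 + (θ 2 - θ 0))) * (v' - v) -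
      (2 + q 0 + q 2) * (y' - y) := by
  unfold Ex En; ring

namespace Dat

variable (H : Dat ν R Rs w0 θ g s c₀ q va vb η)
include H

/-- legality near the record line, any slot `1` between `Rs` and `R` -/
theorem leg {v t1 t2 t3 : ℝ} (hv : v ∈ Ioo va vb)
    (hn : |t1 + θ 1 * v| ≤ η ∧ |t2 + θ 2 * v| ≤ η ∧ |t3 + θ 0 * v| ≤ η) {Rt : ℝ}
    (hR1 : Rs ≤ Rt) {d : Fin 11 → ℝ} (hR2 : Rt + d 1 ≤ R)
    (hd : ∀ k, |d k| ≤ η) (hd7 : d 7 ≤ d 0 + d 1 + η)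
    (h4 : d 4 ≤ d 2 + d 3) (h6 : d 6 ≤ d 2 + d 5) (h7 : d 7 ≤ d 4 + d 5) (h7' : d 7 ≤ d 3 + d 6)
    (h8 : d 8 ≤ d 0 + d 5) (h9 : d 9 ≤ d 0 + d 6) (h9' : d 9 ≤ d 2 + d 8)
    (h10 : d 10 ≤ d 0 + d 7) (h10' : d 10 ≤ d 4 + d 8) (h10'' : d 10 ≤ d 3 + d 9) :
    nt w0 Rt v t1 t2 t3 + d ∈ Leg monQ R :=
  leg_add (H.lo v hv t1 t2 t3 hn.1 hn.2.1 hn.2.2) (H.hi v hv t1 t2 t3 hn.1 hn.2.1 hn.2.2)
    (H.pw v hv t3 hn.2.2) hR1 hR2 hd hd7 h4 h6 h7 h7' h8 h9 h9' h10 h10' h10''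

theorem leg0 {v t1 t2 t3 : ℝ} (hv : v ∈ Ioo va vb)
    (hn : |t1 + θ 1 * v| ≤ η ∧ |t2 + θ 2 * v| ≤ η ∧ |t3 + θ 0 * v| ≤ η) {Rt : ℝ}
    (hR1 : Rs ≤ Rt) (hR2 : Rt ≤ R) : nt w0 Rt v t1 t2 t3 ∈ Leg monQ R := by
  have h0 := H.η0
  have := H.leg hv hn hR1 (d := 0) (by simpa using hR2) (by intro k; simpa using h0.le)
    (by simpa using h0.le)
    (by simp) (by simp) (by simp) (by simp) (by simp) (by simp) (by simp) (by simp) (by simp)
    (by simp)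
  rwa [add_zero] at this

/-- D-max also for the boxes with a finer slot `1` -/
theorem dmx {v t1 t2 t3 : ℝ} (hv : v ∈ Ioo va vb)
    (hn : |t1 + θ 1 * v| ≤ η ∧ |t2 + θ 2 * v| ≤ η ∧ |t3 + θ 0 * v| ≤ η) {Rt : ℝ}
    (hR1 : Rs ≤ Rt) (hR2 : Rt ≤ R) (hr : ∃ v' ∈ Ioo va vb, v + t3 ≤ (1 - θ 0) * v') :
    ν (nt w0 Rt v t1 t2 t3) ≤ c₀ + En g s q v t1 t2 t3 := by
  have hRR : Rs ≤ R := hR1.trans hR2
  have h1 := (H.prf.lip _ (H.leg0 hv hn le_rfl hRR) _ (H.leg0 hv hn hR1 hR2) (by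
    intro k
    fin_cases k <;> first | exact le_rfl | exact hR1)).1
  have := H.dmax v hv t1 t2 t3 hn.1 hn.2.1 hn.2.2 hr
  linarith

variable (h1 : 0 < θ 1)
include h1

/-- record boxes with `C_b, E` narrowed by `Y` and `C_a` narrowed by `s'` are legal -/
theorem legB {t Y s' : ℝ} (hv : -t / θ 1 ∈ Ioo va vb) (hY : 0 ≤ Y) (hY' : Y ≤ η) (hs : 0 ≤ s')
    (hs' : s' ≤ η) : xx w0 R θ (-t / θ 1) t 0 + Y • uB + s' • uC ∈ Leg monQ R := by
  have h0 := H.η0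
  have hn := near_xx (η := η) h1 (v := -t / θ 1) (t := t) (y := 0) (by simp; linarith)
    (by simp; linarith)
  have hRR : Rs ≤ R := by linarith [H.RsR]
  rw [add_assoc]
  refine H.leg hv hn hRR ?_ ?_ ?_ ?_ ?_ ?_ ?_ ?_ ?_ ?_ ?_ ?_ ?_
  · simp [uB, uC]
  · intro k
    have a1 : |Y| ≤ η := by rw [abs_of_nonneg hY]; exact hY'
    have a2 : |s'| ≤ η := by rw [abs_of_nonneg hs]; exact hs'
    have a3 : 0 ≤ η := h0.le
    fin_cases k <;> simp [uB, uC] <;> assumption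
  all_goals
    simp only [Pi.add_apply, Pi.smul_apply, smul_eq_mul, uB, uC, Matrix.cons_val]
    linarith

/-- **loss of `C_a` at the narrowed record boxes** -/
theorem lossC {t Y s' : ℝ} (hv : -t / θ 1 ∈ Ioo va vb) (hY : 0 ≤ Y) (hY' : Y ≤ η) (hs : 0 ≤ s')
    (hs' : s' ≤ η) : q 1 * s' - 2 * Y ≤ ν (xx w0 R θ (-t / θ 1) t 0 + Y • uB) -
      ν (xx w0 R θ (-t / θ 1) t 0 + Y • uB + s' • uC) := by
  have h0 := H.η0
  have hRR : Rs ≤ R := by linarith [H.RsR]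
  have hn := near_xx (η := η) h1 (v := -t / θ 1) (t := t) (y := 0) (by simp; linarith)
    (by simp; linarith)
  set B := xx w0 R θ (-t / θ 1) t 0 with hB
  have z : ∀ x : ℝ, (0 : ℝ) • x = 0 := fun x => zero_mul x
  have l0 : B ∈ Leg monQ R := by
    have := H.legB h1 hv le_rfl h0.le le_rfl h0.le
    simpa using this
  have l1 : B + Y • uB + s' • uC ∈ Leg monQ R := H.legB h1 hv hY hY' hs hs'
  have l2 : B + s' • uC ∈ Leg monQ R := by
    have := H.legB h1 hv le_rfl h0.le hs hs'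
    simpa using this
  have l3 : B + Y • uB ∈ Leg monQ R := by
    have := H.legB h1 hv hY hY' le_rfl h0.le
    simpa using this
  -- `C_a` and `X_a`
  set uX : Fin 11 → ℝ := ![0, 0, 0, 0, 0, 1, 0, 0, 1, 0, 0] with huX
  have l4 : B + s' • uX ∈ Leg monQ R := by
    refine H.leg hv hn hRR ?_ ?_ ?_ ?_ ?_ ?_ ?_ ?_ ?_ ?_ ?_ ?_ ?_
    · simp [huX]
    · intro k
      have a2 : |s'| ≤ η := by rw [abs_of_nonneg hs]; exact hs'
      have a3 : 0 ≤ η := h0.le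
      fin_cases k <;> simp [huX] <;> assumption
    all_goals
      simp only [Pi.smul_apply, smul_eq_mul, huX, Matrix.cons_val]
      linarith
  have hn5 : |t + s' + θ 1 * (-t / θ 1)| ≤ η ∧
      |θ 2 / θ 1 * t + 0 + θ 2 * (-t / θ 1)| ≤ η ∧
      |(θ 2 - θ 0) * (-t / θ 1) + (θ 2 / θ 1 * t + 0) + θ 0 * (-t / θ 1)| ≤ η := by
    refine ⟨?_, hn.2.1, hn.2.2⟩
    have : t + s' + θ 1 * (-t / θ 1) = s' := by field_simp; ring
    rw [this, abs_of_nonneg hs]; exact hs'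
  have l5 := H.leg0 hv hn5 hRR le_rfl
  have d5 := H.dmx hv hn5 hRR le_rfl ⟨_, hv, le_of_eq (by ring)⟩
  set N := nt w0 R (-t / θ 1) (t + s') (θ 2 / θ 1 * t + 0)
    ((θ 2 - θ 0) * (-t / θ 1) + (θ 2 / θ 1 * t + 0)) with hN
  have i1 : 0 ≤ ν (B + s' • uC) - ν (B + Y • uB + s' • uC) := by
    refine (H.prf.lip _ l2 _ l1 ?_).1
    intro k
    simp only [Pi.add_apply, Pi.smul_apply, smul_eq_mul]
    have : 0 ≤ uB k := by fin_cases k <;> simp [uB]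
    nlinarith
  have i2 : ν (B + s' • uC) - ν (B + s' • uX) ≤ s' := by
    refine (H.prf.lip _ l2 _ l4 ?_).2.trans (le_of_eq ?_)
    · intro k
      simp only [Pi.add_apply, Pi.smul_apply, smul_eq_mul]
      have : uC k ≤ uX k := by fin_cases k <;> simp [uC, huX]
      nlinarith
    · simp [Fin.sum_univ_succ, uC, huX]
  have i3 : 0 ≤ ν N - ν (B + s' • uX) := by
    refine (H.prf.lip _ l5 _ l4 ?_).1
    intro k
    fin_cases k <;>
      simp only [hN, hB, xx, nt, huX, Pi.add_apply, Pi.smul_apply, smul_eq_mul, Matrix.cons_val,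
        Fin.zero_eta, Fin.mk_one, Fin.reduceFinMk, Fin.isValue] <;>
      linarith
  have i4 : ν B - ν (B + Y • uB) ≤ 2 * Y := by
    refine (H.prf.lip _ l0 _ l3 ?_).2.trans (le_of_eq ?_)
    · intro k
      simp only [Pi.add_apply, Pi.smul_apply, smul_eq_mul]
      have : 0 ≤ uB k := by fin_cases k <;> simp [uB]
      nlinarith
    · simp [Fin.sum_univ_succ, uB]; ring
  have i5 : c₀ + Ex g s q θ (-t / θ 1) t 0 ≤ ν B := by
    have := H.rcd _ hv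
    rw [hB, xx_rec h1, Ex_rec h1]
    exact this
  have i6 : En g s q (-t / θ 1) (t + s') (θ 2 / θ 1 * t + 0)
      ((θ 2 - θ 0) * (-t / θ 1) + (θ 2 / θ 1 * t + 0)) =
      Ex g s q θ (-t / θ 1) t 0 - (1 + q 1) * s' := by
    unfold Ex En; ring
  rw [i6] at d5
  linarith

/-- the loss function of `C_a` at a narrowed record box -/
theorem mlC {t Y : ℝ} (hv : -t / θ 1 ∈ Ioo va vb) (hY : 0 ≤ Y) (hY' : Y ≤ η) :
    ML (fun s' => ν (xx w0 R θ (-t / θ 1) t 0 + Y • uB) -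
      ν (xx w0 R θ (-t / θ 1) t 0 + Y • uB + s' • uC)) 0 η := by
  intro x hx y hy hxy
  have l1 := H.legB h1 hv hY hY' hx.1 hx.2
  have l2 := H.legB h1 hv hY hY' hy.1 hy.2
  have := H.prf.lip _ l1 _ l2 (by
    intro k
    simp only [Pi.add_apply, Pi.smul_apply, smul_eq_mul]
    have : 0 ≤ uC k := by fin_cases k <;> simp [uC]
    nlinarith)
  refine ⟨by linarith [this.1], ?_⟩
  have h2 := this.2
  have e : ∑ k, ((xx w0 R θ (-t / θ 1) t 0 + Y • uB + y • uC) k -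
      (xx w0 R θ (-t / θ 1) t 0 + Y • uB + x • uC) k) = y - x := by
    have : ∀ k, ((xx w0 R θ (-t / θ 1) t 0 + Y • uB + y • uC) k -
      (xx w0 R θ (-t / θ 1) t 0 + Y • uB + x • uC) k) = (y - x) * uC k := by
      intro k
      simp only [Pi.add_apply, Pi.smul_apply, smul_eq_mul]; ring
    simp only [this, ← Finset.mul_sum]
    simp [Fin.sum_univ_succ, uC]
  rw [e] at h2
  linarith

end Dat

end

end Crest.Agent.R136.Z2H57
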