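import Crest.Agent.R136.Z2c_57

/-!
# R136, case (Z2') = (C2z), scalar half, part 3 (helper57): rates of `C_a` almost everywhere, uniform
sweeps of `C_a` and of `C_b + E`
-/

set_option autoImplicit false
set_option linter.unusedVariables false
set_option linter.unusedSectionVars false
set_option linter.unnecessarySeqFocus false

open Set Filter Topology MeasureTheory

namespace Crest.Agent.R136.Z2H57

open Crest.Agent.R136.Net191
open Crest.Agent.R136.NetQ186

variable {ν : (Fin 11 → ℝ) → ℝ} {R Rs w0 : ℝ} {θ : Fin 3 → ℝ} {g s c₀ : ℝ} {q : Fin 3 → ℝ}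
  {va vb η : ℝ}

theorem uC_nonneg (k : Fin 11) : 0 ≤ uC k := by fin_cases k <;> simp [uC]
theorem uB_nonneg (k : Fin 11) : 0 ≤ uB k := by fin_cases k <;> simp [uB]

namespace Dat

variable (H : Dat ν R Rs w0 θ g s c₀ q va vb η) (h1 : 0 < θ 1)
include H h1

/-- legality of the boxes of the plane, with `C_a` narrowed -/
theorem legX {v t y δ Rt : ℝ} (hv : v ∈ Ioo va vb) (hn : Th θ * |v - -t / θ 1| ≤ η / 2)
    (hy : |y| ≤ η / 2) (hδ : 0 ≤ δ) (hδ' : δ ≤ η) (hR1 : Rs ≤ Rt) (hR2 : Rt ≤ R) :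
    xx w0 Rt θ v t y + δ • uC ∈ Leg monQ R := by
  have h0 := H.η0
  have hn := near_xx (η := η) h1 hn hy
  refine H.leg hv hn hR1 ?_ ?_ ?_ ?_ ?_ ?_ ?_ ?_ ?_ ?_ ?_ ?_ ?_
  · simpa [uC] using hR2
  · intro k
    have a2 : |δ| ≤ η := by rw [abs_of_nonneg hδ]; exact hδ'
    have a3 : 0 ≤ η := h0.le
    fin_cases k <;> simp [uC] <;> assumption
  all_goals
    simp only [Pi.smul_apply, smul_eq_mul, uC, Matrix.cons_val]
    linarith

theorem legX0 {v t y Rt : ℝ} (hv : v ∈ Ioo va vb) (hn : Th θ * |v - -t / θ 1| ≤ η / 2)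
    (hy : |y| ≤ η / 2) (hR1 : Rs ≤ Rt) (hR2 : Rt ≤ R) : xx w0 Rt θ v t y ∈ Leg monQ R := by
  have := H.legX h1 hv hn hy le_rfl H.η0.le hR1 hR2
  simpa using this

variable (hκ : 0 < θ 2 - θ 0)
include hκ

/-- a point of positive loss of `C_a` at the record box of `t'` gives `Pos` to the left -/
theorem pos_of_good {t' v y Y s' m : ℝ} (hv' : -t' / θ 1 ∈ Ioo va vb) (hv : v ∈ Ioo va vb)
    (hY : 0 ≤ Y) (hY' : Y ≤ η / 2) (hy : 0 ≤ y)
    (hs : s' ∈ good (fun s' => ν (xx w0 R θ (-t' / θ 1) t' 0 + Y • uB) -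
      ν (xx w0 R θ (-t' / θ 1) t' 0 + Y • uB + s' • uC)) 0 (η / 2))
    (hm : 0 ≤ m) (hmv : m ≤ -t' / θ 1 - v) (hmκ : m ≤ (θ 2 - θ 0) * (-t' / θ 1 - v))
    (hsm : s' ≤ m) (h2 : θ 2 / θ 1 * s' + y ≤ m) (h3 : θ 2 / θ 1 * s' + y ≤ Y)
    (hn : Th θ * |v - -(t' + s') / θ 1| ≤ η / 2) (hyη : y ≤ η / 2) :
    Pos ν (xx w0 R θ v (t' + s') y) := by
  have h0 := H.η0
  have hRR : Rs ≤ R := by linarith [H.RsR]
  obtain ⟨c, hc, h, hh, Hc⟩ := pos_of_deriv hs.2
  have hs0 := hs.1.1
  have hsη := hs.1.2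
  refine ⟨c, hc, min h (η / 2), lt_min hh (by linarith), fun δ hδ hδ' => ?_⟩
  have k1 := Hc δ hδ (hδ'.trans (min_le_left _ _))
  have hδ2 : δ ≤ η / 2 := hδ'.trans (min_le_right _ _)
  have lq := H.legB h1 hv' hY (by linarith) hs0.le (by linarith : s' ≤ η)
  have lp := H.legX0 h1 hv hn (by rw [abs_of_nonneg hy]; exact hyη) hRR le_rfl
  have lpd := H.legX h1 hv hn (by rw [abs_of_nonneg hy]; exact hyη) hδ (by linarith) hRR le_rfl
  have key := H.prf.inc lp lq lpd (fun k => mul_nonneg hδ (uC_nonneg k)) (by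
    intro k
    fin_cases k <;>
      simp only [xx, nt, uB, uC, Pi.add_apply, Pi.smul_apply, smul_eq_mul, Matrix.cons_val,
        Fin.zero_eta, Fin.mk_one, Fin.reduceFinMk, Fin.isValue] <;>
      linarith) (by
    intro k
    fin_cases k <;>
      simp [xx, nt, uB, uC] <;> (right; ring))
  have e : xx w0 R θ (-t' / θ 1) t' 0 + Y • uB + s' • uC + δ • uC =
      xx w0 R θ (-t' / θ 1) t' 0 + Y • uB + (s' + δ) • uC := by
    rw [add_smul, add_assoc]
  rw [e] at key
  linarith

variable (hq1 : 0 < q 1) (hσ : θ 2 ≤ q 1 / 4 * θ 1)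
include hq1 hσ

set_option maxHeartbeats 2000000 in
/-- **`C_a` has positive rate for almost every `t`** -/
theorem pos_ae {v y0 : ℝ} (hv : v ∈ Ioo va vb) (hy0 : 0 < y0) :
    ∀ᵐ t : ℝ, v < -t / θ 1 → -t / θ 1 < vb → Th θ * (-t / θ 1 - v) ≤ η / 4 →
      ∃ y, 0 < y ∧ y < y0 ∧ y ≤ η / 4 ∧ Pos ν (xx w0 R θ v t y) := by
  have h0 := H.η0
  set N : Set ℝ := {t | (v < -t / θ 1 ∧ -t / θ 1 < vb ∧ Th θ * (-t / θ 1 - v) ≤ η / 4) ∧
    ¬ ∃ y, 0 < y ∧ y < y0 ∧ y ≤ η / 4 ∧ Pos ν (xx w0 R θ v t y)} with hN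
  have hnull : volume N = 0 := by
    refine null_of_density (γ := q 1 / 4) (by positivity) fun t' ht' => ?_
    obtain ⟨⟨a1, a2, a3⟩, a4⟩ := ht'
    set Δ := -t' / θ 1 - v with hΔ
    have hΔ0 : 0 < Δ := by rw [hΔ]; linarith
    have hv' : -t' / θ 1 ∈ Ioo va vb := ⟨hv.1.trans a1, a2⟩
    set m := min Δ ((θ 2 - θ 0) * Δ) with hm
    have hm0 : 0 < m := lt_min hΔ0 (mul_pos hκ hΔ0)
    -- bound of `y` and `s`
    set K := |θ 2| / θ 1 + q 1 + 1 with hK
    have hK0 : 1 ≤ K := by
      have : 0 ≤ |θ 2| / θ 1 := by positivity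
      rw [hK]; linarith
    refine ⟨min (min (m / (2 * K)) (η / (8 * K))) (min (y0 / K) (θ 1 * Δ / (2 * K))), ?_,
      fun h hh hh' => ?_⟩
    · have : 0 < K := by linarith
      refine lt_min (lt_min (by positivity) (by positivity)) (lt_min (by positivity) (by positivity))
    have hKp : 0 < K := by linarith
    have b1 : h * (2 * K) < m := by
      have := hh'.trans_le ((min_le_left _ _).trans (min_le_left _ _))
      rwa [lt_div_iff₀ (by positivity)] at this
    have b2 : h * (8 * K) < η := by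
      have := hh'.trans_le ((min_le_left _ _).trans (min_le_right _ _))
      rwa [lt_div_iff₀ (by positivity)] at this
    have b3 : h * K < y0 := by
      have := hh'.trans_le ((min_le_right _ _).trans (min_le_left _ _))
      rwa [lt_div_iff₀ (by positivity)] at this
    have b4 : h * (2 * K) < θ 1 * Δ := by
      have := hh'.trans_le ((min_le_right _ _).trans (min_le_right _ _))
      rwa [lt_div_iff₀ (by positivity)] at this
    obtain ⟨u, hu⟩ : ∃ u, u = h * K := ⟨_, rfl⟩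
    have hhu : h ≤ u := by rw [hu]; exact le_mul_of_one_le_right hh.le hK0
    have c1 : 2 * u < m := by rw [hu]; linarith
    have c2 : 8 * u < η := by rw [hu]; linarith
    have c3 : u < y0 := by rw [hu]; exact b3
    have c4 : 2 * u < θ 1 * Δ := by rw [hu]; linarith
    set y := q 1 / 8 * h with hy
    set σp := max (θ 2 / θ 1) 0 with hσp
    have hσ0 : 0 ≤ σp := le_max_right _ _
    have hσ1 : σp ≤ q 1 / 4 := by
      refine max_le ?_ (by positivity)
      rw [div_le_iff₀ h1]; exact hσ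
    have hσK : σp ≤ |θ 2| / θ 1 := by
      refine max_le ?_ (by positivity)
      exact div_le_div_of_nonneg_right (le_abs_self _) h1.le
    set Y := y + σp * h with hYd
    have hq1h : 0 < q 1 * h := mul_pos hq1 hh
    have hσh0 : 0 ≤ σp * h := mul_nonneg hσ0 hh.le
    have hy0' : 0 < y := by rw [hy]; linarith
    have hY0 : 0 ≤ Y := by rw [hYd]; linarith
    have hYu : Y ≤ u := by
      rw [hYd, hy, hu, hK]
      have : σp * h ≤ |θ 2| / θ 1 * h := mul_le_mul_of_nonneg_right hσK hh.le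
      linarith [mul_comm h (|θ 2| / θ 1), mul_comm h (q 1), mul_add h (|θ 2| / θ 1 + q 1) 1,
        mul_add h (|θ 2| / θ 1) (q 1)]
    have hyY : y ≤ Y := by rw [hYd]; linarith
    set F : ℝ → ℝ := fun s' => ν (xx w0 R θ (-t' / θ 1) t' 0 + Y • uB) -
      ν (xx w0 R θ (-t' / θ 1) t' 0 + Y • uB + s' • uC) with hF
    have hYη : Y ≤ η := by linarith
    have hml := H.mlC h1 hv' hY0 hYη
    have hhη : h ≤ η := by linarith
    have hvol := volume_good hh.le (hml.mono le_rfl hhη)
    have hloss := H.lossC h1 hv' hY0 hYη hh.le hhη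
    have hF0 : F 0 = 0 := by simp [hF]
    have hFh : q 1 / 4 * h ≤ F h - F 0 := by
      have : F h = ν (xx w0 R θ (-t' / θ 1) t' 0 + Y • uB) -
        ν (xx w0 R θ (-t' / θ 1) t' 0 + Y • uB + h • uC) := rfl
      rw [hF0, this, sub_zero]
      have h5 : σp * h ≤ q 1 / 4 * h := mul_le_mul_of_nonneg_right hσ1 hh.le
      rw [hYd, hy] at hloss
      rw [hYd, hy]
      linarith
    refine ⟨(fun t => t - t') ⁻¹' good F 0 h, ?_, ?_, ?_, ?_⟩
    · exact (measurableSet_good F 0 h).preimage (measurable_id.sub_const t')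
    · intro t ht
      have := (good_subset F 0 h) ht
      exact ⟨by linarith [this.1], by linarith [this.2]⟩
    · rw [Set.disjoint_left]
      intro t ht htN
      apply htN.2
      have hg : t - t' ∈ good F 0 h := ht
      have g1 := hg.1
      have hbd : h ≤ η / 2 := by linarith
      have hg2 : t - t' ∈ good F 0 (η / 2) := ⟨⟨g1.1, g1.2.trans_le hbd⟩, hg.2⟩
      have e : t' + (t - t') = t := by ring
      have hσs : θ 2 / θ 1 * (t - t') ≤ σp * h := by
        calc θ 2 / θ 1 * (t - t') ≤ σp * (t - t') :=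
              mul_le_mul_of_nonneg_right (le_max_left _ _) g1.1.le
          _ ≤ σp * h := mul_le_mul_of_nonneg_left g1.2.le hσ0
      have hle : Th θ * |v - -t / θ 1| ≤ η / 2 := by
        have hTh : 0 ≤ Th θ := by unfold Th; positivity
        have b5 : |v - -t / θ 1| ≤ Δ := by
          have e1 : v - -t / θ 1 = -Δ + (t - t') / θ 1 := by rw [hΔ]; ring
          have e2 : (t - t') / θ 1 ≤ Δ := by
            rw [div_le_iff₀ h1, mul_comm]
            linarith [g1.2]
          have e3 : 0 ≤ (t - t') / θ 1 := div_nonneg g1.1.le h1.le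
          rw [e1, abs_le]
          constructor <;> linarith
        have := mul_le_mul_of_nonneg_left b5 hTh
        linarith
      refine ⟨y, hy0', by linarith, by linarith, ?_⟩
      have := H.pos_of_good h1 hκ (t' := t') (v := v) (y := y) (Y := Y) (s' := t - t') (m := m)
        hv' hv hY0 (by linarith) hy0'.le hg2 hm0.le (min_le_left _ _) (min_le_right _ _)
        (by linarith [g1.2]) (by linarith) (by linarith)
        (by rw [e]; exact hle) (by linarith)
      rwa [e] at this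
    · have e : volume ((fun t => t - t') ⁻¹' good F 0 h) = volume (good F 0 h) := by
        simp only [sub_eq_add_neg]
        exact measure_preimage_add_right volume (-t') (good F 0 h)
      rw [e]
      exact (ENNReal.ofReal_le_ofReal hFh).trans hvol
  have : ∀ᵐ t : ℝ, t ∉ N := by
    rw [ae_iff]; simpa using hnull
  filter_upwards [this] with t ht b1 b2 b3
  by_contra hcon
  exact ht ⟨⟨b1, b2, b3⟩, hcon⟩

end Dat

end Crest.Agent.R136.Z2H57
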