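import Crest.Agent.R136.LdF3_511

/-!
# R136, case Z2: arithmetic of the final step (helper403)

`r_B` = record point of the stage after the rung `F_b`, `u` = its `z`; class of the final step
`X = r_B - w T'` (`s = 1`), i.e. `X = r_B + w • cX`, slot `3` raised; `δ`-box `pdZ`.

* `lam_pd`  : `-2 κ ≤ lam (cX + pdZ)`
* `DN_X`    : D-max of `X` against the record
* `X_nat`   : `X` is natural off the slot `3`
* **`z2_arith`** : the inequality of END-LAB at `X` gives `g - q 2 * κ ≤ ε`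
-/

set_option autoImplicit false
set_option linter.unusedVariables false

open Finset Filter Topology

namespace Crest.Agent.R136.Z2e403

open Crest.Agent.R138.Ex926 (Base U)
open Crest.Agent.R136.Net191
open Crest.Agent.R136.NetQ186
open Crest.Agent.R136.Wq638
open Crest.Agent.R136.NatT550
open Crest.Agent.R136.NatR550 (nL DN rec_eq)
open Crest.Agent.R136.Top484
open Crest.Agent.R136.LdF511
open Crest.Agent.R136.LdF3511
open Dg219 (mw)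
open K2S774 (cn Prf Stage)

/-- shift to the class of the final step -/
def cX (κ : ℝ) : Fin 11 → ℝ := ![-1, 0, -κ, 0, 0, 0, -κ, 0, -1, -1 - κ, -1]

/-- the `δ`-box : `k1 = 1 + κ` in `z, X_a, X_b`, `kN = 1` -/
def pdZ (κ : ℝ) : Fin 11 → ℝ := ![1 + κ, 0, 0, 0, 0, 0, 0, 0, 1 + κ, 1 + κ, 1]

theorem cX_pd (κ : ℝ) : cX κ + pdZ κ = ![κ, 0, -κ, 0, 0, 0, -κ, 0, κ, 0, 0] := by
  funext k
  fin_cases k <;> simp [cX, pdZ]

theorem mem_cn {c : Fin 11 → ℝ} : c ∈ cn (mw monQ) (AF {3}) ↔ c ∈ W7 := by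
  rw [← cn_W7]; rfl

theorem cX_mem {κ : ℝ} (hκ : 0 ≤ κ) : cX κ ∈ cn (mw monQ) (AF {3}) := by
  rw [mem_cn]
  refine ⟨?_, ?_, ?_, ?_, ?_, ?_, ?_⟩ <;> simp [cX] <;> linarith

theorem pd_mem {κ : ℝ} (hκ : 0 ≤ κ) : cX κ + pdZ κ ∈ cn (mw monQ) (AF {3}) := by
  rw [mem_cn, cX_pd]
  refine ⟨?_, ?_, ?_, ?_, ?_, ?_, ?_⟩ <;> simp <;> linarith

/-- **`z` and `X_a` only** -/
theorem lam_pd {lam lo : (Fin 11 → ℝ) → ℝ} {K : ℝ} (H : Prf (cn (mw monQ) (AF {3})) lam lo K)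
    (l0 : lam 0 = 0) {κ : ℝ} (hκ : 0 ≤ κ) : -(2 * κ) ≤ lam (cX κ + pdZ κ) := by
  set e : Fin 11 → ℝ := ![κ, 0, 0, 0, 0, 0, 0, 0, κ, 0, 0] with he
  have me : e ∈ cn (mw monQ) (AF {3}) := by
    rw [mem_cn]
    refine ⟨?_, ?_, ?_, ?_, ?_, ?_, ?_⟩ <;> simp [he] <;> linarith
  have m0 : (0 : Fin 11 → ℝ) ∈ cn (mw monQ) (AF {3}) := by
    rw [mem_cn]
    refine ⟨?_, ?_, ?_, ?_, ?_, ?_, ?_⟩ <;> simp
  have h1 := H.mono _ (pd_mem hκ) _ me (by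
    rw [cX_pd]
    intro k
    fin_cases k <;> simp [he] <;> linarith)
  have h2 := H.sharp _ m0 _ me (by
    intro k
    fin_cases k <;> simp [he] <;> linarith)
  have e1 : ∑ i, (e i - (0 : Fin 11 → ℝ) i) = 2 * κ := by
    simp [Fin.sum_univ_succ, he]
    ring
  rw [e1, l0] at h2
  linarith

/-- **D-max of the class of the final step** -/
theorem DN_X (p : Par4) (u w : ℝ) :
    DN p (u - w) (-(p.θ 1 * u)) (-(p.θ 2 * u) - (p.θ 1 - p.θ 2) * w) (-(p.θ 0 * u)) =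
      DN p u (-(p.θ 1 * u)) (-(p.θ 2 * u)) (-(p.θ 0 * u)) -
        w * (p.g - 4 - (p.θ 1 - p.θ 2) - p.q 2 * (p.θ 1 - p.θ 2)) := by
  unfold DN; ring

/-- `X` is natural off the slot `3` -/
theorem X_nat (θ : Fin 3 → ℝ) (w0 R1 v σ w : ℝ) {x : Fin 11 → ℝ}
    (hx : ∀ i, i ≠ 3 → x i = recF θ w0 R1 v i + σ * rhoF θ i) {i : Fin 11} (hi : i ≠ 3) :
    (x + w • cX (θ 1 - θ 2)) i = nat4 w0 R1 (v + σ - w) (-(θ 1 * (v + σ)))
      (-(θ 2 * (v + σ)) - (θ 1 - θ 2) * w) (-(θ 0 * (v + σ))) i := by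
  rw [Pi.add_apply, Pi.smul_apply, smul_eq_mul, hx i hi]
  revert hi
  fin_cases i <;> intro hi <;> first
    | exact absurd rfl hi
    | (simp only [recF, rhoF, nL, nat4, cX, Matrix.cons_val, Fin.zero_eta, Fin.mk_one,
        Fin.reduceFinMk, Fin.isValue]; ring)

/-- value of the natural box in the slot `3` -/
theorem nat_3 (θ : Fin 3 → ℝ) (w0 R1 v σ w : ℝ) :
    nat4 w0 R1 (v + σ - w) (-(θ 1 * (v + σ))) (-(θ 2 * (v + σ)) - (θ 1 - θ 2) * w)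
      (-(θ 0 * (v + σ))) 3 = recF θ w0 R1 v 3 + σ * rhoF θ 3 + (θ 1 - θ 2) * w := by
  simp only [recF, rhoF, nL, nat4, Matrix.cons_val]; ring

/-- record values as D-max values -/
theorem DN_rec (p : Par4) (v σ : ℝ) :
    DN p (v + σ) (-(p.θ 1 * (v + σ))) (-(p.θ 2 * (v + σ))) (-(p.θ 0 * (v + σ))) =
      DN p v (-(p.θ 1 * v)) (-(p.θ 2 * v)) (-(p.θ 0 * v)) + σ * DlF p (rhoF p.θ) := by
  unfold rhoF
  rw [DlF_nL]; unfold DN; ring

/-- **final arithmetic**: `νX` = value at `X`, `νr` = value at `r_B` -/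
theorem z2_arith {p : Par4} {νX νr c₀ v σ w ε lX lP : ℝ} (hw : 0 < w)
    (hr : νr + w * (lX - ε) ≤ νX)
    (hrec : c₀ + DN p v (-(p.θ 1 * v)) (-(p.θ 2 * v)) (-(p.θ 0 * v)) + σ * DlF p (rhoF p.θ) -
      ε * w ≤ νr)
    (hP : -(2 * (p.θ 1 - p.θ 2)) ≤ lP)
    (hL : νX + w * ((lP - lX) + 3 * (1 + (p.θ 1 - p.θ 2)) + 1 - ε) ≤
      c₀ + DN p (v + σ - w) (-(p.θ 1 * (v + σ)))
        (-(p.θ 2 * (v + σ)) - (p.θ 1 - p.θ 2) * w) (-(p.θ 0 * (v + σ)))) :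
    p.g - p.q 2 * (p.θ 1 - p.θ 2) ≤ 3 * ε := by
  rw [DN_X, DN_rec] at hL
  have h1 : w * (p.g - p.q 2 * (p.θ 1 - p.θ 2)) ≤ w * (3 * ε) := by
    have h2 := mul_le_mul_of_nonneg_left hP hw.le
    nlinarith
  exact le_of_mul_le_mul_left h1 hw

end Crest.Agent.R136.Z2e403
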