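import Crest.Agent.R136.Z2d_57

/-!
# R136, case (Z2') = (C2z), scalar half, part 4 (helper57): `z2_false`

Only `32` tied and `θ 2 ≤ q1 / 4 * θ 1`.  If at almost every point `(v, y)` of the plane
`xx v t y` (fixed `t`) the uniform sweeps `S1`, `S2` force `∂_v ν ≤ - ((1 - s) + 3 + κ)` (all the
coordinates `X_a, X_b, N` full), then the D-max bound and the record value are contradictory.
-/

set_option autoImplicit false
set_option linter.unusedVariables false
set_option linter.unusedSectionVars false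
set_option linter.unnecessarySeqFocus false

open Set Filter Topology MeasureTheory
open scoped NNReal ENNReal

namespace Crest.Agent.R136.Z2H57

open Crest.Agent.R136.Net191
open Crest.Agent.R136.NetQ186

variable {ν : (Fin 11 → ℝ) → ℝ} {R Rs w0 : ℝ} {θ : Fin 3 → ℝ} {g s c₀ : ℝ} {q : Fin 3 → ℝ}
  {va vb η : ℝ}

namespace Dat

variable (H : Dat ν R Rs w0 θ g s c₀ q va vb η) (h1 : 0 < θ 1)
include H h1

/-- loss of `C_b + E` at the record box -/
theorem lossB {t h : ℝ} (hv : -t / θ 1 ∈ Ioo va vb) (hh : 0 ≤ h) (hh' : h ≤ η) :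
    q 2 * h ≤ ν (xx w0 R θ (-t / θ 1) t 0) - ν (xx w0 R θ (-t / θ 1) t 0 + h • uB) := by
  have h0 := H.η0
  have hRR : Rs ≤ R := by linarith [H.RsR]
  have hn := near_xx (η := η) h1 (v := -t / θ 1) (t := t) (y := 0) (by simp; linarith)
    (by simp; linarith)
  set B := xx w0 R θ (-t / θ 1) t 0 with hB
  have l3 : B + h • uB ∈ Leg monQ R := by
    have := H.legB h1 hv hh hh' le_rfl h0.le
    simpa using this
  set uX : Fin 11 → ℝ := ![0, 0, 1, 0, 0, 0, 1, 0, 0, 1, 0] with huX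
  have l4 : B + h • uX ∈ Leg monQ R := by
    refine H.leg hv hn hRR ?_ ?_ ?_ ?_ ?_ ?_ ?_ ?_ ?_ ?_ ?_ ?_ ?_
    · simp [huX]
    · intro k
      have a2 : |h| ≤ η := by rw [abs_of_nonneg hh]; exact hh'
      have a3 : 0 ≤ η := h0.le
      fin_cases k <;> simp [huX] <;> assumption
    all_goals
      simp only [Pi.smul_apply, smul_eq_mul, huX, Matrix.cons_val]
      linarith
  have hn5 : |t + θ 1 * (-t / θ 1)| ≤ η ∧
      |θ 2 / θ 1 * t + h + θ 2 * (-t / θ 1)| ≤ η ∧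
      |(θ 2 - θ 0) * (-t / θ 1) + (θ 2 / θ 1 * t + 0) + θ 0 * (-t / θ 1)| ≤ η := by
    refine ⟨hn.1, ?_, hn.2.2⟩
    have : θ 2 / θ 1 * t + h + θ 2 * (-t / θ 1) = h := by field_simp; ring
    rw [this, abs_of_nonneg hh]; exact hh'
  have l5 := H.leg0 hv hn5 hRR le_rfl
  have d5 := H.dmx hv hn5 hRR le_rfl ⟨_, hv, le_of_eq (by ring)⟩
  set N := nt w0 R (-t / θ 1) t (θ 2 / θ 1 * t + h)
    ((θ 2 - θ 0) * (-t / θ 1) + (θ 2 / θ 1 * t + 0)) with hN
  have i2 : ν (B + h • uB) - ν (B + h • uX) ≤ h := by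
    refine (H.prf.lip _ l3 _ l4 ?_).2.trans (le_of_eq ?_)
    · intro k
      simp only [Pi.add_apply, Pi.smul_apply, smul_eq_mul]
      have : uB k ≤ uX k := by fin_cases k <;> simp [uB, huX]
      nlinarith
    · simp [Fin.sum_univ_succ, uB, huX]
  have i3 : 0 ≤ ν N - ν (B + h • uX) := by
    refine (H.prf.lip _ l5 _ l4 ?_).1
    intro k
    fin_cases k <;>
      simp only [hN, hB, xx, nt, huX, Pi.add_apply, Pi.smul_apply, smul_eq_mul, Matrix.cons_val,
        Fin.zero_eta, Fin.mk_one, Fin.reduceFinMk, Fin.isValue] <;>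
      linarith
  have i5 : c₀ + Ex g s q θ (-t / θ 1) t 0 ≤ ν B := by
    have := H.rcd _ hv
    rw [hB, xx_rec h1, Ex_rec h1]
    exact this
  have i6 : En g s q (-t / θ 1) t (θ 2 / θ 1 * t + h)
      ((θ 2 - θ 0) * (-t / θ 1) + (θ 2 / θ 1 * t + 0)) =
      Ex g s q θ (-t / θ 1) t 0 - (1 + q 2) * h := by
    unfold Ex En; ring
  rw [i6] at d5
  linarith

/-- the loss function of `C_b + E` at a record box -/
theorem mlB {t : ℝ} (hv : -t / θ 1 ∈ Ioo va vb) :
    LipschitzOnWith 2 (fun h => ν (xx w0 R θ (-t / θ 1) t 0) -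
      ν (xx w0 R θ (-t / θ 1) t 0 + h • uB)) (Icc 0 η) ∧
    ∀ x ∈ Icc 0 η, ∀ y ∈ Icc 0 η, x ≤ y → 0 ≤ ν (xx w0 R θ (-t / θ 1) t 0 + x • uB) -
      ν (xx w0 R θ (-t / θ 1) t 0 + y • uB) ∧ ν (xx w0 R θ (-t / θ 1) t 0 + x • uB) -
      ν (xx w0 R θ (-t / θ 1) t 0 + y • uB) ≤ 2 * (y - x) := by
  have h0 := H.η0
  have key : ∀ x ∈ Icc 0 η, ∀ y ∈ Icc 0 η, x ≤ y → 0 ≤ ν (xx w0 R θ (-t / θ 1) t 0 + x • uB) -
      ν (xx w0 R θ (-t / θ 1) t 0 + y • uB) ∧ ν (xx w0 R θ (-t / θ 1) t 0 + x • uB) -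
      ν (xx w0 R θ (-t / θ 1) t 0 + y • uB) ≤ 2 * (y - x) := by
    intro x hx y hy hxy
    have l1 := H.legB h1 hv hx.1 hx.2 le_rfl h0.le
    have l2 := H.legB h1 hv hy.1 hy.2 le_rfl h0.le
    rw [zero_smul, add_zero] at l1 l2
    have := H.prf.lip _ l1 _ l2 (by
      intro k
      simp only [Pi.add_apply, Pi.smul_apply, smul_eq_mul]
      have := uB_nonneg k
      nlinarith)
    refine ⟨this.1, this.2.trans (le_of_eq ?_)⟩
    have e : ∀ k, ((xx w0 R θ (-t / θ 1) t 0 + y • uB) k -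
      (xx w0 R θ (-t / θ 1) t 0 + x • uB) k) = (y - x) * uB k := by
      intro k
      simp only [Pi.add_apply, Pi.smul_apply, smul_eq_mul]; ring
    simp only [e, ← Finset.mul_sum]
    simp [Fin.sum_univ_succ, uB]; ring
  refine ⟨LipschitzOnWith.of_dist_le_mul fun x hx y hy => ?_, key⟩
  rw [Real.dist_eq, Real.dist_eq]
  simp only [NNReal.coe_ofNat]
  rcases le_total x y with h2 | h2
  · have := key x hx y hy h2
    rw [abs_le, abs_sub_comm x y, abs_of_nonneg (by linarith : 0 ≤ y - x)]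
    constructor <;> linarith [this.1, this.2]
  · have := key y hy x hx h2
    rw [abs_le, abs_of_nonneg (by linarith : 0 ≤ x - y)]
    constructor <;> linarith [this.1, this.2]

/-- **(S1)** from the rate of `C_a` at a finer box -/
theorem s1_of_pos (hκ : 0 < θ 2 - θ 0) {t v v2 y y2 : ℝ} (hv : v ∈ Ioo va vb) (hv2 : v2 ∈ Ioo va vb)
    (hvv : v < v2) (hyy : y < y2) (hn2 : Th θ * |v2 - -t / θ 1| ≤ η / 2) (hy2 : |y2| ≤ η / 2)
    (hP : Pos ν (xx w0 R θ v2 t y2)) : S1 ν R (xx w0 Rs θ v t y) := by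
  have h0 := H.η0
  have hRR : Rs ≤ R := by linarith [H.RsR]
  obtain ⟨c, hc, h, hh, Hc⟩ := hP
  have hκv : 0 < (θ 2 - θ 0) * (v2 - v) := mul_pos hκ (by linarith)
  refine ⟨c, hc, min (min h η) (min (min (v2 - v) ((θ 2 - θ 0) * (v2 - v))) (y2 - y)),
    lt_min (lt_min hh h0) (lt_min (lt_min (by linarith) hκv) (by linarith)), ?_⟩
  intro d hd hd5 δ hδ hδ' hp hpd
  have m1 : ∀ k, d k ≤ η := fun k => (le_of_abs_le (hd k)).trans
    ((min_le_left _ _).trans (min_le_right _ _))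
  have m2 : ∀ k, d k ≤ v2 - v := fun k => (le_of_abs_le (hd k)).trans
    ((min_le_right _ _).trans ((min_le_left _ _).trans (min_le_left _ _)))
  have m3 : ∀ k, d k ≤ (θ 2 - θ 0) * (v2 - v) := fun k => (le_of_abs_le (hd k)).trans
    ((min_le_right _ _).trans ((min_le_left _ _).trans (min_le_right _ _)))
  have m4 : ∀ k, d k ≤ y2 - y := fun k => (le_of_abs_le (hd k)).trans
    ((min_le_right _ _).trans (min_le_right _ _))
  have lq := H.legX0 h1 hv2 hn2 hy2 hRR le_rfl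
  have k1 := Hc δ hδ (hδ'.trans ((min_le_left _ _).trans (min_le_left _ _)))
  have key := H.prf.inc hp lq hpd (fun k => mul_nonneg hδ (uC_nonneg k)) (by
    intro k
    have e1 := m1 k
    have e2 := m2 k
    have e3 := m3 k
    have e4 := m4 k
    have e5 := H.RsR
    rw [Pi.add_apply]
    fin_cases k <;>
      simp only [xx, nt, Matrix.cons_val, Fin.zero_eta, Fin.mk_one, Fin.reduceFinMk,
        Fin.isValue] at e1 e2 e3 e4 ⊢ <;>
      linarith) (by
    intro k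
    fin_cases k <;>
      simp [xx, nt, uC, hd5])
  linarith

/-- **(S2)** from a point of positive loss of `C_b + E` at the record box -/
theorem s2_of_good (hκ : 0 < θ 2 - θ 0) {t v y : ℝ} (hvt : -t / θ 1 ∈ Ioo va vb)
    (hvv : v < -t / θ 1) (hy1 : y < -t / θ 1 - v) (hy2 : y < (θ 2 - θ 0) * (-t / θ 1 - v))
    (hy : y ∈ good (fun h => ν (xx w0 R θ (-t / θ 1) t 0) -
      ν (xx w0 R θ (-t / θ 1) t 0 + h • uB)) 0 (η / 2)) : S2 ν R (xx w0 Rs θ v t y) := by
  have h0 := H.η0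
  have hRR : Rs ≤ R := by linarith [H.RsR]
  obtain ⟨c, hc, h, hh, Hc⟩ := pos_of_deriv hy.2
  have g0 := hy.1.1
  have g1 := hy.1.2
  refine ⟨c, hc, min (min h (η / 2))
    (min (-t / θ 1 - v - y) ((θ 2 - θ 0) * (-t / θ 1 - v) - y)),
    lt_min (lt_min hh (by linarith)) (lt_min (by linarith) (by linarith)), ?_⟩
  intro d hd hd2 hd6 hd5 δ hδ hδ' hp hpd
  have m1 : ∀ k, d k ≤ η / 2 := fun k => (le_of_abs_le (hd k)).trans
    ((min_le_left _ _).trans (min_le_right _ _))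
  have m2 : ∀ k, d k ≤ -t / θ 1 - v - y := fun k => (le_of_abs_le (hd k)).trans
    ((min_le_right _ _).trans (min_le_left _ _))
  have m3 : ∀ k, d k ≤ (θ 2 - θ 0) * (-t / θ 1 - v) - y := fun k => (le_of_abs_le (hd k)).trans
    ((min_le_right _ _).trans (min_le_right _ _))
  have lq := H.legB h1 hvt g0.le (by linarith : y ≤ η) le_rfl h0.le
  rw [zero_smul, add_zero] at lq
  have k1 := Hc δ hδ (hδ'.trans ((min_le_left _ _).trans (min_le_left _ _)))
  have key := H.prf.inc hp lq hpd (fun k => mul_nonneg hδ (uB_nonneg k)) (by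
    intro k
    have e1 := m1 k
    have e2 := m2 k
    have e3 := m3 k
    have e5 := H.RsR
    rw [Pi.add_apply]
    fin_cases k <;>
      simp only [xx, nt, uB, Pi.add_apply, Pi.smul_apply, smul_eq_mul, Matrix.cons_val,
        Fin.zero_eta, Fin.mk_one, Fin.reduceFinMk, Fin.isValue] at e1 e2 e3 ⊢ <;>
      linarith) (by
    intro k
    fin_cases k <;>
      simp [xx, nt, uB, hd2, hd6] <;> (right; ring))
  have e : xx w0 R θ (-t / θ 1) t 0 + y • uB + δ • uB =
      xx w0 R θ (-t / θ 1) t 0 + (y + δ) • uB := by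
    rw [add_smul, add_assoc]
  rw [e] at key
  linarith

end Dat

end Crest.Agent.R136.Z2H57
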