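import Crest.Agent.R136.Z2e_57

/-!
# R136, case (Z2') = (C2z), scalar half, part 5 (helper57): tools
-/

set_option autoImplicit false
set_option linter.unusedVariables false
set_option linter.unusedSectionVars false
set_option linter.unnecessarySeqFocus false

open Set Filter Topology MeasureTheory
open scoped NNReal ENNReal

namespace Crest.Agent.R136.Z2H57

open Crest.Agent.R136.Net191
open Crest.Agent.R136.NetQ186

variable {ν : (Fin 11 → ℝ) → ℝ} {R Rs w0 : ℝ} {θ : Fin 3 → ℝ} {g s c₀ : ℝ} {q : Fin 3 → ℝ}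
  {va vb η : ℝ}

theorem exists_of_ae_of_volume {P : ℝ → Prop} (h : ∀ᵐ x : ℝ, P x) {A : Set ℝ}
    (hA : 0 < volume A) : ∃ x ∈ A, P x := by
  by_contra hcon
  push Not at hcon
  have h1 : A ⊆ {x | ¬ P x} := fun x hx => hcon x hx
  have h2 : volume {x | ¬ P x} = 0 := by rw [← ae_iff]; exact h
  have := measure_mono_null h1 h2
  exact absurd this hA.ne'

theorem volume_good2 {F : ℝ → ℝ} {a b : ℝ} (hab : a ≤ b)
    (h : ∀ x ∈ Icc a b, ∀ y ∈ Icc a b, x ≤ y → 0 ≤ F y - F x ∧ F y - F x ≤ 2 * (y - x))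
    (hF : 0 < F b - F a) : 0 < volume (good F a b) := by
  have h1 : ML (fun x => F x / 2) a b := by
    intro x hx y hy hxy
    have := h x hx y hy hxy
    constructor <;> linarith [this.1, this.2]
  have h2 := volume_good hab h1
  have h3 : good (fun x => F x / 2) a b = good F a b := by
    ext x
    simp only [good, mem_ofPred_eq, deriv_div_const]
    constructor
    · rintro ⟨h4, h5⟩; exact ⟨h4, by linarith⟩
    · rintro ⟨h4, h5⟩; exact ⟨h4, by linarith⟩
  rw [h3] at h2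
  refine lt_of_lt_of_le ?_ h2
  rw [ENNReal.ofReal_pos]; linarith

/-- Lipschitz on `[a, b]`, all derivatives `≤ -Λ` a.e. -/
theorem sub_of_ae_deriv' {F : ℝ → ℝ} {a b Λ : ℝ} {K : ℝ≥0} (hab : a ≤ b)
    (h : LipschitzOnWith K F (Icc a b))
    (hd : ∀ᵐ x : ℝ, x ∈ Ioo a b → ∀ s : ℝ, HasDerivAt F s x → s ≤ -Λ) :
    F b - F a ≤ -(Λ * (b - a)) := by
  have hac : AbsolutelyContinuousOnInterval F a b := by
    refine LipschitzOnWith.absolutelyContinuousOnInterval (K := K) ?_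
    rw [uIcc_of_le hab]; exact h
  refine sub_of_ae_deriv hab h ?_
  filter_upwards [hd, hac.ae_differentiableAt] with x h1 h2 h3
  have h4 := (h2 (by rw [uIcc_of_le hab]; exact Ioo_subset_Icc_self h3)).hasDerivAt
  exact ⟨_, h4, h1 h3 _ h4⟩

theorem sum_v (Rt v v' t y : ℝ) : ∑ k, (xx w0 Rt θ v' t y k - xx w0 Rt θ v t y k) =
    (4 + 4 * (θ 2 - θ 0)) * (v' - v) := by
  simp only [Fin.sum_univ_succ, xx, nt]
  simp
  ring

theorem sum_y (Rt v t y : ℝ) : ∑ k, (xx w0 Rt θ v t y k - xx w0 Rt θ v t 0 k) = 6 * y := by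
  simp only [Fin.sum_univ_succ, xx, nt]
  simp
  ring

theorem xx_mono {Rt Rt' v v' t y y' : ℝ} (hκ : 0 < θ 2 - θ 0) (hR : Rt ≤ Rt') (hv : v ≤ v')
    (hy : y ≤ y') : xx w0 Rt θ v t y ≤ xx w0 Rt' θ v' t y' := by
  have h1 : 0 ≤ (θ 2 - θ 0) * (v' - v) := mul_nonneg hκ.le (by linarith)
  intro k
  fin_cases k <;>
    simp only [xx, nt, Matrix.cons_val, Fin.zero_eta, Fin.mk_one, Fin.reduceFinMk,
      Fin.isValue] <;>
    linarith

end Crest.Agent.R136.Z2H57
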