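import Crest.Agent.R136.Z2f_57

/-!
# R136, case (C2z), scalar half (helper57): planes of any slope

`z2_core` : the contradiction on ONE horizontal line `v ↦ xx v t y`.
-/

set_option autoImplicit false
set_option linter.unusedVariables false
set_option linter.unusedSectionVars false
set_option linter.unnecessarySeqFocus false

open Set Filter Topology MeasureTheory
open scoped NNReal ENNReal

namespace Crest.Agent.R136.Z2H57

open Crest.Agent.R136.Net191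
open Crest.Agent.R136.NetQ186

variable {ν : (Fin 11 → ℝ) → ℝ} {R Rs w0 : ℝ} {θ : Fin 3 → ℝ} {g s c₀ : ℝ} {q : Fin 3 → ℝ}
  {va vb η : ℝ}

/-- loss of `C_b + E` at the record box of `t` -/
noncomputable def GB (ν : (Fin 11 → ℝ) → ℝ) (R w0 : ℝ) (θ : Fin 3 → ℝ) (t h : ℝ) : ℝ :=
  ν (xx w0 R θ (-t / θ 1) t 0) - ν (xx w0 R θ (-t / θ 1) t 0 + h • uB)

/-- **contradiction on one horizontal line** -/
theorem z2_core (H : Dat ν R Rs w0 θ g s c₀ q va vb η) (h1 : 0 < θ 1) (hκ : 0 < θ 2 - θ 0)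
    (hq0 : 0 ≤ q 0) (hq2 : 0 < q 2) (hg : q 0 * (θ 2 - θ 0) < g) {t vm v2 y y2 : ℝ}
    (hvmI : vm ∈ Ioo va vb) (hvtI : -t / θ 1 ∈ Ioo va vb) (hm2 : vm < v2) (h2t : v2 < -t / θ 1)
    (hn : Th θ * (-t / θ 1 - vm) ≤ η / 2)
    (hv2d : |(1 - s) + 3 + (θ 2 - θ 0)| * (-t / θ 1 - v2) ≤
      (g - q 0 * (θ 2 - θ 0)) * (-t / θ 1 - vm) / 4)
    (hy0 : 0 < y) (hyy : y < y2) (hy2η : y2 ≤ η / 2) (hP : Pos ν (xx w0 R θ v2 t y2))
    (hyG : 0 < deriv (GB ν R w0 θ t) y) (hyη' : y < η / 2)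
    (ym1 : y < -t / θ 1 - v2) (ym2 : y < (θ 2 - θ 0) * (-t / θ 1 - v2))
    (ym3 : y ≤ (g - q 0 * (θ 2 - θ 0)) * (-t / θ 1 - vm) / 16)
    (hyW : ∀ᵐ v : ℝ, v ∈ Ioo va vb →
      Th θ * |v - -t / θ 1| ≤ η / 2 → v < -t / θ 1 →
        S1 ν R (xx w0 Rs θ v t y) → S2 ν R (xx w0 Rs θ v t y) →
          ∀ d : ℝ, HasDerivAt (fun v => ν (xx w0 Rs θ v t y)) d v →
            d ≤ -((1 - s) + 3 + (θ 2 - θ 0))) : False := by
  have h0 := H.η0
  have hRR : Rs ≤ R := by linarith [H.RsR]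
  have hTh : 1 ≤ Th θ := by
    unfold Th; have := abs_nonneg (θ 2); linarith
  have hTh0 : 0 < Th θ := by linarith
  obtain ⟨κ, hκd⟩ : ∃ κ, κ = θ 2 - θ 0 := ⟨_, rfl⟩
  obtain ⟨g', hg'⟩ : ∃ g', g' = g - q 0 * κ := ⟨_, rfl⟩
  rw [← hκd, ← hg'] at hv2d ym3
  rw [← hκd] at hg hκ ym2 hyW
  have hg0 : 0 < g' := by rw [hg']; linarith
  obtain ⟨Λ, hΛ⟩ : ∃ Λ, Λ = (1 - s) + 3 + κ := ⟨_, rfl⟩
  rw [← hΛ] at hv2d hyW
  obtain ⟨vt, hvt⟩ : ∃ vt, vt = -t / θ 1 := ⟨_, rfl⟩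
  rw [← hvt] at hvtI h2t hn hv2d ym1 ym2 ym3 hyW
  obtain ⟨D, hD⟩ : ∃ D, D = vt - vm := ⟨_, rfl⟩
  rw [← hD] at hn hv2d ym3
  have hD0 : 0 < D := by rw [hD]; linarith
  have hv2I : v2 ∈ Ioo va vb := ⟨by linarith [hvmI.1], by linarith [hvtI.2]⟩
  have hyη : |y| ≤ η / 2 := by rw [abs_of_pos hy0]; linarith
  have hrη : ∀ v : ℝ, vm ≤ v → v ≤ vt → Th θ * |v - -t / θ 1| ≤ η / 2 := by
    intro v ha hb
    rw [← hvt]
    have : |v - vt| ≤ D := by rw [abs_le, hD]; constructor <;> linarith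
    exact (mul_le_mul_of_nonneg_left this hTh0.le).trans hn
  -- monotonicity in `v`
  set F : ℝ → ℝ := fun v => ν (xx w0 Rs θ v t y) with hF
  have hκ' : 0 < θ 2 - θ 0 := by rw [← hκd]; exact hκ
  have hmono : ∀ v ∈ Icc vm v2, ∀ v' ∈ Icc vm v2, v ≤ v' → 0 ≤ F v - F v' ∧
      F v - F v' ≤ (4 + 4 * κ) * (v' - v) := by
    intro v hv v' hv' hvv
    have hI : ∀ x ∈ Icc vm v2, x ∈ Ioo va vb := fun x hx =>
      ⟨by linarith [hx.1, hvmI.1], by linarith [hx.2, hv2I.2]⟩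
    have l1 := H.legX0 h1 (hI v hv) (hrη v hv.1 (by linarith [hv.2])) hyη le_rfl hRR
    have l2 := H.legX0 h1 (hI v' hv') (hrη v' hv'.1 (by linarith [hv'.2])) hyη le_rfl hRR
    have := H.prf.lip _ l1 _ l2 (xx_mono hκ' le_rfl hvv le_rfl)
    rw [hκd]
    exact ⟨this.1, this.2.trans (le_of_eq (sum_v _ _ _ _ _))⟩
  have hlip : LipschitzOnWith (4 + 4 * κ).toNNReal F (Icc vm v2) := by
    have hK : 0 ≤ 4 + 4 * κ := by linarith
    refine LipschitzOnWith.of_dist_le_mul fun x hx y' hy' => ?_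
    rw [Real.dist_eq, Real.dist_eq, Real.coe_toNNReal _ hK]
    rcases le_total x y' with h2 | h2
    · have := hmono x hx y' hy' h2
      rw [abs_sub_comm x y', abs_of_nonneg this.1, abs_of_nonneg (by linarith : 0 ≤ y' - x)]
      exact this.2
    · have := hmono y' hy' x hx h2
      rw [abs_sub_comm, abs_of_nonneg this.1, abs_of_nonneg (by linarith : 0 ≤ x - y')]
      exact this.2
  have hsub : F v2 - F vm ≤ -(Λ * (v2 - vm)) := by
    refine sub_of_ae_deriv' hm2.le hlip ?_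
    filter_upwards [hyW] with v hv hvI
    have hvI' : v ∈ Ioo va vb := ⟨by linarith [hvI.1, hvmI.1], by linarith [hvI.2, hv2I.2]⟩
    have hvlt : v < -t / θ 1 := by rw [← hvt]; linarith [hvI.2]
    have hnv := hrη v hvI.1.le (by linarith [hvI.2])
    have hmv1 : y < -t / θ 1 - v := by
      rw [← hvt]
      linarith [hvI.2]
    have hmv2 : y < (θ 2 - θ 0) * (-t / θ 1 - v) := by
      rw [← hvt, ← hκd]
      have e2 : κ * (vt - v2) ≤ κ * (vt - v) := mul_le_mul_of_nonneg_left (by linarith [hvI.2]) hκ.le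
      linarith
    have hs1 := H.s1_of_pos h1 hκ' hvI' hv2I hvI.2 hyy
      (hrη v2 hm2.le h2t.le) (by rw [abs_of_pos (by linarith)]; linarith) hP
    have hs2 := H.s2_of_good h1 hκ' (v := v) (y := y) (by rw [← hvt]; exact hvtI) hvlt hmv1 hmv2
      ⟨⟨hy0, hyη'⟩, hyG⟩
    exact hv hvI' (by rw [hvt]; exact hnv) (by rw [hvt]; exact hvlt) hs1 hs2
  -- the two ends
  have hnm := near_xx (η := η) h1 (hrη vm le_rfl (by linarith)) hyη
  have hup : F vm ≤ c₀ + Ex g s q θ vm t y := by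
    refine H.dmx hvmI hnm le_rfl hRR ⟨vt, hvtI, ?_⟩
    have e1 : θ 2 / θ 1 * t = -(θ 2 * vt) := by rw [hvt]; ring
    have e2 : 0 ≤ κ * (vt - vm) := mul_nonneg hκ.le (by linarith)
    rw [hκd] at e2
    rw [e1]
    nlinarith
  have hvtI' : -t / θ 1 ∈ Ioo va vb := by rw [← hvt]; exact hvtI
  have hlow : c₀ + Ex g s q θ (-t / θ 1) t 0 - 6 * y ≤ F v2 := by
    have hI0 : Th θ * |-t / θ 1 - -t / θ 1| ≤ η / 2 := by
      rw [sub_self, abs_zero, mul_zero]; linarith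
    have l1 := H.legX0 h1 hvtI' hI0 (y := 0) (by rw [abs_zero]; linarith) hRR le_rfl
    have l2 := H.legX0 h1 hvtI' hI0 hyη hRR le_rfl
    have l3 := H.legX0 h1 hv2I (hrη v2 hm2.le h2t.le) hyη le_rfl hRR
    have hr := H.rcd _ hvtI'
    rw [← xx_rec h1, ← Ex_rec h1] at hr
    have e1 := (H.prf.lip _ l1 _ l2 (xx_mono hκ' le_rfl le_rfl hy0.le)).2
    rw [sum_y] at e1
    have e3 := (H.prf.lip _ l3 _ l2 (xx_mono hκ' hRR (by rw [← hvt]; exact h2t.le) le_rfl)).1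
    have e4 : F v2 = ν (xx w0 Rs θ v2 t y) := rfl
    rw [e4]
    linarith
  have hEx := Ex_sub (g := g) (s := s) (q := q) (θ := θ) vm t y (-t / θ 1) 0
  rw [← hvt] at hEx hlow
  rw [← hκd, ← hΛ, ← hg'] at hEx
  have k1 : Λ * (vt - v2) ≤ |Λ| * (vt - v2) :=
    mul_le_mul_of_nonneg_right (le_abs_self _) (by linarith)
  have k2 : 0 ≤ (q 0 + q 2) * y := mul_nonneg (by linarith) hy0.le
  have k3 : (g' - Λ) * (vt - vm) + (2 + q 0 + q 2) * y ≤ 6 * y - Λ * (v2 - vm) := by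
    have : (g' - Λ) * (vt - vm) - (2 + q 0 + q 2) * (0 - y) =
      (g' - Λ) * (vt - vm) + (2 + q 0 + q 2) * y := by ring
    linarith
  have k4 : g' * D ≤ 4 * y + g' * D / 4 := by
    rw [hD] at hv2d ⊢
    nlinarith
  have k5 : 0 < g' * D := mul_pos hg0 hD0
  linarith

end Crest.Agent.R136.Z2H57
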