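import Crest.Agent.R136.Z2g_57

/-!
# R136, case (C2z), scalar half (helper57): **`z2_falseP`**, planes of any slope `sg`
-/

set_option autoImplicit false
set_option linter.unusedVariables false
set_option linter.unusedSectionVars false
set_option linter.unnecessarySeqFocus false

open Set Filter Topology MeasureTheory
open scoped NNReal ENNReal

namespace Crest.Agent.R136.Z2H57

open Crest.Agent.R136.Net191
open Crest.Agent.R136.NetQ186

variable {ν : (Fin 11 → ℝ) → ℝ} {R Rs w0 : ℝ} {θ : Fin 3 → ℝ} {g s c₀ : ℝ} {q : Fin 3 → ℝ}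
  {va vb η : ℝ}

/-! ### measurability -/

theorem continuous_xx (w0 Rt : ℝ) (θ : Fin 3 → ℝ) :
    Continuous fun z : ℝ × ℝ × ℝ => xx w0 Rt θ z.1 z.2.1 z.2.2 := by
  refine continuous_pi fun k => ?_
  fin_cases k <;> simp only [xx, nt, Matrix.cons_val, Fin.zero_eta, Fin.mk_one, Fin.reduceFinMk,
    Fin.isValue] <;> fun_prop

theorem continuous_smul_uC : Continuous fun δ : ℝ => δ • uC := by fun_prop

theorem measurableSet_pos (hc : Continuous ν) {α : Type*} [TopologicalSpace α]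
    [MeasurableSpace α] [BorelSpace α] {f : α → Fin 11 → ℝ} (hf : Continuous f) :
    MeasurableSet {z | Pos ν (f z)} := by
  have e : {z | Pos ν (f z)} = ⋃ n : ℕ, {z | ∀ δ : ℝ, 0 ≤ δ → δ ≤ 1 / ((n : ℝ) + 1) →
      1 / ((n : ℝ) + 1) * δ ≤ ν (f z) - ν (f z + δ • uC)} := by
    ext z
    simp only [mem_ofPred_eq, mem_iUnion]
    constructor
    · rintro ⟨c, hc, h0, hh, H⟩
      obtain ⟨n, hn⟩ := exists_nat_one_div_lt (lt_min hc hh)
      refine ⟨n, fun δ h1 h2 => ?_⟩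
      have h3 := H δ h1 (h2.trans (hn.le.trans (min_le_right _ _)))
      refine le_trans ?_ h3
      exact mul_le_mul_of_nonneg_right (hn.le.trans (min_le_left _ _)) h1
    · rintro ⟨n, hn⟩
      have : (0 : ℝ) < 1 / ((n : ℝ) + 1) := by positivity
      exact ⟨_, this, _, this, hn⟩
  rw [e]
  refine MeasurableSet.iUnion fun n => IsClosed.measurableSet ?_
  have e2 : {z | ∀ δ : ℝ, 0 ≤ δ → δ ≤ 1 / ((n : ℝ) + 1) →
      1 / ((n : ℝ) + 1) * δ ≤ ν (f z) - ν (f z + δ • uC)} =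
      ⋂ δ : ℝ, ⋂ (_ : 0 ≤ δ), ⋂ (_ : δ ≤ 1 / ((n : ℝ) + 1)),
        {z | 1 / ((n : ℝ) + 1) * δ ≤ ν (f z) - ν (f z + δ • uC)} := by
    ext z; simp
  rw [e2]
  refine isClosed_iInter fun δ => isClosed_iInter fun _ => isClosed_iInter fun _ => ?_
  exact isClosed_le continuous_const ((hc.comp hf).sub (hc.comp (hf.add continuous_const)))

theorem continuous_GB (hc : Continuous ν) (R w0 : ℝ) (θ : Fin 3 → ℝ) :
    Continuous (Function.uncurry (GB ν R w0 θ)) := by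
  have h1 : Continuous fun z : ℝ × ℝ => xx w0 R θ (-z.1 / θ 1) z.1 0 :=
    (continuous_xx w0 R θ).comp (f := fun z : ℝ × ℝ => ((-z.1 / θ 1, z.1, 0) : ℝ × ℝ × ℝ))
      (by fun_prop)
  have h2 : Continuous fun z : ℝ × ℝ => xx w0 R θ (-z.1 / θ 1) z.1 0 + z.2 • uB :=
    h1.add (by fun_prop)
  exact (hc.comp h1).sub (hc.comp h2)

/-! ### Fubini -/

/-- a measurable plane set whose vertical sections have positive measure for a.e. `t ∈ (a, b)` has a
horizontal section of positive measure -/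
theorem exists_section {S : Set (ℝ × ℝ)} (hS : MeasurableSet S) {a b : ℝ} (hab : a < b)
    (h : ∀ᵐ t : ℝ, t ∈ Ioo a b → 0 < volume {c : ℝ | (t, c) ∈ S}) :
    ∃ c : ℝ, 0 < volume {t : ℝ | (t, c) ∈ S} := by
  by_contra hcon
  push Not at hcon
  have h1 : ∀ c : ℝ, volume {t : ℝ | (t, c) ∈ S} = 0 := fun c => le_antisymm (hcon c) bot_le
  have hS2 : MeasurableSet (Prod.swap ⁻¹' S) := measurable_swap hS
  have h2 : ((volume : Measure ℝ).prod volume) (Prod.swap ⁻¹' S) = 0 := by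
    rw [Measure.measure_prod_null hS2]
    exact Eventually.of_forall fun c => h1 c
  have h3 : ((volume : Measure ℝ).prod volume) S = 0 := by
    rw [← (Measure.measurePreserving_swap (μ := (volume : Measure ℝ))
      (ν := (volume : Measure ℝ))).measure_preimage hS.nullMeasurableSet]
    exact h2
  rw [Measure.measure_prod_null hS] at h3
  obtain ⟨t, ht, h4⟩ := exists_of_ae_of_volume (h.and h3) (A := Ioo a b) (by
    rw [Real.volume_Ioo, ENNReal.ofReal_pos]; linarith)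
  have h5 := h4.1 ht
  have h6 : volume (Prod.mk t ⁻¹' S) = 0 := h4.2
  exact absurd h6 h5.ne'

/-! ### the boxes of a plane of slope `sg` -/

/-- natural box on the plane of slope `sg`: `z = (v, t)` -/
noncomputable def bx (w0 Rt : ℝ) (θ : Fin 3 → ℝ) (sg c : ℝ) (z : ℝ × ℝ) : Fin 11 → ℝ :=
  nt w0 Rt z.1 z.2 (sg * z.2 + c) ((θ 2 - θ 0) * z.1 + (sg * z.2 + c))

theorem bx_eq (w0 Rt : ℝ) (θ : Fin 3 → ℝ) (sg c : ℝ) (z : ℝ × ℝ) :
    bx w0 Rt θ sg c z = xx w0 Rt θ z.1 z.2 (sg * z.2 + c - θ 2 / θ 1 * z.2) := by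
  unfold bx xx
  rw [show θ 2 / θ 1 * z.2 + (sg * z.2 + c - θ 2 / θ 1 * z.2) = sg * z.2 + c by ring]

/-- **window input**, planes of slope `sg`: at a.e. point `z = (v, t)` below the record and above
the diagonal the sweeps make all coordinates full -/
def WP (ν : (Fin 11 → ℝ) → ℝ) (R Rs w0 : ℝ) (θ : Fin 3 → ℝ) (s va vb η sg : ℝ) : Prop :=
  ∀ c : ℝ, ∀ᵐ z : ℝ × ℝ, z.1 ∈ Ioo va vb → -z.2 / θ 1 ∈ Ioo va vb →
    Th θ * |z.1 - -z.2 / θ 1| ≤ η / 2 → z.1 < -z.2 / θ 1 →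
      0 < sg * z.2 + c - θ 2 / θ 1 * z.2 → sg * z.2 + c - θ 2 / θ 1 * z.2 ≤ η / 2 →
        S1 ν R (bx w0 Rs θ sg c z) → S2 ν R (bx w0 Rs θ sg c z) →
          ∀ d : ℝ, HasDerivAt (fun v => ν (bx w0 Rs θ sg c (v, z.2))) d z.1 →
            d ≤ -((1 - s) + 3 + (θ 2 - θ 0))

/-- `Pos` is inherited by smaller `y` -/
theorem Dat.pos_anti (H : Dat ν R Rs w0 θ g s c₀ q va vb η) (h1 : 0 < θ 1) {v t y y2 : ℝ}
    (hv : v ∈ Ioo va vb) (hn : Th θ * |v - -t / θ 1| ≤ η / 2) (hy : |y| ≤ η / 2)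
    (hy2 : |y2| ≤ η / 2) (hyy : y ≤ y2) (hP : Pos ν (xx w0 R θ v t y2)) :
    Pos ν (xx w0 R θ v t y) := by
  have h0 := H.η0
  have hRR : Rs ≤ R := by linarith [H.RsR]
  obtain ⟨c, hc, h, hh, Hc⟩ := hP
  refine ⟨c, hc, min h η, lt_min hh h0, fun δ hδ hδ' => ?_⟩
  have k1 := Hc δ hδ (hδ'.trans (min_le_left _ _))
  have lp := H.legX0 h1 hv hn hy hRR le_rfl
  have lq := H.legX0 h1 hv hn hy2 hRR le_rfl
  have lpd := H.legX h1 hv hn hy hδ (hδ'.trans (min_le_right _ _)) hRR le_rfl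
  have key := H.prf.inc lp lq lpd (fun k => mul_nonneg hδ (uC_nonneg k)) (by
    intro k
    fin_cases k <;>
      simp only [xx, nt, Matrix.cons_val, Fin.zero_eta, Fin.mk_one, Fin.reduceFinMk,
        Fin.isValue] <;>
      linarith) (by
    intro k
    fin_cases k <;> simp [xx, nt, uC])
  linarith

set_option maxHeartbeats 1000000 in
/-- continuous profile -/
theorem z2_falsePc (hc : Continuous ν) (H : Dat ν R Rs w0 θ g s c₀ q va vb η) (h1 : 0 < θ 1)
    (hκ : 0 < θ 2 - θ 0) (hq0 : 0 ≤ q 0) (hq1 : 0 < q 1) (hq2 : 0 < q 2)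
    (hσ : θ 2 ≤ q 1 / 4 * θ 1) (hg : q 0 * (θ 2 - θ 0) < g) (sg : ℝ)
    (hW : WP ν R Rs w0 θ s va vb η sg) : False := by
  have h0 := H.η0
  have hab := H.vab
  have hRR : Rs ≤ R := by linarith [H.RsR]
  have hTh : 1 ≤ Th θ := by
    unfold Th; have := abs_nonneg (θ 2); linarith
  have hTh0 : 0 < Th θ := by linarith
  obtain ⟨κ, hκd⟩ : ∃ κ, κ = θ 2 - θ 0 := ⟨_, rfl⟩
  obtain ⟨g', hg'⟩ : ∃ g', g' = g - q 0 * κ := ⟨_, rfl⟩
  have hκ0 : 0 < κ := by rw [hκd]; exact hκ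
  have hg0 : 0 < g' := by rw [hg', hκd]; linarith
  obtain ⟨Λ, hΛ⟩ : ∃ Λ, Λ = (1 - s) + 3 + κ := ⟨_, rfl⟩
  obtain ⟨vm, hvm⟩ : ∃ vm, vm = (va + vb) / 2 := ⟨_, rfl⟩
  obtain ⟨r, hr⟩ : ∃ r, r = min ((vb - va) / 4) (η / (8 * Th θ)) := ⟨_, rfl⟩
  have hr0 : 0 < r := by rw [hr]; exact lt_min (by linarith) (by positivity)
  have hr1 : r ≤ (vb - va) / 4 := by rw [hr]; exact min_le_left _ _
  have hr2 : Th θ * r ≤ η / 8 := by
    have : r ≤ η / (8 * Th θ) := by rw [hr]; exact min_le_right _ _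
    rw [le_div_iff₀ (by positivity)] at this
    linarith
  -- `v2`, width `e`
  obtain ⟨v2, hv2⟩ : ∃ v2, v2 = vm + r / 2 := ⟨_, rfl⟩
  obtain ⟨e, he⟩ : ∃ e, e = min (r / 2) (g' * r / (8 * (|Λ| + 1))) := ⟨_, rfl⟩
  have hΛ0 : 0 ≤ |Λ| := abs_nonneg _
  have he0 : 0 < e := by rw [he]; exact lt_min (by linarith) (by positivity)
  have he1 : e ≤ r / 2 := by rw [he]; exact min_le_left _ _
  have he2 : |Λ| * e ≤ g' * r / 8 := by
    have : e ≤ g' * r / (8 * (|Λ| + 1)) := by rw [he]; exact min_le_right _ _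
    rw [le_div_iff₀ (by positivity)] at this
    nlinarith
  have hvmI : vm ∈ Ioo va vb := ⟨by linarith, by linarith⟩
  have hv2I : v2 ∈ Ioo va vb := ⟨by linarith, by linarith⟩
  obtain ⟨y3, hy3⟩ : ∃ y3, y3 = min (min (e / 2) (κ * (e / 2))) (min (g' * r / 64) (η / 8)) :=
    ⟨_, rfl⟩
  have hy30 : 0 < y3 := by
    rw [hy3]
    exact lt_min (lt_min (by linarith) (mul_pos hκ0 (by linarith)))
      (lt_min (by positivity) (by positivity))
  have hy3a : y3 ≤ e / 2 := by rw [hy3]; exact (min_le_left _ _).trans (min_le_left _ _)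
  have hy3b : y3 ≤ κ * (e / 2) := by rw [hy3]; exact (min_le_left _ _).trans (min_le_right _ _)
  have hy3c : y3 ≤ g' * r / 64 := by rw [hy3]; exact (min_le_right _ _).trans (min_le_left _ _)
  have hy3d : y3 ≤ η / 8 := by rw [hy3]; exact (min_le_right _ _).trans (min_le_right _ _)
  obtain ⟨ta, hta⟩ : ∃ ta, ta = -(θ 1 * (v2 + e)) := ⟨_, rfl⟩
  obtain ⟨tb, htb⟩ : ∃ tb, tb = -(θ 1 * (v2 + e / 2)) := ⟨_, rfl⟩
  have htab : ta < tb := by rw [hta, htb]; nlinarith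
  have hvt : ∀ t ∈ Ioo ta tb, v2 + e / 2 < -t / θ 1 ∧ -t / θ 1 < v2 + e := by
    intro t ht
    constructor
    · rw [lt_div_iff₀ h1]; linarith [ht.2, mul_comm (θ 1) (v2 + e / 2)]
    · rw [div_lt_iff₀ h1]; linarith [ht.1, mul_comm (θ 1) (v2 + e)]
  have hvtI : ∀ t ∈ Ioo ta tb, -t / θ 1 ∈ Ioo va vb := by
    intro t ht
    have := hvt t ht
    exact ⟨by linarith [hv2I.1], by linarith⟩
  -- the set
  set Y : ℝ × ℝ → ℝ := fun z => sg * z.1 + z.2 - θ 2 / θ 1 * z.1 with hY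
  have hYc : Continuous Y := by rw [hY]; fun_prop
  set S : Set (ℝ × ℝ) := {z | z.1 ∈ Ioo ta tb ∧ Y z ∈ Ioo 0 y3 ∧
    Pos ν (xx w0 R θ v2 z.1 (2 * Y z)) ∧ 0 < deriv (GB ν R w0 θ z.1) (Y z)} with hS
  have hSm : MeasurableSet S := by
    have m1 : MeasurableSet {z : ℝ × ℝ | z.1 ∈ Ioo ta tb} := measurable_fst measurableSet_Ioo
    have m2 : MeasurableSet {z : ℝ × ℝ | Y z ∈ Ioo 0 y3} := hYc.measurable measurableSet_Ioo
    have m3 : MeasurableSet {z : ℝ × ℝ | Pos ν (xx w0 R θ v2 z.1 (2 * Y z))} := by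
      refine measurableSet_pos hc ?_
      exact (continuous_xx w0 R θ).comp
        (f := fun z : ℝ × ℝ => ((v2, z.1, 2 * Y z) : ℝ × ℝ × ℝ)) (by fun_prop)
    have m4 : MeasurableSet {z : ℝ × ℝ | 0 < deriv (GB ν R w0 θ z.1) (Y z)} := by
      have h5 := measurable_deriv_with_param (continuous_GB hc R w0 θ)
      have h6 : Measurable fun z : ℝ × ℝ => (z.1, Y z) := measurable_fst.prodMk hYc.measurable
      exact (h5.comp h6) measurableSet_Ioi
    exact m1.inter (m2.inter (m3.inter m4))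
  -- sections
  have hsec : ∀ᵐ t : ℝ, t ∈ Ioo ta tb → 0 < volume {c : ℝ | (t, c) ∈ S} := by
    filter_upwards [H.pos_ae h1 hκ hq1 hσ hv2I one_pos] with t ht htI
    have hv := hvt t htI
    have hI := hvtI t htI
    have hn2 : Th θ * (-t / θ 1 - v2) ≤ η / 4 := by
      have : -t / θ 1 - v2 ≤ r := by linarith
      nlinarith
    have hn2' : Th θ * |v2 - -t / θ 1| ≤ η / 2 := by
      rw [abs_sub_comm, abs_of_nonneg (by linarith)]; linarith
    obtain ⟨y2, hy20, -, hy2η, hP⟩ := ht (by linarith) hI.2 hn2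
    obtain ⟨y4, hy4⟩ : ∃ y4, y4 = min (y2 / 2) y3 := ⟨_, rfl⟩
    have hy40 : 0 < y4 := by rw [hy4]; exact lt_min (by linarith) hy30
    have hy4a : y4 ≤ y2 / 2 := by rw [hy4]; exact min_le_left _ _
    have hy4b : y4 ≤ y3 := by rw [hy4]; exact min_le_right _ _
    have hGv : 0 < volume (good (GB ν R w0 θ t) 0 y4) := by
      refine volume_good2 hy40.le ?_ ?_
      · intro x hx y hy hxy
        have := (H.mlB h1 hI).2 x ⟨hx.1, by linarith [hx.2]⟩ y ⟨hy.1, by linarith [hy.2]⟩ hxy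
        have e : GB ν R w0 θ t y - GB ν R w0 θ t x = ν (xx w0 R θ (-t / θ 1) t 0 + x • uB) -
          ν (xx w0 R θ (-t / θ 1) t 0 + y • uB) := by simp only [GB]; ring
        rw [e]; exact this
      · have e0 : GB ν R w0 θ t 0 = 0 := by simp [GB]
        have e1 := H.lossB h1 hI hy40.le (by linarith : y4 ≤ η)
        have e2 : GB ν R w0 θ t y4 = ν (xx w0 R θ (-t / θ 1) t 0) -
          ν (xx w0 R θ (-t / θ 1) t 0 + y4 • uB) := rfl
        rw [e0, e2, sub_zero]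
        have : 0 < q 2 * y4 := mul_pos hq2 hy40
        linarith
    have hsub : (fun c => (sg * t - θ 2 / θ 1 * t) + c) ⁻¹' good (GB ν R w0 θ t) 0 y4 ⊆
        {c : ℝ | (t, c) ∈ S} := by
      intro c hcg
      have e1 : Y (t, c) = (sg * t - θ 2 / θ 1 * t) + c := by simp only [hY]; ring
      have hcg' : Y (t, c) ∈ good (GB ν R w0 θ t) 0 y4 := by rw [e1]; exact hcg
      obtain ⟨⟨g1, g2⟩, g3⟩ := hcg'
      refine ⟨htI, ⟨g1, by linarith⟩, ?_, g3⟩
      refine H.pos_anti h1 hv2I hn2' ?_ ?_ ?_ hP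
      · rw [abs_of_pos (by linarith)]; linarith
      · rw [abs_of_pos hy20]; linarith
      · linarith
    refine lt_of_lt_of_le ?_ (measure_mono hsub)
    rw [measure_preimage_add]
    exact hGv
  obtain ⟨c, hcv⟩ := exists_section hSm htab hsec
  -- the window input on the line `c`
  have hWs : ∀ᵐ t : ℝ, ∀ᵐ v : ℝ, v ∈ Ioo va vb → -t / θ 1 ∈ Ioo va vb →
      Th θ * |v - -t / θ 1| ≤ η / 2 → v < -t / θ 1 →
      0 < sg * t + c - θ 2 / θ 1 * t → sg * t + c - θ 2 / θ 1 * t ≤ η / 2 →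
        S1 ν R (bx w0 Rs θ sg c (v, t)) → S2 ν R (bx w0 Rs θ sg c (v, t)) →
          ∀ d : ℝ, HasDerivAt (fun v => ν (bx w0 Rs θ sg c (v, t))) d v →
            d ≤ -((1 - s) + 3 + (θ 2 - θ 0)) := by
    have h3 : ∀ᵐ z : ℝ × ℝ ∂((volume : Measure ℝ).prod volume), z.2 ∈ Ioo va vb →
      -z.1 / θ 1 ∈ Ioo va vb →
      Th θ * |z.2 - -z.1 / θ 1| ≤ η / 2 → z.2 < -z.1 / θ 1 →
      0 < sg * z.1 + c - θ 2 / θ 1 * z.1 → sg * z.1 + c - θ 2 / θ 1 * z.1 ≤ η / 2 →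
        S1 ν R (bx w0 Rs θ sg c (z.2, z.1)) → S2 ν R (bx w0 Rs θ sg c (z.2, z.1)) →
          ∀ d : ℝ, HasDerivAt (fun v => ν (bx w0 Rs θ sg c (v, z.1))) d z.2 →
            d ≤ -((1 - s) + 3 + (θ 2 - θ 0)) :=
      (Measure.measurePreserving_swap (μ := (volume : Measure ℝ))
        (ν := (volume : Measure ℝ))).quasiMeasurePreserving.ae (hW c)
    exact Measure.ae_ae_of_ae_prod h3
  obtain ⟨t, htS, htW⟩ := exists_of_ae_of_volume hWs hcv
  obtain ⟨htI, hYI, hP, hG⟩ := htS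
  obtain ⟨y, hy⟩ : ∃ y, y = Y (t, c) := ⟨_, rfl⟩
  rw [← hy] at hYI hP hG
  have hy' : y = sg * t + c - θ 2 / θ 1 * t := hy
  have hv := hvt t htI
  have hI := hvtI t htI
  have hYI1 : 0 < y := hYI.1
  have hYI2 : y < y3 := hYI.2
  have hD1 : r / 2 ≤ -t / θ 1 - vm := by linarith
  refine z2_core H h1 hκ hq0 hq2 hg (t := t) (vm := vm) (v2 := v2) (y := y) (y2 := 2 * y) hvmI hI
    (by linarith) (by linarith) ?_ ?_ hYI1 (by linarith) (by linarith) hP hG (by linarith)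
    (by linarith) ?_ ?_ ?_
  · have : -t / θ 1 - vm ≤ r := by linarith
    nlinarith
  · rw [← hκd, ← hg', ← hΛ]
    have a1 : |Λ| * (-t / θ 1 - v2) ≤ |Λ| * e := mul_le_mul_of_nonneg_left (by linarith) hΛ0
    have a2 : g' * (r / 2) ≤ g' * (-t / θ 1 - vm) := mul_le_mul_of_nonneg_left hD1 hg0.le
    linarith
  · rw [← hκd]
    have a1 : κ * (e / 2) ≤ κ * (-t / θ 1 - v2) := mul_le_mul_of_nonneg_left (by linarith) hκ0.le
    linarith
  · rw [← hκd, ← hg']
    have a2 : g' * (r / 2) ≤ g' * (-t / θ 1 - vm) := mul_le_mul_of_nonneg_left hD1 hg0.le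
    have a3 : 0 < g' * r := mul_pos hg0 hr0
    linarith
  · filter_upwards [htW] with v hvv b1 b2 b3 b4 b5 d hd
    have e1 : ∀ v' : ℝ, bx w0 Rs θ sg c (v', t) = xx w0 Rs θ v' t y := by
      intro v'
      rw [bx_eq, hy']
    refine hvv b1 hI b2 b3 (by rw [← hy']; exact hYI1) (by rw [← hy']; linarith) ?_ ?_ d ?_
    · rw [e1]; exact b4
    · rw [e1]; exact b5
    · simp only [e1]; exact hd

/-! ### Lipschitz extension -/

theorem Prf.lipOn (H : Prf ν R) : LipschitzOnWith 11 ν (Leg monQ R) := by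
  refine LipschitzOnWith.of_dist_le_mul fun p hp q hq => ?_
  have hs : p ⊔ q ∈ Leg monQ R := by
    refine ⟨⟨fun k => ?_, fun k e he => ?_⟩, fun k => ?_⟩
    · exact (hp.1.nonneg k).trans (by rw [Pi.sup_apply]; exact le_sup_left)
    · rw [Pi.sup_apply]
      refine sup_le ((hp.1.wall k e he).trans ?_) ((hq.1.wall k e he).trans ?_)
      · exact Finset.sum_le_sum fun s _ => mul_le_mul_of_nonneg_left le_sup_left (Nat.cast_nonneg _)
      · exact Finset.sum_le_sum fun s _ =>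
          mul_le_mul_of_nonneg_left le_sup_right (Nat.cast_nonneg _)
    · rw [Pi.sup_apply]; exact sup_le (hp.2 k) (hq.2 k)
  have h1 := H.lip p hp _ hs le_sup_left
  have h2 := H.lip q hq _ hs le_sup_right
  have key : ∀ i, |(p ⊔ q) i - p i| ≤ dist p q ∧ |(p ⊔ q) i - q i| ≤ dist p q := by
    intro i
    have h3 : |p i - q i| ≤ dist p q := by
      have := dist_le_pi_dist p q i
      rwa [Real.dist_eq] at this
    have h4 : 0 ≤ dist p q := dist_nonneg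
    rw [Pi.sup_apply]
    rcases le_total (p i) (q i) with h5 | h5
    · rw [sup_eq_right.2 h5, sub_self, abs_zero, abs_sub_comm]; exact ⟨h3, h4⟩
    · rw [sup_eq_left.2 h5, sub_self, abs_zero]; exact ⟨h4, h3⟩
  have b1 : ∑ k, ((p ⊔ q) k - p k) ≤ 11 * dist p q := by
    calc ∑ k, ((p ⊔ q) k - p k) ≤ ∑ _k : Fin 11, dist p q :=
          Finset.sum_le_sum fun k _ => (le_abs_self _).trans (key k).1
      _ = 11 * dist p q := by
          rw [Finset.sum_const, Finset.card_univ, Fintype.card_fin, nsmul_eq_mul]; norm_num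
  have b2 : ∑ k, ((p ⊔ q) k - q k) ≤ 11 * dist p q := by
    calc ∑ k, ((p ⊔ q) k - q k) ≤ ∑ _k : Fin 11, dist p q :=
          Finset.sum_le_sum fun k _ => (le_abs_self _).trans (key k).2
      _ = 11 * dist p q := by
          rw [Finset.sum_const, Finset.card_univ, Fintype.card_fin, nsmul_eq_mul]; norm_num
  rw [Real.dist_eq, abs_le]
  simp only [NNReal.coe_ofNat]
  constructor <;> linarith [h1.1, h1.2, h2.1, h2.2]

/-- change of the profile outside the legal boxes, smaller `η` -/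
theorem Dat.congr {ν' : (Fin 11 → ℝ) → ℝ} (H : Dat ν R Rs w0 θ g s c₀ q va vb η)
    (he : EqOn ν ν' (Leg monQ R)) {η' : ℝ} (h0' : 0 < η') (hη : η' ≤ η) :
    Dat ν' R Rs w0 θ g s c₀ q va vb η' := by
  have hRR : Rs ≤ R := by linarith [H.RsR, H.η0]
  refine ⟨⟨fun p hp p' hp' hpq => ?_, fun p hp p' hp' hi => ?_⟩, h0', H.vab, hη.trans H.Rs0, ?_,
    fun v hv t1 t2 t3 a1 a2 a3 k => ?_, fun v hv t1 t2 t3 a1 a2 a3 k => ?_,
    fun v hv t3 a3 => ?_, fun v hv t1 t2 t3 a1 a2 a3 a4 => ?_, fun v hv => ?_⟩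
  · rw [← he hp, ← he hp']; exact H.prf.lip p hp p' hp' hpq
  · have hs : p ⊔ p' ∈ Leg monQ R := by
      refine ⟨⟨fun k => ?_, fun k e he => ?_⟩, fun k => ?_⟩
      · exact (hp.1.nonneg k).trans (by rw [Pi.sup_apply]; exact le_sup_left)
      · rw [Pi.sup_apply]
        refine sup_le ((hp.1.wall k e he).trans ?_) ((hp'.1.wall k e he).trans ?_)
        · exact Finset.sum_le_sum fun s _ =>
            mul_le_mul_of_nonneg_left le_sup_left (Nat.cast_nonneg _)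
        · exact Finset.sum_le_sum fun s _ =>
            mul_le_mul_of_nonneg_left le_sup_right (Nat.cast_nonneg _)
      · rw [Pi.sup_apply]; exact sup_le (hp.2 k) (hp'.2 k)
    rw [← he hp, ← he hp', ← he hs, ← he hi]; exact H.prf.sub p hp p' hp' hi
  · linarith [H.RsR]
  · linarith [H.lo v hv t1 t2 t3 (a1.trans hη) (a2.trans hη) (a3.trans hη) k]
  · linarith [H.hi v hv t1 t2 t3 (a1.trans hη) (a2.trans hη) (a3.trans hη) k]
  · linarith [H.pw v hv t3 (a3.trans hη)]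
  · have hl := H.leg0 hv ⟨a1.trans hη, a2.trans hη, a3.trans hη⟩ le_rfl hRR
    rw [← he hl]
    exact H.dmax v hv t1 t2 t3 (a1.trans hη) (a2.trans hη) (a3.trans hη) a4
  · have z : ∀ x : ℝ, |-(x * v) + x * v| ≤ η := by
      intro x
      rw [neg_add_cancel, abs_zero]; exact H.η0.le
    have hl := H.leg0 hv ⟨z _, z _, z _⟩ hRR le_rfl
    rw [← he hl]
    exact H.rcd v hv

/-- **(C2z), scalar half, planes of any slope** -/
theorem z2_falseP (H : Dat ν R Rs w0 θ g s c₀ q va vb η) (h1 : 0 < θ 1)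
    (hκ : 0 < θ 2 - θ 0) (hq0 : 0 ≤ q 0) (hq1 : 0 < q 1) (hq2 : 0 < q 2)
    (hσ : θ 2 ≤ q 1 / 4 * θ 1) (hg : q 0 * (θ 2 - θ 0) < g) (sg : ℝ)
    (hW : WP ν R Rs w0 θ s va vb η sg) : False := by
  have h0 := H.η0
  have hRR : Rs ≤ R := by linarith [H.RsR]
  obtain ⟨ν', hL, he⟩ := H.prf.lipOn.extend_real
  refine z2_falsePc hL.continuous (H.congr he (by linarith : 0 < η / 2) (by linarith)) h1 hκ hq0
    hq1 hq2 hσ hg sg fun c => ?_
  filter_upwards [hW c] with z hz a1 a2 a3 a4 a5 a6 a7 a8 d hd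
  refine hz a1 a2 (by linarith) a4 a5 (by linarith) ?_ ?_ d ?_
  · obtain ⟨c', hc', h', hh', K⟩ := a7
    refine ⟨c', hc', h', hh', fun d b1 b2 δ b3 b4 b5 b6 => ?_⟩
    rw [he b5, he b6]
    exact K d b1 b2 δ b3 b4 b5 b6
  · obtain ⟨c', hc', h', hh', K⟩ := a8
    refine ⟨c', hc', h', hh', fun d b1 b2 b2' b2'' δ b3 b4 b5 b6 => ?_⟩
    rw [he b5, he b6]
    exact K d b1 b2 b2' b2'' δ b3 b4 b5 b6
  · refine hd.congr_of_eventuallyEq ?_
    have o1 : ∀ᶠ v in 𝓝 z.1, v ∈ Ioo va vb := isOpen_Ioo.mem_nhds a1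
    have o2 : ∀ᶠ v in 𝓝 z.1, Th θ * |v - -z.2 / θ 1| < η / 2 := by
      have hcont : Continuous fun v : ℝ => Th θ * |v - -z.2 / θ 1| := by fun_prop
      refine hcont.continuousAt.eventually_lt_const ?_
      linarith
    filter_upwards [o1, o2] with v b1 b2
    have hl : bx w0 Rs θ sg c (v, z.2) ∈ Leg monQ R := by
      rw [bx_eq]
      refine H.legX0 h1 b1 b2.le ?_ le_rfl hRR
      simp only
      rw [abs_of_pos a5]
      linarith
    exact he hl

end Crest.Agent.R136.Z2H57
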