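import Crest.Agent.R136.Z2h_57
import Crest.Agent.R136.Tb2_628

/-!
# R136, case (C2z) (helper57): `Dat` in the thick branch

`dat_of_cx` : from 628's `Cx`.
-/

set_option autoImplicit false
set_option linter.unusedVariables false
set_option linter.unusedSectionVars false
set_option linter.unnecessarySeqFocus false

open Set Filter Topology MeasureTheory

namespace Crest.Agent.R136.Z2H57

open Crest.Agent.R136.Net191
open Crest.Agent.R136.NetQ186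
open Crest.Agent.R136.NatT550
open Crest.Agent.R136.NatR550
open Crest.Agent.R136.Wq638
open Crest.Agent.R136.Tb628 (Cx)

theorem nt_eq (w0 R v t1 t2 t3 : ℝ) : nt w0 R v t1 t2 t3 = nat4 w0 R v t1 t2 t3 := rfl

theorem DQ_En (g s : ℝ) (q : Fin 3 → ℝ) (w0 R v t1 t2 t3 : ℝ) :
    DQ g s q w0 (nat4 w0 R v t1 t2 t3) = En g s q v t1 t2 t3 := by
  rw [DQ_nat4]; rfl

/-- slots of the natural boxes near the record line -/
theorem slots_near {θ : Fin 3 → ℝ} {w0 R T0 v t1 t2 t3 η : ℝ} (h : BigQ θ w0 R T0)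
    (hv0 : 0 ≤ v) (hv1 : v ≤ 2 / 3) (h0 : 0 < η) (hη : η ≤ 1 / 8) (a1 : |t1 + θ 1 * v| ≤ η)
    (a2 : |t2 + θ 2 * v| ≤ η) (a3 : |t3 + θ 0 * v| ≤ η) :
    (∀ k, η ≤ nt w0 (R - 1) v t1 t2 t3 k) ∧ (∀ k, nt w0 (R - 1) v t1 t2 t3 k + η ≤ R) ∧
      3 * w0 + t3 + η ≤ w0 + v + (R - 1) := by
  have b0 := h.bd hv0 (by linarith) 0
  have b1 := h.bd hv0 (by linarith) 1
  have b2 := h.bd hv0 (by linarith) 2
  have e0 := h.T0
  have e1 := h.w0T
  have e2 := h.R0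
  rw [abs_le] at a1 a2 a3
  refine ⟨fun k => ?_, fun k => ?_, by linarith⟩ <;>
    fin_cases k <;>
      simp only [nt, Matrix.cons_val, Fin.zero_eta, Fin.mk_one, Fin.reduceFinMk, Fin.isValue] <;>
      linarith

/-- **`Dat` from 628's facts** -/
theorem dat_of_cx {θ q : Fin 3 → ℝ} {g w0 R T0 cab cby cr c₀ : ℝ} {ν : (Fin 11 → ℝ) → ℝ}
    (C : Cx θ q g w0 R T0 cab cby cr ν c₀) (h21 : θ 2 < θ 1) (h20 : θ 0 < θ 2) :
    ∃ η : ℝ, Dat ν R (R - 1) w0 θ g 0 c₀ q (1 / 3) (2 / 3) η := by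
  have hth := C.th1
  obtain ⟨η, hη⟩ : ∃ η, η = min (min (1 / 8) (θ 1 / 6)) (min ((θ 1 - θ 2) / 6) ((θ 2 - θ 0) / 6)) :=
    ⟨_, rfl⟩
  have h0 : 0 < η := by
    rw [hη]
    exact lt_min (lt_min (by norm_num) (by linarith)) (lt_min (by linarith) (by linarith))
  have c1 : η ≤ 1 / 8 := by rw [hη]; exact (min_le_left _ _).trans (min_le_left _ _)
  have c2 : η ≤ θ 1 / 6 := by rw [hη]; exact (min_le_left _ _).trans (min_le_right _ _)
  have c3 : η ≤ (θ 1 - θ 2) / 6 := by rw [hη]; exact (min_le_right _ _).trans (min_le_left _ _)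
  have c4 : η ≤ (θ 2 - θ 0) / 6 := by rw [hη]; exact (min_le_right _ _).trans (min_le_right _ _)
  have big := C.big
  have e0 := big.T0
  have e1 := big.w0T
  have e2 := big.R0
  have key : ∀ v ∈ Ioo (1 / 3 : ℝ) (2 / 3), ∀ t1 t2 t3 : ℝ, |t1 + θ 1 * v| ≤ η →
      |t2 + θ 2 * v| ≤ η → |t3 + θ 0 * v| ≤ η → (∀ k, η ≤ nt w0 (R - 1) v t1 t2 t3 k) ∧
      (∀ k, nt w0 (R - 1) v t1 t2 t3 k + η ≤ R) ∧ 3 * w0 + t3 + η ≤ w0 + v + (R - 1) := by
    intro v hv t1 t2 t3 a1 a2 a3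
    have hv1 : (1 / 3 : ℝ) < v := hv.1
    exact slots_near big (by linarith) hv.2.le h0 c1 a1 a2 a3
  refine ⟨η, ⟨fun p hp q hq hpq => C.prf.lip p hp q hq hpq,
    fun p hp q hq hpq => C.prf.submod p hp q hq hpq⟩, h0, by norm_num, by linarith, by linarith,
    fun v hv t1 t2 t3 a1 a2 a3 => (key v hv t1 t2 t3 a1 a2 a3).1,
    fun v hv t1 t2 t3 a1 a2 a3 => (key v hv t1 t2 t3 a1 a2 a3).2.1, fun v hv t3 a3 => ?_,
    fun v hv t1 t2 t3 a1 a2 a3 hr => ?_, fun v hv => ?_⟩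
  · have z : ∀ x : ℝ, |-(x * v) + x * v| ≤ η := by
      intro x
      rw [neg_add_cancel, abs_zero]; exact h0.le
    exact (key v hv _ _ t3 (z _) (z _) a3).2.2
  · obtain ⟨k1, k2, k3⟩ := key v hv t1 t2 t3 a1 a2 a3
    have hv1 : (1 / 3 : ℝ) < v := hv.1
    have hv2 : v < 2 / 3 := hv.2
    have hL : nat4 w0 (R - 1) v t1 t2 t3 ∈ Leg monQ R := by
      have g0 := k1 0
      have g2 := k1 2
      have g3 := k1 3
      have g5 := k1 5
      simp only [nt, Matrix.cons_val, Fin.isValue] at g0 g2 g3 g5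
      refine ⟨nat4_legal (by linarith) (by linarith) (by linarith) (by linarith) (by linarith)
        (by linarith) (by linarith), fun k => ?_⟩
      have := k2 k
      rw [nt_eq] at this
      linarith
    have hd := C.dmax (nat4 w0 (R - 1) v t1 t2 t3) ?_
    · rw [DQ_En] at hd
      exact hd
    · obtain ⟨ab1, ab2⟩ := C.ab
      obtain ⟨by1, by2⟩ := C.by'
      obtain ⟨r1, r2⟩ := C.res
      rw [abs_le] at a1 a2 a3
      obtain ⟨v', ⟨hv'1, hv'2⟩, hv'3⟩ := hr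
      have f1 : (θ 1 - θ 2) * (1 / 3) ≤ (θ 1 - θ 2) * v :=
        mul_le_mul_of_nonneg_left hv1.le (by linarith)
      have f2 : (θ 2 - θ 0) * (1 / 3) ≤ (θ 2 - θ 0) * v :=
        mul_le_mul_of_nonneg_left hv1.le (by linarith)
      have f3 : θ 1 * v ≤ θ 1 * (2 / 3) := mul_le_mul_of_nonneg_left hv2.le hth.le
      have f4 : (1 - θ 0) * v' ≤ cr := by
        rcases le_total 0 (1 - θ 0) with h | h
        · have : (1 - θ 0) * v' ≤ (1 - θ 0) * 1 := mul_le_mul_of_nonneg_left (by linarith) h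
          linarith
        · have : (1 - θ 0) * v' ≤ 0 := mul_nonpos_of_nonpos_of_nonneg h (by linarith)
          linarith
      refine ⟨hL, ?_, ?_, ?_, ?_, ?_, ?_⟩ <;>
        simp only [nat4, Matrix.cons_val, Fin.isValue] <;> linarith
  · have hv1 : (1 / 3 : ℝ) < v := hv.1
    have hv2 : v < 2 / 3 := hv.2
    have h2 := C.record v (by linarith) (by linarith)
    rw [pathQ_nat, DQ_En] at h2
    exact h2

/-! ### sweeps of the tangents -/

open Crest.Agent.R138.Ex926 (IsTan)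

/-- **(S1) for the tangent**: fixed base point `p` -/
theorem tan_s1 {ν : (Fin 11 → ℝ) → ℝ} {R : ℝ} {p : Fin 11 → ℝ} (h1 : S1 ν R p)
    {L : Set (Fin 11 → ℝ)} {h : ℕ → ℝ} (hpos : ∀ l, 0 < h l) (h0 : Tendsto h atTop (𝓝 0))
    {lam : (Fin 11 → ℝ) → ℝ} (ht : IsTan (Leg monQ R) L ν (fun _ => p) h lam) :
    ∃ c : ℝ, 0 < c ∧ ∀ d ∈ L, d 5 = 0 → ∀ δ : ℝ, 0 ≤ δ → d + δ • uC ∈ L →
      c * δ ≤ lam d - lam (d + δ • uC) := by
  obtain ⟨c, hc, h', hh', K⟩ := h1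
  refine ⟨c, hc, fun d hd hd5 δ hδ hdδ => ?_⟩
  refine le_of_forall_pos_le_add fun ε hε => ?_
  have hev := ht (max ‖d‖ ‖d + δ • uC‖) (ε / 2) (half_pos hε)
  have t1 : ∀ x : ℝ, Tendsto (fun l => h l * x) atTop (𝓝 0) := fun x => by
    simpa using h0.mul_const x
  have e1 : ∀ᶠ l in atTop, h l * ‖d‖ ≤ h' :=
    ((t1 _).eventually (gt_mem_nhds hh')).mono fun l hl => hl.le
  have e2 : ∀ᶠ l in atTop, h l * δ ≤ h' :=
    ((t1 _).eventually (gt_mem_nhds hh')).mono fun l hl => hl.le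
  obtain ⟨l, h6, g1, g2⟩ := (hev.and (e1.and e2)).exists
  obtain ⟨m1, n1⟩ := h6 d hd (le_max_left _ _)
  obtain ⟨m2, n2⟩ := h6 _ hdδ (le_max_right _ _)
  have hh := hpos l
  have e3 : p + h l • (d + δ • uC) = p + h l • d + (h l * δ) • uC := by
    rw [smul_add, smul_smul, add_assoc]
  simp only [e3] at m2 n2
  have s1 := K (h l • d) (by
      intro k
      rw [Pi.smul_apply, smul_eq_mul, abs_mul, abs_of_pos hh]
      exact (mul_le_mul_of_nonneg_left (norm_le_pi_norm d k) hh.le).trans g1)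
    (by rw [Pi.smul_apply, hd5, smul_zero]) (h l * δ) (by positivity) g2 m1 m2
  have a1 := abs_le.1 n1
  have a2 := abs_le.1 n2
  have b1 : h l * (c * δ) ≤ h l * (lam d - lam (d + δ • uC) + ε) := by
    nlinarith [a1.1, a1.2, a2.1, a2.2]
  exact le_of_mul_le_mul_left b1 hh

/-- **(S2) for the tangent** -/
theorem tan_s2 {ν : (Fin 11 → ℝ) → ℝ} {R : ℝ} {p : Fin 11 → ℝ} (h1 : S2 ν R p)
    {L : Set (Fin 11 → ℝ)} {h : ℕ → ℝ} (hpos : ∀ l, 0 < h l) (h0 : Tendsto h atTop (𝓝 0))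
    {lam : (Fin 11 → ℝ) → ℝ} (ht : IsTan (Leg monQ R) L ν (fun _ => p) h lam) :
    ∃ c : ℝ, 0 < c ∧ ∀ d ∈ L, d 2 = 0 → d 6 = 0 → d 5 ≤ 0 → ∀ δ : ℝ, 0 ≤ δ → d + δ • uB ∈ L →
      c * δ ≤ lam d - lam (d + δ • uB) := by
  obtain ⟨c, hc, h', hh', K⟩ := h1
  refine ⟨c, hc, fun d hd hd2 hd6 hd5 δ hδ hdδ => ?_⟩
  refine le_of_forall_pos_le_add fun ε hε => ?_
  have hev := ht (max ‖d‖ ‖d + δ • uB‖) (ε / 2) (half_pos hε)
  have t1 : ∀ x : ℝ, Tendsto (fun l => h l * x) atTop (𝓝 0) := fun x => by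
    simpa using h0.mul_const x
  have e1 : ∀ᶠ l in atTop, h l * ‖d‖ ≤ h' :=
    ((t1 _).eventually (gt_mem_nhds hh')).mono fun l hl => hl.le
  have e2 : ∀ᶠ l in atTop, h l * δ ≤ h' :=
    ((t1 _).eventually (gt_mem_nhds hh')).mono fun l hl => hl.le
  obtain ⟨l, h6, g1, g2⟩ := (hev.and (e1.and e2)).exists
  obtain ⟨m1, n1⟩ := h6 d hd (le_max_left _ _)
  obtain ⟨m2, n2⟩ := h6 _ hdδ (le_max_right _ _)
  have hh := hpos l
  have e3 : p + h l • (d + δ • uB) = p + h l • d + (h l * δ) • uB := by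
    rw [smul_add, smul_smul, add_assoc]
  simp only [e3] at m2 n2
  have s1 := K (h l • d) (by
      intro k
      rw [Pi.smul_apply, smul_eq_mul, abs_mul, abs_of_pos hh]
      exact (mul_le_mul_of_nonneg_left (norm_le_pi_norm d k) hh.le).trans g1)
    (by rw [Pi.smul_apply, hd2, smul_zero]) (by rw [Pi.smul_apply, hd6, smul_zero])
    (by rw [Pi.smul_apply, smul_eq_mul]; exact mul_nonpos_of_nonneg_of_nonpos hh.le hd5)
    (h l * δ) (by positivity) g2 m1 m2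
  have a1 := abs_le.1 n1
  have a2 := abs_le.1 n2
  have b1 : h l * (c * δ) ≤ h l * (lam d - lam (d + δ • uB) + ε) := by
    nlinarith [a1.1, a1.2, a2.1, a2.2]
  exact le_of_mul_le_mul_left b1 hh

end Crest.Agent.R136.Z2H57
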