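import Crest.Agent.R136.Z2i_57
import Crest.Agent.R136.Tb4_628
import Crest.Agent.R136.TopB_550

/-!
# R136, case (C2z) (helper57): **`caseC2z`**

* `S1L`, `S2L` : sweeps of a tangent;
* `FC2 κ sg` : the F-half of (C2) on the planes with directions `nL 1 0 0 κ`, `nL 0 1 sg sg`, free
  slope `sg`, only `F_b` touches its own path, and it is tied (355 for `κ ≠ 1`, 400 for `κ = 1`);
* `caseC2z` : `∀ κ > 0, ∃ sg, FC2 κ sg` kills the pattern `pC2z`.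
-/

set_option autoImplicit false
set_option linter.unusedVariables false
set_option linter.unusedSectionVars false
set_option linter.unnecessarySeqFocus false

open Filter Topology MeasureTheory

namespace Crest.Agent.R136.Z2H57

open Crest.Agent.R136.Net191
open Crest.Agent.R136.NetQ186
open Crest.Agent.R136.NatT550
open Crest.Agent.R136.GeoQ186
open Crest.Agent.R136.NatR550
open Crest.Agent.R136.Wq638
open Crest.Agent.R136.Lq196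
open Crest.Agent.R136.Gf356
open Crest.Agent.R136.Dg219
open Crest.Agent.R136.Dg262 (X)
open Crest.Agent.R136.Aw413
open Crest.Agent.R136.Rc146 (OutA)
open Crest.Agent.R136.Tb628 (Cx ae_pt OwnP oS ownPath nprof ownF)
open Crest.Agent.R136.Top484 (Par4 Dat4)
open Crest.Agent.R136.TopB550 (Dead pC2z)
open Crest.Agent.R138.Ex926 (Base U IsTan)

/-- **(S1)** for a tangent -/
def S1L (L : Set (Fin 11 → ℝ)) (lam : (Fin 11 → ℝ) → ℝ) : Prop :=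
  ∃ c : ℝ, 0 < c ∧ ∀ d ∈ L, d 5 = 0 → ∀ δ : ℝ, 0 ≤ δ → d + δ • uC ∈ L →
    c * δ ≤ lam d - lam (d + δ • uC)

/-- **(S2)** for a tangent -/
def S2L (L : Set (Fin 11 → ℝ)) (lam : (Fin 11 → ℝ) → ℝ) : Prop :=
  ∃ c : ℝ, 0 < c ∧ ∀ d ∈ L, d 2 = 0 → d 6 = 0 → d 5 ≤ 0 → ∀ δ : ℝ, 0 ≤ δ → d + δ • uB ∈ L →
    c * δ ≤ lam d - lam (d + δ • uB)

/-- **F-half of (C2), free slope `sg`** -/
def FC2 (κ sg : ℝ) : Prop :=
  ∀ (B : Base) (I J : ℕ → Finset (ℕ × ℝ)) (co : ∀ n : ℕ, ℕ × ℝ → ℕ × ℝ → Fin 11 → ℝ)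
    (f : ∀ n : ℕ, ℕ × ℝ → Fq4) (Ma : Mons 11) (C : ℝ) (lam : (Fin 11 → ℝ) → ℝ) (A : ℝ × ℝ)
    (φ : ℕ → (Fin 11 → ℝ) → ℝ) (r : ℕ → ℝ) (κo : Fin 11 → ℝ) (V Tw : Fin 11 → Prop),
    0 ≤ C → (∀ n x y, co n x y = coQ (f n x) (f n y)) → coneM Ma = coneN →
    (∀ᶠ n in (U : Filter ℕ), (J n).Nonempty) →
    OutA (gC (nL 1 0 0 κ) (nL 0 1 sg sg)) (coneM Ma) (nL 1 0 0 κ) (nL 0 1 sg sg)
      (dhC (nL 1 0 0 κ) (nL 0 1 sg sg)) (nC (nL 1 0 0 κ) (nL 0 1 sg sg)) lam A φ r →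
    (∀ k, (∀ i, gC (nL 1 0 0 κ) (nL 0 1 sg sg) i = k → 0 < dhC (nL 1 0 0 κ) (nL 0 1 sg sg) i) →
      ∀ c ∈ coneM Ma, ∀ s : ℝ, 0 ≤ s → φ k (s • c) = s * φ k c) →
    AeW B B I J co monQ Ma C lam (nL 1 0 0 κ) (nL 0 1 sg sg) A φ r 0 1 κo V Tw →
    κo 0 = 1 → κo 3 = κ → (∀ k, V k ↔ k = 3) → (∀ k, Tw k ↔ k = 3) →
    S1L (coneM Ma) lam → S2L (coneM Ma) lam → A.1 ≤ -(4 + κ)

/-- base point of the plane -/
def pX (w0 R1 c : ℝ) : Fin 11 → ℝ := nat4 w0 R1 0 0 c c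

theorem pX_X (w0 R1 κ sg c : ℝ) (z : ℝ × ℝ) :
    X (pX w0 R1 c) (nL 1 0 0 κ) (nL 0 1 sg sg) z =
      nat4 w0 R1 z.1 z.2 (sg * z.2 + c) (κ * z.1 + (sg * z.2 + c)) := by
  have := nat_X w0 R1 ![c, 0, c] ![κ, 0, 0] ![sg, 1, sg] z
  simp only [Matrix.cons_val, Fin.isValue] at this
  rw [pX, this]
  congr 1 <;> ring

theorem bx_X (w0 R1 : ℝ) (θ : Fin 3 → ℝ) (sg c : ℝ) (z : ℝ × ℝ) :
    bx w0 R1 θ sg c z = X (pX w0 R1 c) (nL 1 0 0 (θ 2 - θ 0)) (nL 0 1 sg sg) z := by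
  rw [pX_X]; rfl

theorem nL_nonneg {κ : ℝ} (hκ : 0 ≤ κ) (i : Fin 11) : 0 ≤ nL 1 0 0 κ i := by
  fin_cases i <;>
    simp only [nL, Matrix.cons_val, Fin.zero_eta, Fin.mk_one, Fin.reduceFinMk, Fin.isValue] <;>
    linarith

section plane

variable {w0 R R1 κ sg c : ℝ} {z : ℝ × ℝ}

theorem pX_OQ (hbox : ∀ k, 0 < nat4 w0 R1 z.1 z.2 (sg * z.2 + c) (κ * z.1 + (sg * z.2 + c)) k ∧
      nat4 w0 R1 z.1 z.2 (sg * z.2 + c) (κ * z.1 + (sg * z.2 + c)) k < R)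
    (hR : 2 * w0 + (κ * z.1 + (sg * z.2 + c)) < z.1 + R1) :
    OQ R (pX w0 R1 c) (nL 1 0 0 κ) (nL 0 1 sg sg) z := by
  have e1 : c + κ * z.1 + sg * z.2 = κ * z.1 + (sg * z.2 + c) := by ring
  have e2 : c + 0 * z.1 + sg * z.2 = sg * z.2 + c := by ring
  have e3 : 0 + 0 * z.1 + 1 * z.2 = z.2 := by ring
  have := nat_OQ (w0 := w0) (R1 := R1) (R := R) (al := ![c, 0, c]) (be := ![κ, 0, 0])
    (ga := ![sg, 1, sg]) (z := z)
  simp only [Matrix.cons_val, Fin.isValue] at this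
  rw [e1, e2, e3] at this
  exact this hbox hR

theorem pX_L (hbox : ∀ k, 0 < nat4 w0 R1 z.1 z.2 (sg * z.2 + c) (κ * z.1 + (sg * z.2 + c)) k ∧
      nat4 w0 R1 z.1 z.2 (sg * z.2 + c) (κ * z.1 + (sg * z.2 + c)) k < R)
    (hR : 2 * w0 + (κ * z.1 + (sg * z.2 + c)) < z.1 + R1) :
    coneM (actM monQ (pX w0 R1 c) (nL 1 0 0 κ) (nL 0 1 sg sg)) = coneN := by
  rw [coneM_actM]
  ext d
  have e1 : c + κ * z.1 + sg * z.2 = κ * z.1 + (sg * z.2 + c) := by ring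
  have := nat_memL (w0 := w0) (R1 := R1) (R := R) (al := ![c, 0, c]) (be := ![κ, 0, 0])
    (ga := ![sg, 1, sg]) (z := z) (c := d)
  simp only [Matrix.cons_val, Fin.isValue] at this
  refine this (pX_OQ hbox hR) ?_
  rw [e1]
  exact hR

end plane

section thick

variable {η η' : ℝ} {p : Par4} {D : Dat4} {I1 : ℕ → Finset (ℕ × ℝ)} {π : Equiv.Perm (Fin 3)}
  {eE fA fB : ℕ → ℕ × ℝ → ℝ} {V T : Fin 11 → Prop} {PD : Set (Fin 11 → ℝ)}
  {w0 R T0 c₀ sg : ℝ} {ν own : (Fin 11 → ℝ) → ℝ}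

/-- **the window input of the scalar half from the F-half** -/
theorem wp_of_FC2 (h : Thick η p D I1 π eE fA fB V T w0 R T0 PD ν own c₀)
    (hV : ∀ k, V k ↔ k = 3) (hT : T 3) (h1 : 0 < p.θ 1) (hκ : 0 < p.θ 2 - p.θ 0)
    {g : ℝ} {q : Fin 3 → ℝ}
    (H : Dat ν R (R - 1) w0 p.θ g 0 c₀ q (1 / 3) (2 / 3) η') (F : FC2 (p.θ 2 - p.θ 0) sg) :
    WP ν R (R - 1) w0 p.θ 0 (1 / 3) (2 / 3) η' sg := by
  intro c
  have h0 := H.η0
  set κ := p.θ 2 - p.θ 0 with hκd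
  set x0 := pX w0 (R - 1) c with hx0
  set a := nL 1 0 0 κ with ha
  set b := nL 0 1 sg sg with hb
  set Ω : Set (ℝ × ℝ) := {z | z ∈ (mw monQ).O (fun _ => 0) (fun _ => R) x0 a b ∧ 0 < z.1 ∧
    z.1 < 1} with hΩ
  have eX : ∀ z : ℝ × ℝ, X x0 a b z =
      nat4 w0 (R - 1) z.1 z.2 (sg * z.2 + c) (κ * z.1 + (sg * z.2 + c)) := fun z =>
    pX_X w0 (R - 1) κ sg c z
  have hown : ∀ z ∈ Ω, OwnP 0 w0 (ownQ p.θ w0 R V) T V (fun k => k = 3) (fun k => k = 3)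
      (X x0 a b z) := by
    rintro z ⟨hzO, hz0, hz1⟩
    have e0 : X x0 a b z 0 - w0 = z.1 := by
      rw [eX]; simp only [nat4, Matrix.cons_val]; ring
    have e3 : X x0 a b z 3 = ownQ p.θ w0 R V z.1 3 := by
      have hV3 : V 3 := (hV 3).2 rfl
      rw [eX]
      simp only [ownQ, if_pos hV3, pathQ, nat4, Matrix.cons_val]
      rw [if_neg (by decide), hκd]; ring
    refine ⟨by rw [e0]; exact hz0, by rw [e0]; exact hz1, fun k => ?_, fun k => ?_,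
      fun k hk => ?_, by decide⟩
    · rw [e0]
      by_cases hk0 : k = 0
      · subst hk0
        simp only [ownQ, if_true]
        rw [← e0]; linarith
      · by_cases hk3 : k = 3
        · subst hk3; exact e3.le
        · have : ¬ V k := fun hVk => hk3 ((hV k).1 hVk)
          simp only [ownQ, if_neg hk0, if_neg this]
          exact ((mem_mwO.1 hzO).1 k).2.le
    · rw [e0, hV k]
      constructor
      · rintro rfl; exact ⟨rfl, e3⟩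
      · exact fun hk => hk.1
    · subst hk; exact ⟨hT, rfl⟩
  have hae := ae_pt (nprof h) (ownF h) (ownPath p.θ w0 R V) (nL_nonneg hκ.le) (Ω := Ω)
    (b := b) (x0 := x0) (fun z hz => hz.1) hown
  filter_upwards [hae] with z hz a1 a2 a3 a4 a5 a6 a7 a8 d hd
  have a11 : (1 / 3 : ℝ) < z.1 := a1.1
  have a12 : z.1 < 2 / 3 := a1.2
  obtain ⟨y, hy⟩ : ∃ y, y = sg * z.2 + c - p.θ 2 / p.θ 1 * z.2 := ⟨_, rfl⟩
  rw [← hy] at a5 a6
  have hyc : sg * z.2 + c = p.θ 2 / p.θ 1 * z.2 + y := by rw [hy]; ring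
  obtain ⟨n1, n2, n3⟩ := near_xx (η := η') h1 (v := z.1) (t := z.2) (y := y) a3
    (by rw [abs_of_pos a5]; exact a6)
  rw [← hyc, ← hκd] at n3
  rw [← hyc] at n2
  have b1 := H.lo z.1 a1 _ _ _ n1 n2 n3
  have b2 := H.hi z.1 a1 _ _ _ n1 n2 n3
  have b3 := H.pw z.1 a1 _ n3
  have hbox : ∀ k, 0 < nat4 w0 (R - 1) z.1 z.2 (sg * z.2 + c) (κ * z.1 + (sg * z.2 + c)) k ∧
      nat4 w0 (R - 1) z.1 z.2 (sg * z.2 + c) (κ * z.1 + (sg * z.2 + c)) k < R := fun k => by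
    have c1 := b1 k
    have c2 := b2 k
    rw [nt_eq] at c1 c2
    constructor <;> linarith
  have hR : 2 * w0 + (κ * z.1 + (sg * z.2 + c)) < z.1 + (R - 1) := by linarith
  have hO : z ∈ (mw monQ).O (fun _ => 0) (fun _ => R) x0 a b := memO_monQ (pX_OQ hbox hR)
  have hL : coneM (actM monQ x0 a b) = coneN := pX_L hbox hR
  obtain ⟨D', hD, H1, H2⟩ := hz ⟨hO, by linarith, by linarith⟩
  obtain ⟨h', hpos, hh0⟩ := exists_seq
  obtain ⟨ψ, hψ, lam, ht⟩ := H1 h' hpos hh0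
  obtain ⟨φ, r, -, -, ψ2, t, lam2, φ2, g2, g3, g4, g5, g6, g7, g8, -, g9⟩ :=
    H2 _ (fun l => hpos _) (hh0.comp hψ.tendsto_atTop) lam ht
  have hψ2 : Tendsto ψ2 atTop atTop := tendsto_atTop_mono g2 tendsto_id
  have hpos2 : ∀ l, 0 < h' (ψ (ψ2 l)) * t l := fun l => mul_pos (hpos _) (g3 l)
  have hh2 : Tendsto (fun l => h' (ψ (ψ2 l)) * t l) atTop (𝓝 0) := by
    have h3 := ((hh0.comp hψ.tendsto_atTop).comp hψ2).mul g5
    simpa using h3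
  have eb : bx w0 (R - 1) p.θ sg c z = X x0 a b z := bx_X w0 (R - 1) p.θ sg c z
  rw [eb] at a7 a8
  have s1 := tan_s1 a7 hpos2 hh2 g6
  have s2 := tan_s2 a8 hpos2 hh2 g6
  rw [sub_zero] at g9
  have key := F D.B D.I I1 _ (fun n x => scl (uH D.B D.lev w0 n) (uA D.B D.lev D.w w0 n)
    (Wq638.uB D.B D.lev D.w w0 n) (uY D.B D.lev D.w w0 n) (incQ π D.L eE fA fB n x))
    (actM monQ x0 a b) 2 lam2 (D' (1, 0), D' (0, 1)) φ2 r (oS p.θ) (fun k => k = 3)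
    (fun k => k = 3) (by norm_num) (fun n x y => rfl) hL (nprof h).ne g7 g8 g9 (by simp [oS, pathQ])
    (by simp [oS, pathQ, hκd]) (fun k => Iff.rfl) (fun k => Iff.rfl) s1 s2
  have e4 : (fun v => ν (bx w0 (R - 1) p.θ sg c (v, z.2))) =
      fun v => ν (X x0 a b (v, z.2)) := by
    funext v
    rw [bx_X]
  rw [e4] at hd
  have e5 := hd.unique (hasDeriv_fst (f := fun z => ν (X x0 a b z)) hD)
  rw [e5]
  simp only at key
  linarith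

/-- **row C2z of the thick table** -/
theorem caseC2z {η : ℝ} (hη : η ≤ 1 / 8) (hF : ∀ κ : ℝ, 0 < κ → ∃ sg : ℝ, FC2 κ sg) :
    Dead η pC2z := by
  intro p D I1 π eE fA fB V T w0 R T0 PD ν own c₀ h hp
  obtain ⟨h2, h3, h4, hσ, hlt⟩ := hp
  have hη0 := h.tp.ok.η_pos
  have hθ1 := h.tp.ok.θ1
  have sl := h.tp.slots
  have hV : ∀ k, V k ↔ k = 3 := by
    intro k
    constructor
    · intro hk
      rcases (sl.vis k hk).1 with rfl | rfl | rfl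
      · exact absurd hk h2
      · rfl
      · exact absurd hk h4
    · rintro rfl; exact h3
  have hT : T 3 := slot_T sl h3 (by decide)
  have hκ : 0 < p.θ 2 - p.θ 0 := by
    have := (sl.vis 3 h3).2
    simpa [btQ] using this
  have C := Cx.of_thick0 h hη0
  obtain ⟨η', H⟩ := dat_of_cx C hlt (by linarith)
  obtain ⟨sg, F⟩ := hF _ hκ
  have q0 := h.tp.ok.q0.1
  have q1 := h.tp.ok.g0.2
  have q2 := h.tp.ok.q2.1
  refine z2_falseP H hθ1 hκ q0 q1 q2 (by linarith) ?_ sg (wp_of_FC2 h hV hT hθ1 hκ H F)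
  have := Tb628.slack (κ := 0) (κ3 := p.θ 2 - p.θ 0) (i := 0) (j := 0) (k := 2) (l := 0)
    h.tp.ok hη0 hη h.tp.ok.θb (by positivity) (by
      have := le_abs_self (p.θ 2)
      have := neg_abs_le (p.θ 0)
      linarith)
  linarith

end thick

end Crest.Agent.R136.Z2H57
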