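import Crest.Agent.R136.Z2x_683
import Crest.Agent.R136.Rc8_146
import Crest.Agent.R136.K2X_774

/-!
# R136: rung `s = 1` of Z2: numbers of the window at an interior point (helper683)

* `mZ2` : monomials without `R`, `F_b`; `AZ` : the same walls in `mw monQ`
* `bx z c p a n` : box with `z, C_a, P, X_a, N`; `bx_leg` : legality
* `stZ x` : static data `S = {z}`, `top = x` on `z, C_a, P, X_a, N`; `stZ_ok`
* **`z2_num`** : from the decoupled tangent (`OutS`) : `Dens`, `NumP`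
* `gapP_of` : `GapP` from 774's `JT`
-/

set_option autoImplicit false
set_option linter.unusedSectionVars false
set_option linter.unusedVariables false

open Filter Topology

namespace Crest.Agent.R136.Z2683

open Finset Crest.Agent.R136.NetQ186 Crest.Agent.R136.Net191 Crest.Agent.R136.Qg926
open Crest.Agent.R136.Gf356 Crest.Agent.R136.Ev356
open Crest.Agent.R138.Ex926 (Base U U_le_atTop)
open Dg219 (OutS gset mw Walls)

/-! ### walls and boxes -/

/-- monomials without the slots `R`, `F_b` -/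
def mZ2 : Mons 11 where
  mon k := (monQ.mon k).filter fun e => e 1 = 0 ∧ e 3 = 0
  low := fun k e he => monQ.low k e (mem_filter.1 he).1
  ne := fun k e he => monQ.ne k e (mem_filter.1 he).1

theorem mZ2_zero : mZ2.mon 0 = ∅ := by decide

theorem legZ_of {p : Fin 11 → ℝ} (h0 : ∀ k, 0 ≤ p k) (h6 : p 6 ≤ p 2 + p 5)
    (h7 : p 7 ≤ p 4 + p 5) (h8 : p 8 ≤ p 0 + p 5) (h9 : p 9 ≤ p 0 + p 6) (h9' : p 9 ≤ p 2 + p 8)
    (h10 : p 10 ≤ p 0 + p 7) (h10' : p 10 ≤ p 4 + p 8) : Legal mZ2 p := by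
  have hs : ∀ e : Fin 11 → ℕ, ∑ s, (e s : ℝ) * p s = e 0 * p 0 + e 1 * p 1 + e 2 * p 2 +
      e 3 * p 3 + e 4 * p 4 + e 5 * p 5 + e 6 * p 6 + e 7 * p 7 + e 8 * p 8 + e 9 * p 9 +
      e 10 * p 10 := by
    intro e
    simp [Fin.sum_univ_succ]
    ring
  have q0 := h0 0
  have q2 := h0 2
  have q4 := h0 4
  have q5 := h0 5
  refine ⟨h0, fun k e he => ?_⟩
  obtain ⟨he, hf⟩ := mem_filter.1 he
  rw [hs]
  change e ∈ mfQ k at he
  fin_cases k <;> simp [mfQ] at he
  · subst he; simp at hf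
  · subst he; simp; linarith
  · rcases he with rfl | rfl | rfl | rfl <;> simp at hf ⊢ <;> linarith
  · subst he; simp; linarith
  · rcases he with rfl | rfl | rfl <;> simp at hf ⊢ <;> linarith
  · rcases he with rfl | rfl | rfl | rfl | rfl | rfl | rfl | rfl <;> simp at hf ⊢ <;> linarith

/-- the box with side exponents `z, C_a, P, X_a, N` -/
noncomputable def bx (z c p a n : ℝ) : Fin 11 → ℝ := ![z, 0, 0, 0, 0, c, 0, p, a, 0, n]

theorem bx_leg {x z c p a n : ℝ} (z0 : 0 ≤ z) (c0 : 0 ≤ c) (p0 : 0 ≤ p) (a0 : 0 ≤ a)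
    (n0 : 0 ≤ n) (zx : z ≤ x) (cx : c ≤ x) (px : p ≤ x) (ax : a ≤ x) (nx : n ≤ x) (pc : p ≤ c)
    (azc : a ≤ z + c) (nzp : n ≤ z + p) (na : n ≤ a) : bx z c p a n ∈ Leg mZ2 x := by
  have hx : 0 ≤ x := z0.trans zx
  refine ⟨legZ_of ?_ ?_ ?_ ?_ ?_ ?_ ?_ ?_, ?_⟩
  · intro k; fin_cases k <;> simp [bx] <;> assumption
  · simp [bx]; exact c0
  · simp [bx]; exact pc
  · simp [bx]; exact azc
  · simp [bx]; exact z0
  · simp [bx]; exact a0
  · simp [bx]; exact nzp
  · simp [bx]; exact na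
  · intro k; fin_cases k <;> simp [bx] <;> assumption

/-- resolution -/
noncomputable def tpv (x : ℝ) : Fin 11 → ℝ := bx x x x x x

/-- **static data of the windows of Z2** -/
noncomputable def stZ (x : ℝ) : WSt 11 where
  S := {0}
  kz := 0
  top := tpv x
  kap := fun _ => 1
  Mw := mZ2
  R' := x

theorem cut_vb (x a t : ℝ) : cut {0} (vb a t) (tpv x) = bx x t t a a := by
  funext s
  unfold cut vb tpv bx
  fin_cases s <;> simp

theorem cut_vC (x y : ℝ) : cut {0} (vC y) (tpv x) = bx x y 0 0 0 := by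
  funext s
  unfold cut vC tpv bx
  fin_cases s <;> simp

theorem cut_top (x : ℝ) : cut {0} (tpv x) 0 = bx 0 x x x x := by
  funext s
  unfold cut tpv bx
  fin_cases s <;> simp

theorem cut_lev (x : ℝ) : cut {0} (0 : Fin 11 → ℝ) (tpv x) = bx x 0 0 0 0 := by
  funext s
  unfold cut tpv bx
  fin_cases s <;> simp

theorem bx_zero : bx 0 0 0 0 0 = 0 := by
  funext s
  unfold bx
  fin_cases s <;> simp

theorem single_bx (y : ℝ) : (Pi.single 0 y : Fin 11 → ℝ) = bx y 0 0 0 0 := by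
  funext s
  unfold bx
  fin_cases s <;> simp [Pi.single_apply]

theorem stZ_ok {x : ℝ} (hx : 0 ≤ x) {D : Set (Fin 11 → ℝ)} (hD : Leg mZ2 x ⊆ D) :
    (stZ x).Ok monQ D where
  R0 := hx
  leg := hD
  top_leg := bx_leg hx hx hx hx hx le_rfl le_rfl le_rfl le_rfl le_rfl le_rfl (by linarith)
    (by linarith) le_rfl
  lin_leg := by
    show cut {0} (tpv x) 0 ∈ Leg mZ2 x
    rw [cut_top]
    exact bx_leg le_rfl hx hx hx hx hx le_rfl le_rfl le_rfl le_rfl le_rfl (by linarith)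
      (by linarith) le_rfl
  lev_leg := by
    show cut {0} (0 : Fin 11 → ℝ) (tpv x) ∈ Leg mZ2 x
    rw [cut_lev]
    exact bx_leg hx le_rfl le_rfl le_rfl le_rfl le_rfl hx hx hx hx le_rfl (by linarith)
      (by linarith) le_rfl
  kzS := mem_singleton_self _
  kz0 := rfl
  kzw := mZ2_zero
  kap := fun _ => one_pos

theorem stZ_top {x : ℝ} (s : Fin 11) (hs : s = 0 ∨ s = 5 ∨ s = 7 ∨ s = 8 ∨ s = 10) :
    x ≤ (stZ x).top s := by
  show x ≤ bx x x x x x s
  rcases hs with rfl | rfl | rfl | rfl | rfl <;> simp [bx]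

/-! ### numbers -/

/-- the profile splits on the boxes -/
def SplZ (lam : (Fin 11 → ℝ) → ℝ) : Prop :=
  ∃ (fz : ℝ → ℝ) (fc fx : ℝ → ℝ → ℝ), ∀ z c p a n : ℝ, 0 ≤ z → 0 ≤ c → 0 ≤ p → 0 ≤ a → 0 ≤ n →
    p ≤ c → a ≤ z + c → n ≤ z + p → n ≤ a → lam (bx z c p a n) = fz z + fc c p + fx a n

/-- the split from the groups of `OutS` -/
theorem splZ_of {κ : Type*} [DecidableEq κ] {grp : Fin 11 → κ} {L : Set (Fin 11 → ℝ)}
    {dh : Fin 11 → ℝ} {nn : κ → ℝ × ℝ} {lam : (Fin 11 → ℝ) → ℝ} {A : ℝ × ℝ}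
    {φ : κ → (Fin 11 → ℝ) → ℝ} {r : κ → ℝ} (O : OutS grp L dh nn lam A φ r)
    (hL : ∀ x, Leg mZ2 x ⊆ L) (g57 : grp 7 = grp 5) (g810 : grp 10 = grp 8)
    (g05 : grp 0 ≠ grp 5) (g08 : grp 0 ≠ grp 8) (g58 : grp 5 ≠ grp 8) : SplZ lam := by
  refine ⟨fun z => φ (grp 0) (bx z 0 0 0 0), fun c p => φ (grp 5) (bx 0 c p 0 0),
    fun a n => φ (grp 8) (bx 0 0 0 a n), ?_⟩
  intro z c p a n z0 c0 p0 a0 n0 pc azc nzp na
  have hm : bx z c p a n ∈ L := hL (z + c + a) (bx_leg z0 c0 p0 a0 n0 (by linarith)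
    (by linarith) (by linarith) (by linarith) (by linarith) pc azc nzp na)
  rw [O.sum _ hm]
  have mg : ∀ i : Fin 11, grp i ∈ gset grp := fun i => mem_image_of_mem _ (mem_univ _)
  have e0 : ∀ k ∈ gset grp, k ∉ ({grp 0, grp 5, grp 8} : Finset κ) →
      φ k (bx z c p a n) = 0 := by
    intro k _ hk
    refine O.zero k _ fun i hi => ?_
    simp only [mem_insert, mem_singleton, not_or] at hk
    obtain ⟨k0, k5, k8⟩ := hk
    have key : ∀ i : Fin 11, i = 0 ∨ i = 5 ∨ i = 7 ∨ i = 8 ∨ i = 10 ∨ bx z c p a n i = 0 := by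
      intro i; fin_cases i <;> simp [bx]
    rcases key i with h | h | h | h | h | h
    · subst h; exact absurd hi.symm k0
    · subst h; exact absurd hi.symm k5
    · subst h; rw [g57] at hi; exact absurd hi.symm k5
    · subst h; exact absurd hi.symm k8
    · subst h; rw [g810] at hi; exact absurd hi.symm k8
    · exact h
  have hsub : ({grp 0, grp 5, grp 8} : Finset κ) ⊆ gset grp := by
    intro k hk
    simp only [mem_insert, mem_singleton] at hk
    rcases hk with rfl | rfl | rfl <;> exact mg _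
  rw [← sum_subset hsub fun k hk hk' => e0 k hk hk']
  rw [sum_insert (by simp [g05, g08]), sum_insert (by simp [g58]), sum_singleton]
  have l0 : φ (grp 0) (bx z c p a n) = φ (grp 0) (bx z 0 0 0 0) := by
    refine O.loc _ _ _ fun i hi => ?_
    have key : ∀ i : Fin 11, i = 5 ∨ i = 7 ∨ i = 8 ∨ i = 10 ∨
        bx z c p a n i = bx z 0 0 0 0 i := by
      intro i; fin_cases i <;> simp [bx]
    rcases key i with h | h | h | h | h
    · subst h; exact absurd hi.symm g05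
    · subst h; rw [g57] at hi; exact absurd hi.symm g05
    · subst h; exact absurd hi.symm g08
    · subst h; rw [g810] at hi; exact absurd hi.symm g08
    · exact h
  have l5 : φ (grp 5) (bx z c p a n) = φ (grp 5) (bx 0 c p 0 0) := by
    refine O.loc _ _ _ fun i hi => ?_
    have key : ∀ i : Fin 11, i = 0 ∨ i = 8 ∨ i = 10 ∨
        bx z c p a n i = bx 0 c p 0 0 i := by
      intro i; fin_cases i <;> simp [bx]
    rcases key i with h | h | h | h
    · subst h; exact absurd hi g05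
    · subst h; exact absurd hi.symm g58
    · subst h; rw [g810] at hi; exact absurd hi.symm g58
    · exact h
  have l8 : φ (grp 8) (bx z c p a n) = φ (grp 8) (bx 0 0 0 a n) := by
    refine O.loc _ _ _ fun i hi => ?_
    have key : ∀ i : Fin 11, i = 0 ∨ i = 5 ∨ i = 7 ∨
        bx z c p a n i = bx 0 0 0 a n i := by
      intro i; fin_cases i <;> simp [bx]
    rcases key i with h | h | h | h
    · subst h; exact absurd hi g08
    · subst h; exact absurd hi g58
    · subst h; rw [g57] at hi; exact absurd hi g58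
    · exact h
  rw [l0, l5, l8, add_assoc]

/-- **numbers of the window of Z2** : `c` = deficit of the loss of `(X_a, N)` -/
theorem z2_num {lam : (Fin 11 → ℝ) → ℝ} (H : SplZ lam) (l0 : lam 0 = 0) {c : ℝ} (c2 : c ≤ 2)
    {x : ℝ} (hx : 0 < x) (nf : lam (bx x 0 0 0 0) - lam (bx x 0 0 x x) ≤ (2 - c) * x)
    (ca : ∀ y : ℝ, 0 < y → lam (bx 0 y 0 0 0) < 0)
    (fr : ∀ y : ℝ, 0 ≤ y → lam (bx y 0 0 0 0) ≤ -y) {t : ℝ} (ht : 0 < t) (htc : 2 * t < c * x) :
    (stZ x).Dens lam 1 x ∧ NumP (stZ x) lam x t := by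
  obtain ⟨fz, fc, fx, hs⟩ := H
  have hx0 := hx.le
  have ht0 := ht.le
  have htx : t ≤ x := by nlinarith
  have h0 := hs 0 0 0 0 0 le_rfl le_rfl le_rfl le_rfl le_rfl le_rfl (by simp) (by simp) le_rfl
  rw [bx_zero, l0] at h0
  refine ⟨⟨?_, zero_le_one, le_rfl, ?_, ?_⟩, ⟨ht, htx, ?_, ?_, ?_, ?_, ?_, ?_, ⟨x, hx, ?_⟩⟩⟩
  · show lam (bx x x x x x) ≤ lam (cut {0} (tpv x) 0) + lam (cut {0} (0 : Fin 11 → ℝ) (tpv x))
    rw [cut_top, cut_lev, hs x x x x x hx0 hx0 hx0 hx0 hx0 le_rfl (by linarith) (by linarith)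
      le_rfl, hs 0 x x x x le_rfl hx0 hx0 hx0 hx0 le_rfl (by linarith) (by linarith) le_rfl,
      hs x 0 0 0 0 hx0 le_rfl le_rfl le_rfl le_rfl le_rfl (by linarith) (by linarith) le_rfl]
    linarith
  · exact stZ_top 0 (by simp)
  · intro y hy _
    show lam (Pi.single 0 y) ≤ _
    rw [single_bx, one_mul]
    exact fr y hy
  · show cut {0} (0 : Fin 11 → ℝ) (tpv x) ∈ Leg mZ2 x
    rw [cut_lev]
    exact bx_leg hx0 le_rfl le_rfl le_rfl le_rfl le_rfl hx0 hx0 hx0 hx0 le_rfl (by linarith)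
      (by linarith) le_rfl
  · show cut {0} (vb x 0) (tpv x) ∈ Leg mZ2 x
    rw [cut_vb]
    exact bx_leg hx0 le_rfl le_rfl hx0 hx0 le_rfl hx0 hx0 le_rfl le_rfl le_rfl (by linarith)
      (by linarith) le_rfl
  · show cut {0} (vb 0 t) (tpv x) ∈ Leg mZ2 x
    rw [cut_vb]
    exact bx_leg hx0 ht0 ht0 le_rfl le_rfl le_rfl htx htx hx0 hx0 le_rfl (by linarith)
      (by linarith) le_rfl
  · show cut {0} (vb x t) (tpv x) ∈ Leg mZ2 x
    rw [cut_vb]
    exact bx_leg hx0 ht0 ht0 hx0 hx0 le_rfl htx htx le_rfl le_rfl le_rfl (by linarith)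
      (by linarith) le_rfl
  · show lam (cut {0} (0 : Fin 11 → ℝ) (tpv x)) - lam (cut {0} (vb 0 t) (tpv x)) ≤
      lam (cut {0} (vb x 0) (tpv x)) - lam (cut {0} (vb x t) (tpv x))
    rw [cut_lev, cut_vb, cut_vb, cut_vb,
      hs x 0 0 0 0 hx0 le_rfl le_rfl le_rfl le_rfl le_rfl (by linarith) (by linarith) le_rfl,
      hs x t t 0 0 hx0 ht0 ht0 le_rfl le_rfl le_rfl (by linarith) (by linarith) le_rfl,
      hs x 0 0 x x hx0 le_rfl le_rfl hx0 hx0 le_rfl (by linarith) (by linarith) le_rfl,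
      hs x t t x x hx0 ht0 ht0 hx0 hx0 le_rfl (by linarith) (by linarith) le_rfl]
    linarith
  · show lam (cut {0} (0 : Fin 11 → ℝ) (tpv x)) - lam (cut {0} (vb x 0) (tpv x)) + 2 * t < 2 * x
    rw [cut_lev, cut_vb]
    linarith
  · intro y hy hyx
    have hy0 := hy.le
    constructor
    · show cut {0} (vC y) (tpv x) ∈ Leg mZ2 x
      rw [cut_vC]
      exact bx_leg hx0 hy0 le_rfl le_rfl le_rfl le_rfl hyx hx0 hx0 hx0 hy0 (by linarith)
        (by linarith) le_rfl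
    · show lam (cut {0} (vC y) (tpv x)) < lam (cut {0} (0 : Fin 11 → ℝ) (tpv x))
      rw [cut_vC, cut_lev]
      have e1 := ca y hy
      rw [hs 0 y 0 0 0 le_rfl hy0 le_rfl le_rfl le_rfl hy0 (by linarith) (by linarith) le_rfl]
        at e1
      rw [hs x y 0 0 0 hx0 hy0 le_rfl le_rfl le_rfl hy0 (by linarith) (by linarith) le_rfl,
        hs x 0 0 0 0 hx0 le_rfl le_rfl le_rfl le_rfl le_rfl (by linarith) (by linarith) le_rfl]
      linarith

end Crest.Agent.R136.Z2683
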