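import Crest.Agent.R136.LdF3_511
import Crest.Agent.R136.Z2y_683
import Crest.Agent.R136.K2Y_774

/-!
# R136, case Z2: the deficit of the loss of `(X_a, N)` (helper403)

Plane `s = 1` of 511's ladder, `F_b` dropped, `θ 0 = θ 1`.

* `grp_ne` : the groups of `z`, `X_a`, `X_b` are different, `C_a, P` are in the group `0`, `N` is in
  the group of `X_a`;
* `r_sum` : `r (G_z) + r (G_Xa) + r (G_Xb) ≤ -A.1`;
* **`z2_nf`** : `r (G_z) ≥ 1`, `r (G_Xb) ≥ 1 + κ`, `-A.1 ≤ 4 + κ - c` ⊢ loss of `(X_a, N)` by `x` at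
  most `(2 - c) x`;
* `z2_split` : 683's `SplZ`;
* `z2_ca`, `z2_fr` : loss of `C_a` (D-max at the record points) and of `z` (own-wideness);
* **`z2_dens_num`** : the hypotheses of 683's `strip_rel`.
-/

set_option autoImplicit false
set_option linter.unusedVariables false
set_option linter.unusedSectionVars false

open Finset Filter Topology

namespace Crest.Agent.R136.Z2n403

open Crest.Agent.R136.Net191 Crest.Agent.R136.NetQ186
open Crest.Agent.R136.LdF3511 Crest.Agent.R136.LdF511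
open Crest.Agent.R136.NatR550 (nL)
open Crest.Agent.R136.Z2683
open Dg219 (OutS gC dhC nC gset lf mw Walls gC_zero gC_eq nC_of nC_zero)

/-- the ray of the rung `s = 1` of Z2 -/
theorem T_val (κ : ℝ) (x : Fin 11 → ℝ) :
    TF {3} κ 1 x = ![1, 0, κ, x 3, 0, 0, κ, 0, 1, 1 + κ, 1] := by
  funext i
  unfold TF
  rw [TpF_val]
  fin_cases i <;> simp

/-- the record direction -/
theorem rho_val (θ : Fin 3 → ℝ) : rhoF θ = ![1, 0, θ 1 - θ 2, θ 2 - θ 0, θ 1 - θ 0, -θ 1, -θ 2,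
    -θ 0, 1 - θ 1, 1 - θ 2, 1 - θ 0] := by
  funext i
  unfold rhoF nL
  fin_cases i <;> simp <;> ring

section

variable {θ : Fin 3 → ℝ} {κ : ℝ} {x b : Fin 11 → ℝ}

/-- data of the plane `s = 1` of Z2 -/
structure PlZ (θ : Fin 3 → ℝ) (κ : ℝ) (x b : Fin 11 → ℝ) : Prop where
  κeq : κ = θ 1 - θ 2
  κ0 : 0 < κ
  th1 : 0 < θ 1
  h01 : θ 0 = θ 1
  x3 : 0 < x 3
  bρ : ∀ i, i ≠ 3 → b i = rhoF θ i

theorem T_nonneg (h : PlZ θ κ x b) (i : Fin 11) : 0 ≤ TF {3} κ 1 x i := by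
  rw [T_val]
  have := h.κ0
  have := h.x3
  fin_cases i <;> simp <;> linarith

theorem grp5 (h : PlZ θ κ x b) : gC (TF {3} κ 1 x) b 5 = 0 := gC_zero.2 (by rw [T_val]; simp)

theorem grp7 (h : PlZ θ κ x b) : gC (TF {3} κ 1 x) b 7 = 0 := gC_zero.2 (by rw [T_val]; simp)

theorem T0 : TF {3} κ 1 x 0 = 1 := by rw [T_val]; simp
theorem T8 : TF {3} κ 1 x 8 = 1 := by rw [T_val]; simp
theorem T9 : TF {3} κ 1 x 9 = 1 + κ := by rw [T_val]; simp
theorem T10 : TF {3} κ 1 x 10 = 1 := by rw [T_val]; simp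

theorem b0 (h : PlZ θ κ x b) : b 0 = 1 := by rw [h.bρ 0 (by decide), rho_val]; simp
theorem b8 (h : PlZ θ κ x b) : b 8 = 1 - θ 1 := by rw [h.bρ 8 (by decide), rho_val]; simp
theorem b9 (h : PlZ θ κ x b) : b 9 = 1 - θ 2 := by rw [h.bρ 9 (by decide), rho_val]; simp
theorem b10 (h : PlZ θ κ x b) : b 10 = 1 - θ 0 := by rw [h.bρ 10 (by decide), rho_val]; simp

theorem g0_ne (h : PlZ θ κ x b) : gC (TF {3} κ 1 x) b 0 ≠ 0 := fun h' => by
  have := gC_zero.1 h'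
  rw [T0] at this
  norm_num at this

theorem g8_ne (h : PlZ θ κ x b) : gC (TF {3} κ 1 x) b 8 ≠ 0 := fun h' => by
  have := gC_zero.1 h'
  rw [T8] at this
  norm_num at this

theorem g9_ne (h : PlZ θ κ x b) : gC (TF {3} κ 1 x) b 9 ≠ 0 := fun h' => by
  have := gC_zero.1 h'
  rw [T9] at this
  have := h.κ0
  linarith

theorem g08 (h : PlZ θ κ x b) : gC (TF {3} κ 1 x) b 0 ≠ gC (TF {3} κ 1 x) b 8 := fun h' => by
  have h1 := (gC_eq (by rw [T0]; norm_num) (by rw [T8]; norm_num)).1 h'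
  rw [T0, T8, b0 h, b8 h] at h1
  have := h.th1
  norm_num at h1
  linarith

theorem g09 (h : PlZ θ κ x b) : gC (TF {3} κ 1 x) b 0 ≠ gC (TF {3} κ 1 x) b 9 := fun h' => by
  have hκ := h.κ0
  have h1 := (gC_eq (by rw [T0]; norm_num) (by rw [T9]; linarith)).1 h'
  rw [T0, T9, b0 h, b9 h, div_one, eq_div_iff (by linarith)] at h1
  have := h.th1
  have := h.κeq
  linarith

theorem g89 (h : PlZ θ κ x b) : gC (TF {3} κ 1 x) b 8 ≠ gC (TF {3} κ 1 x) b 9 := fun h' => by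
  have hκ := h.κ0
  have h1 := (gC_eq (by rw [T8]; norm_num) (by rw [T9]; linarith)).1 h'
  rw [T8, T9, b8 h, b9 h, div_one, eq_div_iff (by linarith)] at h1
  have h2 := h.th1
  have h3 := h.κeq
  have : θ 1 * κ = 0 := by nlinarith
  rcases mul_eq_zero.1 this with h4 | h4 <;> linarith

theorem g810 (h : PlZ θ κ x b) : gC (TF {3} κ 1 x) b 10 = gC (TF {3} κ 1 x) b 8 := by
  refine (gC_eq (by rw [T10]; norm_num) (by rw [T8]; norm_num)).2 ?_
  rw [T10, T8, b10 h, b8 h, h.h01]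

variable {L : Set (Fin 11 → ℝ)} {lam : (Fin 11 → ℝ) → ℝ} {A : ℝ × ℝ}
  {φ : ℕ → (Fin 11 → ℝ) → ℝ} {r : ℕ → ℝ}

/-- **three rates** -/
theorem r_sum (h : PlZ θ κ x b)
    (H : OutS (gC (TF {3} κ 1 x) b) L (dhC (TF {3} κ 1 x) b) (nC (TF {3} κ 1 x) b) lam A φ r) :
    r (gC (TF {3} κ 1 x) b 0) + r (gC (TF {3} κ 1 x) b 8) + r (gC (TF {3} κ 1 x) b 9) ≤ -A.1 := by
  set T := TF {3} κ 1 x with hT
  set g := gC T b with hg
  have hr0 : ∀ k, k ≠ 0 → 0 ≤ r k := by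
    intro k hk
    refine H.r_nonneg k fun i hi => ?_
    have hTi : T i ≠ 0 := fun h0 => hk (by rw [← hi]; exact gC_zero.2 h0)
    unfold dhC
    rw [if_neg hTi]
    exact lt_of_le_of_ne (T_nonneg h i) (Ne.symm hTi)
  have h1 := H.total (1, 0)
  have h2 : lf A (1, 0) = A.1 := by simp [lf]
  rw [h2] at h1
  have hn : ∀ k ∈ gset g, r k * lf (nC T b k) (1, 0) = if k = 0 then 0 else r k := by
    intro k hk
    split_ifs with h0
    · subst h0; rw [nC_zero]; simp [lf]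
    · obtain ⟨i, hi⟩ : ∃ i, g i = k := by simpa [gset] using hk
      have hTi : T i ≠ 0 := fun h' => h0 (by rw [← hi]; exact gC_zero.2 h')
      rw [← hi, hg, nC_of hTi]
      simp [lf]
  rw [sum_congr rfl hn] at h1
  have hsub : ({g 0, g 8, g 9} : Finset ℕ) ⊆ gset g := by
    intro k hk
    simp only [mem_insert, mem_singleton] at hk
    rcases hk with rfl | rfl | rfl <;> exact mem_image_of_mem _ (mem_univ _)
  have h3 : ∑ k ∈ ({g 0, g 8, g 9} : Finset ℕ), (if k = 0 then 0 else r k) ≤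
      ∑ k ∈ gset g, (if k = 0 then 0 else r k) :=
    sum_le_sum_of_subset_of_nonneg hsub fun k _ _ => by
      split_ifs with h0
      · exact le_rfl
      · exact hr0 k h0
  rw [sum_insert (by simp only [mem_insert, mem_singleton, not_or]; exact ⟨g08 h, g09 h⟩),
    sum_insert (by simp only [mem_singleton]; exact g89 h), sum_singleton,
    if_neg (g0_ne h), if_neg (g8_ne h), if_neg (g9_ne h)] at h3
  linarith

/-- cone after dropping `F_b` : the boxes -/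
theorem bx_W7 {z c p a n : ℝ} (z0 : 0 ≤ z) (c0 : 0 ≤ c) (a0 : 0 ≤ a) (pc : p ≤ c)
    (azc : a ≤ z + c) (nzp : n ≤ z + p) (na : n ≤ a) : bx z c p a n ∈ W7 := by
  refine ⟨?_, ?_, ?_, ?_, ?_, ?_, ?_⟩ <;> simp [bx] <;> linarith

theorem ray_W7 (h : PlZ θ κ x b) {u : ℝ} : u • TF {3} κ 1 x ∈ W7 := by
  have := h.κ0
  rw [T_val]
  refine ⟨?_, ?_, ?_, ?_, ?_, ?_, ?_⟩ <;> simp <;> nlinarith

/-- **683's splitting** -/
theorem z2_split (h : PlZ θ κ x b)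
    (H : OutS (gC (TF {3} κ 1 x) b) L (dhC (TF {3} κ 1 x) b) (nC (TF {3} κ 1 x) b) lam A φ r)
    (hL : ∀ x, Leg mZ2 x ⊆ L) : SplZ lam :=
  splZ_of H hL ((grp7 h).trans (grp5 h).symm) (g810 h)
    (by rw [grp5 h]; exact g0_ne h) (g08 h) (by rw [grp5 h]; exact (g8_ne h).symm)

/-- **the deficit** -/
theorem z2_nf (h : PlZ θ κ x b)
    (H : OutS (gC (TF {3} κ 1 x) b) L (dhC (TF {3} κ 1 x) b) (nC (TF {3} κ 1 x) b) lam A φ r)
    (hL : W7 ⊆ L) (rz : 1 ≤ r (gC (TF {3} κ 1 x) b 0)) (rb : 1 + κ ≤ r (gC (TF {3} κ 1 x) b 9))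
    {c : ℝ} (hA : -A.1 ≤ 4 + κ - c) {y : ℝ} (hy : 0 < y) :
    lam (bx y 0 0 0 0) - lam (bx y 0 0 y y) ≤ (2 - c) * y := by
  have hs := r_sum h H
  set T := TF {3} κ 1 x with hT
  set g := gC T b with hg
  have hr : r (g 8) ≤ 2 - c := by linarith
  have y0 := hy.le
  have m1 : bx y 0 0 0 0 ∈ L := hL (bx_W7 y0 le_rfl le_rfl le_rfl (by linarith) (by linarith)
    le_rfl)
  have m2 : bx y 0 0 y y ∈ L := hL (bx_W7 y0 le_rfl y0 le_rfl (by linarith) (by linarith) le_rfl)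
  have m3 : y • T ∈ L := hL (ray_W7 h)
  rw [H.sum _ m1, H.sum _ m2, ← sum_sub_distrib]
  have mg : g 8 ∈ gset g := mem_image_of_mem _ (mem_univ _)
  rw [sum_eq_single_of_mem (g 8) mg]
  · have e1 : φ (g 8) (bx y 0 0 0 0) = 0 := by
      refine H.zero _ _ fun i hi => ?_
      have key : ∀ i : Fin 11, i = 0 ∨ bx y 0 0 0 0 i = 0 := by
        intro i; fin_cases i <;> simp [bx]
      rcases key i with h' | h'
      · subst h'; exact absurd hi (g08 h)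
      · exact h'
    have e2 : φ (g 8) (y • T) = -(r (g 8) * y) := by
      refine H.rate _ _ m3 y fun i hi => ?_
      have hTi : T i ≠ 0 := fun h' => g8_ne h (by
        have h1 : g i = 0 := gC_zero.2 h'
        exact hi.symm.trans h1)
      unfold dhC
      rw [if_neg hTi]; rfl
    have e3 := (H.mono (g 8) _ m2 _ m3 fun i hi => by
      have key : ∀ i : Fin 11, bx y 0 0 y y i ≤ (y • T) i := by
        intro i
        rw [hT, T_val]
        have := h.κ0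
        have := h.x3
        fin_cases i <;> simp [bx] <;> nlinarith
      exact key i).1
    rw [e1]
    rw [e2] at e3
    have := mul_le_mul_of_nonneg_right hr y0
    linarith
  · intro k hk hk8
    have : φ k (bx y 0 0 0 0) = φ k (bx y 0 0 y y) := by
      refine H.loc k _ _ fun i hi => ?_
      have key : ∀ i : Fin 11, i = 8 ∨ i = 10 ∨ bx y 0 0 0 0 i = bx y 0 0 y y i := by
        intro i; fin_cases i <;> simp [bx]
      rcases key i with h' | h' | h'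
      · subst h'; exact absurd hi.symm hk8
      · subst h'
        have h10 := g810 h
        exact absurd (by rw [← hi]; exact h10) hk8
      · exact h'
    rw [this, sub_self]

end

/-- legal boxes of the window lie in the cone -/
theorem leg_W7 {s : ℝ} {c : Fin 11 → ℝ} (hc : c ∈ Leg mZ2 s) : c ∈ W7 := by
  have key : ∀ k, ∀ e ∈ monQ.mon k, (e 1 = 0 ∧ e 3 = 0) → c k ≤ ∑ s, (e s : ℝ) * c s :=
    fun k e he h => hc.1.2 k e (mem_filter.2 ⟨he, h⟩)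
  obtain ⟨h1, h2, h3, h4, h5, h6, h7, h8, h9, h10, h11, h12, h13, h14, h15, h16, h17, h18⟩ :=
    (monQ_all fun k e => (e 1 = 0 ∧ e 3 = 0) → c k ≤ ∑ s, (e s : ℝ) * c s).1 key
  have a1 := h2 ⟨by decide, by decide⟩
  have a2 := h4 ⟨by decide, by decide⟩
  have a3 := h7 ⟨by decide, by decide⟩
  have a4 := h8 ⟨by decide, by decide⟩
  have a5 := h9 ⟨by decide, by decide⟩
  have a6 := h11 ⟨by decide, by decide⟩
  have a7 := h13 ⟨by decide, by decide⟩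
  rw [sm] at a1 a2 a3 a4 a5 a6 a7
  simp only [Matrix.cons_val] at a1 a2 a3 a4 a5 a6 a7
  push_cast at a1 a2 a3 a4 a5 a6 a7
  refine ⟨?_, ?_, ?_, ?_, ?_, ?_, ?_⟩ <;> linarith

/-! ### from the stage -/

section stage

open Crest.Agent.R138 (Ex926.IsTan)
open Crest.Agent.R136.Top484
open Crest.Agent.R136.Wq638
open K2S774 (cn Nat cn_zero)
open Dg262 (X)

variable {p : Par4} {ν own lam lo lam' lo' : (Fin 11 → ℝ) → ℝ} {w0 R v : ℝ} {x b : Fin 11 → ℝ}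

theorem T0' (hκ : 0 < p.θ 1 - p.θ 2) (hx : 0 < x 3) (i : Fin 11) :
    0 ≤ TF {3} (p.θ 1 - p.θ 2) 1 x i := (TF_ii hκ hx).1 i

theorem natT' (κ : ℝ) : Nat (mw monQ) (AF {3}) (TF {3} κ 1 x) := fun w hw => natTF _ _ _ hw

theorem mem_W7 {c : Fin 11 → ℝ} (h : c ∈ W7) : c ∈ cn (mw monQ) (AF {3}) := by
  rw [← cn_W7] at h; exact h

/-- **`C_a` is visible** -/
theorem z2_ca (H : StF p ν own w0 R v {3} lam lo) (hκ : 0 < p.θ 1 - p.θ 2) (hx : 0 < x 3)
    (hb : ∀ i, i ∉ ({3} : Finset (Fin 11)) → b i = rhoF p.θ i) {z : ℝ × ℝ} (hz : z.1 < 0)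
    {k : ℕ → ℝ} (kpos : ∀ l, 0 < k l) (k0 : Tendsto k atTop (𝓝 0))
    (H1 : Crest.Agent.R138.Ex926.IsTan (cn (mw monQ) (AF {3})) (cn (mw monQ) (AF {3})) lam
      (fun _ => X 0 (TF {3} (p.θ 1 - p.θ 2) 1 x) b z) k lam') (q1 : 0 < p.q 1) {y : ℝ}
    (hy : 0 < y) : lam' (bx 0 y 0 0 0) < 0 := by
  have e1 : (0 : Fin 11 → ℝ) + y • Pi.single (5 : Fin 11) (1:ℝ) = bx 0 y 0 0 0 := by
    funext i
    fin_cases i <;> simp [bx, Pi.single_apply]
  have hm : bx 0 y 0 0 0 ∈ cn (mw monQ) (AF {3}) :=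
    mem_W7 (bx_W7 le_rfl hy.le le_rfl hy.le (by linarith) (by linarith) le_rfl)
  have h1 := H.sweep (recD_F p.θ {3}) (T0' hκ hx) (natT' _) (fun i hi => hb i (by simpa using hi))
    hz kpos k0 H1 (u := Pi.single 5 1) (c' := 0) (σ := 0) (h := y)
    (fun i => by rw [Pi.single_apply]; split_ifs <;> norm_num) (qd_ca p.θ) hy.le cn_zero
    (by rw [e1]; exact hm) (fun i _ _ => by simp) (fun i _ hi => by
      have h5 : i = 5 := by
        by_contra h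
        exact hi (by rw [Pi.single_apply, if_neg h])
      subst h5
      refine ⟨?_, by simp⟩
      rw [T_val]; simp)
  rw [e1, H1.zero kpos cn_zero] at h1
  have e2 : (DlFL p) (Pi.single 5 1) = -p.q 1 := DlF_ca p
  rw [e2] at h1
  nlinarith

/-- **own rate of `z`** -/
theorem z2_fr (H : StF p ν own w0 R v {3} lam lo)
    (hb : ∀ i, i ∉ ({3} : Finset (Fin 11)) → b i = rhoF p.θ i) {z : ℝ × ℝ} (hz : z.1 < 0)
    {k : ℕ → ℝ} (kpos : ∀ l, 0 < k l) (k0 : Tendsto k atTop (𝓝 0))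
    (H1 : Crest.Agent.R138.Ex926.IsTan (cn (mw monQ) (AF {3})) (cn (mw monQ) (AF {3})) lam
      (fun _ => X 0 (TF {3} (p.θ 1 - p.θ 2) 1 x) b z) k lam')
    (H2 : Crest.Agent.R138.Ex926.IsTan (cn (mw monQ) (AF {3})) (cn (mw monQ) (AF {3})) lo
      (fun _ => X 0 (TF {3} (p.θ 1 - p.θ 2) 1 x) b z) k lo') {y : ℝ} (hy : 0 ≤ y) :
    lam' (bx y 0 0 0 0) ≤ -y := by
  have hm : bx y 0 0 0 0 ∈ cn (mw monQ) (AF {3}) :=
    mem_W7 (bx_W7 hy le_rfl le_rfl le_rfl (by linarith) (by linarith) le_rfl)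
  have h1 := H.hown (recD_F p.θ {3}) (natT' _) (fun i hi => by
      have h2 : i = 2 := by simpa using hi
      subst h2
      rw [T_val]; simp [oF]) (fun i hi => hb i (by simpa using hi)) hz kpos k0 H1 H2 0 cn_zero
    (bx y 0 0 0 0) hm (by
      intro i
      fin_cases i <;> simp [bx, hy]) (fun i _ _ => by simp)
  have e0 : bx y 0 0 0 0 0 = y := by simp [bx]
  rw [H1.zero kpos cn_zero, e0, Pi.zero_apply] at h1
  linarith

/-- **the numbers of 683's windows** -/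
theorem z2_dens_num (H : StF p ν own w0 R v {3} lam lo) (hκ : 0 < p.θ 1 - p.θ 2) (hx : 0 < x 3)
    (th1 : 0 < p.θ 1) (h01 : p.θ 0 = p.θ 1)
    (hb : ∀ i, i ∉ ({3} : Finset (Fin 11)) → b i = rhoF p.θ i) {z : ℝ × ℝ} (hz : z.1 < 0)
    {k : ℕ → ℝ} (kpos : ∀ l, 0 < k l) (k0 : Tendsto k atTop (𝓝 0))
    (H1 : Crest.Agent.R138.Ex926.IsTan (cn (mw monQ) (AF {3})) (cn (mw monQ) (AF {3})) lam
      (fun _ => X 0 (TF {3} (p.θ 1 - p.θ 2) 1 x) b z) k lam')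
    (H2 : Crest.Agent.R138.Ex926.IsTan (cn (mw monQ) (AF {3})) (cn (mw monQ) (AF {3})) lo
      (fun _ => X 0 (TF {3} (p.θ 1 - p.θ 2) 1 x) b z) k lo') (q1 : 0 < p.q 1)
    {A : ℝ × ℝ} {φ : ℕ → (Fin 11 → ℝ) → ℝ} {r : ℕ → ℝ}
    (HO : OutS (gC (TF {3} (p.θ 1 - p.θ 2) 1 x) b) (cn (mw monQ) (AF {3}))
      (dhC (TF {3} (p.θ 1 - p.θ 2) 1 x) b) (nC (TF {3} (p.θ 1 - p.θ 2) 1 x) b) lam' A φ r)
    (rz : 1 ≤ r (gC (TF {3} (p.θ 1 - p.θ 2) 1 x) b 0))
    (rb : 1 + (p.θ 1 - p.θ 2) ≤ r (gC (TF {3} (p.θ 1 - p.θ 2) 1 x) b 9))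
    {c : ℝ} (c2 : c ≤ 2) (hA : -A.1 ≤ 4 + (p.θ 1 - p.θ 2) - c) {y t : ℝ} (hy : 0 < y)
    (ht : 0 < t) (htc : 2 * t < c * y) :
    (stZ y).Dens lam' 1 y ∧ NumP (stZ y) lam' y t := by
  have P : PlZ p.θ (p.θ 1 - p.θ 2) x b :=
    ⟨rfl, hκ, th1, h01, hx, fun i hi => hb i (by simpa using hi)⟩
  have hL : W7 ⊆ cn (mw monQ) (AF {3}) := fun c hc => mem_W7 hc
  refine z2_num (z2_split P HO fun s c hc => hL ?_) (H1.zero kpos cn_zero) c2 hy
    (z2_nf P HO hL rz rb hA hy) (fun y hy => z2_ca H hκ hx hb hz kpos k0 H1 q1 hy)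
    (fun y hy => z2_fr H hb hz kpos k0 H1 H2 hy) ht htc
  exact leg_W7 hc

end stage

end Crest.Agent.R136.Z2n403
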