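import Crest.Agent.R136.Z2z_683

/-!
# R136: rung `s = 1` of Z2: strip relation on fine classes at the record (helper683)

* **`z2_twin`** : twin + numbers of the interior tangent ⊢ record windows with a dense part on whose
  fine classes `P - μ C_a` is constant at any precision `t` in units of the window
-/

set_option autoImplicit false
set_option linter.unusedSectionVars false
set_option linter.unusedVariables false

open Filter Topology

namespace Crest.Agent.R136.Z2683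

open Finset Crest.Agent.R136.NetQ186 Crest.Agent.R136.Net191 Crest.Agent.R136.Qg926
open Crest.Agent.R136.Gf356 Crest.Agent.R136.Ev356
open Crest.Agent.R138.Ex926 (Base U U_le_atTop)
open Dg219 (OutS gset mw Walls gC dhC nC)
open Crest.Agent.R136.LdF3511 (WI AF)
open K2S774 (cn JT)
open Tw683

variable {ι : ℕ → Type*} [∀ n, DecidableEq (ι n)]

/-- **strip relation on the fine classes of a twin record window** -/
theorem z2_twin (hKM : ∀ V : ℝ, Crest.Agent.R138.Tub70.KM32 V) {B : Base}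
    {I J : ∀ n, Finset (ι n)} {co : ∀ n, ι n → ι n → Fin 11 → ℝ} {C R : ℝ}
    {ν own : (Fin 11 → ℝ) → ℝ} (hN : NProf B I J co monQ C R ν) {f : ∀ n, ι n → Fq4}
    (hco : ∀ n, ∀ i ∈ I n, ∀ j ∈ I n, co n i j = coQ (f n i) (f n j))
    {r0 ρ : Fin 11 → ℝ} {Dl : (Fin 11 → ℝ) →ₗ[ℝ] ℝ} {Tie : Set (Fin 11)} {kz : Fin 11}
    {o : Fin 11 → ℝ} {Dr : Set (Fin 11)} {T : Fin 11 → ℝ} {z1 : ℝ} {x' x1 : ℕ → Fin 11 → ℝ}
    {h' : ℕ → ℝ} {lam' lo' lam1 lo1 : (Fin 11 → ℝ) → ℝ}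
    (TW : Twin (mw monQ) (AF {3}) (Leg monQ R) ν own r0 ρ Dl Tie kz o Dr T z1 x' x1 h' lam' lo'
      lam1 lo1) (hz1 : z1 < 0) (T0 : ∀ i, 0 ≤ T i) (T5 : T 5 = 0) (T7 : T 7 = 0)
    (hsp : SplZ lam') {c : ℝ} (c0 : 0 < c) (c2 : c ≤ 2)
    (nf : ∀ x : ℝ, 0 < x → lam' (bx x 0 0 0 0) - lam' (bx x 0 0 x x) ≤ (2 - c) * x)
    (ca : ∀ y : ℝ, 0 < y → lam' (bx 0 y 0 0 0) < 0)
    (fr : ∀ y : ℝ, 0 ≤ y → lam' (bx y 0 0 0 0) ≤ -y) {cf : Fin 11 → ℝ}
    (hcf : cf ∈ cn (mw monQ) (AF {3})) (cf5 : cf 5 = 0) (cf7 : cf 7 = 0)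
    (cfT : ∀ i, T i = 0 → 0 ≤ cf i) {t : ℝ} (ht : 0 < t) (s : ℕ → ℕ → ℝ)
    (hs : ∀ i, B.Sub (s i)) (i₀ : ∀ n, ι n) :
    ∃ k : ℕ → ℕ, Tendsto k U atTop ∧ ∀ k' : ℕ → ℕ, Tendsto k' U atTop →
      (∀ᶠ n in (U : Filter ℕ), k' n ≤ k n) → ∃ B' : Base,
        (∀ n, B'.d n = B.d n ^ h' (k' n)) ∧ (∀ n, B'.L n = h' (k' n) * B.L n) ∧
        (∀ i, B'.Sub (s i)) ∧
        ZWin B B' I J co monQ C (fun n => x1 (k' n)) (fun n => h' (k' n))
          (cn (mw monQ) (AF {3})) (fun n => B.d n ^ (-(ν (x1 (k' n))))) lam1 ∧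
        ∃ (J2 : ∀ n, Finset (ι n)) (S2 : ℕ → ℝ), (∀ n, J2 n ⊆ J n) ∧ B'.Sub S2 ∧
          (∀ᶠ n in (U : Filter ℕ), (J2 n).Nonempty ∧
            ((J n).card : ℝ) ≤ S2 n * (J2 n).card ∧ 1 ≤ S2 n) ∧
          ∀ ε : ℝ, 0 < ε → ∀ᶠ n in (U : Filter ℕ), ∀ i ∈ J2 n, ∃ μ : ℝ,
            |μ| ≤ B'.d n ^ (-ε) ∧ ∀ y ∈ J2 n,
              nlab B I co monQ C n (x1 (k' n) + h' (k' n) • cf) y =
                nlab B I co monQ C n (x1 (k' n) + h' (k' n) • cf) i →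
              |co n i y 7 / B.d n ^ (x1 (k' n) + h' (k' n) • cf) 7 -
                μ * (co n i y 5 / B.d n ^ (x1 (k' n) + h' (k' n) • cf) 5)| ≤
                B'.d n ^ (t - ε) := by
  have h0 : (0 : Fin 11 → ℝ) ∈ cn (mw monQ) (AF {3}) := K2S774.cn_zero
  have hpos := TW.jt'.pos
  obtain ⟨k, hk, key⟩ := exists_zwin_twin hN hpos h0 TW.jt'.tan TW.jt1.tan s hs
  refine ⟨k, hk, fun k' hk' hle => ?_⟩
  obtain ⟨B', b1, b2, b3, Z', Z1⟩ := key k' hk' hle
  refine ⟨B', b1, b2, b3, Z1, ?_⟩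
  -- the strip relation at the interior points
  set x : ℝ := 2 * t / c + 1 with hx
  have hx0 : 0 < x := by positivity
  have htc : 2 * t < c * x := by
    have : c * x = 2 * t + c := by rw [hx]; field_simp
    linarith
  obtain ⟨n1, n2⟩ := z2_num hsp Z'.lam0 c2 hx0 (nf x hx0) ca fr ht htc
  obtain ⟨J1, hJ1, hd, hrel⟩ := strip_rel hKM Z' hco (stZ_ok hx0.le (legZ_cn x))
    (fun s hs => Or.inl (by simpa [stZ] using hs)) rfl hx0 n1 (fun s hs => stZ_top s hs)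
    (hk'.eventually (gapP_of TW.jt' x)) n2 i₀
  -- loss of the dense part
  obtain ⟨S1, hS1, hS1'⟩ := dense_sub hd Z'.ne
  -- the coarse label
  obtain ⟨H, H0, hH, he⟩ := TW.rel
  have hp : ∀ᶠ n in (U : Filter ℕ), Legal monQ (x' (k' n)) := by
    filter_upwards [Z'.legal 0] with n hn
    have := hn 0 h0 (by simp)
    rwa [smul_zero, add_zero] at this
  have hq : ∀ᶠ n in (U : Filter ℕ), Legal monQ (x1 (k' n) + h' (k' n) • cf) := by
    filter_upwards [Z1.legal ‖cf‖] with n hn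
    exact hn cf hcf le_rfl
  have hpq : ∀ᶠ n in (U : Filter ℕ), x' (k' n) ≤ x1 (k' n) + h' (k' n) • cf :=
    hk'.eventually (twin_le hz1 H0 hH he hpos T0 cfT)
  have hJ1I : ∀ᶠ n in (U : Filter ℕ), J1 n ⊆ I n := by
    filter_upwards [Z'.sub] with n hn using (hJ1 n).trans hn
  obtain ⟨J2, hJ2, hc2, hpop⟩ := exists_popular (B := B) Z'.chart hJ1I hp hq hpq
  have hN0 : 0 < cN monQ C (cK0 monQ C) := cN_pos monQ (Z'.chart 0).C0 (cK0_one (Z'.chart 0).C0)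
  refine ⟨J2, fun n => max 1 (cN monQ C (cK0 monQ C)) * S1 n, fun n => (hJ2 n).trans (hJ1 n),
    (Base.Sub.const (lt_of_lt_of_le one_pos (le_max_left _ _))).mul hS1, ?_, ?_⟩
  · filter_upwards [hS1', hc2, Z'.ne] with n a1 a2 a3
    have hS0 : 0 ≤ S1 n := by linarith [a1.2]
    have m1 : 1 ≤ max 1 (cN monQ C (cK0 monQ C)) := le_max_left _ _
    have h1 : ((J n).card : ℝ) ≤ max 1 (cN monQ C (cK0 monQ C)) * S1 n * (J2 n).card := by
      calc ((J n).card : ℝ) ≤ S1 n * (J1 n).card := a1.1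
        _ ≤ S1 n * (cN monQ C (cK0 monQ C) * (J2 n).card) := mul_le_mul_of_nonneg_left a2 hS0
        _ ≤ S1 n * (max 1 (cN monQ C (cK0 monQ C)) * (J2 n).card) := by
            refine mul_le_mul_of_nonneg_left ?_ hS0
            exact mul_le_mul_of_nonneg_right (le_max_right _ _) (Nat.cast_nonneg _)
        _ = _ := by ring
    refine ⟨?_, h1, ?_⟩
    · rw [← card_pos]
      by_contra hcon
      have e0 : (J2 n).card = 0 := by omega
      rw [e0] at h1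
      have : 0 < ((J n).card : ℝ) := by exact_mod_cast a3.card_pos
      simp at h1
      rw [h1] at a3
      exact absurd a3 (by simp)
    · nlinarith [a1.2]
  · intro ε hε
    filter_upwards [hrel ε hε, hpop] with n h1 h2 i hi
    have hi1 := hJ2 n hi
    have e0 : x' (k' n) + h' (k' n) • (0 : Fin 11 → ℝ) = x' (k' n) := by
      rw [smul_zero, add_zero]
    have hself : i ∈ Crest.Agent.R138.Ex926.cls (J1 n)
        (zlab B I co monQ C (fun n => x' (k' n)) (fun n => h' (k' n)) n 0) i :=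
      Crest.Agent.R138.Ex926.mem_cls.2 ⟨hi1, rfl⟩
    obtain ⟨μ, hμ, hr⟩ := h1 i hi1 i hself
    refine ⟨μ, hμ, fun y hy hyi => ?_⟩
    have hlab := h2 y hy i hi hyi
    have hlab' : zlab B I co monQ C (fun n => x' (k' n)) (fun n => h' (k' n)) n 0 y =
        zlab B I co monQ C (fun n => x' (k' n)) (fun n => h' (k' n)) n 0 i := by
      show nlab B I co monQ C n (x' (k' n) + h' (k' n) • (0 : Fin 11 → ℝ)) y =
        nlab B I co monQ C n (x' (k' n) + h' (k' n) • (0 : Fin 11 → ℝ)) i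
      rw [e0]; exact hlab
    have h3 := hr y (Crest.Agent.R138.Ex926.mem_cls.2 ⟨hJ2 n hy, hlab'⟩) hlab'
    have e7 : (x1 (k' n) + h' (k' n) • cf) 7 = x' (k' n) 7 := by
      rw [he]
      simp only [Pi.add_apply, Pi.smul_apply, smul_eq_mul, cf7, T7]; ring
    have e5 : (x1 (k' n) + h' (k' n) • cf) 5 = x' (k' n) 5 := by
      rw [he]
      simp only [Pi.add_apply, Pi.smul_apply, smul_eq_mul, cf5, T5]; ring
    rw [e7, e5]
    exact h3

end Crest.Agent.R136.Z2683
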