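import Crest.Agent.R136.Ev6_356
import Crest.Agent.R136.Qg7_926

/-!
# R136: the block `(X_a, N)` with velocities `(C_a, P)` in the absolute frame of the base incidence
of a window of helper926, chart of helper186 (helper683)

`Z2W W x` : normalising constants `1`, resolution `≥ x` in the slots `z, C_a, P, X_a, N`, tight walls `X_a ≤ z + C_a`, `N ≤ z + P`,
slots `R` and `F_b` negligible at precision `ρ ^ x`.

* `lrp W n l` : representative of a fat line;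
* `bA`, `bV`, `bF` : position (at the height of the base incidence), velocity, position at height `k`;
* `Z2W.hF`, `.hlink`, `.hT`, `.hqf`, `.hql`, `.hCl` : hypotheses of 403's `strip_lam_R`, `block_R`.
-/

set_option autoImplicit false
set_option linter.unusedSectionVars false
set_option linter.unusedVariables false

open Filter Topology

namespace Crest.Agent.R136.Z2683

open Finset Crest.Agent.R136.NetQ186 Crest.Agent.R136.Net191 Crest.Agent.R136.Qg926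
open Crest.Agent.R136.Gf356 Crest.Agent.R136.Ev356
open Crest.Agent.R138.Ex926 (Base U)

/-! ### raw identities -/

theorem raw7 (p x y : Fq4) : coQ p y 7 - coQ p x 7 = coQ x y 7 - 2 * (coQ p x 0 * coQ x y 1) +
    coQ p x 4 * coQ x y 5 + coQ p x 2 * coQ p x 3 * coQ x y 5 + coQ p x 3 * coQ x y 6 := by
  simp only [coQ, Fq4.vy, Matrix.cons_val]
  ring

theorem raw8 (p x y : Fq4) (h : ℝ) : (coQ p y 8 + h * coQ p y 5) - (coQ p x 8 + h * coQ p x 5) =
    coQ x y 8 + (h - coQ p x 0) * coQ x y 5 := by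
  simp only [coQ, Fq4.pa, Matrix.cons_val]
  ring

theorem raw10 (p x y : Fq4) (h : ℝ) :
    (coQ p y 10 + h * coQ p y 7) - (coQ p x 10 + h * coQ p x 7) =
    coQ x y 10 + (h - coQ p x 0) * coQ x y 7 + ((h - coQ p x 0) ^ 2 - h ^ 2) * coQ x y 1 +
    coQ p x 4 * (coQ x y 8 + (h - coQ p x 0) * coQ x y 5) +
    coQ p x 2 * coQ p x 3 * (coQ x y 8 + (h - coQ p x 0) * coQ x y 5) +
    coQ p x 3 * (coQ x y 9 + (h - coQ p x 0) * coQ x y 6) := by
  simp only [coQ, Fq4.pa, Fq4.pb, Fq4.py, Fq4.vy, Matrix.cons_val]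
  ring

/-! ### estimates -/

theorem est7 {K η D a0 a2 a3 a4 b1 b5 b6 b7 c017 c457 c234 c367 : ℝ} (hK : 1 ≤ K) (hη : 0 ≤ η)
    (h : D = b7 - 2 * c017 * (a0 * b1) + c457 * (a4 * b5) + c234 * c457 * (a2 * a3 * b5) +
      c367 * (a3 * b6)) (ha0 : |a0| ≤ K) (ha2 : |a2| ≤ K) (ha3 : |a3| ≤ K) (ha4 : |a4| ≤ K)
    (hb1 : |b1| ≤ K) (hb6 : |b6| ≤ K) (h017 : 0 ≤ c017) (h017' : c017 ≤ η) (h367 : 0 ≤ c367)
    (h367' : c367 ≤ η) (h457 : 0 ≤ c457) (h457' : c457 ≤ 1) (h234 : 0 ≤ c234)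
    (h234' : c234 ≤ 1) : |D - b7| ≤ 3 * K ^ 2 * η + 2 * K ^ 2 * |b5| := by
  have e1 : |2 * c017 * (a0 * b1)| ≤ 2 * η * (K * K) := by
    rw [abs_mul, abs_mul a0, abs_of_nonneg (by positivity : 0 ≤ 2 * c017)]
    exact mul_le_mul (by linarith) (mul_le_mul ha0 hb1 (abs_nonneg _) (by linarith))
      (by positivity) (by positivity)
  have e2 : |c457 * (a4 * b5)| ≤ 1 * (K * |b5|) := by
    rw [abs_mul, abs_mul a4, abs_of_nonneg h457]
    exact mul_le_mul h457' (mul_le_mul_of_nonneg_right ha4 (abs_nonneg _)) (by positivity)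
      (by norm_num)
  have e3 : |c234 * c457 * (a2 * a3 * b5)| ≤ 1 * 1 * (K * K * |b5|) := by
    rw [abs_mul, abs_mul (a2 * a3), abs_mul a2, abs_of_nonneg (mul_nonneg h234 h457)]
    exact mul_le_mul (mul_le_mul h234' h457' h457 (by norm_num))
      (mul_le_mul_of_nonneg_right (mul_le_mul ha2 ha3 (abs_nonneg _) (by linarith))
        (abs_nonneg _)) (by positivity) (by norm_num)
  have e4 : |c367 * (a3 * b6)| ≤ η * (K * K) := by
    rw [abs_mul, abs_mul a3, abs_of_nonneg h367]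
    exact mul_le_mul h367' (mul_le_mul ha3 hb6 (abs_nonneg _) (by linarith)) (by positivity) hη
  have e5 : D - b7 = -(2 * c017 * (a0 * b1)) + c457 * (a4 * b5) +
      c234 * c457 * (a2 * a3 * b5) + c367 * (a3 * b6) := by rw [h]; ring
  have e6 := abs_add_le (-(2 * c017 * (a0 * b1)) + c457 * (a4 * b5) +
      c234 * c457 * (a2 * a3 * b5)) (c367 * (a3 * b6))
  have e7 := abs_add_le (-(2 * c017 * (a0 * b1)) + c457 * (a4 * b5))
      (c234 * c457 * (a2 * a3 * b5))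
  have e8 := abs_add_le (-(2 * c017 * (a0 * b1))) (c457 * (a4 * b5))
  rw [abs_neg] at e8
  rw [e5]
  have k2 : K * |b5| ≤ K ^ 2 * |b5| :=
    mul_le_mul_of_nonneg_right (by nlinarith) (abs_nonneg _)
  nlinarith

theorem est10 {K η D g h a2 a3 a4 b1 b5 b6 b7 b8 b9 b10 cR c4 c234 c3 c069 : ℝ} (hK : 1 ≤ K)
    (hη : 0 ≤ η)
    (hD : D = b10 + g * b7 + cR * ((g ^ 2 - h ^ 2) * b1) + c4 * (a4 * (b8 + g * b5)) +
      c234 * c4 * (a2 * a3 * (b8 + g * b5)) + c3 * (a3 * (b9 + c069 * (g * b6))))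
    (hg : |g| ≤ 2 * K) (hh : |h| ≤ K) (ha2 : |a2| ≤ K) (ha3 : |a3| ≤ K) (ha4 : |a4| ≤ K)
    (hb1 : |b1| ≤ K) (hb6 : |b6| ≤ K) (hb9 : |b9| ≤ K)
    (hR : 0 ≤ cR) (hR' : cR ≤ η) (h3 : 0 ≤ c3) (h3' : c3 ≤ η) (h4 : 0 ≤ c4) (h4' : c4 ≤ 1)
    (h234 : 0 ≤ c234) (h234' : c234 ≤ 1) (h069 : 0 ≤ c069) (h069' : c069 ≤ 1) :
    |D - b10| ≤ |g| * |b7| + 2 * K ^ 2 * (|b8| + |g| * |b5|) + 8 * K ^ 3 * η := by
  have K0 : 0 ≤ K := by linarith
  set q : ℝ := |b8| + |g| * |b5| with hq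
  have hq0 : 0 ≤ q := by positivity
  have hbq : |b8 + g * b5| ≤ q := by
    refine (abs_add_le _ _).trans ?_
    rw [abs_mul]
  have e1 : |g * b7| = |g| * |b7| := abs_mul _ _
  have e2 : |cR * ((g ^ 2 - h ^ 2) * b1)| ≤ η * ((5 * K ^ 2) * K) := by
    rw [abs_mul, abs_mul (g ^ 2 - h ^ 2), abs_of_nonneg hR]
    refine mul_le_mul hR' (mul_le_mul ?_ hb1 (abs_nonneg _) (by positivity)) (by positivity) hη
    have g2 : g ^ 2 ≤ (2 * K) ^ 2 := sq_le_sq' (by linarith [neg_abs_le g]) ((le_abs_self g).trans hg)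
    have h2 : h ^ 2 ≤ K ^ 2 := sq_le_sq' (by linarith [neg_abs_le h]) ((le_abs_self h).trans hh)
    rw [abs_le]
    constructor
    · nlinarith [sq_nonneg g]
    · nlinarith [sq_nonneg h]
  have e3 : |c4 * (a4 * (b8 + g * b5))| ≤ 1 * (K * q) := by
    rw [abs_mul, abs_mul a4, abs_of_nonneg h4]
    exact mul_le_mul h4' (mul_le_mul ha4 hbq (abs_nonneg _) K0) (by positivity) (by norm_num)
  have e4 : |c234 * c4 * (a2 * a3 * (b8 + g * b5))| ≤ 1 * 1 * (K * K * q) := by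
    rw [abs_mul, abs_mul (a2 * a3), abs_mul a2, abs_of_nonneg (mul_nonneg h234 h4)]
    exact mul_le_mul (mul_le_mul h234' h4' h4 (by norm_num))
      (mul_le_mul (mul_le_mul ha2 ha3 (abs_nonneg _) K0) hbq (abs_nonneg _) (by positivity))
      (by positivity) (by norm_num)
  have e5 : |c3 * (a3 * (b9 + c069 * (g * b6)))| ≤ η * (K * (K + 1 * (2 * K * K))) := by
    rw [abs_mul, abs_mul a3, abs_of_nonneg h3]
    refine mul_le_mul h3' (mul_le_mul ha3 ?_ (abs_nonneg _) K0) (by positivity) hη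
    refine (abs_add_le _ _).trans (add_le_add hb9 ?_)
    rw [abs_mul, abs_mul g, abs_of_nonneg h069]
    exact mul_le_mul h069' (mul_le_mul hg hb6 (abs_nonneg _) (by positivity)) (by positivity)
      (by norm_num)
  have e6 : D - b10 = g * b7 + cR * ((g ^ 2 - h ^ 2) * b1) + c4 * (a4 * (b8 + g * b5)) +
      c234 * c4 * (a2 * a3 * (b8 + g * b5)) + c3 * (a3 * (b9 + c069 * (g * b6))) := by
    rw [hD]; ring
  rw [e6]
  have t1 := abs_add_le (g * b7 + cR * ((g ^ 2 - h ^ 2) * b1) + c4 * (a4 * (b8 + g * b5)) +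
      c234 * c4 * (a2 * a3 * (b8 + g * b5))) (c3 * (a3 * (b9 + c069 * (g * b6))))
  have t2 := abs_add_le (g * b7 + cR * ((g ^ 2 - h ^ 2) * b1) + c4 * (a4 * (b8 + g * b5)))
      (c234 * c4 * (a2 * a3 * (b8 + g * b5)))
  have t3 := abs_add_le (g * b7 + cR * ((g ^ 2 - h ^ 2) * b1)) (c4 * (a4 * (b8 + g * b5)))
  have t4 := abs_add_le (g * b7) (cR * ((g ^ 2 - h ^ 2) * b1))
  have k0 : K ≤ K ^ 2 := le_self_pow₀ hK (by norm_num)
  have k0' : K ^ 2 ≤ K ^ 3 := pow_le_pow_right₀ hK (by norm_num)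
  have k1 : K * q ≤ K ^ 2 * q := mul_le_mul_of_nonneg_right k0 hq0
  have k2 : K ^ 2 * η ≤ K ^ 3 * η := mul_le_mul_of_nonneg_right k0' hη
  have r2 : η * ((5 * K ^ 2) * K) = 5 * (K ^ 3 * η) := by ring
  have r3 : 1 * (K * q) = K * q := by ring
  have r4 : 1 * 1 * (K * K * q) = K ^ 2 * q := by ring
  have r5 : η * (K * (K + 1 * (2 * K * K))) = K ^ 2 * η + 2 * (K ^ 3 * η) := by ring
  rw [r2] at e2
  rw [r3] at e3
  rw [r4] at e4
  rw [r5] at e5
  have r6 : 2 * K ^ 2 * q = 2 * (K ^ 2 * q) := by ring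
  have r7 : 8 * K ^ 3 * η = 8 * (K ^ 3 * η) := by ring
  rw [r6, r7]
  linarith

/-! ### windows -/

variable {ι : ℕ → Type*} [∀ n, DecidableEq (ι n)] {W : Wnd 11 ι} {f : ∀ n, ι n → Fq4} {x : ℝ}

/-- static hypotheses -/
structure Z2W (W : Wnd 11 ι) (f : ∀ n, ι n → Fq4) (x : ℝ) : Prop where
  q : QWnd W f
  kap : ∀ s, W.kap s = 1
  S0 : (0 : Fin 11) ∈ W.S
  kz : W.kz = 0
  x0 : 0 < x
  top : ∀ s, s = 0 ∨ s = 5 ∨ s = 7 ∨ s = 8 ∨ s = 10 → x ≤ W.top s

/-- hypotheses for one `n` -/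
structure Z2N (W : Wnd 11 ι) (x : ℝ) (n : ℕ) : Prop where
  g : W.Good n
  t8 : W.X n 8 = W.X n 0 + W.X n 5
  t10 : W.X n 10 = W.X n 0 + W.X n 7
  g7 : W.X n 7 + x * W.w n ≤ W.X n 0 + W.X n 1
  g7' : W.X n 7 + x * W.w n ≤ W.X n 3 + W.X n 6
  g10 : W.X n 10 + x * W.w n ≤ W.X n 3 + W.X n 9

/-- the precision of the window -/
noncomputable abbrev et (W : Wnd 11 ι) (x : ℝ) (n : ℕ) : ℝ := W.B'.d n ^ x

theorem et_pos (n : ℕ) : 0 < et W x n := Real.rpow_pos_of_pos (W.B'.pos n) x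

/-- coefficients -/
structure CfN (W : Wnd 11 ι) (x : ℝ) (n : ℕ) : Prop where
  p : ∀ i j s, 0 ≤ cf W n i j s
  c058 : cf W n 0 5 8 = 1
  c0710 : cf W n 0 7 10 = 1
  c017 : cf W n 0 1 7 ≤ et W x n
  c367 : cf W n 3 6 7 ≤ et W x n
  c3910 : cf W n 3 9 10 ≤ et W x n
  c457 : cf W n 4 5 7 ≤ 1
  c4810 : cf W n 4 8 10 ≤ 1
  c234 : cf W n 2 3 4 ≤ 1
  c069 : cf W n 0 6 9 ≤ 1

namespace Z2W

variable (h : Z2W W f x)

include h

theorem cfN {n : ℕ} (N : Z2N W x n) : CfN W x n := by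
  obtain ⟨w4, w6, w7a, w7b, w7c, w8, w9a, w9b, w10a, w10b, w10c⟩ := h.q.walls N.g
  have hk := h.kap
  have k1 : ∀ {i j s : Fin 11}, W.X n s ≤ W.X n i + W.X n j → cf W n i j s ≤ 1 := by
    intro i j s hw
    have := h.q.cf_le hw
    simp only [hk] at this
    linarith
  have k2 : ∀ {i j s : Fin 11}, W.X n s = W.X n i + W.X n j → cf W n i j s = 1 := by
    intro i j s hw
    rw [h.q.cf_eq hw]
    simp only [hk]
    norm_num
  have k3 : ∀ {i j s : Fin 11}, W.X n s + x * W.w n ≤ W.X n i + W.X n j →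
      cf W n i j s ≤ et W x n := by
    intro i j s hw
    have := h.q.cf_small hw
    simp only [hk] at this
    simpa using this
  exact ⟨fun i j s => (h.q.cf_pos n i j s).le, k2 N.t8, k2 N.t10, k3 N.g7, k3 N.g7', k3 N.g10,
    k1 w7b, k1 w10b, k1 w4, k1 w9a⟩

theorem K1 : 1 ≤ W.K0 := h.q.ok.K0_one

theorem bd {n : ℕ} (g : W.Good n) {a b : ι n} (ha : a ∈ W.Cl n) (hb : b ∈ W.Cl n)
    (s : Fin 11) : |W.crd n a b s| ≤ W.K0 := by
  have := h.q.crd_le g ha hb s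
  rwa [h.kap s, div_one] at this

theorem lev {n : ℕ} (g : W.Good n) {a b : ι n} (ha : a ∈ W.Cl n) (hb : b ∈ W.Cl n)
    (hl : W.zc n a = W.zc n b) : |W.crd n a b 0| ≤ W.K0 * et W x n := by
  have := h.q.crd_lev g ha hb hl h.S0 (h.top 0 (by simp))
  rwa [h.kap 0, div_one] at this

theorem own {n : ℕ} (g : W.Good n) {a b : ι n} (ha : a ∈ W.Cl n) (hb : b ∈ W.Cl n)
    (hl : W.lc n a = W.lc n b) {s : Fin 11} (hs : s = 5 ∨ s = 7 ∨ s = 8 ∨ s = 10) :
    |W.crd n a b s| ≤ W.K0 * et W x n := by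
  have := h.q.crd_own g ha hb hl (h.q.notMem (by tauto)) (h.top s (by tauto))
  rwa [h.kap s, div_one] at this

theorem et_le {n : ℕ} : et W x n ≤ 1 :=
  Real.rpow_le_one (W.B'.pos n).le (W.B'.lt n).le h.x0.le

/-! ### the velocity and the position of a line in the frame of `p` -/

theorem pair5 {n : ℕ} (g : W.Good n) {p a b : ι n} (hp : p ∈ W.Cl n) (ha : a ∈ W.Cl n)
    (hb : b ∈ W.Cl n) : W.crd n p b 5 - W.crd n p a 5 = W.crd n a b 5 := by
  have := h.q.crd_add g hp ha hb (s := 5) (by simp)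
  linarith

theorem nid7 {n : ℕ} (g : W.Good n) {p a b : ι n} (hp : p ∈ W.Cl n) (ha : a ∈ W.Cl n)
    (hb : b ∈ W.Cl n) : W.crd n p b 7 - W.crd n p a 7 = W.crd n a b 7 -
      2 * cf W n 0 1 7 * (W.crd n p a 0 * W.crd n a b 1) +
      cf W n 4 5 7 * (W.crd n p a 4 * W.crd n a b 5) +
      cf W n 2 3 4 * cf W n 4 5 7 * (W.crd n p a 2 * W.crd n p a 3 * W.crd n a b 5) +
      cf W n 3 6 7 * (W.crd n p a 3 * W.crd n a b 6) := by
  have key := raw7 (f n p) (f n a) (f n b)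
  simp only [h.q.crd_eq g hp ha, h.q.crd_eq g hp hb, h.q.crd_eq g ha hb] at key
  have u7 := (h.q.un_pos n 7).ne'
  have u4 := (h.q.un_pos n 4).ne'
  refine mul_left_cancel₀ u7 ?_
  unfold cf
  field_simp
  linear_combination key

theorem nid8 {n : ℕ} (N : Z2N W x n) {p a b : ι n} (hp : p ∈ W.Cl n) (ha : a ∈ W.Cl n)
    (hb : b ∈ W.Cl n) (t : ℝ) :
    (W.crd n p b 8 + t * W.crd n p b 5) - (W.crd n p a 8 + t * W.crd n p a 5) =
      W.crd n a b 8 + (t - W.crd n p a 0) * W.crd n a b 5 := by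
  have g := N.g
  have key := raw8 (f n p) (f n a) (f n b) (un W n 0 * t)
  simp only [h.q.crd_eq g hp ha, h.q.crd_eq g hp hb, h.q.crd_eq g ha hb] at key
  have u8 := (h.q.un_pos n 8).ne'
  have c := (h.cfN N).c058
  unfold cf at c
  rw [div_eq_one_iff_eq u8] at c
  refine mul_left_cancel₀ u8 ?_
  linear_combination key + (-(t * W.crd n p b 5) + t * W.crd n p a 5 +
    (t - W.crd n p a 0) * W.crd n a b 5) * c

theorem nid10 {n : ℕ} (N : Z2N W x n) {p a b : ι n} (hp : p ∈ W.Cl n) (ha : a ∈ W.Cl n)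
    (hb : b ∈ W.Cl n) (t : ℝ) :
    (W.crd n p b 10 + t * W.crd n p b 7) - (W.crd n p a 10 + t * W.crd n p a 7) =
      W.crd n a b 10 + (t - W.crd n p a 0) * W.crd n a b 7 +
      cf W n 0 1 7 * (((t - W.crd n p a 0) ^ 2 - t ^ 2) * W.crd n a b 1) +
      cf W n 4 8 10 * (W.crd n p a 4 * (W.crd n a b 8 + (t - W.crd n p a 0) * W.crd n a b 5)) +
      cf W n 2 3 4 * cf W n 4 8 10 * (W.crd n p a 2 * W.crd n p a 3 *
        (W.crd n a b 8 + (t - W.crd n p a 0) * W.crd n a b 5)) +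
      cf W n 3 9 10 * (W.crd n p a 3 * (W.crd n a b 9 +
        cf W n 0 6 9 * ((t - W.crd n p a 0) * W.crd n a b 6))) := by
  have g := N.g
  have key := raw10 (f n p) (f n a) (f n b) (un W n 0 * t)
  simp only [h.q.crd_eq g hp ha, h.q.crd_eq g hp hb, h.q.crd_eq g ha hb] at key
  have u10 := (h.q.un_pos n 10).ne'
  have u8 := (h.q.un_pos n 8).ne'
  have u7 := (h.q.un_pos n 7).ne'
  have u4 := (h.q.un_pos n 4).ne'
  have u9 := (h.q.un_pos n 9).ne'
  have c := (h.cfN N).c0710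
  have c' := (h.cfN N).c058
  unfold cf at c c'
  rw [div_eq_one_iff_eq u10] at c
  rw [div_eq_one_iff_eq u8] at c'
  refine mul_left_cancel₀ u10 ?_
  have e1 : un W n 10 * (cf W n 0 1 7) = un W n 0 ^ 2 * un W n 1 := by
    rw [← c]; unfold cf; field_simp
  have e2 : un W n 10 * (cf W n 4 8 10) = un W n 4 * un W n 8 := by
    unfold cf; field_simp
  have e3 : un W n 10 * (cf W n 2 3 4 * cf W n 4 8 10) = un W n 2 * un W n 3 * un W n 8 := by
    unfold cf; field_simp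
  have e4 : un W n 10 * (cf W n 3 9 10) = un W n 3 * un W n 9 := by
    unfold cf; field_simp
  have e5 : un W n 9 * (cf W n 0 6 9) = un W n 0 * un W n 6 := by
    unfold cf; field_simp
  have e6 : un W n 10 * (cf W n 3 9 10 * (W.crd n p a 3 * (W.crd n a b 9 +
      cf W n 0 6 9 * ((t - W.crd n p a 0) * W.crd n a b 6)))) =
      un W n 3 * W.crd n p a 3 * (un W n 9 * W.crd n a b 9 +
        un W n 0 * un W n 6 * ((t - W.crd n p a 0) * W.crd n a b 6)) := by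
    rw [← mul_assoc (un W n 10), e4, ← e5]; ring
  rw [mul_add, e6, mul_add, mul_add, mul_add]
  linear_combination key + (-(t * W.crd n p b 7) + t * W.crd n p a 7 +
    (t - W.crd n p a 0) * W.crd n a b 7) * c + (((t - W.crd n p a 0) ^ 2 - t ^ 2) *
    W.crd n a b 1) * (-e1) + (W.crd n p a 4 * (W.crd n a b 8 + (t - W.crd n p a 0) *
    W.crd n a b 5)) * (-e2) + (W.crd n p a 2 * W.crd n p a 3 *
    (W.crd n a b 8 + (t - W.crd n p a 0) * W.crd n a b 5)) * (-e3) +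
    (un W n 4 * W.crd n p a 4 + un W n 2 * un W n 3 * W.crd n p a 2 * W.crd n p a 3) *
    ((t - W.crd n p a 0) * W.crd n a b 5) * c'

theorem pair7 {n : ℕ} (N : Z2N W x n) {p a b : ι n} (hp : p ∈ W.Cl n) (ha : a ∈ W.Cl n)
    (hb : b ∈ W.Cl n) : |(W.crd n p b 7 - W.crd n p a 7) - W.crd n a b 7| ≤
      3 * W.K0 ^ 2 * et W x n + 2 * W.K0 ^ 2 * |W.crd n a b 5| := by
  have c := h.cfN N
  exact est7 h.K1 (et_pos n).le (h.nid7 N.g hp ha hb) (h.bd N.g hp ha 0) (h.bd N.g hp ha 2)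
    (h.bd N.g hp ha 3) (h.bd N.g hp ha 4) (h.bd N.g ha hb 1) (h.bd N.g ha hb 6) (c.p _ _ _) c.c017
    (c.p _ _ _) c.c367 (c.p _ _ _) c.c457 (c.p _ _ _) c.c234

theorem gK {n : ℕ} (N : Z2N W x n) {p a : ι n} (hp : p ∈ W.Cl n) (ha : a ∈ W.Cl n) {t : ℝ}
    (ht : |t| ≤ W.K0) : |t - W.crd n p a 0| ≤ 2 * W.K0 := by
  have := abs_sub t (W.crd n p a 0)
  have := h.bd N.g hp ha 0
  linarith

theorem pair10 {n : ℕ} (N : Z2N W x n) {p a b : ι n} (hp : p ∈ W.Cl n) (ha : a ∈ W.Cl n)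
    (hb : b ∈ W.Cl n) {t : ℝ} (ht : |t| ≤ W.K0) :
    |((W.crd n p b 10 + t * W.crd n p b 7) - (W.crd n p a 10 + t * W.crd n p a 7)) -
      W.crd n a b 10| ≤ |t - W.crd n p a 0| * |W.crd n a b 7| +
        2 * W.K0 ^ 2 * (|W.crd n a b 8| + |t - W.crd n p a 0| * |W.crd n a b 5|) +
        8 * W.K0 ^ 3 * et W x n := by
  have c := h.cfN N
  exact est10 h.K1 (et_pos n).le (h.nid10 N hp ha hb t) (h.gK N hp ha ht) ht (h.bd N.g hp ha 2)
    (h.bd N.g hp ha 3) (h.bd N.g hp ha 4) (h.bd N.g ha hb 1) (h.bd N.g ha hb 6)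
    (h.bd N.g ha hb 9) (c.p _ _ _) c.c017
    (c.p _ _ _) c.c3910 (c.p _ _ _) c.c4810 (c.p _ _ _) c.c234 (c.p _ _ _) c.c069

/-- fat lines have velocities and positions -/
theorem fl {n : ℕ} (N : Z2N W x n) {p a b : ι n} (hp : p ∈ W.Cl n) (ha : a ∈ W.Cl n)
    (hb : b ∈ W.Cl n) (hl : W.lc n a = W.lc n b) :
    |W.crd n p b 5 - W.crd n p a 5| ≤ 20 * W.K0 ^ 4 * et W x n ∧
    |W.crd n p b 7 - W.crd n p a 7| ≤ 20 * W.K0 ^ 4 * et W x n ∧
    ∀ t : ℝ, |t| ≤ W.K0 →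
      |(W.crd n p b 8 + t * W.crd n p b 5) - (W.crd n p a 8 + t * W.crd n p a 5)| ≤
        20 * W.K0 ^ 4 * et W x n ∧
      |(W.crd n p b 10 + t * W.crd n p b 7) - (W.crd n p a 10 + t * W.crd n p a 7)| ≤
        20 * W.K0 ^ 4 * et W x n := by
  have hK := h.K1
  set K := W.K0 with hKd
  set η := et W x n with hη
  have hη0 : 0 ≤ η := (et_pos n).le
  have o : ∀ s : Fin 11, s = 5 ∨ s = 7 ∨ s = 8 ∨ s = 10 → |W.crd n a b s| ≤ K * η := by
    intro s hs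
    exact h.own N.g ha hb hl hs
  have o5 := o 5 (by simp)
  have o7 := o 7 (by simp)
  have o8 := o 8 (by simp)
  have o10 := o 10 (by simp)
  have k1 : K * η ≤ K ^ 4 * η := mul_le_mul_of_nonneg_right (le_self_pow₀ hK (by norm_num)) hη0
  have k2 : K ^ 2 * η ≤ K ^ 4 * η :=
    mul_le_mul_of_nonneg_right (pow_le_pow_right₀ hK (by norm_num)) hη0
  have k3 : K ^ 3 * η ≤ K ^ 4 * η :=
    mul_le_mul_of_nonneg_right (pow_le_pow_right₀ hK (by norm_num)) hη0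
  have k4 : 0 ≤ K ^ 4 * η := by positivity
  have K20 : 0 ≤ 2 * K ^ 2 := by positivity
  refine ⟨?_, ?_, fun t ht => ⟨?_, ?_⟩⟩
  · rw [h.pair5 N.g hp ha hb]
    have : 20 * K ^ 4 * η = 20 * (K ^ 4 * η) := by ring
    rw [this]; linarith
  · have e1 := h.pair7 N hp ha hb
    have e2 := abs_sub_le (W.crd n p b 7 - W.crd n p a 7) (W.crd n a b 7) 0
    rw [sub_zero, sub_zero] at e2
    have e3 := mul_le_mul_of_nonneg_left o5 K20
    have r1 : 2 * K ^ 2 * (K * η) = 2 * (K ^ 3 * η) := by ring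
    have r2 : 3 * K ^ 2 * η = 3 * (K ^ 2 * η) := by ring
    have r3 : 20 * K ^ 4 * η = 20 * (K ^ 4 * η) := by ring
    rw [r1] at e3
    rw [← hKd, ← hη, r2] at e1
    rw [r3]; linarith
  · rw [h.nid8 N hp ha hb]
    have g2 := h.gK N hp ha ht
    have e1 := abs_add_le (W.crd n a b 8) ((t - W.crd n p a 0) * W.crd n a b 5)
    rw [abs_mul] at e1
    have e2 := mul_le_mul g2 o5 (abs_nonneg _) (by positivity : 0 ≤ 2 * K)
    have r1 : 2 * K * (K * η) = 2 * (K ^ 2 * η) := by ring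
    have r3 : 20 * K ^ 4 * η = 20 * (K ^ 4 * η) := by ring
    rw [r1] at e2
    rw [r3]; linarith
  · have e1 := h.pair10 N hp ha hb ht
    have g2 := h.gK N hp ha ht
    have e2 := abs_sub_le ((W.crd n p b 10 + t * W.crd n p b 7) -
      (W.crd n p a 10 + t * W.crd n p a 7)) (W.crd n a b 10) 0
    rw [sub_zero, sub_zero] at e2
    have e3 := mul_le_mul g2 o7 (abs_nonneg _) (by positivity : 0 ≤ 2 * K)
    have e4 := mul_le_mul g2 o5 (abs_nonneg _) (by positivity : 0 ≤ 2 * K)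
    have e5 := mul_le_mul_of_nonneg_left (add_le_add o8 e4) K20
    have r1 : 2 * K * (K * η) = 2 * (K ^ 2 * η) := by ring
    have r3 : 20 * K ^ 4 * η = 20 * (K ^ 4 * η) := by ring
    have r4 : 2 * K ^ 2 * (K * η + 2 * K * (K * η)) = 2 * (K ^ 3 * η) + 4 * (K ^ 4 * η) := by ring
    have r5 : 8 * K ^ 3 * η = 8 * (K ^ 3 * η) := by ring
    rw [r1] at e3
    rw [r4] at e5
    rw [← hKd, ← hη, r5] at e1
    rw [r3]; linarith

end Z2W

/-! ### the data of the block -/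

open Classical in
/-- a representative of the fat line `l` -/
noncomputable def lrp (W : Wnd 11 ι) (n l : ℕ) : ι n :=
  if h : ∃ i ∈ W.Cl n, W.lc n i = l then h.choose else W.s₀ n

theorem lrp_spec {n : ℕ} {i : ι n} (hi : i ∈ W.Cl n) :
    lrp W n (W.lc n i) ∈ W.Cl n ∧ W.lc n (lrp W n (W.lc n i)) = W.lc n i := by
  have h : ∃ j ∈ W.Cl n, W.lc n j = W.lc n i := ⟨i, hi, rfl⟩
  unfold lrp
  rw [dif_pos h]
  exact h.choose_spec

/-- position at the height of the base incidence -/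
noncomputable def bA (W : Wnd 11 ι) (n l : ℕ) : Fin 2 → ℝ :=
  ![W.crd n (W.s₀ n) (lrp W n l) 8, W.crd n (W.s₀ n) (lrp W n l) 10]

/-- velocity -/
noncomputable def bV (W : Wnd 11 ι) (n l : ℕ) : Fin 2 → ℝ :=
  ![W.crd n (W.s₀ n) (lrp W n l) 5, W.crd n (W.s₀ n) (lrp W n l) 7]

/-- position at the height `k` -/
noncomputable def bF (W : Wnd 11 ι) (n k l : ℕ) : Fin 2 → ℝ :=
  ![W.crd n (W.s₀ n) (W.rep n l k) 8 + flg W n k 0 * W.crd n (W.s₀ n) (W.rep n l k) 5,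
    W.crd n (W.s₀ n) (W.rep n l k) 10 + flg W n k 0 * W.crd n (W.s₀ n) (W.rep n l k) 7]

/-- what is known about an alive pair (line, height) -/
structure Alv (W : Wnd 11 ι) (n l k : ℕ) : Prop where
  r : W.rep n l k ∈ W.Cl n
  rl : W.lc n (W.rep n l k) = l
  rz : W.zc n (W.rep n l k) = k
  t : lrp W n l ∈ W.Cl n
  tl : W.lc n (lrp W n l) = l
  z : W.zrep n k ∈ W.Cl n
  zz : W.zc n (W.zrep n k) = k

theorem alv_of {n : ℕ} {E : Finset (ι n)} (hE : E ⊆ W.Cl n) {l k : ℕ}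
    (hI : (l, k) ∈ (W.cfg0 n E).I) : Alv W n l k := by
  obtain ⟨h1, h2, h3⟩ := rep_of_mem hE hI
  have h4 := lrp_spec h1
  have h5 := W.zrep_spec h1
  rw [h2] at h4
  rw [h3] at h5
  exact ⟨h1, h2, h3, h4.1, h4.2, h5.1, h5.2⟩

namespace Z2W

variable (h : Z2W W f x)

include h

/-- the height of an incidence and of the representative of its height -/
theorem g_small {n : ℕ} (N : Z2N W x n) {l k : ℕ} (A : Alv W n l k) :
    |flg W n k 0 - W.crd n (W.s₀ n) (W.rep n l k) 0| ≤ W.K0 * et W x n := by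
  have e1 := h.q.crd_add N.g N.g.s0 A.r A.z (s := 0) (by simp)
  have e2 := h.lev N.g A.r A.z (A.rz.trans A.zz.symm)
  have e3 : flg W n k 0 - W.crd n (W.s₀ n) (W.rep n l k) 0 =
      W.crd n (W.rep n l k) (W.zrep n k) 0 := by
    unfold flg; linarith
  rw [e3]; exact e2

/-- velocity and position of a representative -/
theorem rep_V {n : ℕ} (N : Z2N W x n) {l k : ℕ} (A : Alv W n l k) :
    |W.crd n (W.s₀ n) (W.rep n l k) 5 - bV W n l 0| ≤ 20 * W.K0 ^ 4 * et W x n ∧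
    |W.crd n (W.s₀ n) (W.rep n l k) 7 - bV W n l 1| ≤ 20 * W.K0 ^ 4 * et W x n := by
  have e := h.fl N N.g.s0 A.t A.r (A.tl.trans A.rl.symm)
  exact ⟨e.1, e.2.1⟩

theorem rep_F {n : ℕ} (N : Z2N W x n) {l k : ℕ} (A : Alv W n l k) (a : Fin 2) :
    |bF W n k l a - (bA W n l a + flg W n k 0 * bV W n l a)| ≤ 20 * W.K0 ^ 4 * et W x n := by
  have ht : |flg W n k 0| ≤ W.K0 := h.bd N.g N.g.s0 A.z 0
  have e := (h.fl N N.g.s0 A.t A.r (A.tl.trans A.rl.symm)).2.2 _ ht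
  fin_cases a
  · exact e.1
  · exact e.2

/-- two lines alive at one height: `b` = relative coordinates -/
theorem two {n : ℕ} (N : Z2N W x n) {i l k : ℕ} (A : Alv W n i k) (A' : Alv W n l k) :
    |(bV W n l 0 - bV W n i 0) - W.crd n (W.rep n i k) (W.rep n l k) 5| ≤
      40 * W.K0 ^ 4 * et W x n ∧
    |(bV W n l 1 - bV W n i 1) - W.crd n (W.rep n i k) (W.rep n l k) 7| ≤
      43 * W.K0 ^ 4 * et W x n + 2 * W.K0 ^ 2 * |W.crd n (W.rep n i k) (W.rep n l k) 5| ∧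
    |(bF W n k l 0 - bF W n k i 0) - W.crd n (W.rep n i k) (W.rep n l k) 8| ≤
      W.K0 ^ 4 * et W x n ∧
    |(bF W n k l 1 - bF W n k i 1) - W.crd n (W.rep n i k) (W.rep n l k) 10| ≤
      11 * W.K0 ^ 4 * et W x n + 2 * W.K0 ^ 2 * |W.crd n (W.rep n i k) (W.rep n l k) 8| := by
  have hK := h.K1
  have ht : |flg W n k 0| ≤ W.K0 := h.bd N.g N.g.s0 A.z 0
  have hg := h.g_small N A
  have v1 := h.rep_V N A
  have v2 := h.rep_V N A'
  have b5 := h.bd N.g A.r A'.r 5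
  have b7 := h.bd N.g A.r A'.r 7
  have p5 := h.pair5 N.g N.g.s0 A.r A'.r
  have p7 := h.pair7 N N.g.s0 A.r A'.r
  have p8 := h.nid8 N N.g.s0 A.r A'.r (flg W n k 0)
  have p10 := h.pair10 N N.g.s0 A.r A'.r ht
  set K := W.K0 with hKd
  set η := et W x n with hη
  have hη0 : 0 ≤ η := (et_pos n).le
  have k1 : K * η ≤ K ^ 4 * η := mul_le_mul_of_nonneg_right (le_self_pow₀ hK (by norm_num)) hη0
  have k2 : K ^ 2 * η ≤ K ^ 4 * η :=
    mul_le_mul_of_nonneg_right (pow_le_pow_right₀ hK (by norm_num)) hη0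
  have k3 : K ^ 3 * η ≤ K ^ 4 * η :=
    mul_le_mul_of_nonneg_right (pow_le_pow_right₀ hK (by norm_num)) hη0
  have k4 : 0 ≤ K ^ 4 * η := by positivity
  have K20 : 0 ≤ 2 * K ^ 2 := by positivity
  set c5 := W.crd n (W.rep n i k) (W.rep n l k) 5
  set c7 := W.crd n (W.rep n i k) (W.rep n l k) 7
  set c8 := W.crd n (W.rep n i k) (W.rep n l k) 8
  set c10 := W.crd n (W.rep n i k) (W.rep n l k) 10
  set g := flg W n k 0 - W.crd n (W.s₀ n) (W.rep n i k) 0 with hgd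
  have m5 : |g| * |c5| ≤ K ^ 4 * η := by
    have := mul_le_mul hg b5 (abs_nonneg _) (by positivity : 0 ≤ K * η)
    have r : K * η * K = K ^ 2 * η := by ring
    rw [r] at this; linarith
  have m7 : |g| * |c7| ≤ K ^ 4 * η := by
    have := mul_le_mul hg b7 (abs_nonneg _) (by positivity : 0 ≤ K * η)
    have r : K * η * K = K ^ 2 * η := by ring
    rw [r] at this; linarith
  have m5' : 2 * K ^ 2 * (|g| * |c5|) ≤ 2 * (K ^ 4 * η) := by
    have := mul_le_mul hg b5 (abs_nonneg _) (by positivity : 0 ≤ K * η)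
    have r : K * η * K = K ^ 2 * η := by ring
    rw [r] at this
    have e := mul_le_mul_of_nonneg_left this K20
    have r' : 2 * K ^ 2 * (K ^ 2 * η) = 2 * (K ^ 4 * η) := by ring
    rw [r'] at e; exact e
  refine ⟨?_, ?_, ?_, ?_⟩
  · have e1 : (bV W n l 0 - bV W n i 0) - c5 = -(W.crd n (W.s₀ n) (W.rep n l k) 5 - bV W n l 0) +
        (W.crd n (W.s₀ n) (W.rep n i k) 5 - bV W n i 0) := by rw [← p5]; ring
    rw [e1]
    refine (abs_add_le _ _).trans ?_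
    rw [abs_neg]
    have := v1.1
    have := v2.1
    linarith
  · have e1 : (bV W n l 1 - bV W n i 1) - c7 = -(W.crd n (W.s₀ n) (W.rep n l k) 7 - bV W n l 1) +
        (W.crd n (W.s₀ n) (W.rep n i k) 7 - bV W n i 1) +
        (W.crd n (W.s₀ n) (W.rep n l k) 7 - W.crd n (W.s₀ n) (W.rep n i k) 7 - c7) := by ring
    rw [e1]
    refine (abs_add_le _ _).trans ?_
    have t2 := abs_add_le (-(W.crd n (W.s₀ n) (W.rep n l k) 7 - bV W n l 1))
      (W.crd n (W.s₀ n) (W.rep n i k) 7 - bV W n i 1)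
    rw [abs_neg] at t2
    have q1 := v1.2
    have q2 := v2.2
    have r2 : 3 * K ^ 2 * η = 3 * (K ^ 2 * η) := by ring
    rw [r2] at p7
    have r3 : 20 * K ^ 4 * η = 20 * (K ^ 4 * η) := by ring
    rw [r3] at q1 q2
    have r4 : 43 * K ^ 4 * η = 43 * (K ^ 4 * η) := by ring
    rw [r4]
    linarith
  · have e1 : (bF W n k l 0 - bF W n k i 0) - c8 = g * c5 := by
      have : bF W n k l 0 - bF W n k i 0 = c8 + g * c5 := p8
      rw [this]; ring
    rw [e1, abs_mul]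
    exact m5
  · have e1 : bF W n k l 1 - bF W n k i 1 = (W.crd n (W.s₀ n) (W.rep n l k) 10 +
        flg W n k 0 * W.crd n (W.s₀ n) (W.rep n l k) 7) - (W.crd n (W.s₀ n) (W.rep n i k) 10 +
        flg W n k 0 * W.crd n (W.s₀ n) (W.rep n i k) 7) := rfl
    rw [e1]
    refine p10.trans ?_
    have r3 : 8 * K ^ 3 * η = 8 * (K ^ 3 * η) := by ring
    have r4 : 11 * K ^ 4 * η = 11 * (K ^ 4 * η) := by ring
    have r5 : 2 * K ^ 2 * (|c8| + |g| * |c5|) = 2 * K ^ 2 * |c8| + 2 * K ^ 2 * (|g| * |c5|) := by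
      ring
    rw [r3, r4, r5]
    linarith

end Z2W

end Crest.Agent.R136.Z2683
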