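import Crest.Agent.R136.Z2v_683
import Crest.Agent.R136.Z2b_403

/-!
# R136: rung `s = 1` of Z2, model form (helper683)

`Z2W.strip_model` : 403's `strip_lam_R` for the block `(X_a, N)`, `(C_a, P)` of `Z2v_683`.
-/

set_option autoImplicit false
set_option linter.unusedSectionVars false
set_option linter.unusedVariables false

open Filter Topology

namespace Crest.Agent.R136.Z2683

open Finset Crest.Agent.R136.NetQ186 Crest.Agent.R136.Net191 Crest.Agent.R136.Qg926
open Crest.Agent.R136.Gf356 Crest.Agent.R136.Ev356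
open Crest.Agent.R138.Ex926 (Base U)

/-- the box `X_a, N` narrowed by `x`, `C_a, P` narrowed by `t` -/
noncomputable def vb (x t : ℝ) : Fin 11 → ℝ := fun s =>
  if s = 5 ∨ s = 7 then t else if s = 8 ∨ s = 10 then x else 0

/-- the box `C_a` narrowed by `y` -/
noncomputable def vC (y : ℝ) : Fin 11 → ℝ := fun s => if s = 5 then y else 0

theorem vb5 (x t : ℝ) : vb x t 5 = t := if_pos (by simp)
theorem vb7 (x t : ℝ) : vb x t 7 = t := if_pos (by simp)
theorem vb8 (x t : ℝ) : vb x t 8 = x := by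
  unfold vb; rw [if_neg (by decide), if_pos (by simp)]
theorem vb10 (x t : ℝ) : vb x t 10 = x := by
  unfold vb; rw [if_neg (by decide), if_pos (by simp)]
theorem vb_off {x t : ℝ} {s : Fin 11} (h1 : ¬ (s = 5 ∨ s = 7)) (h2 : ¬ (s = 8 ∨ s = 10)) :
    vb x t s = 0 := by
  unfold vb; rw [if_neg h1, if_neg h2]

theorem vb_zero : vb 0 0 = 0 := by
  funext s; unfold vb; simp

theorem vb_nonneg {x t : ℝ} (hx : 0 ≤ x) (ht : 0 ≤ t) (s : Fin 11) : 0 ≤ vb x t s := by
  unfold vb; split_ifs <;> first | exact ht | exact hx | exact le_rfl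

theorem vb_mono {x t x' t' : ℝ} (hx : x ≤ x') (ht : t ≤ t') (s : Fin 11) :
    vb x t s ≤ vb x' t' s := by
  unfold vb; split_ifs <;> first | exact ht | exact hx | exact le_rfl

variable {ι : ℕ → Type*} [∀ n, DecidableEq (ι n)] {W : Wnd 11 ι} {f : ∀ n, ι n → Fq4} {x : ℝ}

/-- good `n` for the configurations of `E` -/
structure GN (W : Wnd 11 ι) (x : ℝ) (E : ∀ n, Finset (ι n)) (n : ℕ) : Prop where
  N : Z2N W x n
  sub : E n ⊆ W.Cl n
  cfg : W.cfg E n = W.cfg0 n (E n)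

namespace GN

variable {E : ∀ n, Finset (ι n)} {n : ℕ} (G : GN W x E n)

include G

theorem alv {i k : ℕ} (hI : (i, k) ∈ (W.cfg E n).I) : Alv W n i k := by
  rw [G.cfg] at hI; exact alv_of G.sub hI

theorem rel {k i l : ℕ} (s : Fin 11) (hs : s ∉ W.S) : (W.cfg E n).rel k i l s =
    W.crd n (W.rep n i k) (W.rep n l k) s := by
  rw [G.cfg, rel_cfg0, if_neg hs]

theorem loose_get {p : Fin 11 → ℝ} {ε : ℝ} {k i l : ℕ} (hl : (W.cfg E n).loose p ε k i l)
    {s : Fin 11} (hs : s ∉ W.S) :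
    |W.crd n (W.rep n i k) (W.rep n l k) s| ≤ W.B'.d n ^ (p s - ε) := by
  have := hl s
  rw [G.rel s hs] at this
  rw [G.cfg] at this
  exact this

theorem loose_of {p : Fin 11 → ℝ} {ε : ℝ} {k i l : ℕ}
    (hl : ∀ s, s ∉ W.S → |W.crd n (W.rep n i k) (W.rep n l k) s| ≤ W.B'.d n ^ (p s - ε)) :
    (W.cfg E n).loose p ε k i l := by
  intro s
  have e : (W.cfg E n).ρ = W.B'.d n := by rw [G.cfg]; rfl
  rw [e]
  by_cases hs : s ∈ W.S
  · rw [G.cfg, rel_cfg0, if_pos hs, abs_zero]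
    exact Real.rpow_nonneg (W.B'.pos n).le _
  · rw [G.rel s hs]; exact hl s hs

theorem box {p : Fin 11 → ℝ} {ε : ℝ} {i l k : ℕ} (hl : l ∈ (W.cfg E n).box p ε i k) :
    (l, k) ∈ (W.cfg E n).I ∧ (W.cfg E n).loose p ε k i l := by
  obtain ⟨h1, h2⟩ := RCfg.mem_box.1 hl
  exact ⟨(RCfg.mem_slice.1 h1).2, h2⟩

end GN

theorem S5 (h : Z2W W f x) : (5 : Fin 11) ∉ W.S := h.q.notMem (by simp)
theorem S7 (h : Z2W W f x) : (7 : Fin 11) ∉ W.S := h.q.notMem (by simp)
theorem S8 (h : Z2W W f x) : (8 : Fin 11) ∉ W.S := h.q.notMem (by simp)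
theorem S10 (h : Z2W W f x) : (10 : Fin 11) ∉ W.S := h.q.notMem (by simp)

/-- the constant of the estimates -/
noncomputable def cZ (W : Wnd 11 ι) : ℝ := 1000 * W.K0 ^ 6

theorem rmul (n : ℕ) {c e s : ℝ} (hc : c ≤ W.B'.d n ^ (-e)) :
    c * W.B'.d n ^ s ≤ W.B'.d n ^ (s - e) := by
  have h1 := mul_le_mul_of_nonneg_right hc (Real.rpow_nonneg (W.B'.pos n).le s)
  rw [← Real.rpow_add (W.B'.pos n)] at h1
  have e1 : -e + s = s - e := by ring
  rwa [e1] at h1

theorem ranti (n : ℕ) {s t : ℝ} (h : s ≤ t) : W.B'.d n ^ t ≤ W.B'.d n ^ s :=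
  Real.rpow_le_rpow_of_exponent_ge (W.B'.pos n) (W.B'.lt n).le h

/-- powers of `K0` -/
theorem Kpow (h : Z2W W f x) : W.K0 ≤ W.K0 ^ 6 ∧ W.K0 ^ 2 ≤ W.K0 ^ 6 ∧ W.K0 ^ 4 ≤ W.K0 ^ 6 ∧
    1 ≤ W.K0 ^ 6 :=
  ⟨le_self_pow₀ h.K1 (by norm_num), pow_le_pow_right₀ h.K1 (by norm_num),
    pow_le_pow_right₀ h.K1 (by norm_num), one_le_pow₀ h.K1⟩

set_option maxHeartbeats 1000000 in
/-- **heavy strip of the block**, model form -/
theorem Z2W.strip_model (hKM : ∀ V : ℝ, Crest.Agent.R138.Tub70.KM32 V) (h : Z2W W f x)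
    {E : ∀ n, Finset (ι n)} (hG : ∀ᶠ n in (U : Filter ℕ), GN W x E n)
    (H : RModel W.B' (W.cfg E) 1 x W.legW W.nu W.Dc) (i0 k0 : ℕ → ℕ)
    (h0 : ∀ᶠ n in (U : Filter ℕ), (i0 n, k0 n) ∈ (W.cfg E n).I) {t : ℝ} (ht : 0 < t)
    (htx : t ≤ x) (l0 : (0 : Fin 11 → ℝ) ∈ W.legW) (l1 : vb x 0 ∈ W.legW)
    (l2 : vb 0 t ∈ W.legW) (l3 : vb x t ∈ W.legW)
    (hprod : W.nu 0 - W.nu (vb 0 t) ≤ W.nu (vb x 0) - W.nu (vb x t))
    (hnf : (W.nu 0 - W.nu (vb x 0)) + 2 * t < 2 * x) {y0 : ℝ} (hy0 : 0 < y0)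
    (hC : ∀ y : ℝ, 0 < y → y ≤ y0 → vC y ∈ W.legW ∧ W.nu (vC y) < W.nu 0)
    {δ : ℝ} (hδ : 0 < δ) :
    ∃ ε0 : ℝ, 0 < ε0 ∧ ∀ ε : ℝ, 0 < ε → ε ≤ ε0 → ∀ᶠ n in (U : Filter ℕ),
      ∃ lam : ℝ, |lam| ≤ W.B'.d n ^ (-δ) ∧ ∃ i1 ∈ (W.cfg E n).box 0 ε (i0 n) (k0 n),
      ∃ T ⊆ (W.cfg E n).box 0 ε (i0 n) (k0 n),
        (∀ i ∈ T, |(bV W n i 1 - bV W n i1 1) - lam * (bV W n i 0 - bV W n i1 0)| ≤
          W.B'.d n ^ (t - δ)) ∧
        W.B'.d n ^ δ * (((W.cfg E n).box 0 ε (i0 n) (k0 n)).card : ℝ) ≤ (T.card : ℝ) := by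
  have hx := h.x0
  obtain ⟨K1, K2, K4, K6⟩ := Kpow h
  have hK := h.K1
  have hcst : ∀ e : ℝ, 0 < e → ∀ᶠ n in (U : Filter ℕ), cZ W ≤ W.B'.d n ^ (-e) := fun e he =>
    ev_const_le W.B' he (cZ W)
  have hc1 : 1 ≤ cZ W := by unfold cZ; linarith
  have hpos : ∀ (n : ℕ) (s : ℝ), 0 < W.B'.d n ^ s := fun n s =>
    Real.rpow_pos_of_pos (W.B'.pos n) s
  have hZE : ∀ n, (W.cfg E n).Z.Nonempty := by
    intro n
    obtain ⟨⟨i, k⟩, hik⟩ := H.nonempty n
    exact ⟨k, (Finset.mem_product.1 (H.sub n hik)).2⟩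
  refine Ful403.strip_lam_R hKM H.toRUnif i0 k0 h0 0 0 (vb x 0) (vb 0 t) (vb x t) l0 l0 l1 l2 l3
    (fun j => vb_nonneg hx.le le_rfl j) (fun j => vb_nonneg le_rfl ht.le j) hx (bF W) (bA W) (bV W)
    (fun n k => flg W n k 0) (fun n => (W.cfg E n).Z) (Eventually.of_forall hZE)
    (C1 := 3) (by norm_num) ?_ ?_ ?_ ?_ ?_ ?_ ?_ ?_ ?_ ?_ hprod le_rfl hnf ht vC
    (y0 := min y0 x) (lt_min hy0 hx) ?_ ?_ hδ
  · -- hφ
    intro ε hε
    filter_upwards [hG, hcst (3 * ε) (by positivity)] with n G hc k hk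
    obtain ⟨a, ha, e⟩ : ∃ a, (a, k) ∈ (W.cfg E n).I ∧ True := by
      rw [G.cfg] at hk ⊢
      obtain ⟨y, hy, rfl⟩ := mem_image.1 hk
      exact ⟨W.lc n y, mem_image.2 ⟨y, hy, rfl⟩, trivial⟩
    have A := G.alv ha
    have := h.bd G.N.g G.N.g.s0 A.z 0
    refine (this.trans ?_).trans hc
    unfold cZ; linarith
  · -- hA
    intro ε hε
    filter_upwards [hG, hcst (3 * ε) (by positivity)] with n G hc i hi i' hi' a
    have A := G.alv (G.box hi).1
    have A' := G.alv (G.box hi').1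
    refine le_trans ?_ hc
    have q1 := h.bd G.N.g G.N.g.s0 A.t
    have q2 := h.bd G.N.g G.N.g.s0 A'.t
    have q3 : ∀ s, |W.crd n (W.s₀ n) (lrp W n i') s - W.crd n (W.s₀ n) (lrp W n i) s| ≤ cZ W := by
      intro s
      have := abs_sub (W.crd n (W.s₀ n) (lrp W n i') s) (W.crd n (W.s₀ n) (lrp W n i) s)
      have := q1 s
      have := q2 s
      unfold cZ; linarith
    fin_cases a
    · exact q3 8
    · exact q3 10
  · -- hV
    intro ε hε
    filter_upwards [hG, hcst (3 * ε) (by positivity)] with n G hc i hi i' hi' a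
    have A := G.alv (G.box hi).1
    have A' := G.alv (G.box hi').1
    refine le_trans ?_ hc
    have q1 := h.bd G.N.g G.N.g.s0 A.t
    have q2 := h.bd G.N.g G.N.g.s0 A'.t
    have q3 : ∀ s, |W.crd n (W.s₀ n) (lrp W n i') s - W.crd n (W.s₀ n) (lrp W n i) s| ≤ cZ W := by
      intro s
      have := abs_sub (W.crd n (W.s₀ n) (lrp W n i') s) (W.crd n (W.s₀ n) (lrp W n i) s)
      have := q1 s
      have := q2 s
      unfold cZ; linarith
    fin_cases a
    · exact q3 5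
    · exact q3 7
  · -- hF
    intro ε hε
    filter_upwards [hG, hcst (3 * ε) (by positivity)] with n G hc k hk i hi hik i' hi' hi'k a
    have A := G.alv hik
    have A' := G.alv hi'k
    have f1 := h.rep_F G.N A a
    have f2 := h.rep_F G.N A' a
    have e1 : bF W n k i' a - bF W n k i a - ((bA W n i' a - bA W n i a) +
        flg W n k 0 * (bV W n i' a - bV W n i a)) =
        (bF W n k i' a - (bA W n i' a + flg W n k 0 * bV W n i' a)) -
        (bF W n k i a - (bA W n i a + flg W n k 0 * bV W n i a)) := by ring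
    rw [e1]
    refine (abs_sub _ _).trans ?_
    refine le_trans ?_ (rmul (W := W) n hc)
    have k4 : 20 * W.K0 ^ 4 * et W x n + 20 * W.K0 ^ 4 * et W x n =
        (40 * W.K0 ^ 4) * et W x n := by ring
    refine (add_le_add f2 f1).trans ?_
    rw [k4]
    refine mul_le_mul_of_nonneg_right ?_ (et_pos n).le
    unfold cZ; linarith
  · -- hlink
    intro ε hε
    filter_upwards [hG, hcst (2 * ε) (by positivity)] with n G hc k hk i hi hik l hlk hl a
    have A := G.alv hik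
    have A' := G.alv hlk
    obtain ⟨-, -, t8, t10⟩ := h.two G.N A A'
    have c8 := G.loose_get hl (S8 h)
    have c10 := G.loose_get hl (S10 h)
    rw [vb8] at c8
    rw [vb10] at c10
    have hη : et W x n ≤ W.B'.d n ^ (x - ε) := ranti n (by linarith)
    have hp := hpos n (x - ε)
    have hm : cZ W * W.B'.d n ^ (x - ε) ≤ W.B'.d n ^ (x - 3 * ε) := by
      refine (rmul (W := W) n hc).trans (le_of_eq ?_)
      congr 1; ring
    refine le_trans ?_ hm
    set P := W.B'.d n ^ (x - ε) with hP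
    have m1 : W.K0 ^ 4 * et W x n ≤ W.K0 ^ 6 * P :=
      mul_le_mul K4 hη (et_pos n).le (by positivity)
    have m2 : W.K0 ^ 2 * |W.crd n (W.rep n i k) (W.rep n l k) 8| ≤ W.K0 ^ 6 * P :=
      mul_le_mul K2 c8 (abs_nonneg _) (by positivity)
    have m3 : P ≤ W.K0 ^ 6 * P := le_mul_of_one_le_left hp.le K6
    have cz : cZ W * P = 1000 * (W.K0 ^ 6 * P) := by unfold cZ; ring
    rw [cz]
    fin_cases a
    · have := abs_sub_le (bF W n k l 0 - bF W n k i 0) (W.crd n (W.rep n i k) (W.rep n l k) 8) 0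
      rw [sub_zero, sub_zero] at this
      show |bF W n k l 0 - bF W n k i 0| ≤ _
      have q : 0 ≤ W.K0 ^ 6 * P := by positivity
      linarith
    · have := abs_sub_le (bF W n k l 1 - bF W n k i 1) (W.crd n (W.rep n i k) (W.rep n l k) 10) 0
      rw [sub_zero, sub_zero] at this
      show |bF W n k l 1 - bF W n k i 1| ≤ _
      have q : 0 ≤ W.K0 ^ 6 * P := by positivity
      have r1 : 11 * W.K0 ^ 4 * et W x n = 11 * (W.K0 ^ 4 * et W x n) := by ring
      have r2 : 2 * W.K0 ^ 2 * |W.crd n (W.rep n i k) (W.rep n l k) 8| =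
          2 * (W.K0 ^ 2 * |W.crd n (W.rep n i k) (W.rep n l k) 8|) := by ring
      rw [r1, r2] at t10
      linarith
  · -- hT
    intro ε hε
    filter_upwards [hG, hcst (3 * ε) (by positivity)] with n G hc k hk i hi i' hi' hik hi'k
    have A := G.alv hik
    have A' := G.alv hi'k
    refine G.loose_of fun s hs => ?_
    rw [Pi.zero_apply, zero_sub]
    refine le_trans ?_ hc
    have := h.bd G.N.g A.r A'.r s
    unfold cZ; linarith
  · -- hal
    intro ε hε
    filter_upwards [H.line ε hε] with n hl i hi T hT hTk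
    have h1 : i ∈ (W.cfg E n).L := (RCfg.mem_slice.1 (RCfg.mem_box.1 hi).1).1
    have h2 := hl i h1
    have h3 : (W.cfg E n).hts i ⊆ T := fun k hk =>
      hTk k (RCfg.mem_hts.1 hk).1 (RCfg.mem_hts.1 hk).2
    have h4 : (((W.cfg E n).hts i).card : ℝ) ≤ (T.card : ℝ) := by exact_mod_cast card_le_card h3
    have h5 : W.B'.d n ^ (3 * ε) ≤ W.B'.d n ^ ε := ranti n (by linarith)
    have h6 := mul_le_mul_of_nonneg_right h5 (Nat.cast_nonneg (α := ℝ) (W.cfg E n).Z.card)
    linarith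
  · -- hfr
    intro y hy hyx ε hε
    have hc : ∀ᶠ n in (U : Filter ℕ), W.Good n ∧ E n ⊆ W.Cl n ∧ W.cfg E n = W.cfg0 n (E n) := by
      filter_upwards [hG] with n G using ⟨G.N.g, G.sub, G.cfg⟩
    filter_upwards [H.frost y hy hyx ε hε, h.q.z_eq h.kz hc, hG] with n hfr hz G k hk T hT hTk
    have h1 : T ⊆ (W.cfg E n).hbox y k := by
      intro k' hk'
      unfold RCfg.hbox
      rw [mem_filter]
      refine ⟨hT hk', ?_⟩
      rw [hz k', hz k]
      have e : (W.cfg E n).ρ = W.B'.d n := by rw [G.cfg]; rfl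
      rw [e]
      exact hTk k' hk'
    have h2 := hfr k hk
    rw [one_mul] at h2
    refine le_trans ?_ h2
    exact_mod_cast card_le_card h1
  · -- hqf
    intro C3 hC3
    refine ⟨C3 + 1, by positivity, fun ε hε => ?_⟩
    filter_upwards [hG, hcst ε hε] with n G hc k hk i hi hik i' hi' hi'k hFa hVa
    have A := G.alv hik
    have A' := G.alv hi'k
    obtain ⟨t5, t7, t8, t10⟩ := h.two G.N A A'
    have hF0 := hFa 0
    have hF1 := hFa 1
    have hV0 := hVa 0
    have hV1 := hVa 1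
    have ηt : et W x n ≤ W.B'.d n ^ (t - C3 * ε) := ranti n (by nlinarith)
    have ηx : et W x n ≤ W.B'.d n ^ (x - C3 * ε) := ranti n (by nlinarith)
    have mt : cZ W * W.B'.d n ^ (t - C3 * ε) ≤ W.B'.d n ^ (t - (C3 + 1) * ε) := by
      refine (rmul (W := W) n hc).trans (le_of_eq ?_)
      congr 1; ring
    have mx : cZ W * W.B'.d n ^ (x - C3 * ε) ≤ W.B'.d n ^ (x - (C3 + 1) * ε) := by
      refine (rmul (W := W) n hc).trans (le_of_eq ?_)
      congr 1; ring
    set P := W.B'.d n ^ (t - C3 * ε) with hP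
    set R := W.B'.d n ^ (x - C3 * ε) with hR
    have hP0 : 0 < P := hpos n _
    have hR0 : 0 < R := hpos n _
    set c5 := W.crd n (W.rep n i k) (W.rep n i' k) 5 with hc5
    set c7 := W.crd n (W.rep n i k) (W.rep n i' k) 7 with hc7
    set c8 := W.crd n (W.rep n i k) (W.rep n i' k) 8 with hc8
    set c10 := W.crd n (W.rep n i k) (W.rep n i' k) 10 with hc10
    have tri : ∀ a b : ℝ, |b| ≤ |a| + |a - b| := by
      intro a b
      have := abs_sub_abs_le_abs_sub b a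
      rw [abs_sub_comm b a] at this
      linarith
    have u4t : W.K0 ^ 4 * et W x n ≤ W.K0 ^ 4 * P := mul_le_mul_of_nonneg_left ηt (by positivity)
    have u4x : W.K0 ^ 4 * et W x n ≤ W.K0 ^ 4 * R := mul_le_mul_of_nonneg_left ηx (by positivity)
    have oneP : P ≤ W.K0 ^ 4 * P := le_mul_of_one_le_left hP0.le (one_le_pow₀ hK)
    have oneR : R ≤ W.K0 ^ 4 * R := le_mul_of_one_le_left hR0.le (one_le_pow₀ hK)
    have b5 : |c5| ≤ 41 * (W.K0 ^ 4 * P) := by
      have q := tri (bV W n i' 0 - bV W n i 0) c5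
      have r1 : 40 * W.K0 ^ 4 * et W x n = 40 * (W.K0 ^ 4 * et W x n) := by ring
      rw [r1] at t5
      linarith
    have b8 : |c8| ≤ 2 * (W.K0 ^ 4 * R) := by
      have q := tri (bF W n k i' 0 - bF W n k i 0) c8
      linarith
    have K46 : W.K0 ^ 4 * P ≤ W.K0 ^ 6 * P := mul_le_mul_of_nonneg_right K4 hP0.le
    have K46' : W.K0 ^ 4 * R ≤ W.K0 ^ 6 * R := mul_le_mul_of_nonneg_right K4 hR0.le
    have b7 : |c7| ≤ 126 * (W.K0 ^ 6 * P) := by
      have q := tri (bV W n i' 1 - bV W n i 1) c7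
      have r1 : 43 * W.K0 ^ 4 * et W x n = 43 * (W.K0 ^ 4 * et W x n) := by ring
      have r2 : 2 * W.K0 ^ 2 * |c5| ≤ 82 * (W.K0 ^ 6 * P) := by
        have := mul_le_mul_of_nonneg_left b5 (by positivity : 0 ≤ 2 * W.K0 ^ 2)
        refine this.trans (le_of_eq ?_); ring
      rw [r1] at t7
      linarith
    have b10 : |c10| ≤ 16 * (W.K0 ^ 6 * R) := by
      have q := tri (bF W n k i' 1 - bF W n k i 1) c10
      have r1 : 11 * W.K0 ^ 4 * et W x n = 11 * (W.K0 ^ 4 * et W x n) := by ring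
      have r2 : 2 * W.K0 ^ 2 * |c8| ≤ 4 * (W.K0 ^ 6 * R) := by
        have := mul_le_mul_of_nonneg_left b8 (by positivity : 0 ≤ 2 * W.K0 ^ 2)
        refine this.trans (le_of_eq ?_); ring
      rw [r1] at t10
      linarith
    have cP : cZ W * P = 1000 * (W.K0 ^ 6 * P) := by unfold cZ; ring
    have cR : cZ W * R = 1000 * (W.K0 ^ 6 * R) := by unfold cZ; ring
    have p6 : 0 < W.K0 ^ 6 * P := by positivity
    have r6 : 0 < W.K0 ^ 6 * R := by positivity
    refine G.loose_of fun s hs => ?_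
    by_cases s5 : s = 5
    · subst s5; rw [vb5]
      refine le_trans ?_ mt
      rw [cP]; linarith
    by_cases s7 : s = 7
    · subst s7; rw [vb7]
      refine le_trans ?_ mt
      rw [cP]; linarith
    by_cases s8 : s = 8
    · subst s8; rw [vb8]
      refine le_trans ?_ mx
      rw [cR]; linarith
    by_cases s10 : s = 10
    · subst s10; rw [vb10]
      refine le_trans ?_ mx
      rw [cR]; linarith
    rw [vb_off (by tauto) (by tauto), zero_sub]
    have e1 := h.bd G.N.g A.r A'.r s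
    have e2 : W.B'.d n ^ (-ε) ≤ W.B'.d n ^ (-((C3 + 1) * ε)) := ranti n (by nlinarith)
    refine le_trans ?_ (hc.trans e2)
    unfold cZ; linarith
  · -- hql
    intro ε hε
    filter_upwards [hG, hcst (2 * ε) (by positivity), h0] with n G hc h0n i hi l hlk hl a
    have A := G.alv (G.box hi).1
    have A' := G.alv hlk
    obtain ⟨t5, t7, -, -⟩ := h.two G.N A A'
    have c5 := G.loose_get hl (S5 h)
    have c7 := G.loose_get hl (S7 h)
    rw [vb5] at c5
    rw [vb7] at c7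
    have hη : et W x n ≤ W.B'.d n ^ (t - ε) := ranti n (by linarith)
    have hp := hpos n (t - ε)
    have hm : cZ W * W.B'.d n ^ (t - ε) ≤ W.B'.d n ^ (t - 3 * ε) := by
      refine (rmul (W := W) n hc).trans (le_of_eq ?_)
      congr 1; ring
    refine le_trans ?_ hm
    set P := W.B'.d n ^ (t - ε) with hP
    set k := k0 n
    have m1 : W.K0 ^ 4 * et W x n ≤ W.K0 ^ 6 * P :=
      mul_le_mul K4 hη (et_pos n).le (by positivity)
    have m2 : W.K0 ^ 2 * |W.crd n (W.rep n i k) (W.rep n l k) 5| ≤ W.K0 ^ 6 * P :=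
      mul_le_mul K2 c5 (abs_nonneg _) (by positivity)
    have m3 : P ≤ W.K0 ^ 6 * P := le_mul_of_one_le_left hp.le K6
    have cz : cZ W * P = 1000 * (W.K0 ^ 6 * P) := by unfold cZ; ring
    have q : 0 ≤ W.K0 ^ 6 * P := by positivity
    rw [cz]
    fin_cases a
    · have := abs_sub_le (bV W n l 0 - bV W n i 0) (W.crd n (W.rep n i k) (W.rep n l k) 5) 0
      rw [sub_zero, sub_zero] at this
      show |bV W n l 0 - bV W n i 0| ≤ _
      have r1 : 40 * W.K0 ^ 4 * et W x n = 40 * (W.K0 ^ 4 * et W x n) := by ring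
      rw [r1] at t5
      linarith
    · have := abs_sub_le (bV W n l 1 - bV W n i 1) (W.crd n (W.rep n i k) (W.rep n l k) 7) 0
      rw [sub_zero, sub_zero] at this
      show |bV W n l 1 - bV W n i 1| ≤ _
      have r1 : 43 * W.K0 ^ 4 * et W x n = 43 * (W.K0 ^ 4 * et W x n) := by ring
      have r2 : 2 * W.K0 ^ 2 * |W.crd n (W.rep n i k) (W.rep n l k) 5| =
          2 * (W.K0 ^ 2 * |W.crd n (W.rep n i k) (W.rep n l k) 5|) := by ring
      rw [r1, r2] at t7
      linarith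
  · -- hpC
    intro y hy hyy
    exact hC y hy (hyy.trans (min_le_left _ _))
  · -- hCl
    intro y hy hyy ε hε
    have hyx : y ≤ x := hyy.trans (min_le_right _ _)
    filter_upwards [hG, hcst (3 * ε) (by positivity)] with n G hc i hi i' hi' hV0
    have A := G.alv (G.box hi).1
    have A' := G.alv (G.box hi').1
    obtain ⟨t5, -, -, -⟩ := h.two G.N A A'
    set k := k0 n
    have hη : et W x n ≤ W.B'.d n ^ y := ranti n hyx
    have hp := hpos n y
    refine G.loose_of fun s hs => ?_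
    by_cases s5 : s = 5
    · subst s5
      have e : vC y 5 = y := if_pos rfl
      rw [e]
      refine le_trans ?_ (rmul (W := W) n hc)
      have tri := abs_sub_abs_le_abs_sub (W.crd n (W.rep n i k) (W.rep n i' k) 5)
        (bV W n i' 0 - bV W n i 0)
      rw [abs_sub_comm (W.crd n (W.rep n i k) (W.rep n i' k) 5)
        (bV W n i' 0 - bV W n i 0)] at tri
      set P := W.B'.d n ^ y
      have m1 : W.K0 ^ 4 * et W x n ≤ W.K0 ^ 6 * P :=
        mul_le_mul K4 hη (et_pos n).le (by positivity)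
      have m3 : P ≤ W.K0 ^ 6 * P := le_mul_of_one_le_left hp.le K6
      have cz : cZ W * P = 1000 * (W.K0 ^ 6 * P) := by unfold cZ; ring
      have q : 0 ≤ W.K0 ^ 6 * P := by positivity
      have r1 : 40 * W.K0 ^ 4 * et W x n = 40 * (W.K0 ^ 4 * et W x n) := by ring
      rw [r1] at t5
      rw [cz]
      linarith
    · have e : vC y s = 0 := if_neg s5
      rw [e, zero_sub]
      refine le_trans ?_ hc
      have := h.bd G.N.g A.r A'.r s
      unfold cZ; linarith

end Crest.Agent.R136.Z2683
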