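import Crest.Agent.R136.Z2w_683
import Crest.Agent.R136.Gau1_66

/-!
# R136: rung `s = 1` of Z2: strip relation on a dense set of incidences (helper683)

* `Z2W.class_strip` : a `ρ^ε`-part of the class of a window lies in one strip `P - μ C_a = const`
* **`strip_rel`** : from a zoom window to one dense set all of whose classes satisfy the relation
-/

set_option autoImplicit false
set_option linter.unusedSectionVars false
set_option linter.unusedVariables false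

open Filter Topology

namespace Crest.Agent.R136.Z2683

open Finset Crest.Agent.R136.NetQ186 Crest.Agent.R136.Net191 Crest.Agent.R136.Qg926
open Crest.Agent.R136.Gf356 Crest.Agent.R136.Ev356
open Crest.Agent.R138.Ex926 (Base U U_le_atTop)
open Crest.Agent.R138 (Ex926.cls)

variable {ι : ℕ → Type*} [∀ n, DecidableEq (ι n)] {W : Wnd 11 ι} {f : ∀ n, ι n → Fq4} {x : ℝ}

/-- change of the base incidence: `P` up to a multiple of `C_a` -/
theorem Z2W.rebase (h : Z2W W f x) {n : ℕ} (N : Z2N W x n) {p a b : ι n} (hp : p ∈ W.Cl n)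
    (ha : a ∈ W.Cl n) : ∃ m : ℝ, |m| ≤ 2 * W.K0 ^ 2 ∧ ∀ b ∈ W.Cl n,
      |(W.crd n p b 7 - W.crd n p a 7) - W.crd n a b 7 - m * W.crd n a b 5| ≤
        3 * W.K0 ^ 2 * et W x n := by
  have c := h.cfN N
  have hK := h.K1
  have K0 : 0 ≤ W.K0 := by linarith
  have a0 := h.bd N.g hp ha 0
  have a2 := h.bd N.g hp ha 2
  have a3 := h.bd N.g hp ha 3
  have a4 := h.bd N.g hp ha 4
  have hη := (et_pos (W := W) (x := x) n).le
  refine ⟨cf W n 4 5 7 * W.crd n p a 4 + cf W n 2 3 4 * cf W n 4 5 7 *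
    (W.crd n p a 2 * W.crd n p a 3), ?_, fun b hb => ?_⟩
  · refine (abs_add_le _ _).trans ?_
    rw [abs_mul, abs_mul (cf W n 2 3 4 * cf W n 4 5 7), abs_mul (W.crd n p a 2),
      abs_of_nonneg (c.p 4 5 7), abs_of_nonneg (mul_nonneg (c.p 2 3 4) (c.p 4 5 7))]
    have e1 : cf W n 4 5 7 * |W.crd n p a 4| ≤ 1 * W.K0 :=
      mul_le_mul c.c457 a4 (abs_nonneg _) (by norm_num)
    have e2 : cf W n 2 3 4 * cf W n 4 5 7 * (|W.crd n p a 2| * |W.crd n p a 3|) ≤
        1 * 1 * (W.K0 * W.K0) :=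
      mul_le_mul (mul_le_mul c.c234 c.c457 (c.p _ _ _) (by norm_num))
        (mul_le_mul a2 a3 (abs_nonneg _) K0) (by positivity) (by norm_num)
    nlinarith
  · have b1 := h.bd N.g ha hb 1
    have b6 := h.bd N.g ha hb 6
    rw [h.nid7 N.g hp ha hb]
    have e0 : W.crd n a b 7 - 2 * cf W n 0 1 7 * (W.crd n p a 0 * W.crd n a b 1) +
        cf W n 4 5 7 * (W.crd n p a 4 * W.crd n a b 5) +
        cf W n 2 3 4 * cf W n 4 5 7 * (W.crd n p a 2 * W.crd n p a 3 * W.crd n a b 5) +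
        cf W n 3 6 7 * (W.crd n p a 3 * W.crd n a b 6) - W.crd n a b 7 -
        (cf W n 4 5 7 * W.crd n p a 4 + cf W n 2 3 4 * cf W n 4 5 7 *
          (W.crd n p a 2 * W.crd n p a 3)) * W.crd n a b 5 =
        -(2 * cf W n 0 1 7 * (W.crd n p a 0 * W.crd n a b 1)) +
          cf W n 3 6 7 * (W.crd n p a 3 * W.crd n a b 6) := by ring
    rw [e0]
    refine (abs_add_le _ _).trans ?_
    rw [abs_neg, abs_mul, abs_mul (W.crd n p a 0), abs_mul (cf W n 3 6 7),
      abs_mul (W.crd n p a 3), abs_of_nonneg (by linarith [c.p 0 1 7] : 0 ≤ 2 * cf W n 0 1 7),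
      abs_of_nonneg (c.p 3 6 7)]
    have e1 : 2 * cf W n 0 1 7 * (|W.crd n p a 0| * |W.crd n a b 1|) ≤
        2 * et W x n * (W.K0 * W.K0) :=
      mul_le_mul (by linarith [c.c017]) (mul_le_mul a0 b1 (abs_nonneg _) K0) (by positivity)
        (by positivity)
    have e2 : cf W n 3 6 7 * (|W.crd n p a 3| * |W.crd n a b 6|) ≤
        et W x n * (W.K0 * W.K0) :=
      mul_le_mul c.c367 (mul_le_mul a3 b6 (abs_nonneg _) K0) (by positivity) hη
    have e3 : 3 * W.K0 ^ 2 * et W x n = 2 * et W x n * (W.K0 * W.K0) +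
        et W x n * (W.K0 * W.K0) := by ring
    rw [e3]
    exact add_le_add e1 e2

/-- sum over fat lines -/
theorem sum_lines {α : Type*} [DecidableEq α] (E : Finset α) (lc : α → ℕ) (T : Finset ℕ) {A M : ℝ}
    (hM : 0 ≤ M) (h : ∀ l ∈ T, A ≤ M * ((E.filter fun y => lc y = l).card : ℝ)) :
    (T.card : ℝ) * A ≤ M * ((E.filter fun y => lc y ∈ T).card : ℝ) := by
  have e1 : ((E.filter fun y => lc y ∈ T).card : ℝ) =
      ∑ l ∈ T, ((E.filter fun y => lc y = l).card : ℝ) := by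
    have e2 := card_eq_sum_card_fiberwise (f := lc) (s := E.filter fun y => lc y ∈ T) (t := T)
      (fun y hy => (mem_filter.1 hy).2)
    rw [e2]
    push_cast
    refine sum_congr rfl fun l hl => ?_
    congr 2
    ext y
    simp only [mem_filter]
    constructor
    · rintro ⟨⟨h1, -⟩, h2⟩; exact ⟨h1, h2⟩
    · rintro ⟨h1, h2⟩; exact ⟨⟨h1, h2 ▸ hl⟩, h2⟩
  rw [e1, mul_sum]
  calc (T.card : ℝ) * A = ∑ l ∈ T, A := by rw [sum_const, nsmul_eq_mul]
    _ ≤ _ := sum_le_sum h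

set_option maxHeartbeats 1000000 in
/-- **a heavy strip in the class of a window** -/
theorem Z2W.class_strip (hKM : ∀ V : ℝ, Crest.Agent.R138.Tub70.KM32 V) (h : Z2W W f x)
    (hN : ∀ᶠ n in (U : Filter ℕ), Z2N W x n)
    (hdens : W.lam W.top ≤ W.lam (cut W.S W.top 0) + W.lam (cut W.S 0 W.top))
    (hfr : ∀ y, 0 ≤ y → y ≤ x → W.lam (Pi.single W.kz y) ≤ -(1 * y)) {t : ℝ} (ht : 0 < t)
    (htx : t ≤ x) (l0 : (0 : Fin 11 → ℝ) ∈ W.legW) (l1 : vb x 0 ∈ W.legW)
    (l2 : vb 0 t ∈ W.legW) (l3 : vb x t ∈ W.legW)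
    (hprod : W.nu 0 - W.nu (vb 0 t) ≤ W.nu (vb x 0) - W.nu (vb x t))
    (hnf : (W.nu 0 - W.nu (vb x 0)) + 2 * t < 2 * x) {y0 : ℝ} (hy0 : 0 < y0)
    (hC : ∀ y : ℝ, 0 < y → y ≤ y0 → vC y ∈ W.legW ∧ W.nu (vC y) < W.nu 0)
    {ε : ℝ} (hε : 0 < ε) :
    ∀ᶠ n in (U : Filter ℕ), ∃ G' ⊆ W.Cl n, W.T n * W.B'.d n ^ ε ≤ (G'.card : ℝ) ∧
      ∀ p ∈ G', ∃ μ : ℝ, |μ| ≤ W.B'.d n ^ (-ε) ∧ ∀ y ∈ G',
        |W.crd n p y 7 - μ * W.crd n p y 5| ≤ W.B'.d n ^ (t - ε) := by
  have hg₀ : Tendsto (fun n : ℕ => (n : ℝ)) U atTop :=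
    tendsto_natCast_atTop_atTop.mono_left U_le_atTop
  obtain ⟨E, g, hP, -, H⟩ := Wnd.EOk.exists_model h.q.ok h.q.ok.eok_class (fun _ _ _ => 0) hg₀
    hdens zero_le_one le_rfl (h.top _ (Or.inl h.kz)) hfr
  have hc := h.q.ev_hc h.q.ok.eok_class hP
  have hG : ∀ᶠ n in (U : Filter ℕ), GN W x E n := by
    filter_upwards [hc, hN] with n h1 h2 using ⟨h2, h1.2.1, h1.2.2⟩
  choose ik hik using H.nonempty
  have h0 : ∀ᶠ n in (U : Filter ℕ), ((ik n).1, (ik n).2) ∈ (W.cfg E n).I :=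
    Eventually.of_forall hik
  set δ : ℝ := ε / 8 with hδd
  have hδ : 0 < δ := by positivity
  obtain ⟨ε0, hε0, key⟩ := h.strip_model hKM hG H (fun n => (ik n).1) (fun n => (ik n).2) h0 ht
    htx l0 l1 l2 l3 hprod hnf hy0 hC hδ
  set e : ℝ := min ε0 (ε / 8) with hed
  have he : 0 < e := lt_min hε0 (by positivity)
  have he8 : e ≤ ε / 8 := min_le_right _ _
  have hcst : ∀ᶠ n in (U : Filter ℕ), cZ W ≤ W.B'.d n ^ (-δ) := ev_const_le W.B' hδ (cZ W)
  filter_upwards [hG, key e he (min_le_left _ _), hcst, H.low 0 l0 e he,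
    h.q.ok.card_lc_le he, hP.gsub e he, h.q.ok.cls.big e he] with n G hk hcn hlow hlc hg hbig
  obtain ⟨lam, hlam, i1, hi1, T, hT, hstrip, hcard⟩ := hk
  have hpos : ∀ s : ℝ, 0 < W.B'.d n ^ s := fun s => Real.rpow_pos_of_pos (W.B'.pos n) s
  have hTI : ∀ l ∈ T, (l, (ik n).2) ∈ (W.cfg E n).I := fun l hl => (G.box (hT hl)).1
  have hgpos : 0 ≤ g n := le_trans zero_le_one (hP.g1 n)
  refine ⟨(E n).filter fun y => W.lc n y ∈ T, (filter_subset _ _).trans G.sub, ?_, ?_⟩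
  · -- the count
    set M : ℝ := g n * (((W.Cl n).image (W.lc n)).card : ℝ) with hMd
    have hM : 0 ≤ M := mul_nonneg hgpos (Nat.cast_nonneg _)
    have h1 : (T.card : ℝ) * ((W.Cl n).card : ℝ) ≤
        M * (((E n).filter fun y => W.lc n y ∈ T).card : ℝ) := by
      refine sum_lines (E n) (W.lc n) T hM fun l hl => ?_
      have h2 := hTI l hl
      rw [G.cfg] at h2
      obtain ⟨y, hy, hyl, -⟩ := mem_cfg0 h2
      have h3 := hP.lines n y hy
      refine h3.trans (le_of_eq ?_)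
      rw [hMd]
      congr 2
      rw [← hyl]
      rfl
    have h4 : W.B'.d n ^ (-W.nu 0 + e) ≤
        (((W.cfg E n).box 0 e (ik n).1 (ik n).2).card : ℝ) := hlow _ _ (hik n)
    have h5 : W.B'.d n ^ δ * W.B'.d n ^ (-W.nu 0 + e) ≤ (T.card : ℝ) :=
      (mul_le_mul_of_nonneg_left h4 (hpos _).le).trans hcard
    have h6 : M ≤ W.B'.d n ^ (-e) * W.B'.d n ^ (W.lam (cut W.S W.top 0) - e) :=
      mul_le_mul hg (hlc (W.Cl n) (Subset.refl _)) (Nat.cast_nonneg _) (hpos _).le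
    have hT0 := h.q.ok.cls.T0 n
    set Gc : ℝ := (((E n).filter fun y => W.lc n y ∈ T).card : ℝ) with hGc
    have hGc0 : 0 ≤ Gc := Nat.cast_nonneg _
    have h7 : W.B'.d n ^ δ * W.B'.d n ^ (-W.nu 0 + e) * (W.T n * W.B'.d n ^ e) ≤
        W.B'.d n ^ (-e) * W.B'.d n ^ (W.lam (cut W.S W.top 0) - e) * Gc := by
      calc _ ≤ (T.card : ℝ) * ((W.Cl n).card : ℝ) :=
            mul_le_mul h5 hbig (mul_nonneg hT0.le (hpos _).le) (Nat.cast_nonneg _)
        _ ≤ M * Gc := h1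
        _ ≤ _ := mul_le_mul_of_nonneg_right h6 hGc0
    have hnu : W.nu 0 = W.lam (cut W.S 0 W.top) - W.lam W.top := rfl
    set a1 : ℝ := W.lam (cut W.S W.top 0) with ha1
    have e1 : W.B'.d n ^ δ * W.B'.d n ^ (-W.nu 0 + e) * (W.T n * W.B'.d n ^ e) =
        W.T n * W.B'.d n ^ (δ + (-W.nu 0 + e) + e) := by
      simp only [Real.rpow_add (W.B'.pos n)]; ring
    have e2 : W.B'.d n ^ (-e) * W.B'.d n ^ (a1 - e) = W.B'.d n ^ (a1 - 2 * e) := by
      rw [← Real.rpow_add (W.B'.pos n)]; congr 1; ring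
    rw [e1, e2] at h7
    have h8 : W.T n * W.B'.d n ^ (δ + (-W.nu 0 + e) + e) * W.B'.d n ^ (-(a1 - 2 * e)) ≤ Gc := by
      have := mul_le_mul_of_nonneg_right h7 (hpos (-(a1 - 2 * e))).le
      refine this.trans (le_of_eq ?_)
      rw [mul_comm (W.B'.d n ^ (a1 - 2 * e)) Gc, mul_assoc, ← Real.rpow_add (W.B'.pos n)]
      rw [add_neg_cancel, Real.rpow_zero, mul_one]
    refine le_trans ?_ h8
    rw [mul_assoc, ← Real.rpow_add (W.B'.pos n)]
    refine mul_le_mul_of_nonneg_left ?_ hT0.le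
    refine Real.rpow_le_rpow_of_exponent_ge (W.B'.pos n) (W.B'.lt n).le ?_
    rw [hnu]
    linarith
  · -- the strip
    intro p hp
    obtain ⟨hpE, hpT⟩ := mem_filter.1 hp
    have hpC := G.sub hpE
    obtain ⟨m, hm, hmb⟩ := h.rebase G.N (b := p) G.N.g.s0 hpC
    obtain ⟨K1, K2, K4, K6⟩ := Kpow h
    have hK := h.K1
    refine ⟨lam - m, ?_, fun y hy => ?_⟩
    · refine (abs_sub _ _).trans ?_
      have e1 : |m| ≤ cZ W := by
        unfold cZ
        linarith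
      have e2 : W.B'.d n ^ (-δ) ≤ W.B'.d n ^ (-(2 * δ)) := ranti n (by linarith)
      have e3 : 2 * W.B'.d n ^ (-δ) ≤ W.B'.d n ^ (-(2 * δ)) := by
        have q : (2:ℝ) ≤ W.B'.d n ^ (-δ) := by
          refine le_trans ?_ hcn
          unfold cZ; linarith
        have := mul_le_mul_of_nonneg_right q (hpos (-δ)).le
        rw [← Real.rpow_add (W.B'.pos n)] at this
        have e : -δ + -δ = -(2 * δ) := by ring
        rwa [e] at this
      have e4 : W.B'.d n ^ (-(2 * δ)) ≤ W.B'.d n ^ (-ε) := ranti n (by linarith)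
      linarith
    · obtain ⟨hyE, hyT⟩ := mem_filter.1 hy
      have hyC := G.sub hyE
      have Ly := lrp_spec hyC
      have Lp := lrp_spec hpC
      have fy := h.fl G.N G.N.g.s0 Ly.1 hyC Ly.2
      have fp := h.fl G.N G.N.g.s0 Lp.1 hpC Lp.2
      have sy := hstrip _ hyT
      have sp := hstrip _ hpT
      have hb := hmb y hyC
      have p5 := h.pair5 G.N.g G.N.g.s0 hpC hyC
      set η := et W x n with hη
      have hη0 : 0 ≤ η := (et_pos n).le
      have y0 : bV W n (W.lc n y) 0 = W.crd n (W.s₀ n) (lrp W n (W.lc n y)) 5 := rfl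
      have y1 : bV W n (W.lc n y) 1 = W.crd n (W.s₀ n) (lrp W n (W.lc n y)) 7 := rfl
      have q0 : bV W n (W.lc n p) 0 = W.crd n (W.s₀ n) (lrp W n (W.lc n p)) 5 := rfl
      have q1 : bV W n (W.lc n p) 1 = W.crd n (W.s₀ n) (lrp W n (W.lc n p)) 7 := rfl
      rw [← y0, ← y1] at fy
      rw [← q0, ← q1] at fp
      obtain ⟨fy5, fy7, -⟩ := fy
      obtain ⟨fp5, fp7, -⟩ := fp
      set Y5 := W.crd n (W.s₀ n) y 5
      set Y7 := W.crd n (W.s₀ n) y 7
      set P5 := W.crd n (W.s₀ n) p 5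
      set P7 := W.crd n (W.s₀ n) p 7
      have hid : W.crd n p y 7 - (lam - m) * W.crd n p y 5 =
          -((Y7 - P7) - W.crd n p y 7 - m * W.crd n p y 5) + (Y7 - bV W n (W.lc n y) 1) -
          (P7 - bV W n (W.lc n p) 1) - lam * (Y5 - bV W n (W.lc n y) 0) +
          lam * (P5 - bV W n (W.lc n p) 0) +
          ((bV W n (W.lc n y) 1 - bV W n i1 1) - lam * (bV W n (W.lc n y) 0 - bV W n i1 0)) -
          ((bV W n (W.lc n p) 1 - bV W n i1 1) - lam * (bV W n (W.lc n p) 0 - bV W n i1 0)) := by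
        rw [← p5]; ring
      rw [hid]
      have lamb : ∀ z : ℝ, |z| ≤ 20 * W.K0 ^ 4 * η → |lam * z| ≤
          W.B'.d n ^ (-δ) * (20 * W.K0 ^ 4 * η) := by
        intro z hz
        rw [abs_mul]
        exact mul_le_mul hlam hz (abs_nonneg _) (hpos _).le
      have l1' := lamb _ fy5
      have l2' := lamb _ fp5
      have t1 := abs_add_le (-((Y7 - P7) - W.crd n p y 7 - m * W.crd n p y 5))
        (Y7 - bV W n (W.lc n y) 1)
      rw [abs_neg] at t1
      have t2 := abs_sub (-((Y7 - P7) - W.crd n p y 7 - m * W.crd n p y 5) +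
        (Y7 - bV W n (W.lc n y) 1)) (P7 - bV W n (W.lc n p) 1)
      have t3 := abs_sub (-((Y7 - P7) - W.crd n p y 7 - m * W.crd n p y 5) +
        (Y7 - bV W n (W.lc n y) 1) - (P7 - bV W n (W.lc n p) 1))
        (lam * (Y5 - bV W n (W.lc n y) 0))
      have t4 := abs_add_le (-((Y7 - P7) - W.crd n p y 7 - m * W.crd n p y 5) +
        (Y7 - bV W n (W.lc n y) 1) - (P7 - bV W n (W.lc n p) 1) -
        lam * (Y5 - bV W n (W.lc n y) 0)) (lam * (P5 - bV W n (W.lc n p) 0))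
      have t5 := abs_add_le (-((Y7 - P7) - W.crd n p y 7 - m * W.crd n p y 5) +
        (Y7 - bV W n (W.lc n y) 1) - (P7 - bV W n (W.lc n p) 1) -
        lam * (Y5 - bV W n (W.lc n y) 0) + lam * (P5 - bV W n (W.lc n p) 0))
        ((bV W n (W.lc n y) 1 - bV W n i1 1) - lam * (bV W n (W.lc n y) 0 - bV W n i1 0))
      have t6 := abs_sub (-((Y7 - P7) - W.crd n p y 7 - m * W.crd n p y 5) +
        (Y7 - bV W n (W.lc n y) 1) - (P7 - bV W n (W.lc n p) 1) -
        lam * (Y5 - bV W n (W.lc n y) 0) + lam * (P5 - bV W n (W.lc n p) 0) +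
        ((bV W n (W.lc n y) 1 - bV W n i1 1) - lam * (bV W n (W.lc n y) 0 - bV W n i1 0)))
        ((bV W n (W.lc n p) 1 - bV W n i1 1) - lam * (bV W n (W.lc n p) 0 - bV W n i1 0))
      set R := W.B'.d n ^ (t - δ) with hR
      have hR0 : 0 < R := hpos _
      have ηR : η ≤ W.B'.d n ^ t := ranti n htx
      have tR : W.B'.d n ^ t ≤ R := ranti n (by linarith)
      have e1 : W.B'.d n ^ (-δ) * (20 * W.K0 ^ 4 * η) ≤ 20 * (W.K0 ^ 6 * R) := by
        have : W.B'.d n ^ (-δ) * η ≤ R := by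
          refine (mul_le_mul_of_nonneg_left ηR (hpos (-δ)).le).trans (le_of_eq ?_)
          rw [hR, ← Real.rpow_add (W.B'.pos n) (-δ) t]; congr 1; ring
        have e := mul_le_mul K4 this (mul_nonneg (hpos _).le hη0) (by positivity)
        calc _ = 20 * (W.K0 ^ 4 * (W.B'.d n ^ (-δ) * η)) := by ring
          _ ≤ _ := by linarith
      have e2 : 20 * W.K0 ^ 4 * η ≤ 20 * (W.K0 ^ 6 * R) := by
        have e := mul_le_mul K4 (ηR.trans tR) hη0 (by positivity : (0:ℝ) ≤ W.K0 ^ 6)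
        linarith
      have e3 : 3 * W.K0 ^ 2 * η ≤ 3 * (W.K0 ^ 6 * R) := by
        have e := mul_le_mul K2 (ηR.trans tR) hη0 (by positivity : (0:ℝ) ≤ W.K0 ^ 6)
        linarith
      have e4 : R ≤ W.K0 ^ 6 * R := le_mul_of_one_le_left hR0.le K6
      have e5 : cZ W * R ≤ W.B'.d n ^ (t - ε) := by
        refine (rmul (W := W) n hcn).trans (ranti n ?_)
        linarith
      have e6 : cZ W * R = 1000 * (W.K0 ^ 6 * R) := by unfold cZ; ring
      have e7 : 0 ≤ W.K0 ^ 6 * R := by positivity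
      linarith

/-! ### all classes -/

/-- **the relation** : in the frame of every incidence `p` of `G`, the slot `P` is a multiple of
the slot `C_a` on the part of `G` in the class of `p`, at precision `ρ ^ (t - ε)` -/
def RelP (B B' : Base) (co : ∀ n, ι n → ι n → Fin 11 → ℝ) (lab : ∀ n, ι n → ι n)
    (X : ℕ → Fin 11 → ℝ) (t : ℝ) (n : ℕ) (ε : ℝ) (G : Finset (ι n)) : Prop :=
  ∀ p ∈ G, ∃ μ : ℝ, |μ| ≤ B'.d n ^ (-ε) ∧ ∀ y ∈ G, lab n y = lab n p →
    |co n p y 7 / B.d n ^ X n 7 - μ * (co n p y 5 / B.d n ^ X n 5)| ≤ B'.d n ^ (t - ε)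

/-- numeric hypotheses on the profile of the class, `L p = cut S p top` -/
structure NumP (st : WSt 11) (lam : (Fin 11 → ℝ) → ℝ) (x t : ℝ) : Prop where
  t0 : 0 < t
  tx : t ≤ x
  l0 : cut st.S 0 st.top ∈ Leg st.Mw st.R'
  l1 : cut st.S (vb x 0) st.top ∈ Leg st.Mw st.R'
  l2 : cut st.S (vb 0 t) st.top ∈ Leg st.Mw st.R'
  l3 : cut st.S (vb x t) st.top ∈ Leg st.Mw st.R'
  prod : lam (cut st.S 0 st.top) - lam (cut st.S (vb 0 t) st.top) ≤
    lam (cut st.S (vb x 0) st.top) - lam (cut st.S (vb x t) st.top)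
  nf : lam (cut st.S 0 st.top) - lam (cut st.S (vb x 0) st.top) + 2 * t < 2 * x
  ca : ∃ y0 : ℝ, 0 < y0 ∧ ∀ y : ℝ, 0 < y → y ≤ y0 → cut st.S (vC y) st.top ∈ Leg st.Mw st.R' ∧
    lam (cut st.S (vC y) st.top) < lam (cut st.S 0 st.top)

/-- hypotheses on the base points: tight walls `X_a ≤ z + C_a`, `N ≤ z + P`; slots `R`, `F_b`
negligible -/
def GapP (X : ℕ → Fin 11 → ℝ) (w : ℕ → ℝ) (x : ℝ) (n : ℕ) : Prop :=
  X n 8 = X n 0 + X n 5 ∧ X n 10 = X n 0 + X n 7 ∧ X n 7 + x * w n ≤ X n 0 + X n 1 ∧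
    X n 7 + x * w n ≤ X n 3 + X n 6 ∧ X n 10 + x * w n ≤ X n 3 + X n 9

open Crest.Agent.R138.Ex926 in
/-- **RUNG `s = 1` OF Z2** : from a zoom window to one dense set all of whose classes satisfy the
strip relation -/
theorem strip_rel (hKM : ∀ V : ℝ, Crest.Agent.R138.Tub70.KM32 V) {B B' : Base}
    {I J : ∀ n, Finset (ι n)} {co : ∀ n, ι n → ι n → Fin 11 → ℝ} {C : ℝ} {X : ℕ → Fin 11 → ℝ}
    {w : ℕ → ℝ} {D : Set (Fin 11 → ℝ)} {T : ℕ → ℝ} {lam : (Fin 11 → ℝ) → ℝ}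
    (hZ : ZWin B B' I J co monQ C X w D T lam) {f : ∀ n, ι n → Fq4}
    (hco : ∀ n, ∀ i ∈ I n, ∀ j ∈ I n, co n i j = coQ (f n i) (f n j)) {st : WSt 11}
    (hst : st.Ok monQ D) (hS : ∀ s ∈ st.S, s = 0 ∨ s = 2 ∨ s = 3 ∨ s = 4) (hkz : st.kz = 0)
    {x : ℝ} (hx : 0 < x) (hden : st.Dens lam 1 x)
    (htop : ∀ s, s = 0 ∨ s = 5 ∨ s = 7 ∨ s = 8 ∨ s = 10 → x ≤ st.top s)
    (hgap : ∀ᶠ n in (U : Filter ℕ), GapP X w x n) {t : ℝ} (hnum : NumP st lam x t)
    (i₀ : ∀ n, ι n) :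
    ∃ J1 : ∀ n, Finset (ι n), (∀ n, J1 n ⊆ J n) ∧ Crest.Agent.R138.Dp76.Dense B' J1 J ∧
      ∀ ε : ℝ, 0 < ε → ∀ᶠ n in (U : Filter ℕ), ∀ s ∈ J1 n,
        RelP B B' co (fun n => zlab B I co monQ C X w n 0) X t n ε
          (cls (J1 n) (zlab B I co monQ C X w n 0) s) := by
  set st1 : WSt 11 := { st with kap := fun _ => 1 } with hst1
  have hok : st1.Ok monQ D :=
    { R0 := hst.R0, leg := hst.leg, top_leg := hst.top_leg, lin_leg := hst.lin_leg
      lev_leg := hst.lev_leg, kzS := hst.kzS, kz0 := hst.kz0, kzw := hst.kzw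
      kap := fun _ => one_pos }
  refine Gau66.local_to_global (B := B') (fun n => zlab B I co monQ C X w n 0) hZ.T0 ?_
    (RelP B B' co (fun n => zlab B I co monQ C X w n 0) X t) ?_ ?_ ?_
  · intro ε hε
    filter_upwards [hZ.prof.up 0 ε hε] with n hn s hs
    have := hn 0 hZ.zero (by simp) s hs
    rwa [hZ.lam0, zero_add] at this
  · intro n ε G G' hGG hQ p hp
    obtain ⟨μ, h1, h2⟩ := hQ p (hGG hp)
    exact ⟨μ, h1, fun y hy hl => h2 y (hGG hy) hl⟩
  · intro n ε ε' G hle hQ p hp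
    obtain ⟨μ, h1, h2⟩ := hQ p hp
    refine ⟨μ, h1.trans ?_, fun y hy hl => (h2 y hy hl).trans ?_⟩
    · exact Real.rpow_le_rpow_of_exponent_ge (B'.pos n) (B'.lt n).le (by linarith)
    · exact Real.rpow_le_rpow_of_exponent_ge (B'.pos n) (B'.lt n).le (by linarith)
  · intro Gd hGd hsat hd ε hε
    obtain ⟨s₀, hs₀, hW⟩ := hZ.exists_wnd hok i₀ (Gd := Gd) (E := Gd)
      (Eventually.of_forall hGd) (Eventually.of_forall fun n => Subset.refl _)
      (Sd := fun _ => 2) (Base.Sub.const two_pos) hd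
    set W := st1.wnd B B' I J co monQ C X w D T lam
      (fun n => cls (Gd n) (zlab B I co monQ C X w n 0) (s₀ n)) s₀ with hWd
    have hq : QWnd W f := ⟨hW, rfl, hco, hS⟩
    have hZ2 : Z2W W f x := ⟨hq, fun _ => rfl, by
      have := hst.kzS
      rw [hkz] at this; exact this, hkz, hx, htop⟩
    have hN : ∀ᶠ n in (U : Filter ℕ), Z2N W x n := by
      filter_upwards [hW.ev_good, hgap] with n g hg
      exact ⟨g, hg.1, hg.2.1, hg.2.2.1, hg.2.2.2.1, hg.2.2.2.2⟩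
    have tx := hnum.tx
    have t0 := hnum.t0
    have tn : ∀ s, 0 ≤ st.top s := fun s => hst.top_leg.1.nonneg s
    have vle : ∀ {x' t' : ℝ}, x' ≤ x → t' ≤ x → ∀ s, s ∉ st.S → vb x' t' s ≤ st.top s := by
      intro x' t' h1 h2 s _
      unfold vb
      split_ifs with q1 q2
      · exact h2.trans (htop s (by tauto))
      · exact h1.trans (htop s (by tauto))
      · exact tn s
    obtain ⟨y0, hy0, hca⟩ := hnum.ca
    have key := hZ2.class_strip hKM hN hden.dens (by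
        intro y hy hyx
        have := hden.frost y hy hyx
        exact this) t0 tx
      ⟨hnum.l0, fun s hs => tn s⟩
      ⟨hnum.l1, vle le_rfl hx.le⟩ ⟨hnum.l2, vle hx.le tx⟩ ⟨hnum.l3, vle le_rfl tx⟩
      (by
        have := hnum.prod
        show lam (cut st.S 0 st.top) - lam st.top - (lam (cut st.S (vb 0 t) st.top) - lam st.top) ≤
          lam (cut st.S (vb x 0) st.top) - lam st.top -
          (lam (cut st.S (vb x t) st.top) - lam st.top)
        linarith)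
      (by
        have := hnum.nf
        show lam (cut st.S 0 st.top) - lam st.top -
          (lam (cut st.S (vb x 0) st.top) - lam st.top) + 2 * t < 2 * x
        linarith) (y0 := min y0 x) (lt_min hy0 hx) (by
        intro y hy hyy
        obtain ⟨c1, c2⟩ := hca y hy (hyy.trans (min_le_left _ _))
        refine ⟨⟨c1, fun s hs => ?_⟩, ?_⟩
        · have h3 := hyy.trans (min_le_right y0 x)
          show vC y s ≤ st.top s
          unfold vC
          split_ifs with q1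
          · exact h3.trans (htop s (by tauto))
          · exact tn s
        · show lam (cut st.S (vC y) st.top) - lam st.top < lam (cut st.S 0 st.top) - lam st.top
          linarith) hε
    filter_upwards [key] with n hn
    obtain ⟨G', hG', hc, hr⟩ := hn
    refine ⟨s₀ n, G', hG', hc, fun p hp => ?_⟩
    obtain ⟨μ, hμ, hμ2⟩ := hr p hp
    refine ⟨μ, hμ, fun y hy _ => ?_⟩
    have e : ∀ s, W.crd n p y s = co n p y s / B.d n ^ X n s := by
      intro s
      show co n p y s / (1 * B.d n ^ X n s) = _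
      rw [one_mul]
    have := hμ2 y hy
    rw [e, e] at this
    exact this

end Crest.Agent.R136.Z2683
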