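import Crest.Agent.R136.Z2y_683
import Crest.Agent.R136.LdF3_511
import Crest.Agent.R136.Twz_683

/-!
# R136: rung `s = 1` of Z2, instance in the ladder `LdF3_511` (helper683)

* `legZ_cn` : the boxes of the window are in the cone `cn (mw monQ) (AF {3})`
* `gapP_of` : `GapP` at the base points of a joint tangent of the stage `{3}`
* `splZ_gC` : the split from `OutA` on the plane of slope `1`, `θ 0 = θ 1 ≠ 0`
* **`strip_at`** : strip relation at the interior base points of a twin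
-/

set_option autoImplicit false
set_option linter.unusedSectionVars false
set_option linter.unusedVariables false

open Filter Topology

namespace Crest.Agent.R136.Z2683

open Finset Crest.Agent.R136.NetQ186 Crest.Agent.R136.Net191 Crest.Agent.R136.Qg926
open Crest.Agent.R136.Gf356 Crest.Agent.R136.Ev356
open Crest.Agent.R138.Ex926 (Base U U_le_atTop)
open Dg219 (OutS gset mw Walls gC dhC nC gC_zero gC_eq)
open Crest.Agent.R136.LdF511 (sm)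
open Crest.Agent.R136.LdF3511 (WI AF cnF mem_cnF AF_mono TF TpF TF_off TF_on TpF_val rhoF)
open K2S774 (cn JT)
open Rc146 (OutA)

/-- the boxes of the window are in the cone of the stage -/
theorem legZ_cn (x : ℝ) : Leg mZ2 x ⊆ cn (mw monQ) (AF {3}) := by
  intro p hp
  show p ∈ cnF (AF {3})
  rw [mem_cnF]
  rintro k e he ⟨h1, h2, h3⟩
  exact hp.1.2 k e (mem_filter.2 ⟨he, h1, h3 3 (by simp)⟩)

/-- wall of the chart -/
def wq (k : Fin 11) (e : Fin 11 → ℕ) (h : e ∈ monQ.mon k) : WI := ⟨k, e, h⟩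

theorem wq_hd {k : Fin 11} {e : Fin 11 → ℕ} (h : e ∈ monQ.mon k) :
    (mw monQ).hd (wq k e h) = k := rfl

theorem wq_rhs {k : Fin 11} {e : Fin 11 → ℕ} (h : e ∈ monQ.mon k) (p : Fin 11 → ℝ) :
    (mw monQ).rhs (wq k e h) p + (mw monQ).cst (wq k e h) = ∑ s, (e s : ℝ) * p s := by
  show ∑ s, (e s : ℝ) * p s + 0 = _
  rw [add_zero]

theorem wq_AF {J : Finset (Fin 11)} {k : Fin 11} {e : Fin 11 → ℕ} (h : e ∈ monQ.mon k) :
    AF J (wq k e h) ↔ (e 1 = 0 ∧ k ∉ J ∧ ∀ s ∈ J, e s = 0) := Iff.rfl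

/-- **gaps at the base points** -/
theorem gapP_of {P : Set (Fin 11 → ℝ)} {ν own lam' lo' : (Fin 11 → ℝ) → ℝ} {r0 : Fin 11 → ℝ}
    {x' : ℕ → Fin 11 → ℝ} {h' : ℕ → ℝ} (H : JT (mw monQ) (AF {3}) P ν own r0 x' h' lam' lo')
    (x : ℝ) : ∀ᶠ l in atTop, GapP x' h' x l := by
  have m8 : (![1, 0, 0, 0, 0, 1, 0, 0, 0, 0, 0] : Fin 11 → ℕ) ∈ monQ.mon 8 := by decide
  have m10 : (![1, 0, 0, 0, 0, 0, 0, 1, 0, 0, 0] : Fin 11 → ℕ) ∈ monQ.mon 10 := by decide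
  have m71 : (![1, 1, 0, 0, 0, 0, 0, 0, 0, 0, 0] : Fin 11 → ℕ) ∈ monQ.mon 7 := by decide
  have m73 : (![0, 0, 0, 1, 0, 0, 1, 0, 0, 0, 0] : Fin 11 → ℕ) ∈ monQ.mon 7 := by decide
  have m103 : (![0, 0, 0, 1, 0, 0, 0, 0, 0, 1, 0] : Fin 11 → ℕ) ∈ monQ.mon 10 := by decide
  have n71 : ¬ AF {3} (wq 7 _ m71) := by rw [wq_AF]; decide
  have n73 : ¬ AF {3} (wq 7 _ m73) := by rw [wq_AF]; decide
  have n103 : ¬ AF {3} (wq 10 _ m103) := by rw [wq_AF]; decide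
  have a8 : AF {3} (wq 8 _ m8) := by rw [wq_AF]; decide
  have a10 : AF {3} (wq 10 _ m10) := by rw [wq_AF]; decide
  filter_upwards [H.gap _ n71 x, H.gap _ n73 x, H.gap _ n103 x] with l g1 g2 g3
  have e1 := H.nat l _ a8
  have e2 := H.nat l _ a10
  rw [wq_rhs, wq_hd, sm] at e1 e2 g1 g2 g3
  simp only [Matrix.cons_val] at e1 e2 g1 g2 g3
  push_cast at e1 e2 g1 g2 g3
  refine ⟨?_, ?_, ?_, ?_, ?_⟩ <;> linarith

/-- the ray of slope `1` on the slots of the window -/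
theorem TF1_val (κ : ℝ) (x3 : Fin 11 → ℝ) : TF {3} κ 1 x3 0 = 1 ∧ TF {3} κ 1 x3 5 = 0 ∧
    TF {3} κ 1 x3 7 = 0 ∧ TF {3} κ 1 x3 8 = 1 ∧ TF {3} κ 1 x3 10 = 1 := by
  have h : ∀ i : Fin 11, i ∉ ({3} : Finset (Fin 11)) → TF {3} κ 1 x3 i = TpF κ 1 i :=
    fun i hi => (TF_off hi).symm
  refine ⟨?_, ?_, ?_, ?_, ?_⟩ <;> rw [h _ (by decide), TpF_val] <;>
    simp only [Matrix.cons_val] <;> norm_num

/-- the record direction on the slots of the window -/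
theorem rho_val (θ : Fin 3 → ℝ) : rhoF θ 0 = 1 ∧ rhoF θ 8 = 1 - θ 1 ∧
    rhoF θ 10 = 1 - θ 0 := by
  refine ⟨?_, ?_, ?_⟩ <;> simp only [rhoF, NatR550.nL, Matrix.cons_val] <;> ring

/-- groups of the plane of slope `1`, `θ 0 = θ 1` -/
theorem gC_Z2 {θ : Fin 3 → ℝ} (h01 : θ 0 = θ 1) (h1 : θ 1 ≠ 0) {κ : ℝ} {x3 b : Fin 11 → ℝ}
    (hb : ∀ i, i ∉ ({3} : Finset (Fin 11)) → b i = rhoF θ i) :
    gC (TF {3} κ 1 x3) b 7 = gC (TF {3} κ 1 x3) b 5 ∧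
    gC (TF {3} κ 1 x3) b 10 = gC (TF {3} κ 1 x3) b 8 ∧
    gC (TF {3} κ 1 x3) b 0 ≠ gC (TF {3} κ 1 x3) b 5 ∧
    gC (TF {3} κ 1 x3) b 0 ≠ gC (TF {3} κ 1 x3) b 8 ∧
    gC (TF {3} κ 1 x3) b 5 ≠ gC (TF {3} κ 1 x3) b 8 := by
  obtain ⟨t0, t5, t7, t8, t10⟩ := TF1_val κ x3
  obtain ⟨r0, r8, r10⟩ := rho_val θ
  have b0 := hb 0 (by decide)
  have b8 := hb 8 (by decide)
  have b10 := hb 10 (by decide)
  have g5 : gC (TF {3} κ 1 x3) b 5 = 0 := gC_zero.2 t5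
  have g7 : gC (TF {3} κ 1 x3) b 7 = 0 := gC_zero.2 t7
  have n0 : TF {3} κ 1 x3 0 ≠ 0 := by rw [t0]; norm_num
  have n8 : TF {3} κ 1 x3 8 ≠ 0 := by rw [t8]; norm_num
  have n10 : TF {3} κ 1 x3 10 ≠ 0 := by rw [t10]; norm_num
  refine ⟨g7.trans g5.symm, ?_, ?_, ?_, ?_⟩
  · rw [gC_eq n10 n8, t10, t8, b10, b8, r10, r8, h01]
  · rw [g5]; exact fun h => n0 (gC_zero.1 h)
  · rw [Ne, gC_eq n0 n8, t0, t8, b0, b8, r0, r8, div_one, div_one]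
    intro h
    apply h1
    linarith
  · rw [g5]; exact fun h => n8 (gC_zero.1 h.symm)

/-- the split on the plane of slope `1` -/
theorem splZ_gC {θ : Fin 3 → ℝ} (h01 : θ 0 = θ 1) (h1 : θ 1 ≠ 0) {κ : ℝ} {x3 b : Fin 11 → ℝ}
    (hb : ∀ i, i ∉ ({3} : Finset (Fin 11)) → b i = rhoF θ i) {lam' : (Fin 11 → ℝ) → ℝ}
    {A0 : ℝ × ℝ} {φ : ℕ → (Fin 11 → ℝ) → ℝ} {rt : ℕ → ℝ}
    (O : OutS (gC (TF {3} κ 1 x3) b) (cn (mw monQ) (AF {3})) (dhC (TF {3} κ 1 x3) b)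
      (nC (TF {3} κ 1 x3) b) lam' A0 φ rt) : SplZ lam' := by
  obtain ⟨g1, g2, g3, g4, g5⟩ := gC_Z2 h01 h1 (κ := κ) (x3 := x3) hb
  exact splZ_of O legZ_cn g1 g2 g3 g4 g5

end Crest.Agent.R136.Z2683
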