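import Crest.Agent.R136.Sec1_779
import Crest.Agent.R138.Qf3_926

/-!
# R136: profiles at window scale (helper779), part 1

`uniform_countable'` : 926's `uniform_countable` with the hypothesis `log₂ #I + 1 ≤ H`, `H`
sub-polynomial in the (window) base, instead of `#I ≤ d^(-C)`.
`exists_zprof_many` : countably many quasi-nested families at window scale, one dense part with a
zoomed profile (`ZProf`) of each.
-/

set_option autoImplicit false
set_option linter.unusedSectionVars false
set_option linter.unusedVariables false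

open Filter Topology

namespace Crest.Agent.R136.Zpr779

open Finset Crest.Agent.R138.Ex926

/-- **Countably many partitions** made uniform at once, with sub-polynomial loss. -/
theorem uniform_countable' (B : Base) {ι κ : ℕ → Type*} [∀ n, DecidableEq (ι n)]
    [∀ n, DecidableEq (κ n)] (I : ∀ n, Finset (ι n)) (f : ∀ n, ℕ → ι n → κ n)
    (hI : ∀ᶠ n in (U : Filter ℕ), (I n).Nonempty) {H : ℕ → ℝ} (hH : B.Sub H)
    (hcard : ∀ᶠ n in (U : Filter ℕ), (Nat.log 2 (I n).card : ℝ) + 1 ≤ H n) :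
    ∃ (I' : ∀ n, Finset (ι n)) (M : ℕ → ℕ → ℝ) (S : ℕ → ℝ) (k : ℕ → ℕ), B.Sub S ∧
      Tendsto k U atTop ∧
      ∀ᶠ n in (U : Filter ℕ), I' n ⊆ I n ∧ (I' n).Nonempty ∧
        ((I n).card : ℝ) ≤ S n * (I' n).card ∧ 1 ≤ S n ∧ ∀ j ≤ k n, 1 ≤ M n j ∧ ∀ i ∈ I' n,
          M n j ≤ (cls (I n) (f n j) i).card ∧ ((cls (I n) (f n j) i).card : ℝ) ≤ 2 * M n j ∧
          M n j ≤ S n * (cls (I' n) (f n j) i).card := by
  classical
  -- losses
  set s : ℕ → ℕ → ℝ := fun m n => (2 * ((m : ℝ) + 1) + 2) * (H n) ^ (m + 1) with hs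
  have hsub : ∀ m, B.Sub (s m) := fun m => (Base.Sub.const (by positivity)).mul (hH.pow (m + 1))
  obtain ⟨k, hk, hk'⟩ := Base.Sub.diag s hsub
  have hex : ∀ n, ∃ (I' : Finset (ι n)) (M : ℕ → ℝ), (I n).Nonempty → I' ⊆ I n ∧ I'.Nonempty ∧
      ((I n).card : ℝ) ≤ 2 * ((Nat.log 2 (I n).card : ℝ) + 1) ^ (k n + 1) * I'.card ∧
      ∀ j ≤ k n, 1 ≤ M j ∧ ∀ i ∈ I',
        M j ≤ (cls (I n) (f n j) i).card ∧ ((cls (I n) (f n j) i).card : ℝ) ≤ 2 * M j ∧
        M j ≤ 2 * ((k n : ℝ) + 1) * ((Nat.log 2 (I n).card : ℝ) + 1) ^ (k n + 1) *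
          (cls I' (f n j) i).card := by
    intro n
    by_cases h : (I n).Nonempty
    · obtain ⟨I', h1, h2, h3, M, h4, h5⟩ := uniformise_card (J := Fin (k n + 1)) (I n) h
        (fun j => f n j) (H := Nat.log 2 (I n).card) (Nat.lt_pow_succ_log_self one_lt_two _)
      rw [Fintype.card_fin] at h3 h5
      refine ⟨I', fun j => if hj : j < k n + 1 then M ⟨j, hj⟩ else 1, fun _ =>
        ⟨h1, h2, h3, fun j hj => ?_⟩⟩
      have hj' : j < k n + 1 := Nat.lt_succ_of_le hj
      simp only [dif_pos hj']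
      refine ⟨h4 _, fun i hi => ?_⟩
      have := h5 ⟨j, hj'⟩ i hi
      push_cast at this
      exact this
    · exact ⟨∅, fun _ => 1, fun h' => absurd h' h⟩
  choose I' M hIM using hex
  refine ⟨I', M, fun n => s (k n) n, k, hk' k hk (Eventually.of_forall fun n => le_rfl), hk, ?_⟩
  filter_upwards [hI, hcard] with n h1 h2
  obtain ⟨a1, a2, a3, a4⟩ := hIM n h1
  have hp : ((Nat.log 2 (I n).card : ℝ) + 1) ^ (k n + 1) ≤ (H n) ^ (k n + 1) :=
    pow_le_pow_left₀ (by positivity) h2 _
  have hp1 : (1 : ℝ) ≤ ((Nat.log 2 (I n).card : ℝ) + 1) ^ (k n + 1) :=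
    one_le_pow₀ (by have : (0:ℝ) ≤ (Nat.log 2 (I n).card : ℝ) := Nat.cast_nonneg _; linarith)
  have hk0 : (0 : ℝ) ≤ k n := Nat.cast_nonneg _
  refine ⟨a1, a2, a3.trans ?_, ?_, fun j hj => ⟨(a4 j hj).1, fun i hi => ⟨((a4 j hj).2 i hi).1,
    ((a4 j hj).2 i hi).2.1, ((a4 j hj).2 i hi).2.2.trans ?_⟩⟩⟩
  · refine mul_le_mul_of_nonneg_right ?_ (Nat.cast_nonneg _)
    rw [hs]; nlinarith
  · rw [hs]; nlinarith
  · refine mul_le_mul_of_nonneg_right ?_ (Nat.cast_nonneg _)
    rw [hs]; nlinarith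

variable {B : Base} {ι κ : ℕ → Type*} [∀ n, DecidableEq (ι n)] [∀ n, DecidableEq (κ n)] {m : ℕ}

/-- **Profiles at window scale**: countably many families at once. -/
theorem exists_zprof_many {J : Type*} [Countable J] {m : J → ℕ}
    {κ : J → ℕ → Type*} [∀ j n, DecidableEq (κ j n)] {I : ∀ n, Finset (ι n)}
    {f : ∀ j n, (Fin (m j) → ℝ) → ι n → κ j n} {K : J → ℝ} (hK : ∀ j, 0 ≤ K j)
    {P : ∀ j, Set (Fin (m j) → ℝ)} (hnet : ∀ j, SNet (P j)) (hcomp : ∀ j, IsCompact (P j))
    (hsup : ∀ j, ∀ p ∈ P j, ∀ q ∈ P j, p ⊔ q ∈ P j) {b : ∀ j, Fin (m j) → ℝ}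
    (hb : ∀ j, b j ∈ P j) (hbl : ∀ j, ∀ p ∈ P j, b j ≤ p)
    (hf : ∀ j, QFam B I (f j) (K j) (P j))
    (hI : ∀ᶠ n in (U : Filter ℕ), (I n).Nonempty) {H : ℕ → ℝ} (hH : B.Sub H)
    (hcard : ∀ᶠ n in (U : Filter ℕ), (Nat.log 2 (I n).card : ℝ) + 1 ≤ H n) :
    ∃ (I' : ∀ n, Finset (ι n)) (S : ℕ → ℝ), B.Sub S ∧
      (∀ᶠ n in (U : Filter ℕ), I' n ⊆ I n ∧ (I' n).Nonempty ∧
        ((I n).card : ℝ) ≤ S n * (I' n).card ∧ 1 ≤ S n) ∧
      ∀ j, ∃ (T : ℕ → ℝ) (lam : (Fin (m j) → ℝ) → ℝ), (∀ n, 0 < T n) ∧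
        (∀ᶠ n in (U : Filter ℕ),
          T n * (((I' n).image (f j n (b j))).card : ℝ) = (I' n).card) ∧
        ZProf B I' (f j) (P j) T lam ∧ lam (b j) = 0 ∧
        (∀ p ∈ P j, ∀ q ∈ P j, |lam p - lam q| ≤ K j * ‖p - q‖) ∧
        (∀ p ∈ P j, ∀ q ∈ P j, p ≤ q → lam q ≤ lam p) := by
  classical
  -- the countable list of partitions
  have hnet' : ∀ j (l : ℕ), ∃ G : Finset (Fin (m j) → ℝ), (∀ q ∈ G, q ∈ P j) ∧
      ∀ p ∈ P j, ∃ q ∈ G, ∃ r ∈ G, q ≤ p ∧ p ≤ r ∧ ‖r - q‖ ≤ 1 / ((l : ℝ) + 1) :=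
    fun j l => hnet j _ (by positivity)
  choose G hGP hG using hnet'
  obtain ⟨e, he⟩ := exists_surjective_nat (Option (Σ j : J, Σ l : ℕ, {g // g ∈ G j l}))
  set lab : ∀ n, ℕ → ι n → Option (Σ j : J, κ j n) := fun n a i =>
    match e a with
    | none => none
    | some x => some ⟨x.1, f x.1 n x.2.2.1 i⟩ with hlab
  obtain ⟨I', M, S, k, hS, hk, hev⟩ := uniform_countable' B I
    (κ := fun n => Option (Σ j : J, κ j n)) lab hI hH hcard
  have hbasic : ∀ᶠ n in (U : Filter ℕ), I' n ⊆ I n ∧ (I' n).Nonempty ∧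
        ((I n).card : ℝ) ≤ S n * (I' n).card ∧ 1 ≤ S n :=
    hev.mono fun n hn => ⟨hn.1, hn.2.1, hn.2.2.1, hn.2.2.2.1⟩
  refine ⟨I', S, hS, hbasic, fun j => ?_⟩
  choose idx hidx using he
  -- classes of the labels
  have hcl : ∀ n (A : Finset (ι n)) (l : ℕ) (g : {g // g ∈ G j l}) (i : ι n),
      cls A (lab n (idx (some ⟨j, l, g⟩))) i = cls A (f j n g.1) i := by
    intro n A l g i
    ext y
    rw [mem_cls, mem_cls]
    simp only [hlab, hidx]
    simp
  -- uniformity on the nets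
  have hMnet : ∀ l : ℕ, ∀ᶠ n in (U : Filter ℕ), ∀ g ∈ G j l, ∃ M : ℝ, 1 ≤ M ∧ ∀ i ∈ I' n,
      ((cls (I' n) (f j n g) i).card : ℝ) ≤ 2 * M ∧ M ≤ S n * (cls (I' n) (f j n g) i).card := by
    intro l
    have hidxk : ∀ᶠ n in (U : Filter ℕ), ∀ g ∈ (G j l).attach, idx (some ⟨j, l, g⟩) ≤ k n := by
      rw [Filter.eventually_all_finset]
      intro g _
      exact hk.eventually_ge_atTop _
    filter_upwards [hev, hidxk] with n h1 h2 g hg
    obtain ⟨hsub, -, -, -, hMM⟩ := h1
    have h3 := hMM _ (h2 ⟨g, hg⟩ (mem_attach _ _))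
    simp only [hcl] at h3
    refine ⟨_, h3.1, fun i hi => ⟨le_trans ?_ (h3.2 i hi).2.1, (h3.2 i hi).2.2⟩⟩
    exact_mod_cast card_le_card (cls_mono hsub _ _)
  have hsub : ∀ᶠ n in (U : Filter ℕ), I' n ⊆ I n := hbasic.mono fun n hn => hn.1
  have hne : ∀ᶠ n in (U : Filter ℕ), (I' n).Nonempty := hbasic.mono fun n hn => hn.2.1
  have hf' : QFam B I' (f j) (K j) (P j) := (hf j).mono hsub (Set.Subset.refl _)
  obtain ⟨N, hN, hnest⟩ := hf'.nest
  -- number of classes, log
  set lc : ℕ → (Fin (m j) → ℝ) → ℝ := fun n p => Real.log (((I' n).image (f j n p)).card) with hlc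
  set τ : ℕ → ℝ := fun n => Real.log ((I' n).card) - lc n (b j) with hτ
  -- average exponents
  set φ : ℕ → (Fin (m j) → ℝ) → ℝ := fun n p => (lc n (b j) - lc n p) / B.L n with hφ
  have hφL : ∀ n p, τ n + φ n p * B.L n = Real.log ((I' n).card) - lc n p := by
    intro n p
    rw [hφ, hτ]; simp only
    rw [div_mul_cancel₀ _ (B.L_pos n).ne']
    ring
  -- comparison of the numbers of classes
  have hcnt : ∀ ε : ℝ, 0 < ε → ∀ᶠ n in (U : Filter ℕ), ∀ p ∈ P j, ∀ q ∈ P j, p ≤ q →
      φ n q ≤ φ n p + ε ∧ φ n p ≤ φ n q + K j * ‖p - q‖ + ε := by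
    intro ε hε
    filter_upwards [hnest, hf'.child ε hε, hN.ev_le hε, hne] with
      n h1 h2 h3 h4 p hp q hq hpq
    have hL := B.L_pos n
    obtain ⟨i, hi⟩ := h4
    have hpc : (1 : ℝ) ≤ ((I' n).image (f j n p)).card := by
      have : 0 < ((I' n).image (f j n p)).card := card_pos.2 ⟨_, mem_image_of_mem _ hi⟩
      exact_mod_cast this
    have hqc : (1 : ℝ) ≤ ((I' n).image (f j n q)).card := by
      have : 0 < ((I' n).image (f j n q)).card := card_pos.2 ⟨_, mem_image_of_mem _ hi⟩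
      exact_mod_cast this
    have c1 : (((I' n).image (f j n p)).card : ℝ) ≤ N n * ((I' n).image (f j n q)).card := by
      refine card_image_le_mul _ _ _ fun x hx => ?_
      refine le_trans ?_ (h1 p hp q hq hpq x hx)
      exact_mod_cast card_le_card (image_subset_image (cls_sub_two _ _ hx))
    have c2 : (((I' n).image (f j n q)).card : ℝ) ≤
        B.d n ^ (-(K j * ‖q - p‖ + ε)) * ((I' n).image (f j n p)).card :=
      card_image_le_mul _ _ _ fun x hx => h2 p hp q hq hpq x hx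
    have hdp := Real.rpow_pos_of_pos (B.pos n) (-(K j * ‖q - p‖ + ε))
    have l1 := Real.log_le_log (by linarith) c1
    have l2 := Real.log_le_log (by linarith) c2
    rw [Real.log_mul h3.1.ne' (by linarith)] at l1
    rw [Real.log_mul hdp.ne' (by linarith), Real.log_rpow (B.pos n), B.log_d] at l2
    rw [norm_sub_rev p q]
    constructor
    · rw [hφ]; simp only [hlc]
      rw [div_le_iff₀ hL, add_mul, div_mul_cancel₀ _ hL.ne']
      linarith [h3.2]
    · rw [hφ]; simp only [hlc]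
      rw [div_le_iff₀ hL, add_mul, add_mul, div_mul_cancel₀ _ hL.ne']
      linarith
  have key : ∀ ε : ℝ, 0 < ε → ∀ᶠ n in (U : Filter ℕ), ∀ p ∈ P j, ∀ q ∈ P j,
      φ n p ≤ φ n q + K j * ‖p - q‖ + ε := by
    intro ε hε
    filter_upwards [hcnt (ε / 2) (by positivity)] with n h1 p hp q hq
    have hr := hsup j p hp q hq
    have e1 := (h1 p hp _ hr le_sup_left).2
    have e2 := (h1 q hq _ hr le_sup_right).1
    have e3 : ‖p - p ⊔ q‖ ≤ ‖p - q‖ := by
      refine (pi_norm_le_iff_of_nonneg (norm_nonneg _)).2 fun a => ?_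
      have h6 := norm_le_pi_norm (p - q) a
      rw [Pi.sub_apply, Real.norm_eq_abs] at h6 ⊢
      refine le_trans ?_ h6
      rw [Pi.sup_apply]
      rcases le_total (p a) (q a) with h7 | h7
      · rw [sup_eq_right.2 h7]
      · rw [sup_eq_left.2 h7, sub_self, abs_zero]; exact abs_nonneg _
    have e4 := mul_le_mul_of_nonneg_left e3 (hK j)
    linarith
  have halip : ALip (P j) (K j) φ := by
    intro ε hε
    filter_upwards [key ε hε] with n hn p hp q hq
    have e1 := hn p hp q hq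
    have e2 := hn q hq p hp
    rw [norm_sub_rev] at e2
    rw [abs_le, dist_eq_norm]
    constructor <;> linarith
  have hφb : ∀ n, φ n (b j) = 0 := fun n => by rw [hφ]; simp
  have hbd : ∀ p ∈ P j, ∀ᶠ n in (U : Filter ℕ), |φ n p| ≤ K j * ‖p - b j‖ + 1 := by
    intro p hp
    filter_upwards [hcnt 1 one_pos] with n h1
    obtain ⟨e1, e2⟩ := h1 _ (hb j) p hp (hbl j p hp)
    rw [hφb] at e1 e2
    rw [norm_sub_rev] at e2
    have := mul_nonneg (hK j) (norm_nonneg (p - b j))
    rw [abs_le]; constructor <;> linarith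
  have hlim : ∀ p, ∃ y, p ∈ P j → Tendsto (fun n => φ n p) U (𝓝 y) := fun p => by
    by_cases hp : p ∈ P j
    · obtain ⟨y, hy, -⟩ := exists_tendsto (hbd p hp)
      exact ⟨y, fun _ => hy⟩
    · exact ⟨0, fun h => absurd h hp⟩
  choose ν hν using hlim
  have hunif : ∀ ε : ℝ, 0 < ε → ∀ᶠ n in (U : Filter ℕ), ∀ p ∈ P j, |φ n p - ν p| ≤ ε :=
    fun ε hε => unif_of_lip (hcomp j) (hK j) halip (fun p hp => hν p hp) hε
  have hlip := halip.limit (fun p hp => hν p hp)
  have hanti : ∀ p ∈ P j, ∀ q ∈ P j, p ≤ q → ν q ≤ ν p := by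
    intro p hp q hq hpq
    refine le_of_forall_pos_le_add fun ε hε => ?_
    have h1 : Tendsto (fun n => φ n p + ε) U (𝓝 (ν p + ε)) := (hν p hp).add_const ε
    refine le_of_tendsto_of_tendsto (hν q hq) h1 ?_
    filter_upwards [hcnt ε hε] with n hn
    exact (hn p hp q hq hpq).1
  have hνb : ν (b j) = 0 := by
    refine tendsto_nhds_unique (hν _ (hb j)) ?_
    simp only [hφb]
    exact tendsto_const_nhds
  -- net level for a given precision
  have hlev : ∀ ε : ℝ, 0 < ε → ∃ l : ℕ, K j * (1 / ((l : ℝ) + 1)) ≤ ε := by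
    intro ε hε
    obtain ⟨N, hN⟩ := exists_nat_gt (K j / ε)
    refine ⟨N, ?_⟩
    rw [div_lt_iff₀ hε] at hN
    rw [mul_one_div, div_le_iff₀ (by positivity)]
    nlinarith
  -- uniform statement on the nets
  have hnetφ : ∀ l : ℕ, ∀ ε : ℝ, 0 < ε → ∀ᶠ n in (U : Filter ℕ), ∀ g ∈ G j l, ∀ i ∈ I' n,
      Real.log ((cls (I' n) (f j n g) i).card) ≤ τ n + (φ n g + ε) * B.L n ∧
      τ n + (φ n g - ε) * B.L n ≤ Real.log ((cls (I' n) (f j n g) i).card) := by
    intro l ε hε
    filter_upwards [hMnet l, hS.ev_le (ε := ε / 2) (by positivity),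
      B.ev_const_log (Real.log 2) (ε := ε / 2) (by positivity), hbasic] with n h1 h2 h3 h4 g hg i hi
    obtain ⟨M, hM1, hM⟩ := h1 g hg
    have hL := B.L_pos n
    have hSn := h2.1
    have hcI : (1 : ℝ) ≤ ((I' n).image (f j n g)).card := by
      have : 0 < ((I' n).image (f j n g)).card := card_pos.2 ⟨_, mem_image_of_mem _ hi⟩
      exact_mod_cast this
    have hI1 : (1 : ℝ) ≤ (I' n).card := by
      have : 0 < (I' n).card := card_pos.2 ⟨_, hi⟩
      exact_mod_cast this
    have hci : (1 : ℝ) ≤ (cls (I' n) (f j n g) i).card := cls_card_pos hi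
    -- `|I'| ≤ 2 M #classes`
    have c1 : ((I' n).card : ℝ) ≤ 2 * M * ((I' n).image (f j n g)).card := by
      have := le_count_mul (I' n) (fun _ => (1 : ℝ)) (f j n g) (m := 2 * M) (fun x hx => by
        rw [sum_const, nsmul_eq_mul, mul_one]; exact (hM x hx).1)
      rwa [sum_const, nsmul_eq_mul, mul_one] at this
    -- `(M / S) #classes ≤ |I'|`
    have c2 : M / S n * ((I' n).image (f j n g)).card ≤ (I' n).card := by
      have := count_mul_le (I' n) (fun _ => (1 : ℝ)) (fun _ _ => zero_le_one) (f j n g)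
        (m := M / S n) (fun x hx => by
          rw [sum_const, nsmul_eq_mul, mul_one, div_le_iff₀ hSn, mul_comm]; exact (hM x hx).2)
      rwa [sum_const, nsmul_eq_mul, mul_one] at this
    have l1 := Real.log_le_log (by linarith) c1
    rw [Real.log_mul (by positivity) (by linarith), Real.log_mul (by norm_num) (by linarith)] at l1
    have l2 := Real.log_le_log (by positivity) c2
    rw [Real.log_mul (by positivity) (by linarith), Real.log_div (by linarith) hSn.ne'] at l2
    have l3 := Real.log_le_log (by linarith) (hM i hi).1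
    rw [Real.log_mul (by norm_num) (by linarith)] at l3
    have l4 := Real.log_le_log (by linarith) (hM i hi).2
    rw [Real.log_mul hSn.ne' (by linarith)] at l4
    have hφL' := hφL n g
    simp only [hlc] at hφL'
    have hS2 := h2.2
    constructor
    · rw [add_mul, ← add_assoc, hφL']; linarith
    · rw [sub_mul, ← add_sub_assoc, hφL']; linarith
  have hup : ∀ ε : ℝ, 0 < ε → ∀ᶠ n in (U : Filter ℕ), ∀ p ∈ P j, ∀ i ∈ I' n,
      Real.log ((cls (I' n) (f j n p) i).card) ≤ τ n + (ν p + ε) * B.L n := by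
    intro ε hε
    obtain ⟨l, hl⟩ := hlev (ε / 4) (by positivity)
    filter_upwards [hnetφ l (ε / 4) (by positivity), hunif (ε / 4) (by positivity), hnest,
      hN.ev_le (ε := ε / 4) (by positivity)] with n h1 h2 h3 h4 p hp i hi
    obtain ⟨q, hq, r, hr, hqp, hpr, hqr⟩ := hG j l p hp
    have hqP := hGP j l q hq
    have hL := B.L_pos n
    have hci : (1 : ℝ) ≤ (cls (I' n) (f j n p) i).card := cls_card_pos hi
    have c1 : ((cls (I' n) (f j n p) i).card : ℝ) ≤
        Real.exp (τ n + (φ n q + ε / 4) * B.L n) * N n := by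
      have := le_count_mul (cls (I' n) (f j n p) i) (fun _ => (1 : ℝ)) (f j n q)
        (m := Real.exp (τ n + (φ n q + ε / 4) * B.L n)) (fun x hx => by
          rw [sum_const, nsmul_eq_mul, mul_one]
          have x1 := (mem_cls.1 hx).1
          have e1 : ((cls (cls (I' n) (f j n p) i) (f j n q) x).card : ℝ) ≤
              (cls (I' n) (f j n q) x).card := by
            exact_mod_cast card_le_card (cls_mono (cls_subset _ _ _) _ _)
          refine e1.trans ?_
          rw [← Real.log_le_iff_le_exp (by linarith [cls_card_pos (f := f j n q) x1])]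
          exact (h1 q hq x x1).1)
      rw [sum_const, nsmul_eq_mul, mul_one] at this
      refine this.trans (mul_le_mul_of_nonneg_left ?_ (Real.exp_pos _).le)
      refine le_trans ?_ (h3 q hqP p hp hqp i hi)
      exact_mod_cast card_le_card (image_subset_image (cls_sub_two _ _ hi))
    have l1 := Real.log_le_log (by linarith) c1
    rw [Real.log_mul (Real.exp_pos _).ne' h4.1.ne', Real.log_exp] at l1
    have e1 := (abs_le.1 (h2 q hqP)).2
    have e2 : ν q ≤ ν p + ε / 4 := by
      have h5 := (abs_le.1 (hlip q hqP p hp)).2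
      have h6 : dist q p ≤ 1 / ((l : ℝ) + 1) := by
        rw [dist_eq_norm]
        refine le_trans ?_ hqr
        refine (pi_norm_le_iff_of_nonneg (norm_nonneg _)).2 fun a => ?_
        have h7 := norm_le_pi_norm (r - q) a
        rw [Pi.sub_apply, Real.norm_eq_abs] at h7 ⊢
        refine le_trans ?_ h7
        rw [abs_sub_comm, abs_of_nonneg (by linarith [hqp a]),
          abs_of_nonneg (by linarith [hqp a, hpr a])]
        linarith [hpr a]
      have h8 := mul_le_mul_of_nonneg_left h6 (hK j)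
      linarith
    have e3 : (φ n q + ε / 4) * B.L n ≤ (ν p + 3 * (ε / 4)) * B.L n :=
      mul_le_mul_of_nonneg_right (by linarith) hL.le
    have := h4.2
    nlinarith
  have hnum : ∀ ε : ℝ, 0 < ε → ∀ᶠ n in (U : Filter ℕ), ∀ q ∈ P j, ∀ p ∈ P j, q ≤ p →
      ∀ i ∈ I' n, Real.log (((cls (I' n) (f j n q) i).image (f j n p)).card) ≤
        (ν q - ν p + ε) * B.L n := by
    intro ε hε
    obtain ⟨l, hl⟩ := hlev (ε / 8) (by positivity)
    filter_upwards [hnetφ l (ε / 8) (by positivity), hunif (ε / 8) (by positivity), hnest,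
      hN.ev_le (ε := ε / 8) (by positivity), hup (ε / 8) (by positivity)] with
      n h1 h2 h3 h4 h5 q hq p hp hqp i hi
    obtain ⟨q₀, hq₀, r, hr, hqp₀, hpr, hqr⟩ := hG j l p hp
    have hrP := hGP j l r hr
    have hL := B.L_pos n
    set A := cls (I' n) (f j n q) i with hA
    have hiA : i ∈ A := self_mem_cls hi
    have himg : (1 : ℝ) ≤ ((A.image (f j n p)).card : ℝ) := by
      have : 0 < (A.image (f j n p)).card := card_pos.2 ⟨_, mem_image_of_mem _ hiA⟩
      exact_mod_cast this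
    -- `#p-classes ≤ N #r-classes`
    have c1 : ((A.image (f j n p)).card : ℝ) ≤ N n * (A.image (f j n r)).card := by
      refine card_image_le_mul _ _ _ fun x hx => ?_
      have x1 := (mem_cls.1 hx).1
      refine le_trans ?_ (h3 p hp r hrP hpr x x1)
      exact_mod_cast card_le_card (image_subset_image
        ((cls_mono (cls_subset _ _ _) _ _).trans (cls_sub_two _ _ x1)))
    -- the union of the `r`-classes meeting `A`
    set W := two (I' n) (f j n q) (f j n r) i with hW
    have hAW : A ⊆ W := cls_sub_two' _ _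
    have hqr' : q ≤ r := hqp.trans hpr
    have c2 : Real.exp (τ n + (φ n r - ε / 8) * B.L n) * ((A.image (f j n r)).card : ℝ) ≤
        W.card := by
      have h6 : (A.image (f j n r)).card ≤ (W.image (f j n r)).card :=
        card_le_card (image_subset_image hAW)
      have := count_mul_le W (fun _ => (1 : ℝ)) (fun _ _ => zero_le_one) (f j n r)
        (m := Real.exp (τ n + (φ n r - ε / 8) * B.L n)) (fun x hx => by
          rw [sum_const, nsmul_eq_mul, mul_one]
          obtain ⟨x1, y, y1, y2, y3⟩ := mem_two.1 hx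
          have e1 : cls W (f j n r) x = cls (I' n) (f j n r) x := by
            ext z
            constructor
            · intro hz
              obtain ⟨z1, z2⟩ := mem_cls.1 hz
              exact mem_cls.2 ⟨(mem_two.1 z1).1, z2⟩
            · intro hz
              obtain ⟨z1, z2⟩ := mem_cls.1 hz
              exact mem_cls.2 ⟨mem_two.2 ⟨z1, y, y1, y2, z2.trans y3⟩, z2⟩
          rw [e1, ← Real.le_log_iff_exp_le (by linarith [cls_card_pos (f := f j n r) x1])]
          exact (h1 r hr x x1).2)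
      rw [sum_const, nsmul_eq_mul, mul_one] at this
      refine le_trans (mul_le_mul_of_nonneg_left ?_ (Real.exp_pos _).le) this
      exact_mod_cast h6
    have c3 : (W.card : ℝ) ≤ Real.exp (τ n + (ν q + ε / 8) * B.L n) * N n := by
      have := le_count_mul W (fun _ => (1 : ℝ)) (f j n q)
        (m := Real.exp (τ n + (ν q + ε / 8) * B.L n)) (fun x hx => by
          rw [sum_const, nsmul_eq_mul, mul_one]
          have x1 := (mem_two.1 hx).1
          have e1 : ((cls W (f j n q) x).card : ℝ) ≤ (cls (I' n) (f j n q) x).card := by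
            exact_mod_cast card_le_card (cls_mono (filter_subset _ _) _ _)
          refine e1.trans ?_
          rw [← Real.log_le_iff_le_exp (by linarith [cls_card_pos (f := f j n q) x1])]
          exact h5 q hq x x1)
      rw [sum_const, nsmul_eq_mul, mul_one] at this
      exact this.trans (mul_le_mul_of_nonneg_left (h3 q hq r hrP hqr' i hi) (Real.exp_pos _).le)
    have himr : (1 : ℝ) ≤ ((A.image (f j n r)).card : ℝ) := by
      have : 0 < (A.image (f j n r)).card := card_pos.2 ⟨_, mem_image_of_mem _ hiA⟩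
      exact_mod_cast this
    have l1 := Real.log_le_log (by linarith) c1
    rw [Real.log_mul h4.1.ne' (by linarith)] at l1
    have l2 := Real.log_le_log (by positivity) (c2.trans c3)
    rw [Real.log_mul (Real.exp_pos _).ne' (by linarith), Real.log_exp,
      Real.log_mul (Real.exp_pos _).ne' h4.1.ne', Real.log_exp] at l2
    have e1 := (abs_le.1 (h2 r hrP)).1
    have e2 : ν p ≤ ν r + ε / 8 := by
      have h6 := (abs_le.1 (hlip p hp r hrP)).2
      have h7 : dist p r ≤ 1 / ((l : ℝ) + 1) := by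
        rw [dist_eq_norm]
        refine le_trans ?_ hqr
        refine (pi_norm_le_iff_of_nonneg (norm_nonneg _)).2 fun a => ?_
        have h7 := norm_le_pi_norm (r - q₀) a
        rw [Pi.sub_apply, Real.norm_eq_abs] at h7 ⊢
        refine le_trans ?_ h7
        rw [abs_sub_comm, abs_of_nonneg (by linarith [hpr a]),
          abs_of_nonneg (by linarith [hqp₀ a, hpr a])]
        linarith [hqp₀ a]
      have h8 := mul_le_mul_of_nonneg_left h7 (hK j)
      linarith
    have e3 : (ν p - 3 * (ε / 8)) * B.L n ≤ (φ n r - ε / 8) * B.L n :=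
      mul_le_mul_of_nonneg_right (by linarith) hL.le
    have := h4.2
    nlinarith
  have hroot : ∀ ε : ℝ, 0 < ε → ∀ᶠ n in (U : Filter ℕ), ∀ p ∈ P j,
      lc n p + τ n ≤ Real.log ((I' n).card) + (-(ν p - ε)) * B.L n := by
    intro ε hε
    filter_upwards [hunif ε hε] with n h1 p hp
    have e1 := (abs_le.1 (h1 p hp)).1
    have hL := B.L_pos n
    have e2 : (ν p - ε) * B.L n ≤ φ n p * B.L n := mul_le_mul_of_nonneg_right (by linarith) hL.le
    linarith [hφL n p]
  -- normalisation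
  have hexpτ : ∀ n, ∀ t : ℝ, Real.exp (τ n + t * B.L n) = Real.exp (τ n) * B.d n ^ (-t) := by
    intro n t
    rw [Real.exp_add, B.exp_eq]
  refine ⟨fun n => Real.exp (τ n), ν, fun n => Real.exp_pos _, ?_,
    ⟨fun _ ε hε => ?_, fun _ ε hε => ?_, fun _ ε hε => ?_⟩, hνb, fun p hp q hq => ?_, hanti⟩
  · filter_upwards [hne] with n h2
    obtain ⟨i, hi⟩ := h2
    have h3 : (1 : ℝ) ≤ (((I' n).image (f j n (b j))).card : ℝ) := by
      have : 0 < ((I' n).image (f j n (b j))).card := card_pos.2 ⟨_, mem_image_of_mem _ hi⟩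
      exact_mod_cast this
    have h4 : (1 : ℝ) ≤ (I' n).card := by
      have : 0 < (I' n).card := card_pos.2 ⟨_, hi⟩
      exact_mod_cast this
    simp only [hτ, hlc]
    rw [Real.exp_sub, Real.exp_log (by linarith), Real.exp_log (by linarith)]
    field_simp
  · filter_upwards [hup ε hε] with n h1 p hp _ i hi
    rw [← hexpτ, ← Real.log_le_iff_le_exp (by linarith [cls_card_pos (f := f j n p) hi])]
    exact h1 p hp i hi
  · filter_upwards [hnum ε hε] with n h1 q hq _ p hp _ hqp i hi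
    have : (1 : ℝ) ≤ (((cls (I' n) (f j n q) i).image (f j n p)).card : ℝ) := by
      have : 0 < ((cls (I' n) (f j n q) i).image (f j n p)).card :=
        card_pos.2 ⟨_, mem_image_of_mem _ (self_mem_cls hi)⟩
      exact_mod_cast this
    rw [← B.exp_eq, ← Real.log_le_iff_le_exp (by linarith)]
    exact h1 q hq p hp hqp i hi
  · filter_upwards [hroot ε hε, hne] with n h1 h2 p hp _
    obtain ⟨i, hi⟩ := h2
    have h3 : (1 : ℝ) ≤ (((I' n).image (f j n p)).card : ℝ) := by
      have : 0 < ((I' n).image (f j n p)).card := card_pos.2 ⟨_, mem_image_of_mem _ hi⟩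
      exact_mod_cast this
    have h4 : (1 : ℝ) ≤ (I' n).card := by
      have : 0 < (I' n).card := card_pos.2 ⟨_, hi⟩
      exact_mod_cast this
    have e := h1 p hp
    simp only [hlc] at e
    have h5 : B.d n ^ (ν p - ε) = Real.exp (-(ν p - ε) * B.L n) := by
      rw [B.exp_eq, neg_neg]
    rw [h5, ← Real.exp_log (show (0:ℝ) < (((I' n).image (f j n p)).card : ℝ) by linarith),
      ← Real.exp_log (show (0:ℝ) < ((I' n).card : ℝ) by linarith), ← Real.exp_add, ← Real.exp_add]
    exact Real.exp_le_exp.2 e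
  · have := hlip p hp q hq
    rwa [dist_eq_norm] at this

end Crest.Agent.R136.Zpr779
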