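import Crest.Agent.R136.Zpr1_779

/-!
# R136: profiles at window scale (helper779), part 2: normalised profiles `TProf`

`TProf B I f P T ν` : class sizes `T n * d ^ (-ν p)`; `T = 1` is `QProf`, bounded `P` is `ZProf`.
`TProf.le_of_image` (comparison), `submod`, `own_le`, `refine`, `congrT`, `shift`.
-/

set_option autoImplicit false
set_option linter.unusedSectionVars false
set_option linter.unusedVariables false

open Filter Topology

namespace Crest.Agent.R136.Zpr779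

open Finset Crest.Agent.R138.Ex926

/-- **normalised profile** -/
structure TProf (B : Base) {ι κ : ℕ → Type*} [∀ n, DecidableEq (ι n)] [∀ n, DecidableEq (κ n)]
    {V : Type*} [LE V] (I : ∀ n, Finset (ι n)) (f : ∀ n, V → ι n → κ n) (P : Set V)
    (T : ℕ → ℝ) (ν : V → ℝ) : Prop where
  pos : ∀ n, 0 < T n
  up : ∀ ε : ℝ, 0 < ε → ∀ᶠ n in (U : Filter ℕ), ∀ p ∈ P, ∀ i ∈ I n,
    ((cls (I n) (f n p) i).card : ℝ) ≤ T n * B.d n ^ (-(ν p + ε))
  num : ∀ ε : ℝ, 0 < ε → ∀ᶠ n in (U : Filter ℕ), ∀ q ∈ P, ∀ p ∈ P, q ≤ p → ∀ i ∈ I n,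
    (((cls (I n) (f n q) i).image (f n p)).card : ℝ) ≤ B.d n ^ (-(ν q - ν p + ε))
  root : ∀ ε : ℝ, 0 < ε → ∀ᶠ n in (U : Filter ℕ), ∀ p ∈ P,
    (((I n).image (f n p)).card : ℝ) * T n ≤ (I n).card * B.d n ^ (ν p - ε)

section

variable {B : Base} {ι κ κ' : ℕ → Type*} [∀ n, DecidableEq (ι n)] [∀ n, DecidableEq (κ n)]
  [∀ n, DecidableEq (κ' n)] {V V' : Type*} [LE V] [LE V'] {I I' : ∀ n, Finset (ι n)}
  {f : ∀ n, V → ι n → κ n} {f' : ∀ n, V' → ι n → κ' n} {P : Set V} {P' : Set V'} {T T' : ℕ → ℝ}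
  {ν : V → ℝ} {ν' : V' → ℝ}

theorem TProf.ofQ (h : QProf B I f P ν) : TProf B I f P (fun _ => 1) ν where
  pos := fun _ => one_pos
  up := fun ε hε => (h.up ε hε).mono fun n hn p hp i hi => by rw [one_mul]; exact hn p hp i hi
  num := h.num
  root := fun ε hε => (h.root ε hε).mono fun n hn p hp => by rw [mul_one]; exact hn p hp

theorem TProf.ofZ {V : Type*} [LE V] [Norm V] {f : ∀ n, V → ι n → κ n} {P D : Set V} {ν : V → ℝ}
    (h : ZProf B I f D T ν) (hT : ∀ n, 0 < T n) (hP : P ⊆ D) {R : ℝ} (hR : ∀ p ∈ P, ‖p‖ ≤ R) :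
    TProf B I f P T ν where
  pos := hT
  up := fun ε hε => (h.up R ε hε).mono fun n hn p hp i hi => hn p (hP hp) (hR p hp) i hi
  num := fun ε hε => (h.num R ε hε).mono fun n hn q hq p hp hqp i hi =>
    hn q (hP hq) (hR q hq) p (hP hp) (hR p hp) hqp i hi
  root := fun ε hε => (h.root R ε hε).mono fun n hn p hp => hn p (hP hp) (hR p hp)

theorem TProf.toZ {V : Type*} [LE V] [Norm V] {f : ∀ n, V → ι n → κ n} {P : Set V} {ν : V → ℝ}
    (h : TProf B I f P T ν) : ZProf B I f P T ν where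
  up := fun _ ε hε => (h.up ε hε).mono fun n hn p hp _ i hi => hn p hp i hi
  num := fun _ ε hε => (h.num ε hε).mono fun n hn q hq _ p hp _ hqp i hi =>
    hn q hq p hp hqp i hi
  root := fun _ ε hε => (h.root ε hε).mono fun n hn p hp _ => hn p hp

theorem TProf.mono {P₁ : Set V} (h : TProf B I f P T ν) (hP : P₁ ⊆ P) : TProf B I f P₁ T ν where
  pos := h.pos
  up := fun ε hε => (h.up ε hε).mono fun n hn p hp i hi => hn p (hP hp) i hi
  num := fun ε hε => (h.num ε hε).mono fun n hn q hq p hp hqp i hi =>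
    hn q (hP hq) p (hP hp) hqp i hi
  root := fun ε hε => (h.root ε hε).mono fun n hn p hp => hn p (hP hp)

theorem TProf.congr {ν₁ : V → ℝ} (h : TProf B I f P T ν) (he : ∀ p ∈ P, ν₁ p = ν p) :
    TProf B I f P T ν₁ where
  pos := h.pos
  up := fun ε hε => (h.up ε hε).mono fun n hn p hp i hi => by rw [he p hp]; exact hn p hp i hi
  num := fun ε hε => (h.num ε hε).mono fun n hn q hq p hp hqp i hi => by
    rw [he p hp, he q hq]; exact hn q hq p hp hqp i hi
  root := fun ε hε => (h.root ε hε).mono fun n hn p hp => by rw [he p hp]; exact hn p hp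

/-- other normalisation, same exponents -/
theorem TProf.congrT (h : TProf B I f P T ν) (hT' : ∀ n, 0 < T' n)
    (h1 : ∀ ε : ℝ, 0 < ε → ∀ᶠ n in (U : Filter ℕ), T n ≤ T' n * B.d n ^ (-ε))
    (h2 : ∀ ε : ℝ, 0 < ε → ∀ᶠ n in (U : Filter ℕ), T' n ≤ T n * B.d n ^ (-ε)) :
    TProf B I f P T' ν where
  pos := hT'
  up := fun ε hε => by
    filter_upwards [h.up (ε / 2) (by positivity), h1 (ε / 2) (by positivity)] with n a b p hp i hi
    have hd : ∀ t : ℝ, 0 < B.d n ^ t := fun t => Real.rpow_pos_of_pos (B.pos n) t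
    calc _ ≤ T n * B.d n ^ (-(ν p + ε / 2)) := a p hp i hi
      _ ≤ (T' n * B.d n ^ (-(ε / 2))) * B.d n ^ (-(ν p + ε / 2)) :=
          mul_le_mul_of_nonneg_right b (hd _).le
      _ = _ := by rw [mul_assoc, ← Real.rpow_add (B.pos n)]; congr 2; ring
  num := h.num
  root := fun ε hε => by
    filter_upwards [h.root (ε / 2) (by positivity), h2 (ε / 2) (by positivity)] with n a b p hp
    have hd : ∀ t : ℝ, 0 < B.d n ^ t := fun t => Real.rpow_pos_of_pos (B.pos n) t
    calc _ ≤ (((I n).image (f n p)).card : ℝ) * (T n * B.d n ^ (-(ε / 2))) :=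
          mul_le_mul_of_nonneg_left b (Nat.cast_nonneg _)
      _ = ((((I n).image (f n p)).card : ℝ) * T n) * B.d n ^ (-(ε / 2)) := by ring
      _ ≤ ((I n).card * B.d n ^ (ν p - ε / 2)) * B.d n ^ (-(ε / 2)) :=
          mul_le_mul_of_nonneg_right (a p hp) (hd _).le
      _ = _ := by rw [mul_assoc, ← Real.rpow_add (B.pos n)]; congr 2; ring

/-- shift of the normalisation -/
theorem TProf.shift (h : TProf B I f P T ν) (a : ℝ) :
    TProf B I f P (fun n => T n * B.d n ^ a) (fun p => ν p + a) where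
  pos := fun n => mul_pos (h.pos n) (Real.rpow_pos_of_pos (B.pos n) _)
  up := fun ε hε => (h.up ε hε).mono fun n hn p hp i hi => by
    refine (hn p hp i hi).trans (le_of_eq ?_)
    rw [mul_assoc, ← Real.rpow_add (B.pos n)]; congr 2; ring
  num := fun ε hε => (h.num ε hε).mono fun n hn q hq p hp hqp i hi => by
    refine (hn q hq p hp hqp i hi).trans (le_of_eq ?_)
    congr 1; ring
  root := fun ε hε => (h.root ε hε).mono fun n hn p hp => by
    have hd : ∀ t : ℝ, 0 < B.d n ^ t := fun t => Real.rpow_pos_of_pos (B.pos n) t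
    calc _ = ((((I n).image (f n p)).card : ℝ) * T n) * B.d n ^ a := by ring
      _ ≤ ((I n).card * B.d n ^ (ν p - ε)) * B.d n ^ a :=
          mul_le_mul_of_nonneg_right (hn p hp) (hd _).le
      _ = _ := by rw [mul_assoc, ← Real.rpow_add (B.pos n)]; congr 2; ring

/-- a dense subset has the same profile (loss `d^(-ε)` for every `ε`) -/
theorem TProf.refine (h : TProf B I f P T ν) (hsub : ∀ᶠ n in (U : Filter ℕ), I' n ⊆ I n)
    (hd : ∀ ε : ℝ, 0 < ε → ∀ᶠ n in (U : Filter ℕ),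
      ((I n).card : ℝ) ≤ B.d n ^ (-ε) * (I' n).card) : TProf B I' f P T ν where
  pos := h.pos
  up := fun ε hε => by
    filter_upwards [h.up ε hε, hsub] with n h1 h2 p hp i hi
    refine le_trans ?_ (h1 p hp i (h2 hi))
    exact_mod_cast card_le_card (cls_mono h2 _ _)
  num := fun ε hε => by
    filter_upwards [h.num ε hε, hsub] with n h1 h2 q hq p hp hqp i hi
    refine le_trans ?_ (h1 q hq p hp hqp i (h2 hi))
    exact_mod_cast card_le_card (image_subset_image (cls_mono h2 _ _))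
  root := fun ε hε => by
    filter_upwards [h.root (ε / 2) (by positivity), hsub, hd (ε / 2) (by positivity)] with
      n h1 h2 h3 p hp
    have e0 : ∀ t : ℝ, 0 < B.d n ^ t := fun t => Real.rpow_pos_of_pos (B.pos n) t
    calc (((I' n).image (f n p)).card : ℝ) * T n ≤ (((I n).image (f n p)).card : ℝ) * T n := by
          refine mul_le_mul_of_nonneg_right ?_ (h.pos n).le
          exact_mod_cast card_le_card (image_subset_image h2)
      _ ≤ (I n).card * B.d n ^ (ν p - ε / 2) := h1 p hp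
      _ ≤ (B.d n ^ (-(ε / 2)) * (I' n).card) * B.d n ^ (ν p - ε / 2) :=
          mul_le_mul_of_nonneg_right h3 (e0 _).le
      _ = (I' n).card * (B.d n ^ (-(ε / 2)) * B.d n ^ (ν p - ε / 2)) := by ring
      _ = (I' n).card * B.d n ^ (ν p - ε) := by
          rw [← Real.rpow_add (B.pos n)]; congr 2; ring

/-- some class is as big as the profile says -/
theorem TProf.ev_big (h : TProf B I f P T ν) (hne : ∀ᶠ n in (U : Filter ℕ), (I n).Nonempty)
    {ε : ℝ} (hε : 0 < ε) : ∀ᶠ n in (U : Filter ℕ), ∀ p ∈ P, ∃ i ∈ I n,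
      T n * B.d n ^ (-(ν p - ε)) ≤ ((cls (I n) (f n p) i).card : ℝ) := by
  filter_upwards [h.root ε hε, hne] with n h1 h2 p hp
  by_contra hcon
  push Not at hcon
  obtain ⟨i₀, hi₀⟩ := h2
  have h3 := h1 p hp
  have hd : ∀ t : ℝ, 0 < B.d n ^ t := fun t => Real.rpow_pos_of_pos (B.pos n) t
  have h5 := card_eq_sum_card_image (f n p) (I n)
  have hI : ((I n).card : ℝ) < ((I n).image (f n p)).card * (T n * B.d n ^ (-(ν p - ε))) := by
    have h6 : ((I n).card : ℝ) =
        ∑ b ∈ (I n).image (f n p), (((I n).filter fun x => f n p x = b).card : ℝ) := by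
      exact_mod_cast h5
    rw [h6, ← nsmul_eq_mul, ← sum_const]
    refine sum_lt_sum_of_nonempty ⟨_, mem_image_of_mem _ hi₀⟩ fun b hb => ?_
    obtain ⟨x, hx, rfl⟩ := mem_image.1 hb
    exact hcon x hx
  have h8 : (((I n).image (f n p)).card : ℝ) * (T n * B.d n ^ (-(ν p - ε))) ≤ (I n).card := by
    calc _ = ((((I n).image (f n p)).card : ℝ) * T n) * B.d n ^ (-(ν p - ε)) := by ring
      _ ≤ ((I n).card * B.d n ^ (ν p - ε)) * B.d n ^ (-(ν p - ε)) :=
          mul_le_mul_of_nonneg_right h3 (hd _).le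
      _ = (I n).card := by
          rw [mul_assoc, ← Real.rpow_add (B.pos n), add_neg_cancel, Real.rpow_zero, mul_one]
  linarith

theorem le_of_rpow (B : Base) {n : ℕ} {a : ℝ} (h : 1 ≤ B.d n ^ a) : a ≤ 0 := by
  by_contra hc
  push Not at hc
  exact absurd (Real.rpow_lt_one (B.pos n).le (B.lt n) hc) (not_lt.2 h)

/-- **comparison of two profiles of one family** -/
theorem TProf.le_of_image (hν : TProf B I f P T ν) (hν' : TProf B I f' P' T' ν')
    (hne : ∀ᶠ n in (U : Filter ℕ), (I n).Nonempty) {p : V} {p' : V'} (hp : p ∈ P) (hp' : p' ∈ P')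
    {a c : ℝ}
    (hT : ∀ ε : ℝ, 0 < ε → ∀ᶠ n in (U : Filter ℕ), T' n ≤ T n * B.d n ^ (-(c + ε)))
    (hm : ∀ ε : ℝ, 0 < ε → ∀ᶠ n in (U : Filter ℕ), ∀ i ∈ I n,
      (((cls (I n) (f n p) i).image (f' n p')).card : ℝ) ≤ B.d n ^ (-(a + ε))) :
    ν p ≤ ν' p' + a + c := by
  classical
  refine le_of_forall_pos_le_add fun ε hε => ?_
  have hε4 : 0 < ε / 4 := by positivity
  obtain ⟨n, h1, h2, h3, h4, h5⟩ := (((hm _ hε4).and ((hν.root _ hε4).and
    ((hν'.up _ hε4).and (hne.and (hT _ hε4))))).exists)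
  have hd : ∀ t : ℝ, 0 < B.d n ^ t := fun t => Real.rpow_pos_of_pos (B.pos n) t
  have hJ : (0 : ℝ) < (I n).card := by exact_mod_cast card_pos.2 h4
  have hTn := hν.pos n
  have c1 : ((I n).card : ℝ) ≤
      (T' n * B.d n ^ (-(ν' p' + ε / 4))) * ((I n).image (f' n p')).card := by
    have := le_count_mul (I n) (fun _ => (1 : ℝ)) (f' n p')
      (m := T' n * B.d n ^ (-(ν' p' + ε / 4)))
      (fun x hx => by
        rw [sum_const, nsmul_eq_mul, mul_one]
        exact h3 p' hp' x hx)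
    rwa [sum_const, nsmul_eq_mul, mul_one] at this
  have c2 : (((I n).image (f' n p')).card : ℝ) ≤
      B.d n ^ (-(a + ε / 4)) * ((I n).image (f n p)).card :=
    card_image_le_mul _ _ _ fun x hx => h1 x hx
  have c3 := h2 p hp
  have c4 : ((I n).card : ℝ) ≤ (T n * B.d n ^ (-(c + ε / 4))) * B.d n ^ (-(ν' p' + ε / 4)) *
      (B.d n ^ (-(a + ε / 4)) * ((I n).image (f n p)).card) := by
    refine c1.trans (mul_le_mul (mul_le_mul_of_nonneg_right h5 (hd _).le) c2
      (Nat.cast_nonneg _) ?_)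
    exact mul_nonneg (mul_nonneg hTn.le (hd _).le) (hd _).le
  have c5 : ((I n).card : ℝ) ≤ (I n).card * B.d n ^ (ν p - ν' p' - a - c - ε) := by
    calc ((I n).card : ℝ) ≤ _ := c4
      _ = (B.d n ^ (-(c + ε / 4)) * B.d n ^ (-(ν' p' + ε / 4)) * B.d n ^ (-(a + ε / 4))) *
          ((((I n).image (f n p)).card : ℝ) * T n) := by ring
      _ ≤ (B.d n ^ (-(c + ε / 4)) * B.d n ^ (-(ν' p' + ε / 4)) * B.d n ^ (-(a + ε / 4))) *
          ((I n).card * B.d n ^ (ν p - ε / 4)) :=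
          mul_le_mul_of_nonneg_left c3 (mul_nonneg (mul_nonneg (hd _).le (hd _).le) (hd _).le)
      _ = (I n).card * (B.d n ^ (-(c + ε / 4)) * B.d n ^ (-(ν' p' + ε / 4)) *
          B.d n ^ (-(a + ε / 4)) * B.d n ^ (ν p - ε / 4)) := by ring
      _ = _ := by
          rw [← Real.rpow_add (B.pos n), ← Real.rpow_add (B.pos n), ← Real.rpow_add (B.pos n)]
          congr 2; ring
  have c6 : (1 : ℝ) ≤ B.d n ^ (ν p - ν' p' - a - c - ε) := by
    by_contra hc
    push Not at hc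
    nlinarith
  linarith [le_of_rpow B c6]

/-- a class has at least as many sub-cells as one line -/
theorem TProf.own_le (hν : TProf B I f P T ν) (hτ : TProf B I f' P' T' ν')
    (hne : ∀ᶠ n in (U : Filter ℕ), (I n).Nonempty) {p p' : V} (hp : p ∈ P)
    (hp' : p' ∈ P) (hpp : p ≤ p') {q q' : V'} (hq : q ∈ P') (hq' : q' ∈ P')
    (h1 : ∀ᶠ n in (U : Filter ℕ), ∀ i ∈ I n, ∀ j ∈ I n, f' n q i = f' n q j → f n p i = f n p j)
    (h2 : ∀ᶠ n in (U : Filter ℕ), ∀ i ∈ I n, ∀ j ∈ I n, f' n q i = f' n q j →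
      f n p' i = f n p' j → f' n q' i = f' n q' j) : ν' q - ν' q' ≤ ν p - ν p' := by
  classical
  refine le_of_forall_pos_le_add fun ε hε => ?_
  have hε3 : 0 < ε / 3 := by positivity
  obtain ⟨n, a1, a2, a3, a4, a5⟩ := ((hτ.ev_big hne hε3).and ((hτ.up _ hε3).and
    ((hν.num _ hε3).and (h1.and h2)))).exists
  obtain ⟨i, hi, hbig⟩ := a1 q hq
  set O := cls (I n) (f' n q) i with hO
  have hiO : i ∈ O := self_mem_cls hi
  have c1 : (O.card : ℝ) ≤ (T' n * B.d n ^ (-(ν' q' + ε / 3))) * (O.image (f' n q')).card := by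
    have := le_count_mul O (fun _ => (1 : ℝ)) (f' n q') (m := T' n * B.d n ^ (-(ν' q' + ε / 3)))
      (fun s hs => by
        rw [sum_const, nsmul_eq_mul, mul_one]
        refine le_trans ?_ (a2 q' hq' s (mem_cls.1 hs).1)
        exact_mod_cast card_le_card (cls_mono (cls_subset _ _ _) _ _))
    rwa [sum_const, nsmul_eq_mul, mul_one] at this
  have c2 : (O.image (f' n q')).card ≤ (O.image (f n p')).card := by
    refine card_image_le_card_image _ _ _ fun a ha b hb hab => ?_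
    have ha' := mem_cls.1 ha
    have hb' := mem_cls.1 hb
    exact a5 a ha'.1 b hb'.1 (ha'.2.trans hb'.2.symm) hab
  have c3 : (O.image (f n p')).card ≤ ((cls (I n) (f n p) i).image (f n p')).card := by
    refine card_le_card (image_subset_image fun s hs => ?_)
    have hs' := mem_cls.1 hs
    exact mem_cls.2 ⟨hs'.1, a4 s hs'.1 i hi hs'.2⟩
  have c4 := a3 p hp p' hp' hpp i hi
  have c5 : ((O.image (f' n q')).card : ℝ) ≤ B.d n ^ (-(ν p - ν p' + ε / 3)) := by
    refine le_trans ?_ c4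
    exact_mod_cast c2.trans c3
  have hp0 : ∀ s : ℝ, 0 < B.d n ^ s := fun s => Real.rpow_pos_of_pos (B.pos n) s
  have hT := hτ.pos n
  have c6 : T' n * B.d n ^ (-(ν' q - ε / 3)) ≤
      T' n * (B.d n ^ (-(ν' q' + ε / 3)) * B.d n ^ (-(ν p - ν p' + ε / 3))) := by
    rw [← mul_assoc]
    exact hbig.trans (c1.trans (mul_le_mul_of_nonneg_left c5 (mul_pos hT (hp0 _)).le))
  have c7 := le_of_mul_le_mul_left c6 hT
  have c8 : (1 : ℝ) ≤ B.d n ^ (ν' q - ν' q' - (ν p - ν p') - ε) := by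
    have e1 : B.d n ^ (ν' q - ν' q' - (ν p - ν p') - ε) =
        (B.d n ^ (-(ν' q' + ε / 3)) * B.d n ^ (-(ν p - ν p' + ε / 3))) *
          B.d n ^ (ν' q - ε / 3) := by
      rw [← Real.rpow_add (B.pos n), ← Real.rpow_add (B.pos n)]; congr 1; ring
    rw [e1]
    calc (1 : ℝ) = B.d n ^ (-(ν' q - ε / 3)) * B.d n ^ (ν' q - ε / 3) := by
          rw [← Real.rpow_add (B.pos n), neg_add_cancel, Real.rpow_zero]
      _ ≤ _ := mul_le_mul_of_nonneg_right c7 (hp0 _).le
  linarith [le_of_rpow B c8]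

end

section Submod

variable {m : ℕ} {B : Base} {ι κ : ℕ → Type*} [∀ n, DecidableEq (ι n)] [∀ n, DecidableEq (κ n)]
  {I : ∀ n, Finset (ι n)} {f : ∀ n, (Fin m → ℝ) → ι n → κ n} {P : Set (Fin m → ℝ)} {T : ℕ → ℝ}
  {ν : (Fin m → ℝ) → ℝ}

/-- **supermodularity** -/
theorem TProf.submod (hν : TProf B I f P T ν) (hJ : QJoin B I f P)
    (hne : ∀ᶠ n in (U : Filter ℕ), (I n).Nonempty) {p q : Fin m → ℝ} (hp : p ∈ P) (hq : q ∈ P)
    (ho : p ⊓ q ∈ P) (hr : p ⊔ q ∈ P) : ν p + ν q ≤ ν (p ⊔ q) + ν (p ⊓ q) := by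
  classical
  refine le_of_forall_pos_le_add fun ε hε => ?_
  obtain ⟨N, hN, hj⟩ := hJ
  have hε5 : 0 < ε / 5 := by positivity
  obtain ⟨n, h1, h2, h3, h4, h5⟩ := (((hν.ev_big hne hε5).and ((hν.up _ hε5).and
    ((hν.num _ hε5).and (hj.and (hN.ev_le hε5))))).exists)
  obtain ⟨i, hi, hbig⟩ := h1 _ ho
  have hL := B.L_pos n
  set A := cls (I n) (f n (p ⊓ q)) i with hA
  have hiA : i ∈ A := self_mem_cls hi
  -- number of r-classes
  have c1 : ((A.image (f n (p ⊔ q))).card : ℝ) ≤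
      N n * (A.image (fun x => (f n p x, f n q x))).card := by
    refine card_image_le_mul _ _ _ fun x hx => ?_
    have x1 := (mem_cls.1 hx).1
    refine le_trans ?_ (h4 p hp q hq x x1)
    have hs : cls A (fun x => (f n p x, f n q x)) x ⊆
        cls (I n) (f n p) x ∩ cls (I n) (f n q) x := by
      intro y hy
      obtain ⟨y1, y2⟩ := mem_cls.1 hy
      rw [Prod.mk.injEq] at y2
      have y3 := (mem_cls.1 y1).1
      exact mem_inter.2 ⟨mem_cls.2 ⟨y3, y2.1⟩, mem_cls.2 ⟨y3, y2.2⟩⟩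
    exact_mod_cast card_le_card (image_subset_image hs)
  have c2 : ((A.image (fun x => (f n p x, f n q x))).card : ℝ) ≤
      (A.image (f n p)).card * (A.image (f n q)).card := by
    have hs : A.image (fun x => (f n p x, f n q x)) ⊆ (A.image (f n p)) ×ˢ (A.image (f n q)) := by
      intro y hy
      obtain ⟨x, hx, rfl⟩ := mem_image.1 hy
      exact mem_product.2 ⟨mem_image_of_mem _ hx, mem_image_of_mem _ hx⟩
    have := card_le_card hs
    rw [card_product] at this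
    exact_mod_cast this
  have c3 : (A.card : ℝ) ≤ (T n * B.d n ^ (-(ν (p ⊔ q) + ε / 5))) *
      (A.image (f n (p ⊔ q))).card := by
    have := le_count_mul A (fun _ => (1 : ℝ)) (f n (p ⊔ q))
      (m := T n * B.d n ^ (-(ν (p ⊔ q) + ε / 5))) (fun x hx => by
        rw [sum_const, nsmul_eq_mul, mul_one]
        refine le_trans ?_ (h2 _ hr x (mem_cls.1 hx).1)
        exact_mod_cast card_le_card (cls_mono (cls_subset _ _ _) _ _))
    rwa [sum_const, nsmul_eq_mul, mul_one] at this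
  have c4 := h3 _ ho p hp inf_le_left i hi
  have c5 := h3 _ ho q hq inf_le_right i hi
  have hpos : ∀ t : ℝ, 0 < B.d n ^ t := fun t => Real.rpow_pos_of_pos (B.pos n) t
  have hNε : N n ≤ B.d n ^ (-(ε / 5)) := by
    rw [← B.exp_eq, ← Real.log_le_iff_le_exp h5.1]
    exact h5.2
  have hT := hν.pos n
  have hN0 := h5.1
  have c6 : T n * B.d n ^ (-(ν (p ⊓ q) - ε / 5)) ≤
      T n * (B.d n ^ (-(ν (p ⊔ q) + ε / 5)) * (B.d n ^ (-(ε / 5)) *
        (B.d n ^ (-(ν (p ⊓ q) - ν p + ε / 5)) * B.d n ^ (-(ν (p ⊓ q) - ν q + ε / 5))))) := by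
    rw [← mul_assoc]
    refine hbig.trans (c3.trans (mul_le_mul_of_nonneg_left ?_ (mul_pos hT (hpos _)).le))
    refine c1.trans (mul_le_mul hNε (c2.trans (mul_le_mul c4 c5 (Nat.cast_nonneg _) (hpos _).le))
      (Nat.cast_nonneg _) (hpos _).le)
  have c7 := le_of_mul_le_mul_left c6 hT
  have c8 : (1 : ℝ) ≤ B.d n ^ (ν p + ν q - ν (p ⊔ q) - ν (p ⊓ q) - ε) := by
    have e1 : B.d n ^ (ν p + ν q - ν (p ⊔ q) - ν (p ⊓ q) - ε) =
        (B.d n ^ (-(ν (p ⊔ q) + ε / 5)) * (B.d n ^ (-(ε / 5)) *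
        (B.d n ^ (-(ν (p ⊓ q) - ν p + ε / 5)) * B.d n ^ (-(ν (p ⊓ q) - ν q + ε / 5))))) *
          B.d n ^ (ν (p ⊓ q) - ε / 5) := by
      rw [← Real.rpow_add (B.pos n), ← Real.rpow_add (B.pos n), ← Real.rpow_add (B.pos n),
        ← Real.rpow_add (B.pos n)]; congr 1; ring
    rw [e1]
    calc (1 : ℝ) = B.d n ^ (-(ν (p ⊓ q) - ε / 5)) * B.d n ^ (ν (p ⊓ q) - ε / 5) := by
          rw [← Real.rpow_add (B.pos n), neg_add_cancel, Real.rpow_zero]
      _ ≤ _ := mul_le_mul_of_nonneg_right c7 (hpos _).le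
  linarith [le_of_rpow B c8]

end Submod

end Crest.Agent.R136.Zpr779
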