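import Crest.Agent.R136.Zpr3_779
import Crest.Agent.R136.Qg2_926

/-!
# R136: profiles at window scale (helper779), part 4: comparison of window profiles

* `cls_tprof` : a dense part of an honest class has the window profile of the whole family.
* `le_net`, `le_net_own` : a profile `ν` of labels `f` is at most the profile `ν'` of a net (of
  (line, net)) if every `f p`-class lies in a `p'`-box up to `d^(-ε)`.
* `net_le`, `own_up_le` : upper bounds from counts in boxes.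
* `zero_slot_z` : raising small slots.
* `ZWin.congrT'`, `exists_stage2` : second profile with the normalisation of the first one.
-/

set_option autoImplicit false
set_option linter.unusedSectionVars false
set_option linter.unusedVariables false

open Filter Topology

namespace Crest.Agent.R136.Zpr779

open Finset Crest.Agent.R138.Ex926 Crest.Agent.R136.Net191 Crest.Agent.R136.Qg926
open Crest.Agent.R136.Sec779

variable {m m' : ℕ} {ι : ℕ → Type*} [∀ n, DecidableEq (ι n)] {B B' : Base}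
  {I J E Cl : ∀ n, Finset (ι n)} {co : ∀ n, ι n → ι n → Fin m → ℝ} {M : Mons m} {C : ℝ}
  {X : ℕ → Fin m → ℝ} {w : ℕ → ℝ} {D P : Set (Fin m → ℝ)} {T : ℕ → ℝ} {lam : (Fin m → ℝ) → ℝ}
  {s₀ : ∀ n, ι n}

/-- **the profile of a dense part of an honest class** -/
theorem cls_tprof (h : ZCls B B' I J co M C X w D T lam Cl s₀)
    (hE : ∀ᶠ n in (U : Filter ℕ), E n ⊆ Cl n)
    (hd : ∀ ε : ℝ, 0 < ε → ∀ᶠ n in (U : Filter ℕ),
      ((Cl n).card : ℝ) ≤ B'.d n ^ (-ε) * (E n).card)
    (hP : P ⊆ D) {R : ℝ} (hR : ∀ p ∈ P, ‖p‖ ≤ R) (h0 : ∀ p ∈ P, 0 ≤ p) :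
    TProf B' E (zlab B I co M C X w) P T lam := by
  have hpos : ∀ n, ∀ t : ℝ, 0 < B'.d n ^ t := fun n t => Real.rpow_pos_of_pos (B'.pos n) t
  have hR0 : ∀ p ∈ P, 0 ≤ R := fun p hp => (norm_nonneg _).trans (hR p hp)
  refine ⟨h.T0, fun ε hε => ?_, fun ε hε => ?_, fun ε hε => ?_⟩
  · filter_upwards [h.prof.up R ε hε, hE, h.csub] with n h1 h2 h3 p hp i hi
    refine le_trans ?_ (h1 p (hP hp) (hR p hp) i (h3 (h2 hi)))
    exact_mod_cast card_le_card (cls_mono (h2.trans h3) _ _)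
  · filter_upwards [h.prof.num R ε hε, hE, h.csub] with n h1 h2 h3 q hq p hp hqp i hi
    refine le_trans ?_ (h1 q (hP hq) (hR q hq) p (hP hp) (hR p hp) hqp i (h3 (h2 hi)))
    exact_mod_cast card_le_card (image_subset_image (cls_mono (h2.trans h3) _ _))
  · have hε3 : 0 < ε / 3 := by positivity
    filter_upwards [h.prof.num R (ε / 3) hε3, hE, h.csub, h.clab, h.big (ε / 3) hε3,
      hd (ε / 3) hε3, h.mem] with n h1 h2 h3 h4 h5 h6 h7 p hp
    have hT := h.T0 n
    have c0 : ((E n).image (zlab B I co M C X w n p)) ⊆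
        (cls (J n) (zlab B I co M C X w n 0) (s₀ n)).image (zlab B I co M C X w n p) := by
      refine image_subset_image fun x hx => mem_cls.2 ⟨h3 (h2 hx), h4 x (h2 hx) _ h7⟩
    have c1 := h1 0 h.zero (by rw [norm_zero]; exact hR0 p hp) p (hP hp) (hR p hp) (h0 p hp)
      (s₀ n) (h3 h7)
    rw [h.lam0] at c1
    have c2 : (((E n).image (zlab B I co M C X w n p)).card : ℝ) ≤
        B'.d n ^ (-(0 - lam p + ε / 3)) := by
      refine le_trans ?_ c1
      exact_mod_cast card_le_card c0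
    have c3 : T n ≤ B'.d n ^ (-(ε / 3)) * (B'.d n ^ (-(ε / 3)) * (E n).card) := by
      have : T n = B'.d n ^ (-(ε / 3)) * (T n * B'.d n ^ (ε / 3)) := by
        rw [mul_comm (T n), ← mul_assoc, ← Real.rpow_add (B'.pos n), neg_add_cancel,
          Real.rpow_zero, one_mul]
      rw [this]
      exact mul_le_mul_of_nonneg_left (h5.trans h6) (hpos n _).le
    calc _ ≤ B'.d n ^ (-(0 - lam p + ε / 3)) *
          (B'.d n ^ (-(ε / 3)) * (B'.d n ^ (-(ε / 3)) * (E n).card)) :=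
          mul_le_mul c2 c3 hT.le (hpos n _).le
      _ = (E n).card * (B'.d n ^ (-(0 - lam p + ε / 3)) * (B'.d n ^ (-(ε / 3)) *
          B'.d n ^ (-(ε / 3)))) := by ring
      _ = _ := by
          rw [← Real.rpow_add (B'.pos n), ← Real.rpow_add (B'.pos n)]
          congr 2; ring

/-! ### labels of close points -/

/-- number of labels at window exponents `p` among pairwise close points -/
theorem card_zlab_close (h : ∀ n, Chart (I n) (co n) M C) (hb : ∀ n, B'.d n = B.d n ^ w n)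
    {p : Fin m → ℝ} (hp : ∀ᶠ n in (U : Filter ℕ), Legal M (X n + w n • p)) {ε : ℝ} (hε : 0 < ε) :
    ∃ δ : ℝ, 0 < δ ∧ δ ≤ ε ∧ ∀ᶠ n in (U : Filter ℕ), ∀ i ∈ I n, ∀ A : Finset (ι n), A ⊆ I n →
      (∀ j ∈ A, wbox B B' co X n p (B'.d n ^ (-δ)) i j) →
      ((A.image (zlab B I co M C X w n p)).card : ℝ) ≤ B'.d n ^ (-ε) := by
  classical
  obtain ⟨δ, hδ, hδε, hev⟩ := (cN_pol M (h 0).C0).ev B' hε
  refine ⟨δ, hδ, hδε, ?_⟩
  filter_upwards [hev, ev_const_le B' one_pos hδ, hp] with n h1 h2 hpn i hi A hA hn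
  have h3 := card_nlab_le (B := B) h hpn hpn le_rfl h2 hi
  simp only [sub_self, sum_const_zero, neg_zero, Real.rpow_zero, mul_one] at h3
  have h4 : A.image (zlab B I co M C X w n p) ⊆
      ((I n).filter fun j => Near (co n) (B.d n) (X n + w n • p) (B'.d n ^ (-δ)) i j).image
        (nlab B I co M C n (X n + w n • p)) := by
    refine image_subset_image fun j hj => mem_filter.2 ⟨hA hj, fun s => ?_⟩
    have e1 : B.d n ^ (X n + w n • p) s = B.d n ^ X n s * B'.d n ^ p s := by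
      rw [hb n, ← Real.rpow_mul (B.pos n).le, ← Real.rpow_add (B.pos n)]
      rfl
    rw [e1]
    exact hn j hj s
  calc ((A.image (zlab B I co M C X w n p)).card : ℝ) ≤ _ := by exact_mod_cast card_le_card h4
    _ ≤ _ := h3
    _ ≤ _ := h1 _ h2 le_rfl

section Net

variable {κ : ℕ → Type*} [∀ n, DecidableEq (κ n)] {V : Type*} [LE V] {f : ∀ n, V → ι n → κ n}
  {Q : Set V} {T₁ : ℕ → ℝ} {ν : V → ℝ} {lam' : (Fin m → ℝ) → ℝ} {T' : ℕ → ℝ}

/-- **comparison with a net** -/
theorem le_net (hold : TProf B' J f Q T₁ ν) (h : ∀ n, Chart (I n) (co n) M C)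
    (hb : ∀ n, B'.d n = B.d n ^ w n) (hsub : ∀ᶠ n in (U : Filter ℕ), J n ⊆ I n)
    (hne : ∀ᶠ n in (U : Filter ℕ), (J n).Nonempty)
    (hnew : TProf B' J (zlab B I co M C X w) P T' lam') {q : V} (hq : q ∈ Q) {p : Fin m → ℝ}
    (hp : p ∈ P) (hl : ∀ᶠ n in (U : Filter ℕ), Legal M (X n + w n • p)) {c : ℝ}
    (hT : ∀ ε : ℝ, 0 < ε → ∀ᶠ n in (U : Filter ℕ), T' n ≤ T₁ n * B'.d n ^ (-(c + ε)))
    (hbox : ∀ ε : ℝ, 0 < ε → ∀ᶠ n in (U : Filter ℕ), ∀ i ∈ J n, ∀ j ∈ J n,
      f n q i = f n q j → wbox B B' co X n p (B'.d n ^ (-ε)) i j) :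
    ν q ≤ lam' p + c := by
  classical
  have h0 := hold.le_of_image hnew hne hq hp (a := 0) (c := c) hT (by
    intro ε hε
    obtain ⟨δ, hδ, _, hev⟩ := card_zlab_close (B' := B') h hb hl hε
    filter_upwards [hev, hbox δ hδ, hsub] with n h1 h2 h3 i hi
    rw [zero_add]
    refine h1 i (h3 hi) _ ((cls_subset _ _ _).trans h3) fun j hj => ?_
    obtain ⟨hjJ, hji⟩ := mem_cls.1 hj
    exact h2 i hi j hjJ hji.symm)
  linarith

/-- comparison with (line, net) -/
theorem le_net_own (hold : TProf B' J f Q T₁ ν) (h : ∀ n, Chart (I n) (co n) M C)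
    (hb : ∀ n, B'.d n = B.d n ^ w n) (hsub : ∀ᶠ n in (U : Filter ℕ), J n ⊆ I n)
    (hne : ∀ᶠ n in (U : Filter ℕ), (J n).Nonempty) {line : ∀ n, ι n → ℕ}
    (hnew : TProf B' J (fun n p x => (line n x, zlab B I co M C X w n p x)) P T' lam')
    {q : V} (hq : q ∈ Q) {p : Fin m → ℝ}
    (hp : p ∈ P) (hl : ∀ᶠ n in (U : Filter ℕ), Legal M (X n + w n • p)) {c : ℝ}
    (hT : ∀ ε : ℝ, 0 < ε → ∀ᶠ n in (U : Filter ℕ), T' n ≤ T₁ n * B'.d n ^ (-(c + ε)))
    (hline : ∀ᶠ n in (U : Filter ℕ), ∀ i ∈ J n, ∀ j ∈ J n, f n q i = f n q j →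
      line n i = line n j)
    (hbox : ∀ ε : ℝ, 0 < ε → ∀ᶠ n in (U : Filter ℕ), ∀ i ∈ J n, ∀ j ∈ J n,
      f n q i = f n q j → wbox B B' co X n p (B'.d n ^ (-ε)) i j) :
    ν q ≤ lam' p + c := by
  classical
  have h0 := hold.le_of_image hnew hne hq hp (a := 0) (c := c) hT (by
    intro ε hε
    obtain ⟨δ, hδ, _, hev⟩ := card_zlab_close (B' := B') h hb hl hε
    filter_upwards [hev, hbox δ hδ, hsub, hline] with n h1 h2 h3 h4 i hi
    rw [zero_add]
    have h5 := h1 i (h3 hi) (cls (J n) (f n q) i) ((cls_subset _ _ _).trans h3) fun j hj => by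
      obtain ⟨hjJ, hji⟩ := mem_cls.1 hj
      exact h2 i hi j hjJ hji.symm
    refine le_trans ?_ h5
    have hs : (cls (J n) (f n q) i).image (fun x => (line n x, zlab B I co M C X w n p x)) ⊆
        ((cls (J n) (f n q) i).image (zlab B I co M C X w n p)).image fun y => (line n i, y) := by
      intro y hy
      obtain ⟨x, hx, rfl⟩ := mem_image.1 hy
      refine mem_image.2 ⟨_, mem_image_of_mem _ hx, ?_⟩
      obtain ⟨hxJ, hxi⟩ := mem_cls.1 hx
      rw [h4 x hxJ i hi hxi]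
    exact_mod_cast (card_le_card hs).trans card_image_le)
  linarith

open Classical in
/-- upper bound from counts in boxes -/
theorem net_le (h : ∀ n, Chart (I n) (co n) M C) (hb : ∀ n, B'.d n = B.d n ^ w n)
    (hsub : ∀ᶠ n in (U : Filter ℕ), J n ⊆ I n) (hne : ∀ᶠ n in (U : Filter ℕ), (J n).Nonempty)
    (hnew : TProf B' J (zlab B I co M C X w) P T' lam') {p : Fin m → ℝ}
    (hp : p ∈ P) (hl : ∀ᶠ n in (U : Filter ℕ), Legal M (X n + w n • p)) {a : ℝ}
    (hc : ∀ ε : ℝ, 0 < ε → ∀ᶠ n in (U : Filter ℕ), ∀ i ∈ J n,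
      (((J n).filter fun j => wbox B B' co X n p (cK0 M C) i j).card : ℝ) ≤
        T' n * B'.d n ^ (-(a + ε))) : lam' p ≤ a := by
  refine le_of_forall_pos_le_add fun ε hε => ?_
  have hε2 : 0 < ε / 2 := by positivity
  obtain ⟨n, h1, h2, h3, h4⟩ := (((hnew.ev_big hne hε2).and ((hc _ hε2).and
    (hsub.and hl)))).exists
  obtain ⟨i, hi, hbig⟩ := h1 p hp
  have hT := hnew.pos n
  have hd : ∀ t : ℝ, 0 < B'.d n ^ t := fun t => Real.rpow_pos_of_pos (B'.pos n) t
  have c1 : ((cls (J n) (zlab B I co M C X w n p) i).card : ℝ) ≤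
      (((J n).filter fun j => wbox B B' co X n p (cK0 M C) i j).card : ℝ) := by
    refine mod_cast card_le_card fun j hj => ?_
    obtain ⟨hjJ, hji⟩ := mem_cls.1 hj
    refine mem_filter.2 ⟨hjJ, fun s => ?_⟩
    have e1 : B.d n ^ (X n + w n • p) s = B.d n ^ X n s * B'.d n ^ p s := by
      rw [hb n, ← Real.rpow_mul (B.pos n).le, ← Real.rpow_add (B.pos n)]
      rfl
    rw [← e1]
    exact near_of_nlab h h4 (h3 hi) (h3 hjJ) hji.symm s
  have c2 : T' n * B'.d n ^ (-(lam' p - ε / 2)) ≤ T' n * B'.d n ^ (-(a + ε / 2)) :=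
    hbig.trans (c1.trans (h2 i hi))
  have c3 := le_of_mul_le_mul_left c2 hT
  have c4 : (1 : ℝ) ≤ B'.d n ^ (lam' p - a - ε) := by
    have e1 : B'.d n ^ (lam' p - a - ε) = B'.d n ^ (-(a + ε / 2)) * B'.d n ^ (lam' p - ε / 2) := by
      rw [← Real.rpow_add (B'.pos n)]; congr 1; ring
    rw [e1]
    calc (1 : ℝ) = B'.d n ^ (-(lam' p - ε / 2)) * B'.d n ^ (lam' p - ε / 2) := by
          rw [← Real.rpow_add (B'.pos n), neg_add_cancel, Real.rpow_zero]
      _ ≤ _ := mul_le_mul_of_nonneg_right c3 (hd _).le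
  linarith [le_of_rpow B' c4]

open Classical in
/-- upper bound of the own profile from counts -/
theorem own_up_le (h : ∀ n, Chart (I n) (co n) M C) (hb : ∀ n, B'.d n = B.d n ^ w n)
    (hsub : ∀ᶠ n in (U : Filter ℕ), J n ⊆ I n) (hne : ∀ᶠ n in (U : Filter ℕ), (J n).Nonempty)
    {line : ∀ n, ι n → ℕ}
    (hnew : TProf B' J (fun n p x => (line n x, zlab B I co M C X w n p x)) P T' lam')
    {p : Fin m → ℝ} (hp : p ∈ P) (hl : ∀ᶠ n in (U : Filter ℕ), Legal M (X n + w n • p)) {a : ℝ}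
    (hc : ∀ ε : ℝ, 0 < ε → ∀ᶠ n in (U : Filter ℕ), ∀ i ∈ J n,
      (((J n).filter fun j => line n j = line n i ∧
        wbox B B' co X n p (cK0 M C) i j).card : ℝ) ≤ T' n * B'.d n ^ (-(a + ε))) :
    lam' p ≤ a := by
  refine le_of_forall_pos_le_add fun ε hε => ?_
  have hε2 : 0 < ε / 2 := by positivity
  obtain ⟨n, h1, h2, h3, h4⟩ := (((hnew.ev_big hne hε2).and ((hc _ hε2).and
    (hsub.and hl)))).exists
  obtain ⟨i, hi, hbig⟩ := h1 p hp
  have hT := hnew.pos n
  have hd : ∀ t : ℝ, 0 < B'.d n ^ t := fun t => Real.rpow_pos_of_pos (B'.pos n) t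
  have c1 : ((cls (J n) (fun x => (line n x, zlab B I co M C X w n p x)) i).card : ℝ) ≤
      (((J n).filter fun j => line n j = line n i ∧
        wbox B B' co X n p (cK0 M C) i j).card : ℝ) := by
    refine mod_cast card_le_card fun j hj => ?_
    obtain ⟨hjJ, hji⟩ := mem_cls.1 hj
    obtain ⟨hj1, hj2⟩ := Prod.mk.inj hji
    refine mem_filter.2 ⟨hjJ, hj1, fun s => ?_⟩
    have e1 : B.d n ^ (X n + w n • p) s = B.d n ^ X n s * B'.d n ^ p s := by
      rw [hb n, ← Real.rpow_mul (B.pos n).le, ← Real.rpow_add (B.pos n)]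
      rfl
    rw [← e1]
    exact near_of_nlab h h4 (h3 hi) (h3 hjJ) hj2.symm s
  have c2 : T' n * B'.d n ^ (-(lam' p - ε / 2)) ≤ T' n * B'.d n ^ (-(a + ε / 2)) :=
    hbig.trans (c1.trans (h2 i hi))
  have c3 := le_of_mul_le_mul_left c2 hT
  have c4 : (1 : ℝ) ≤ B'.d n ^ (lam' p - a - ε) := by
    have e1 : B'.d n ^ (lam' p - a - ε) = B'.d n ^ (-(a + ε / 2)) * B'.d n ^ (lam' p - ε / 2) := by
      rw [← Real.rpow_add (B'.pos n)]; congr 1; ring
    rw [e1]
    calc (1 : ℝ) = B'.d n ^ (-(lam' p - ε / 2)) * B'.d n ^ (lam' p - ε / 2) := by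
          rw [← Real.rpow_add (B'.pos n), neg_add_cancel, Real.rpow_zero]
      _ ≤ _ := mul_le_mul_of_nonneg_right c3 (hd _).le
  linarith [le_of_rpow B' c4]

end Net

/-- equal labels are in the box -/
theorem wbox_of_zlab (h : ∀ n, Chart (I n) (co n) M C) (hb : ∀ n, B'.d n = B.d n ^ w n) {n : ℕ}
    {p : Fin m → ℝ} (hl : Legal M (X n + w n • p)) {i j : ι n} (hi : i ∈ I n) (hj : j ∈ I n)
    (he : zlab B I co M C X w n p i = zlab B I co M C X w n p j) :
    wbox B B' co X n p (cK0 M C) i j := by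
  intro s
  have e1 : B.d n ^ (X n + w n • p) s = B.d n ^ X n s * B'.d n ^ p s := by
    rw [hb n, ← Real.rpow_mul (B.pos n).le, ← Real.rpow_add (B.pos n)]
    rfl
  rw [← e1]
  exact near_of_nlab h hl hi hj he s

theorem wside_pos (B B' : Base) (X : ℕ → Fin m → ℝ) (n : ℕ) (p : Fin m → ℝ) (s : Fin m) :
    0 < B.d n ^ X n s * B'.d n ^ p s :=
  mul_pos (Real.rpow_pos_of_pos (B.pos n) _) (Real.rpow_pos_of_pos (B'.pos n) _)

/-- **zero slots**: the slots which are small on every `p`-box may be raised -/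
theorem zero_slot_z (h : ∀ n, Chart (I n) (co n) M C) (hb : ∀ n, B'.d n = B.d n ^ w n)
    (hsub : ∀ᶠ n in (U : Filter ℕ), J n ⊆ I n) (hne : ∀ᶠ n in (U : Filter ℕ), (J n).Nonempty)
    (hν : TProf B' J (zlab B I co M C X w) P T lam) {p q : Fin m → ℝ} (hp : p ∈ P) (hq : q ∈ P)
    (hlp : ∀ᶠ n in (U : Filter ℕ), Legal M (X n + w n • p))
    (hlq : ∀ᶠ n in (U : Filter ℕ), Legal M (X n + w n • q)) (hpq : p ≤ q)
    (hz : ∀ ε : ℝ, 0 < ε → ∀ᶠ n in (U : Filter ℕ), ∀ i ∈ J n, ∀ j ∈ J n,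
      wbox B B' co X n p (cK0 M C) i j → ∀ k, p k < q k →
        |co n i j k| ≤ B'.d n ^ (-ε) * (B.d n ^ X n k * B'.d n ^ q k)) :
    lam p = lam q := by
  have hC0 := (h 0).C0
  have hK0 : 1 ≤ cK0 M C := cK0_one hC0
  have hTT : ∀ ε : ℝ, 0 < ε → ∀ᶠ n in (U : Filter ℕ), T n ≤ T n * B'.d n ^ (-((0 : ℝ) + ε)) := by
    intro ε hε
    filter_upwards with n
    refine le_mul_of_one_le_right (hν.pos n).le ?_
    exact Real.one_le_rpow_of_pos_of_le_one_of_nonpos (B'.pos n) (B'.lt n).le (by linarith)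
  refine le_antisymm ?_ ?_
  · have := le_net (c := 0) hν h hb hsub hne hν hp hq hlq hTT fun ε hε => by
      filter_upwards [hz ε hε, ev_const_le B' (by linarith : 0 < cK0 M C) hε, hlp, hsub]
        with n h1 h2 h3 h4 i hi j hj he k
      have hn := wbox_of_zlab h hb h3 (h4 hi) (h4 hj) he
      by_cases hk : p k < q k
      · exact h1 i hi j hj hn k hk
      · have e : q k = p k := le_antisymm (not_lt.1 hk) (hpq k)
        rw [e]
        exact (hn k).trans (mul_le_mul_of_nonneg_right h2 (wside_pos B B' X n p k).le)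
    linarith
  · have := le_net (c := 0) hν h hb hsub hne hν hq hp hlp hTT fun ε hε => by
      filter_upwards [ev_const_le B' (by linarith : 0 < cK0 M C) hε, hlq, hsub]
        with n h2 h3 h4 i hi j hj he k
      have hn := wbox_of_zlab h hb h3 (h4 hi) (h4 hj) he
      refine (hn k).trans ?_
      refine mul_le_mul h2 ?_ (wside_pos B B' X n q k).le
        (Real.rpow_nonneg (B'.pos n).le _)
      exact mul_le_mul_of_nonneg_left
        (Real.rpow_le_rpow_of_exponent_ge (B'.pos n) (B'.lt n).le (hpq k))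
        (Real.rpow_nonneg (B.pos n).le _)
    linarith

/-- other normalisation of a window -/
theorem ZWin.congrT' (h : ZWin B B' I J co M C X w D T lam) {T' : ℕ → ℝ} (hT' : ∀ n, 0 < T' n)
    (h1 : ∀ ε : ℝ, 0 < ε → ∀ᶠ n in (U : Filter ℕ), T n ≤ T' n * B'.d n ^ (-ε))
    (h2 : ∀ ε : ℝ, 0 < ε → ∀ᶠ n in (U : Filter ℕ), T' n ≤ T n * B'.d n ^ (-ε)) :
    ZWin B B' I J co M C X w D T' lam :=
  { chart := h.chart, sub := h.sub, ne := h.ne, w0 := h.w0, base := h.base, zero := h.zero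
    legal := h.legal
    prof :=
      { up := fun K ε hε => by
          filter_upwards [h.prof.up K (ε / 2) (by positivity), h1 (ε / 2) (by positivity)] with
            n a b p hp hpK i hi
          have hd : ∀ t : ℝ, 0 < B'.d n ^ t := fun t => Real.rpow_pos_of_pos (B'.pos n) t
          calc _ ≤ T n * B'.d n ^ (-(lam p + ε / 2)) := a p hp hpK i hi
            _ ≤ (T' n * B'.d n ^ (-(ε / 2))) * B'.d n ^ (-(lam p + ε / 2)) :=
                mul_le_mul_of_nonneg_right b (hd _).le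
            _ = _ := by rw [mul_assoc, ← Real.rpow_add (B'.pos n)]; congr 2; ring
        num := h.prof.num
        root := fun K ε hε => by
          filter_upwards [h.prof.root K (ε / 2) (by positivity), h2 (ε / 2) (by positivity)] with
            n a b p hp hpK
          have hd : ∀ t : ℝ, 0 < B'.d n ^ t := fun t => Real.rpow_pos_of_pos (B'.pos n) t
          calc _ ≤ (((J n).image (zlab B I co M C X w n p)).card : ℝ) *
                (T n * B'.d n ^ (-(ε / 2))) := mul_le_mul_of_nonneg_left b (Nat.cast_nonneg _)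
            _ = ((((J n).image (zlab B I co M C X w n p)).card : ℝ) * T n) *
                B'.d n ^ (-(ε / 2)) := by ring
            _ ≤ ((J n).card * B'.d n ^ (lam p - ε / 2)) * B'.d n ^ (-(ε / 2)) :=
                mul_le_mul_of_nonneg_right (a p hp hpK) (hd _).le
            _ = _ := by rw [mul_assoc, ← Real.rpow_add (B'.pos n)]; congr 2; ring }
    lam0 := h.lam0, T0 := hT', lip := h.lip, anti := h.anti, sharp := h.sharp
    submod := h.submod }

end Crest.Agent.R136.Zpr779
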