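import Crest.Agent.R136.Gr2_356

/-!
# R136: functionals of zero rate on one fibre are parallel (helper501)

`ZData`: on the fibre `box pS ε (i0, k₀)` of a pin `k₀` two relative coordinates `DR`, `DV` are
coarse; at every good height `k` the functional `α_k DR + β_k DV` is determined up to `ρ^x` by the
`r`-cell at height `k`, and the fibre meets at most `ρ^(-e-o(1))` of them (`ν pT - ν r ≤ e`);
`V` has rate `≥ s > 0` on the fibre.  Then for any two good heights with many common alive lines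
the two functionals are parallel: `|α_k β_k' - α_k' β_k| ≤ ρ^(x - (2 e + C ε)/s)`.
-/

set_option autoImplicit false
set_option linter.unusedVariables false
set_option linter.unusedSectionVars false

open Filter Topology Finset

namespace Crest.Agent.R136.Zr1_501

open Crest.Agent.R138.Ex926 (Base U)
open Crest.Agent.R136.Gf356

/-- the data: two coarse coordinates on the fibres of the pins and one functional per height -/
structure ZData {κ : Type} (B : Base) (G : ℕ → RCfg κ) (Leg : Set (κ → ℝ)) (ν : (κ → ℝ) → ℝ)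
    (i0 : ℕ → ℕ) (Z P0 : ℕ → Finset ℕ) (α β : ℕ → ℕ → ℕ → ℝ) (DR DV : ℕ → ℕ → ℕ → ℕ → ℝ)
    (pS pT r : κ → ℝ) (Q : ℝ → κ → ℝ) (x s e C1 C4 : ℝ) : Prop where
  x_pos : 0 < x
  s_pos : 0 < s
  C1_nonneg : 0 ≤ C1
  C4_pos : 0 < C4
  pinI : ∀ᶠ n in (U : Filter ℕ), ∀ k₀ ∈ P0 n, (i0 n, k₀) ∈ (G n).I
  legS : pS ∈ Leg
  legT : pT ∈ Leg
  legr : r ∈ Leg
  Tr : ∀ j, pT j ≤ r j
  legQ : ∀ t : ℝ, 0 ≤ t → t ≤ x → Q t ∈ Leg
  bd : ∀ ε : ℝ, 0 < ε → ∀ᶠ n in (U : Filter ℕ), ∀ k₀ ∈ P0 n, ∀ k ∈ Z n,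
    |α n k₀ k| ≤ B.d n ^ (-ε)
  mv : ∀ ε : ℝ, 0 < ε → ∀ᶠ n in (U : Filter ℕ), ∀ k₀ ∈ P0 n, ∀ k ∈ Z n,
    ∀ i ∈ (G n).box pS ε (i0 n) k₀, ∀ i' ∈ (G n).box pS ε (i0 n) k₀, (i, k) ∈ (G n).I →
    (i', k) ∈ (G n).I → (G n).loose r ε k i i' →
    |α n k₀ k * DR n k₀ i i' + β n k₀ k * DV n k₀ i i'| ≤ B.d n ^ (x - C1 * ε)
  inT : ∀ ε : ℝ, 0 < ε → ∀ᶠ n in (U : Filter ℕ), ∀ k₀ ∈ P0 n, ∀ k ∈ Z n,
    ∀ i ∈ (G n).box pS ε (i0 n) k₀, ∀ i' ∈ (G n).box pS ε (i0 n) k₀, (i, k) ∈ (G n).I →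
    (i', k) ∈ (G n).I → (G n).loose pT (C1 * ε) k i i'
  inQ : ∀ t : ℝ, 0 ≤ t → t ≤ x → ∀ ε : ℝ, 0 < ε → ∀ᶠ n in (U : Filter ℕ), ∀ k₀ ∈ P0 n,
    ∀ i ∈ (G n).box pS ε (i0 n) k₀, ∀ i' ∈ (G n).box pS ε (i0 n) k₀,
    |DV n k₀ i i'| ≤ B.d n ^ (t - ε) → (G n).loose (Q t) (C4 * ε) k₀ i i'
  lossQ : ∀ t : ℝ, 0 ≤ t → t ≤ x → s * t ≤ ν pS - ν (Q t)
  lossF : ν pT - ν r ≤ e

section

variable {κ : Type} {B : Base} {G : ℕ → RCfg κ} {Leg : Set (κ → ℝ)} {ν : (κ → ℝ) → ℝ} {D : ℝ}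
  {i0 : ℕ → ℕ} {Z P0 : ℕ → Finset ℕ} {α β : ℕ → ℕ → ℕ → ℝ} {DR DV : ℕ → ℕ → ℕ → ℕ → ℝ}
  {pS pT r : κ → ℝ} {Q : ℝ → κ → ℝ} {x s e C1 C4 : ℝ}

open Classical in
/-- **functionals of zero rate on one fibre are parallel** -/
theorem zero_rate_par (H : RUnif B G Leg ν D)
    (A : ZData B G Leg ν i0 Z P0 α β DR DV pS pT r Q x s e C1 C4) {b : ℝ} (hb : 0 ≤ b) :
    ∃ C : ℝ, 0 < C ∧ ∀ ε : ℝ, 0 < ε → 2 * e + C * ε ≤ s * x → ∀ᶠ n in (U : Filter ℕ),
      ∀ k₀ ∈ P0 n, ∀ k ∈ Z n, ∀ k' ∈ Z n,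
      B.d n ^ (b * ε) * (((G n).box pS ε (i0 n) k₀).card : ℝ) ≤
        ((((G n).box pS ε (i0 n) k₀).filter fun i => (i, k) ∈ (G n).I ∧ (i, k') ∈ (G n).I).card : ℝ) →
      |α n k₀ k * β n k₀ k' - α n k₀ k' * β n k₀ k| ≤ B.d n ^ (x - (2 * e + C * ε) / s) := by
  have hx := A.x_pos
  have hs := A.s_pos
  have hC1 := A.C1_nonneg
  have hC4 := A.C4_pos
  have hD := H.D1
  have hD0 : 0 < D := by linarith
  have hD5 : 1 ≤ D ^ 5 := one_le_pow₀ hD
  have he : 0 ≤ e := by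
    have := H.nu_anti A.legT A.legr A.Tr
    linarith [A.lossF]
  set E : ℝ := D ^ 5 * (C1 + 1) with hE
  have hE1 : 1 ≤ E := by nlinarith
  set F : ℝ := C1 * E + 2 with hF
  have hF2 : 2 ≤ F := by nlinarith [mul_nonneg hC1 (by linarith : (0 : ℝ) ≤ E)]
  set C' : ℝ := 2 * ((D ^ 2 + 1) * (C1 + 1)) + D * (C4 * F) with hC'
  have hC'0 : 0 < C' := by positivity
  refine ⟨C' + b + 2, by linarith, ?_⟩
  intro ε hε hsx
  set t : ℝ := (2 * e + (C' + b + 2) * ε) / s with ht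
  have ht0 : 0 ≤ t := by positivity
  have htx : t ≤ x := by
    rw [ht, div_le_iff₀ hs]
    linarith
  have hst : s * t = 2 * e + (C' + b + 2) * ε := by rw [ht]; field_simp
  have hε1 : 0 < (C1 + 1) * ε := by positivity
  have hε2 : 0 < E * ε := by positivity
  have hε3 : 0 < F * ε := by positivity
  have hdn : ∀ n {u v : ℝ}, u ≤ v → B.d n ^ v ≤ B.d n ^ u := fun n {u v} h => rpow_anti B n h
  filter_upwards [H.exists_lab_loose pT r A.legT A.legr A.Tr hε1, A.inT ε hε,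
    A.mv (E * ε) hε2, A.bd ε hε, A.inQ t ht0 htx (F * ε) hε3,
    H.up (Q t) (A.legQ t ht0 htx) (C4 * (F * ε)) (by positivity),
    H.low pS A.legS ε hε, A.pinI, ev_const_le B hε 2] with n g1 g2 g3 g4 g5 g6 g7 g8 g9
    k₀ hk₀ k hk k' hk' hT
  set S := (G n).box pS ε (i0 n) k₀ with hS
  set T := S.filter fun i => (i, k) ∈ (G n).I ∧ (i, k') ∈ (G n).I with hTdef
  have hd : ∀ u : ℝ, 0 < B.d n ^ u := fun u => rpos B n u
  have hI0 := g8 k₀ hk₀
  have hSne : S.Nonempty := ⟨i0 n, H.self_mem_box pS ε hI0⟩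
  have hT0 : (0 : ℝ) < T.card := lt_of_lt_of_le
    (mul_pos (hd _) (by exact_mod_cast hSne.card_pos)) hT
  have hTne : T.Nonempty := Finset.card_pos.1 (by exact_mod_cast hT0)
  have hTS : T ⊆ S := Finset.filter_subset _ _
  have hTk : ∀ i ∈ T, (i, k) ∈ (G n).I := fun i hi => (Finset.mem_filter.1 hi).2.1
  have hTk' : ∀ i ∈ T, (i, k') ∈ (G n).I := fun i hi => (Finset.mem_filter.1 hi).2.2
  obtain ⟨lab, l1, l2⟩ := g1 k T (fun i hi => H.memSlice.2 (hTk i hi)) (by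
    intro i hi i' hi'
    exact H.loose_mono (fun _ => le_rfl) (by nlinarith)
      (g2 k₀ hk₀ k hk i (hTS hi) i' (hTS hi') (hTk i hi) (hTk i' hi')))
  obtain ⟨lab', l1', l2'⟩ := g1 k' T (fun i hi => H.memSlice.2 (hTk' i hi)) (by
    intro i hi i' hi'
    exact H.loose_mono (fun _ => le_rfl) (by nlinarith)
      (g2 k₀ hk₀ k' hk' i (hTS hi) i' (hTS hi') (hTk' i hi) (hTk' i' hi')))
  set A0 : ℝ := B.d n ^ (-(ν pT - ν r) - (D ^ 2 + 1) * ((C1 + 1) * ε)) with hA0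
  have hA00 : 0 < A0 := hd _
  have himg : ((T.image fun i => (lab i, lab' i)).card : ℝ) ≤ A0 * A0 := by
    have h1 : (T.image fun i => (lab i, lab' i)) ⊆ (T.image lab) ×ˢ (T.image lab') := by
      intro q hq
      obtain ⟨i, hi, rfl⟩ := Finset.mem_image.1 hq
      exact Finset.mem_product.2 ⟨Finset.mem_image_of_mem _ hi, Finset.mem_image_of_mem _ hi⟩
    have h2 : ((T.image fun i => (lab i, lab' i)).card : ℝ) ≤
        ((T.image lab).card : ℝ) * ((T.image lab').card : ℝ) := by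
      have := Finset.card_le_card h1
      rw [Finset.card_product] at this
      exact_mod_cast this
    exact h2.trans (mul_le_mul l2 l2' (Nat.cast_nonneg _) hA00.le)
  obtain ⟨i1, hi1, hfib⟩ := exists_fibre T (fun i => (lab i, lab' i)) hTne himg
  by_contra hcon
  push Not at hcon
  set det : ℝ := α n k₀ k * β n k₀ k' - α n k₀ k' * β n k₀ k with hdet
  have hdet0 : 0 < |det| := (hd _).trans hcon
  have hboxE : ∀ i ∈ T, i ∈ (G n).box pS (E * ε) (i0 n) k₀ := by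
    intro i hi
    obtain ⟨b1, b2⟩ := RCfg.mem_box.1 (hTS hi)
    exact RCfg.mem_box.2 ⟨b1, H.loose_mono (fun _ => le_rfl) (by nlinarith) b2⟩
  have hboxF : ∀ i ∈ T, i ∈ (G n).box pS (F * ε) (i0 n) k₀ := by
    intro i hi
    obtain ⟨b1, b2⟩ := RCfg.mem_box.1 (hTS hi)
    exact RCfg.mem_box.2 ⟨b1, H.loose_mono (fun _ => le_rfl) (by nlinarith) b2⟩
  -- the whole class of `i1` lies in the narrow box
  have hcls : T.filter (fun i => (lab i, lab' i) = (lab i1, lab' i1)) ⊆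
      (G n).box (Q t) (C4 * (F * ε)) i1 k₀ := by
    intro i hi
    obtain ⟨a1, a2⟩ := Finset.mem_filter.1 hi
    obtain ⟨a3, a4⟩ := Prod.mk.inj a2
    have eE : D ^ 5 * ((C1 + 1) * ε) = E * ε := by rw [hE]; ring
    have b1 := l1 i1 hi1 i a1 a3.symm
    have b2 := l1' i1 hi1 i a1 a4.symm
    rw [eE] at b1 b2
    have c1 := g3 k₀ hk₀ k hk i1 (hboxE i1 hi1) i (hboxE i a1) (hTk i1 hi1) (hTk i a1) b1
    have c2 := g3 k₀ hk₀ k' hk' i1 (hboxE i1 hi1) i (hboxE i a1) (hTk' i1 hi1) (hTk' i a1) b2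
    have c3 := g4 k₀ hk₀ k hk
    have c4 := g4 k₀ hk₀ k' hk'
    set V := DV n k₀ i1 i with hV
    set R := DR n k₀ i1 i with hR
    have c5 : |det| * |V| ≤ B.d n ^ (x - F * ε) := by
      have : det * V = α n k₀ k * (α n k₀ k' * R + β n k₀ k' * V) -
          α n k₀ k' * (α n k₀ k * R + β n k₀ k * V) := by rw [hdet]; ring
      rw [← abs_mul, this]
      calc |α n k₀ k * (α n k₀ k' * R + β n k₀ k' * V) -
            α n k₀ k' * (α n k₀ k * R + β n k₀ k * V)|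
          ≤ |α n k₀ k * (α n k₀ k' * R + β n k₀ k' * V)| +
            |α n k₀ k' * (α n k₀ k * R + β n k₀ k * V)| := abs_sub _ _
        _ ≤ B.d n ^ (-ε) * B.d n ^ (x - C1 * (E * ε)) +
            B.d n ^ (-ε) * B.d n ^ (x - C1 * (E * ε)) := by
            rw [abs_mul, abs_mul]
            exact add_le_add (mul_le_mul c3 c2 (abs_nonneg _) (hd _).le)
              (mul_le_mul c4 c1 (abs_nonneg _) (hd _).le)
        _ = 2 * (B.d n ^ (-ε) * B.d n ^ (x - C1 * (E * ε))) := by ring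
        _ ≤ B.d n ^ (-ε) * (B.d n ^ (-ε) * B.d n ^ (x - C1 * (E * ε))) :=
            mul_le_mul_of_nonneg_right g9 (mul_pos (hd _) (hd _)).le
        _ = B.d n ^ (x - F * ε) := by
            rw [← rpow_add', ← rpow_add']
            congr 1
            rw [hF]; ring
    have c6 : |V| ≤ B.d n ^ (t - F * ε) := by
      have h1 : B.d n ^ (x - t) * |V| ≤ B.d n ^ (x - t) * B.d n ^ (t - F * ε) := by
        calc B.d n ^ (x - t) * |V| ≤ |det| * |V| :=
              mul_le_mul_of_nonneg_right hcon.le (abs_nonneg _)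
          _ ≤ B.d n ^ (x - F * ε) := c5
          _ = _ := by rw [← rpow_add']; congr 1; ring
      exact le_of_mul_le_mul_left h1 (hd _)
    exact RCfg.mem_box.2 ⟨H.memSlice.2 (by
      have := RCfg.box_subset_slice (hTS a1)
      exact H.memSlice.1 this), g5 k₀ hk₀ i1 (hboxF i1 hi1) i (hboxF i a1) c6⟩
  have hI1 : (i1, k₀) ∈ (G n).I := H.memSlice.1 (RCfg.box_subset_slice (hTS hi1))
  have hup := g6 i1 k₀ hI1
  have hlow := g7 (i0 n) k₀ hI0
  have key : B.d n ^ (-ν pS + (b + 1) * ε) ≤ B.d n ^ (-(2 * e) - ν (Q t) - C' * ε) := by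
    calc B.d n ^ (-ν pS + (b + 1) * ε) = B.d n ^ (b * ε) * B.d n ^ (-ν pS + ε) := by
          rw [← rpow_add']; congr 1; ring
      _ ≤ B.d n ^ (b * ε) * (S.card : ℝ) := mul_le_mul_of_nonneg_left hlow (hd _).le
      _ ≤ (T.card : ℝ) := hT
      _ ≤ A0 * A0 * (((T.filter fun i => (lab i, lab' i) = (lab i1, lab' i1)).card : ℕ) : ℝ) := hfib
      _ ≤ A0 * A0 * B.d n ^ (-ν (Q t) - D * (C4 * (F * ε))) := by
          refine mul_le_mul_of_nonneg_left ?_ (mul_pos hA00 hA00).le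
          exact le_trans (by exact_mod_cast Finset.card_le_card hcls) hup
      _ ≤ _ := by
          rw [hA0, ← rpow_add', ← rpow_add']
          refine hdn n ?_
          have := A.lossF
          rw [hC']
          linarith
  have hexp : -(2 * e) - ν (Q t) - C' * ε ≤ -ν pS + (b + 1) * ε := by
    by_contra hc
    push Not at hc
    exact absurd key (not_le.2 (Real.rpow_lt_rpow_of_exponent_gt (B.pos n) (B.lt n) hc))
  have := A.lossQ t ht0 htx
  rw [hst] at this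
  linarith

open Classical in
/-- **one functional of zero rate at one height is small** -/
theorem zero_rate_one (H : RUnif B G Leg ν D)
    (A : ZData B G Leg ν i0 Z P0 α β DR DV pS pT r Q x s e C1 C4) {b : ℝ} (hb : 0 ≤ b) :
    ∃ C : ℝ, 0 < C ∧ ∀ ε : ℝ, 0 < ε → e + C * ε ≤ s * x → ∀ᶠ n in (U : Filter ℕ),
      ∀ k₀ ∈ P0 n, ∀ k ∈ Z n, α n k₀ k = 0 →
      B.d n ^ (b * ε) * (((G n).box pS ε (i0 n) k₀).card : ℝ) ≤
        ((((G n).box pS ε (i0 n) k₀).filter fun i => (i, k) ∈ (G n).I).card : ℝ) →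
      |β n k₀ k| ≤ B.d n ^ (x - (e + C * ε) / s) := by
  have hx := A.x_pos
  have hs := A.s_pos
  have hC1 := A.C1_nonneg
  have hC4 := A.C4_pos
  have hD := H.D1
  have hD0 : 0 < D := by linarith
  have hD5 : 1 ≤ D ^ 5 := one_le_pow₀ hD
  have he : 0 ≤ e := by
    have := H.nu_anti A.legT A.legr A.Tr
    linarith [A.lossF]
  set E : ℝ := D ^ 5 * (C1 + 1) with hE
  have hE1 : 1 ≤ E := by nlinarith
  set F : ℝ := C1 * E + 2 with hF
  have hF2 : 2 ≤ F := by nlinarith [mul_nonneg hC1 (by linarith : (0 : ℝ) ≤ E)]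
  set C' : ℝ := (D ^ 2 + 1) * (C1 + 1) + D * (C4 * F) with hC'
  have hC'0 : 0 < C' := by positivity
  refine ⟨C' + b + 2, by linarith, ?_⟩
  intro ε hε hsx
  set t : ℝ := (e + (C' + b + 2) * ε) / s with ht
  have ht0 : 0 ≤ t := by positivity
  have htx : t ≤ x := by
    rw [ht, div_le_iff₀ hs]
    linarith
  have hst : s * t = e + (C' + b + 2) * ε := by rw [ht]; field_simp
  have hε1 : 0 < (C1 + 1) * ε := by positivity
  have hε2 : 0 < E * ε := by positivity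
  have hε3 : 0 < F * ε := by positivity
  have hdn : ∀ n {u v : ℝ}, u ≤ v → B.d n ^ v ≤ B.d n ^ u := fun n {u v} h => rpow_anti B n h
  filter_upwards [H.exists_lab_loose pT r A.legT A.legr A.Tr hε1, A.inT ε hε,
    A.mv (E * ε) hε2, A.inQ t ht0 htx (F * ε) hε3,
    H.up (Q t) (A.legQ t ht0 htx) (C4 * (F * ε)) (by positivity),
    H.low pS A.legS ε hε, A.pinI] with n g1 g2 g3 g5 g6 g7 g8 k₀ hk₀ k hk hα hT
  set S := (G n).box pS ε (i0 n) k₀ with hS
  set T := S.filter fun i => (i, k) ∈ (G n).I with hTdef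
  have hd : ∀ u : ℝ, 0 < B.d n ^ u := fun u => rpos B n u
  have hI0 := g8 k₀ hk₀
  have hSne : S.Nonempty := ⟨i0 n, H.self_mem_box pS ε hI0⟩
  have hT0 : (0 : ℝ) < T.card := lt_of_lt_of_le
    (mul_pos (hd _) (by exact_mod_cast hSne.card_pos)) hT
  have hTne : T.Nonempty := Finset.card_pos.1 (by exact_mod_cast hT0)
  have hTS : T ⊆ S := Finset.filter_subset _ _
  have hTk : ∀ i ∈ T, (i, k) ∈ (G n).I := fun i hi => (Finset.mem_filter.1 hi).2
  obtain ⟨lab, l1, l2⟩ := g1 k T (fun i hi => H.memSlice.2 (hTk i hi)) (by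
    intro i hi i' hi'
    exact H.loose_mono (fun _ => le_rfl) (by nlinarith)
      (g2 k₀ hk₀ k hk i (hTS hi) i' (hTS hi') (hTk i hi) (hTk i' hi')))
  set A0 : ℝ := B.d n ^ (-(ν pT - ν r) - (D ^ 2 + 1) * ((C1 + 1) * ε)) with hA0
  have hA00 : 0 < A0 := hd _
  obtain ⟨i1, hi1, hfib⟩ := exists_fibre T lab hTne l2
  by_contra hcon
  push Not at hcon
  have hdet0 : 0 < |β n k₀ k| := (hd _).trans hcon
  have hboxE : ∀ i ∈ T, i ∈ (G n).box pS (E * ε) (i0 n) k₀ := by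
    intro i hi
    obtain ⟨b1, b2⟩ := RCfg.mem_box.1 (hTS hi)
    exact RCfg.mem_box.2 ⟨b1, H.loose_mono (fun _ => le_rfl) (by nlinarith) b2⟩
  have hboxF : ∀ i ∈ T, i ∈ (G n).box pS (F * ε) (i0 n) k₀ := by
    intro i hi
    obtain ⟨b1, b2⟩ := RCfg.mem_box.1 (hTS hi)
    exact RCfg.mem_box.2 ⟨b1, H.loose_mono (fun _ => le_rfl) (by nlinarith) b2⟩
  have hcls : T.filter (fun i => lab i = lab i1) ⊆ (G n).box (Q t) (C4 * (F * ε)) i1 k₀ := by
    intro i hi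
    obtain ⟨a1, a2⟩ := Finset.mem_filter.1 hi
    have eE : D ^ 5 * ((C1 + 1) * ε) = E * ε := by rw [hE]; ring
    have b1 := l1 i1 hi1 i a1 a2.symm
    rw [eE] at b1
    have c1 := g3 k₀ hk₀ k hk i1 (hboxE i1 hi1) i (hboxE i a1) (hTk i1 hi1) (hTk i a1) b1
    rw [hα, zero_mul, zero_add, abs_mul] at c1
    set V := DV n k₀ i1 i with hV
    have c6 : |V| ≤ B.d n ^ (t - F * ε) := by
      have h1 : B.d n ^ (x - t) * |V| ≤ B.d n ^ (x - t) * B.d n ^ (t - F * ε) := by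
        calc B.d n ^ (x - t) * |V| ≤ |β n k₀ k| * |V| :=
              mul_le_mul_of_nonneg_right hcon.le (abs_nonneg _)
          _ ≤ B.d n ^ (x - C1 * (E * ε)) := c1
          _ ≤ B.d n ^ (x - F * ε) := hdn n (by rw [hF]; nlinarith)
          _ = _ := by rw [← rpow_add']; congr 1; ring
      exact le_of_mul_le_mul_left h1 (hd _)
    exact RCfg.mem_box.2 ⟨RCfg.box_subset_slice (hTS a1),
      g5 k₀ hk₀ i1 (hboxF i1 hi1) i (hboxF i a1) c6⟩
  have hI1 : (i1, k₀) ∈ (G n).I := H.memSlice.1 (RCfg.box_subset_slice (hTS hi1))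
  have hup := g6 i1 k₀ hI1
  have hlow := g7 (i0 n) k₀ hI0
  have key : B.d n ^ (-ν pS + (b + 1) * ε) ≤ B.d n ^ (-e - ν (Q t) - C' * ε) := by
    calc B.d n ^ (-ν pS + (b + 1) * ε) = B.d n ^ (b * ε) * B.d n ^ (-ν pS + ε) := by
          rw [← rpow_add']; congr 1; ring
      _ ≤ B.d n ^ (b * ε) * (S.card : ℝ) := mul_le_mul_of_nonneg_left hlow (hd _).le
      _ ≤ (T.card : ℝ) := hT
      _ ≤ A0 * (((T.filter fun i => lab i = lab i1).card : ℕ) : ℝ) := hfib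
      _ ≤ A0 * B.d n ^ (-ν (Q t) - D * (C4 * (F * ε))) := by
          refine mul_le_mul_of_nonneg_left ?_ hA00.le
          exact le_trans (by exact_mod_cast Finset.card_le_card hcls) hup
      _ ≤ _ := by
          rw [hA0, ← rpow_add']
          refine hdn n ?_
          have := A.lossF
          rw [hC']
          linarith
  have hexp : -e - ν (Q t) - C' * ε ≤ -ν pS + (b + 1) * ε := by
    by_contra hc
    push Not at hc
    exact absurd key (not_le.2 (Real.rpow_lt_rpow_of_exponent_gt (B.pos n) (B.lt n) hc))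
  have := A.lossQ t ht0 htx
  rw [hst] at this
  linarith

end

end Crest.Agent.R136.Zr1_501
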