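import Crest.Agent.R136.Zr1_501

/-!
# R136: functionals of zero rate on one fibre are parallel: popular heights (helper501)

`zero_rate_pop`, `zero_rate_const` (`α = 1`: `β` is one constant on a `ρ^(C ε)`-part of the
heights), `zero_rate_lin` (`α k = z k - z k₀`: `β` is one linear function of `z k - z k₀`).
-/

set_option autoImplicit false
set_option linter.unusedVariables false
set_option linter.unusedSectionVars false

open Filter Topology Finset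

namespace Crest.Agent.R136.Zr1_501

open Crest.Agent.R138.Ex926 (Base U)
open Crest.Agent.R136.Gf356

open Classical in
/-- popular heights -/
theorem pop_heights {ι : Type*} (S : Finset ι) (Z : Finset ℕ) (al : ι → ℕ → Prop)
    [∀ i, DecidablePred (al i)] {θ : ℝ}
    (hS : S.Nonempty)
    (hal : ∀ i ∈ S, θ * (Z.card : ℝ) ≤ ((Z.filter fun k => al i k).card : ℝ)) :
    θ / 2 * (Z.card : ℝ) ≤ ((Z.filter fun k => θ / 2 * (S.card : ℝ) ≤
      ((S.filter fun i => al i k).card : ℝ)).card : ℝ) := by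
  have hS0 : (0 : ℝ) < S.card := by exact_mod_cast hS.card_pos
  set W := Z.filter fun k => θ / 2 * (S.card : ℝ) ≤ ((S.filter fun i => al i k).card : ℝ) with hW
  have h1 : ∑ i ∈ S, ((Z.filter fun k => al i k).card : ℝ) =
      ∑ k ∈ Z, ((S.filter fun i => al i k).card : ℝ) := by
    have : ∑ i ∈ S, (Z.filter fun k => al i k).card = ∑ k ∈ Z, (S.filter fun i => al i k).card := by
      simp only [Finset.card_filter]
      exact Finset.sum_comm
    exact_mod_cast this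
  have h2 : (S.card : ℝ) * (θ * (Z.card : ℝ)) ≤ ∑ k ∈ Z, ((S.filter fun i => al i k).card : ℝ) := by
    rw [← h1]
    calc (S.card : ℝ) * (θ * (Z.card : ℝ)) = ∑ i ∈ S, θ * (Z.card : ℝ) := by
          rw [Finset.sum_const, nsmul_eq_mul]
      _ ≤ _ := Finset.sum_le_sum hal
  have h3 : ∑ k ∈ Z, ((S.filter fun i => al i k).card : ℝ) =
      ∑ k ∈ W, ((S.filter fun i => al i k).card : ℝ) +
      ∑ k ∈ Z.filter (fun k => ¬ (θ / 2 * (S.card : ℝ) ≤ ((S.filter fun i => al i k).card : ℝ))),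
        ((S.filter fun i => al i k).card : ℝ) :=
    (Finset.sum_filter_add_sum_filter_not _ _ _).symm
  have h4 : ∑ k ∈ W, ((S.filter fun i => al i k).card : ℝ) ≤ (W.card : ℝ) * S.card := by
    calc ∑ k ∈ W, ((S.filter fun i => al i k).card : ℝ) ≤ ∑ k ∈ W, (S.card : ℝ) :=
          Finset.sum_le_sum fun k _ => by exact_mod_cast Finset.card_le_card (Finset.filter_subset _ _)
      _ = _ := by rw [Finset.sum_const, nsmul_eq_mul]
  rcases le_or_gt θ 0 with hθ | hθ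
  · calc θ / 2 * (Z.card : ℝ) ≤ 0 := by
          have : (0 : ℝ) ≤ Z.card := Nat.cast_nonneg _
          nlinarith
      _ ≤ _ := Nat.cast_nonneg _
  have h5 : ∑ k ∈ Z.filter (fun k => ¬ (θ / 2 * (S.card : ℝ) ≤
      ((S.filter fun i => al i k).card : ℝ))), ((S.filter fun i => al i k).card : ℝ) ≤
      (Z.card : ℝ) * (θ / 2 * (S.card : ℝ)) := by
    calc _ ≤ ∑ k ∈ Z.filter (fun k => ¬ (θ / 2 * (S.card : ℝ) ≤
          ((S.filter fun i => al i k).card : ℝ))), θ / 2 * (S.card : ℝ) :=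
          Finset.sum_le_sum fun k hk => (not_le.1 (Finset.mem_filter.1 hk).2).le
      _ = ((Z.filter (fun k => ¬ (θ / 2 * (S.card : ℝ) ≤
          ((S.filter fun i => al i k).card : ℝ)))).card : ℝ) * (θ / 2 * (S.card : ℝ)) := by
          rw [Finset.sum_const, nsmul_eq_mul]
      _ ≤ _ := mul_le_mul_of_nonneg_right
          (by exact_mod_cast Finset.card_le_card (Finset.filter_subset _ _)) (by positivity)
  have h6 : (S.card : ℝ) * (θ / 2 * (Z.card : ℝ)) ≤ (S.card : ℝ) * (W.card : ℝ) := by nlinarith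
  exact le_of_mul_le_mul_left h6 hS0

section

variable {κ : Type} {B : Base} {G : ℕ → RCfg κ} {Leg : Set (κ → ℝ)} {ν : (κ → ℝ) → ℝ} {D : ℝ}
  {i0 : ℕ → ℕ} {Z P0 : ℕ → Finset ℕ} {α β : ℕ → ℕ → ℕ → ℝ} {DR DV : ℕ → ℕ → ℕ → ℕ → ℝ}
  {pS pT r : κ → ℝ} {Q : ℝ → κ → ℝ} {x s e C1 C4 : ℝ}

/-- every line of the fibre is alive at a `ρ^(C1 ε)`-part of the heights -/
def Alive (B : Base) (G : ℕ → RCfg κ) (i0 : ℕ → ℕ) (Z P0 : ℕ → Finset ℕ) (pS : κ → ℝ) (C1 : ℝ) :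
    Prop :=
  ∀ ε : ℝ, 0 < ε → ∀ᶠ n in (U : Filter ℕ), ∀ k₀ ∈ P0 n,
    ∀ i ∈ (G n).box pS ε (i0 n) k₀, ∀ T ⊆ Z n, (∀ k ∈ Z n, (i, k) ∈ (G n).I → k ∈ T) →
    B.d n ^ (C1 * ε) * ((Z n).card : ℝ) ≤ (T.card : ℝ)

open Classical in
/-- popular heights `k₁`, and for each of them popular heights `k` with parallel functionals -/
theorem zero_rate_pop (H : RUnif B G Leg ν D)
    (A : ZData B G Leg ν i0 Z P0 α β DR DV pS pT r Q x s e C1 C4)
    (hal : Alive B G i0 Z P0 pS C1) :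
    ∃ C : ℝ, 0 < C ∧ ∀ ε : ℝ, 0 < ε → 2 * e + C * ε ≤ s * x → ∀ᶠ n in (U : Filter ℕ),
      ∀ k₀ ∈ P0 n, ∃ W ⊆ Z n, B.d n ^ (C * ε) * ((Z n).card : ℝ) ≤ (W.card : ℝ) ∧
        ∀ k₁ ∈ W, B.d n ^ (C * ε) * ((Z n).card : ℝ) ≤
          (((Z n).filter fun k => |α n k₀ k₁ * β n k₀ k - α n k₀ k * β n k₀ k₁| ≤
            B.d n ^ (x - (2 * e + C * ε) / s)).card : ℝ) := by
  have hC1 := A.C1_nonneg
  have hs := A.s_pos
  obtain ⟨C, hC, HC⟩ := zero_rate_par H A (b := 2 * C1 + 2) (by linarith)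
  refine ⟨C + 2 * C1 + 2, by linarith, fun ε hε hsx => ?_⟩
  have hd : ∀ n (u : ℝ), 0 < B.d n ^ u := fun n u => rpos B n u
  have hdn : ∀ n {u v : ℝ}, u ≤ v → B.d n ^ v ≤ B.d n ^ u := fun n {u v} h => rpow_anti B n h
  filter_upwards [HC ε hε (by nlinarith), hal ε hε, A.pinI, ev_const_le B hε 2]
    with n g1 g2 g3 g4 k₀ hk₀
  set S := (G n).box pS ε (i0 n) k₀ with hS
  have hSne : S.Nonempty := ⟨i0 n, H.self_mem_box pS ε (g3 k₀ hk₀)⟩
  set θ : ℝ := B.d n ^ (C1 * ε) with hθ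
  have hθ0 : 0 < θ := hd n _
  have hθ2 : B.d n ^ ((C1 + 1) * ε) ≤ θ / 2 := by
    rw [le_div_iff₀ two_pos]
    calc B.d n ^ ((C1 + 1) * ε) * 2 ≤ B.d n ^ ((C1 + 1) * ε) * B.d n ^ (-ε) :=
          mul_le_mul_of_nonneg_left g4 (hd n _).le
      _ = θ := by rw [← rpow_add', hθ]; congr 1; ring
  have hal' : ∀ i ∈ S, θ * ((Z n).card : ℝ) ≤
      (((Z n).filter fun k => (i, k) ∈ (G n).I).card : ℝ) := fun i hi =>
    g2 k₀ hk₀ i hi _ (Finset.filter_subset _ _) fun k hk hik => Finset.mem_filter.2 ⟨hk, hik⟩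
  have h1 := pop_heights S (Z n) (fun i k => (i, k) ∈ (G n).I) hSne hal'
  refine ⟨_, Finset.filter_subset _ _, le_trans ?_ h1, ?_⟩
  · refine mul_le_mul_of_nonneg_right (le_trans (hdn n ?_) hθ2) (Nat.cast_nonneg _)
    nlinarith
  intro k₁ hk₁
  obtain ⟨hk₁Z, hk₁S⟩ := Finset.mem_filter.1 hk₁
  set S₁ := S.filter fun i => (i, k₁) ∈ (G n).I with hS₁
  have hS0 : (0 : ℝ) < S.card := by exact_mod_cast hSne.card_pos
  have hS₁0 : (0 : ℝ) < S₁.card := lt_of_lt_of_le (by positivity) hk₁S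
  have hS₁ne : S₁.Nonempty := Finset.card_pos.1 (by exact_mod_cast hS₁0)
  have h2 := pop_heights S₁ (Z n) (fun i k => (i, k) ∈ (G n).I) hS₁ne
    (fun i hi => hal' i (Finset.mem_filter.1 hi).1)
  refine le_trans ?_ (h2.trans ?_)
  · refine mul_le_mul_of_nonneg_right (le_trans (hdn n ?_) hθ2) (Nat.cast_nonneg _)
    nlinarith
  · refine Nat.cast_le.2 (Finset.card_le_card fun k hk => ?_)
    obtain ⟨hkZ, hkS⟩ := Finset.mem_filter.1 hk
    refine Finset.mem_filter.2 ⟨hkZ, ?_⟩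
    refine (g1 k₀ hk₀ k₁ hk₁Z k hkZ ?_).trans (hdn n ?_)
    · have e1 : S₁.filter (fun i => (i, k) ∈ (G n).I) =
          S.filter fun i => (i, k₁) ∈ (G n).I ∧ (i, k) ∈ (G n).I := by
        rw [hS₁, Finset.filter_filter]
      rw [e1] at hkS
      refine le_trans ?_ hkS
      calc B.d n ^ ((2 * C1 + 2) * ε) * (S.card : ℝ)
          = B.d n ^ ((C1 + 1) * ε) * (B.d n ^ ((C1 + 1) * ε) * (S.card : ℝ)) := by
            rw [← mul_assoc, ← rpow_add']; congr 2; ring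
        _ ≤ θ / 2 * (θ / 2 * (S.card : ℝ)) :=
            mul_le_mul hθ2 (mul_le_mul_of_nonneg_right hθ2 hS0.le)
              (mul_pos (hd n _) hS0).le (by positivity)
        _ ≤ θ / 2 * (S₁.card : ℝ) := mul_le_mul_of_nonneg_left hk₁S (by positivity)
    · have : (2 * e + C * ε) / s ≤ (2 * e + (C + 2 * C1 + 2) * ε) / s := by
        refine div_le_div_of_nonneg_right ?_ hs.le
        nlinarith
      linarith

open Classical in
/-- `α = 1`: `β` is one constant on a `ρ^(C ε)`-part of the heights -/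
theorem zero_rate_const (H : RUnif B G Leg ν D)
    (A : ZData B G Leg ν i0 Z P0 (fun _ _ _ => 1) β DR DV pS pT r Q x s e C1 C4)
    (hal : Alive B G i0 Z P0 pS C1) (hZ : ∀ᶠ n in (U : Filter ℕ), (Z n).Nonempty) :
    ∃ C : ℝ, 0 < C ∧ ∀ ε : ℝ, 0 < ε → 2 * e + C * ε ≤ s * x → ∀ᶠ n in (U : Filter ℕ),
      ∀ k₀ ∈ P0 n, ∃ k₁ ∈ Z n, B.d n ^ (C * ε) * ((Z n).card : ℝ) ≤
          (((Z n).filter fun k => |β n k₀ k - β n k₀ k₁| ≤
            B.d n ^ (x - (2 * e + C * ε) / s)).card : ℝ) := by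
  obtain ⟨C, hC, HC⟩ := zero_rate_pop H A hal
  refine ⟨C, hC, fun ε hε hsx => ?_⟩
  filter_upwards [HC ε hε hsx, hZ] with n g1 g2 k₀ hk₀
  obtain ⟨W, hWZ, hW, h⟩ := g1 k₀ hk₀
  have hW0 : (0 : ℝ) < W.card := lt_of_lt_of_le
    (mul_pos (rpos B n _) (by exact_mod_cast g2.card_pos)) hW
  obtain ⟨k₁, hk₁⟩ := Finset.card_pos.1 (by exact_mod_cast hW0 : 0 < W.card)
  refine ⟨k₁, hWZ hk₁, ?_⟩
  simpa only [one_mul] using h k₁ hk₁

open Classical in
/-- `α k = z k - z k₀`: `β` is one linear function of `z k - z k₀` -/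
theorem zero_rate_lin (H : RUnif B G Leg ν D) {z : ℕ → ℕ → ℝ} {σ : ℝ} (hσ : 0 < σ)
    (A : ZData B G Leg ν i0 Z P0 (fun n k₀ k => z n k - z n k₀) β DR DV pS pT r Q x s e C1 C4)
    (hal : Alive B G i0 Z P0 pS C1)
    (hβ : ∀ ε : ℝ, 0 < ε → ∀ᶠ n in (U : Filter ℕ), ∀ k₀ ∈ P0 n, ∀ k ∈ Z n,
      |β n k₀ k| ≤ B.d n ^ (-ε))
    (hfr : ∀ y : ℝ, 0 ≤ y → y ≤ x → ∀ ε : ℝ, 0 < ε → ∀ᶠ n in (U : Filter ℕ), ∀ k ∈ P0 n,
      ∀ T ⊆ Z n, (∀ k' ∈ T, |z n k' - z n k| ≤ B.d n ^ y) →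
      (T.card : ℝ) ≤ B.d n ^ (σ * y - ε) * ((Z n).card : ℝ))
    (hZ : ∀ᶠ n in (U : Filter ℕ), (Z n).Nonempty) :
    ∃ C : ℝ, 0 < C ∧ ∀ ε : ℝ, 0 < ε → 2 * e + C * ε ≤ s * x → ∀ᶠ n in (U : Filter ℕ),
      ∀ k₀ ∈ P0 n, ∃ μ : ℝ, |μ| ≤ B.d n ^ (-(C * ε)) ∧
        B.d n ^ (C * ε) * ((Z n).card : ℝ) ≤
          (((Z n).filter fun k => |β n k₀ k - μ * (z n k - z n k₀)| ≤
            B.d n ^ (x - (2 * e + C * ε) / s)).card : ℝ) := by
  have hs := A.s_pos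
  have hx := A.x_pos
  have he : 0 ≤ e := by
    have := H.nu_anti A.legT A.legr A.Tr
    linarith [A.lossF]
  obtain ⟨C, hC, HC⟩ := zero_rate_pop H A hal
  set C2 : ℝ := (C + 2) / σ with hC2
  have hC20 : 0 < C2 := by positivity
  refine ⟨C + s * C2 + C2 + 1, by positivity, fun ε hε hsx => ?_⟩
  have hd : ∀ n (u : ℝ), 0 < B.d n ^ u := fun n u => rpos B n u
  have hdn : ∀ n {u v : ℝ}, u ≤ v → B.d n ^ v ≤ B.d n ^ u := fun n {u v} h => rpow_anti B n h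
  have h1 : 0 < s * C2 * ε := by positivity
  have h2 : 0 < C2 * ε := by positivity
  have h3 : C2 * ε ≤ x := by
    have : s * (C2 * ε) ≤ s * x := by nlinarith
    exact le_of_mul_le_mul_left this hs
  have hσC : σ * (C2 * ε) = (C + 2) * ε := by rw [hC2]; field_simp
  filter_upwards [HC ε hε (by nlinarith), hZ, hfr (C2 * ε) h2.le h3 ε hε, hβ ε hε] with
    n g1 g2 g3 g4 k₀ hk₀
  obtain ⟨W, hWZ, hW, h⟩ := g1 k₀ hk₀
  have hZ0 : (0 : ℝ) < (Z n).card := by exact_mod_cast g2.card_pos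
  obtain ⟨k₁, hk₁, hk₁u⟩ : ∃ k₁ ∈ W, B.d n ^ (C2 * ε) < |z n k₁ - z n k₀| := by
    by_contra hc
    push Not at hc
    have := g3 k₀ hk₀ W hWZ hc
    rw [hσC] at this
    have h4 : B.d n ^ ((C + 2) * ε - ε) * ((Z n).card : ℝ) < B.d n ^ (C * ε) * ((Z n).card : ℝ) := by
      refine mul_lt_mul_of_pos_right ?_ hZ0
      exact Real.rpow_lt_rpow_of_exponent_gt (B.pos n) (B.lt n) (by nlinarith)
    linarith
  have hu0 : 0 < |z n k₁ - z n k₀| := (hd n _).trans hk₁u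
  have hune : z n k₁ - z n k₀ ≠ 0 := abs_pos.1 hu0
  refine ⟨β n k₀ k₁ / (z n k₁ - z n k₀), ?_, ?_⟩
  · rw [abs_div, div_le_iff₀ hu0]
    calc |β n k₀ k₁| ≤ B.d n ^ (-ε) := g4 k₀ hk₀ k₁ (hWZ hk₁)
      _ = B.d n ^ (-((C2 + 1) * ε)) * B.d n ^ (C2 * ε) := by rw [← rpow_add']; congr 1; ring
      _ ≤ B.d n ^ (-((C + s * C2 + C2 + 1) * ε)) * |z n k₁ - z n k₀| :=
          mul_le_mul (hdn n (by nlinarith)) hk₁u.le (hd n _).le (hd n _).le
  · refine le_trans ?_ ((h k₁ hk₁).trans ?_)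
    · refine mul_le_mul_of_nonneg_right (hdn n ?_) hZ0.le
      nlinarith
    · refine Nat.cast_le.2 (Finset.card_le_card fun k hk => ?_)
      obtain ⟨hkZ, hkS⟩ := Finset.mem_filter.1 hk
      refine Finset.mem_filter.2 ⟨hkZ, ?_⟩
      have e1 : β n k₀ k - β n k₀ k₁ / (z n k₁ - z n k₀) * (z n k - z n k₀) =
          ((z n k₁ - z n k₀) * β n k₀ k - (z n k - z n k₀) * β n k₀ k₁) /
            (z n k₁ - z n k₀) := by
        field_simp
      rw [e1, abs_div, div_le_iff₀ hu0]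
      refine hkS.trans ?_
      calc B.d n ^ (x - (2 * e + C * ε) / s)
          = B.d n ^ (x - (2 * e + C * ε) / s - C2 * ε) * B.d n ^ (C2 * ε) := by
            rw [← rpow_add']; congr 1; ring
        _ ≤ B.d n ^ (x - (2 * e + (C + s * C2 + C2 + 1) * ε) / s) * |z n k₁ - z n k₀| := by
            refine mul_le_mul (hdn n ?_) hk₁u.le (hd n _).le (hd n _).le
            have e2 : (2 * e + (C + s * C2 + C2 + 1) * ε) / s =
                (2 * e + C * ε) / s + C2 * ε + (C2 + 1) * ε / s := by field_simp; ring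
            have e3 : 0 ≤ (C2 + 1) * ε / s := by positivity
            rw [e2]
            linarith

end

end Crest.Agent.R136.Zr1_501
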